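import Mathlib

/-! P211 / HK, part AN1 (helper527): spectral theorem for compact positive injective operators. -/

namespace Vale.Agent.P211.HK

open Filter Topology Set Module
open scoped RealInnerProductSpace

theorem exists_hilbertBasis_of_compact {H : Type} [NormedAddCommGroup H] [InnerProductSpace ℝ H]
    [CompleteSpace H] (G : H →L[ℝ] H) (hc : IsCompactOperator G)
    (hs : ∀ x y, ⟪G x, y⟫ = ⟪x, G y⟫) (hinj : ∀ x, G x = 0 → x = 0)
    (hpos : ∀ x, 0 ≤ ⟪G x, x⟫) :
    ∃ (κ : Type) (b : HilbertBasis κ ℝ H) (k : κ → ℝ), (∀ i, 0 < k i) ∧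
      (∀ i, G (b i) = k i • b i) ∧ ∀ δ : ℝ, 0 < δ → {i | δ ≤ k i}.Finite := by
  have hsym : (G : H →ₗ[ℝ] H).IsSymmetric := fun x y => hs x y
  have hV := hsym.orthogonalFamily_eigenspaces
  have htop := ContinuousLinearMap.orthogonalComplement_iSup_eigenspaces_eq_bot hc hsym
  have hcl : ∀ μ : ℝ, IsClosed ((End.eigenspace (G : End ℝ H) μ : Submodule ℝ H) : Set H) := by
    intro μ
    have h1 : ((End.eigenspace (G : End ℝ H) μ : Submodule ℝ H) : Set H) =
        {x | G x = μ • x} := by
      ext x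
      simp
    rw [h1]
    exact isClosed_eq G.continuous (continuous_const_smul μ)
  have hcomp : ∀ μ : ℝ, CompleteSpace (End.eigenspace (G : End ℝ H) μ) :=
    fun μ => (hcl μ).completeSpace_coe
  choose w b hb using fun μ : ℝ => exists_hilbertBasis ℝ (End.eigenspace (G : End ℝ H) μ)
  have hon := hV.orthonormal_sigma_orthonormal (fun μ => (b μ).orthonormal)
  set v : (Σ μ : ℝ, w μ) → H := fun a => ((b a.1 a.2 : End.eigenspace (G : End ℝ H) a.1) : H)
    with hv
  have hon' : Orthonormal ℝ v := hon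
  have hbot : (Submodule.span ℝ (Set.range v))ᗮ = ⊥ := by
    rw [Submodule.eq_bot_iff]
    intro x hx
    have h2 : ∀ μ : ℝ, ∀ y ∈ End.eigenspace (G : End ℝ H) μ, ⟪x, y⟫ = 0 := by
      intro μ y hy
      have h3 : (innerSL ℝ x).comp (End.eigenspace (G : End ℝ H) μ).subtypeL = 0 := by
        refine ContinuousLinearMap.ext_on (s := Set.range (b μ)) ?_ ?_
        · rw [dense_iff_closure_eq, ← Submodule.topologicalClosure_coe, (b μ).dense_span,
            Submodule.top_coe]
        · rintro _ ⟨i, rfl⟩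
          have h4 := (Submodule.mem_orthogonal' _ _).1 hx (v ⟨μ, i⟩)
            (Submodule.subset_span ⟨_, rfl⟩)
          simpa [hv] using h4
      have h5 := congrArg (fun T => T (⟨y, hy⟩ : End.eigenspace (G : End ℝ H) μ)) h3
      simpa using h5
    have h6 : x ∈ (⨆ μ, End.eigenspace (G : End ℝ H) μ)ᗮ := by
      rw [Submodule.mem_orthogonal']
      intro u hu
      refine Submodule.iSup_induction _ (motive := fun u => ⟪x, u⟫ = 0) hu (fun μ y hy => h2 μ y hy)
        (inner_zero_right x) ?_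
      intro y z hy hz
      rw [inner_add_right, hy, hz, add_zero]
    rw [htop] at h6
    exact (Submodule.mem_bot ℝ).1 h6
  let B : HilbertBasis (Σ μ : ℝ, w μ) ℝ H := HilbertBasis.mkOfOrthogonalEqBot hon' hbot
  have hB : ∀ a, B a = v a := fun a => by
    simp [B]
  have heig : ∀ a, G (B a) = a.1 • B a := by
    intro a
    rw [hB]
    exact End.mem_eigenspace_iff.1 (b a.1 a.2).2
  have hkp : ∀ a : (Σ μ : ℝ, w μ), 0 < a.1 := by
    intro a
    have h1 : ‖B a‖ = 1 := B.orthonormal.1 a
    have h2 := hpos (B a)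
    rw [heig, real_inner_smul_left, real_inner_self_eq_norm_sq, h1] at h2
    have h3 : 0 ≤ a.1 := by simpa using h2
    refine lt_of_le_of_ne h3 fun h4 => ?_
    have h5 : G (B a) = 0 := by rw [heig, ← h4, zero_smul]
    have h6 := hinj _ h5
    rw [h6, norm_zero] at h1
    exact zero_ne_one h1
  refine ⟨_, B, fun a => a.1, hkp, heig, ?_⟩
  intro δ hδ
  have hK : IsCompact (closure (G '' Metric.closedBall 0 1)) :=
    hc.isCompact_closure_image_closedBall 1
  obtain ⟨t, ht, hcov⟩ := Metric.totallyBounded_iff.1 hK.totallyBounded (δ / 2) (by positivity)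
  have hmem : ∀ a, ∃ y ∈ t, G (B a) ∈ Metric.ball y (δ / 2) := by
    intro a
    have h1 : G (B a) ∈ closure (G '' Metric.closedBall 0 1) := by
      apply subset_closure
      refine ⟨B a, ?_, rfl⟩
      simp [B.orthonormal.1 a]
    simpa using hcov h1
  choose f hf hfb using hmem
  refine Set.Finite.of_injOn (f := f) (fun a _ => hf a) ?_ ht
  intro a ha a' ha' haa
  by_contra hne
  have h1 : dist (G (B a)) (G (B a')) < δ := by
    have e1 := Metric.mem_ball.1 (hfb a)
    have e2 := Metric.mem_ball.1 (hfb a')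
    rw [← haa] at e2
    calc dist (G (B a)) (G (B a')) ≤ dist (G (B a)) (f a) + dist (G (B a')) (f a) :=
          dist_triangle_right _ _ _
      _ < δ := by linarith
  have h2 : ‖G (B a) - G (B a')‖ ^ 2 = a.1 ^ 2 + a'.1 ^ 2 := by
    rw [heig, heig, @norm_sub_sq_real, norm_smul, norm_smul, B.orthonormal.1 a, B.orthonormal.1 a',
      real_inner_smul_left, inner_smul_right, B.orthonormal.2 hne]
    simp
  rw [dist_eq_norm] at h1
  have ha1 : δ ≤ a.1 := ha
  have h3 : ‖G (B a) - G (B a')‖ ^ 2 < δ ^ 2 := by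
    have := norm_nonneg (G (B a) - G (B a'))
    nlinarith
  have h4 : δ ^ 2 ≤ a.1 ^ 2 := by nlinarith
  nlinarith [sq_nonneg a'.1]

end Vale.Agent.P211.HK
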