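import Vale.Agent.P211.HK.ANDefs

/-! P211 / HK, part AN5 (helper456): Hilbert-Schmidt toolbox. -/

namespace Vale.Agent.P211.HK

open Filter Topology MeasureTheory Set
open scoped RealInnerProductSpace

noncomputable section

section hsSq

variable {H H' H'' H₀ κ κ' κ₁ κ₀ : Type*} [NormedAddCommGroup H] [InnerProductSpace ℝ H]
  [NormedAddCommGroup H'] [InnerProductSpace ℝ H']
  [NormedAddCommGroup H''] [InnerProductSpace ℝ H'']
  [NormedAddCommGroup H₀] [InnerProductSpace ℝ H₀]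

/-- Parseval's identity. -/
theorem hasSum_sq_inner (b : HilbertBasis κ ℝ H) (x : H) :
    HasSum (fun i => ⟪b i, x⟫ ^ 2) (‖x‖ ^ 2) := by
  have h := b.hasSum_inner_mul_inner x x
  rw [real_inner_self_eq_norm_sq] at h
  have e : (fun i => ⟪x, b i⟫ * ⟪b i, x⟫) = fun i => ⟪b i, x⟫ ^ 2 := by
    funext i
    rw [real_inner_comm x (b i), sq]
  rwa [e] at h

theorem ofReal_norm_sq (b : HilbertBasis κ ℝ H) (x : H) :
    ENNReal.ofReal (‖x‖ ^ 2) = ∑' i, ENNReal.ofReal (⟪b i, x⟫ ^ 2) := by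
  rw [← (hasSum_sq_inner b x).tsum_eq, ENNReal.ofReal_tsum_of_nonneg (fun i => sq_nonneg _)
    (hasSum_sq_inner b x).summable]

/-- The Hilbert-Schmidt norm of the adjoint. -/
theorem hsSq_adjoint [CompleteSpace H] [CompleteSpace H'] (b : HilbertBasis κ ℝ H)
    (b' : HilbertBasis κ' ℝ H') (A : H →L[ℝ] H') :
    hsSq b A = hsSq b' (ContinuousLinearMap.adjoint A) := by
  unfold hsSq
  calc ∑' i, ENNReal.ofReal (‖A (b i)‖ ^ 2)
      = ∑' i, ∑' j, ENNReal.ofReal (⟪b' j, A (b i)⟫ ^ 2) :=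
        tsum_congr fun i => ofReal_norm_sq b' _
    _ = ∑' j, ∑' i, ENNReal.ofReal (⟪b' j, A (b i)⟫ ^ 2) := ENNReal.tsum_comm
    _ = ∑' j, ENNReal.ofReal (‖ContinuousLinearMap.adjoint A (b' j)‖ ^ 2) := by
        refine tsum_congr fun j => ?_
        rw [ofReal_norm_sq b]
        refine tsum_congr fun i => ?_
        rw [ContinuousLinearMap.adjoint_inner_right, real_inner_comm]

/-- The Hilbert-Schmidt norm does not depend on the basis. -/
theorem hsSq_basis [CompleteSpace H] [CompleteSpace H'] (b : HilbertBasis κ ℝ H)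
    (b₁ : HilbertBasis κ₁ ℝ H) (A : H →L[ℝ] H') : hsSq b A = hsSq b₁ A := by
  obtain ⟨w, b', -⟩ := exists_hilbertBasis ℝ H'
  rw [hsSq_adjoint b b', hsSq_adjoint b₁ b']

theorem hsSq_comp_le (b : HilbertBasis κ ℝ H) (B : H' →L[ℝ] H'') (A : H →L[ℝ] H') :
    hsSq b (B ∘L A) ≤ ENNReal.ofReal (‖B‖ ^ 2) * hsSq b A := by
  unfold hsSq
  rw [← ENNReal.tsum_mul_left]
  refine ENNReal.tsum_le_tsum fun i => ?_
  rw [← ENNReal.ofReal_mul (sq_nonneg _), ← mul_pow]
  refine ENNReal.ofReal_le_ofReal ?_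
  have h : ‖(B ∘L A) (b i)‖ ≤ ‖B‖ * ‖A (b i)‖ := B.le_opNorm _
  exact pow_le_pow_left₀ (norm_nonneg _) h 2

theorem hsSq_comp_right_le [CompleteSpace H] [CompleteSpace H'] [CompleteSpace H₀]
    (b : HilbertBasis κ ℝ H) (b₀ : HilbertBasis κ₀ ℝ H₀) (A : H →L[ℝ] H') (B : H₀ →L[ℝ] H) :
    hsSq b₀ (A ∘L B) ≤ ENNReal.ofReal (‖B‖ ^ 2) * hsSq b A := by
  obtain ⟨w, b', -⟩ := exists_hilbertBasis ℝ H'
  rw [hsSq_adjoint b₀ b', hsSq_adjoint b b', ContinuousLinearMap.adjoint_comp]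
  refine (hsSq_comp_le b' _ _).trans (le_of_eq ?_)
  rw [LinearIsometryEquiv.norm_map]

/-- `‖A x‖² ≤ ‖x‖² ‖A‖²_HS`. -/
theorem ofReal_norm_sq_le [CompleteSpace H] [CompleteSpace H'] (b : HilbertBasis κ ℝ H)
    (A : H →L[ℝ] H') (x : H) :
    ENNReal.ofReal (‖A x‖ ^ 2) ≤ ENNReal.ofReal (‖x‖ ^ 2) * hsSq b A := by
  obtain ⟨w, b', -⟩ := exists_hilbertBasis ℝ H'
  rw [hsSq_adjoint b b', ofReal_norm_sq b', hsSq, ← ENNReal.tsum_mul_left]
  refine ENNReal.tsum_le_tsum fun j => ?_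
  rw [← ENNReal.ofReal_mul (sq_nonneg _)]
  refine ENNReal.ofReal_le_ofReal ?_
  rw [← ContinuousLinearMap.adjoint_inner_left, ← mul_pow, ← sq_abs]
  refine pow_le_pow_left₀ (abs_nonneg _) ?_ 2
  rw [mul_comm]
  exact abs_real_inner_le_norm _ _

theorem hsSq_neg (b : HilbertBasis κ ℝ H) (A : H →L[ℝ] H') : hsSq b (-A) = hsSq b A := by
  simp [hsSq]

theorem hsSq_smul (b : HilbertBasis κ ℝ H) (r : ℝ) (A : H →L[ℝ] H') :
    hsSq b (r • A) = ENNReal.ofReal (r ^ 2) * hsSq b A := by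
  simp only [hsSq, smul_apply, norm_smul, mul_pow, Real.norm_eq_abs, sq_abs]
  rw [← ENNReal.tsum_mul_left]
  exact tsum_congr fun i => ENNReal.ofReal_mul (sq_nonneg _)

theorem hsSq_le_iff (b : HilbertBasis κ ℝ H) (A : H →L[ℝ] H') (c : ℝ) :
    hsSq b A ≤ ENNReal.ofReal (c ^ 2) ↔ ∀ s : Finset κ, ∑ i ∈ s, ‖A (b i)‖ ^ 2 ≤ c ^ 2 := by
  unfold hsSq
  rw [ENNReal.tsum_eq_iSup_sum, iSup_le_iff]
  refine forall_congr' fun s => ?_
  rw [← ENNReal.ofReal_sum_of_nonneg (fun i _ => sq_nonneg _),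
    ENNReal.ofReal_le_ofReal_iff (sq_nonneg c)]

end hsSq

/-- the values of `A` on finitely many vectors -/
def vec {H H' κ : Type*} [NormedAddCommGroup H] [InnerProductSpace ℝ H]
    [NormedAddCommGroup H'] [InnerProductSpace ℝ H'] (b : κ → H) (s : Finset κ)
    (A : H →L[ℝ] H') : PiLp 2 (fun _ : s => H') :=
  WithLp.toLp 2 fun i => A (b i)

theorem norm_vec_sq {H H' κ : Type*} [NormedAddCommGroup H] [InnerProductSpace ℝ H]
    [NormedAddCommGroup H'] [InnerProductSpace ℝ H'] (b : κ → H) (s : Finset κ)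
    (A : H →L[ℝ] H') : ‖vec b s A‖ ^ 2 = ∑ i ∈ s, ‖A (b i)‖ ^ 2 := by
  rw [PiLp.norm_eq_of_L2, Real.sq_sqrt (Finset.sum_nonneg fun i _ => sq_nonneg _)]
  exact Finset.sum_coe_sort s fun i => ‖A (b i)‖ ^ 2

section HSLe

variable {H H' H'' H₀ : Type} [NormedAddCommGroup H] [InnerProductSpace ℝ H]
  [NormedAddCommGroup H'] [InnerProductSpace ℝ H']
  [NormedAddCommGroup H''] [InnerProductSpace ℝ H'']
  [NormedAddCommGroup H₀] [InnerProductSpace ℝ H₀]
  {κ : Type}

theorem HSLe.nonneg {A : H →L[ℝ] H'} {c : ℝ} (h : HSLe A c) : 0 ≤ c := h.1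

theorem HSLe.sum_le {A : H →L[ℝ] H'} {c : ℝ} (h : HSLe A c) (b : HilbertBasis κ ℝ H)
    (s : Finset κ) : ∑ i ∈ s, ‖A (b i)‖ ^ 2 ≤ c ^ 2 :=
  (hsSq_le_iff b A c).1 (h.2 κ b) s

theorem HSLe.norm_vec_le {A : H →L[ℝ] H'} {c : ℝ} (h : HSLe A c) (b : HilbertBasis κ ℝ H)
    (s : Finset κ) : ‖vec b s A‖ ≤ c := by
  refine (sq_le_sq₀ (norm_nonneg _) h.1).1 ?_
  rw [norm_vec_sq]
  exact h.sum_le b s

theorem HSLe.summable {A : H →L[ℝ] H'} {c : ℝ} (h : HSLe A c) (b : HilbertBasis κ ℝ H) :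
    Summable fun i => ‖A (b i)‖ ^ 2 :=
  summable_of_sum_le (fun _ => sq_nonneg _) (h.sum_le b)

theorem HSLe.tsum_le {A : H →L[ℝ] H'} {c : ℝ} (h : HSLe A c) (b : HilbertBasis κ ℝ H) :
    ∑' i, ‖A (b i)‖ ^ 2 ≤ c ^ 2 :=
  (h.summable b).tsum_le_of_sum_le (h.sum_le b)

section complete

variable [CompleteSpace H] [CompleteSpace H']

theorem HSLe.of_basis {A : H →L[ℝ] H'} {c : ℝ} (b : HilbertBasis κ ℝ H) (hc : 0 ≤ c)
    (h : hsSq b A ≤ ENNReal.ofReal (c ^ 2)) : HSLe A c :=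
  ⟨hc, fun _ b' => (hsSq_basis b' b A).trans_le h⟩

theorem HSLe.of_finset {A : H →L[ℝ] H'} {c : ℝ} (b : HilbertBasis κ ℝ H) (hc : 0 ≤ c)
    (h : ∀ s : Finset κ, ∑ i ∈ s, ‖A (b i)‖ ^ 2 ≤ c ^ 2) : HSLe A c :=
  .of_basis b hc ((hsSq_le_iff b A c).2 h)

theorem HSLe.of_norm_vec {A : H →L[ℝ] H'} {c : ℝ} (b : HilbertBasis κ ℝ H) (hc : 0 ≤ c)
    (h : ∀ s : Finset κ, ‖vec b s A‖ ≤ c) : HSLe A c := by
  refine .of_finset b hc fun s => ?_
  rw [← norm_vec_sq]
  exact pow_le_pow_left₀ (norm_nonneg _) (h s) 2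

omit [CompleteSpace H] [CompleteSpace H'] in
theorem vec_add (b : κ → H) (s : Finset κ) (A B : H →L[ℝ] H') :
    vec b s (A + B) = vec b s A + vec b s B := rfl

omit [CompleteSpace H] [CompleteSpace H'] in
theorem HSLe.mono {A : H →L[ℝ] H'} {c c' : ℝ} (h : HSLe A c) (hc : c ≤ c') : HSLe A c' :=
  ⟨h.1.trans hc, fun κ b => (h.2 κ b).trans
    (ENNReal.ofReal_le_ofReal (pow_le_pow_left₀ h.1 hc 2))⟩

omit [CompleteSpace H] [CompleteSpace H'] in
theorem HSLe_zero : HSLe (0 : H →L[ℝ] H') 0 :=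
  ⟨le_rfl, fun κ b => by simp [hsSq]⟩

omit [CompleteSpace H] [CompleteSpace H'] in
theorem HSLe.neg {A : H →L[ℝ] H'} {c : ℝ} (h : HSLe A c) : HSLe (-A) c :=
  ⟨h.1, fun κ b => (hsSq_neg b A).trans_le (h.2 κ b)⟩

omit [CompleteSpace H] [CompleteSpace H'] in
theorem HSLe.smul {A : H →L[ℝ] H'} {c : ℝ} (r : ℝ) (h : HSLe A c) : HSLe (r • A) (|r| * c) := by
  refine ⟨mul_nonneg (abs_nonneg r) h.1, fun κ b => ?_⟩
  rw [hsSq_smul, mul_pow, sq_abs, ENNReal.ofReal_mul (sq_nonneg r)]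
  exact mul_le_mul_right (h.2 κ b) _

theorem HSLe.add {A B : H →L[ℝ] H'} {c c' : ℝ} (h : HSLe A c) (h' : HSLe B c') :
    HSLe (A + B) (c + c') := by
  obtain ⟨w, b, -⟩ := exists_hilbertBasis ℝ H
  refine .of_norm_vec b (add_nonneg h.1 h'.1) fun s => ?_
  rw [vec_add]
  exact (norm_add_le _ _).trans (add_le_add (h.norm_vec_le b s) (h'.norm_vec_le b s))

theorem HSLe.sub {A B : H →L[ℝ] H'} {c c' : ℝ} (h : HSLe A c) (h' : HSLe B c') :
    HSLe (A - B) (c + c') := by
  rw [sub_eq_add_neg]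
  exact h.add h'.neg

theorem HSLe.sum {ι : Type*} {A : ι → H →L[ℝ] H'} {c : ι → ℝ} (S : Finset ι)
    (h : ∀ i ∈ S, HSLe (A i) (c i)) : HSLe (∑ i ∈ S, A i) (∑ i ∈ S, c i) := by
  classical
  induction S using Finset.induction_on with
  | empty => simpa using HSLe_zero
  | insert i S hi ih =>
    rw [Finset.sum_insert hi, Finset.sum_insert hi]
    exact (h i (Finset.mem_insert_self i S)).add
      (ih fun j hj => h j (Finset.mem_insert_of_mem hj))

theorem HSLe.adjoint {A : H →L[ℝ] H'} {c : ℝ} (h : HSLe A c) :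
    HSLe (ContinuousLinearMap.adjoint A) c := by
  obtain ⟨w, b, -⟩ := exists_hilbertBasis ℝ H
  obtain ⟨w', b', -⟩ := exists_hilbertBasis ℝ H'
  refine .of_basis b' h.1 ?_
  rw [← hsSq_adjoint b b']
  exact h.2 _ b

theorem HSLe.of_adjoint {A : H →L[ℝ] H'} {c : ℝ} (h : HSLe (ContinuousLinearMap.adjoint A) c) :
    HSLe A c := by
  rw [← ContinuousLinearMap.adjoint_adjoint A]
  exact h.adjoint

omit [CompleteSpace H] [CompleteSpace H'] in
theorem HSLe.comp_left {A : H →L[ℝ] H'} {c : ℝ} (B : H' →L[ℝ] H'') (h : HSLe A c) :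
    HSLe (B ∘L A) (‖B‖ * c) := by
  refine ⟨mul_nonneg (norm_nonneg B) h.1, fun κ b => (hsSq_comp_le b B A).trans ?_⟩
  rw [mul_pow, ENNReal.ofReal_mul (sq_nonneg _)]
  exact mul_le_mul_right (h.2 κ b) _

theorem HSLe.comp_right [CompleteSpace H₀] {A : H →L[ℝ] H'} {c : ℝ} (h : HSLe A c)
    (B : H₀ →L[ℝ] H) : HSLe (A ∘L B) (c * ‖B‖) := by
  obtain ⟨w, b, -⟩ := exists_hilbertBasis ℝ H
  refine ⟨mul_nonneg h.1 (norm_nonneg B), fun κ b₀ => (hsSq_comp_right_le b b₀ A B).trans ?_⟩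
  rw [mul_comm c, mul_pow, ENNReal.ofReal_mul (sq_nonneg _)]
  exact mul_le_mul_right (h.2 _ b) _

theorem HSLe.norm_apply_le {A : H →L[ℝ] H'} {c : ℝ} (h : HSLe A c) (x : H) :
    ‖A x‖ ≤ c * ‖x‖ := by
  obtain ⟨w, b, -⟩ := exists_hilbertBasis ℝ H
  refine (sq_le_sq₀ (norm_nonneg _) (mul_nonneg h.1 (norm_nonneg _))).1 ?_
  rw [mul_comm, mul_pow]
  refine (ENNReal.ofReal_le_ofReal_iff (mul_nonneg (sq_nonneg _) (sq_nonneg _))).1 ?_
  refine (ofReal_norm_sq_le b A x).trans ?_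
  rw [ENNReal.ofReal_mul (sq_nonneg _)]
  exact mul_le_mul_right (h.2 _ b) _

theorem HSLe.opNorm_le {A : H →L[ℝ] H'} {c : ℝ} (h : HSLe A c) : ‖A‖ ≤ c :=
  A.opNorm_le_bound h.1 h.norm_apply_le

/-- Minkowski's inequality for integrals of Hilbert-Schmidt operators. -/
theorem HSLe.setIntegral {X : Type*} [MeasurableSpace X] {μ : Measure X}
    {A : X → H →L[ℝ] H'} {c : X → ℝ} (hA : ∀ᵐ x ∂μ, HSLe (A x) (c x)) (hc : Integrable c μ)
    (T : H →L[ℝ] H') (hi : ∀ w, Integrable (fun x => A x w) μ) (hT : ∀ w, T w = ∫ x, A x w ∂μ) :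
    HSLe T (∫ x, c x ∂μ) := by
  obtain ⟨w, b, -⟩ := exists_hilbertBasis ℝ H
  refine .of_norm_vec b (integral_nonneg_of_ae (hA.mono fun x hx => hx.1)) fun s => ?_
  have hv : ∀ i : s, Integrable (fun x => vec b s (A x) i) μ := fun i => hi (b i)
  have e : vec b s T = ∫ x, vec b s (A x) ∂μ := by
    refine PiLp.ext fun i => ?_
    rw [eval_integral_piLp hv i]
    exact hT _
  rw [e]
  refine (norm_integral_le_integral_norm _).trans ?_
  refine integral_mono_ae (Integrable.of_eval_piLp hv).norm hc ?_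
  exact hA.mono fun x hx => hx.norm_vec_le b s

theorem HSLe.integral {A : ℝ → H →L[ℝ] H'} {c : ℝ → ℝ} {a b : ℝ} (hab : a ≤ b)
    (hA : ∀ s ∈ Ioc a b, HSLe (A s) (c s)) (hc : IntervalIntegrable c volume a b)
    (T : H →L[ℝ] H') (hT : ∀ w, IntervalIntegrable (fun s => A s w) volume a b ∧
      T w = ∫ s in a..b, A s w) : HSLe T (∫ s in a..b, c s) := by
  rw [intervalIntegral.integral_of_le hab]
  refine .setIntegral (μ := volume.restrict (Ioc a b)) (A := A) ?_ ?_ T (fun w => ?_) (fun w => ?_)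
  · exact (ae_restrict_iff' measurableSet_Ioc).2 (Eventually.of_forall hA)
  · exact (intervalIntegrable_iff_integrableOn_Ioc_of_le hab).1 hc
  · exact (intervalIntegrable_iff_integrableOn_Ioc_of_le hab).1 (hT w).1
  · rw [(hT w).2, intervalIntegral.integral_of_le hab]

end complete

end HSLe

section trunc

variable {H H' κ : Type*} [NormedAddCommGroup H] [InnerProductSpace ℝ H]
  [NormedAddCommGroup H'] [InnerProductSpace ℝ H']

/-- The composition of `A` with the orthogonal projection on the span of finitely many basis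
vectors. -/
def trunc (b : HilbertBasis κ ℝ H) (s : Finset κ) (A : H →L[ℝ] H') : H →L[ℝ] H' :=
  ∑ i ∈ s, (innerSL ℝ (b i)).smulRight (A (b i))

theorem trunc_apply (b : HilbertBasis κ ℝ H) (s : Finset κ) (A : H →L[ℝ] H') (x : H) :
    trunc b s A x = ∑ i ∈ s, ⟪b i, x⟫ • A (b i) := by
  simp [trunc]

theorem isCompactOperator_smulRight (f : H →L[ℝ] ℝ) (y : H') :
    IsCompactOperator (f.smulRight y) := by
  have h : IsCompactOperator ((ContinuousLinearMap.toSpanSingleton ℝ y) ∘ f) :=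
    (isCompactOperator_of_locallyCompactSpace_rng
      (ContinuousLinearMap.toSpanSingleton ℝ y)).comp_clm f
  exact h

theorem isCompactOperator_sum {ι : Type*} {M N : Type*} [TopologicalSpace M] [AddCommMonoid M]
    [Module ℝ M] [TopologicalSpace N] [AddCommGroup N] [Module ℝ N] [IsTopologicalAddGroup N]
    {F : ι → M →L[ℝ] N} (S : Finset ι) (h : ∀ i ∈ S, IsCompactOperator (F i)) :
    IsCompactOperator (∑ i ∈ S, F i : M →L[ℝ] N) := by
  classical
  induction S using Finset.induction_on with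
  | empty => simpa using isCompactOperator_zero
  | insert i S hi ih =>
    rw [Finset.sum_insert hi]
    exact (h i (Finset.mem_insert_self i S)).add
      (ih fun j hj => h j (Finset.mem_insert_of_mem hj))

theorem isCompactOperator_trunc (b : HilbertBasis κ ℝ H) (s : Finset κ) (A : H →L[ℝ] H') :
    IsCompactOperator (trunc b s A) :=
  isCompactOperator_sum s fun _ _ => isCompactOperator_smulRight _ _

open Classical in
theorem trunc_basis (b : HilbertBasis κ ℝ H) (s : Finset κ) (A : H →L[ℝ] H') (i : κ) :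
    trunc b s A (b i) = if i ∈ s then A (b i) else 0 := by
  rw [trunc_apply]
  simp only [orthonormal_iff_ite.1 b.orthonormal, ite_smul, one_smul, zero_smul]
  by_cases hi : i ∈ s
  · rw [if_pos hi, Finset.sum_eq_single i (fun j _ hj => if_neg hj) (fun h => absurd hi h),
      if_pos rfl]
  · rw [if_neg hi]
    exact Finset.sum_eq_zero fun j hj => if_neg fun h : j = i => hi (h ▸ hj)

theorem hsSq_sub_trunc (b : HilbertBasis κ ℝ H) (s : Finset κ) (A : H →L[ℝ] H') :
    hsSq b (A - trunc b s A) = ∑' i : {i // i ∉ s}, ENNReal.ofReal (‖A (b i)‖ ^ 2) := by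
  classical
  have h := tsum_subtype {i | i ∉ s} fun i => ENNReal.ofReal (‖A (b i)‖ ^ 2)
  refine Eq.trans ?_ h.symm
  refine tsum_congr fun i => ?_
  rw [sub_apply, trunc_basis]
  by_cases hi : i ∈ s
  · simp [hi]
  · simp [hi]

theorem tendsto_hsSq_sub_trunc (b : HilbertBasis κ ℝ H) (A : H →L[ℝ] H') (h : hsSq b A ≠ ⊤) :
    Tendsto (fun s => hsSq b (A - trunc b s A)) atTop (𝓝 0) := by
  simp_rw [hsSq_sub_trunc]
  exact ENNReal.tendsto_tsum_compl_atTop_zero h

theorem norm_trunc_le (b : HilbertBasis κ ℝ H) (s : Finset κ) (A : H →L[ℝ] H') :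
    ‖trunc b s A‖ ≤ ‖A‖ := by
  refine ContinuousLinearMap.opNorm_le_bound _ (norm_nonneg A) fun x => ?_
  have e : trunc b s A x = A (∑ i ∈ s, ⟪b i, x⟫ • b i) := by
    rw [trunc_apply, map_sum]
    exact Finset.sum_congr rfl fun i _ => by rw [map_smul]
  rw [e]
  refine (A.le_opNorm _).trans (mul_le_mul_of_nonneg_left ?_ (norm_nonneg A))
  refine (sq_le_sq₀ (norm_nonneg _) (norm_nonneg _)).1 ?_
  rw [← real_inner_self_eq_norm_sq, b.orthonormal.inner_sum]
  refine le_trans (le_of_eq ?_) (b.orthonormal.sum_inner_products_le x (s := s))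
  refine Finset.sum_congr rfl fun i _ => ?_
  rw [Real.norm_eq_abs, sq_abs, sq]
  rfl

theorem norm_sub_trunc_le (b : HilbertBasis κ ℝ H) (s : Finset κ) (A : H →L[ℝ] H') :
    ‖A - trunc b s A‖ ≤ 2 * ‖A‖ := by
  have h := norm_trunc_le b s A
  have h' := norm_sub_le A (trunc b s A)
  linarith

variable [CompleteSpace H] [CompleteSpace H']

theorem norm_apply_le_sqrt (b : HilbertBasis κ ℝ H) (A : H →L[ℝ] H') (h : hsSq b A ≠ ⊤) (x : H) :
    ‖A x‖ ≤ √(hsSq b A).toReal * ‖x‖ := by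
  have h1 := ENNReal.toReal_mono (ENNReal.mul_ne_top ENNReal.ofReal_ne_top h)
    (ofReal_norm_sq_le b A x)
  rw [ENNReal.toReal_mul, ENNReal.toReal_ofReal (sq_nonneg _),
    ENNReal.toReal_ofReal (sq_nonneg _)] at h1
  refine (sq_le_sq₀ (norm_nonneg _) (mul_nonneg (Real.sqrt_nonneg _) (norm_nonneg _))).1 ?_
  rw [mul_pow, Real.sq_sqrt ENNReal.toReal_nonneg]
  linarith

theorem opNorm_le_sqrt (b : HilbertBasis κ ℝ H) (A : H →L[ℝ] H') (h : hsSq b A ≠ ⊤) :
    ‖A‖ ≤ √(hsSq b A).toReal :=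
  A.opNorm_le_bound (Real.sqrt_nonneg _) (norm_apply_le_sqrt b A h)

omit [CompleteSpace H] [CompleteSpace H'] in
theorem hsSq_sub_trunc_ne_top (b : HilbertBasis κ ℝ H) (s : Finset κ) (A : H →L[ℝ] H')
    (h : hsSq b A ≠ ⊤) : hsSq b (A - trunc b s A) ≠ ⊤ := by
  rw [hsSq_sub_trunc]
  refine ne_top_of_le_ne_top h ?_
  exact ENNReal.tsum_comp_le_tsum_of_injective Subtype.val_injective
    fun i => ENNReal.ofReal (‖A (b i)‖ ^ 2)

/-- Hilbert-Schmidt operators are compact. -/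
theorem isCompactOperator_of_hsSq (b : HilbertBasis κ ℝ H) (A : H →L[ℝ] H')
    (h : hsSq b A ≠ ⊤) : IsCompactOperator A := by
  refine isCompactOperator_of_tendsto (l := atTop) (F := fun s => trunc b s A) ?_
    (Eventually.of_forall fun s => isCompactOperator_trunc b s A)
  rw [tendsto_iff_norm_sub_tendsto_zero]
  have h1 : Tendsto (fun s => √(hsSq b (A - trunc b s A)).toReal) atTop (𝓝 0) := by
    have h2 := (ENNReal.tendsto_toReal ENNReal.zero_ne_top).comp (tendsto_hsSq_sub_trunc b A h)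
    have h3 := (Real.continuous_sqrt.tendsto _).comp h2
    rw [ENNReal.toReal_zero, Real.sqrt_zero] at h3
    exact h3
  refine squeeze_zero (fun s => norm_nonneg _) (fun s => ?_) h1
  rw [norm_sub_rev]
  exact opNorm_le_sqrt b _ (hsSq_sub_trunc_ne_top b s A h)

/-- Integrals of Hilbert-Schmidt operators, the operator norm of which is integrable, are compact
operators. -/
theorem isCompactOperator_integral {X : Type*} [MeasurableSpace X] {μ : Measure X} [Countable κ]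
    (b : HilbertBasis κ ℝ H) {A : X → H →L[ℝ] H'} {C : X → ℝ}
    (hA : ∀ᵐ x ∂μ, hsSq b (A x) ≠ ⊤ ∧ ‖A x‖ ≤ C x) (hC : Integrable C μ)
    (hm : ∀ w, AEStronglyMeasurable (fun x => A x w) μ) (T : H →L[ℝ] H')
    (hT : ∀ w, T w = ∫ x, A x w ∂μ) : IsCompactOperator T := by
  have hi : ∀ w, Integrable (fun x => A x w) μ := fun w => by
    refine Integrable.mono' (hC.mul_const ‖w‖) (hm w) (hA.mono fun x hx => ?_)
    exact (A x).le_of_opNorm_le hx.2 w
  refine isCompactOperator_of_tendsto (l := atTop) (F := fun s => trunc b s T) ?_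
    (Eventually.of_forall fun s => isCompactOperator_trunc b s T)
  rw [tendsto_iff_norm_sub_tendsto_zero]
  set g : Finset κ → X → ℝ := fun s x => min (2 * C x) √(hsSq b (A x - trunc b s (A x))).toReal
    with hg
  have hgm : ∀ s, AEStronglyMeasurable (g s) μ := fun s => by
    refine AEMeasurable.aestronglyMeasurable ?_
    refine AEMeasurable.min (hC.aemeasurable.const_mul 2) ?_
    refine Real.continuous_sqrt.measurable.comp_aemeasurable ?_
    refine AEMeasurable.ennreal_toReal ?_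
    simp_rw [hsSq_sub_trunc]
    exact AEMeasurable.tsum fun i => ((hm _).norm.aemeasurable.pow_const 2).ennreal_ofReal
  have hgb : ∀ s, ∀ᵐ x ∂μ, ‖g s x‖ ≤ 2 * C x := fun s => hA.mono fun x hx => by
    have h0 : 0 ≤ C x := (norm_nonneg _).trans hx.2
    rw [Real.norm_eq_abs, abs_of_nonneg (le_min (by linarith) (Real.sqrt_nonneg _))]
    exact min_le_left _ _
  have hlim : Tendsto (fun s => ∫ x, g s x ∂μ) atTop (𝓝 (∫ x, (0 : ℝ) ∂μ)) := by
    refine tendsto_integral_filter_of_dominated_convergence (fun x => 2 * C x)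
      (Eventually.of_forall hgm) (Eventually.of_forall hgb) (hC.const_mul 2)
      (hA.mono fun x hx => ?_)
    have h2 := (ENNReal.tendsto_toReal ENNReal.zero_ne_top).comp
      (tendsto_hsSq_sub_trunc b (A x) hx.1)
    have h3 := (Real.continuous_sqrt.tendsto _).comp h2
    have h4 : Tendsto (fun s => √(hsSq b (A x - trunc b s (A x))).toReal) atTop (𝓝 0) := by
      rw [ENNReal.toReal_zero, Real.sqrt_zero] at h3
      exact h3
    have h0 : 0 ≤ C x := (norm_nonneg _).trans hx.2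
    refine squeeze_zero (fun s => le_min (by linarith) (Real.sqrt_nonneg _))
      (fun s => min_le_right _ _) h4
  rw [integral_zero] at hlim
  refine squeeze_zero (fun s => norm_nonneg _) (fun s => ?_) hlim
  have hgi : Integrable (g s) μ := (hC.const_mul 2).mono' (hgm s) (hgb s)
  rw [norm_sub_rev]
  refine ContinuousLinearMap.opNorm_le_bound _ (integral_nonneg_of_ae
    (hA.mono fun x hx => ?_)) fun w => ?_
  · have h0 : 0 ≤ C x := (norm_nonneg _).trans hx.2
    show (0 : ℝ) ≤ g s x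
    exact le_min (by linarith) (Real.sqrt_nonneg _)
  · have hi2 : Integrable (fun x => ∑ i ∈ s, ⟪b i, w⟫ • A x (b i)) μ :=
      integrable_finsetSum _ fun i _ => (hi (b i)).smul ⟪b i, w⟫
    have e : (T - trunc b s T) w = ∫ x, (A x - trunc b s (A x)) w ∂μ := by
      simp only [sub_apply, trunc_apply]
      have e2 : ∫ x, ∑ i ∈ s, ⟪b i, w⟫ • A x (b i) ∂μ =
          ∑ i ∈ s, ∫ x, ⟪b i, w⟫ • A x (b i) ∂μ :=
        integral_finsetSum s fun i _ => (hi (b i)).smul ⟪b i, w⟫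
      rw [integral_sub (hi w) hi2, hT w, e2]
      congr 1
      refine Finset.sum_congr rfl fun i _ => ?_
      rw [hT, integral_smul]
    rw [e]
    refine (norm_integral_le_integral_norm _).trans ?_
    rw [← integral_mul_const]
    refine integral_mono_ae ?_ (hgi.mul_const _) (hA.mono fun x hx => ?_)
    · refine Integrable.norm ?_
      simp only [sub_apply, trunc_apply]
      exact (hi w).sub hi2
    · show ‖(A x - trunc b s (A x)) w‖ ≤ g s x * ‖w‖
      have h1 := norm_apply_le_sqrt b _ (hsSq_sub_trunc_ne_top b s (A x) hx.1) w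
      have h2 : ‖(A x - trunc b s (A x)) w‖ ≤ 2 * C x * ‖w‖ := by
        refine ContinuousLinearMap.le_of_opNorm_le _ ?_ w
        have := norm_sub_trunc_le b s (A x)
        linarith [hx.2]
      rw [hg]
      simp only
      rcases min_choice (2 * C x) √(hsSq b (A x - trunc b s (A x))).toReal with h | h
      · rw [h]; exact h2
      · rw [h]; exact h1

end trunc

section HSLe2

variable {H H' : Type} [NormedAddCommGroup H] [InnerProductSpace ℝ H]
  [NormedAddCommGroup H'] [InnerProductSpace ℝ H'] [CompleteSpace H] [CompleteSpace H'] {κ : Type}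

omit [CompleteSpace H] [CompleteSpace H'] in
theorem HSLe.ne_top {A : H →L[ℝ] H'} {c : ℝ} (h : HSLe A c) (b : HilbertBasis κ ℝ H) :
    hsSq b A ≠ ⊤ :=
  ne_top_of_le_ne_top ENNReal.ofReal_ne_top (h.2 κ b)

theorem HSLe.isCompactOperator {A : H →L[ℝ] H'} {c : ℝ} (h : HSLe A c) :
    IsCompactOperator A := by
  obtain ⟨w, b, -⟩ := exists_hilbertBasis ℝ H
  exact isCompactOperator_of_hsSq b A (h.ne_top b)

/-- Time integrals of Hilbert-Schmidt operators (without uniform bounds of the Hilbert-Schmidt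
norms) are compact. -/
theorem compact_integral [Countable κ] (b : HilbertBasis κ ℝ H) {A : ℝ → H →L[ℝ] H'} {C : ℝ → ℝ}
    {α β : ℝ} (hαβ : α ≤ β) (hA : ∀ s ∈ Ioc α β, (∃ c, HSLe (A s) c) ∧ ‖A s‖ ≤ C s)
    (hC : IntervalIntegrable C volume α β)
    (hm : ∀ w, AEStronglyMeasurable (fun s => A s w) (volume.restrict (Ioc α β)))
    (T : H →L[ℝ] H') (hT : ∀ w, T w = ∫ s in α..β, A s w) : IsCompactOperator T := by
  refine isCompactOperator_integral (μ := volume.restrict (Ioc α β)) b (A := A) (C := C) ?_ ?_ hm T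
    fun w => ?_
  · refine (ae_restrict_iff' measurableSet_Ioc).2 (Eventually.of_forall fun s hs => ?_)
    obtain ⟨⟨c, hc⟩, h⟩ := hA s hs
    exact ⟨hc.ne_top b, h⟩
  · exact (intervalIntegrable_iff_integrableOn_Ioc_of_le hαβ).1 hC
  · rw [hT w, intervalIntegral.integral_of_le hαβ]

/-- Every Hilbert basis of a Hilbert space with a heat parametrix is countable. -/
theorem HeatData.countable (P : HeatData H) (b : HilbertBasis κ ℝ H) : Countable κ := by
  have hs : ∀ n : ℕ, {i | P.Z (1 / ((n : ℝ) + 1)) (b i) ≠ 0}.Countable := fun n => by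
    have hn : (1 / ((n : ℝ) + 1)) ∈ Ioc (0 : ℝ) 1 := by
      refine ⟨by positivity, ?_⟩
      rw [div_le_one (by positivity)]
      have : (0 : ℝ) ≤ n := Nat.cast_nonneg n
      linarith
    obtain ⟨c, hc⟩ := P.Z_hs _ hn
    refine (hc.summable b).countable_support.mono fun i hi => ?_
    simpa using hi
  have hu : (⋃ n : ℕ, {i | P.Z (1 / ((n : ℝ) + 1)) (b i) ≠ 0}) = univ := by
    refine eq_univ_of_forall fun i => ?_
    by_contra hi
    simp only [mem_iUnion, Set.mem_ofPred_eq, not_exists, not_not] at hi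
    have h1 : Tendsto (fun n : ℕ => P.Z (1 / ((n : ℝ) + 1)) (b i)) atTop (𝓝 (b i)) := by
      refine (P.Z_lim (b i)).comp ?_
      refine tendsto_nhdsWithin_iff.2 ⟨tendsto_one_div_add_atTop_nhds_zero_nat, ?_⟩
      exact Eventually.of_forall fun n => by
        have : (0 : ℝ) < 1 / ((n : ℝ) + 1) := by positivity
        exact this
    simp_rw [hi] at h1
    have h2 : b i = 0 := tendsto_nhds_unique h1 tendsto_const_nhds
    have h3 := b.orthonormal.1 i
    rw [h2, norm_zero] at h3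
    exact zero_ne_one h3
  rw [← countable_univ_iff, ← hu]
  exact countable_iUnion hs

end HSLe2

end

end Vale.Agent.P211.HK
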