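import Vale.Agent.P211.HK.AN2
import Vale.Agent.P211.HK.HS
import Vale.Agent.P211.HK.AN1Spec

/-! P211 / HK, part AN1 (helper527): Hilbert basis of weak eigenvectors. -/

namespace Vale.Agent.P211.HK

open Filter Topology MeasureTheory Set
open scoped RealInnerProductSpace

variable {H : Type} [NormedAddCommGroup H] [InnerProductSpace ℝ H] [CompleteSpace H]

omit [CompleteSpace H] in
theorem ii_inner (u : H) {f : ℝ → H} {a b : ℝ} (hf : IntervalIntegrable f volume a b) :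
    IntervalIntegrable (fun s => ⟪u, f s⟫) volume a b :=
  ⟨hf.1.const_inner u, hf.2.const_inner u⟩

theorem integral_inner' (u : H) {f : ℝ → H} {a b : ℝ} (hf : IntervalIntegrable f volume a b) :
    (∫ s in a..b, ⟪u, f s⟫) = ⟪u, ∫ s in a..b, f s⟫ :=
  (innerSL ℝ u).intervalIntegral_comp_comm hf

omit [CompleteSpace H] in
/-- strong integral of a family of operators -/
theorem exists_sint {F : ℝ → H →L[ℝ] H} {a b : ℝ} (hab : a ≤ b)
    (hF : ∀ w, IntervalIntegrable (fun s => F s w) volume a b)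
    {g : ℝ → ℝ} (hg : IntervalIntegrable g volume a b) (hg0 : ∀ s, 0 ≤ g s)
    (hC : ∀ s ∈ Ioc a b, ‖F s‖ ≤ g s) :
    ∃ T : H →L[ℝ] H, (∀ w, T w = ∫ s in a..b, F s w) ∧ ‖T‖ ≤ ∫ s in a..b, g s := by
  have hpos : 0 ≤ ∫ s in a..b, g s := intervalIntegral.integral_nonneg hab fun s _ => hg0 s
  let T₀ : H →ₗ[ℝ] H :=
    { toFun := fun w => ∫ s in a..b, F s w
      map_add' := fun x y => by
        simp only [map_add]
        exact intervalIntegral.integral_add (hF x) (hF y)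
      map_smul' := fun r x => by
        simp only [map_smul, RingHom.id_apply]
        exact intervalIntegral.integral_smul r _ }
  have hb : ∀ w, ‖T₀ w‖ ≤ (∫ s in a..b, g s) * ‖w‖ := by
    intro w
    have h1 : ‖∫ s in a..b, F s w‖ ≤ ∫ s in a..b, g s * ‖w‖ := by
      apply intervalIntegral.norm_integral_le_of_norm_le hab
      · refine Eventually.of_forall fun s hs => ?_
        exact (F s).le_of_opNorm_le (hC s hs) w
      · exact hg.mul_const _
    rwa [intervalIntegral.integral_mul_const] at h1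
  exact ⟨T₀.mkContinuous _ hb, fun w => rfl, T₀.mkContinuous_norm_le hpos hb⟩

theorem HeatData.exists_norm_Z_le (P : HeatData H) :
    ∃ C, 0 ≤ C ∧ ∀ t ∈ Ioc (0 : ℝ) 1, ‖P.Z t‖ ≤ C := by
  obtain ⟨C, hC⟩ := P.Z_bdd
  exact ⟨max C 0, le_max_right _ _, fun t ht => (hC t ht).trans (le_max_left _ _)⟩

theorem HeatData.integrable_Z (P : HeatData H) (m : ℝ) (w : H) :
    IntervalIntegrable (fun s => (Real.exp (-m * s) • P.Z s) w) volume 0 (1 / 2) := by
  obtain ⟨C, hC0, hC⟩ := P.exists_norm_Z_le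
  rw [intervalIntegrable_iff_integrableOn_Ioc_of_le (by norm_num)]
  have hc : ContinuousOn (fun s => (Real.exp (-m * s) • P.Z s) w) (Ioc (0 : ℝ) (1 / 2)) := by
    simp only [smul_apply]
    refine ContinuousOn.smul (Continuous.continuousOn (by fun_prop)) ?_
    exact (P.Z_cont w).mono (Ioc_subset_Ioc_right (by norm_num))
  refine IntegrableOn.of_bound (C := Real.exp (|m| * (1 / 2)) * (C * ‖w‖))
    (by simp) (hc.aestronglyMeasurable measurableSet_Ioc) ?_
  refine (ae_restrict_iff' measurableSet_Ioc).2 (Eventually.of_forall fun s hs => ?_)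
  simp only [smul_apply, norm_smul, Real.norm_eq_abs, Real.abs_exp]
  refine mul_le_mul ?_ ((P.Z s).le_of_opNorm_le (hC s ⟨hs.1, hs.2.trans (by norm_num)⟩) w)
    (norm_nonneg _) (Real.exp_pos _).le
  apply Real.exp_le_exp.2
  have h1 : -m * s ≤ |m| * s := mul_le_mul_of_nonneg_right (neg_le_abs m) hs.1.le
  exact h1.trans (mul_le_mul_of_nonneg_left hs.2 (abs_nonneg m))

theorem HeatData.integrable_E (P : HeatData H) (m : ℝ) (w : H) :
    IntervalIntegrable (fun s => (Real.exp (-m * s) • P.E s) w) volume 0 (1 / 2) := by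
  apply ContinuousOn.intervalIntegrable
  rw [uIcc_of_le (by norm_num)]
  simp only [smul_apply]
  refine ContinuousOn.smul (Continuous.continuousOn (by fun_prop)) ?_
  exact (P.E_cont w).mono (Icc_subset_Icc_right (by norm_num))

/-- the domain is dense -/
theorem HeatData.eq_zero_of_inner (P : HeatData H) {f : H} (hf : ∀ φ : P.Dm, ⟪f, (φ : H)⟫ = 0) :
    f = 0 := by
  have h2 : Tendsto (fun s => ⟪f, P.Z s f⟫) (𝓝[>] 0) (𝓝 ⟪f, f⟫) :=
    (tendsto_const_nhds).inner (𝕜 := ℝ) (P.Z_lim f)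
  have h3 : Tendsto (fun s => ⟪f, P.Z s f⟫) (𝓝[>] 0) (𝓝 0) := by
    refine Tendsto.congr' ?_ tendsto_const_nhds
    filter_upwards [Ioc_mem_nhdsGT (show (0 : ℝ) < 1 by norm_num)] with s hs
    exact (hf ⟨P.Z s f, P.Z_mem s hs f⟩).symm
  exact inner_self_eq_zero.1 (tendsto_nhds_unique h2 h3)

/-- data of the resolvent: `P` and `S` of the blueprint -/
theorem HeatData.exists_PS (P : HeatData H) (C₂ : ℝ) (hC₂ : 0 ≤ C₂)
    (hE : ∀ t ∈ Icc (0 : ℝ) 1, ‖P.E t‖ ≤ C₂) (c : ℝ) :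
    ∃ (m : ℝ) (Q S : H →L[ℝ] H), c ≤ m ∧ ‖S‖ < 1 ∧
      (∀ w, Q w = ∫ s in (0 : ℝ)..(1 / 2), (Real.exp (-m * s) • P.Z s) w) ∧
      (∀ w (φ : P.Dm), ⟪(φ : H), w - S w⟫ = ⟪P.L φ + m • (φ : H), Q w⟫) ∧
      (∀ u : H, (∀ φ : P.Dm, ⟪u, P.L φ + m • (φ : H)⟫ = 0) → u = 0) := by
  obtain ⟨C₁, hC₁, hZ⟩ := P.exists_norm_Z_le
  set m : ℝ := max c (4 * C₁ + 2 * C₂ + 1) with hm
  have hm1 : 4 * C₁ + 2 * C₂ + 1 ≤ m := le_max_right _ _
  have hm0 : 0 < m := by linarith
  have h12 : (0 : ℝ) ≤ 1 / 2 := by norm_num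
  obtain ⟨Q, hQ, -⟩ := exists_sint (F := fun s => Real.exp (-m * s) • P.Z s) h12
    (P.integrable_Z m) (g := fun _ => C₁) (by simp) (fun _ => hC₁) (fun s hs => by
      rw [norm_smul, Real.norm_eq_abs, Real.abs_exp]
      have h1 : Real.exp (-m * s) ≤ 1 := by
        apply Real.exp_le_one_iff.2
        have := mul_pos hm0 hs.1
        linarith
      calc Real.exp (-m * s) * ‖P.Z s‖ ≤ 1 * C₁ :=
            mul_le_mul h1 (hZ s ⟨hs.1, hs.2.trans (by norm_num)⟩) (norm_nonneg _) zero_le_one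
        _ = C₁ := one_mul _)
  obtain ⟨R, hR, hRn⟩ := exists_sint (F := fun s => Real.exp (-m * s) • P.E s) h12
    (P.integrable_E m) (g := fun s => Real.exp (-m * s) * C₂)
    (Continuous.intervalIntegrable (by fun_prop) _ _)
    (fun s => mul_nonneg (Real.exp_pos _).le hC₂) (fun s hs => by
      rw [norm_smul, Real.norm_eq_abs, Real.abs_exp]
      exact mul_le_mul_of_nonneg_left (hE s ⟨hs.1.le, hs.2.trans (by norm_num)⟩)
        (Real.exp_pos _).le)
  have hint : (∫ s in (0 : ℝ)..(1 / 2), Real.exp (-m * s) * C₂) ≤ C₂ / m := by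
    rw [intervalIntegral.integral_mul_const]
    have h1 : (∫ s in (0 : ℝ)..(1 / 2), Real.exp (-m * s)) = (1 - Real.exp (-m * (1 / 2))) / m := by
      rw [intervalIntegral.integral_comp_mul_left (fun x => Real.exp x) (by linarith : -m ≠ 0),
        integral_exp]
      simp only [mul_zero, Real.exp_zero, smul_eq_mul]
      field_simp
      ring
    rw [h1, div_mul_eq_mul_div]
    apply div_le_div_of_nonneg_right _ hm0.le
    have := (Real.exp_pos (-m * (1 / 2))).le
    nlinarith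
  set S : H →L[ℝ] H := Real.exp (-m * (1 / 2)) • P.Z (1 / 2) - R with hS
  have hSn : ‖S‖ < 1 := by
    have h1 : ‖Real.exp (-m * (1 / 2)) • P.Z (1 / 2)‖ ≤ 2 / m * C₁ := by
      rw [norm_smul, Real.norm_eq_abs, Real.abs_exp]
      refine mul_le_mul ?_ (hZ _ ⟨by norm_num, by norm_num⟩) (norm_nonneg _) (by positivity)
      have h2 : m / 2 ≤ Real.exp (m / 2) := by
        have := Real.add_one_le_exp (m / 2)
        linarith
      have h3 : -m * (1 / 2) = -(m / 2) := by ring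
      rw [h3, Real.exp_neg, inv_le_comm₀ (Real.exp_pos _) (by positivity)]
      rw [inv_div]
      exact h2
    have h4 : ‖S‖ ≤ 2 / m * C₁ + C₂ / m := (norm_sub_le _ _).trans (add_le_add h1 (hRn.trans hint))
    have h5 : 2 / m * C₁ + C₂ / m < 1 := by
      rw [div_mul_eq_mul_div, ← add_div, div_lt_one hm0]
      linarith
    linarith
  refine ⟨m, Q, S, le_max_left _ _, hSn, hQ, ?_, ?_⟩
  · intro w φ
    have hd : ∀ s ∈ Ioo (0 : ℝ) (1 / 2),
        HasDerivAt (fun s => Real.exp (-m * s) * ⟪(φ : H), P.Z s w⟫)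
        (⟪(φ : H), (Real.exp (-m * s) • P.E s) w⟫ -
          ⟪P.L φ + m • (φ : H), (Real.exp (-m * s) • P.Z s) w⟫) s := by
      intro s hs
      have hs1 : s ∈ Ioo (0 : ℝ) 1 := ⟨hs.1, hs.2.trans (by norm_num)⟩
      have h1 : HasDerivAt (fun s => Real.exp (-m * s)) (Real.exp (-m * s) * (-m)) s := by
        have := (hasDerivAt_id s).const_mul (-m)
        simpa using this.exp
      have h2 : HasDerivAt (fun s => ⟪(φ : H), P.Z s w⟫)
          ⟪(φ : H), P.E s w - P.L ⟨P.Z s w, P.Z_mem s ⟨hs1.1, hs1.2.le⟩ w⟩⟫ s := by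
        have := (hasDerivAt_const s (φ : H)).inner ℝ (P.Z_deriv s hs1 w)
        simpa using this
      have h3 := h1.mul h2
      have h4 := P.symm φ ⟨P.Z s w, P.Z_mem s ⟨hs1.1, hs1.2.le⟩ w⟩
      rw [inner_sub_right, ← h4] at h3
      have h5 : Real.exp (-m * s) * (-m) * ⟪(φ : H), P.Z s w⟫ +
          Real.exp (-m * s) * (⟪(φ : H), P.E s w⟫ - ⟪P.L φ, P.Z s w⟫) =
          ⟪(φ : H), (Real.exp (-m * s) • P.E s) w⟫ -
          ⟪P.L φ + m • (φ : H), (Real.exp (-m * s) • P.Z s) w⟫ := by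
        simp only [smul_apply, inner_smul_right, inner_add_left,
          real_inner_smul_left]
        ring
      exact h5 ▸ h3
    have i1 := ii_inner (φ : H) (P.integrable_E m w)
    have i2 := ii_inner (P.L φ + m • (φ : H)) (P.integrable_Z m w)
    have h0 : Tendsto (fun s => Real.exp (-m * s) * ⟪(φ : H), P.Z s w⟫) (𝓝[>] 0)
        (𝓝 ⟪(φ : H), w⟫) := by
      have h1 : Tendsto (fun s : ℝ => Real.exp (-m * s)) (𝓝[>] 0) (𝓝 1) := by
        have : Continuous fun s : ℝ => Real.exp (-m * s) := by fun_prop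
        have := (this.tendsto 0).mono_left (nhdsWithin_le_nhds (s := Ioi 0))
        simpa using this
      have h2 : Tendsto (fun s => ⟪(φ : H), P.Z s w⟫) (𝓝[>] 0) (𝓝 ⟪(φ : H), w⟫) :=
        (tendsto_const_nhds).inner (𝕜 := ℝ) (P.Z_lim w)
      simpa using h1.mul h2
    have ht1 : Tendsto (fun s => Real.exp (-m * s) * ⟪(φ : H), P.Z s w⟫) (𝓝[<] (1 / 2))
        (𝓝 (Real.exp (-m * (1 / 2)) * ⟪(φ : H), P.Z (1 / 2) w⟫)) := by
      have h2 : ContinuousAt (fun s => ⟪(φ : H), P.Z s w⟫) (1 / 2) := by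
        have := (hasDerivAt_const (1 / 2 : ℝ) (φ : H)).inner ℝ
          (P.Z_deriv (1 / 2) ⟨by norm_num, by norm_num⟩ w)
        exact this.continuousAt
      have h1 : ContinuousAt (fun s : ℝ => Real.exp (-m * s)) (1 / 2) := by fun_prop
      exact (h1.mul h2).tendsto.mono_left nhdsWithin_le_nhds
    have h6 := intervalIntegral.integral_eq_sub_of_hasDerivAt_of_tendsto
      (by norm_num : (0 : ℝ) < 1 / 2) hd (i1.sub i2) h0 ht1
    rw [intervalIntegral.integral_sub i1 i2, integral_inner' _ (P.integrable_E m w),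
      integral_inner' _ (P.integrable_Z m w), ← hR w, ← hQ w] at h6
    have h7 : ⟪(φ : H), w - S w⟫ = ⟪(φ : H), w⟫ -
        (Real.exp (-m * (1 / 2)) * ⟪(φ : H), P.Z (1 / 2) w⟫ - ⟪(φ : H), R w⟫) := by
      rw [inner_sub_right, hS, _root_.sub_apply, inner_sub_right, smul_apply, inner_smul_right]
    rw [h7]
    linarith
  · intro u hu
    have hw : P.WeakEig u (-m) := by
      intro φ
      have := hu φ
      rw [inner_add_right, inner_smul_right] at this
      linarith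
    have key : ∀ w, ⟪u, w - S w⟫ = 0 := by
      intro w
      have h1 := an2 H P u (-m) hw (1 / 2) ⟨by norm_num, by norm_num⟩ w
      have h2 : (∫ s in (0 : ℝ)..(1 / 2), Real.exp (-m * s) * ⟪u, P.E s w⟫) = ⟪u, R w⟫ := by
        rw [hR w, ← integral_inner' u (P.integrable_E m w)]
        simp only [smul_apply, inner_smul_right]
      rw [h2] at h1
      rw [inner_sub_right, hS, _root_.sub_apply, inner_sub_right, smul_apply, inner_smul_right]
      linarith
    -- `1 - S` is onto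
    have h3 : (1 - S) * (↑(Units.oneSub S hSn)⁻¹ : H →L[ℝ] H) = 1 := (Units.oneSub S hSn).mul_inv
    have h4 := congrArg (fun T : H →L[ℝ] H => T u) h3
    have h5 := key ((↑(Units.oneSub S hSn)⁻¹ : H →L[ℝ] H) u)
    have h6 : (↑(Units.oneSub S hSn)⁻¹ : H →L[ℝ] H) u -
        S ((↑(Units.oneSub S hSn)⁻¹ : H →L[ℝ] H) u) = u := by
      simpa using h4
    rw [h6] at h5
    exact inner_self_eq_zero.1 h5

/-- the resolvent -/
theorem HeatData.exists_resolvent (P : HeatData H) (C₂ : ℝ) (hC₂ : 0 ≤ C₂)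
    (hE : ∀ t ∈ Icc (0 : ℝ) 1, ‖P.E t‖ ≤ C₂)
    (hcomp : ∀ (m : ℝ) (Q : H →L[ℝ] H),
      (∀ w, Q w = ∫ s in (0 : ℝ)..(1 / 2), (Real.exp (-m * s) • P.Z s) w) →
      IsCompactOperator Q) :
    ∃ (m : ℝ) (G : H →L[ℝ] H), IsCompactOperator G ∧ (∀ x y, ⟪G x, y⟫ = ⟪x, G y⟫) ∧
      (∀ x, G x = 0 → x = 0) ∧ (∀ x, 0 ≤ ⟪G x, x⟫) ∧
      ∀ (f : H) (φ : P.Dm), ⟪G f, P.L φ + m • (φ : H)⟫ = ⟪f, (φ : H)⟫ := by
  obtain ⟨c, hc⟩ := P.lower
  obtain ⟨m, Q, S, hcm, hSn, hQ, hQS, hrange⟩ := P.exists_PS C₂ hC₂ hE c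
  set V : H →L[ℝ] H := (↑(Units.oneSub S hSn)⁻¹ : H →L[ℝ] H) with hV
  have hVS : ∀ f, V f - S (V f) = f := by
    intro f
    have h3 : (1 - S) * V = 1 := (Units.oneSub S hSn).mul_inv
    have h4 := congrArg (fun T : H →L[ℝ] H => T f) h3
    simpa using h4
  set G : H →L[ℝ] H := Q ∘L V with hG
  have hGf : ∀ (f : H) (φ : P.Dm), ⟪G f, P.L φ + m • (φ : H)⟫ = ⟪f, (φ : H)⟫ := by
    intro f φ
    have := hQS (V f) φ
    rw [hVS] at this
    rw [real_inner_comm, real_inner_comm (φ : H) f] 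
    exact this.symm
  -- the range of `L + m`
  let T : P.Dm →ₗ[ℝ] H := P.L + m • P.Dm.subtype
  have hT : ∀ φ, T φ = P.L φ + m • (φ : H) := fun φ => rfl
  have hdense : DenseRange T := by
    have h1 : (LinearMap.range T).topologicalClosure = ⊤ := by
      rw [Submodule.topologicalClosure_eq_top_iff, Submodule.eq_bot_iff]
      intro u hu
      apply hrange u
      intro φ
      rw [real_inner_comm]
      exact (Submodule.mem_orthogonal _ _).1 hu _ ⟨φ, hT φ⟩
    rw [DenseRange, dense_iff_closure_eq, ← LinearMap.coe_range,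
      ← Submodule.topologicalClosure_coe, h1, Submodule.top_coe]
  have hsT : ∀ φ ψ : P.Dm, ⟪T φ, (ψ : H)⟫ = ⟪(φ : H), T ψ⟫ := by
    intro φ ψ
    rw [hT, hT, inner_add_left, inner_add_right, P.symm, real_inner_smul_left, inner_smul_right]
  have hGT : ∀ φ : P.Dm, G (T φ) = φ := by
    intro φ
    rw [← sub_eq_zero]
    apply hrange
    intro ψ
    rw [inner_sub_left, hGf, hsT, hT, sub_self]
  refine ⟨m, G, ?_, ?_, ?_, ?_, hGf⟩
  · exact (hcomp m Q hQ).comp_clm V
  · intro x y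
    refine hdense.induction_on (p := fun y => ⟪G x, y⟫ = ⟪x, G y⟫) y ?_ ?_
    · exact isClosed_eq (by fun_prop) (by fun_prop)
    · intro φ
      rw [hGT, hT, hGf]
  · intro x hx
    apply P.eq_zero_of_inner
    intro φ
    rw [← hGf, hx, inner_zero_left]
  · intro x
    refine hdense.induction_on (p := fun x => 0 ≤ ⟪G x, x⟫) x ?_ ?_
    · exact isClosed_le continuous_const (by fun_prop)
    · intro φ
      rw [hGT, hT, inner_add_right, inner_smul_right, real_inner_self_eq_norm_sq,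
        real_inner_comm]
      have := hc φ
      nlinarith [sq_nonneg ‖(φ : H)‖]

theorem an1_of_spec
    (spec : ∀ {H : Type} [NormedAddCommGroup H] [InnerProductSpace ℝ H] [CompleteSpace H]
      (G : H →L[ℝ] H) (_ : IsCompactOperator G) (_ : ∀ x y, ⟪G x, y⟫ = ⟪x, G y⟫)
      (_ : ∀ x, G x = 0 → x = 0) (_ : ∀ x, 0 ≤ ⟪G x, x⟫),
      ∃ (κ : Type) (b : HilbertBasis κ ℝ H) (k : κ → ℝ), (∀ i, 0 < k i) ∧
        (∀ i, G (b i) = k i • b i) ∧ ∀ δ : ℝ, 0 < δ → {i | δ ≤ k i}.Finite) : AN1Stmt := by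
  intro H _ _ _ P
  obtain ⟨C₂, hC₂⟩ := P.eps_bdd
  have hE : ∀ t ∈ Icc (0 : ℝ) 1, ‖P.E t‖ ≤ max C₂ 0 := fun t ht =>
    ((P.E_hs t ht).opNorm_le.trans (hC₂ t ht)).trans (le_max_left _ _)
  obtain ⟨C₁, hC₁, hZ⟩ := P.exists_norm_Z_le
  obtain ⟨w₀, b₀, -⟩ := exists_hilbertBasis ℝ H
  obtain ⟨m, G, hG1, hG2, hG3, hG4, hG5⟩ := P.exists_resolvent (max C₂ 0) (le_max_right _ _) hE
    (by
      intro m Q hQ
      have : Countable w₀ := P.countable b₀
      refine compact_integral b₀ (A := fun s => Real.exp (-m * s) • P.Z s)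
        (C := fun s => Real.exp (-m * s) * C₁) (by norm_num) ?_
        (Continuous.intervalIntegrable (by fun_prop) _ _) ?_ Q hQ
      · intro s hs
        have hs1 : s ∈ Ioc (0 : ℝ) 1 := ⟨hs.1, hs.2.trans (by norm_num)⟩
        obtain ⟨c, hc⟩ := P.Z_hs s hs1
        refine ⟨⟨_, hc.smul _⟩, ?_⟩
        rw [norm_smul, Real.norm_eq_abs, Real.abs_exp]
        exact mul_le_mul_of_nonneg_left (hZ s hs1) (Real.exp_pos _).le
      · intro w
        have := (P.integrable_Z m w).1.aestronglyMeasurable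
        exact this)
  obtain ⟨κ, b, k, hk, hb, hfin⟩ := spec G hG1 hG2 hG3 hG4
  refine ⟨κ, b, fun i => 1 / k i - m, ?_, ?_⟩
  · intro i φ
    have h1 := hG5 (b i) φ
    rw [hb, real_inner_smul_left, inner_add_right, inner_smul_right] at h1
    have hki := hk i
    field_simp
    linarith
  · intro C
    by_cases hC : 0 < C + m
    · refine (hfin (1 / (C + m)) (by positivity)).subset fun i hi => ?_
      have hi' : 1 / k i - m ≤ C := hi
      have h2 : 1 / k i ≤ C + m := by linarith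
      change 1 / (C + m) ≤ k i
      rw [one_div_le hC (hk i)]
      exact h2
    · convert Set.finite_empty
      ext i
      simp only [mem_ofPred_eq, mem_empty_iff_false, iff_false, not_le]
      have : 0 < 1 / k i := one_div_pos.2 (hk i)
      linarith

theorem an1 : AN1Stmt := an1_of_spec fun G h1 h2 h3 h4 =>
  exists_hilbertBasis_of_compact G h1 h2 h3 h4

end Vale.Agent.P211.HK
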