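import Vale.Agent.P211.HK.ANDefs

/-! P211 / HK, part AN2 (helper527): Duhamel's formula for weak eigenvectors. -/

namespace Vale.Agent.P211.HK

open Filter Topology MeasureTheory Set
open scoped RealInnerProductSpace

variable {H : Type} [NormedAddCommGroup H] [InnerProductSpace ℝ H] [CompleteSpace H]

theorem HeatData.inner_E_cont (P : HeatData H) (b w : H) :
    ContinuousOn (fun s => ⟪b, P.E s w⟫) (Icc 0 1) :=
  continuousOn_const.inner (𝕜 := ℝ) (P.E_cont w)

theorem an2 : AN2Stmt := by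
  intro H _ _ _ P b l hb t ht w
  have hd : ∀ s ∈ Ioo (0 : ℝ) t, HasDerivAt (fun s => Real.exp (l * s) * ⟪b, P.Z s w⟫)
      (Real.exp (l * s) * ⟪b, P.E s w⟫) s := by
    intro s hs
    have hs1 : s ∈ Ioo (0 : ℝ) 1 := ⟨hs.1, hs.2.trans ht.2⟩
    have h1 : HasDerivAt (fun s => Real.exp (l * s)) (Real.exp (l * s) * l) s := by
      have := (hasDerivAt_id s).const_mul l
      simpa using this.exp
    have h2 : HasDerivAt (fun s => ⟪b, P.Z s w⟫)
        ⟪b, P.E s w - P.L ⟨P.Z s w, P.Z_mem s ⟨hs1.1, hs1.2.le⟩ w⟩⟫ s := by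
      have := (hasDerivAt_const s b).inner ℝ (P.Z_deriv s hs1 w)
      simpa using this
    have h3 := h1.mul h2
    rw [inner_sub_right, hb ⟨P.Z s w, P.Z_mem s ⟨hs1.1, hs1.2.le⟩ w⟩] at h3
    have h4 : Real.exp (l * s) * l * ⟪b, P.Z s w⟫ +
        Real.exp (l * s) * (⟪b, P.E s w⟫ - l * ⟪b, P.Z s w⟫) =
        Real.exp (l * s) * ⟪b, P.E s w⟫ := by ring
    exact h4 ▸ h3
  have hint : IntervalIntegrable (fun s => Real.exp (l * s) * ⟪b, P.E s w⟫) volume 0 t := by
    apply ContinuousOn.intervalIntegrable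
    rw [uIcc_of_le ht.1.le]
    exact (Continuous.continuousOn (by fun_prop)).mul
      ((P.inner_E_cont b w).mono (Icc_subset_Icc_right ht.2.le))
  have h0 : Tendsto (fun s => Real.exp (l * s) * ⟪b, P.Z s w⟫) (𝓝[>] 0) (𝓝 ⟪b, w⟫) := by
    have h1 : Tendsto (fun s : ℝ => Real.exp (l * s)) (𝓝[>] 0) (𝓝 1) := by
      have : Continuous fun s : ℝ => Real.exp (l * s) := by fun_prop
      have := (this.tendsto 0).mono_left (nhdsWithin_le_nhds (s := Ioi 0))
      simpa using this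
    have h2 : Tendsto (fun s => ⟪b, P.Z s w⟫) (𝓝[>] 0) (𝓝 ⟪b, w⟫) :=
      (tendsto_const_nhds).inner (𝕜 := ℝ) (P.Z_lim w)
    simpa using h1.mul h2
  have ht1 : Tendsto (fun s => Real.exp (l * s) * ⟪b, P.Z s w⟫) (𝓝[<] t)
      (𝓝 (Real.exp (l * t) * ⟪b, P.Z t w⟫)) := by
    have h2 : ContinuousAt (fun s => ⟪b, P.Z s w⟫) t := by
      have := (hasDerivAt_const t b).inner ℝ (P.Z_deriv t ht w)
      exact this.continuousAt
    have h1 : ContinuousAt (fun s : ℝ => Real.exp (l * s)) t := by fun_prop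
    exact (h1.mul h2).tendsto.mono_left nhdsWithin_le_nhds
  have := intervalIntegral.integral_eq_sub_of_hasDerivAt_of_tendsto ht.1 hd hint h0 ht1
  rw [this]
  ring

end Vale.Agent.P211.HK
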