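import Vale.Agent.P211.HK.AN2

/-! P211 / HK / AN3: the heat trace is the squared Hilbert-Schmidt norm of the parametrix up to o(1)
(helper251). -/

namespace Vale.Agent.P211.HK

open Filter Topology MeasureTheory Set
open scoped RealInnerProductSpace

noncomputable section

namespace AN3

variable {H : Type} [NormedAddCommGroup H] [InnerProductSpace ℝ H]

/-- Parseval in `ENNReal` -/
theorem parseval {κ : Type} (b : HilbertBasis κ ℝ H) (x : H) :
    ENNReal.ofReal (‖x‖ ^ 2) = ∑' i, ENNReal.ofReal (⟪b i, x⟫ ^ 2) := by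
  have h := b.hasSum_inner_mul_inner x x
  rw [real_inner_self_eq_norm_sq] at h
  have h2 : HasSum (fun i => ⟪b i, x⟫ ^ 2) (‖x‖ ^ 2) := by
    have h3 : (fun i => ⟪b i, x⟫ ^ 2) = fun i => ⟪x, b i⟫ * ⟪b i, x⟫ := by
      funext i
      rw [real_inner_comm x (b i)]; ring
    rw [h3]; exact h
  rw [← h2.tsum_eq, ENNReal.ofReal_tsum_of_nonneg (fun i => sq_nonneg _) h2.summable]

variable [CompleteSpace H]

/-- the adjoint has the same Hilbert-Schmidt norm -/
theorem hsSq_adjoint {κ κ' : Type} (b : HilbertBasis κ ℝ H) (b' : HilbertBasis κ' ℝ H)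
    (A : H →L[ℝ] H) : hsSq b' (ContinuousLinearMap.adjoint A) = hsSq b A := by
  unfold hsSq
  calc ∑' j, ENNReal.ofReal (‖ContinuousLinearMap.adjoint A (b' j)‖ ^ 2)
      = ∑' j, ∑' i, ENNReal.ofReal (⟪b i, ContinuousLinearMap.adjoint A (b' j)⟫ ^ 2) :=
        tsum_congr fun j => parseval b _
    _ = ∑' i, ∑' j, ENNReal.ofReal (⟪b i, ContinuousLinearMap.adjoint A (b' j)⟫ ^ 2) :=
        ENNReal.tsum_comm
    _ = ∑' i, ∑' j, ENNReal.ofReal (⟪b' j, A (b i)⟫ ^ 2) := by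
        refine tsum_congr fun i => tsum_congr fun j => ?_
        rw [ContinuousLinearMap.adjoint_inner_right, real_inner_comm]
    _ = ∑' i, ENNReal.ofReal (‖A (b i)‖ ^ 2) := tsum_congr fun i => (parseval b' _).symm

/-- finite part of the Hilbert-Schmidt norm of the adjoint -/
theorem sum_adjoint_le {κ : Type} (b : HilbertBasis κ ℝ H) (A : H →L[ℝ] H) (c : ℝ)
    (h : HSLe A c) (F : Finset κ) :
    ∑ i ∈ F, ‖ContinuousLinearMap.adjoint A (b i)‖ ^ 2 ≤ c ^ 2 := by
  have h1 : hsSq b (ContinuousLinearMap.adjoint A) ≤ ENNReal.ofReal (c ^ 2) := by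
    rw [hsSq_adjoint b b]; exact h.2 κ b
  have h2 : ∑ i ∈ F, ENNReal.ofReal (‖ContinuousLinearMap.adjoint A (b i)‖ ^ 2) ≤
      ENNReal.ofReal (c ^ 2) := (ENNReal.sum_le_tsum F).trans h1
  rw [← ENNReal.ofReal_sum_of_nonneg (fun i _ => sq_nonneg _)] at h2
  exact (ENNReal.ofReal_le_ofReal_iff (sq_nonneg _)).1 h2

theorem norm_adjoint_le_of_HSLe {κ : Type} (b : HilbertBasis κ ℝ H) (A : H →L[ℝ] H) (c : ℝ)
    (h : HSLe A c) (i : κ) : ‖ContinuousLinearMap.adjoint A (b i)‖ ≤ c := by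
  have := sum_adjoint_le b A c h {i}
  rw [Finset.sum_singleton] at this
  exact (sq_le_sq₀ (norm_nonneg _) h.1).1 this

/-- Duhamel, solved for the component of the parametrix -/
theorem duhamel (P : HeatData H) (b : H) (l : ℝ) (hb : P.WeakEig b l) (t : ℝ)
    (ht : t ∈ Ioo (0 : ℝ) 1) (w : H) :
    ⟪ContinuousLinearMap.adjoint (P.Z t) b - Real.exp (-l * t) • b, w⟫ =
      ∫ s in (0 : ℝ)..t, Real.exp (-l * (t - s)) * ⟪b, P.E s w⟫ := by
  have h := an2 H P b l hb t ht w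
  rw [inner_sub_left, ContinuousLinearMap.adjoint_inner_left, inner_smul_left, h]
  have h1 : Real.exp (-l * t) * Real.exp (l * t) = 1 := by
    rw [← Real.exp_add]; simp
  have h2 : ∀ s, Real.exp (-l * (t - s)) * ⟪b, P.E s w⟫ =
      Real.exp (-l * t) * (Real.exp (l * s) * ⟪b, P.E s w⟫) := by
    intro s
    rw [← mul_assoc, ← Real.exp_add]; ring_nf
  simp_rw [h2]
  rw [intervalIntegral.integral_const_mul]
  simp only [conj_trivial]
  linear_combination (-⟪b, P.Z t w⟫) * h1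

/-- lower bound for the eigenvalues -/
theorem lower_eig (P : HeatData H) {κ : Type} (b : HilbertBasis κ ℝ H) (l : κ → ℝ)
    (hb : ∀ i, P.WeakEig (b i) (l i)) : ∃ c : ℝ, 0 ≤ c ∧ ∀ i, -c ≤ l i := by
  obtain ⟨CZ, hCZ⟩ := P.Z_bdd
  obtain ⟨Ce, hCe⟩ := P.eps_bdd
  have hCZ0 : 0 ≤ CZ := (norm_nonneg _).trans (hCZ 1 (by norm_num))
  have hCe0 : 0 ≤ Ce := (P.E_hs 1 (by norm_num)).1.trans (hCe 1 (by norm_num))
  refine ⟨2 * CZ + Ce, by positivity, fun i => ?_⟩
  by_contra hlt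
  push Not at hlt
  set m := -l i with hm
  have hmpos : 2 * CZ + Ce < m := by linarith
  have hm0 : 0 < m := lt_of_le_of_lt (by positivity) hmpos
  have hbi : ‖b i‖ = 1 := b.orthonormal.1 i
  have h := an2 H P (b i) (l i) (hb i) (1 / 2) (by norm_num) (b i)
  rw [real_inner_self_eq_norm_sq, hbi] at h
  have h1 : Real.exp (l i * (1 / 2)) * ⟪b i, P.Z (1 / 2) (b i)⟫ ≤ 2 * CZ / m := by
    have e1 : Real.exp (l i * (1 / 2)) ≤ 2 / m := by
      have : Real.exp (l i * (1 / 2)) = (Real.exp (m / 2))⁻¹ := by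
        rw [← Real.exp_neg]; congr 1; rw [hm]; ring
      rw [this, inv_le_comm₀ (Real.exp_pos _) (by positivity)]
      have := Real.add_one_le_exp (m / 2)
      rw [inv_div]; linarith
    have e2 : ⟪b i, P.Z (1 / 2) (b i)⟫ ≤ CZ := by
      calc ⟪b i, P.Z (1 / 2) (b i)⟫ ≤ ‖b i‖ * ‖P.Z (1 / 2) (b i)‖ := real_inner_le_norm _ _
        _ ≤ ‖b i‖ * (CZ * ‖b i‖) := by
            gcongr
            exact ContinuousLinearMap.le_of_opNorm_le _ (hCZ _ (by norm_num)) _
        _ = CZ := by rw [hbi]; ring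
    calc Real.exp (l i * (1 / 2)) * ⟪b i, P.Z (1 / 2) (b i)⟫
        ≤ Real.exp (l i * (1 / 2)) * CZ := by gcongr
      _ ≤ 2 / m * CZ := by gcongr
      _ = 2 * CZ / m := by ring
  have h2 : ‖∫ s in (0 : ℝ)..(1 / 2), Real.exp (l i * s) * ⟪b i, P.E s (b i)⟫‖ ≤ Ce / m := by
    have hg : IntervalIntegrable (fun s => Ce * Real.exp (l i * s)) volume 0 (1 / 2) :=
      (Continuous.intervalIntegrable (by fun_prop) _ _)
    have := intervalIntegral.norm_integral_le_of_norm_le (a := (0 : ℝ)) (b := 1 / 2)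
      (f := fun s => Real.exp (l i * s) * ⟪b i, P.E s (b i)⟫)
      (g := fun s => Ce * Real.exp (l i * s)) (by norm_num) (by
        refine Filter.Eventually.of_forall fun s hs => ?_
        rw [norm_mul, Real.norm_eq_abs, abs_of_pos (Real.exp_pos _), mul_comm]
        gcongr
        have hs' : s ∈ Icc (0 : ℝ) 1 := ⟨hs.1.le, hs.2.trans (by norm_num)⟩
        have e3 : ⟪b i, P.E s (b i)⟫ = ⟪ContinuousLinearMap.adjoint (P.E s) (b i), b i⟫ := by
          rw [ContinuousLinearMap.adjoint_inner_left]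
        rw [e3]
        calc ‖⟪ContinuousLinearMap.adjoint (P.E s) (b i), b i⟫‖
            ≤ ‖ContinuousLinearMap.adjoint (P.E s) (b i)‖ * ‖b i‖ := norm_inner_le_norm _ _
          _ ≤ P.eps s * 1 := by
              rw [hbi]
              gcongr
              exact norm_adjoint_le_of_HSLe b _ _ (P.E_hs s hs') i
          _ ≤ Ce := by rw [mul_one]; exact hCe s hs') hg
    refine this.trans ?_
    rw [intervalIntegral.integral_const_mul]
    have hl0 : l i ≠ 0 := by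
      intro h0; rw [hm, h0] at hm0; simp at hm0
    have e4 : ∫ s in (0 : ℝ)..(1 / 2), Real.exp (l i * s) =
        (l i)⁻¹ * (Real.exp (l i * (1 / 2)) - 1) := by
      rw [intervalIntegral.integral_comp_mul_left (fun x => Real.exp x) hl0, integral_exp]
      simp
    rw [e4]
    have e5 : (l i)⁻¹ * (Real.exp (l i * (1 / 2)) - 1) ≤ 1 / m := by
      have : (l i)⁻¹ * (Real.exp (l i * (1 / 2)) - 1) = (1 - Real.exp (l i * (1 / 2))) / m := by
        rw [hm]; field_simp; ring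
      rw [this]
      gcongr
      linarith [Real.exp_pos (l i * (1 / 2))]
    calc Ce * ((l i)⁻¹ * (Real.exp (l i * (1 / 2)) - 1)) ≤ Ce * (1 / m) := by gcongr
      _ = Ce / m := by ring
  have h3 := (abs_le.1 (Real.norm_eq_abs _ ▸ h2)).1
  have h4 : (1 : ℝ) ≤ (2 * CZ + Ce) / m := by
    rw [add_div]; nlinarith
  rw [le_div_iff₀ hm0] at h4
  linarith

/-- the main estimate: the columns of `Z t` and of the heat operator differ by little in `ℓ²` -/
theorem main_le (P : HeatData H) {κ : Type} (b : HilbertBasis κ ℝ H) (l : κ → ℝ)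
    (hb : ∀ i, P.WeakEig (b i) (l i)) (c : ℝ) (hc0 : 0 ≤ c) (hc : ∀ i, -c ≤ l i) (t : ℝ)
    (ht : t ∈ Ioo (0 : ℝ) 1) (d : ℝ) (hd0 : 0 ≤ d) (hd : ∀ s ∈ Ioc 0 t, P.eps s ≤ d)
    (F : Finset κ) :
    ∑ i ∈ F, ‖ContinuousLinearMap.adjoint (P.Z t) (b i) - Real.exp (-l i * t) • b i‖ ^ 2 ≤
      (t * (Real.exp c * d)) ^ 2 := by
  set r : κ → H := fun i => ContinuousLinearMap.adjoint (P.Z t) (b i) - Real.exp (-l i * t) • b i
    with hr
  set S : ℝ := ∑ i ∈ F, ‖r i‖ ^ 2 with hS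
  have hS0 : 0 ≤ S := Finset.sum_nonneg fun i _ => sq_nonneg _
  have hint : ∀ i, IntervalIntegrable
      (fun s => Real.exp (-l i * (t - s)) * ⟪b i, P.E s (r i)⟫) volume 0 t := by
    intro i
    apply ContinuousOn.intervalIntegrable
    rw [uIcc_of_le ht.1.le]
    exact (Continuous.continuousOn (by fun_prop)).mul
      ((P.inner_E_cont (b i) (r i)).mono (Icc_subset_Icc_right ht.2.le))
  have h1 : S = ∫ s in (0 : ℝ)..t, ∑ i ∈ F, Real.exp (-l i * (t - s)) * ⟪b i, P.E s (r i)⟫ := by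
    rw [intervalIntegral.integral_finsetSum fun i _ => hint i]
    refine Finset.sum_congr rfl fun i _ => ?_
    rw [← duhamel P (b i) (l i) (hb i) t ht (r i), ← real_inner_self_eq_norm_sq]
  have h2 : ∀ s ∈ uIoc (0 : ℝ) t, ‖∑ i ∈ F, Real.exp (-l i * (t - s)) * ⟪b i, P.E s (r i)⟫‖ ≤
      Real.exp c * d * √S := by
    intro s hs
    rw [uIoc_of_le ht.1.le] at hs
    have hs' : s ∈ Icc (0 : ℝ) 1 := ⟨hs.1.le, hs.2.trans ht.2.le⟩
    have hE := P.E_hs s hs'
    calc ‖∑ i ∈ F, Real.exp (-l i * (t - s)) * ⟪b i, P.E s (r i)⟫‖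
        ≤ ∑ i ∈ F, ‖Real.exp (-l i * (t - s)) * ⟪b i, P.E s (r i)⟫‖ := norm_sum_le _ _
      _ ≤ ∑ i ∈ F, Real.exp c * (‖ContinuousLinearMap.adjoint (P.E s) (b i)‖ * ‖r i‖) := by
          refine Finset.sum_le_sum fun i _ => ?_
          rw [norm_mul, Real.norm_eq_abs, abs_of_pos (Real.exp_pos _)]
          gcongr
          · have h3 := hc i
            have h4 : t - s ≤ 1 := by linarith [hs.1, ht.2]
            have h5 : 0 ≤ t - s := by linarith [hs.2]
            nlinarith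
          · rw [← ContinuousLinearMap.adjoint_inner_left]
            exact norm_inner_le_norm _ _
      _ = Real.exp c * ∑ i ∈ F, ‖ContinuousLinearMap.adjoint (P.E s) (b i)‖ * ‖r i‖ := by
          rw [Finset.mul_sum]
      _ ≤ Real.exp c * (√(∑ i ∈ F, ‖ContinuousLinearMap.adjoint (P.E s) (b i)‖ ^ 2) * √S) := by
          gcongr
          exact Real.sum_mul_le_sqrt_mul_sqrt _ _ _
      _ ≤ Real.exp c * (d * √S) := by
          gcongr
          rw [Real.sqrt_le_left hd0]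
          refine (sum_adjoint_le b _ _ hE F).trans ?_
          have := hd s hs
          have := hE.1
          gcongr
      _ = Real.exp c * d * √S := by ring
  have h3 : S ≤ Real.exp c * d * √S * t := by
    have := intervalIntegral.norm_integral_le_of_norm_le_const h2
    rw [← h1, sub_zero, abs_of_pos ht.1, Real.norm_eq_abs, abs_of_nonneg hS0] at this
    exact this
  have h4 : √S ≤ t * (Real.exp c * d) := by
    rcases eq_or_lt_of_le (Real.sqrt_nonneg S) with h | h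
    · rw [← h]; have := ht.1; positivity
    · have h5 : √S * √S ≤ √S * (t * (Real.exp c * d)) := by
        rw [Real.mul_self_sqrt hS0]; linarith
      exact le_of_mul_le_mul_left h5 h
  calc S = √S ^ 2 := (Real.sq_sqrt hS0).symm
    _ ≤ _ := by gcongr

/-- comparison of two families with `ℓ²`-close norms -/
theorem sum_diff_le {κ : Type} (F : Finset κ) (a x r : κ → ℝ) (ha : ∀ i, 0 ≤ a i)
    (hr : ∀ i, 0 ≤ r i) (hx : ∀ i, 0 ≤ x i)
    (h : ∀ i, |x i - a i| ≤ r i) (ρ z : ℝ) (hρ : 0 ≤ ρ) (hz : 0 ≤ z)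
    (h1 : ∑ i ∈ F, r i ^ 2 ≤ ρ ^ 2) (h2 : ∑ i ∈ F, a i ^ 2 ≤ z ^ 2) :
    |∑ i ∈ F, (x i ^ 2 - a i ^ 2)| ≤ ρ ^ 2 + 2 * ρ * z := by
  have h3 : ∀ i, |x i ^ 2 - a i ^ 2| ≤ r i ^ 2 + 2 * (r i * a i) := by
    intro i
    have : x i ^ 2 - a i ^ 2 = (x i - a i) * (x i + a i) := by ring
    rw [this, abs_mul, abs_of_nonneg (add_nonneg (hx i) (ha i))]
    have h4 := abs_le.1 (h i)
    calc |x i - a i| * (x i + a i) ≤ r i * (r i + 2 * a i) := by
          have h5 : x i + a i ≤ r i + 2 * a i := by linarith [h4.2]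
          have := hr i
          have := add_nonneg (hx i) (ha i)
          exact mul_le_mul (h i) h5 this (hr i)
      _ = r i ^ 2 + 2 * (r i * a i) := by ring
  calc |∑ i ∈ F, (x i ^ 2 - a i ^ 2)| ≤ ∑ i ∈ F, |x i ^ 2 - a i ^ 2| :=
        Finset.abs_sum_le_sum_abs _ _
    _ ≤ ∑ i ∈ F, (r i ^ 2 + 2 * (r i * a i)) := Finset.sum_le_sum fun i _ => h3 i
    _ = ∑ i ∈ F, r i ^ 2 + 2 * ∑ i ∈ F, r i * a i := by
        rw [Finset.sum_add_distrib, Finset.mul_sum]
    _ ≤ ρ ^ 2 + 2 * (√(∑ i ∈ F, r i ^ 2) * √(∑ i ∈ F, a i ^ 2)) := by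
        gcongr
        exact Real.sum_mul_le_sqrt_mul_sqrt _ _ _
    _ ≤ ρ ^ 2 + 2 * (ρ * z) := by
        gcongr
        · rwa [Real.sqrt_le_left hρ]
        · rwa [Real.sqrt_le_left hz]
    _ = ρ ^ 2 + 2 * ρ * z := by ring

/-- trace estimate for one `t` -/
theorem trace_le (P : HeatData H) {κ : Type} (b : HilbertBasis κ ℝ H) (l : κ → ℝ)
    (hb : ∀ i, P.WeakEig (b i) (l i)) (c : ℝ) (hc0 : 0 ≤ c) (hc : ∀ i, -c ≤ l i) (t : ℝ)
    (ht : t ∈ Ioo (0 : ℝ) 1) (d : ℝ) (hd0 : 0 ≤ d) (hd : ∀ s ∈ Ioc 0 t, P.eps s ≤ d)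
    (z : ℝ) (hz : 0 ≤ z)
    (hzz : hsSq b (ContinuousLinearMap.adjoint (P.Z t)) = ENNReal.ofReal (z ^ 2)) :
    (Summable fun i => Real.exp (-(2 * t) * l i)) ∧
    |(∑' i, Real.exp (-(2 * t) * l i)) - z ^ 2| ≤
      (t * (Real.exp c * d)) ^ 2 + 2 * (t * (Real.exp c * d)) * z := by
  set ρ : ℝ := t * (Real.exp c * d) with hρ
  have hρ0 : 0 ≤ ρ := by have := ht.1; positivity
  set a : κ → ℝ := fun i => ‖ContinuousLinearMap.adjoint (P.Z t) (b i)‖ with ha
  set r : κ → ℝ := fun i =>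
    ‖ContinuousLinearMap.adjoint (P.Z t) (b i) - Real.exp (-l i * t) • b i‖ with hr
  set x : κ → ℝ := fun i => Real.exp (-l i * t) with hx
  have hax : HasSum (fun i => a i ^ 2) (z ^ 2) := by
    have h1 : ∑' i, ENNReal.ofReal (a i ^ 2) = ENNReal.ofReal (z ^ 2) := hzz
    have h2 : Summable fun i => a i ^ 2 := by
      have := ENNReal.summable_toReal (f := fun i => ENNReal.ofReal (a i ^ 2))
        (by rw [h1]; exact ENNReal.ofReal_ne_top)
      simpa [ENNReal.toReal_ofReal, sq_nonneg] using this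
    have h3 := h2.hasSum
    rw [← ENNReal.ofReal_tsum_of_nonneg (fun i => sq_nonneg _) h2] at h1
    rw [ENNReal.ofReal_eq_ofReal_iff (tsum_nonneg fun i => sq_nonneg _) (sq_nonneg _)] at h1
    rwa [h1] at h3
  have hd1 : ∀ i, |x i - a i| ≤ r i := by
    intro i
    have h1 : x i = ‖Real.exp (-l i * t) • b i‖ := by
      rw [norm_smul, b.orthonormal.1 i, mul_one, Real.norm_eq_abs, abs_of_pos (Real.exp_pos _)]
    rw [h1, ha, hr]
    simp only
    rw [norm_sub_rev (ContinuousLinearMap.adjoint (P.Z t) (b i))]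
    exact abs_norm_sub_norm_le _ _
  have hfin : ∀ F : Finset κ, |∑ i ∈ F, (x i ^ 2 - a i ^ 2)| ≤ ρ ^ 2 + 2 * ρ * z := by
    intro F
    refine sum_diff_le F a x r (fun i => norm_nonneg _) (fun i => norm_nonneg _)
      (fun i => (Real.exp_pos _).le) hd1 ρ z hρ0 hz ?_ ?_
    · exact main_le P b l hb c hc0 hc t ht d hd0 hd F
    · exact sum_le_hasSum F (fun i _ => sq_nonneg _) hax
  have hx2 : ∀ i, x i ^ 2 = Real.exp (-(2 * t) * l i) := by
    intro i
    rw [hx]; simp only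
    rw [← Real.exp_nat_mul]; congr 1; push_cast; ring
  have hsum : Summable fun i => x i ^ 2 := by
    refine summable_of_sum_le (c := z ^ 2 + (ρ ^ 2 + 2 * ρ * z)) (fun i => sq_nonneg _) fun F => ?_
    have h1 := (abs_le.1 (hfin F)).2
    have h2 : ∑ i ∈ F, a i ^ 2 ≤ z ^ 2 := sum_le_hasSum F (fun i _ => sq_nonneg _) hax
    rw [Finset.sum_sub_distrib] at h1
    linarith
  have hlim : HasSum (fun i => x i ^ 2 - a i ^ 2) ((∑' i, x i ^ 2) - z ^ 2) := hsum.hasSum.sub hax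
  have hfun : (fun i => Real.exp (-(2 * t) * l i)) = fun i => x i ^ 2 := by
    funext i; rw [hx2]
  refine ⟨by rw [hfun]; exact hsum, ?_⟩
  have h5 : (∑' i, Real.exp (-(2 * t) * l i)) = ∑' i, x i ^ 2 := by rw [hfun]
  rw [h5]
  exact le_of_tendsto (hlim.abs) (Filter.Eventually.of_forall fun F => hfin F)

end AN3

theorem an3 : AN3Stmt := by
  intro H _ _ _ P κ b l hb z C hz
  obtain ⟨c, hc0, hc⟩ := AN3.lower_eig P b l hb
  obtain ⟨Ce, hCe⟩ := P.eps_bdd
  have hCe0 : 0 ≤ Ce := (P.E_hs 1 (by norm_num)).1.trans (hCe 1 (by norm_num))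
  have hC0 : 0 ≤ C := by
    have := hz (1 / 2) (by norm_num)
    have h2 := this.1.trans this.2.1
    have : C / (1 / 2) = 2 * C := by ring
    rw [this] at h2; linarith
  constructor
  · intro t ht
    have h0 : min (t / 2) (1 / 2) ∈ Ioo (0 : ℝ) 1 :=
      ⟨lt_min (by linarith) (by norm_num), lt_of_le_of_lt (min_le_right _ _) (by norm_num)⟩
    set t0 := min (t / 2) (1 / 2) with ht0
    have h1 := (AN3.trace_le P b l hb c hc0 hc t0 h0 Ce hCe0
      (fun s hs => hCe s ⟨hs.1.le, hs.2.trans h0.2.le⟩) (z t0) (hz t0 h0).1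
      ((hz t0 h0).2.2 κ b)).1
    refine Summable.of_nonneg_of_le (fun i => (Real.exp_pos _).le) (fun i => ?_)
      (h1.mul_left (Real.exp ((t - 2 * t0) * c)))
    rw [← Real.exp_add]
    apply Real.exp_le_exp.2
    have h2 : 0 ≤ t - 2 * t0 := by have := min_le_left (t / 2) (1 / 2 : ℝ); linarith
    nlinarith [hc i]
  · rw [Metric.tendsto_nhdsWithin_nhds]
    intro ε hε
    -- choose `d`
    obtain ⟨d, hd0, hd⟩ : ∃ d : ℝ, 0 < d ∧
        (Real.exp c * d) ^ 2 + 2 * (Real.exp c * d) * C < ε := by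
      have hlim : Tendsto (fun d : ℝ => (Real.exp c * d) ^ 2 + 2 * (Real.exp c * d) * C) (𝓝[>] 0)
          (𝓝 0) := by
        have : Continuous fun d : ℝ => (Real.exp c * d) ^ 2 + 2 * (Real.exp c * d) * C := by
          fun_prop
        have := (this.tendsto 0).mono_left (nhdsWithin_le_nhds (s := Ioi (0 : ℝ)))
        simpa using this
      have h1 := (hlim.eventually (gt_mem_nhds hε)).and self_mem_nhdsWithin
      obtain ⟨d, h2, h3⟩ := h1.exists
      exact ⟨d, h3, h2⟩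
    obtain ⟨u, hu0, hu⟩ : ∃ u : ℝ, 0 < u ∧ ∀ s ∈ Ioo 0 u, P.eps s ≤ d := by
      have h1 : ∀ᶠ s in 𝓝[>] (0 : ℝ), P.eps s ≤ d :=
        (P.eps_lim.eventually (gt_mem_nhds hd0)).mono fun s hs => hs.le
      rw [eventually_nhdsWithin_iff, Metric.eventually_nhds_iff] at h1
      obtain ⟨u, hu, h2⟩ := h1
      refine ⟨u, hu, fun s hs => h2 ?_ hs.1⟩
      rw [Real.dist_eq, sub_zero, abs_of_pos hs.1]; exact hs.2
    refine ⟨min u 1, lt_min hu0 one_pos, fun t ht htd => ?_⟩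
    rw [Real.dist_eq, sub_zero, abs_of_pos ht] at htd
    have ht1 : t ∈ Ioo (0 : ℝ) 1 := ⟨ht, htd.trans_le (min_le_right _ _)⟩
    have htu : t < u := htd.trans_le (min_le_left _ _)
    have h3 := (AN3.trace_le P b l hb c hc0 hc t ht1 d hd0.le
      (fun s hs => hu s ⟨hs.1, hs.2.trans_lt htu⟩) (z t) (hz t ht1).1 ((hz t ht1).2.2 κ b)).2
    rw [Real.dist_eq, sub_zero]
    refine h3.trans_lt (lt_of_le_of_lt ?_ hd)
    have h4 : z t ≤ C / t := (hz t ht1).2.1
    have h5 : t * (Real.exp c * d) * z t ≤ Real.exp c * d * C := by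
      calc t * (Real.exp c * d) * z t ≤ t * (Real.exp c * d) * (C / t) := by
            have := ht1.1
            gcongr
        _ = Real.exp c * d * C := by field_simp [ht1.1.ne']
    have h6 : (t * (Real.exp c * d)) ^ 2 ≤ (Real.exp c * d) ^ 2 := by
      have : t * (Real.exp c * d) ≤ Real.exp c * d := by
        have h7 : 0 ≤ Real.exp c * d := by positivity
        nlinarith [ht1.2]
      have h8 : 0 ≤ t * (Real.exp c * d) := by have := ht1.1; positivity
      gcongr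
    nlinarith

end

end Vale.Agent.P211.HK
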