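import Vale.Agent.P211.HK.ANDefs

/-! P211 / HK / AN4: the abstract McKean-Singer formula (helper251). -/

namespace Vale.Agent.P211.HK

open Filter Topology MeasureTheory Set
open scoped RealInnerProductSpace

noncomputable section

namespace AN4

variable {H : Type} [NormedAddCommGroup H] [InnerProductSpace ℝ H] [CompleteSpace H]

theorem dense_Dm (P : HeatData H) : Dense (P.Dm : Set H) := by
  intro w
  refine mem_closure_of_tendsto (P.Z_lim w) ?_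
  filter_upwards [Ioc_mem_nhdsGT one_pos] with t ht using P.Z_mem t ht w

/-- the eigenspace inside the domain -/
def Eg (P : HeatData H) (l : ℝ) : Submodule ℝ P.Dm :=
  LinearMap.ker (P.L - l • P.Dm.subtype)

theorem mem_Eg {P : HeatData H} {l : ℝ} {φ : P.Dm} : φ ∈ Eg P l ↔ P.L φ = l • (φ : H) := by
  simp [Eg, sub_eq_zero]

theorem mem_Eg_of_weak {P : HeatData H} {b : H} {l : ℝ} (hb : P.WeakEig b l) (hm : b ∈ P.Dm) :
    (⟨b, hm⟩ : P.Dm) ∈ Eg P l := by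
  rw [mem_Eg]
  refine (dense_Dm P).eq_of_inner_left ℝ fun v hv => ?_
  have h1 := P.symm ⟨b, hm⟩ ⟨v, hv⟩
  have h2 := hb ⟨v, hv⟩
  simp only at h1 h2
  rw [h1, h2, inner_smul_left]
  simp

variable {κ : Type}

theorem ext_basis (b : HilbertBasis κ ℝ H) {x y : H} (h : ∀ i, ⟪b i, x⟫ = ⟪b i, y⟫) : x = y := by
  apply b.repr.injective
  ext i
  rw [b.repr_apply_apply, b.repr_apply_apply, h i]

/-- the eigenvectors of the basis with eigenvalue `l` are a basis of the eigenspace -/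
theorem exists_equiv (P : HeatData H) (b : HilbertBasis κ ℝ H) (l : κ → ℝ)
    (hb : ∀ i, P.WeakEig (b i) (l i)) (hm : ∀ i, b i ∈ P.Dm) (c : ℝ) [Fintype {i // l i = c}] :
    Nonempty (({i // l i = c} → ℝ) ≃ₗ[ℝ] Eg P c) := by
  classical
  let e : {i // l i = c} → Eg P c := fun i =>
    ⟨⟨b i, hm i⟩, by
      have := mem_Eg_of_weak (hb i) (hm i)
      rwa [i.2] at this⟩
  have he : ∀ i, ((e i : P.Dm) : H) = b i := fun i => rfl
  have hcoe : ∀ v : {i // l i = c} → ℝ,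
      ((Fintype.linearCombination ℝ e v : Eg P c) : P.Dm) = ((∑ i, v i • (e i : P.Dm) : P.Dm)) := by
    intro v
    simp [Fintype.linearCombination_apply]
  have hcoe' : ∀ v : {i // l i = c} → ℝ,
      (((Fintype.linearCombination ℝ e v : Eg P c) : P.Dm) : H) = ∑ i, v i • b i := by
    intro v
    rw [hcoe]
    simp [he]
  refine ⟨LinearEquiv.ofBijective (Fintype.linearCombination ℝ e) ⟨?_, ?_⟩⟩
  · rw [← LinearMap.ker_eq_bot, LinearMap.ker_eq_bot']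
    intro v hv
    have h0 : ∑ i, v i • b (i : κ) = 0 := by
      rw [← hcoe' v, hv]; rfl
    ext i
    have h1 : ⟪b (i : κ), ∑ j, v j • b (j : κ)⟫ = v i := by
      have ho := b.orthonormal.comp (Subtype.val : {i // l i = c} → κ) Subtype.val_injective
      exact ho.inner_right_fintype v i
    rw [h0, inner_zero_right] at h1
    simpa using h1.symm
  · intro φ
    have hφ : P.L (φ : P.Dm) = c • ((φ : P.Dm) : H) := mem_Eg.1 φ.2
    refine ⟨fun i => ⟪b i, ((φ : P.Dm) : H)⟫, ?_⟩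
    apply Subtype.ext
    apply Subtype.ext
    rw [hcoe']
    refine ext_basis b fun i => ?_
    by_cases hi : l i = c
    · have ho := b.orthonormal.comp (Subtype.val : {i // l i = c} → κ) Subtype.val_injective
      exact ho.inner_right_fintype (fun i => ⟪b i, ((φ : P.Dm) : H)⟫) ⟨i, hi⟩
    · have h1 := hb i (φ : P.Dm)
      rw [hφ, inner_smul_right] at h1
      have h2 : ⟪b i, ((φ : P.Dm) : H)⟫ = 0 := by
        have : (c - l i) * ⟪b i, ((φ : P.Dm) : H)⟫ = 0 := by linear_combination h1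
        rcases mul_eq_zero.1 this with h | h
        · exact absurd (by linarith) hi
        · exact h
      rw [h2, inner_sum]
      refine Finset.sum_eq_zero fun j _ => ?_
      rw [inner_smul_right, b.orthonormal.2, mul_zero]
      rintro rfl
      exact hi j.2

theorem finrank_Eg (P : HeatData H) (b : HilbertBasis κ ℝ H) (l : κ → ℝ)
    (hb : ∀ i, P.WeakEig (b i) (l i)) (hm : ∀ i, b i ∈ P.Dm) (c : ℝ) (hf : {i | l i = c}.Finite) :
    FiniteDimensional ℝ (Eg P c) ∧ Module.finrank ℝ (Eg P c) = Nat.card {i // l i = c} := by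
  have : Fintype {i // l i = c} := hf.fintype
  obtain ⟨f⟩ := exists_equiv P b l hb hm c
  exact ⟨Module.Finite.equiv f, by
    rw [← f.finrank_eq, Module.finrank_fintype_fun_eq_card, Nat.card_eq_fintype_card]⟩

variable {H₀ H₁ : Type} [NormedAddCommGroup H₀] [InnerProductSpace ℝ H₀] [CompleteSpace H₀]
    [NormedAddCommGroup H₁] [InnerProductSpace ℝ H₁] [CompleteSpace H₁]

section pair

variable (P₀ : HeatData H₀) (P₁ : HeatData H₁) (D : P₀.Dm →ₗ[ℝ] P₁.Dm) (D' : P₁.Dm →ₗ[ℝ] P₀.Dm)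

/-- `D` maps the eigenspaces of `D'D` to those of `DD'`. -/
def mapEg (h0 : ∀ φ, (D' (D φ) : H₀) = P₀.L φ) (h1 : ∀ ψ, (D (D' ψ) : H₁) = P₁.L ψ) (c : ℝ) :
    Eg P₀ c →ₗ[ℝ] Eg P₁ c :=
  LinearMap.restrict D (p := Eg P₀ c) (q := Eg P₁ c) (by
    intro φ hφ
    rw [mem_Eg] at hφ ⊢
    have h2 : D' (D φ) = c • φ := by
      apply Subtype.ext
      rw [h0, hφ]; rfl
    rw [← h1, h2, map_smul]; rfl)

theorem nonempty_equiv (h0 : ∀ φ, (D' (D φ) : H₀) = P₀.L φ) (h1 : ∀ ψ, (D (D' ψ) : H₁) = P₁.L ψ)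
    (c : ℝ) (hc : c ≠ 0) : Nonempty (Eg P₀ c ≃ₗ[ℝ] Eg P₁ c) := by
  let f := mapEg P₀ P₁ D D' h0 h1 c
  let g := mapEg P₁ P₀ D' D h1 h0 c
  have hfg : ∀ φ, g (f φ) = c • φ := by
    intro φ
    apply Subtype.ext
    apply Subtype.ext
    have : ((g (f φ) : P₀.Dm) : H₀) = (D' (D (φ : P₀.Dm)) : H₀) := rfl
    rw [this, h0, mem_Eg.1 φ.2]; rfl
  have hgf : ∀ ψ, f (g ψ) = c • ψ := by
    intro φ
    apply Subtype.ext
    apply Subtype.ext
    have : ((f (g φ) : P₁.Dm) : H₁) = (D (D' (φ : P₁.Dm)) : H₁) := rfl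
    rw [this, h1, mem_Eg.1 φ.2]; rfl
  refine ⟨LinearEquiv.ofLinearMap f (c⁻¹ • g) ?_ ?_⟩
  · ext1 ψ
    simp [hgf, hc]
  · ext1 φ
    simp [hfg, hc]

theorem ker_eq (hadj : ∀ (φ : P₀.Dm) (ψ : P₁.Dm), ⟪(D φ : H₁), (ψ : H₁)⟫ = ⟪(φ : H₀), (D' ψ : H₀)⟫)
    (h0 : ∀ φ, (D' (D φ) : H₀) = P₀.L φ) : LinearMap.ker D = Eg P₀ 0 := by
  ext φ
  rw [LinearMap.mem_ker, mem_Eg, zero_smul, ← h0]
  constructor
  · intro h; rw [h]; simp
  · intro h
    have h2 : ⟪(D φ : H₁), (D φ : H₁)⟫ = 0 := by rw [hadj, h, inner_zero_right]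
    exact Subtype.ext (by simpa using inner_self_eq_zero.1 h2)

end pair

/-- splitting of the trace: zero eigenvalues and nonzero eigenvalues -/
theorem tsum_split (l : κ → ℝ) (hf : {i | l i = 0}.Finite) (t : ℝ)
    (hs : Summable fun i => Real.exp (-t * l i)) :
    ∑' i, Real.exp (-t * l i) = Nat.card {i // l i = 0} +
      ∑' i : {i // ¬ l i = 0}, Real.exp (-t * l i) := by
  have : Fintype {i // l i = 0} := hf.fintype
  rw [← hs.tsum_subtype_add_tsum_subtype_compl {i | l i = 0}]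
  congr 1
  have : ∀ i : ({i | l i = 0} : Set κ), Real.exp (-t * l i) = 1 := by
    intro i
    have hi : l i = 0 := i.2
    rw [hi]; simp
  rw [tsum_congr this]
  show ∑' _ : {i // l i = 0}, (1 : ℝ) = _
  rw [tsum_fintype]
  simp

theorem an4 : AN4Stmt := by
  intro H₀ H₁ _ _ _ _ _ _ P₀ P₁ D D' hadj h0 h1 hr0 hr1 κ₀ κ₁ b₀ b₁ l₀ l₁ hb0 hb1 hf0 hf1 hs0 hs1
  have hm0 : ∀ i, b₀ i ∈ P₀.Dm := fun i => hr0 _ _ (hb0 i)
  have hm1 : ∀ i, b₁ i ∈ P₁.Dm := fun i => hr1 _ _ (hb1 i)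
  have hF0 : ∀ c, {i | l₀ i = c}.Finite := fun c => (hf0 c).subset fun i hi => le_of_eq hi
  have hF1 : ∀ c, {i | l₁ i = c}.Finite := fun c => (hf1 c).subset fun i hi => le_of_eq hi
  have hadj' : ∀ (ψ : P₁.Dm) (φ : P₀.Dm), ⟪(D' ψ : H₀), (φ : H₀)⟫ = ⟪(ψ : H₁), (D φ : H₁)⟫ := by
    intro ψ φ
    rw [real_inner_comm, ← hadj, real_inner_comm]
  have hk0 : LinearMap.ker D = Eg P₀ 0 := ker_eq P₀ P₁ D D' hadj h0
  have hk1 : LinearMap.ker D' = Eg P₁ 0 := ker_eq P₁ P₀ D' D hadj' h1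
  obtain ⟨hfd0, hr0'⟩ := finrank_Eg P₀ b₀ l₀ hb0 hm0 0 (hF0 0)
  obtain ⟨hfd1, hr1'⟩ := finrank_Eg P₁ b₁ l₁ hb1 hm1 0 (hF1 0)
  rw [hk0, hk1]
  refine ⟨hfd0, hfd1, fun t ht => ?_⟩
  -- equivalence of the nonzero parts
  have hcard : ∀ c : ℝ, c ≠ 0 → Nonempty ({i // l₀ i = c} ≃ {i // l₁ i = c}) := by
    intro c hc
    have : Fintype {i // l₀ i = c} := (hF0 c).fintype
    have : Fintype {i // l₁ i = c} := (hF1 c).fintype
    obtain ⟨e⟩ := nonempty_equiv P₀ P₁ D D' h0 h1 c hc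
    have h3 := (finrank_Eg P₀ b₀ l₀ hb0 hm0 c (hF0 c)).2
    have h4 := (finrank_Eg P₁ b₁ l₁ hb1 hm1 c (hF1 c)).2
    rw [e.finrank_eq, h4, Nat.card_eq_fintype_card, Nat.card_eq_fintype_card] at h3
    exact ⟨Fintype.equivOfCardEq h3.symm⟩
  let σ : ∀ c : {c : ℝ // c ≠ 0}, {i // l₀ i = c} ≃ {i // l₁ i = c} := fun c => (hcard c c.2).some
  let E0 : {i // ¬ l₀ i = 0} ≃ Σ c : {c : ℝ // c ≠ 0}, {i // l₀ i = c} :=
    { toFun := fun i => ⟨⟨l₀ i, i.2⟩, ⟨i, rfl⟩⟩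
      invFun := fun x => ⟨x.2.1, by rw [x.2.2]; exact x.1.2⟩
      left_inv := fun i => rfl
      right_inv := by
        rintro ⟨⟨c, hc⟩, ⟨i, hi⟩⟩
        simp only at hi
        subst hi
        rfl }
  let E1 : {i // ¬ l₁ i = 0} ≃ Σ c : {c : ℝ // c ≠ 0}, {i // l₁ i = c} :=
    { toFun := fun i => ⟨⟨l₁ i, i.2⟩, ⟨i, rfl⟩⟩
      invFun := fun x => ⟨x.2.1, by rw [x.2.2]; exact x.1.2⟩
      left_inv := fun i => rfl
      right_inv := by
        rintro ⟨⟨c, hc⟩, ⟨i, hi⟩⟩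
        simp only at hi
        subst hi
        rfl }
  have hT0 : ∑' i : {i // ¬ l₀ i = 0}, Real.exp (-t * l₀ i) =
      ∑' x : Σ c : {c : ℝ // c ≠ 0}, {i // l₀ i = c}, Real.exp (-t * x.1) :=
    E0.tsum_eq (fun x => Real.exp (-t * x.1))
  have hT1 : ∑' i : {i // ¬ l₁ i = 0}, Real.exp (-t * l₁ i) =
      ∑' x : Σ c : {c : ℝ // c ≠ 0}, {i // l₁ i = c}, Real.exp (-t * x.1) :=
    E1.tsum_eq (fun x => Real.exp (-t * x.1))
  have hT : ∑' x : Σ c : {c : ℝ // c ≠ 0}, {i // l₀ i = c}, Real.exp (-t * x.1) =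
      ∑' x : Σ c : {c : ℝ // c ≠ 0}, {i // l₁ i = c}, Real.exp (-t * x.1) :=
    (Equiv.sigmaCongrRight σ).tsum_eq (fun x => Real.exp (-t * x.1))
  rw [tsum_split l₀ (hF0 0) t (hs0 t ht), tsum_split l₁ (hF1 0) t (hs1 t ht), hT0, hT1, hT,
    hr0', hr1']
  ring

end AN4

theorem an4 : AN4Stmt := AN4.an4

end

end Vale.Agent.P211.HK
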