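import Vale.Agent.P211.HK.ANDefs
import Vale.Agent.P211.HK.HS

/-! P211 / HK, part AN6 (helper455): perturbation of heat data by a parallel endomorphism
`K = ∑ j, r j • Π j` (`Π j` commuting orthogonal projections). -/

namespace Vale.Agent.P211.HK

open Filter Topology MeasureTheory Set
open scoped RealInnerProductSpace

noncomputable section

variable {H : Type} [NormedAddCommGroup H] [InnerProductSpace ℝ H] [CompleteSpace H]

/-- Orthogonal projections with sum `1` which preserve the domain of `L` and commute with `L`. -/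
structure HeatSplit (P : HeatData H) (ι : Type) [Fintype ι] where
  pr : ι → H →L[ℝ] H
  symm : ∀ j x y, ⟪pr j x, y⟫ = ⟪x, pr j y⟫
  idem : ∀ j x, pr j (pr j x) = pr j x
  orth : ∀ i j, i ≠ j → ∀ x, pr i (pr j x) = 0
  sum : ∀ x, ∑ j, pr j x = x
  mem : ∀ j (φ : P.Dm), pr j φ ∈ P.Dm
  comm : ∀ j (φ : P.Dm), P.L ⟨pr j φ, mem j φ⟩ = pr j (P.L φ)

namespace HeatSplit

variable {P : HeatData H} {ι : Type} [Fintype ι] (S : HeatSplit P ι)

/-- `K = ∑ j, r j • Π j` -/
def K (r : ι → ℝ) : H →L[ℝ] H := ∑ j, r j • S.pr j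

theorem K_apply (r : ι → ℝ) (x : H) : S.K r x = ∑ j, r j • S.pr j x := by
  simp [K]

theorem pr_K (r : ι → ℝ) (j : ι) (x : H) : S.pr j (S.K r x) = r j • S.pr j x := by
  classical
  rw [K_apply, map_sum, Finset.sum_eq_single j]
  · rw [map_smul, S.idem]
  · intro i _ hi
    rw [map_smul, S.orth j i hi.symm, smul_zero]
  · intro h; exact absurd (Finset.mem_univ j) h

theorem K_pr (r : ι → ℝ) (j : ι) (x : H) : S.K r (S.pr j x) = r j • S.pr j x := by
  classical
  rw [K_apply, Finset.sum_eq_single j]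
  · rw [S.idem]
  · intro i _ hi
    rw [S.orth i j hi, smul_zero]
  · intro h; exact absurd (Finset.mem_univ j) h

theorem K_symm (r : ι → ℝ) (x y : H) : ⟪S.K r x, y⟫ = ⟪x, S.K r y⟫ := by
  rw [K_apply, K_apply, sum_inner, inner_sum]
  refine Finset.sum_congr rfl fun j _ => ?_
  rw [real_inner_smul_left, real_inner_smul_right, S.symm]

theorem norm_sq_pr (j : ι) (x : H) : ⟪S.pr j x, x⟫ = ‖S.pr j x‖ ^ 2 := by
  rw [← real_inner_self_eq_norm_sq, S.symm j x (S.pr j x), S.idem, ← S.symm]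

theorem inner_pr_pr {i j : ι} (h : i ≠ j) (x y : H) : ⟪S.pr i x, S.pr j y⟫ = 0 := by
  rw [S.symm, S.orth i j h, inner_zero_right]

/-- Pythagoras. -/
theorem norm_sq_sum (a : ι → ℝ) (x : H) :
    ‖∑ j, a j • S.pr j x‖ ^ 2 = ∑ j, a j ^ 2 * ‖S.pr j x‖ ^ 2 := by
  classical
  rw [← real_inner_self_eq_norm_sq, sum_inner]
  refine Finset.sum_congr rfl fun i _ => ?_
  rw [inner_sum, Finset.sum_eq_single i]
  · rw [real_inner_smul_left, real_inner_smul_right, real_inner_self_eq_norm_sq]; ring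
  · intro j _ hj
    rw [real_inner_smul_left, real_inner_smul_right, S.inner_pr_pr hj.symm]; ring
  · intro h; exact absurd (Finset.mem_univ i) h

theorem norm_sq_eq (x : H) : ‖x‖ ^ 2 = ∑ j, ‖S.pr j x‖ ^ 2 := by
  have h := S.norm_sq_sum (fun _ => 1) x
  simp only [one_smul, one_pow, one_mul] at h
  rw [S.sum] at h
  exact h

theorem norm_pr_le (j : ι) (x : H) : ‖S.pr j x‖ ≤ ‖x‖ := by
  have h : ‖S.pr j x‖ ^ 2 ≤ ‖x‖ ^ 2 := by
    rw [S.norm_sq_eq x]
    exact Finset.single_le_sum (f := fun j => ‖S.pr j x‖ ^ 2) (fun i _ => sq_nonneg _)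
      (Finset.mem_univ j)
  exact abs_le_of_sq_le_sq' h (norm_nonneg _) |>.2

theorem opNorm_pr_le (j : ι) : ‖S.pr j‖ ≤ 1 :=
  ContinuousLinearMap.opNorm_le_bound _ zero_le_one fun x => by
    rw [one_mul]; exact S.norm_pr_le j x

/-- `∑ j, exp (-(t * r j)) • (Π j ∘ A)` -/
def tw (r : ι → ℝ) (t : ℝ) (A : H →L[ℝ] H) : H →L[ℝ] H :=
  ∑ j, Real.exp (-(t * r j)) • ((S.pr j).comp A)

theorem tw_apply (r : ι → ℝ) (t : ℝ) (A : H →L[ℝ] H) (w : H) :
    S.tw r t A w = ∑ j, Real.exp (-(t * r j)) • S.pr j (A w) := by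
  simp [tw]

/-- the common bound for the exponentials -/
def cst (r : ι → ℝ) : ℝ := ∑ j, Real.exp |r j|

theorem cst_nonneg (r : ι → ℝ) : 0 ≤ cst r := Finset.sum_nonneg fun _ _ => (Real.exp_pos _).le

theorem exp_le {t a : ℝ} (h0 : 0 ≤ t) (h1 : t ≤ 1) : Real.exp (-(t * a)) ≤ Real.exp |a| := by
  refine Real.exp_le_exp.2 ?_
  have h2 : |t * a| ≤ |a| := by
    rw [abs_mul, abs_of_nonneg h0]
    exact mul_le_of_le_one_left (abs_nonneg _) h1
  exact (neg_le_abs _).trans h2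

theorem norm_tw_le (r : ι → ℝ) {t : ℝ} (h0 : 0 ≤ t) (h1 : t ≤ 1) (A : H →L[ℝ] H) :
    ‖S.tw r t A‖ ≤ cst r * ‖A‖ := by
  unfold tw cst
  rw [Finset.sum_mul]
  refine (norm_sum_le _ _).trans (Finset.sum_le_sum fun j _ => ?_)
  rw [norm_smul, Real.norm_eq_abs, abs_of_pos (Real.exp_pos _)]
  refine mul_le_mul (exp_le h0 h1) ?_ (norm_nonneg _) (Real.exp_pos _).le
  refine (ContinuousLinearMap.opNorm_comp_le _ _).trans ?_
  exact mul_le_of_le_one_left (norm_nonneg _) (S.opNorm_pr_le j)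

theorem HSLe_tw (r : ι → ℝ) {t : ℝ} (h0 : 0 ≤ t) (h1 : t ≤ 1) {A : H →L[ℝ] H} {c : ℝ}
    (h : HSLe A c) : HSLe (S.tw r t A) (cst r * c) := by
  have h2 : HSLe (S.tw r t A) (∑ j, |Real.exp (-(t * r j))| * (‖S.pr j‖ * c)) :=
    HSLe.sum Finset.univ fun j _ => (h.comp_left (S.pr j)).smul _
  refine h2.mono ?_
  unfold cst
  rw [Finset.sum_mul]
  refine Finset.sum_le_sum fun j _ => ?_
  rw [abs_of_pos (Real.exp_pos _)]
  refine mul_le_mul (exp_le h0 h1) ?_ (mul_nonneg (norm_nonneg _) h.nonneg) (Real.exp_pos _).le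
  exact mul_le_of_le_one_left h.nonneg (S.opNorm_pr_le j)

theorem tw_mem (r : ι → ℝ) (t : ℝ) (A : H →L[ℝ] H) (w : H) (h : A w ∈ P.Dm) :
    S.tw r t A w ∈ P.Dm := by
  rw [tw_apply]
  exact Submodule.sum_mem _ fun j _ => P.Dm.smul_mem _ (S.mem j ⟨A w, h⟩)

/-- `L` applied to the twisted vector -/
theorem L_tw (r : ι → ℝ) (t : ℝ) (A : H →L[ℝ] H) (w : H) (h : A w ∈ P.Dm) :
    P.L ⟨S.tw r t A w, S.tw_mem r t A w h⟩ =
      ∑ j, Real.exp (-(t * r j)) • S.pr j (P.L ⟨A w, h⟩) := by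
  have e : (⟨S.tw r t A w, S.tw_mem r t A w h⟩ : P.Dm) =
      ∑ j, Real.exp (-(t * r j)) • (⟨S.pr j (A w), S.mem j ⟨A w, h⟩⟩ : P.Dm) := by
    apply Subtype.ext
    rw [AddSubmonoidClass.coe_finsetSum]
    simp only [Submodule.coe_smul]
    exact S.tw_apply r t A w
  rw [e, map_sum]
  refine Finset.sum_congr rfl fun j _ => ?_
  rw [map_smul, S.comm j ⟨A w, h⟩]

theorem K_tw (r : ι → ℝ) (t : ℝ) (A : H →L[ℝ] H) (w : H) :
    S.K r (S.tw r t A w) = ∑ j, (r j * Real.exp (-(t * r j))) • S.pr j (A w) := by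
  rw [tw_apply, map_sum]
  refine Finset.sum_congr rfl fun j _ => ?_
  rw [map_smul, S.K_pr, smul_smul, mul_comm]

/-- the square of the Hilbert-Schmidt norm of the twisted operator -/
theorem hsSq_tw {κ : Type*} (b : HilbertBasis κ ℝ H) (r : ι → ℝ) (t : ℝ) (A : H →L[ℝ] H) :
    hsSq b (S.tw r t A) =
      ∑ j, ENNReal.ofReal (Real.exp (-(2 * t * r j))) * hsSq b ((S.pr j).comp A) := by
  unfold hsSq
  simp_rw [← ENNReal.tsum_mul_left]
  rw [← Summable.tsum_finsetSum fun _ _ => ENNReal.summable]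
  refine tsum_congr fun i => ?_
  rw [tw_apply, S.norm_sq_sum, ENNReal.ofReal_sum_of_nonneg fun j _ => by positivity]
  refine Finset.sum_congr rfl fun j _ => ?_
  rw [ENNReal.ofReal_mul (sq_nonneg _)]
  congr 2
  rw [← Real.exp_nat_mul]
  congr 1
  push_cast
  ring

theorem hsSq_tw_adjoint {κ : Type*} (b : HilbertBasis κ ℝ H) (r : ι → ℝ) (t : ℝ)
    (A : H →L[ℝ] H) :
    hsSq b (ContinuousLinearMap.adjoint (S.tw r t A)) =
      ∑ j, ENNReal.ofReal (Real.exp (-(2 * t * r j))) *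
        hsSq b (ContinuousLinearMap.adjoint ((S.pr j).comp A)) := by
  rw [← hsSq_adjoint b b, hsSq_tw]
  refine Finset.sum_congr rfl fun j _ => ?_
  rw [← hsSq_adjoint b b]

end HeatSplit

variable {P : HeatData H} {ι : Type} [Fintype ι]

/-- heat data of `L + ∑ j, r j • Π j` -/
def HeatSplit.perturb (S : HeatSplit P ι) (r : ι → ℝ) : HeatData H where
  Dm := P.Dm
  L := P.L + (S.K r : H →ₗ[ℝ] H).comp P.Dm.subtype
  symm := fun φ ψ => by
    simp only [LinearMap.add_apply, LinearMap.comp_apply, Submodule.subtype_apply,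
      ContinuousLinearMap.coe_coe, inner_add_left, inner_add_right]
    rw [P.symm, S.K_symm]
  lower := by
    obtain ⟨c, hc⟩ := P.lower
    refine ⟨c + ∑ j, |r j|, fun φ => ?_⟩
    simp only [LinearMap.add_apply, LinearMap.comp_apply, Submodule.subtype_apply,
      ContinuousLinearMap.coe_coe, inner_add_left]
    have h2 : -(∑ j, |r j|) * ‖(φ : H)‖ ^ 2 ≤ ⟪S.K r φ, (φ : H)⟫ := by
      rw [S.K_apply, sum_inner, neg_mul, Finset.sum_mul, ← Finset.sum_neg_distrib]
      refine Finset.sum_le_sum fun j _ => ?_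
      rw [real_inner_smul_left, S.norm_sq_pr]
      have h3 : ‖S.pr j (φ : H)‖ ^ 2 ≤ ‖(φ : H)‖ ^ 2 :=
        pow_le_pow_left₀ (norm_nonneg _) (S.norm_pr_le j _) 2
      have h4 := mul_le_mul_of_nonneg_left h3 (abs_nonneg (r j))
      have h5 := mul_le_mul_of_nonneg_right (neg_abs_le (r j)) (sq_nonneg ‖S.pr j (φ : H)‖)
      linarith
    have h3 := hc φ
    linarith
  Z := fun t => S.tw r t (P.Z t)
  E := fun t => S.tw r t (P.E t)
  Z_bdd := by
    obtain ⟨C, hC⟩ := P.Z_bdd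
    refine ⟨HeatSplit.cst r * C, fun t ht => (S.norm_tw_le r ht.1.le ht.2 _).trans ?_⟩
    exact mul_le_mul_of_nonneg_left (hC t ht) (HeatSplit.cst_nonneg r)
  Z_lim := fun w => by
    simp_rw [S.tw_apply]
    have h : Tendsto (fun t => ∑ j, Real.exp (-(t * r j)) • S.pr j (P.Z t w)) (𝓝[>] 0)
        (𝓝 (∑ j, (1 : ℝ) • S.pr j w)) := by
      refine tendsto_finsetSum _ fun j _ => Tendsto.smul ?_ ?_
      · have : Tendsto (fun t : ℝ => Real.exp (-(t * r j))) (𝓝 0) (𝓝 (Real.exp (-(0 * r j)))) :=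
          (Continuous.tendsto (by fun_prop) 0)
        simp only [zero_mul, neg_zero, Real.exp_zero] at this
        exact this.mono_left nhdsWithin_le_nhds
      · exact ((S.pr j).continuous.tendsto w).comp (P.Z_lim w)
    simpa [S.sum] using h
  Z_mem := fun t ht w => S.tw_mem r t _ w (P.Z_mem t ht w)
  Z_deriv := fun t ht w => by
    have hm := P.Z_mem t ⟨ht.1, ht.2.le⟩ w
    simp_rw [S.tw_apply]
    have h : HasDerivAt (fun s => ∑ j, Real.exp (-(s * r j)) • S.pr j (P.Z s w))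
        (∑ j, (Real.exp (-(t * r j)) • S.pr j (P.E t w - P.L ⟨P.Z t w, hm⟩) +
          (Real.exp (-(t * r j)) * (-(1 * r j))) • S.pr j (P.Z t w))) t := by
      refine HasDerivAt.fun_sum fun j _ => ?_
      have h1 : HasDerivAt (fun s : ℝ => Real.exp (-(s * r j)))
          (Real.exp (-(t * r j)) * (-(1 * r j))) t :=
        (((hasDerivAt_id t).mul_const (r j)).neg).exp
      have h2 : HasDerivAt (fun s => S.pr j (P.Z s w))
          (S.pr j (P.E t w - P.L ⟨P.Z t w, hm⟩)) t :=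
        (S.pr j).hasFDerivAt.comp_hasDerivAt t (P.Z_deriv t ht w)
      exact h1.smul h2
    refine h.congr_deriv ?_
    have hL := S.L_tw r t (P.Z t) w hm
    have hK := S.K_tw r t (P.Z t) w
    simp_rw [S.tw_apply] at hL hK
    simp only [LinearMap.add_apply, LinearMap.comp_apply, Submodule.subtype_apply,
      ContinuousLinearMap.coe_coe]
    rw [hL, hK, ← Finset.sum_add_distrib, ← Finset.sum_sub_distrib]
    refine Finset.sum_congr rfl fun j _ => ?_
    rw [map_sub]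
    module
  Z_cont := fun w => by
    simp_rw [S.tw_apply]
    refine continuousOn_finsetSum _ fun j _ => ContinuousOn.smul (by fun_prop) ?_
    exact (S.pr j).continuous.comp_continuousOn (P.Z_cont w)
  E_cont := fun w => by
    simp_rw [S.tw_apply]
    refine continuousOn_finsetSum _ fun j _ => ContinuousOn.smul (by fun_prop) ?_
    exact (S.pr j).continuous.comp_continuousOn (P.E_cont w)
  Z_hs := fun t ht => by
    obtain ⟨c, hc⟩ := P.Z_hs t ht
    exact ⟨_, S.HSLe_tw r ht.1.le ht.2 hc⟩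
  eps := fun t => HeatSplit.cst r * P.eps t
  eps_bdd := by
    obtain ⟨C, hC⟩ := P.eps_bdd
    exact ⟨HeatSplit.cst r * C, fun t ht =>
      mul_le_mul_of_nonneg_left (hC t ht) (HeatSplit.cst_nonneg r)⟩
  eps_lim := by
    have h := P.eps_lim.const_mul (HeatSplit.cst r)
    rwa [mul_zero] at h
  E_hs := fun t ht => S.HSLe_tw r ht.1 ht.2 (P.E_hs t ht)

namespace HeatSplit

variable (S : HeatSplit P ι) (r : ι → ℝ)

@[simp] theorem perturb_Dm : (S.perturb r).Dm = P.Dm := rfl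

theorem perturb_L (φ : P.Dm) : (S.perturb r).L φ = P.L φ + ∑ j, r j • S.pr j φ := by
  change P.L φ + S.K r φ = _
  rw [S.K_apply]

theorem perturb_Z (t : ℝ) : (S.perturb r).Z t = S.tw r t (P.Z t) := rfl

theorem perturb_E (t : ℝ) : (S.perturb r).E t = S.tw r t (P.E t) := rfl

theorem perturb_hsSq {κ : Type*} (b : HilbertBasis κ ℝ H) (t : ℝ) :
    hsSq b (ContinuousLinearMap.adjoint ((S.perturb r).Z t)) =
      ∑ j, ENNReal.ofReal (Real.exp (-(2 * t * r j))) *
        hsSq b (ContinuousLinearMap.adjoint ((S.pr j).comp (P.Z t))) :=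
  S.hsSq_tw_adjoint b r t (P.Z t)

/-- the components of a weak eigenvector of `L + K` are weak eigenvectors of `L` -/
theorem weakEig_pr {b : H} {l : ℝ} (h : (S.perturb r).WeakEig b l) (j : ι) :
    P.WeakEig (S.pr j b) (l - r j) := by
  intro φ
  have h1 := h ⟨S.pr j φ, S.mem j φ⟩
  change ⟪b, P.L ⟨S.pr j φ, S.mem j φ⟩ + S.K r (S.pr j (φ : H))⟫ =
    l * ⟪b, S.pr j (φ : H)⟫ at h1
  rw [S.K_pr, inner_add_right, real_inner_smul_right] at h1
  rw [S.symm, ← S.comm j φ, S.symm]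
  linarith

/-- regularity of the weak eigenvectors of `L + K` -/
theorem perturb_mem (hreg : ∀ b l, P.WeakEig b l → b ∈ P.Dm) (b : H) (l : ℝ)
    (h : (S.perturb r).WeakEig b l) : b ∈ (S.perturb r).Dm := by
  rw [← S.sum b]
  exact Submodule.sum_mem _ fun j _ => hreg _ _ (S.weakEig_pr r h j)

end HeatSplit

end

end Vale.Agent.P211.HK
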