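import Vale.Agent.P211.HK.AN1
import Vale.Agent.P211.HK.AN3
import Vale.Agent.P211.HK.AN4
import Vale.Agent.P211.HK.AN6

/-! P211 / HK, part AN7 (helper455): the limit `t → 0` in the McKean-Singer formula. -/

namespace Vale.Agent.P211.HK

open Filter Topology MeasureTheory Set
open scoped RealInnerProductSpace

noncomputable section

namespace AN7

/-- second order Taylor expansion of the exponential -/
theorem tendsto_exp_taylor (a : ℝ) :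
    Tendsto (fun t : ℝ => (Real.exp (-(2 * t * a)) - 1 + 2 * t * a) / t ^ 2) (𝓝[>] 0)
      (𝓝 (2 * a ^ 2)) := by
  -- `|exp x - 1 - x - x^2/2| ≤ |x|^3`
  have hb : ∀ x : ℝ, |x| ≤ 1 → |Real.exp x - 1 - x - x ^ 2 / 2| ≤ |x| ^ 3 := by
    intro x hx
    have h := Real.exp_bound hx (n := 3) (by norm_num)
    have e : ∑ m ∈ Finset.range 3, x ^ m / (m.factorial : ℝ) = 1 + x + x ^ 2 / 2 := by
      simp [Finset.sum_range_succ, Nat.factorial]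
    rw [e] at h
    have e2 : Real.exp x - 1 - x - x ^ 2 / 2 = Real.exp x - (1 + x + x ^ 2 / 2) := by ring
    rw [e2]
    refine h.trans ?_
    have h3 : (0 : ℝ) ≤ |x| ^ 3 := by positivity
    have : ((Nat.succ 3 : ℕ) : ℝ) / (((Nat.factorial 3 : ℕ) : ℝ) * ((3 : ℕ) : ℝ)) ≤ 1 := by
      norm_num [Nat.factorial]
    calc |x| ^ 3 * (((Nat.succ 3 : ℕ) : ℝ) / (((Nat.factorial 3 : ℕ) : ℝ) * ((3 : ℕ) : ℝ)))
        ≤ |x| ^ 3 * 1 := mul_le_mul_of_nonneg_left this h3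
      _ = |x| ^ 3 := mul_one _
  rw [tendsto_iff_norm_sub_tendsto_zero]
  have hlim : Tendsto (fun t : ℝ => 8 * |a| ^ 3 * t) (𝓝[>] 0) (𝓝 0) := by
    have : Tendsto (fun t : ℝ => 8 * |a| ^ 3 * t) (𝓝 0) (𝓝 (8 * |a| ^ 3 * 0)) :=
      (continuous_const.mul continuous_id).tendsto 0
    rw [mul_zero] at this
    exact this.mono_left nhdsWithin_le_nhds
  have hev : ∀ᶠ t : ℝ in 𝓝[>] 0, |-(2 * t * a)| ≤ 1 := by
    have hc : Tendsto (fun t : ℝ => |-(2 * t * a)|) (𝓝 0) (𝓝 |-(2 * 0 * a)|) :=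
      Continuous.tendsto (by fun_prop) 0
    simp only [mul_zero, zero_mul, neg_zero, abs_zero] at hc
    exact (hc.mono_left nhdsWithin_le_nhds).eventually_le_const zero_lt_one
  refine squeeze_zero' (Eventually.of_forall fun _ => norm_nonneg _) ?_ hlim
  filter_upwards [hev, self_mem_nhdsWithin] with t ht ht0
  have ht0' : (0 : ℝ) < t := ht0
  have h := hb _ ht
  have e : (Real.exp (-(2 * t * a)) - 1 + 2 * t * a) / t ^ 2 - 2 * a ^ 2 =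
      (Real.exp (-(2 * t * a)) - 1 - (-(2 * t * a)) - (-(2 * t * a)) ^ 2 / 2) / t ^ 2 := by
    field_simp
    ring
  rw [e, Real.norm_eq_abs, abs_div, abs_of_pos (pow_pos ht0' 2), div_le_iff₀ (pow_pos ht0' 2)]
  refine h.trans (le_of_eq ?_)
  rw [abs_neg, abs_mul, abs_mul, abs_of_pos ht0', abs_two]
  ring

variable {ι₀ ι₁ : Type} [Fintype ι₀] [Fintype ι₁]

/-- the limit of the exponential sums -/
theorem tendsto_sums (s : ℝ → ℝ) (y : ι₁ → ℝ → ℝ) (n a r : ι₁ → ℝ) (σ : ℝ)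
    (hs : Tendsto (fun t => t ^ 2 * s t) (𝓝[>] 0) (𝓝 σ))
    (hlim : ∀ j, Tendsto (fun t => y j t - n j * s t) (𝓝[>] 0) (𝓝 (a j))) :
    Tendsto (fun t => (∑ j, Real.exp (-(2 * t * r j)) * y j t) -
        ((∑ j, n j) - 2 * t * ∑ j, n j * r j) * s t) (𝓝[>] 0)
      (𝓝 (2 * σ * (∑ j, n j * r j ^ 2) + ∑ j, a j)) := by
  have hexp : ∀ c : ℝ, Tendsto (fun t : ℝ => Real.exp (-(2 * t * c))) (𝓝[>] 0) (𝓝 1) := by
    intro c
    have : Tendsto (fun t : ℝ => Real.exp (-(2 * t * c))) (𝓝 0) (𝓝 (Real.exp (-(2 * 0 * c)))) :=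
      Continuous.tendsto (by fun_prop) 0
    simp only [mul_zero, zero_mul, neg_zero, Real.exp_zero] at this
    exact this.mono_left nhdsWithin_le_nhds
  have h1 : Tendsto (fun t => ∑ j, (Real.exp (-(2 * t * r j)) * (y j t - n j * s t) +
      n j * ((t ^ 2 * s t) * ((Real.exp (-(2 * t * r j)) - 1 + 2 * t * r j) / t ^ 2))))
      (𝓝[>] 0) (𝓝 (∑ j, (1 * a j + n j * (σ * (2 * r j ^ 2))))) := by
    refine tendsto_finsetSum _ fun j _ => ?_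
    exact ((hexp (r j)).mul (hlim j)).add ((hs.mul (tendsto_exp_taylor (r j))).const_mul (n j))
  have e1 : ∑ j, (1 * a j + n j * (σ * (2 * r j ^ 2))) =
      2 * σ * (∑ j, n j * r j ^ 2) + ∑ j, a j := by
    rw [Finset.sum_add_distrib, Finset.mul_sum, add_comm]
    simp only [one_mul]
    congr 1
    exact Finset.sum_congr rfl fun j _ => by ring
  rw [← e1]
  refine h1.congr' ?_
  filter_upwards [self_mem_nhdsWithin] with t ht0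
  have ht : (t : ℝ) ≠ 0 := ne_of_gt ht0
  rw [sub_mul, Finset.sum_mul, mul_assoc, Finset.sum_mul, Finset.mul_sum,
    ← Finset.sum_sub_distrib, ← Finset.sum_sub_distrib]
  refine Finset.sum_congr rfl fun j _ => ?_
  field_simp
  ring

/-- the trace of the perturbed heat operator and the parametrix -/
theorem trace_perturb {H : Type} [NormedAddCommGroup H] [InnerProductSpace ℝ H] [CompleteSpace H]
    (P : HeatData H) (S : HeatSplit P ι₁) (r : ι₁ → ℝ) (y : ι₁ → ℝ → ℝ) (C : ℝ)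
    (hy0 : ∀ j, ∀ t ∈ Ioo (0 : ℝ) 1, 0 ≤ y j t)
    (hyC : ∀ j, ∀ t ∈ Ioo (0 : ℝ) 1, t ^ 2 * y j t ≤ C)
    (hy : ∀ j, ∀ t ∈ Ioo (0 : ℝ) 1, ∀ (κ : Type) (b : HilbertBasis κ ℝ H),
      hsSq b (ContinuousLinearMap.adjoint ((S.pr j).comp (P.Z t))) = ENNReal.ofReal (y j t)) :
    ∃ (κ : Type) (b : HilbertBasis κ ℝ H) (l : κ → ℝ),
      (∀ i, (S.perturb r).WeakEig (b i) (l i)) ∧ (∀ c : ℝ, {i | l i ≤ c}.Finite) ∧
      (∀ t : ℝ, 0 < t → Summable fun i => Real.exp (-t * l i)) ∧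
      Tendsto (fun t => (∑' i, Real.exp (-(2 * t) * l i)) -
        ∑ j, Real.exp (-(2 * t * r j)) * y j t) (𝓝[>] 0) (𝓝 0) := by
  obtain ⟨κ, b, l, hb, hl⟩ := an1 H (S.perturb r)
  set z : ℝ → ℝ := fun t => Real.sqrt (∑ j, Real.exp (-(2 * t * r j)) * y j t) with hz
  have hnn : ∀ t ∈ Ioo (0 : ℝ) 1, 0 ≤ ∑ j, Real.exp (-(2 * t * r j)) * y j t := fun t ht =>
    Finset.sum_nonneg fun j _ => mul_nonneg (Real.exp_pos _).le (hy0 j t ht)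
  have hzsq : ∀ t ∈ Ioo (0 : ℝ) 1, z t ^ 2 = ∑ j, Real.exp (-(2 * t * r j)) * y j t := fun t ht =>
    Real.sq_sqrt (hnn t ht)
  have h3 := an3 H (S.perturb r) κ b l hb z (Real.sqrt (∑ j, Real.exp (2 * |r j|) * |C|))
    (fun t ht => ⟨Real.sqrt_nonneg _, by
      rw [le_div_iff₀ ht.1]
      refine Real.le_sqrt_of_sq_le ?_
      rw [mul_pow, hzsq t ht, Finset.sum_mul]
      refine Finset.sum_le_sum fun j _ => ?_
      have h5 : Real.exp (-(2 * t * r j)) ≤ Real.exp (2 * |r j|) := by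
        refine Real.exp_le_exp.2 ?_
        have : |t * r j| ≤ |r j| := by
          rw [abs_mul, abs_of_pos ht.1]
          exact mul_le_of_le_one_left (abs_nonneg _) ht.2.le
        have h6 := neg_le_abs (t * r j)
        linarith
      calc Real.exp (-(2 * t * r j)) * y j t * t ^ 2
          = Real.exp (-(2 * t * r j)) * (t ^ 2 * y j t) := by ring
        _ ≤ Real.exp (-(2 * t * r j)) * |C| :=
            mul_le_mul_of_nonneg_left ((hyC j t ht).trans (le_abs_self C)) (Real.exp_pos _).le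
        _ ≤ Real.exp (2 * |r j|) * |C| := mul_le_mul_of_nonneg_right h5 (abs_nonneg _),
      fun κ' b' => by
        rw [S.perturb_hsSq, hzsq t ht, ENNReal.ofReal_sum_of_nonneg fun j _ =>
          mul_nonneg (Real.exp_pos _).le (hy0 j t ht)]
        refine Finset.sum_congr rfl fun j _ => ?_
        rw [hy j t ht, ENNReal.ofReal_mul (Real.exp_pos _).le]⟩)
  refine ⟨κ, b, l, hb, hl, h3.1, ?_⟩
  refine h3.2.congr' ?_
  have hmem : Ioo (0 : ℝ) 1 ∈ 𝓝[>] (0 : ℝ) := Ioo_mem_nhdsGT one_pos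
  filter_upwards [hmem] with t ht
  rw [hzsq t ht]

end AN7

open AN7 in
/-- AN7: the limit `t → 0` in the McKean-Singer formula. -/
theorem an7 {H₀ H₁ : Type} [NormedAddCommGroup H₀] [InnerProductSpace ℝ H₀] [CompleteSpace H₀]
    [NormedAddCommGroup H₁] [InnerProductSpace ℝ H₁] [CompleteSpace H₁]
    (P₀ : HeatData H₀) (P₁ : HeatData H₁) {ι₀ ι₁ : Type} [Fintype ι₀] [Fintype ι₁]
    (S₀ : HeatSplit P₀ ι₀) (S₁ : HeatSplit P₁ ι₁) (r₀ : ι₀ → ℝ) (r₁ : ι₁ → ℝ)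
    (D : P₀.Dm →ₗ[ℝ] P₁.Dm) (D' : P₁.Dm →ₗ[ℝ] P₀.Dm)
    (hadj : ∀ (φ : P₀.Dm) (ψ : P₁.Dm), ⟪(D φ : H₁), (ψ : H₁)⟫ = ⟪(φ : H₀), (D' ψ : H₀)⟫)
    (hD0 : ∀ φ, (D' (D φ) : H₀) = P₀.L φ + ∑ j, r₀ j • S₀.pr j φ)
    (hD1 : ∀ ψ, (D (D' ψ) : H₁) = P₁.L ψ + ∑ j, r₁ j • S₁.pr j ψ)
    (hreg₀ : ∀ b l, P₀.WeakEig b l → b ∈ P₀.Dm) (hreg₁ : ∀ b l, P₁.WeakEig b l → b ∈ P₁.Dm)
    (s : ℝ → ℝ) (y₀ : ι₀ → ℝ → ℝ) (y₁ : ι₁ → ℝ → ℝ) (n₀ a₀ : ι₀ → ℝ) (n₁ a₁ : ι₁ → ℝ)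
    (σ C : ℝ)
    (hs : Tendsto (fun t => t ^ 2 * s t) (𝓝[>] 0) (𝓝 σ))
    (hnn₀ : ∀ j, ∀ t ∈ Ioo (0 : ℝ) 1, 0 ≤ y₀ j t)
    (hnn₁ : ∀ j, ∀ t ∈ Ioo (0 : ℝ) 1, 0 ≤ y₁ j t)
    (hC₀ : ∀ j, ∀ t ∈ Ioo (0 : ℝ) 1, t ^ 2 * y₀ j t ≤ C)
    (hC₁ : ∀ j, ∀ t ∈ Ioo (0 : ℝ) 1, t ^ 2 * y₁ j t ≤ C)
    (hy₀ : ∀ j, ∀ t ∈ Ioo (0 : ℝ) 1, ∀ (κ : Type) (b : HilbertBasis κ ℝ H₀),
      hsSq b (ContinuousLinearMap.adjoint ((S₀.pr j).comp (P₀.Z t))) = ENNReal.ofReal (y₀ j t))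
    (hy₁ : ∀ j, ∀ t ∈ Ioo (0 : ℝ) 1, ∀ (κ : Type) (b : HilbertBasis κ ℝ H₁),
      hsSq b (ContinuousLinearMap.adjoint ((S₁.pr j).comp (P₁.Z t))) = ENNReal.ofReal (y₁ j t))
    (hlim₀ : ∀ j, Tendsto (fun t => y₀ j t - n₀ j * s t) (𝓝[>] 0) (𝓝 (a₀ j)))
    (hlim₁ : ∀ j, Tendsto (fun t => y₁ j t - n₁ j * s t) (𝓝[>] 0) (𝓝 (a₁ j)))
    (hn : ∑ j, n₁ j = ∑ j, n₀ j) (hnr : ∑ j, n₁ j * r₁ j = ∑ j, n₀ j * r₀ j) :
    FiniteDimensional ℝ (LinearMap.ker D) ∧ FiniteDimensional ℝ (LinearMap.ker D') ∧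
      (Module.finrank ℝ (LinearMap.ker D') : ℝ) - Module.finrank ℝ (LinearMap.ker D) =
        2 * σ * ((∑ j, n₁ j * r₁ j ^ 2) - ∑ j, n₀ j * r₀ j ^ 2) +
          ((∑ j, a₁ j) - ∑ j, a₀ j) := by
  obtain ⟨κ₀, b₀, l₀, hb₀, hl₀, hsum₀, ht₀⟩ :=
    trace_perturb P₀ S₀ r₀ y₀ C hnn₀ hC₀ hy₀
  obtain ⟨κ₁, b₁, l₁, hb₁, hl₁, hsum₁, ht₁⟩ :=
    trace_perturb P₁ S₁ r₁ y₁ C hnn₁ hC₁ hy₁
  obtain ⟨f0, f1, hMS⟩ := an4 H₀ H₁ (S₀.perturb r₀) (S₁.perturb r₁) D D' hadj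
    (fun φ => (hD0 φ).trans (S₀.perturb_L r₀ φ).symm)
    (fun ψ => (hD1 ψ).trans (S₁.perturb_L r₁ ψ).symm)
    (fun b l h => S₀.perturb_mem r₀ hreg₀ b l h) (fun b l h => S₁.perturb_mem r₁ hreg₁ b l h)
    κ₀ κ₁ b₀ b₁ l₀ l₁ hb₀ hb₁ hl₀ hl₁ hsum₀ hsum₁
  refine ⟨f0, f1, ?_⟩
  have hA := tendsto_sums s y₀ n₀ a₀ r₀ σ hs hlim₀
  have hB := tendsto_sums s y₁ n₁ a₁ r₁ σ hs hlim₁
  have hlim := ((ht₁.add hB).sub (ht₀.add hA))
  have hconst : Tendsto (fun _ : ℝ => (Module.finrank ℝ (LinearMap.ker D') : ℝ) -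
      Module.finrank ℝ (LinearMap.ker D)) (𝓝[>] (0 : ℝ))
      (𝓝 (0 + (2 * σ * (∑ j, n₁ j * r₁ j ^ 2) + ∑ j, a₁ j) -
        (0 + (2 * σ * (∑ j, n₀ j * r₀ j ^ 2) + ∑ j, a₀ j)))) := by
    refine hlim.congr' ?_
    filter_upwards [self_mem_nhdsWithin] with t ht0
    have ht : (0 : ℝ) < t := ht0
    refine Eq.trans ?_ (hMS (2 * t) (by positivity))
    rw [hn, hnr]
    ring
  have hu := tendsto_nhds_unique tendsto_const_nhds hconst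
  rw [hu]
  ring

end

end Vale.Agent.P211.HK
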