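import Mathlib

/-! P211 / HK: FROZEN interface of the abstract analytic part (no manifold). captain helper423.

`HeatData L`: a symmetric operator `L` on a dense subspace of a Hilbert space together with a
parametrix `Z t` of its heat operator with error `E t`. -/

namespace Vale.Agent.P211.HK

open Filter Topology MeasureTheory Set
open scoped RealInnerProductSpace

noncomputable section

/-- the square of the Hilbert-Schmidt norm of `A`, computed in the Hilbert basis `b` of the source -/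
def hsSq {H H' κ : Type*} [NormedAddCommGroup H] [InnerProductSpace ℝ H]
    [NormedAddCommGroup H'] [InnerProductSpace ℝ H']
    (b : HilbertBasis κ ℝ H) (A : H →L[ℝ] H') : ENNReal :=
  ∑' i, ENNReal.ofReal (‖A (b i)‖ ^ 2)

/-- the Hilbert-Schmidt norm of `A` is at most `c` (in every Hilbert basis) -/
def HSLe {H H' : Type} [NormedAddCommGroup H] [InnerProductSpace ℝ H]
    [NormedAddCommGroup H'] [InnerProductSpace ℝ H'] (A : H →L[ℝ] H') (c : ℝ) : Prop :=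
  0 ≤ c ∧ ∀ (κ : Type) (b : HilbertBasis κ ℝ H), hsSq b A ≤ ENNReal.ofReal (c ^ 2)

/-- A symmetric operator `L` with (dense) domain `Dm`, semibounded, and a heat parametrix. -/
structure HeatData (H : Type) [NormedAddCommGroup H] [InnerProductSpace ℝ H] [CompleteSpace H]
    where
  /-- the domain (smooth sections) -/
  Dm : Submodule ℝ H
  /-- the operator -/
  L : Dm →ₗ[ℝ] H
  symm : ∀ φ ψ : Dm, ⟪L φ, (ψ : H)⟫ = ⟪(φ : H), L ψ⟫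
  lower : ∃ c : ℝ, ∀ φ : Dm, -c * ‖(φ : H)‖ ^ 2 ≤ ⟪L φ, (φ : H)⟫
  /-- parametrix -/
  Z : ℝ → H →L[ℝ] H
  /-- error -/
  E : ℝ → H →L[ℝ] H
  Z_bdd : ∃ C : ℝ, ∀ t ∈ Ioc (0 : ℝ) 1, ‖Z t‖ ≤ C
  Z_lim : ∀ w : H, Tendsto (fun t => Z t w) (𝓝[>] 0) (𝓝 w)
  Z_mem : ∀ t ∈ Ioc (0 : ℝ) 1, ∀ w : H, Z t w ∈ Dm
  Z_deriv : ∀ t (ht : t ∈ Ioo (0 : ℝ) 1) (w : H),
    HasDerivAt (fun s => Z s w) (E t w - L ⟨Z t w, Z_mem t ⟨ht.1, ht.2.le⟩ w⟩) t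
  Z_cont : ∀ w : H, ContinuousOn (fun t => Z t w) (Ioc 0 1)
  E_cont : ∀ w : H, ContinuousOn (fun t => E t w) (Icc 0 1)
  /-- Hilbert-Schmidt bounds: `‖Z t‖_HS` finite, `‖E t‖_HS` bounded and tending to `0` -/
  Z_hs : ∀ t ∈ Ioc (0 : ℝ) 1, ∃ c, HSLe (Z t) c
  eps : ℝ → ℝ
  eps_bdd : ∃ C : ℝ, ∀ t ∈ Icc (0 : ℝ) 1, eps t ≤ C
  eps_lim : Tendsto eps (𝓝[>] 0) (𝓝 0)
  E_hs : ∀ t ∈ Icc (0 : ℝ) 1, HSLe (E t) (eps t)

variable {H : Type} [NormedAddCommGroup H] [InnerProductSpace ℝ H] [CompleteSpace H]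

/-- `b` is a weak eigenvector of `L` with eigenvalue `l`. -/
def HeatData.WeakEig (P : HeatData H) (b : H) (l : ℝ) : Prop :=
  ∀ φ : P.Dm, ⟪b, P.L φ⟫ = l * ⟪b, (φ : H)⟫

/-- AN1: existence of a Hilbert basis of weak eigenvectors, eigenvalues tending to infinity. -/
def AN1Stmt : Prop :=
  ∀ (H : Type) [NormedAddCommGroup H] [InnerProductSpace ℝ H] [CompleteSpace H]
    (P : HeatData H),
    ∃ (κ : Type) (b : HilbertBasis κ ℝ H) (l : κ → ℝ), (∀ i, P.WeakEig (b i) (l i)) ∧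
      ∀ C : ℝ, {i | l i ≤ C}.Finite

/-- AN2: Duhamel's formula for weak eigenvectors. -/
def AN2Stmt : Prop :=
  ∀ (H : Type) [NormedAddCommGroup H] [InnerProductSpace ℝ H] [CompleteSpace H]
    (P : HeatData H) (b : H) (l : ℝ), P.WeakEig b l → ∀ t ∈ Ioo (0 : ℝ) 1, ∀ w : H,
      ⟪b, w⟫ = Real.exp (l * t) * ⟪b, P.Z t w⟫ - ∫ s in (0 : ℝ)..t, Real.exp (l * s) * ⟪b, P.E s w⟫

/-- AN3: the trace of the heat operator is the squared Hilbert-Schmidt norm of the parametrix up to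
`o(1)`, if the latter is `O(1/t)`. -/
def AN3Stmt : Prop :=
  ∀ (H : Type) [NormedAddCommGroup H] [InnerProductSpace ℝ H] [CompleteSpace H]
    (P : HeatData H) (κ : Type) (b : HilbertBasis κ ℝ H) (l : κ → ℝ),
    (∀ i, P.WeakEig (b i) (l i)) → ∀ (z : ℝ → ℝ) (C : ℝ),
    (∀ t ∈ Ioo (0 : ℝ) 1, 0 ≤ z t ∧ z t ≤ C / t ∧ ∀ (κ' : Type) (b' : HilbertBasis κ' ℝ H),
      hsSq b' (ContinuousLinearMap.adjoint (P.Z t)) = ENNReal.ofReal (z t ^ 2)) →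
    (∀ t : ℝ, 0 < t → Summable fun i => Real.exp (-t * l i)) ∧
    Tendsto (fun t => (∑' i, Real.exp (-(2 * t) * l i)) - z t ^ 2) (𝓝[>] 0) (𝓝 0)

/-- AN4: McKean-Singer. Two operators `L₀ = D'D`, `L₁ = DD'` whose weak eigenvectors are in the
domains (regularity). -/
def AN4Stmt : Prop :=
  ∀ (H₀ H₁ : Type) [NormedAddCommGroup H₀] [InnerProductSpace ℝ H₀] [CompleteSpace H₀]
    [NormedAddCommGroup H₁] [InnerProductSpace ℝ H₁] [CompleteSpace H₁]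
    (P₀ : HeatData H₀) (P₁ : HeatData H₁) (D : P₀.Dm →ₗ[ℝ] P₁.Dm) (D' : P₁.Dm →ₗ[ℝ] P₀.Dm),
    (∀ (φ : P₀.Dm) (ψ : P₁.Dm), ⟪(D φ : H₁), (ψ : H₁)⟫ = ⟪(φ : H₀), (D' ψ : H₀)⟫) →
    (∀ φ, (D' (D φ) : H₀) = P₀.L φ) → (∀ ψ, (D (D' ψ) : H₁) = P₁.L ψ) →
    (∀ b l, P₀.WeakEig b l → b ∈ P₀.Dm) → (∀ b l, P₁.WeakEig b l → b ∈ P₁.Dm) →
    ∀ (κ₀ κ₁ : Type) (b₀ : HilbertBasis κ₀ ℝ H₀) (b₁ : HilbertBasis κ₁ ℝ H₁)
      (l₀ : κ₀ → ℝ) (l₁ : κ₁ → ℝ),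
      (∀ i, P₀.WeakEig (b₀ i) (l₀ i)) → (∀ i, P₁.WeakEig (b₁ i) (l₁ i)) →
      (∀ C : ℝ, {i | l₀ i ≤ C}.Finite) → (∀ C : ℝ, {i | l₁ i ≤ C}.Finite) →
      (∀ t : ℝ, 0 < t → Summable fun i => Real.exp (-t * l₀ i)) →
      (∀ t : ℝ, 0 < t → Summable fun i => Real.exp (-t * l₁ i)) →
      FiniteDimensional ℝ (LinearMap.ker D) ∧ FiniteDimensional ℝ (LinearMap.ker D') ∧
      ∀ t : ℝ, 0 < t →
        (∑' i, Real.exp (-t * l₁ i)) - ∑' i, Real.exp (-t * l₀ i) =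
          (Module.finrank ℝ (LinearMap.ker D') : ℝ) - Module.finrank ℝ (LinearMap.ker D)

end

end Vale.Agent.P211.HK
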