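import Vale.Agent.P211.HK.SC0

/-! P211 / HK: toolbox for frames (helper627). -/

set_option maxSynthPendingDepth 3
set_option linter.unusedSectionVars false

namespace Vale.Agent.P211.HK

open scoped Manifold ContDiff Topology RealInnerProductSpace
open Bundle Filter VectorField MeasureTheory

noncomputable section

/-! ### matrices -/

theorem of_mulM (g h : Mat4) : Matrix.of (mulM g h) = Matrix.of g * Matrix.of h := by
  ext i j; simp [mulM, Matrix.mul_apply]

theorem of_trM (g : Mat4) : Matrix.of (trM g) = (Matrix.of g).transpose := rfl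

theorem of_idM : Matrix.of idM = (1 : Matrix (Fin 4) (Fin 4) ℝ) := by
  ext i j; simp [idM, Matrix.one_apply]

theorem mulM_assoc (a b c : Mat4) : mulM (mulM a b) c = mulM a (mulM b c) := by
  apply Matrix.of.injective
  rw [of_mulM, of_mulM, of_mulM, of_mulM, mul_assoc]

theorem mulM_idM (a : Mat4) : mulM a idM = a := by
  apply Matrix.of.injective
  rw [of_mulM, of_idM, mul_one]

theorem idM_mulM (a : Mat4) : mulM idM a = a := by
  apply Matrix.of.injective
  rw [of_mulM, of_idM, one_mul]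

theorem trM_mulM (a b : Mat4) : trM (mulM a b) = mulM (trM b) (trM a) := by
  apply Matrix.of.injective
  rw [of_mulM, of_trM, of_trM, of_trM, of_mulM, Matrix.transpose_mul]

theorem trM_idM : trM idM = idM := by
  funext i j; simp [trM, idM, eq_comm]

theorem trM_trM (a : Mat4) : trM (trM a) = a := rfl

theorem IsSO.idM : IsSO idM := by
  refine ⟨?_, ?_⟩
  · rw [trM_idM, mulM_idM]
  · rw [of_idM, Matrix.det_one]

theorem IsSO.mul_tr {g : Mat4} (hg : IsSO g) : mulM g (trM g) = HK.idM := by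
  apply Matrix.of.injective
  have h1 := congrArg Matrix.of hg.1
  rw [of_mulM, of_idM] at h1 ⊢
  exact mul_eq_one_comm.1 h1

theorem IsSO.mul {g h : Mat4} (hg : IsSO g) (hh : IsSO h) : IsSO (mulM g h) := by
  refine ⟨?_, ?_⟩
  · rw [trM_mulM, mulM_assoc, ← mulM_assoc (trM g) g h, hg.1, idM_mulM, hh.1]
  · rw [of_mulM, Matrix.det_mul, hg.2, hh.2, one_mul]

theorem IsSO.tr {g : Mat4} (hg : IsSO g) : IsSO (trM g) := by
  refine ⟨?_, ?_⟩
  · rw [trM_trM, hg.mul_tr]
  · rw [of_trM, Matrix.det_transpose, hg.2]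

/-! ### frames at a point -/

variable {E : Type} [NormedAddCommGroup E] [NormedSpace ℝ E] [FiniteDimensional ℝ E]
  {M : Type} [TopologicalSpace M] [ChartedSpace E M] [IsManifold 𝓘(ℝ, E) ∞ M] [T2Space M]
  [RiemannianBundle fun p : M => TangentSpace 𝓘(ℝ, E) p]
  [IsContMDiffRiemannianBundle 𝓘(ℝ, E) ∞ E fun p : M => TangentSpace 𝓘(ℝ, E) p]
  {cov : CovariantDerivative 𝓘(ℝ, E) E (TangentSpace 𝓘(ℝ, E) : M → Type)}
  {om : Form4 E M}

theorem fact_idM {p : M} (f : Fin 4 → TangentSpace 𝓘(ℝ, E) p) : fact f idM = f := by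
  funext j
  simp [fact, idM]

theorem fact_fact {p : M} (f : Fin 4 → TangentSpace 𝓘(ℝ, E) p) (g h : Mat4) :
    fact (fact f g) h = fact f (mulM g h) := by
  funext j
  simp only [fact, mulM, Finset.smul_sum, Finset.sum_smul, smul_smul]
  rw [Finset.sum_comm]
  refine Finset.sum_congr rfl fun i _ => Finset.sum_congr rfl fun k _ => ?_
  rw [mul_comm]

theorem pon_fact (h : Geo4 cov om) {p : M} {f : Fin 4 → TangentSpace 𝓘(ℝ, E) p}
    (hf : PON om p f) {g : Mat4} (hg : IsSO g) : PON om p (fact f g) :=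
  (sc0 h).2.2.1 p f g hf hg

/-- expansion of a vector in an orthonormal frame -/
theorem pon_expand (h : Geo4 cov om) {p : M} {f : Fin 4 → TangentSpace 𝓘(ℝ, E) p}
    (hf : Orthonormal ℝ f) (v : TangentSpace 𝓘(ℝ, E) p) :
    v = ∑ i, (inner ℝ (f i) v : ℝ) • f i := by
  have hT : Module.finrank ℝ (TangentSpace 𝓘(ℝ, E) p) = 4 := h.dim
  obtain ⟨b, hb⟩ := exists_onb hT hf
  rw [← hb]
  exact (b.sum_repr' v).symm

/-- the matrix between two positive orthonormal frames -/
theorem pon_matrix (h : Geo4 cov om) {p : M} {f f' : Fin 4 → TangentSpace 𝓘(ℝ, E) p}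
    (hf : PON om p f) (hf' : PON om p f') :
    IsSO (fun i j => (inner ℝ (f i) (f' j) : ℝ)) ∧
      f' = fact f fun i j => (inner ℝ (f i) (f' j) : ℝ) := by
  have hT : Module.finrank ℝ (TangentSpace 𝓘(ℝ, E) p) = 4 := h.dim
  exact exists_fact hT hf.1 hf'.1 hf.2 hf'.2

theorem inner_fact {p : M} {f : Fin 4 → TangentSpace 𝓘(ℝ, E) p} (hf : Orthonormal ℝ f)
    (g : Mat4) (i j : Fin 4) : (inner ℝ (f i) (fact f g j) : ℝ) = g i j := by
  rw [orthonormal_iff_ite] at hf
  simp only [fact, inner_sum, real_inner_smul_right, hf]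
  simp

/-! ### local frames -/

theorem PONnear.pon {p : M} {F : Fin 4 → VF E M} (hF : PONnear om p F) :
    PON om p fun i => F i p := hF.self_of_nhds

theorem PONnear.eventually {p : M} {F : Fin 4 → VF E M} (hF : PONnear om p F) :
    ∀ᶠ q in 𝓝 p, PONnear om q F := eventually_eventually_nhds.2 hF

/-- a local frame through a given frame -/
theorem exists_ponnear (h : Geo4 cov om) {p : M} {f : Fin 4 → TangentSpace 𝓘(ℝ, E) p}
    (hf : PON om p f) : ∃ F, PONnear om p F ∧ ∀ i, F i p = f i := by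
  obtain ⟨F, hF⟩ := sc0_sync h p f hf
  exact ⟨F, hF.1, hF.2.1⟩

/-- the transition matrix of two local frames -/
def gFF (F F' : Fin 4 → VF E M) (q : M) : Mat4 := fun i j => inner ℝ (F i q) (F' j q)

theorem gFF_smooth (F F' : Fin 4 → VF E M) :
    ContMDiff 𝓘(ℝ, E) 𝓘(ℝ, Mat4) ∞ (gFF F F') := by
  intro p
  rw [contMDiffAt_pi_space]
  intro i
  rw [contMDiffAt_pi_space]
  intro j
  exact (gVF (F i) (F' j)).contMDiff.contMDiffAt

theorem gFF_spec (h : Geo4 cov om) {p : M} {F F' : Fin 4 → VF E M} (hF : PONnear om p F)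
    (hF' : PONnear om p F') :
    ∀ᶠ q in 𝓝 p, IsSO (gFF F F' q) ∧ (fun i => F' i q) = fact (fun i => F i q) (gFF F F' q) := by
  filter_upwards [hF, hF'] with q h1 h2
  exact pon_matrix h h1 h2

theorem gFF_self {p : M} {F F' : Fin 4 → VF E M} (hF : PONnear om p F)
    (e : ∀ i, F' i p = F i p) : gFF F F' p = idM := by
  funext i j
  have := orthonormal_iff_ite.1 hF.pon.1 i j
  simp only [gFF, e j]
  exact this

/-- derivative of the transition matrix -/
theorem gFF_deriv (h : Geo4 cov om) (F F' : Fin 4 → VF E M) (p : M)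
    (v : TangentSpace 𝓘(ℝ, E) p) (i j : Fin 4) :
    mvfderiv 𝓘(ℝ, E) (fun q => gFF F F' q i j) p v =
      inner ℝ (cov (F i) p v) (F' j p) + inner ℝ (F i p) (cov (F' j) p v) := by
  obtain ⟨X, hX⟩ := exists_ext (E := E) p v
  have := h.lc.metric X (F i) (F' j) p
  rw [hX] at this
  exact this

/-! ### the connection matrices -/

theorem GaF_smooth (h : Geo4 cov om) (F : Fin 4 → VF E M) (k : Fin 4) :
    ContMDiff 𝓘(ℝ, E) 𝓘(ℝ, Mat4) ∞ (fun q => GaF cov F q k) := by
  intro p
  rw [contMDiffAt_pi_space]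
  intro i
  rw [contMDiffAt_pi_space]
  intro j
  exact (gVF (nabVF cov h.lc.smooth (F k) (F j)) (F i)).contMDiff.contMDiffAt

/-- connection matrix in a general direction -/
def GaV (cov : CovariantDerivative 𝓘(ℝ, E) E (TangentSpace 𝓘(ℝ, E) : M → Type))
    (F : Fin 4 → VF E M) (p : M) (v : TangentSpace 𝓘(ℝ, E) p) : Mat4 := fun i j =>
  inner ℝ (cov (F j) p v) (F i p)

theorem GaF_eq (F : Fin 4 → VF E M) (p : M) (k : Fin 4) :
    GaF cov F p k = GaV cov F p (F k p) := rfl

theorem GaV_skew (h : Geo4 cov om) {p : M} {F : Fin 4 → VF E M} (hF : PONnear om p F)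
    (v : TangentSpace 𝓘(ℝ, E) p) : IsSkew (GaV cov F p v) := by
  intro i j
  have h1 := gFF_deriv h F F p v i j
  have h2 : ∀ᶠ q in 𝓝 p, gVF (F i) (F j) q = algebraMap ℝ (SF E M) (if i = j then (1 : ℝ) else 0) q := by
    filter_upwards [hF] with q hq
    exact orthonormal_iff_ite.1 hq.1 i j
  obtain ⟨X, hX⟩ := exists_ext (E := E) p v
  have h3 : mvfderiv 𝓘(ℝ, E) (fun q => gFF F F q i j) p v = 0 := by
    have h4 := DVF_local p _ _ h2 X
    have h5 := congrArg (fun f : SF E M => f p)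
      ((lcOf h.lc).D_const X (if i = j then (1 : ℝ) else 0))
    have h6 : DVF X (gVF (F i) (F j)) p = 0 := h4.trans h5
    rw [DVF_apply, hX] at h6
    exact h6
  rw [h3] at h1
  change (inner ℝ (cov (F j) p v) (F i p) : ℝ) = - inner ℝ (cov (F i) p v) (F j p)
  rw [real_inner_comm (F i p) (cov (F j) p v)]
  linarith

theorem GaF_skew (h : Geo4 cov om) {p : M} {F : Fin 4 → VF E M} (hF : PONnear om p F)
    (k : Fin 4) : IsSkew (GaF cov F p k) := GaV_skew h hF _

theorem cov_expand (h : Geo4 cov om) {p : M} {F : Fin 4 → VF E M} (hF : PON om p fun i => F i p)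
    (v : TangentSpace 𝓘(ℝ, E) p) (j : Fin 4) :
    cov (F j) p v = ∑ i, GaV cov F p v i j • F i p := by
  have := pon_expand h hF.1 (cov (F j) p v)
  conv_lhs => rw [this]
  refine Finset.sum_congr rfl fun i _ => ?_
  congr 1
  exact real_inner_comm _ _

theorem SyncExt.GaV_zero {p : M} {f : Fin 4 → TangentSpace 𝓘(ℝ, E) p} {F : Fin 4 → VF E M}
    (hF : SyncExt cov om p f F) (v : TangentSpace 𝓘(ℝ, E) p) : GaV cov F p v = 0 := by
  funext i j
  simp [GaV, hF.2.2 j v]

end

end Vale.Agent.P211.HK
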