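import Vale.Agent.P211.HK.SecStmt

/-! P211 / HK / SC2 (helper861): the covariant derivative of a section is a section of `T ⊗ W`. -/

set_option maxSynthPendingDepth 3
set_option linter.unusedSectionVars false

namespace Vale.Agent.P211.HK

open scoped Manifold ContDiff Topology RealInnerProductSpace
open Bundle Filter VectorField MeasureTheory

noncomputable section

namespace SC2

/-! ### algebra -/

theorem isSO_trM {g : Mat4} (hg : IsSO g) : IsSO (trM g) := by
  have h1 : (Matrix.of (trM g)) * Matrix.of g = (1 : Matrix (Fin 4) (Fin 4) ℝ) := by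
    ext i j
    have := congrFun (congrFun hg.1 i) j
    simp only [mulM, idM, trM] at this
    rw [Matrix.mul_apply, Matrix.one_apply]
    exact this
  have h2 : Matrix.of g * (Matrix.of (trM g)) = (1 : Matrix (Fin 4) (Fin 4) ℝ) :=
    mul_eq_one_comm.1 h1
  refine ⟨?_, ?_⟩
  · funext i j
    have := congrFun (congrFun h2 i) j
    rw [Matrix.mul_apply, Matrix.one_apply] at this
    exact this
  · have : Matrix.of (trM g) = (Matrix.of g).transpose := by ext i j; rfl
    rw [this, Matrix.det_transpose]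
    exact hg.2

variable {W W' : Type} [NormedAddCommGroup W] [InnerProductSpace ℝ W]
  [NormedAddCommGroup W'] [InnerProductSpace ℝ W']

theorem tnMap_apply (m : Mat4) (a : W →L[ℝ] W) (w : Tn W) (k : Fin 4) :
    (tnMap m a w) k = ∑ l, m k l • a (w l) := by
  unfold tnMap
  simp only [FunLike.coe_sum, Finset.sum_apply, FunLike.coe_smul,
    Pi.smul_apply, ContinuousLinearMap.coe_comp, Function.comp_apply, PiLp.proj_apply,
    WithLp.ofLp_sum, WithLp.ofLp_smul]
  rw [Finset.sum_eq_single k]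
  · refine Finset.sum_congr rfl fun l _ => ?_
    simp
  · intro b _ hb
    refine Finset.sum_eq_zero fun l _ => ?_
    simp [hb.symm]
  · simp

theorem mkT_apply (w : Fin 4 → W) (k : Fin 4) : (mkT w) k = w k := rfl

/-! ### smoothness -/

variable {E : Type} [NormedAddCommGroup E] [NormedSpace ℝ E] [FiniteDimensional ℝ E]
  {M : Type} [TopologicalSpace M] [ChartedSpace E M] [IsManifold 𝓘(ℝ, E) ∞ M] [T2Space M]

theorem dirW_clm {φ : M → W} {p : M} (ℓ : W →L[ℝ] W')
    (h : ContMDiffAt 𝓘(ℝ, E) 𝓘(ℝ, W) ∞ φ p) (v : TangentSpace 𝓘(ℝ, E) p) :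
    dirW (fun q => ℓ (φ q)) p v = ℓ (dirW φ p v) := by
  have h6 := mfderiv_comp_apply (I := 𝓘(ℝ, E)) (I' := 𝓘(ℝ, W)) (I'' := 𝓘(ℝ, W')) p
    (g := ℓ) (f := φ) ((ℓ.contMDiff (n := ∞)).mdifferentiableAt (by simp))
    (h.mdifferentiableAt (by simp)) v
  have h7 : mfderiv 𝓘(ℝ, W) 𝓘(ℝ, W') ℓ (φ p) = ℓ := by
    rw [mfderiv_eq_fderiv, ContinuousLinearMap.fderiv]
  rw [h7] at h6
  exact h6

theorem dirW_congr {φ ψ : M → W} {p : M} (h : ∀ᶠ q in 𝓝 p, φ q = ψ q)
    (v : TangentSpace 𝓘(ℝ, E) p) : dirW φ p v = dirW ψ p v := by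
  have h' : φ =ᶠ[𝓝 p] ψ := h
  unfold dirW
  exact congrArg (fun L : TangentSpace 𝓘(ℝ, E) p →L[ℝ] W => L v)
    (h'.mfderiv_eq (I := 𝓘(ℝ, E)) (I' := 𝓘(ℝ, W)))

theorem dirW_sum_vec {φ : M → W} {p : M} {ι : Type} (s : Finset ι) (c : ι → ℝ)
    (v : ι → TangentSpace 𝓘(ℝ, E) p) :
    dirW φ p (∑ i ∈ s, c i • v i) = ∑ i ∈ s, c i • dirW φ p (v i) := by
  have h1 := map_sum (mfderiv 𝓘(ℝ, E) 𝓘(ℝ, W) φ p) (fun i => c i • v i) s
  have h2 : ∀ i, mfderiv 𝓘(ℝ, E) 𝓘(ℝ, W) φ p (c i • v i) =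
      c i • mfderiv 𝓘(ℝ, E) 𝓘(ℝ, W) φ p (v i) := fun i => map_smul _ _ _
  simp only [h2] at h1
  exact h1

/-- the derivative of a smooth vector valued function along a smooth field is smooth -/
theorem contMDiffAt_dirW [FiniteDimensional ℝ W] {φ : M → W} {p : M}
    (h : ∀ᶠ q in 𝓝 p, ContMDiffAt 𝓘(ℝ, E) 𝓘(ℝ, W) ∞ φ q) (X : VF E M) :
    ContMDiffAt 𝓘(ℝ, E) 𝓘(ℝ, W) ∞ (fun q => dirW φ q (X q)) p := by
  let b := Module.finBasis ℝ W
  let ℓ : Fin (Module.finrank ℝ W) → W →L[ℝ] ℝ := fun i => (b.coord i).toContinuousLinearMap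
  have h1 : ∀ i, ∃ f : SF E M, ∀ᶠ y in 𝓝 p, f y = ℓ i (φ y) := by
    intro i
    refine cut_fun (E := E) (U := {q | ContMDiffAt 𝓘(ℝ, E) 𝓘(ℝ, W) ∞ φ q}) h fun q hq => ?_
    exact ((ℓ i).contMDiff.contMDiffAt.comp q hq).contMDiffWithinAt
  choose f hf using h1
  have h2 : (fun q => dirW φ q (X q)) =ᶠ[𝓝 p] fun q => ∑ i, (DVF X (f i) q : ℝ) • b i := by
    have h3 : ∀ᶠ q in 𝓝 p, ∀ i, ∀ᶠ y in 𝓝 q, f i y = ℓ i (φ y) :=
      eventually_all.2 fun i => (hf i).eventually_nhds
    filter_upwards [h, h3] with q hq hq3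
    have h4 : ∀ i, (DVF X (f i) q : ℝ) = ℓ i (dirW φ q (X q)) := by
      intro i
      rw [← dirW_clm (ℓ i) hq (X q)]
      exact dirW_congr (W := ℝ) (hq3 i) (X q)
    simp only [h4]
    exact (b.sum_repr _).symm
  refine ContMDiffAt.congr_of_eventuallyEq ?_ h2
  refine ContMDiffAt.sum fun i _ => ?_
  exact ((DVF X (f i)).contMDiff p).smul contMDiffAt_const

variable [RiemannianBundle fun p : M => TangentSpace 𝓘(ℝ, E) p]
  [IsContMDiffRiemannianBundle 𝓘(ℝ, E) ∞ E fun p : M => TangentSpace 𝓘(ℝ, E) p]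

theorem PONnear.eventually {om : Form4 E M} {p : M} {F : Fin 4 → VF E M} (h : PONnear om p F) :
    ∀ᶠ q in 𝓝 p, PONnear om q F := Filter.Eventually.eventually_nhds h

/-- change of a frame of fields by a constant matrix -/
def chF (F : Fin 4 → VF E M) (g : Mat4) : Fin 4 → VF E M := fun j => ∑ i, g i j • F i

theorem chF_apply (F : Fin 4 → VF E M) (g : Mat4) (q : M) :
    (fun j => chF F g j q) = fact (fun i => F i q) g := by
  funext j
  unfold chF fact
  rw [VF.sum_apply]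
  rfl

variable {cov : CovariantDerivative 𝓘(ℝ, E) E (TangentSpace 𝓘(ℝ, E) : M → Type)}
  {om : Form4 E M}

/-- the covariant derivative of global fields at a point, as a linear map -/
def covL (cov : CovariantDerivative 𝓘(ℝ, E) E (TangentSpace 𝓘(ℝ, E) : M → Type)) (p : M)
    (v : TangentSpace 𝓘(ℝ, E) p) : VF E M →ₗ[ℝ] TangentSpace 𝓘(ℝ, E) p where
  toFun Y := cov Y p v
  map_add' X Y := by
    have h := cov.isCovariantDerivativeOnUniv.add (X.mdiff p) (Y.mdiff p)
    exact congrArg (fun L : TangentSpace 𝓘(ℝ, E) p →L[ℝ] TangentSpace 𝓘(ℝ, E) p => L v) h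
  map_smul' c Y := by
    have h := cov.isCovariantDerivativeOnUniv.smul_const c (Y.mdiff p)
    exact congrArg (fun L : TangentSpace 𝓘(ℝ, E) p →L[ℝ] TangentSpace 𝓘(ℝ, E) p => L v) h

theorem cov_chF (F : Fin 4 → VF E M) (g : Mat4) (j : Fin 4) (p : M)
    (v : TangentSpace 𝓘(ℝ, E) p) : cov (chF F g j) p v = ∑ i, g i j • cov (F i) p v := by
  have h := map_sum (covL cov p v) (fun i => g i j • F i) Finset.univ
  have h2 : ∀ i, covL cov p v (g i j • F i) = g i j • covL cov p v (F i) := fun i => map_smul _ _ _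
  simp only [h2] at h
  exact h

theorem d_zero (R : Rep W) : R.d 0 = 0 := map_zero (fderiv ℝ R.ρ idM)

/-- smoothness of the connection matrices -/
theorem contMDiff_GaF (hcov : IsLC cov) (F : Fin 4 → VF E M) (k : Fin 4) :
    ContMDiff 𝓘(ℝ, E) 𝓘(ℝ, Mat4) ∞ fun q => GaF cov F q k := by
  have h : ∀ i j, ContMDiff 𝓘(ℝ, E) 𝓘(ℝ, ℝ) ∞ fun q => GaF cov F q k i j := fun i j =>
    (gVF (nabVF cov hcov.smooth (F k) (F j)) (F i)).contMDiff
  rw [contMDiff_pi_space]
  intro i
  rw [contMDiff_pi_space]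
  intro j
  exact h i j

end SC2

open SC2

variable {E : Type} [NormedAddCommGroup E] [NormedSpace ℝ E] [FiniteDimensional ℝ E]
  {M : Type} [TopologicalSpace M] [ChartedSpace E M] [IsManifold 𝓘(ℝ, E) ∞ M] [T2Space M]
  [RiemannianBundle fun p : M => TangentSpace 𝓘(ℝ, E) p]
  [IsContMDiffRiemannianBundle 𝓘(ℝ, E) ∞ E fun p : M => TangentSpace 𝓘(ℝ, E) p]
  (cov : CovariantDerivative 𝓘(ℝ, E) E (TangentSpace 𝓘(ℝ, E) : M → Type))
  (om : Form4 E M)

theorem sc2_of (h0 : SC0Stmt cov om) (h1 : SC1Stmt cov om) : SC2Stmt cov om := by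
  intro hg W _ _ _ R R' hT u hu
  obtain ⟨hs0, -, hs2, -, -⟩ := h0 hg
  have h1' := h1 hg W R u hu
  obtain ⟨hu1, hu2, hu3⟩ := hu
  refine ⟨fun p f hf => ?_, fun p f g hf hgS => ?_, fun F p hF => ?_⟩
  · unfold nabS
    rw [dif_neg fun h => hf h.1]
  · obtain ⟨F, hF1, hF2, hF3⟩ := hs0 p f hf
    have hF2' : (fun i => F i p) = f := funext hF2
    subst hF2'
    have hch : PONnear om p (chF F g) := by
      filter_upwards [hF1] with q hq
      rw [chF_apply]
      exact hs2 q _ g hq hgS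
    have hcov0 : ∀ j v, cov (chF F g j) p v = 0 := by
      intro j v
      rw [cov_chF]
      refine Finset.sum_eq_zero fun i _ => ?_
      rw [hF3, smul_zero]
    have hG : ∀ k, GaF cov (chF F g) p k = 0 := by
      intro k
      funext i j
      unfold GaF
      rw [hcov0, inner_zero_left]
      rfl
    have hG0 : ∀ k, GaF cov F p k = 0 := by
      intro k
      funext i j
      unfold GaF
      rw [hF3, inner_zero_left]
      rfl
    have e1 := h1' p (chF F g) hch
    have e2 := h1' p F hF1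
    rw [chF_apply] at e1
    rw [hT _ (isSO_trM hgS)]
    ext k
    rw [tnMap_apply, e1 k, hG, d_zero]
    have e3 : ∀ l, (nabS cov om u p fun i => F i p) l =
        dirW (fun q => u q fun i => F i q) p (F l p) := by
      intro l
      rw [e2 l, hG0, d_zero]
      simp
    simp only [e3]
    have e4 : dirW (fun q => u q fun i => chF F g i q) p (chF F g k p) =
        dirW (fun q => R.ρ (trM g) (u q fun i => F i q)) p (chF F g k p) := by
      refine dirW_congr ?_ _
      filter_upwards [hF1] with q hq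
      rw [chF_apply]
      exact hu2 q _ g hq hgS
    have e5 : chF F g k p = ∑ l, g l k • F l p := congrFun (chF_apply F g p) k
    rw [e4, dirW_clm _ (hu3 F p hF1), e5, dirW_sum_vec, map_sum]
    simp [trM]
  · have hF' := PONnear.eventually hF
    have h2 : (fun q => nabS cov om u q fun i => F i q) =ᶠ[𝓝 p] fun q =>
        mkT fun k => dirW (fun q => u q fun i => F i q) q (F k q) +
          R.d (GaF cov F q k) (u q fun i => F i q) := by
      filter_upwards [hF'] with q hq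
      ext k
      exact h1' q F hq k
    refine ContMDiffAt.congr_of_eventuallyEq ?_ h2
    have h3 : ∀ k, ContMDiffAt 𝓘(ℝ, E) 𝓘(ℝ, W) ∞ (fun q =>
        dirW (fun q => u q fun i => F i q) q (F k q) +
          R.d (GaF cov F q k) (u q fun i => F i q)) p := by
      intro k
      refine ContMDiffAt.add ?_ ?_
      · exact contMDiffAt_dirW (hF'.mono fun q hq => hu3 F q hq) (F k)
      · have h4 : ContMDiffAt 𝓘(ℝ, E) 𝓘(ℝ, W →L[ℝ] W) ∞ (fun q => R.d (GaF cov F q k)) p :=
          (fderiv ℝ R.ρ idM).contMDiff.contMDiffAt.comp p (contMDiff_GaF hg.lc F k p)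
        exact h4.clm_apply (hu3 F p hF)
    have h5 : ContMDiffAt 𝓘(ℝ, E) 𝓘(ℝ, Fin 4 → W) ∞ (fun q => fun k =>
        dirW (fun q => u q fun i => F i q) q (F k q) +
          R.d (GaF cov F q k) (u q fun i => F i q)) p := by
      rw [contMDiffAt_pi_space]
      exact h3
    exact ((PiLp.continuousLinearEquiv 2 ℝ fun _ : Fin 4 => W).symm : (Fin 4 → W) →L[ℝ] Tn W)
      |>.contMDiff.contMDiffAt.comp p h5

end

end Vale.Agent.P211.HK
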