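import Vale.Agent.P211.HK.SC1
import Vale.Agent.P211.HK.SC2

/-! P211 / HK, block SC6 (helper527): integration by parts for sections. -/

set_option maxSynthPendingDepth 3
set_option linter.unusedSectionVars false

namespace Vale.Agent.P211.HK

open scoped Manifold ContDiff Topology RealInnerProductSpace
open Bundle Filter VectorField MeasureTheory

noncomputable section

variable {E : Type} [NormedAddCommGroup E] [NormedSpace ℝ E] [FiniteDimensional ℝ E]
  {M : Type} [TopologicalSpace M] [ChartedSpace E M] [IsManifold 𝓘(ℝ, E) ∞ M] [T2Space M]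
  [RiemannianBundle fun p : M => TangentSpace 𝓘(ℝ, E) p]
  [IsContMDiffRiemannianBundle 𝓘(ℝ, E) ∞ E fun p : M => TangentSpace 𝓘(ℝ, E) p]

namespace SC6

theorem mulM_eq (g h : Mat4) : (Matrix.of (mulM g h)) = Matrix.of g * Matrix.of h := by
  ext i j
  simp [mulM, Matrix.mul_apply]

theorem of_idM : (Matrix.of idM) = (1 : Matrix (Fin 4) (Fin 4) ℝ) := by
  ext i j
  simp [idM, Matrix.one_apply]

theorem isSO_row {g : Mat4} (h : IsSO g) (l i : Fin 4) :
    ∑ k, g l k * g i k = if l = i then 1 else 0 := by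
  have h1 : Matrix.of (trM g) * Matrix.of g = 1 := by
    rw [← mulM_eq, h.1, of_idM]
  have h2 : Matrix.of g * Matrix.of (trM g) = 1 := mul_eq_one_comm.1 h1
  have h3 := congrFun (congrFun h2 l) i
  simpa [Matrix.mul_apply, trM, Matrix.one_apply] using h3

theorem isSO_tr {g : Mat4} (h : IsSO g) : IsSO (trM g) := by
  refine ⟨?_, ?_⟩
  · funext l i
    have := isSO_row h l i
    simpa [mulM, trM, idM] using this
  · have h1 : (Matrix.of (trM g)) = (Matrix.of g).transpose := by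
      ext i j
      simp [trM]
    rw [h1, Matrix.det_transpose]
    exact h.2

variable {W W' : Type} [NormedAddCommGroup W] [InnerProductSpace ℝ W]
  [NormedAddCommGroup W'] [InnerProductSpace ℝ W']

theorem tnMap_apply (m : Mat4) (a : W →L[ℝ] W) (v : Tn W) (k : Fin 4) :
    (tnMap m a v) k = ∑ l, m k l • a (v l) := by
  simp only [tnMap, sum_apply, smul_apply, ContinuousLinearMap.comp_apply,
    ContinuousLinearEquiv.coe_coe, PiLp.proj_apply, WithLp.ofLp_sum, WithLp.ofLp_smul,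
    Finset.sum_apply, Pi.smul_apply, ContinuousLinearMap.single_apply,
    PiLp.continuousLinearEquiv_symm_apply]
  rw [Finset.sum_eq_single k]
  · simp
  · intro b _ hb
    simp [Ne.symm hb]
  · simp

variable {cov : CovariantDerivative 𝓘(ℝ, E) E (TangentSpace 𝓘(ℝ, E) : M → Type)} {om : Form4 E M}

theorem dirW_comp (L : W →L[ℝ] W') {a : M → W} {p : M}
    (ha : MDifferentiableAt 𝓘(ℝ, E) 𝓘(ℝ, W) a p) (v : TangentSpace 𝓘(ℝ, E) p) :
    dirW (fun q => L (a q)) p v = L (dirW a p v) := by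
  have h1 : HasMFDerivAt 𝓘(ℝ, W) 𝓘(ℝ, W') L (a p) L := L.hasMFDerivAt
  have h2 := h1.comp p ha.hasMFDerivAt
  rw [dirW, dirW]
  have h3 := h2.mfderiv
  have h4 : (L ∘ a) = fun q => L (a q) := rfl
  rw [h4] at h3
  rw [h3]
  rfl

theorem dir_inner {a b : M → W} {p : M} (ha : MDifferentiableAt 𝓘(ℝ, E) 𝓘(ℝ, W) a p)
    (hb : MDifferentiableAt 𝓘(ℝ, E) 𝓘(ℝ, W) b p) (v : TangentSpace 𝓘(ℝ, E) p) :
    (mvfderiv 𝓘(ℝ, E) (fun q => ⟪a q, b q⟫) p v : ℝ) =
      ⟪dirW a p v, b p⟫ + ⟪a p, dirW b p v⟫ := by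
  obtain ⟨hac, had⟩ := ha.hasMFDerivAt
  obtain ⟨hbc, hbd⟩ := hb.hasMFDerivAt
  have h1 := HasFDerivWithinAt.inner ℝ had hbd
  have h2 : HasMFDerivAt 𝓘(ℝ, E) 𝓘(ℝ) (fun q => ⟪a q, b q⟫) p _ :=
    ⟨hac.inner hbc, h1⟩
  rw [mvfderiv, h2.mfderiv]
  have e : (extChartAt 𝓘(ℝ, E) p).symm (extChartAt 𝓘(ℝ, E) p p) = p :=
    extChartAt_to_inv (I := 𝓘(ℝ, E)) p
  have ea : writtenInExtChartAt 𝓘(ℝ, E) 𝓘(ℝ, W) p a (extChartAt 𝓘(ℝ, E) p p) = a p := by
    simp [writtenInExtChartAt, chartAt_self_eq]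
  have eb : writtenInExtChartAt 𝓘(ℝ, E) 𝓘(ℝ, W) p b (extChartAt 𝓘(ℝ, E) p p) = b p := by
    simp [writtenInExtChartAt, chartAt_self_eq]
  rw [ea, eb]
  change ⟪a p, dirW b p v⟫ + ⟪dirW a p v, b p⟫ = _
  rw [add_comm]
theorem exists_PONnear (h0 : SC0Stmt cov om) (hg : Geo4 cov om) (p : M) :
    ∃ F : Fin 4 → VF E M, PONnear om p F := by
  obtain ⟨h1, h2, -⟩ := h0 hg
  obtain ⟨f, hf⟩ := h2 p
  obtain ⟨F, hF⟩ := h1 p f hf
  exact ⟨F, hF.1⟩

theorem inner_inv (h0 : SC0Stmt cov om) (hg : Geo4 cov om) {R : Rep W} {a b : PreS E M W}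
    (ha : a ∈ Sec om R) (hb : b ∈ Sec om R) {p : M} {f f' : Fin 4 → TangentSpace 𝓘(ℝ, E) p}
    (hf : PON om p f) (hf' : PON om p f') : ⟪a p f, b p f⟫ = ⟪a p f', b p f'⟫ := by
  obtain ⟨g, hg1, rfl⟩ := (h0 hg).2.2.2.1 p f f' hf hf'
  rw [ha.2.1 p f g hf hg1, hb.2.1 p f g hf hg1, R.inner _ (isSO_tr hg1)]

theorem inner_smooth (h0 : SC0Stmt cov om) (hg : Geo4 cov om) {R : Rep W} {a b : PreS E M W}
    (ha : a ∈ Sec om R) (hb : b ∈ Sec om R) {fr : (p : M) → Fin 4 → TangentSpace 𝓘(ℝ, E) p}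
    (hfr : ∀ p, PON om p (fr p)) :
    ContMDiff 𝓘(ℝ, E) 𝓘(ℝ) ∞ (fun p => ⟪a p (fr p), b p (fr p)⟫) := by
  intro p
  obtain ⟨F, hF⟩ := exists_PONnear h0 hg p
  have h3 : ContMDiffAt 𝓘(ℝ, E) 𝓘(ℝ) ∞
      (fun q => ⟪a q (fun i => F i q), b q (fun i => F i q)⟫) p :=
    (contDiff_inner (𝕜 := ℝ) (E := W) (n := ∞)).contMDiff.contMDiffAt.comp p
      ((ha.2.2 F p hF).prodMk_space (hb.2.2 F p hF))
  refine h3.congr_of_eventuallyEq ?_
  filter_upwards [hF] with q hq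
  exact inner_inv h0 hg ha hb (hfr q) hq

/-- the vector field `∑ ⟨u, η_k⟩ f_k` -/
def vecF (fr : (p : M) → Fin 4 → TangentSpace 𝓘(ℝ, E) p) (u : PreS E M W)
    (η : PreS E M (Tn W)) : (p : M) → TangentSpace 𝓘(ℝ, E) p := fun p =>
  ∑ k, ⟪u p (fr p), (η p (fr p)) k⟫ • fr p k

theorem vecF_eq (h0 : SC0Stmt cov om) (hg : Geo4 cov om) {R : Rep W} {R' : Rep (Tn W)}
    (hR : Tens R R') {u : PreS E M W} {η : PreS E M (Tn W)} (hu : u ∈ Sec om R)
    (hη : η ∈ Sec om R') {fr : (p : M) → Fin 4 → TangentSpace 𝓘(ℝ, E) p}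
    (hfr : ∀ p, PON om p (fr p)) {p : M} {f : Fin 4 → TangentSpace 𝓘(ℝ, E) p}
    (hf : PON om p f) :
    vecF fr u η p = ∑ k, ⟪u p f, (η p f) k⟫ • f k := by
  obtain ⟨g, hg1, hfg⟩ := (h0 hg).2.2.2.1 p (fr p) f (hfr p) hf
  subst hfg
  rw [hu.2.1 p _ g (hfr p) hg1, hη.2.1 p _ g (hfr p) hg1, hR _ (isSO_tr hg1), vecF]
  have h1 : ∀ k, ⟪R.ρ (trM g) (u p (fr p)),
      (tnMap (trM g) (R.ρ (trM g)) (η p (fr p))) k⟫ =
      ∑ l, g l k * ⟪u p (fr p), (η p (fr p)) l⟫ := by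
    intro k
    rw [tnMap_apply, inner_sum]
    refine Finset.sum_congr rfl fun l _ => ?_
    rw [inner_smul_right, R.inner _ (isSO_tr hg1)]
    rfl
  simp only [h1, fact]
  have h2 : ∀ k : Fin 4, (∑ l, g l k * ⟪u p (fr p), (η p (fr p)) l⟫) •
      ∑ i, g i k • fr p i =
      ∑ i, ∑ l, (g l k * g i k * ⟪u p (fr p), (η p (fr p)) l⟫) • fr p i := by
    intro k
    rw [Finset.smul_sum]
    refine Finset.sum_congr rfl fun i _ => ?_
    rw [← Finset.sum_smul, smul_smul, Finset.sum_mul]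
    congr 1
    refine Finset.sum_congr rfl fun l _ => by ring
  simp only [h2]
  rw [Finset.sum_comm]
  refine Finset.sum_congr rfl fun i _ => ?_
  rw [Finset.sum_comm]
  have h3 : ∀ l, ∑ k, (g l k * g i k * ⟪u p (fr p), (η p (fr p)) l⟫) • fr p i =
      (if l = i then ⟪u p (fr p), (η p (fr p)) l⟫ else 0) • fr p i := by
    intro l
    rw [← Finset.sum_smul, ← Finset.sum_mul, isSO_row hg1]
    split_ifs <;> simp
  simp only [h3]
  rw [Finset.sum_eq_single i]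
  · simp
  · intro b _ hb
    simp [hb]
  · simp

theorem coef_smooth {R : Rep W} {R' : Rep (Tn W)}
    {u : PreS E M W} {η : PreS E M (Tn W)} (hu : u ∈ Sec om R)
    (hη : η ∈ Sec om R') {p : M} {F : Fin 4 → VF E M} (hF : PONnear om p F) (k : Fin 4) :
    ContMDiffAt 𝓘(ℝ, E) 𝓘(ℝ) ∞
      (fun q => ⟪u q (fun i => F i q), (η q (fun i => F i q)) k⟫) p := by
  have h1 : ContMDiffAt 𝓘(ℝ, E) 𝓘(ℝ, W) ∞ (fun q => (η q (fun i => F i q)) k) p :=
    ((PiLp.proj 2 (𝕜 := ℝ) (fun _ : Fin 4 => W) k).contMDiff (n := ∞)).contMDiffAt.comp p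
      (hη.2.2 F p hF)
  exact (contDiff_inner (𝕜 := ℝ) (E := W) (n := ∞)).contMDiff.contMDiffAt.comp p
      ((hu.2.2 F p hF).prodMk_space h1)

/-- the vector field as a smooth field -/
theorem exists_vec (h0 : SC0Stmt cov om) (hg : Geo4 cov om) {R : Rep W} {R' : Rep (Tn W)}
    (hR : Tens R R') {u : PreS E M W} {η : PreS E M (Tn W)} (hu : u ∈ Sec om R)
    (hη : η ∈ Sec om R') {fr : (p : M) → Fin 4 → TangentSpace 𝓘(ℝ, E) p}
    (hfr : ∀ p, PON om p (fr p)) : ∃ X : VF E M, ∀ p, X p = vecF fr u η p := by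
  refine ⟨⟨vecF fr u η, fun p => ?_⟩, fun p => rfl⟩
  obtain ⟨F, hF⟩ := exists_PONnear h0 hg p
  have h1 : ContMDiffAt 𝓘(ℝ, E) (𝓘(ℝ, E).prod 𝓘(ℝ, E)) ∞
      (fun q => (⟨q, ∑ k, ⟪u q (fun i => F i q), (η q (fun i => F i q)) k⟫ • F k q⟩ :
        TangentBundle 𝓘(ℝ, E) M)) p := by
    refine ContMDiffAt.sum_section fun k _ => ?_
    exact (coef_smooth hu hη hF k).smul_section (F k).contMDiff.contMDiffAt
  refine h1.congr_of_eventuallyEq ?_
  filter_upwards [hF] with q hq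
  rw [vecF_eq h0 hg hR hu hη hfr hq]

/-- divergence of the vector field -/
theorem div_vec (h0 : SC0Stmt cov om) (hg : Geo4 cov om) {R : Rep W} {R' : Rep (Tn W)}
    (hR : Tens R R') {u : PreS E M W} {η : PreS E M (Tn W)} (hu : u ∈ Sec om R)
    (hη : η ∈ Sec om R') {fr : (p : M) → Fin 4 → TangentSpace 𝓘(ℝ, E) p}
    (hfr : ∀ p, PON om p (fr p)) {X : VF E M} (hX : ∀ p, X p = vecF fr u η p)
    {p : M} {f : Fin 4 → TangentSpace 𝓘(ℝ, E) p} (hf : PON om p f) :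
    ∑ i, inner ℝ (cov X p (f i)) (f i) =
      (∑ k, ⟪(nabS cov om u p f) k, (η p f) k⟫) + ⟪u p f, ∑ k, (nabS cov om η p f) k k⟫ := by
  have hh : PON om p f ∧ ∃ F : Fin 4 → VF E M, SyncExt cov om p f F := ⟨hf, (h0 hg).1 p f hf⟩
  obtain ⟨F, hFdef⟩ : ∃ F : Fin 4 → VF E M, F = hh.2.choose := ⟨_, rfl⟩
  have hF : SyncExt cov om p f F := hFdef ▸ hh.2.choose_spec
  have hn : ∀ {V : Type} [NormedAddCommGroup V] [InnerProductSpace ℝ V] (v : PreS E M V)
      (k : Fin 4), (nabS cov om v p f) k = dirW (fun q => v q fun i => F i q) p (f k) := by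
    intro V _ _ v k
    rw [hFdef]
    simp only [nabS, dif_pos hh]
    rfl
  -- the coefficients
  have hsm : ∀ k, ∃ φ : SF E M, ∀ᶠ q in 𝓝 p,
      φ q = ⟪u q (fun i => F i q), (η q (fun i => F i q)) k⟫ := by
    intro k
    have hU : {q | PONnear om q F} ∈ 𝓝 p := hF.1.eventually_nhds
    exact cut_fun hU fun q hq => (coef_smooth hu hη hq k).contMDiffWithinAt
  choose φ hφ using hsm
  have hXF : ∀ᶠ q in 𝓝 p, X q = (∑ k, φ k • F k : VF E M) q := by
    filter_upwards [hF.1, eventually_all.2 hφ] with q hq hq2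
    rw [hX, vecF_eq h0 hg hR hu hη hfr hq, VF.sum_apply]
    refine Finset.sum_congr rfl fun k _ => ?_
    rw [smulVF_apply, hq2 k]
  have hmu : MDifferentiableAt 𝓘(ℝ, E) 𝓘(ℝ, W) (fun q => u q fun i => F i q) p :=
    (hu.2.2 F p hF.1).mdifferentiableAt (by simp)
  have hmη : MDifferentiableAt 𝓘(ℝ, E) 𝓘(ℝ, Tn W) (fun q => η q fun i => F i q) p :=
    (hη.2.2 F p hF.1).mdifferentiableAt (by simp)
  have hmk : ∀ k, MDifferentiableAt 𝓘(ℝ, E) 𝓘(ℝ, W) (fun q => (η q fun i => F i q) k) p := by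
    intro k
    exact ((PiLp.proj 2 (𝕜 := ℝ) (fun _ : Fin 4 => W) k).mdifferentiableAt).comp p hmη
  have hcov : ∀ v : TangentSpace 𝓘(ℝ, E) p, cov X p v =
      ∑ k, (⟪dirW (fun q => u q fun i => F i q) p v, (η p f) k⟫ +
        ⟪u p f, (dirW (fun q => η q fun i => F i q) p v) k⟫) • f k := by
    intro v
    obtain ⟨V, hV⟩ := exists_ext (E := E) p v
    have h1 : cov X p = cov (∑ k, φ k • F k : VF E M) p :=
      cov.isCovariantDerivativeOnUniv.congr_of_eventuallyEq (X.mdiff p) (VF.mdiff _ p)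
        univ_mem hXF
    have h2 : cov (∑ k, φ k • F k : VF E M) p v =
        nabVF cov hg.lc.smooth V (∑ k, φ k • F k) p := by
      rw [nabVF_apply, hV]
    rw [h1, h2, nab_sum_apply hg.lc]
    refine Finset.sum_congr rfl fun k _ => ?_
    rw [nab_smul_apply hg.lc, nabVF_apply, hV, hF.2.2 k v, smul_zero, add_zero, hF.2.1 k,
      DVF_apply, hV]
    congr 1
    have h3 : (mvfderiv 𝓘(ℝ, E) (φ k) p v : ℝ) =
        mvfderiv 𝓘(ℝ, E) (fun q => ⟪u q (fun i => F i q), (η q (fun i => F i q)) k⟫) p v := by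
      have h4 : (φ k : M → ℝ) =ᶠ[𝓝 p]
          fun q => ⟪u q (fun i => F i q), (η q (fun i => F i q)) k⟫ := hφ k
      rw [mvfderiv, mvfderiv, h4.mfderiv_eq, h4.self_of_nhds]
    rw [h3, dir_inner hmu (hmk k)]
    have h5 : (fun i => F i p) = f := funext hF.2.1
    have h6 := dirW_comp (PiLp.proj 2 (𝕜 := ℝ) (fun _ : Fin 4 => W) k) hmη v
    have h7 : dirW (fun q => (η q fun i => F i q) k) p v =
        (dirW (fun q => η q fun i => F i q) p v) k := h6
    rw [h7, h5]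
  have hon := hf.1
  have hkey : ∀ i, (inner ℝ (cov X p (f i)) (f i) : ℝ) =
      ⟪(nabS cov om u p f) i, (η p f) i⟫ + ⟪u p f, (nabS cov om η p f) i i⟫ := by
    intro i
    rw [hcov, sum_inner, Finset.sum_eq_single i]
    · rw [real_inner_smul_left, real_inner_self_eq_norm_sq, hon.1 i, hn u i, hn η i]
      simp
    · intro b _ hb
      rw [real_inner_smul_left, hon.2 hb, mul_zero]
    · simp
  simp only [hkey]
  rw [Finset.sum_add_distrib, inner_sum]

/-- the divergence of a smooth field is continuous -/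
theorem div_cont (h0 : SC0Stmt cov om) (hg : Geo4 cov om) (X : VF E M) {d : M → ℝ}
    (hd : ∀ p f, PON om p f → d p = ∑ i, inner ℝ (cov X p (f i)) (f i)) :
    ContMDiff 𝓘(ℝ, E) 𝓘(ℝ) ∞ d := by
  intro p
  obtain ⟨F, hF⟩ := exists_PONnear h0 hg p
  have h1 : ContMDiffAt 𝓘(ℝ, E) 𝓘(ℝ) ∞
      (∑ i, gVF (nabVF cov hg.lc.smooth (F i) X) (F i) : SF E M) p :=
    (∑ i, gVF (nabVF cov hg.lc.smooth (F i) X) (F i) : SF E M).contMDiff.contMDiffAt
  refine h1.congr_of_eventuallyEq ?_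
  filter_upwards [hF] with q hq
  rw [hd q _ hq, SF.sum_apply]
  rfl

section meas

variable [MeasurableSpace M] [BorelSpace M] [CompactSpace M]

theorem integrable_of_smooth {μ : Measure M} [IsFiniteMeasure μ] {d : M → ℝ}
    (hd : ContMDiff 𝓘(ℝ, E) 𝓘(ℝ) ∞ d) : Integrable d μ :=
  hd.continuous.integrable_of_hasCompactSupport (HasCompactSupport.of_compactSpace d)

theorem sc6_of (h0 : SC0Stmt cov om) (h2 : SC2Stmt cov om) (μ : Measure M) :
    SC6Stmt cov om μ := by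
  intro hg hfin hdiv W _ _ _ R R' hR fr hfr
  have key : ∀ u ∈ Sec (E := E) om R, ∀ η ∈ Sec (E := E) om R',
      ∫ p, ⟪nabS cov om u p (fr p), η p (fr p)⟫ ∂μ =
        - ∫ p, ⟪u p (fr p), ∑ k, (nabS cov om η p (fr p)) k k⟫ ∂μ := by
    intro u hu η hη
    obtain ⟨X, hX⟩ := exists_vec h0 hg hR hu hη hfr
    set d : M → ℝ := fun p => ∑ i, inner ℝ (cov X p (fr p i)) (fr p i) with hd
    have hd1 : ∀ p f, PON om p f → d p = ∑ i, inner ℝ (cov X p (f i)) (f i) := by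
      intro p f hf
      obtain ⟨g, hg1, rfl⟩ := (h0 hg).2.2.2.1 p (fr p) f (hfr p) hf
      simp only [hd, fact, map_sum, map_smul, sum_inner, inner_sum, real_inner_smul_left,
        inner_smul_right, Finset.mul_sum]
      have h1 : ∀ j i : Fin 4, ∑ k, g j k * (g i k * (inner ℝ (cov X p (fr p i)) (fr p j) : ℝ)) =
          if j = i then inner ℝ (cov X p (fr p i)) (fr p j) else 0 := by
        intro j i
        simp only [← mul_assoc]
        rw [← Finset.sum_mul, isSO_row hg1]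
        split_ifs <;> simp
      symm
      rw [Finset.sum_comm]
      refine Finset.sum_congr rfl fun j _ => ?_
      rw [Finset.sum_comm]
      simp only [h1]
      simp
    have h3 := hdiv X d hd1
    have i1 : Integrable d μ := integrable_of_smooth (div_cont h0 hg X hd1)
    have i2 : Integrable (fun p => ⟪nabS cov om u p (fr p), η p (fr p)⟫) μ :=
      integrable_of_smooth (inner_smooth h0 hg (h2 hg W R R' hR u hu) hη hfr)
    have e1 : ∀ p, d p = ⟪nabS cov om u p (fr p), η p (fr p)⟫ +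
        ⟪u p (fr p), ∑ k, (nabS cov om η p (fr p)) k k⟫ := by
      intro p
      have := div_vec h0 hg hR hu hη hfr hX (hfr p)
      rw [hd]
      simp only
      rw [this, PiLp.inner_apply]
    have i3 : Integrable (fun p => ⟪u p (fr p), ∑ k, (nabS cov om η p (fr p)) k k⟫) μ := by
      have := i1.sub i2
      refine this.congr (Eventually.of_forall fun p => ?_)
      simp only [Pi.sub_apply, e1 p]
      ring
    have h4 : ∫ p, d p ∂μ = (∫ p, ⟪nabS cov om u p (fr p), η p (fr p)⟫ ∂μ) +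
        ∫ p, ⟪u p (fr p), ∑ k, (nabS cov om η p (fr p)) k k⟫ ∂μ := by
      rw [← integral_add i2 i3]
      exact integral_congr_ae (Eventually.of_forall e1)
    linarith
  refine ⟨key, fun u hu v hv => ?_⟩
  rw [key u hu _ (h2 hg W R R' hR v hv), ← integral_neg]
  refine integral_congr_ae (Eventually.of_forall fun p => ?_)
  simp only [lapS, inner_neg_right]

end meas

end SC6

theorem sc6 (cov : CovariantDerivative 𝓘(ℝ, E) E (TangentSpace 𝓘(ℝ, E) : M → Type))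
    (om : Form4 E M) [MeasurableSpace M] [BorelSpace M] [CompactSpace M] (μ : Measure M) :
    SC6Stmt cov om μ := SC6.sc6_of sc0 (sc2_of cov om sc0 (sc1 cov om)) μ

end

end Vale.Agent.P211.HK
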