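import Vale.Agent.P211.HK.LK2Defs
import Vale.Agent.P211.HK.SC0b
import Vale.Agent.P211.HK.SC6

/-! P211 / HK, block VOL (helper527): finite Borel partitions (LK2g), existence of piecewise smooth
frame selections, measurability and boundedness of sections and kernels (LK2f, LK2d). -/

set_option maxSynthPendingDepth 3
set_option linter.unusedSectionVars false

namespace Vale.Agent.P211.HK

open scoped Manifold ContDiff Topology RealInnerProductSpace
open Bundle Filter VectorField MeasureTheory Set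

noncomputable section

namespace VOL

/-- finite Borel partition subordinate to a choice of neighbourhoods, with a prescribed interior
point -/
theorem exists_borel_partition {M : Type*} [TopologicalSpace M] [CompactSpace M] [T2Space M]
    [MeasurableSpace M] [OpensMeasurableSpace M] (V : M → Set M) (hV : ∀ p, V p ∈ 𝓝 p) (y₀ : M) :
    ∃ (n : ℕ) (c : Fin n → M) (B : Fin n → Set M), (∀ a, MeasurableSet (B a)) ∧
      (∀ a, closure (B a) ⊆ V (c a)) ∧ (∀ a b, a ≠ b → Disjoint (B a) (B b)) ∧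
      (⋃ a, B a = univ) ∧ ∃ a, c a = y₀ ∧ B a ∈ 𝓝 y₀ := by
  -- closed neighbourhoods
  have h1 : ∀ p, ∃ C : Set M, C ∈ 𝓝 p ∧ IsClosed C ∧ C ⊆ V p := by
    intro p
    obtain ⟨C, hC1, hC2, hC3⟩ := exists_mem_nhds_isClosed_subset (hV p)
    exact ⟨C, hC1, hC2, hC3⟩
  choose C hC1 hC2 hC3 using h1
  obtain ⟨t, ht⟩ := isCompact_univ.elim_nhds_subcover C (fun p _ => hC1 p)
  -- enumeration starting with `y₀`
  set l : List M := y₀ :: t.toList with hl
  refine ⟨l.length, fun a => l.get a, fun a => C (l.get a) \ ⋃ b : Fin l.length,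
    ⋃ _ : b < a, C (l.get b), ?_, ?_, ?_, ?_, ?_⟩
  · intro a
    exact (hC2 _).measurableSet.diff
      (MeasurableSet.iUnion fun b => MeasurableSet.iUnion fun _ => (hC2 _).measurableSet)
  · intro a
    refine (closure_minimal ?_ (hC2 _)).trans (hC3 _)
    exact Set.sdiff_subset
  · intro a b hab
    rw [Set.disjoint_left]
    intro x hxa hxb
    rcases lt_or_gt_of_ne hab with h | h
    · exact hxb.2 (mem_iUnion.2 ⟨a, mem_iUnion.2 ⟨h, hxa.1⟩⟩)
    · exact hxa.2 (mem_iUnion.2 ⟨b, mem_iUnion.2 ⟨h, hxb.1⟩⟩)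
  · rw [eq_univ_iff_forall]
    intro x
    have hx := ht.2 (mem_univ x)
    simp only [mem_iUnion] at hx
    obtain ⟨p, hp, hxp⟩ := hx
    have hex : ∃ n : ℕ, ∃ h : n < l.length, x ∈ C (l.get ⟨n, h⟩) := by
      have hpl : p ∈ l := by simp [hl, hp]
      obtain ⟨n, hn⟩ := List.get_of_mem hpl
      exact ⟨n, n.2, by rw [show l.get ⟨n, n.2⟩ = p from hn]; exact hxp⟩
    classical
    obtain ⟨hlt, hmem⟩ := Nat.find_spec hex
    refine mem_iUnion.2 ⟨⟨Nat.find hex, hlt⟩, hmem, ?_⟩
    intro hb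
    simp only [mem_iUnion] at hb
    obtain ⟨b, hb1, hb2⟩ := hb
    exact Nat.find_min hex (m := b) hb1 ⟨b.2, hb2⟩
  · refine ⟨⟨0, by simp [hl]⟩, by simp [hl], ?_⟩
    have h2 : (C (l.get ⟨0, by simp [hl]⟩) \ ⋃ b : Fin l.length,
        ⋃ _ : b < ⟨0, by simp [hl]⟩, C (l.get b)) = C y₀ := by
      ext x
      simp [hl]
    show (C (l.get ⟨0, by simp [hl]⟩) \ ⋃ b : Fin l.length,
        ⋃ _ : b < ⟨0, by simp [hl]⟩, C (l.get b)) ∈ 𝓝 y₀
    rw [h2]
    exact hC1 y₀

/-- strong measurability of a continuous function on a measurable set -/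
theorem sm_indicator {X Z : Type*} [TopologicalSpace X] [MeasurableSpace X]
    [OpensMeasurableSpace X] [NormedAddCommGroup Z] [SecondCountableTopology Z] {f : X → Z}
    {s : Set X} (hs : MeasurableSet s) (hf : ContinuousOn f s) :
    StronglyMeasurable (s.indicator f) := by
  classical
  borelize Z
  have h1 : Measurable (s.piecewise f 0) :=
    hf.measurable_piecewise continuousOn_const hs
  have h2 : s.indicator f = s.piecewise f 0 := (Set.piecewise_eq_indicator).symm
  rw [h2]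
  exact h1.stronglyMeasurable

/-- strong measurability of a function which is continuous on finitely many pieces -/
theorem sm_pieces {X Z : Type*} [TopologicalSpace X] [MeasurableSpace X]
    [OpensMeasurableSpace X] [NormedAddCommGroup Z] [SecondCountableTopology Z] {N : ℕ}
    {A : Fin N → Set X} (hA : ∀ i, MeasurableSet (A i))
    (hd : Pairwise fun i j => Disjoint (A i) (A j)) {D : Set X} (hD : (⋃ i, A i) = D)
    {g : X → Z} {G : Fin N → X → Z} (he : ∀ i, ∀ x ∈ A i, g x = G i x)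
    (hG : ∀ i, ContinuousOn (G i) (A i)) : StronglyMeasurable (D.indicator g) := by
  have h1 : D.indicator g = ∑ i, (A i).indicator (G i) := by
    funext x
    rw [Finset.sum_apply]
    by_cases hx : x ∈ D
    · rw [indicator_of_mem hx]
      rw [← hD] at hx
      obtain ⟨i, hi⟩ := mem_iUnion.1 hx
      rw [Finset.sum_eq_single i]
      · rw [indicator_of_mem hi, he i x hi]
      · intro j _ hj
        refine indicator_of_notMem (fun hxj => ?_) _
        exact (Set.disjoint_left.1 (hd hj)) hxj hi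
      · intro h; exact absurd (Finset.mem_univ i) h
    · rw [indicator_of_notMem hx]
      symm
      refine Finset.sum_eq_zero fun i _ => indicator_of_notMem (fun hxi => hx ?_) _
      rw [← hD]
      exact mem_iUnion.2 ⟨i, hxi⟩
  rw [h1]
  exact Finset.stronglyMeasurable_sum _ fun i _ => sm_indicator (hA i) (hG i)

variable {E : Type} [NormedAddCommGroup E] [NormedSpace ℝ E] [FiniteDimensional ℝ E]
  {M : Type} [TopologicalSpace M] [ChartedSpace E M] [IsManifold 𝓘(ℝ, E) ∞ M] [T2Space M]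
  [RiemannianBundle fun p : M => TangentSpace 𝓘(ℝ, E) p]
  [IsContMDiffRiemannianBundle 𝓘(ℝ, E) ∞ E fun p : M => TangentSpace 𝓘(ℝ, E) p]
  {cov : CovariantDerivative 𝓘(ℝ, E) E (TangentSpace 𝓘(ℝ, E) : M → Type)}
  {om : Form4 E M}
  {W : Type} [NormedAddCommGroup W] [InnerProductSpace ℝ W] [FiniteDimensional ℝ W]
  {W' : Type} [NormedAddCommGroup W'] [InnerProductSpace ℝ W'] [FiniteDimensional ℝ W']

end VOL

open VOL

variable {E : Type} [NormedAddCommGroup E] [NormedSpace ℝ E] [FiniteDimensional ℝ E]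
  {M : Type} [TopologicalSpace M] [ChartedSpace E M] [IsManifold 𝓘(ℝ, E) ∞ M] [T2Space M]
  [RiemannianBundle fun p : M => TangentSpace 𝓘(ℝ, E) p]
  [IsContMDiffRiemannianBundle 𝓘(ℝ, E) ∞ E fun p : M => TangentSpace 𝓘(ℝ, E) p]
  {cov : CovariantDerivative 𝓘(ℝ, E) E (TangentSpace 𝓘(ℝ, E) : M → Type)}
  {om : Form4 E M}
  {W : Type} [NormedAddCommGroup W] [InnerProductSpace ℝ W] [FiniteDimensional ℝ W]
  {W' : Type} [NormedAddCommGroup W'] [InnerProductSpace ℝ W'] [FiniteDimensional ℝ W']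
  [MeasurableSpace M] [BorelSpace M]

theorem lk2g [CompactSpace M] : LK2gStmt (M := M) := by
  intro U hU y₀
  obtain ⟨n, c, B, h1, h2, h3, h4, a, h5, h6⟩ := exists_borel_partition
    (fun p => interior (U p)) (fun p => interior_mem_nhds.2 (hU p)) y₀
  exact ⟨n, c, B, h1, fun i j hij => h3 i j hij, h4, h2, a, h5, h6⟩

/-- frame selections exist; near a given point `y₀` the frame is smooth, with given value `f₀` -/
theorem exists_frSel [CompactSpace M] (h : Geo4 cov om) (y₀ : M)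
    (f₀ : Fin 4 → TangentSpace 𝓘(ℝ, E) y₀) (hf₀ : PON om y₀ f₀) :
    ∃ (fr : (p : M) → Fin 4 → TangentSpace 𝓘(ℝ, E) p) (S : FrSel om fr), fr y₀ = f₀ ∧
      ∃ a, S.S a ∈ 𝓝 y₀ := by
  classical
  have h1 : ∀ p : M, ∃ F : Fin 4 → VF E M, PONnear om p F ∧ (p = y₀ → ∀ i, F i y₀ = f₀ i) := by
    intro p
    by_cases hp : p = y₀
    · subst hp
      obtain ⟨F, hF1, hF2⟩ := exists_ponnear h hf₀
      exact ⟨F, hF1, fun _ => hF2⟩
    · obtain ⟨f, hf⟩ := exists_pon h p
      obtain ⟨F, hF1, -⟩ := exists_ponnear h hf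
      exact ⟨F, hF1, fun e => absurd e hp⟩
  choose G hG1 hG2 using h1
  obtain ⟨n, c, B, hB1, hB2, hB3, hB4, a₀, ha0, hB5⟩ := exists_borel_partition
    (fun p => {q | PONnear om q (G p)}) (fun p => (hG1 p).eventually) y₀
  have h2 : ∀ p : M, ∃ a, p ∈ B a := fun p => by
    have := mem_univ p
    rw [← hB4] at this
    exact mem_iUnion.1 this
  choose ix hix using h2
  have hixu : ∀ a, ∀ p ∈ B a, ix p = a := by
    intro a p hp
    by_contra hne
    exact (Set.disjoint_left.1 (hB3 _ _ hne)) (hix p) hp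
  refine ⟨fun p i => G (c (ix p)) i p, ⟨n, B, fun a => G (c a), hB1,
    fun a b hab => hB3 a b hab, hB4, fun a p hp => hB2 a hp, ?_⟩, ?_, a₀, hB5⟩
  · intro a p hp
    simp only [hixu a p hp]
  · funext i
    have h3 : ix y₀ = a₀ := hixu a₀ y₀ (mem_of_mem_nhds hB5)
    simp only [h3, ha0]
    exact hG2 y₀ rfl i

/-- frame selections exist -/
theorem exists_frSel' [CompactSpace M] [Nonempty M] (h : Geo4 cov om) :
    ∃ fr : (p : M) → Fin 4 → TangentSpace 𝓘(ℝ, E) p, Nonempty (FrSel om fr) := by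
  obtain ⟨y₀⟩ := ‹Nonempty M›
  obtain ⟨f₀, hf₀⟩ := exists_pon h y₀
  obtain ⟨fr, S, -⟩ := exists_frSel h y₀ f₀ hf₀
  exact ⟨fr, ⟨S⟩⟩

theorem FrSel.exists_piece {fr : (p : M) → Fin 4 → TangentSpace 𝓘(ℝ, E) p} (S : FrSel om fr)
    (p : M) : ∃ i, p ∈ S.S i := by
  have := mem_univ p
  rw [← S.cover] at this
  exact mem_iUnion.1 this

theorem FrSel.ponfr {fr : (p : M) → Fin 4 → TangentSpace 𝓘(ℝ, E) p} (S : FrSel om fr) (p : M) :
    PON om p (fr p) := by
  obtain ⟨i, hi⟩ := S.exists_piece p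
  rw [S.eq i p hi]
  exact PONnear.pon (S.pon i p (subset_closure hi))

/-- norms of the components of a section do not depend on the frame -/
theorem norm_sec_eq {n : WithTop ℕ∞} (h : Geo4 cov om) {R : Rep W} {u : PreS E M W}
    (hu : u ∈ SecN om R n) {p : M} {f f' : Fin 4 → TangentSpace 𝓘(ℝ, E) p} (hf : PON om p f)
    (hf' : PON om p f') : ‖u p f'‖ = ‖u p f‖ := by
  obtain ⟨g, hg, rfl⟩ := (sc0 h).2.2.2.1 p f f' hf hf'
  rw [hu.2.1 p f g hf hg]
  have h1 := R.inner _ (SC6.isSO_tr hg) (u p f) (u p f)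
  rw [real_inner_self_eq_norm_sq, real_inner_self_eq_norm_sq] at h1
  exact (sq_eq_sq₀ (norm_nonneg _) (norm_nonneg _)).1 h1

/-- the norm of a section is a continuous function -/
theorem norm_sec_cont (h : Geo4 cov om) {R : Rep W} {u : PreS E M W} (hu : u ∈ SecN om R 0)
    {fr : (p : M) → Fin 4 → TangentSpace 𝓘(ℝ, E) p} (hfr : ∀ p, PON om p (fr p)) :
    Continuous fun p => ‖u p (fr p)‖ := by
  rw [continuous_iff_continuousAt]
  intro p
  obtain ⟨F, hF, -⟩ := exists_ponnear h (hfr p)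
  have h1 : ContinuousAt (fun q => ‖u q fun i => F i q‖) p := (hu.2.2 F p hF).continuousAt.norm
  refine h1.congr ?_
  filter_upwards [hF] with q hq
  exact norm_sec_eq h hu (hfr q) hq

theorem secN_sub {n : WithTop ℕ∞} {R : Rep W} {u v : PreS E M W} (hu : u ∈ SecN om R n)
    (hv : v ∈ SecN om R n) : u - v ∈ SecN om R n := by
  refine ⟨fun p f hf => ?_, fun p f g hf hg => ?_, fun F p hF => ?_⟩
  · show u p f - v p f = 0
    rw [hu.1 p f hf, hv.1 p f hf, sub_zero]
  · show u p (fact f g) - v p (fact f g) = R.ρ (trM g) (u p f - v p f)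
    rw [hu.2.1 p f g hf hg, hv.2.1 p f g hf hg, map_sub]
  · exact (hu.2.2 F p hF).sub (hv.2.2 F p hF)

theorem lk2f [CompactSpace M] (μ : Measure M) : LK2fStmt cov om μ := by
  intro h hμ W _ _ _ R fr ⟨S⟩
  refine ⟨fun u hu => ⟨?_, ?_⟩, fun u hu v hv huv => ?_, fun u => ⟨fun hu n => ?_, fun hu => ?_⟩⟩
  · have h1 : StronglyMeasurable ((univ : Set M).indicator fun p => u p (fr p)) := by
      refine sm_pieces (G := fun i p => u p fun j => S.F i j p) S.meas S.disj S.cover
        (fun i p hp => ?_) (fun i p hp => ?_)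
      · show u p (fr p) = _
        rw [S.eq i p hp]
      · exact (hu.2.2 (S.F i) p (S.pon i p (subset_closure hp))).continuousAt.continuousWithinAt
    rwa [indicator_univ] at h1
  · rcases isEmpty_or_nonempty M with hM | hM
    · exact ⟨0, fun p => (hM.false p).elim⟩
    · obtain ⟨C, hC⟩ := (isCompact_range (norm_sec_cont h hu S.ponfr)).bddAbove
      refine ⟨max C 0, fun p f => ?_⟩
      by_cases hf : PON om p f
      · rw [norm_sec_eq h hu (S.ponfr p) hf]
        exact (hC (mem_range_self p)).trans (le_max_left _ _)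
      · rw [hu.1 p f hf, norm_zero]
        exact le_max_right _ _
  · have h1 := norm_sec_cont h (secN_sub hu hv) S.ponfr
    have h2 : (fun p => ‖(u - v) p (fr p)‖) =ᵐ[μ] fun _ => (0 : ℝ) := by
      filter_upwards [huv] with p hp
      show ‖u p (fr p) - v p (fr p)‖ = 0
      rw [hp, sub_self, norm_zero]
    have h3 := h1.ae_eq_iff_eq μ continuous_const |>.1 h2
    funext p f
    by_cases hf : PON om p f
    · obtain ⟨g, hg, rfl⟩ := (sc0 h).2.2.2.1 p (fr p) f (S.ponfr p) hf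
      have h4 : ‖u p (fr p) - v p (fr p)‖ = 0 := congrFun h3 p
      rw [norm_eq_zero, sub_eq_zero] at h4
      rw [hu.2.1 p _ g (S.ponfr p) hg, hv.2.1 p _ g (S.ponfr p) hg, h4]
    · rw [hu.1 p f hf, hv.1 p f hf]
  · exact ⟨hu.1, hu.2.1, fun F p hF => (hu.2.2 F p hF).of_le (by exact_mod_cast le_top)⟩
  · refine ⟨(hu 0).1, (hu 0).2.1, fun F p hF => ?_⟩
    rw [contMDiffAt_infty]
    exact fun n => (hu n).2.2 F p hF

/-! ### kernels (LK2d) -/

section ker

variable {R' : Rep W'} {n : WithTop ℕ∞} {O : Set ℝ} {U : Set M} {K : ℝ → PreK E M W W'}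

theorem norm_ker_eq (h : Geo4 cov om) (hK : SmK om R' n O U K) {t : ℝ} (ht : t ∈ O) {q : M}
    (hq : q ∈ U) {p : M} {f f' : Fin 4 → TangentSpace 𝓘(ℝ, E) p} (hf : PON om p f)
    (hf' : PON om p f') : ‖K t p f' q‖ = ‖K t p f q‖ := by
  obtain ⟨g, hg, rfl⟩ := (sc0 h).2.2.2.1 p f f' hf hf'
  rw [hK.equiv t ht p f q hq g hf hg]
  refine ContinuousLinearMap.opNorm_ext _ _ fun w => ?_
  have h1 := R'.inner _ (SC6.isSO_tr hg) (K t p f q w) (K t p f q w)
  rw [real_inner_self_eq_norm_sq, real_inner_self_eq_norm_sq] at h1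
  exact (sq_eq_sq₀ (norm_nonneg _) (norm_nonneg _)).1 h1

theorem norm_ker_cont (h : Geo4 cov om) (hK : SmK om R' n O U K) (hO : IsOpen O)
    (hU : IsOpen U) {fr : (p : M) → Fin 4 → TangentSpace 𝓘(ℝ, E) p} (hfr : ∀ p, PON om p (fr p)) :
    ContinuousOn (fun z : ℝ × M × M => ‖K z.1 z.2.1 (fr z.2.1) z.2.2‖)
      (O ×ˢ univ ×ˢ U) := by
  rintro ⟨t, p, q⟩ ⟨ht, -, hq⟩
  refine ContinuousAt.continuousWithinAt ?_
  obtain ⟨F, hF, -⟩ := exists_ponnear h (hfr p)
  have h1 : ContinuousAt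
      (fun z : ℝ × M × M => ‖K z.1 z.2.1 (fun i => F i z.2.1) z.2.2‖) (t, p, q) :=
    (hK.smooth F t p q ht hq hF).continuousAt.norm
  refine h1.congr ?_
  have e1 : ∀ᶠ z : ℝ × M × M in 𝓝 (t, p, q), z.1 ∈ O :=
    continuousAt_fst.eventually (hO.mem_nhds ht)
  have c2 : Tendsto (fun z : ℝ × M × M => z.2.1) (𝓝 (t, p, q)) (𝓝 p) :=
    (continuous_fst.comp continuous_snd).tendsto _
  have e2 : ∀ᶠ z : ℝ × M × M in 𝓝 (t, p, q), PON om z.2.1 fun i => F i z.2.1 :=
    c2.eventually hF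
  have e3 : ∀ᶠ z : ℝ × M × M in 𝓝 (t, p, q), z.2.2 ∈ U :=
    (continuousAt_snd.comp continuousAt_snd).eventually (hU.mem_nhds hq)
  filter_upwards [e1, e2, e3] with z z1 z2 z3
  exact norm_ker_eq h hK z1 z3 (hfr _) z2

end ker

theorem lk2d [CompactSpace M] : LK2dStmt cov om := by
  intro h W W' _ _ _ _ _ _ R' fr ⟨S⟩ n O U B K hO hU hB hBU hK
  have hsc : SecondCountableTopology M := ChartedSpace.secondCountable_of_sigmaCompact E M
  refine ⟨fun T hT hTO => ?_, fun t ht => ?_, ?_⟩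
  · have h1 : IsCompact (T ×ˢ (univ : Set M) ×ˢ closure B) :=
      hT.prod (isCompact_univ.prod isClosed_closure.isCompact)
    obtain ⟨C, hC⟩ := h1.exists_bound_of_continuousOn
      ((norm_ker_cont h hK hO hU S.ponfr).mono
        (prod_mono hTO (prod_mono_right hBU)))
    refine ⟨max C 0, fun t ht p f q hq => ?_⟩
    by_cases hf : PON om p f
    · rw [norm_ker_eq h hK (hTO ht) (hBU hq) (S.ponfr p) hf]
      have := hC (t, p, q) ⟨ht, mem_univ _, hq⟩
      rw [norm_norm] at this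
      exact this.trans (le_max_left _ _)
    · rw [hK.zero t (hTO ht) p f q (hBU hq) hf, norm_zero]
      exact le_max_right _ _
  · refine sm_pieces (A := fun i => S.S i ×ˢ B)
      (G := fun i (z : M × M) => K t z.1 (fun j => S.F i j z.1) z.2)
      (fun i => (S.meas i).prod hB) (fun i j hij => ?_) ?_ (fun i z hz => ?_) (fun i z hz => ?_)
    · exact Set.disjoint_left.2 fun z hz hz' => Set.disjoint_left.1 (S.disj hij) hz.1 hz'.1
    · rw [← iUnion_prod_const, S.cover]
    · show K t z.1 (fr z.1) z.2 = _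
      rw [S.eq i z.1 hz.1]
    · have h1 := (hK.smooth (S.F i) t z.1 z.2 ht (hBU (subset_closure hz.2))
        (S.pon i z.1 (subset_closure hz.1))).continuousAt
      have h2 : ContinuousAt (fun z : M × M => ((t, z) : ℝ × M × M)) z :=
        continuousAt_const.prodMk continuousAt_id
      exact (ContinuousAt.comp (f := fun z : M × M => ((t, z) : ℝ × M × M)) h1
        h2).continuousWithinAt
  · refine sm_pieces (A := fun i => O ×ˢ S.S i ×ˢ B)
      (G := fun i (z : ℝ × M × M) => K z.1 z.2.1 (fun j => S.F i j z.2.1) z.2.2)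
      (fun i => hO.measurableSet.prod ((S.meas i).prod hB)) (fun i j hij => ?_) ?_
      (fun i z hz => ?_) (fun i z hz => ?_)
    · exact Set.disjoint_left.2 fun z hz hz' => Set.disjoint_left.1 (S.disj hij) hz.2.1 hz'.2.1
    · ext z
      have := S.exists_piece z.2.1
      simp only [mem_iUnion, mem_prod, mem_univ, true_and]
      constructor
      · rintro ⟨i, h1, h2, h3⟩; exact ⟨h1, h3⟩
      · rintro ⟨h1, h3⟩
        obtain ⟨i, hi⟩ := this
        exact ⟨i, h1, hi, h3⟩
    · show K z.1 z.2.1 (fr z.2.1) z.2.2 = _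
      rw [S.eq i z.2.1 hz.2.1]
    · exact (hK.smooth (S.F i) z.1 z.2.1 z.2.2 hz.1 (hBU (subset_closure hz.2.2))
        (S.pon i z.2.1 (subset_closure hz.2.1))).continuousAt.continuousWithinAt

end

end Vale.Agent.P211.HK
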