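import Vale.Agent.P211.HK.LKDefs
import Vale.Agent.P211.HK.Vol

/-! P211 / HK, block LKA (helper545): existence of the finite atlas of patches. -/

set_option maxSynthPendingDepth 3
set_option linter.unusedSectionVars false

namespace Vale.Agent.P211.HK

open scoped Manifold ContDiff Topology RealInnerProductSpace
open Bundle Filter VectorField MeasureTheory Set

noncomputable section

variable {E : Type} [NormedAddCommGroup E] [NormedSpace ℝ E] [FiniteDimensional ℝ E]
  {M : Type} [MetricSpace M] [ChartedSpace E M] [IsManifold 𝓘(ℝ, E) ∞ M]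
  [RiemannianBundle fun p : M => TangentSpace 𝓘(ℝ, E) p]
  [IsContMDiffRiemannianBundle 𝓘(ℝ, E) ∞ E fun p : M => TangentSpace 𝓘(ℝ, E) p]
  [MeasurableSpace M] [BorelSpace M] [CompactSpace M]
  [IsRiemannianManifold 𝓘(ℝ, E) M] [ConnectedSpace M]

theorem lka (cov : CovariantDerivative 𝓘(ℝ, E) E (TangentSpace 𝓘(ℝ, E) : M → Type))
    (om : Form4 E M) (μ : Measure M) : LKAStmt cov om μ := by
  intro h hP y₀
  have h1 : ∀ p : M, ∃ F : Fin 4 → VF E M, PONnear om p F := by
    intro p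
    obtain ⟨f, hf⟩ := exists_pon h p
    obtain ⟨F, hF1, -⟩ := exists_ponnear h hf
    exact ⟨F, hF1⟩
  choose F hF using h1
  choose D₀ O hD₀ hO hPatch using fun p : M => hP h p (F p) (hF p)
  set V : M → Set M := fun p =>
    (extChartAt 𝓘(ℝ, E) p).source ∩ (extChartAt 𝓘(ℝ, E) p) ⁻¹' O p with hV
  have hVn : ∀ p, V p ∈ 𝓝 p := by
    intro p
    obtain ⟨P, -, -, hPO⟩ := hPatch p (D₀ p) (hD₀ p) le_rfl
    have hop : IsOpen (O p) := hPO ▸ P.O_open
    exact Filter.inter_mem (extChartAt_source_mem_nhds p)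
      ((continuousAt_extChartAt p).preimage_mem_nhds (hop.mem_nhds (hO p)))
  obtain ⟨n, c, B, hB1, hB2, hB3, hB4, a₀, -, hB5⟩ :=
    VOL.exists_borel_partition V hVn y₀
  have hne : Nonempty (Fin n) := ⟨a₀⟩
  obtain ⟨a₁, ha₁⟩ := Finite.exists_min fun a => D₀ (c a)
  set D : ℝ := D₀ (c a₁) with hD
  have hDpos : 0 < D := hD₀ _
  choose P hPq hPF hPO using fun a : Fin n => hPatch (c a) D hDpos (ha₁ a)
  refine ⟨D, ⟨n, P, B, hB1, fun a b hab => hB3 a b hab, hB4, fun a => ?_⟩, hDpos, a₀, hB5⟩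
  have hdom : (P a).dom = V (c a) := by
    rw [hV]
    unfold Patch.dom
    rw [hPq a, hPO a]
  rw [hdom]
  exact hB2 a

end

end Vale.Agent.P211.HK
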