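import Vale.Agent.P211.H555.Defs

/-! P211 / HK (helper348): the finite algebra of the curvature tensor of `ℂP²`.

Pure linear algebra first: `b` is an orthonormal basis of the four-dimensional space `V`. -/

set_option maxSynthPendingDepth 3
set_option linter.unusedSectionVars false

namespace Vale.Agent.P211.HK

open scoped Manifold ContDiff RealInnerProductSpace
open Bundle

noncomputable section

section algebra

variable {V : Type} [NormedAddCommGroup V] [InnerProductSpace ℝ V]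
  (b : OrthonormalBasis (Fin 4) ℝ V)

/-- multiplication by `i` -/
def jj1 (v : V) : V := ⟪b 0, v⟫ • b 1 - ⟪b 1, v⟫ • b 0 + ⟪b 2, v⟫ • b 3 - ⟪b 3, v⟫ • b 2

/-- multiplication by `j` -/
def jj2 (v : V) : V := ⟪b 0, v⟫ • b 2 - ⟪b 2, v⟫ • b 0 - ⟪b 1, v⟫ • b 3 + ⟪b 3, v⟫ • b 1

/-- multiplication by `k` -/
def jj3 (v : V) : V := ⟪b 0, v⟫ • b 3 - ⟪b 3, v⟫ • b 0 + ⟪b 1, v⟫ • b 2 - ⟪b 2, v⟫ • b 1

theorem inner_onb (x y : V) : ⟪x, y⟫ = ⟪b 0, x⟫ * ⟪b 0, y⟫ + ⟪b 1, x⟫ * ⟪b 1, y⟫ +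
    ⟪b 2, x⟫ * ⟪b 2, y⟫ + ⟪b 3, x⟫ * ⟪b 3, y⟫ := by
  rw [← b.sum_inner_mul_inner x y, Fin.sum_univ_four]
  simp only [real_inner_comm x]

theorem b_ne {i j : Fin 4} (h : i ≠ j) : ⟪b i, b j⟫ = 0 := b.orthonormal.2 h

theorem b_eq (i : Fin 4) : ⟪b i, b i⟫ = 1 := by
  rw [real_inner_self_eq_norm_sq, b.orthonormal.1 i, one_pow]

theorem jj1_coord (v : V) : ⟪b 0, jj1 b v⟫ = - ⟪b 1, v⟫ ∧ ⟪b 1, jj1 b v⟫ = ⟪b 0, v⟫ ∧
    ⟪b 2, jj1 b v⟫ = - ⟪b 3, v⟫ ∧ ⟪b 3, jj1 b v⟫ = ⟪b 2, v⟫ := by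
  have h01 := b_ne b (show (0 : Fin 4) ≠ 1 by decide)
  have h02 := b_ne b (show (0 : Fin 4) ≠ 2 by decide)
  have h03 := b_ne b (show (0 : Fin 4) ≠ 3 by decide)
  have h10 := b_ne b (show (1 : Fin 4) ≠ 0 by decide)
  have h12 := b_ne b (show (1 : Fin 4) ≠ 2 by decide)
  have h13 := b_ne b (show (1 : Fin 4) ≠ 3 by decide)
  have h20 := b_ne b (show (2 : Fin 4) ≠ 0 by decide)
  have h21 := b_ne b (show (2 : Fin 4) ≠ 1 by decide)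
  have h23 := b_ne b (show (2 : Fin 4) ≠ 3 by decide)
  have h30 := b_ne b (show (3 : Fin 4) ≠ 0 by decide)
  have h31 := b_ne b (show (3 : Fin 4) ≠ 1 by decide)
  have h32 := b_ne b (show (3 : Fin 4) ≠ 2 by decide)
  simp only [jj1, inner_add_right, inner_sub_right, inner_smul_right, b_eq, h01, h02, h03, h10,
    h12, h13, h20, h21, h23, h30, h31, h32]
  refine ⟨?_, ?_, ?_, ?_⟩ <;> ring

theorem jj2_coord (v : V) : ⟪b 0, jj2 b v⟫ = - ⟪b 2, v⟫ ∧ ⟪b 1, jj2 b v⟫ = ⟪b 3, v⟫ ∧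
    ⟪b 2, jj2 b v⟫ = ⟪b 0, v⟫ ∧ ⟪b 3, jj2 b v⟫ = - ⟪b 1, v⟫ := by
  have h01 := b_ne b (show (0 : Fin 4) ≠ 1 by decide)
  have h02 := b_ne b (show (0 : Fin 4) ≠ 2 by decide)
  have h03 := b_ne b (show (0 : Fin 4) ≠ 3 by decide)
  have h10 := b_ne b (show (1 : Fin 4) ≠ 0 by decide)
  have h12 := b_ne b (show (1 : Fin 4) ≠ 2 by decide)
  have h13 := b_ne b (show (1 : Fin 4) ≠ 3 by decide)
  have h20 := b_ne b (show (2 : Fin 4) ≠ 0 by decide)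
  have h21 := b_ne b (show (2 : Fin 4) ≠ 1 by decide)
  have h23 := b_ne b (show (2 : Fin 4) ≠ 3 by decide)
  have h30 := b_ne b (show (3 : Fin 4) ≠ 0 by decide)
  have h31 := b_ne b (show (3 : Fin 4) ≠ 1 by decide)
  have h32 := b_ne b (show (3 : Fin 4) ≠ 2 by decide)
  simp only [jj2, inner_add_right, inner_sub_right, inner_smul_right, b_eq, h01, h02, h03, h10,
    h12, h13, h20, h21, h23, h30, h31, h32]
  refine ⟨?_, ?_, ?_, ?_⟩ <;> ring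

theorem jj3_coord (v : V) : ⟪b 0, jj3 b v⟫ = - ⟪b 3, v⟫ ∧ ⟪b 1, jj3 b v⟫ = - ⟪b 2, v⟫ ∧
    ⟪b 2, jj3 b v⟫ = ⟪b 1, v⟫ ∧ ⟪b 3, jj3 b v⟫ = ⟪b 0, v⟫ := by
  have h01 := b_ne b (show (0 : Fin 4) ≠ 1 by decide)
  have h02 := b_ne b (show (0 : Fin 4) ≠ 2 by decide)
  have h03 := b_ne b (show (0 : Fin 4) ≠ 3 by decide)
  have h10 := b_ne b (show (1 : Fin 4) ≠ 0 by decide)
  have h12 := b_ne b (show (1 : Fin 4) ≠ 2 by decide)
  have h13 := b_ne b (show (1 : Fin 4) ≠ 3 by decide)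
  have h20 := b_ne b (show (2 : Fin 4) ≠ 0 by decide)
  have h21 := b_ne b (show (2 : Fin 4) ≠ 1 by decide)
  have h23 := b_ne b (show (2 : Fin 4) ≠ 3 by decide)
  have h30 := b_ne b (show (3 : Fin 4) ≠ 0 by decide)
  have h31 := b_ne b (show (3 : Fin 4) ≠ 1 by decide)
  have h32 := b_ne b (show (3 : Fin 4) ≠ 2 by decide)
  simp only [jj3, inner_add_right, inner_sub_right, inner_smul_right, b_eq, h01, h02, h03, h10,
    h12, h13, h20, h21, h23, h30, h31, h32]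
  refine ⟨?_, ?_, ?_, ?_⟩ <;> ring

/-- `v, iv, jv, kv` are orthogonal and have the same length -/
theorem jj_inner (v : V) :
    (⟪jj1 b v, jj1 b v⟫ = ⟪v, v⟫ ∧ ⟪jj2 b v, jj2 b v⟫ = ⟪v, v⟫ ∧ ⟪jj3 b v, jj3 b v⟫ = ⟪v, v⟫) ∧
    (⟪v, jj1 b v⟫ = 0 ∧ ⟪v, jj2 b v⟫ = 0 ∧ ⟪v, jj3 b v⟫ = 0) ∧
    ⟪jj1 b v, jj2 b v⟫ = 0 ∧ ⟪jj1 b v, jj3 b v⟫ = 0 ∧ ⟪jj2 b v, jj3 b v⟫ = 0 := by
  obtain ⟨a0, a1, a2, a3⟩ := jj1_coord b v
  obtain ⟨c0, c1, c2, c3⟩ := jj2_coord b v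
  obtain ⟨d0, d1, d2, d3⟩ := jj3_coord b v
  rw [inner_onb b (jj1 b v), inner_onb b (jj2 b v), inner_onb b (jj3 b v), inner_onb b v v,
    inner_onb b v, inner_onb b v, inner_onb b v, inner_onb b (jj1 b v), inner_onb b (jj1 b v),
    inner_onb b (jj2 b v), a0, a1, a2, a3, c0, c1, c2, c3, d0, d1, d2, d3]
  refine ⟨⟨?_, ?_, ?_⟩, ⟨?_, ?_, ?_⟩, ?_, ?_, ?_⟩ <;> ring

theorem jj1_jj1 (v : V) : jj1 b (jj1 b v) = - v := by
  obtain ⟨a0, a1, a2, a3⟩ := jj1_coord b v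
  obtain ⟨c0, c1, c2, c3⟩ := jj1_coord b (jj1 b v)
  refine b.repr.injective ?_
  ext i
  rw [b.repr_apply_apply, b.repr_apply_apply, inner_neg_right]
  fin_cases i
  · simp only [Fin.zero_eta, c0, a1]
  · simp only [Fin.mk_one, c1, a0]
  · show ⟪b 2, jj1 b (jj1 b v)⟫ = -⟪b 2, v⟫
    rw [c2, a3]
  · show ⟪b 3, jj1 b (jj1 b v)⟫ = -⟪b 3, v⟫
    rw [c3, a2]

/-- the frame `v, iv, jv, kv` -/
def jframe (v : V) : Fin 4 → V := ![v, jj1 b v, jj2 b v, jj3 b v]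

theorem jframe_orthonormal {v : V} (hv : ‖v‖ = 1) : Orthonormal ℝ (jframe b v) := by
  have hvv : ⟪v, v⟫ = 1 := by rw [real_inner_self_eq_norm_sq, hv, one_pow]
  obtain ⟨⟨a1, a2, a3⟩, ⟨c1, c2, c3⟩, d1, d2, d3⟩ := jj_inner b v
  rw [hvv] at a1 a2 a3
  have e1 : ⟪jj1 b v, v⟫ = 0 := by rw [real_inner_comm]; exact c1
  have e2 : ⟪jj2 b v, v⟫ = 0 := by rw [real_inner_comm]; exact c2
  have e3 : ⟪jj3 b v, v⟫ = 0 := by rw [real_inner_comm]; exact c3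
  have f1 : ⟪jj2 b v, jj1 b v⟫ = 0 := by rw [real_inner_comm]; exact d1
  have f2 : ⟪jj3 b v, jj1 b v⟫ = 0 := by rw [real_inner_comm]; exact d2
  have f3 : ⟪jj3 b v, jj2 b v⟫ = 0 := by rw [real_inner_comm]; exact d3
  have n1 : ∀ w : V, ⟪w, w⟫ = 1 → ‖w‖ = 1 := by
    intro w hw
    rw [real_inner_self_eq_norm_sq] at hw
    exact (pow_eq_one_iff_of_nonneg (norm_nonneg _) two_ne_zero).1 hw
  refine ⟨?_, ?_⟩
  · intro i
    fin_cases i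
    · exact hv
    · exact n1 _ a1
    · exact n1 _ a2
    · exact n1 _ a3
  · intro i j hij
    fin_cases i <;> fin_cases j <;>
      first
        | exact absurd rfl hij
        | simp [jframe, c1, c2, c3, d1, d2, d3, e1, e2, e3, f1, f2, f3]

/-- the area form -/
def arV (i j : Fin 4) (x y : V) : ℝ := ⟪b i, x⟫ * ⟪b j, y⟫ - ⟪b i, y⟫ * ⟪b j, x⟫

/-- the curvature tensor of `ℂP²` (curvature operator `3` on the Kähler form, `0` on the rest of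
the self-dual forms, `1` on the anti-self-dual forms) -/
def cpR (x y z w : V) : ℝ :=
  3 / 2 * ((arV b 0 1 x y + arV b 2 3 x y) * (arV b 0 1 w z + arV b 2 3 w z)) +
  1 / 2 * ((arV b 0 1 x y - arV b 2 3 x y) * (arV b 0 1 w z - arV b 2 3 w z) +
    (arV b 0 2 x y + arV b 1 3 x y) * (arV b 0 2 w z + arV b 1 3 w z) +
    (arV b 0 3 x y - arV b 1 2 x y) * (arV b 0 3 w z - arV b 1 2 w z))

/-- the Jacobi operator of `ℂP²` -/
theorem cpR_jacobi (x v w : V) : cpR b x v v w =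
    3 / 2 * (⟪x, jj1 b v⟫ * ⟪w, jj1 b v⟫) + 1 / 2 * (⟪x, w⟫ * ⟪v, v⟫ - ⟪x, v⟫ * ⟪w, v⟫) := by
  obtain ⟨a0, a1, a2, a3⟩ := jj1_coord b v
  rw [inner_onb b x (jj1 b v), inner_onb b w (jj1 b v), inner_onb b x w, inner_onb b v v,
    inner_onb b x v, inner_onb b w v, a0, a1, a2, a3]
  simp only [cpR, arV]
  ring

/-- the constant curvature tensor in a frame -/
theorem one_eq (x y z w : V) : ⟪y, z⟫ * ⟪x, w⟫ - ⟪x, z⟫ * ⟪y, w⟫ =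
    arV b 0 1 x y * arV b 0 1 w z + arV b 0 2 x y * arV b 0 2 w z + arV b 0 3 x y * arV b 0 3 w z +
    arV b 1 2 x y * arV b 1 2 w z + arV b 1 3 x y * arV b 1 3 w z +
    arV b 2 3 x y * arV b 2 3 w z := by
  rw [inner_onb b y z, inner_onb b x w, inner_onb b x z, inner_onb b y w]
  simp only [arV]
  ring

/-- eigenvectors of the Jacobi operator of `ℂP²`, for a unit vector `v` -/
theorem cpR_eigen {v : V} (hv : ‖v‖ = 1) (w : V) :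
    cpR b v v v w = 0 ∧ cpR b (jj1 b v) v v w = 2 * ⟪jj1 b v, w⟫ ∧
    cpR b (jj2 b v) v v w = 1 / 2 * ⟪jj2 b v, w⟫ ∧
    cpR b (jj3 b v) v v w = 1 / 2 * ⟪jj3 b v, w⟫ := by
  have hvv : ⟪v, v⟫ = 1 := by rw [real_inner_self_eq_norm_sq, hv, one_pow]
  obtain ⟨⟨a1, a2, a3⟩, ⟨c1, c2, c3⟩, d1, d2, d3⟩ := jj_inner b v
  rw [hvv] at a1 a2 a3
  have e1 : ⟪jj1 b v, v⟫ = 0 := by rw [real_inner_comm]; exact c1
  have e2 : ⟪jj2 b v, v⟫ = 0 := by rw [real_inner_comm]; exact c2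
  have e3 : ⟪jj3 b v, v⟫ = 0 := by rw [real_inner_comm]; exact c3
  have f1 : ⟪jj2 b v, jj1 b v⟫ = 0 := by rw [real_inner_comm]; exact d1
  have f2 : ⟪jj3 b v, jj1 b v⟫ = 0 := by rw [real_inner_comm]; exact d2
  rw [cpR_jacobi, cpR_jacobi, cpR_jacobi, cpR_jacobi, hvv, a1, c1, e1, e2, e3, f1, f2,
    real_inner_comm (jj1 b v) w, real_inner_comm v w]
  refine ⟨?_, ?_, ?_, ?_⟩ <;> ring

end algebra

end

end Vale.Agent.P211.HK
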