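import Vale.Agent.P211.HK.SecStmt

/-! P211 / HK: FROZEN interface of block KR (Killing fields imply rigidity). helper115.
General `Ric = lam g`, `lam > 0`. -/

set_option maxSynthPendingDepth 3
set_option linter.unusedSectionVars false

namespace Vale.Agent.P211.HK

open scoped Manifold ContDiff Topology RealInnerProductSpace
open Bundle Filter VectorField

noncomputable section

variable {E : Type} [NormedAddCommGroup E] [NormedSpace ℝ E] [FiniteDimensional ℝ E]
  {M : Type} [TopologicalSpace M] [ChartedSpace E M] [IsManifold 𝓘(ℝ, E) ∞ M] [T2Space M]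
  [RiemannianBundle fun p : M => TangentSpace 𝓘(ℝ, E) p]
  [IsContMDiffRiemannianBundle 𝓘(ℝ, E) ∞ E fun p : M => TangentSpace 𝓘(ℝ, E) p]

variable (cov : CovariantDerivative 𝓘(ℝ, E) E (TangentSpace 𝓘(ℝ, E) : M → Type))
  (om : Form4 E M)

/-- Killing fields -/
def IsKilling (X : VF E M) : Prop :=
  ∀ (p : M) (v w : TangentSpace 𝓘(ℝ, E) p), inner ℝ (cov X p v) w + inner ℝ v (cov X p w) = 0

/-- constant curvature `k` -/
def ConstCurv (k : ℝ) : Prop :=
  ∀ (p : M) (X Y Z W : NN.SmoothField E M), NN.Rm cov X Y Z W p =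
    k * (inner ℝ (Y p) (Z p) * inner ℝ (X p) (W p) - inner ℝ (X p) (Z p) * inner ℝ (Y p) (W p))

/-- the two-form `F₀ ∧ F₁ + F₂ ∧ F₃` -/
def kf (F : Fin 4 → NN.SmoothField E M) (X Y : NN.Field E M) (p : M) : ℝ :=
  NN.area F 0 1 X Y p + NN.area F 2 3 X Y p

/-- `g` is locally symmetric, and at every point the curvature tensor is the one of the complex
projective plane (with `Ric = lam g`), for an almost complex structure `F₀ ↦ F₁`, `F₂ ↦ F₃` which is
compatible with the orientation. -/
def CP2Type (lam : ℝ) : Prop :=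
  (∀ (p : M) (U X Y Z W : NN.SmoothField E M), NN.nabRm cov U X Y Z W p = 0) ∧
  ∀ p : M, ∃ F : Fin 4 → NN.SmoothField E M, NN.OrthonormalAt F p ∧ 0 < om p (fun i => F i p) ∧
    ∀ X Y Z W : NN.SmoothField E M, NN.Rm cov X Y Z W p =
      lam / 6 * (inner ℝ (Y p) (Z p) * inner ℝ (X p) (W p) -
        inner ℝ (X p) (Z p) * inner ℝ (Y p) (W p) + kf F Y Z p * kf F X W p -
        kf F X Z p * kf F Y W p - 2 * kf F X Y p * kf F Z W p)

/-- KR: an Einstein manifold with `Ric = lam g`, `lam > 0`, `W₋ = 0`, `K ≥ 0` and six linearly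
independent Killing fields has constant curvature `lam / 3` or is locally the complex projective
plane. -/
def KRStmt : Prop := Geo4 cov om → ConnectedSpace M → CompactSpace M → NN.SecNonneg cov →
  ∀ lam : ℝ, 0 < lam → NN.RicciEq cov (fun _ => lam) → NN.WPlusZero cov lam (-om) →
  (∃ X : Fin 6 → VF E M, LinearIndependent ℝ X ∧ ∀ i, IsKilling cov (X i)) →
  ConstCurv cov (lam / 3) ∨ CP2Type cov om lam

end

end Vale.Agent.P211.HK
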