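import Vale.Agent.P211.HK.ISODefs
import Vale.Agent.P211.HK.KRDefs
import Vale.Agent.P231.Bd3.B1

/-! P211 / HK: assembly of the final theorem from the blocks (helper153). -/

set_option maxSynthPendingDepth 3
set_option linter.unusedSectionVars false

namespace Vale.Agent.P211.HK

open scoped Manifold ContDiff Topology
open Bundle Filter VectorField Set
open Vale.Agent.P231 (riemVol)

noncomputable section

variable {E : Type} [NormedAddCommGroup E] [NormedSpace ℝ E] [FiniteDimensional ℝ E]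
  {M : Type} [MetricSpace M] [ChartedSpace E M] [IsManifold 𝓘(ℝ, E) ∞ M]
  [RiemannianBundle fun p : M => TangentSpace 𝓘(ℝ, E) p]
  [IsContMDiffRiemannianBundle 𝓘(ℝ, E) ∞ E fun p : M => TangentSpace 𝓘(ℝ, E) p]
  [IsRiemannianManifold 𝓘(ℝ, E) M] [CompactSpace M] [ConnectedSpace M]
  [MeasurableSpace M] [BorelSpace M]

variable (cov : CovariantDerivative 𝓘(ℝ, E) E (TangentSpace 𝓘(ℝ, E) : M → Type))
  (om : Form4 E M) (lam : ℝ)

/-- IX (index part + Killing part): six Killing fields and the volume in the two rigid cases.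
`kap = lam / 3`: `vol = 16 π² / (6 kap²)` resp. `16 π² / (8 kap²)`. -/
def IXStmt : Prop :=
  Geo4 cov om → NN.SecNonneg cov → 0 < lam → NN.RicciEq cov (fun _ => lam) →
  NN.WPlusZero cov lam (-om) →
  (∃ X : Fin 6 → VF E M, LinearIndependent ℝ X ∧ ∀ i, IsKilling cov (X i)) ∧
  (ConstCurv cov (lam / 3) → (riemVol 4 M).real univ = 24 * Real.pi ^ 2 / lam ^ 2) ∧
  (CP2Type cov om lam → (riemVol 4 M).real univ = 18 * Real.pi ^ 2 / lam ^ 2)

/-- KR for general `lam` -/
def KRStmt' : Prop :=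
  Geo4 cov om → NN.SecNonneg cov → 0 < lam → NN.RicciEq cov (fun _ => lam) →
  NN.WPlusZero cov lam (-om) →
  (∃ X : Fin 6 → VF E M, LinearIndependent ℝ X ∧ ∀ i, IsKilling cov (X i)) →
  ConstCurv cov (lam / 3) ∨ CP2Type cov om lam

/-- the round sphere -/
def S4IsoStmt : Prop :=
  Geo4 cov om → 0 < lam → ConstCurv cov (lam / 3) →
  (riemVol 4 M).real univ = 24 * Real.pi ^ 2 / lam ^ 2 → IsRoundS4 M √(3 / lam)

/-- the complex projective plane -/
def CP2IsoStmt : Prop :=
  Geo4 cov om → 0 < lam → CP2Type cov om lam →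
  (riemVol 4 M).real univ = 18 * Real.pi ^ 2 / lam ^ 2 → IsFubiniStudyCP2 M √(6 / lam)

/-- the product of two spheres -/
def S22IsoStmt : Prop :=
  Geo4 cov om → 0 < lam → NN.LocallyProduct cov lam → SimplyConnectedSpace M →
  IsRoundS2S2 M √(1 / lam)

variable {cov om lam}

theorem half_of (hIX : IXStmt cov om lam) (hKR : KRStmt' cov om lam)
    (hS : S4IsoStmt cov om lam) (hC : CP2IsoStmt cov om lam) (hG : Geo4 cov om)
    (hK : NN.SecNonneg cov) (hlam : 0 < lam) (hR : NN.RicciEq cov (fun _ => lam))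
    (hW : NN.WPlusZero cov lam (-om)) :
    IsRoundS4 M √(3 / lam) ∨ IsFubiniStudyCP2 M √(6 / lam) := by
  obtain ⟨h1, h2, h3⟩ := hIX hG hK hlam hR hW
  rcases hKR hG hK hlam hR hW h1 with h | h
  · exact Or.inl (hS hG hlam h (h2 h))
  · exact Or.inr (hC hG hlam h (h3 h))

theorem isOrientation_neg (h : NN.IsOrientation om) : NN.IsOrientation (-om : Form4 E M) := by
  refine ⟨fun X => ?_, fun p hp => h.2 p ?_⟩
  · have h1 := (h.1 X)
    have h2 : ContMDiff 𝓘(ℝ, E) 𝓘(ℝ, ℝ) ∞ fun p => -(om p fun i => X i p) := fun p => (h1 p).neg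
    exact h2
  · have h1 : -(om p) = 0 := hp
    exact neg_eq_zero.1 h1

/-- the final theorem from the blocks -/
theorem finConcl_of (hcov : IsLC cov) (hE : Module.finrank ℝ E = 4) (hlam : 0 < lam)
    (hK : NN.SecNonneg cov) (hR : NN.RicciEq cov (fun _ => lam))
    (hq1 : ∀ om : Form4 E M, NN.IsOrientation om →
      NN.WPlusZero cov lam om ∨ NN.WPlusZero cov lam (-om) ∨ NN.LocallyProduct cov lam)
    (hnp : NN.LocallyProduct cov lam → ∀ p : M, ¬ SecPosAt cov p)
    (hor : SimplyConnectedSpace M → ∃ om : Form4 E M, NN.IsOrientation om)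
    (hIX : ∀ om : Form4 E M, IXStmt cov om lam) (hKR : ∀ om : Form4 E M, KRStmt' cov om lam)
    (hS : ∀ om : Form4 E M, S4IsoStmt cov om lam) (hC : ∀ om : Form4 E M, CP2IsoStmt cov om lam)
    (hP : ∀ om : Form4 E M, S22IsoStmt cov om lam) :
    FinConcl cov lam := by
  have key : ∀ om : Form4 E M, NN.IsOrientation om →
      IsRoundS4 M √(3 / lam) ∨ IsFubiniStudyCP2 M √(6 / lam) ∨ NN.LocallyProduct cov lam := by
    intro om hom
    rcases hq1 om hom with h | h | h
    · have hG : Geo4 cov (-om : Form4 E M) := ⟨hcov, hE, isOrientation_neg hom⟩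
      have hW : NN.WPlusZero cov lam (-(-om : Form4 E M)) := by rw [neg_neg]; exact h
      rcases half_of (hIX _) (hKR _) (hS _) (hC _) hG hK hlam hR hW with h1 | h1
      · exact Or.inl h1
      · exact Or.inr (Or.inl h1)
    · rcases half_of (hIX om) (hKR om) (hS om) (hC om) ⟨hcov, hE, hom⟩ hK hlam hR h with h1 | h1
      · exact Or.inl h1
      · exact Or.inr (Or.inl h1)
    · exact Or.inr (Or.inr h)
  have hex : ((∃ om : Form4 E M, NN.IsOrientation om) ∨ SimplyConnectedSpace M) →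
      ∃ om : Form4 E M, NN.IsOrientation om := fun h => h.elim id hor
  refine ⟨key, fun hsc => ?_, fun hp ho => ?_⟩
  · obtain ⟨om, hom⟩ := hor hsc
    rcases key om hom with h | h | h
    · exact Or.inl h
    · exact Or.inr (Or.inl h)
    · exact Or.inr (Or.inr (hP om ⟨hcov, hE, hom⟩ hlam h hsc))
  · obtain ⟨om, hom⟩ := hex ho
    obtain ⟨p, hp⟩ := hp
    rcases key om hom with h | h | h
    · exact Or.inl h
    · exact Or.inr h
    · exact absurd hp (hnp h p)

end

end Vale.Agent.P211.HK
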