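import Vale.Agent.P211.HK.JacGram

/-! P211 / HK (helper348): explicit Jacobi fields (`JacGram`) imply the model Jacobian, the
injectivity radius and the diameter, and the two isometry theorems' inputs. -/

set_option maxSynthPendingDepth 3
set_option linter.unusedSectionVars false
set_option linter.unusedVariables false

open Bundle Manifold Set Filter MeasureTheory Module
open scoped ContDiff Manifold Topology ENNReal

namespace Vale.Agent.P211.HK.VE

noncomputable section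

open Vale.Agent.P234 Vale.Agent.P231

/-- `sin (√κ r) / (√κ r)`, and `1` for `κ = 0` -/
def snq (κ r : ℝ) : ℝ := if κ = 0 then 1 else Real.sin (√κ * r) / (√κ * r)

theorem snq_zero (r : ℝ) : snq 0 r = 1 := if_pos rfl

theorem snq_ne {κ : ℝ} (h : κ ≠ 0) (r : ℝ) : snq κ r = Real.sin (√κ * r) / (√κ * r) := if_neg h

section gram

variable {E : Type*} [NormedAddCommGroup E] [NormedSpace ℝ E] [FiniteDimensional ℝ E]
  {M : Type*} [MetricSpace M] [ChartedSpace E M]
  [RiemannianBundle (fun x : M => TangentSpace 𝓘(ℝ, E) x)]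
  [IsManifold 𝓘(ℝ, E) ∞ M]
  [IsContMDiffRiemannianBundle 𝓘(ℝ, E) ∞ E (fun x : M => TangentSpace 𝓘(ℝ, E) x)]

/-- the Gram matrices of the differential of the exponential map are those of a symmetric space
whose Jacobi operators (of unit vectors) have the eigenvalues `κ` -/
def JacGram (e : ∀ x : M, TangentSpace 𝓘(ℝ, E) x → M) (κ : Fin 4 → ℝ) : Prop :=
  ∀ (x : M) (u : E), nm x u = 1 → ∃ b : Fin 4 → E, b 0 = u ∧
    (∀ i j, ip x (b i) (b j) = if i = j then 1 else 0) ∧
    ∀ r : ℝ, 0 < r → ∀ i j, ip (e x (r • u : E)) (dE e x (r • u : E) (b i))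
      (dE e x (r • u : E) (b j)) = if i = j then snq (κ i) r ^ 2 else 0

variable {e : ∀ x : M, TangentSpace 𝓘(ℝ, E) x → M} {κ : Fin 4 → ℝ}

/-- a nonzero vector as a multiple of a unit vector -/
theorem exists_unit (x : M) {v : E} (hv : 0 < nm x v) :
    ∃ u : E, nm x u = 1 ∧ v = (nm x v • u : E) := by
  refine ⟨((nm x v)⁻¹ • v : E), ?_, ?_⟩
  · rw [nm_smul, abs_of_pos (inv_pos.2 hv), inv_mul_cancel₀ hv.ne']
  · rw [smul_smul, mul_inv_cancel₀ hv.ne', one_smul]

theorem JacGram.jac_eq (h : JacGram e κ) (hE : finrank ℝ E = 4) (x : M) {v : E}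
    (hv : 0 < nm x v) : jac e x v = |∏ i, snq (κ i) (nm x v)| := by
  obtain ⟨u, hu, hvu⟩ := exists_unit x hv
  obtain ⟨b, -, hb, hG⟩ := h x u hu
  have h1 := jac_of_gram (e := e) hE x (nm x v • u : E) hb (hG (nm x v) hv)
  rw [← hvu] at h1
  exact h1

theorem JacGram.ker_eq (h : JacGram e κ) (hE : finrank ℝ E = 4) (x : M) {v : E}
    (hv : 0 < nm x v) {i₀ : Fin 4} (h0 : snq (κ i₀) (nm x v) = 0)
    (h1 : ∀ i, i ≠ i₀ → snq (κ i) (nm x v) ≠ 0) :
    finrank ℝ (LinearMap.ker (dEl e x v)) = 1 := by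
  obtain ⟨u, hu, hvu⟩ := exists_unit x hv
  obtain ⟨b, -, hb, hG⟩ := h x u hu
  have h2 := ker_of_gram (e := e) hE x (nm x v • u : E) hb (hG (nm x v) hv) h0 h1
  rw [← hvu] at h2
  exact h2

end gram

/-! ### the two models -/

theorem prod_cp2 {lam : ℝ} (hl : 0 < lam) {r : ℝ} (hr : 0 < r) (hrD : r ≤ Real.pi / √(2 * lam / 3)) :
    |∏ i, snq ((![0, 2 * lam / 3, lam / 6, lam / 6] : Fin 4 → ℝ) i) r| =
      mj (Real.pi / √(2 * lam / 3)) 3 1 r := by
  have hpi := Real.pi_pos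
  have ha : 0 < √(lam / 6) := Real.sqrt_pos.2 (by positivity)
  have h2 : √(2 * lam / 3) = 2 * √(lam / 6) := by
    rw [show 2 * lam / 3 = 2 ^ 2 * (lam / 6) by ring, Real.sqrt_mul (by positivity),
      Real.sqrt_sq (by norm_num)]
  set a : ℝ := √(lam / 6) with hadef
  have hk1 : 2 * lam / 3 ≠ 0 := by positivity
  have hk2 : lam / 6 ≠ 0 := by positivity
  have hth : Real.pi * r / (2 * (Real.pi / (2 * a))) = a * r := by field_simp
  have hD : a * r ≤ Real.pi / 2 := by
    rw [h2] at hrD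
    have : r * (2 * a) ≤ Real.pi := by
      rwa [le_div_iff₀ (by positivity)] at hrD
    linarith
  have hc : 0 ≤ Real.cos (a * r) := Real.cos_nonneg_of_neg_pi_div_two_le_of_le
    (by have : 0 < a * r := by positivity
        linarith) hD
  have hs : 0 ≤ Real.sin (a * r) := Real.sin_nonneg_of_nonneg_of_le_pi (by positivity)
    (by linarith)
  rw [Fin.prod_univ_four]
  simp only [Matrix.cons_val_zero, Matrix.cons_val_one, Matrix.cons_val]
  rw [snq_zero, snq_ne hk1, snq_ne hk2, h2, ← hadef, mj, hth, pow_one]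
  have h3 : 1 * (Real.sin (2 * a * r) / (2 * a * r)) * (Real.sin (a * r) / (a * r)) *
      (Real.sin (a * r) / (a * r)) = (Real.sin (a * r) / (a * r)) ^ 3 * Real.cos (a * r) := by
    rw [show 2 * a * r = 2 * (a * r) by ring, Real.sin_two_mul]
    field_simp
  rw [h3, abs_of_nonneg (by positivity)]

theorem prod_const {k : ℝ} (hk : 0 < k) {r : ℝ} (hr : 0 < r) (hrD : r ≤ Real.pi / √k) :
    |∏ i, snq ((![0, k, k, k] : Fin 4 → ℝ) i) r| = mj (Real.pi / √k) 3 3 r := by
  have hpi := Real.pi_pos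
  have ha : 0 < √k := Real.sqrt_pos.2 hk
  set a : ℝ := √k with hadef
  have hth : Real.pi * r / (2 * (Real.pi / a)) = a * r / 2 := by field_simp
  have hD : a * r ≤ Real.pi := by
    have : r * a ≤ Real.pi := by rwa [le_div_iff₀ (by positivity)] at hrD
    linarith
  have hs : 0 ≤ Real.sin (a * r) := Real.sin_nonneg_of_nonneg_of_le_pi (by positivity) hD
  rw [Fin.prod_univ_four]
  simp only [Matrix.cons_val_zero, Matrix.cons_val_one, Matrix.cons_val]
  rw [snq_zero, snq_ne hk.ne', ← hadef, mj, hth]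
  rw [abs_of_nonneg (by positivity)]
  have h3 : Real.sin (a * r) = 2 * Real.sin (a * r / 2) * Real.cos (a * r / 2) := by
    rw [← Real.sin_two_mul]
    congr 1
    ring
  rw [h3]
  field_simp

section main

variable {E : Type*} [NormedAddCommGroup E] [NormedSpace ℝ E] [FiniteDimensional ℝ E]
  {M : Type*} [MetricSpace M] [ChartedSpace E M]
  [RiemannianBundle (fun x : M => TangentSpace 𝓘(ℝ, E) x)]
  [IsManifold 𝓘(ℝ, E) ∞ M]
  [IsContMDiffRiemannianBundle 𝓘(ℝ, E) ∞ E (fun x : M => TangentSpace 𝓘(ℝ, E) x)]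
  {e : ∀ x : M, TangentSpace 𝓘(ℝ, E) x → M}
  [CompactSpace M] [ConnectedSpace M] [IsRiemannianManifold 𝓘(ℝ, E) M]
  [MeasurableSpace M] [BorelSpace M]

/-- **constant curvature `k`**: injectivity radius and diameter `π / √k` -/
theorem injGE_const (F : Facts e) (hE : finrank ℝ E = 4) {k : ℝ} (hk : 0 < k)
    (hJ : JacGram e ![0, k, k, k])
    (hvol : ENNReal.ofReal (8 * Real.pi ^ 2 / (3 * k ^ 2)) ≤ riemVol 4 M univ) :
    InjGE e (Real.pi / √k) ∧ ∀ x y : M, dist x y ≤ Real.pi / √k := by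
  have hpi := Real.pi_pos
  have ha : 0 < √k := Real.sqrt_pos.2 hk
  have hD : 0 < Real.pi / √k := by positivity
  refine injGE_of_mj F (N := 3) (l := 3) hE (by norm_num) hD (fun x ξ h0 h1 => ?_) ?_
  · have h2 : 0 < nm x (fr x ξ) := by rw [nm_fr]; exact h0
    rw [hJ.jac_eq hE x h2, nm_fr, prod_const hk h0 h1]
  · rw [hE, mvol_three hD]
    refine le_of_eq_of_le ?_ hvol
    congr 1
    have h4 : √k ^ 4 = k ^ 2 := by
      rw [show √k ^ 4 = (√k ^ 2) ^ 2 by ring, Real.sq_sqrt hk.le]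
    rw [div_pow, h4]
    field_simp

/-- **the complex projective plane with `Ric = lam g`**: injectivity radius and diameter
`π / √(2 lam / 3)` -/
theorem injGE_cp2 (F : Facts e) (hE : finrank ℝ E = 4) {lam : ℝ} (hl : 0 < lam)
    (hJ : JacGram e ![0, 2 * lam / 3, lam / 6, lam / 6])
    (hvol : ENNReal.ofReal (18 * Real.pi ^ 2 / lam ^ 2) ≤ riemVol 4 M univ) :
    InjGE e (Real.pi / √(2 * lam / 3)) ∧ ∀ x y : M, dist x y ≤ Real.pi / √(2 * lam / 3) := by
  have hpi := Real.pi_pos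
  have hk : 0 < 2 * lam / 3 := by positivity
  have ha : 0 < √(2 * lam / 3) := Real.sqrt_pos.2 hk
  have hD : 0 < Real.pi / √(2 * lam / 3) := by positivity
  refine injGE_of_mj F (N := 3) (l := 1) hE (by norm_num) hD (fun x ξ h0 h1 => ?_) ?_
  · have h2 : 0 < nm x (fr x ξ) := by rw [nm_fr]; exact h0
    rw [hJ.jac_eq hE x h2, nm_fr, prod_cp2 hl h0 h1]
  · rw [hE, mvol_one hD]
    refine le_of_eq_of_le ?_ hvol
    congr 1
    have h4 : √(2 * lam / 3) ^ 4 = (2 * lam / 3) ^ 2 := by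
      rw [show √(2 * lam / 3) ^ 4 = (√(2 * lam / 3) ^ 2) ^ 2 by ring, Real.sq_sqrt hk.le]
    rw [div_pow, h4]
    field_simp
    ring

/-- **isometry with the complex projective plane** -/
theorem cp2_of_gram (F : Facts e) (hE : finrank ℝ E = 4) {lam : ℝ} (hl : 0 < lam)
    (hJ : JacGram e ![0, 2 * lam / 3, lam / 6, lam / 6])
    (hvol : ENNReal.ofReal (18 * Real.pi ^ 2 / lam ^ 2) ≤ riemVol 4 M univ) :
    ∃ Z : M → Fin 3 → ℂ, (∀ x, ∑ i, ‖Z x i‖ ^ 2 = 1) ∧
      (∀ x y, dist x y = √(6 / lam) * Real.arccos ‖∑ i, starRingEnd ℂ (Z x i) * Z y i‖) ∧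
      ∀ z : Fin 3 → ℂ, ∑ i, ‖z i‖ ^ 2 = 1 → ∃ x, ‖∑ i, starRingEnd ℂ (Z x i) * z i‖ = 1 := by
  have hpi := Real.pi_pos
  have ha : 0 < √(lam / 6) := Real.sqrt_pos.2 (by positivity)
  have h2 : √(2 * lam / 3) = 2 * √(lam / 6) := by
    rw [show 2 * lam / 3 = 2 ^ 2 * (lam / 6) by ring, Real.sqrt_mul (by positivity),
      Real.sqrt_sq (by norm_num)]
  obtain ⟨hB, hd⟩ := injGE_cp2 F hE hl hJ hvol
  have hD : 0 < Real.pi / √(2 * lam / 3) := by rw [h2]; positivity
  have hc : 2 * (Real.pi / √(2 * lam / 3)) / Real.pi = √(6 / lam) := by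
    have h3 : √(6 / lam) = 1 / √(lam / 6) := by
      rw [show (6 : ℝ) / lam = (lam / 6)⁻¹ by field_simp, Real.sqrt_inv, one_div]
    rw [h3, h2]
    field_simp
  rw [← hc]
  refine cp2_iso F hE hD hB hd fun x v hv => ?_
  have hv0 : 0 < nm x v := by rw [hv]; exact hD
  refine hJ.ker_eq hE x hv0 (i₀ := 1) ?_ ?_
  · rw [hv]
    simp only [Matrix.cons_val_one, Matrix.cons_val_zero]
    rw [snq_ne (by positivity), h2, show 2 * √(lam / 6) * (Real.pi / (2 * √(lam / 6))) = Real.pi by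
      field_simp, Real.sin_pi, zero_div]
  · intro i hi
    rw [hv, h2]
    have h5 : snq (lam / 6) (Real.pi / (2 * √(lam / 6))) ≠ 0 := by
      rw [snq_ne (by positivity), show √(lam / 6) * (Real.pi / (2 * √(lam / 6))) = Real.pi / 2 by
        field_simp, Real.sin_pi_div_two]
      positivity
    fin_cases i
    · simp [snq]
    · exact absurd rfl hi
    · exact h5
    · exact h5

end main

end

end Vale.Agent.P211.HK.VE
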