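import Vale.Agent.P211.HK.CP2Jac
import Vale.Agent.P211.HK.JacModel
import Vale.Agent.P211.HK.Fin0


/-! P211 / HK (helper348): `CP2IsoStmt` from the block JAC (explicit differential of the exponential
map of a locally symmetric four-manifold). -/

set_option maxSynthPendingDepth 3
set_option linter.unusedSectionVars false

namespace Vale.Agent.P211.HK

open scoped Manifold ContDiff Topology
open Bundle Filter VectorField Set
open Vale.Agent.P231 (riemVol)
open Vale.Agent.P234 (Facts)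

noncomputable section

variable {E : Type} [NormedAddCommGroup E] [NormedSpace ℝ E] [FiniteDimensional ℝ E]
  {M : Type} [MetricSpace M] [ChartedSpace E M] [IsManifold 𝓘(ℝ, E) ∞ M]
  [RiemannianBundle fun p : M => TangentSpace 𝓘(ℝ, E) p]
  [IsContMDiffRiemannianBundle 𝓘(ℝ, E) ∞ E fun p : M => TangentSpace 𝓘(ℝ, E) p]
  [IsRiemannianManifold 𝓘(ℝ, E) M] [CompactSpace M] [ConnectedSpace M]
  [MeasurableSpace M] [BorelSpace M]

variable (cov : CovariantDerivative 𝓘(ℝ, E) E (TangentSpace 𝓘(ℝ, E) : M → Type))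
  (om : Form4 E M)

/-- Block JAC: if the curvature is parallel and all Jacobi operators of unit vectors have the
eigenvalues `κ ≥ 0`, then the differential of the exponential map has the Gram matrices of
`JacGram`. -/
def JACStmt (κ : Fin 4 → ℝ) : Prop :=
  Geo4 cov om → (∀ (p : M) (U X Y Z W : NN.SmoothField E M), NN.nabRm cov U X Y Z W p = 0) →
  (∀ i, 0 ≤ κ i) → κ 0 = 0 →
  (∀ (p : M) (v : TangentSpace 𝓘(ℝ, E) p), ‖v‖ = 1 → JacEig cov κ p v) →
  ∀ e : ∀ x : M, TangentSpace 𝓘(ℝ, E) x → M, Facts e → VE.JacGram e κ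

variable {cov om} {lam : ℝ}

theorem cp2Iso_of (hJ : JACStmt cov om ![0, 2 * lam / 3, lam / 6, lam / 6])
    (hF : ∃ e : ∀ x : M, TangentSpace 𝓘(ℝ, E) x → M, Facts e) : CP2IsoStmt cov om lam := by
  intro hG hl hC hvol
  obtain ⟨e, F⟩ := hF
  have h1 : VE.JacGram e ![0, 2 * lam / 3, lam / 6, lam / 6] := by
    refine hJ hG hC.1 (fun i => ?_) rfl (fun p v hv => hC.jacEig hG.dim p hv) e F
    fin_cases i
    · exact le_refl _
    · show 0 ≤ 2 * lam / 3
      positivity
    · show 0 ≤ lam / 6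
      positivity
    · show 0 ≤ lam / 6
      positivity
  refine VE.cp2_of_gram F hG.dim hl h1 ?_
  rw [← hvol, MeasureTheory.measureReal_def]
  exact ENNReal.ofReal_toReal_le

/-- the input of `S4IsoStmt` -/
theorem s4_injGE_of {k : ℝ} (hk : 0 < k) (hJ : JACStmt cov om ![0, k, k, k]) (hG : Geo4 cov om)
    (hnab : ∀ (p : M) (U X Y Z W : NN.SmoothField E M), NN.nabRm cov U X Y Z W p = 0)
    (hC : ConstCurv cov k)
    (hvol : (riemVol 4 M).real univ = 8 * Real.pi ^ 2 / (3 * k ^ 2))
    {e : ∀ x : M, TangentSpace 𝓘(ℝ, E) x → M} (F : Facts e) :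
    VE.JacGram e ![0, k, k, k] ∧ Vale.Agent.P231.InjGE e (Real.pi / √k) ∧
      ∀ x y : M, dist x y ≤ Real.pi / √k := by
  have h1 : VE.JacGram e ![0, k, k, k] := by
    refine hJ hG hnab (fun i => ?_) rfl (fun p v hv => hC.jacEig hG.dim p hv) e F
    fin_cases i
    · exact le_refl _
    · exact hk.le
    · exact hk.le
    · exact hk.le
  refine ⟨h1, VE.injGE_const F hG.dim hk h1 ?_⟩
  rw [← hvol, MeasureTheory.measureReal_def]
  exact ENNReal.ofReal_toReal_le

end

end Vale.Agent.P211.HK
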