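import Vale.Agent.P211.HK.VE
import Vale.Agent.P231.Bd3.B5

/-! P211 / HK (helper348): the two model volumes. If the Jacobian of the exponential map is the model
Jacobian `mj D 3 l` (`l = 3`: constant curvature, `D = π / √k`; `l = 1`: complex projective plane)
and the volume is at least the model volume, then `D` is the injectivity radius and the diameter. -/

set_option maxSynthPendingDepth 3
set_option linter.unusedSectionVars false
set_option linter.unusedVariables false

open Bundle Manifold Set Filter MeasureTheory Module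
open scoped ContDiff Manifold Topology ENNReal

namespace Vale.Agent.P211.HK.VE

noncomputable section

open Vale.Agent.P234 Vale.Agent.P231

/-! ### numbers -/

theorem vol_ball4 : (volume (Metric.ball (0 : EuclideanSpace ℝ (Fin (3 + 1))) 1)).toReal =
    Real.pi ^ 2 / 2 := by
  rw [EuclideanSpace.volume_ball, Fintype.card_fin, ENNReal.ofReal_one, one_pow, one_mul]
  have h1 : Real.Gamma (((3 + 1 : ℕ) : ℝ) / 2 + 1) = 2 := by
    have h2 : ((3 + 1 : ℕ) : ℝ) / 2 + 1 = ((2 : ℕ) : ℝ) + 1 := by norm_num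
    rw [h2, Real.Gamma_nat_eq_factorial]
    norm_num
  have h3 : √Real.pi ^ (3 + 1) = Real.pi ^ 2 := by
    have h4 := Real.sq_sqrt Real.pi_pos.le
    calc √Real.pi ^ (3 + 1) = (√Real.pi ^ 2) ^ 2 := by ring
      _ = Real.pi ^ 2 := by rw [h4]
  rw [h1, h3, ENNReal.toReal_ofReal (by positivity)]

theorem hasDerivAt_arg {D : ℝ} (r : ℝ) :
    HasDerivAt (fun r : ℝ => Real.pi * r / (2 * D)) (Real.pi / (2 * D)) r := by
  have h := ((hasDerivAt_id r).const_mul Real.pi).div_const (2 * D)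
  simpa using h

theorem mvol_one {D : ℝ} (hD : 0 < D) : mvol D 3 1 = 8 * D ^ 4 / Real.pi ^ 2 := by
  have hpi := Real.pi_pos
  have h1 : ∀ r : ℝ, HasDerivAt
      (fun r : ℝ => (2 * D / Real.pi) ^ 4 / 4 * Real.sin (Real.pi * r / (2 * D)) ^ 4)
      ((2 * D / Real.pi * Real.sin (Real.pi * r / (2 * D))) ^ 3 *
        Real.cos (Real.pi * r / (2 * D)) ^ 1) r := by
    intro r
    have h2 := (((hasDerivAt_arg (D := D) r).sin).pow 4).const_mul ((2 * D / Real.pi) ^ 4 / 4)
    refine h2.congr_deriv ?_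
    field_simp
    ring
  have h3 : Continuous fun r : ℝ => (2 * D / Real.pi * Real.sin (Real.pi * r / (2 * D))) ^ 3 *
        Real.cos (Real.pi * r / (2 * D)) ^ 1 := by fun_prop
  have h4 := intervalIntegral.integral_eq_sub_of_hasDerivAt (a := 0) (b := D)
    (fun r _ => h1 r) (h3.intervalIntegrable _ _)
  have h5 : Real.pi * D / (2 * D) = Real.pi / 2 := by field_simp
  unfold mvol
  rw [h4, vol_ball4, h5, Real.sin_pi_div_two, mul_zero, zero_div, Real.sin_zero]
  push_cast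
  field_simp
  ring

theorem mvol_three {D : ℝ} (hD : 0 < D) : mvol D 3 3 = 8 * D ^ 4 / (3 * Real.pi ^ 2) := by
  have hpi := Real.pi_pos
  have h1 : ∀ r : ℝ, HasDerivAt
      (fun r : ℝ => (2 * D / Real.pi) ^ 4 * (Real.sin (Real.pi * r / (2 * D)) ^ 4 / 4 -
        Real.sin (Real.pi * r / (2 * D)) ^ 6 / 6))
      ((2 * D / Real.pi * Real.sin (Real.pi * r / (2 * D))) ^ 3 *
        Real.cos (Real.pi * r / (2 * D)) ^ 3) r := by
    intro r
    have h2 := (((((hasDerivAt_arg (D := D) r).sin).pow 4).div_const 4).sub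
      ((((hasDerivAt_arg (D := D) r).sin).pow 6).div_const 6)).const_mul ((2 * D / Real.pi) ^ 4)
    refine h2.congr_deriv ?_
    have h6 : Real.cos (Real.pi * r / (2 * D)) ^ 3 = Real.cos (Real.pi * r / (2 * D)) *
        (1 - Real.sin (Real.pi * r / (2 * D)) ^ 2) := by
      have := Real.sin_sq_add_cos_sq (Real.pi * r / (2 * D))
      rw [show (1 : ℝ) - Real.sin (Real.pi * r / (2 * D)) ^ 2 =
        Real.cos (Real.pi * r / (2 * D)) ^ 2 by linarith]
      ring
    rw [h6]
    field_simp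
    ring
  have h3 : Continuous fun r : ℝ => (2 * D / Real.pi * Real.sin (Real.pi * r / (2 * D))) ^ 3 *
        Real.cos (Real.pi * r / (2 * D)) ^ 3 := by fun_prop
  have h4 := intervalIntegral.integral_eq_sub_of_hasDerivAt (a := 0) (b := D)
    (fun r _ => h1 r) (h3.intervalIntegrable _ _)
  have h5 : Real.pi * D / (2 * D) = Real.pi / 2 := by field_simp
  unfold mvol
  rw [h4, vol_ball4, h5, Real.sin_pi_div_two, mul_zero, zero_div, Real.sin_zero]
  push_cast
  field_simp
  ring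

/-! ### the integral of the model Jacobian -/

theorem mj_end {D : ℝ} (hD : 0 < D) (N : ℕ) {l : ℕ} (hl : 0 < l) : mj D N l D = 0 := by
  have h5 : Real.pi * D / (2 * D) = Real.pi / 2 := by field_simp
  unfold mj
  rw [h5, Real.cos_pi_div_two, zero_pow hl.ne', mul_zero]

variable {E : Type*} [NormedAddCommGroup E] [NormedSpace ℝ E] [FiniteDimensional ℝ E]
  {M : Type*} [MetricSpace M] [ChartedSpace E M]
  [RiemannianBundle (fun x : M => TangentSpace 𝓘(ℝ, E) x)]
  [IsManifold 𝓘(ℝ, E) ∞ M]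
  [IsContMDiffRiemannianBundle 𝓘(ℝ, E) ∞ E (fun x : M => TangentSpace 𝓘(ℝ, E) x)]
  {e : ∀ x : M, TangentSpace 𝓘(ℝ, E) x → M}

theorem lintegral_jac_of_mj [CompactSpace M] [ConnectedSpace M] [IsRiemannianManifold 𝓘(ℝ, E) M]
    (F : Facts e) {N l : ℕ} (hN : finrank ℝ E = N + 1) {D : ℝ} (hD : 0 < D) (x : M)
    (hj : ∀ ξ : Eu E, 0 < ‖ξ‖ → ‖ξ‖ < D → jac e x (fr x ξ) = mj D N l ‖ξ‖) :
    ∫⁻ ξ in Metric.ball (0 : Eu E) D, ENNReal.ofReal (jac e x (fr x ξ)) =
      ENNReal.ofReal (mvol D N l) := by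
  have hJc : Continuous fun ξ : Eu E => jac e x (fr x ξ) := area_cont_fr (contTB_jac F.isExp) x
  have hint : IntegrableOn (fun ξ : Eu E => jac e x (fr x ξ)) (Metric.ball (0 : Eu E) D) :=
    (hJc.continuousOn.integrableOn_compact (isCompact_closedBall (0 : Eu E) D)).mono_set
      Metric.ball_subset_closedBall
  rw [← ofReal_integral_eq_lintegral_ofReal hint
    (Eventually.of_forall fun ξ => Jac.nonneg x _)]
  congr 1
  have h1 := integral_radial hN hD (φ := fun r => if r < D then mj D N l r else 0)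
    (fun r hr => if_neg (not_lt.2 hr.le))
  have hnt : Nontrivial (Eu E) := by
    have : 0 < finrank ℝ (Eu E) := by rw [finrank_euclideanSpace, Fintype.card_fin, hN]; omega
    exact (finrank_pos_iff (R := ℝ)).1 this
  have h2 : ∫ ξ in Metric.ball (0 : Eu E) D, jac e x (fr x ξ) =
      ∫ ξ : Eu E, (if ‖ξ‖ < D then mj D N l ‖ξ‖ else 0) := by
    rw [← integral_indicator Metric.isOpen_ball.measurableSet]
    refine integral_congr_ae ?_
    have h0 : ∀ᵐ ξ : Eu E, ξ ≠ 0 := by
      rw [ae_iff]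
      simp
    filter_upwards [h0] with ξ hξ
    by_cases h : ‖ξ‖ < D
    · rw [indicator_of_mem (mem_ball_zero_iff.2 h), if_pos h]
      exact hj ξ (norm_pos_iff.2 hξ) h
    · rw [indicator_of_notMem (fun h' => h (mem_ball_zero_iff.1 h')), if_neg h]
  rw [h2, h1]
  unfold mvol
  congr 1
  refine intervalIntegral.integral_congr_ae ?_
  have h0 : ∀ᵐ r : ℝ, r ≠ D := by
    rw [ae_iff]
    simp
  filter_upwards [h0] with r hrD hr
  rw [uIoc_of_le hD.le] at hr
  rw [if_pos (lt_of_le_of_ne hr.2 hrD), pow_mul_mj hD N l hr.1]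
  rfl

/-- the Jacobian is positive at zero vectors -/
theorem jac_pos_zero [CompactSpace M] [ConnectedSpace M] [IsRiemannianManifold 𝓘(ℝ, E) M]
    (F : Facts e) (x : M) : 0 < jac e x (0 : E) := by
  refine jac_pos_of_mem F (v := (0 : E)) ⟨2, by norm_num, ?_⟩
  have h1 : (2 : ℝ) • (0 : TangentSpace 𝓘(ℝ, E) x) = 0 := smul_zero _
  have h2 : e x ((2 : ℝ) • (0 : TangentSpace 𝓘(ℝ, E) x)) = x := by rw [h1, F.isExp.map_zero]
  have h3 : ‖(0 : TangentSpace 𝓘(ℝ, E) x)‖ = 0 := norm_zero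
  have h4 : dist x (e x ((2 : ℝ) • (0 : TangentSpace 𝓘(ℝ, E) x))) =
      2 * ‖(0 : TangentSpace 𝓘(ℝ, E) x)‖ := by rw [h2, h3, dist_self, mul_zero]
  exact h4

/-- **Injectivity radius and diameter from the volume**, for the model Jacobian. -/
theorem injGE_of_mj [CompactSpace M] [ConnectedSpace M] [IsRiemannianManifold 𝓘(ℝ, E) M]
    [MeasurableSpace M] [BorelSpace M] (F : Facts e) {N l : ℕ} (hN : finrank ℝ E = N + 1)
    (hl : 0 < l) {D : ℝ} (hD : 0 < D)
    (hj : ∀ (x : M) (ξ : Eu E), 0 < ‖ξ‖ → ‖ξ‖ ≤ D → jac e x (fr x ξ) = mj D N l ‖ξ‖)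
    (hvol : ENNReal.ofReal (mvol D N l) ≤ riemVol (finrank ℝ E) M univ) :
    InjGE e D ∧ ∀ x y : M, dist x y ≤ D := by
  refine injGE_of_vol F hD (fun x ξ hξ => ?_) (fun x ξ hξ => ?_) (fun x => ?_)
  · rcases eq_or_ne ξ 0 with rfl | h0
    · rw [map_zero]
      exact jac_pos_zero F x
    · rw [hj x ξ (norm_pos_iff.2 h0) hξ.le]
      exact mj_pos N l (norm_pos_iff.2 h0) hξ
  · rw [hj x ξ (by rw [hξ]; exact hD) hξ.le, hξ, mj_end hD N hl]
  · rw [lintegral_jac_of_mj F hN hD x fun ξ h0 h1 => hj x ξ h0 h1.le]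
    exact hvol

end

end Vale.Agent.P211.HK.VE
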