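import Vale.Agent.P231.H512.Main
import Vale.Agent.P211.HK.JacInt

/-! P211 / HK (helper348): the metric end of the `ℂP²` case. A compact four-manifold for which `D` is
the injectivity radius and the diameter, and all kernels of `d exp` at distance `D` are lines, is
isometric to the complex projective plane with its Fubini-Study distance. -/

set_option maxSynthPendingDepth 3
set_option linter.unusedSectionVars false
set_option linter.unusedVariables false

open Bundle Manifold Set Filter MeasureTheory Module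
open scoped ContDiff Manifold Topology ENNReal

namespace Vale.Agent.P211.HK.VE

noncomputable section

open Vale.Agent.P234 Vale.Agent.P231

variable {E : Type*} [NormedAddCommGroup E] [NormedSpace ℝ E] [FiniteDimensional ℝ E]
  {M : Type*} [MetricSpace M] [ChartedSpace E M]
  [RiemannianBundle (fun x : M => TangentSpace 𝓘(ℝ, E) x)]
  [IsManifold 𝓘(ℝ, E) ∞ M]
  [IsContMDiffRiemannianBundle 𝓘(ℝ, E) ∞ E (fun x : M => TangentSpace 𝓘(ℝ, E) x)]
  {e : ∀ x : M, TangentSpace 𝓘(ℝ, E) x → M}
  [CompactSpace M] [ConnectedSpace M] [IsRiemannianManifold 𝓘(ℝ, E) M]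

theorem exists_nm_eq (hN : 0 < finrank ℝ E) (x : M) {D : ℝ} (hD : 0 ≤ D) :
    ∃ v : E, nm x v = D := by
  have : Nontrivial (Eu E) := by
    have : 0 < finrank ℝ (Eu E) := by rw [finrank_euclideanSpace, Fintype.card_fin]; exact hN
    exact (finrank_pos_iff (R := ℝ)).1 this
  obtain ⟨a, ha⟩ := exists_norm_eq (Eu E) hD
  exact ⟨fr x a, by rw [nm_fr, ha]⟩

theorem diam_eq_of_injGE (hN : 0 < finrank ℝ E) {D : ℝ} (hD : 0 < D) (hB : InjGE e D)
    (hd : ∀ x y : M, dist x y ≤ D) : Metric.diam (univ : Set M) = D := by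
  obtain ⟨x⟩ : Nonempty M := inferInstance
  obtain ⟨v, hv⟩ := exists_nm_eq (E := E) hN x hD.le
  refine le_antisymm (Metric.diam_le_of_forall_dist_le hD.le fun a _ b _ => hd a b) ?_
  have h1 : dist x (e x v) = nm x v := hB x v (le_of_eq hv)
  rw [← hv, ← h1]
  exact Metric.dist_le_diam_of_mem isCompact_univ.isBounded (mem_univ _) (mem_univ _)

theorem injGeDiam_of_injGE (F : Facts e) {D : ℝ} (hB : InjGE e D)
    (hdiam : Metric.diam (univ : Set M) = D) : Blaschke.InjGeDiam e := by
  intro x v hv w hw hvw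
  rw [hdiam, mem_ball_zero_iff] at hv hw
  exact F.injDomain_unique (hB.mem_injDomain hw) (hB x v hv.le) hvw

/-- **The metric end of the `ℂP²` case.** -/
theorem cp2_iso (F : Facts e) (hE : finrank ℝ E = 4) {D : ℝ} (hD : 0 < D) (hB : InjGE e D)
    (hd : ∀ x y : M, dist x y ≤ D)
    (hker : ∀ (x : M) (v : E), nm x v = D → finrank ℝ (LinearMap.ker (dEl e x v)) = 1) :
    ∃ Z : M → Fin 3 → ℂ, (∀ x, ∑ i, ‖Z x i‖ ^ 2 = 1) ∧
      (∀ x y, dist x y = 2 * D / Real.pi *
        Real.arccos ‖∑ i, starRingEnd ℂ (Z x i) * Z y i‖) ∧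
      ∀ z : Fin 3 → ℂ, ∑ i, ‖z i‖ ^ 2 = 1 → ∃ x, ‖∑ i, starRingEnd ℂ (Z x i) * z i‖ = 1 := by
  have hdiam : Metric.diam (univ : Set M) = D := diam_eq_of_injGE (by omega) hD hB hd
  have hinj : Blaschke.InjGeDiam e := injGeDiam_of_injGE F hB hdiam
  have h1 : Blaschke.MultLE e 1 := by
    intro x v hv w hw
    by_contra hcon
    push Not at hcon
    have hv1 : nm (E := E) x v = D := hv.trans hdiam
    let v' : E := v
    let w' : Fin (1 + 1) → E := w
    have h3 : ∀ i, w' i ∈ LinearMap.ker (dEl e x v') := by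
      intro i
      have h7 : dEl e x v' (w' i) = 0 := (mfderiv_line' F.isExp x v (w i)).symm.trans (hcon i)
      exact LinearMap.mem_ker.2 h7
    have h4 : LinearIndependent ℝ (fun i => (⟨w' i, h3 i⟩ : LinearMap.ker (dEl e x v'))) := by
      refine LinearIndependent.of_comp (LinearMap.ker (dEl e x v')).subtype ?_
      exact hw
    have h5 := h4.fintype_card_le_finrank
    rw [Fintype.card_fin, hker x v' hv1] at h5
    omega
  have h0 : ¬ Blaschke.MultLE e 0 := by
    intro h
    obtain ⟨x⟩ : Nonempty M := inferInstance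
    obtain ⟨v, hv⟩ := exists_nm_eq (E := E) (by omega) x hD.le
    have h6 := finrank_le_of_mult F.isExp h x v (by rw [hv, hdiam])
    rw [hker x v hv] at h6
    omega
  have hl : IsLeast {k | Blaschke.MultLE e k} 1 := by
    refine ⟨h1, fun k hk => ?_⟩
    rcases Nat.eq_zero_or_pos k with rfl | hk0
    · exact absurd hk h0
    · exact hk0
  obtain ⟨n, hn, Z, hZ1, hZ2, hZ3⟩ := Vale.Agent.P231.H512.main_fs' F.isExp hinj (by omega) hl
  obtain rfl : n = 2 := by omega
  refine ⟨Z, hZ1, fun x y => ?_, hZ3⟩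
  rw [hZ2 x y, hdiam]

end

end Vale.Agent.P211.HK.VE
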