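import Vale.Agent.P211.HK.KRDefs
import Vale.Agent.P211.HK.CP2Alg

/-! P211 / HK (helper348): the eigenvalues of the Jacobi operator for the curvature tensors of
constant curvature and of `ℂP²`. -/

set_option maxSynthPendingDepth 3
set_option linter.unusedSectionVars false

namespace Vale.Agent.P211.HK

open scoped Manifold ContDiff Topology RealInnerProductSpace
open Bundle Filter VectorField Module

noncomputable section

section algebra

variable {V : Type} [NormedAddCommGroup V] [InnerProductSpace ℝ V]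

/-- an orthonormal family of four vectors of a four-dimensional space as a basis -/
def onb4 (hV : finrank ℝ V = 4) {f : Fin 4 → V} (hf : Orthonormal ℝ f) :
    OrthonormalBasis (Fin 4) ℝ V :=
  OrthonormalBasis.mk hf (by
    have : FiniteDimensional ℝ V := FiniteDimensional.of_finrank_pos (by omega)
    rw [hf.linearIndependent.span_eq_top_of_card_eq_finrank' (by rw [Fintype.card_fin, hV])])

theorem onb4_apply (hV : finrank ℝ V = 4) {f : Fin 4 → V} (hf : Orthonormal ℝ f) (i : Fin 4) :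
    onb4 hV hf i = f i := by
  rw [onb4, OrthonormalBasis.coe_mk]

/-- the Jacobi operator of the tensor of `ℂP²` with `Ric = lam g` -/
theorem cp2_jacobi (b : OrthonormalBasis (Fin 4) ℝ V) (lam : ℝ) (x v w : V) :
    lam / 6 * (⟪v, v⟫ * ⟪x, w⟫ - ⟪x, v⟫ * ⟪v, w⟫ +
      (arV b 0 1 v v + arV b 2 3 v v) * (arV b 0 1 x w + arV b 2 3 x w) -
      (arV b 0 1 x v + arV b 2 3 x v) * (arV b 0 1 v w + arV b 2 3 v w) -
      2 * (arV b 0 1 x v + arV b 2 3 x v) * (arV b 0 1 v w + arV b 2 3 v w)) =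
    lam / 6 * (⟪v, v⟫ * ⟪x, w⟫ - ⟪x, v⟫ * ⟪v, w⟫ + 3 * (⟪x, jj1 b v⟫ * ⟪w, jj1 b v⟫)) := by
  obtain ⟨a0, a1, a2, a3⟩ := jj1_coord b v
  rw [inner_onb b x (jj1 b v), inner_onb b w (jj1 b v), inner_onb b x w, inner_onb b v v,
    inner_onb b x v, inner_onb b v w, a0, a1, a2, a3]
  simp only [arV]
  ring

theorem jac_const_sum (b : OrthonormalBasis (Fin 4) ℝ V) (k : ℝ) {v : V} (hb : b 0 = v) (x w : V) :
    k * (⟪v, v⟫ * ⟪x, w⟫ - ⟪x, v⟫ * ⟪v, w⟫) =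
      ∑ i, (![0, k, k, k] : Fin 4 → ℝ) i * (⟪b i, x⟫ * ⟪b i, w⟫) := by
  have h1 : ⟪v, v⟫ = 1 := by rw [← hb]; exact b_eq b 0
  have h2 : ⟪x, v⟫ = ⟪b 0, x⟫ := by rw [hb, real_inner_comm]
  have h3 : ⟪v, w⟫ = ⟪b 0, w⟫ := by rw [hb]
  rw [h1, h2, h3, inner_onb b x w, Fin.sum_univ_four]
  simp only [Matrix.cons_val_zero, Matrix.cons_val_one, Matrix.cons_val]
  ring

theorem jac_cp2_sum (hV : finrank ℝ V = 4) (b : OrthonormalBasis (Fin 4) ℝ V) (lam : ℝ) {v : V}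
    (hv : ‖v‖ = 1) :
    ∃ c : OrthonormalBasis (Fin 4) ℝ V, c 0 = v ∧ ∀ x w : V,
      lam / 6 * (⟪v, v⟫ * ⟪x, w⟫ - ⟪x, v⟫ * ⟪v, w⟫ + 3 * (⟪x, jj1 b v⟫ * ⟪w, jj1 b v⟫)) =
        ∑ i, (![0, 2 * lam / 3, lam / 6, lam / 6] : Fin 4 → ℝ) i * (⟪c i, x⟫ * ⟪c i, w⟫) := by
  refine ⟨onb4 hV (jframe_orthonormal b hv), by rw [onb4_apply]; rfl, fun x w => ?_⟩
  set c := onb4 hV (jframe_orthonormal b hv) with hc
  have c0 : c 0 = v := by rw [hc, onb4_apply]; rfl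
  have c1 : c 1 = jj1 b v := by rw [hc, onb4_apply]; rfl
  have hvv : ⟪v, v⟫ = 1 := by rw [real_inner_self_eq_norm_sq, hv, one_pow]
  rw [hvv, real_inner_comm (jj1 b v) x, real_inner_comm (jj1 b v) w, ← c1, real_inner_comm v x,
    ← c0, inner_onb c x w, Fin.sum_univ_four]
  simp only [Matrix.cons_val_zero, Matrix.cons_val_one, Matrix.cons_val]
  ring

end algebra

variable {E : Type} [NormedAddCommGroup E] [NormedSpace ℝ E] [FiniteDimensional ℝ E]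
  {M : Type} [TopologicalSpace M] [ChartedSpace E M] [IsManifold 𝓘(ℝ, E) ∞ M] [T2Space M]
  [RiemannianBundle fun p : M => TangentSpace 𝓘(ℝ, E) p]
  [IsContMDiffRiemannianBundle 𝓘(ℝ, E) ∞ E fun p : M => TangentSpace 𝓘(ℝ, E) p]

variable (cov : CovariantDerivative 𝓘(ℝ, E) E (TangentSpace 𝓘(ℝ, E) : M → Type))
  (om : Form4 E M)

/-- the Jacobi operator of the unit vector `v` is diagonal, with the eigenvalues `κ`, in an
orthonormal basis `b` with `b 0 = v` -/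
def JacEig (κ : Fin 4 → ℝ) (p : M) (v : TangentSpace 𝓘(ℝ, E) p) : Prop :=
  ∃ b : OrthonormalBasis (Fin 4) ℝ (TangentSpace 𝓘(ℝ, E) p), b 0 = v ∧
    ∀ X Y Z W : NN.SmoothField E M, Y p = v → Z p = v →
      NN.Rm cov X Y Z W p = ∑ i, κ i * (⟪b i, X p⟫ * ⟪b i, W p⟫)

variable {cov om}

theorem finrank_tangent (p : M) (hE : finrank ℝ E = 4) :
    finrank ℝ (TangentSpace 𝓘(ℝ, E) p) = 4 := hE

theorem exists_onb4 (hE : finrank ℝ E = 4) (p : M) {v : TangentSpace 𝓘(ℝ, E) p} (hv : ‖v‖ = 1) :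
    ∃ b : OrthonormalBasis (Fin 4) ℝ (TangentSpace 𝓘(ℝ, E) p), b 0 = v := by
  have hV := finrank_tangent p hE
  have : FiniteDimensional ℝ (TangentSpace 𝓘(ℝ, E) p) := FiniteDimensional.of_finrank_pos (by omega)
  let b₀ := (stdOrthonormalBasis ℝ (TangentSpace 𝓘(ℝ, E) p)).reindex (finCongr hV)
  exact ⟨onb4 hV (jframe_orthonormal b₀ hv), by rw [onb4_apply]; rfl⟩

theorem ConstCurv.jacEig (hE : finrank ℝ E = 4) {k : ℝ} (h : ConstCurv cov k) (p : M)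
    {v : TangentSpace 𝓘(ℝ, E) p} (hv : ‖v‖ = 1) : JacEig cov ![0, k, k, k] p v := by
  obtain ⟨b, hb⟩ := exists_onb4 hE p hv
  refine ⟨b, hb, fun X Y Z W hY hZ => ?_⟩
  rw [h p X Y Z W, hY, hZ]
  exact jac_const_sum b k hb _ _

theorem CP2Type.jacEig (hE : finrank ℝ E = 4) {lam : ℝ} (h : CP2Type cov om lam) (p : M)
    {v : TangentSpace 𝓘(ℝ, E) p} (hv : ‖v‖ = 1) :
    JacEig cov ![0, 2 * lam / 3, lam / 6, lam / 6] p v := by
  have hV := finrank_tangent p hE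
  obtain ⟨F, hF, -, hR⟩ := h.2 p
  have hF' : Orthonormal ℝ fun i => F i p := hF
  obtain ⟨c, hc, hs⟩ := jac_cp2_sum hV (onb4 hV hF') lam hv
  refine ⟨c, hc, fun X Y Z W hY hZ => ?_⟩
  rw [← hs, ← cp2_jacobi, hR X Y Z W]
  simp only [kf, NN.area, arV, onb4_apply, hY, hZ]

end

end Vale.Agent.P211.HK
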