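import Vale.Agent.P211.Bdl.B1

/-! P211 / HK (helper858): coordinate fields of a chart. Near a point `p` there are global smooth
fields `C i` which on a coordinate ball are the coordinate fields of the chart at `p`. -/

set_option maxSynthPendingDepth 3
set_option linter.unusedSectionVars false

namespace Vale.Agent.P211.HK

open scoped Manifold ContDiff Topology
open Bundle Filter VectorField Vale.Agent.P211

noncomputable section

variable {E : Type*} [NormedAddCommGroup E] [NormedSpace ℝ E] [FiniteDimensional ℝ E]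
  {M : Type*} [TopologicalSpace M] [ChartedSpace E M] [IsManifold 𝓘(ℝ, E) ∞ M] [T2Space M]

/-- the inverse chart -/
abbrev ich (p : M) : E → M := (extChartAt 𝓘(ℝ, E) p).symm

/-- a smooth function in the chart is smooth -/
theorem ChartF.contDiffOn (p : M) (f : SF E M) :
    ContDiffOn ℝ ∞ (fun x => f (ich (E := E) p x)) (extChartAt 𝓘(ℝ, E) p).target := by
  have h1 : ContMDiffOn 𝓘(ℝ, E) 𝓘(ℝ, E) ∞ (extChartAt 𝓘(ℝ, E) p).symm
      (extChartAt 𝓘(ℝ, E) p).target := contMDiffOn_extChartAt_symm p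
  exact (f.contMDiff.comp_contMDiffOn h1).contDiffOn

/-- the derivative along the vector with chart coordinates `v` -/
theorem ChartF.deriv {p q : M} (hq : q ∈ (chartAt E p).source) (f : SF E M) (v : E) :
    (mfderiv 𝓘(ℝ, E) 𝓘(ℝ) f q ((trivializationAt E (TangentSpace 𝓘(ℝ, E) : M → Type _) p).symm q v) :
      ℝ) = fderiv ℝ (fun x => f (ich (E := E) p x)) (extChartAt 𝓘(ℝ, E) p q) v := by
  have hq' : q ∈ (extChartAt 𝓘(ℝ, E) p).source := by rwa [extChartAt_source]
  have h1 : HasMFDerivAt 𝓘(ℝ, E) 𝓘(ℝ, E) (extChartAt 𝓘(ℝ, E) p) q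
      (mfderiv 𝓘(ℝ, E) 𝓘(ℝ, E) (extChartAt 𝓘(ℝ, E) p) q) :=
    (mdifferentiableAt_extChartAt hq).hasMFDerivAt
  have hx : extChartAt 𝓘(ℝ, E) p q ∈ (extChartAt 𝓘(ℝ, E) p).target :=
    (extChartAt 𝓘(ℝ, E) p).map_source hq'
  have h2 : HasFDerivAt (fun x => f (ich (E := E) p x))
      (fderiv ℝ (fun x => f (ich (E := E) p x)) (extChartAt 𝓘(ℝ, E) p q))
      (extChartAt 𝓘(ℝ, E) p q) :=
    (((ChartF.contDiffOn p f).contDiffAt ((isOpen_extChartAt_target p).mem_nhds hx)).differentiableAt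
      (by simp)).hasFDerivAt
  have h3 := h2.hasMFDerivAt.comp q h1
  have h4 : (f : M → ℝ) =ᶠ[𝓝 q] (fun x => f (ich (E := E) p x)) ∘ (extChartAt 𝓘(ℝ, E) p) := by
    filter_upwards [extChartAt_source_mem_nhds' hq'] with y hy
    change f y = f ((extChartAt 𝓘(ℝ, E) p).symm (extChartAt 𝓘(ℝ, E) p y))
    rw [(extChartAt 𝓘(ℝ, E) p).left_inv hy]
  have h5 := (h3.congr_of_eventuallyEq h4).mfderiv
  rw [h5]
  have h6 := TangentBundle.continuousLinearMapAt_trivializationAt (I := 𝓘(ℝ, E)) (𝕜 := ℝ) hq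
  have h7 : (mfderiv 𝓘(ℝ, E) 𝓘(ℝ, E) (extChartAt 𝓘(ℝ, E) p) q
      ((trivializationAt E (TangentSpace 𝓘(ℝ, E) : M → Type _) p).symm q v) : E) = v := by
    rw [← h6]
    have h8 := (trivializationAt E (TangentSpace 𝓘(ℝ, E) : M → Type _) p).continuousLinearMapAt_symmL
      (R := ℝ) (b := q) (by exact hq) v
    rwa [Trivialization.symmL_apply _ (by exact hq)] at h8
  exact congrArg (fun w : E => fderiv ℝ (fun x => f (ich (E := E) p x))
    (extChartAt 𝓘(ℝ, E) p q) w) h7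

variable [RiemannianBundle (fun x : M => TangentSpace 𝓘(ℝ, E) x)]
  [IsContMDiffRiemannianBundle 𝓘(ℝ, E) ∞ E (fun x : M => TangentSpace 𝓘(ℝ, E) x)]

/-- a smooth function with differential `⟪V p, ·⟫` at `p`, tested on `V` -/
theorem ChartF.exists_fun (p : M) (V : VF E M) : ∃ f : SF E M, DVF V f p = gVF V V p := by
  let L0 : TangentSpace 𝓘(ℝ, E) p →ₗ[ℝ] ℝ := (innerSL ℝ (V p)).toLinearMap
  let L : E →L[ℝ] ℝ := LinearMap.toContinuousLinearMap (𝕜 := ℝ) (E := E) (F' := ℝ) L0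
  have hL : L (V p) = gVF V V p := by
    rw [gVF_apply]; rfl
  have hU : (chartAt E p).source ∈ 𝓝 p := chart_source_mem_nhds E p
  have hsm : ContMDiffOn 𝓘(ℝ, E) 𝓘(ℝ) ∞
      (fun q => L (extChartAt 𝓘(ℝ, E) p q)) (chartAt E p).source := by
    have h1 : ContMDiffOn 𝓘(ℝ, E) 𝓘(ℝ, E) ∞ (extChartAt 𝓘(ℝ, E) p) (chartAt E p).source :=
      contMDiffOn_extChartAt
    exact L.contMDiff.comp_contMDiffOn h1
  obtain ⟨f, hf⟩ := cut_fun (E := E) hU hsm
  refine ⟨f, ?_⟩
  have e1 : (f : M → ℝ) =ᶠ[𝓝 p] fun q => L (extChartAt 𝓘(ℝ, E) p q) := hf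
  rw [DVF_apply, mvfderiv, e1.mfderiv_eq]
  have hd : HasMFDerivAt 𝓘(ℝ, E) 𝓘(ℝ, E) (extChartAt 𝓘(ℝ, E) p) p
      (mfderiv 𝓘(ℝ, E) 𝓘(ℝ, E) (extChartAt 𝓘(ℝ, E) p) p) :=
    (mdifferentiableAt_extChartAt (mem_chart_source E p)).hasMFDerivAt
  have hd3 := (L.hasFDerivAt (x := extChartAt 𝓘(ℝ, E) p p)).hasMFDerivAt.comp p hd
  have e2 : mfderiv 𝓘(ℝ, E) 𝓘(ℝ) (fun q => L (extChartAt 𝓘(ℝ, E) p q)) p
      = _ := hd3.mfderiv
  rw [e2]
  exact (congrArg (fun A : E →L[ℝ] E => L (A (V p))) (mfderiv_extChart_self p)).trans hL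

variable {cov : CovariantDerivative 𝓘(ℝ, E) E (TangentSpace 𝓘(ℝ, E) : M → Type _)}

/-- **Coordinate fields.** On a coordinate ball the fields `C i` are the coordinate fields of the
chart at `p`: derivatives along `C i` are partial derivatives, the fields commute and span. -/
theorem exists_chartFields (hcov : IsLC cov) (p : M) :
    ∃ (C : Fin (Module.finrank ℝ E) → VF E M) (r : ℝ), 0 < r ∧
      Metric.ball (extChartAt 𝓘(ℝ, E) p p) r ⊆ (extChartAt 𝓘(ℝ, E) p).target ∧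
      ∀ x ∈ Metric.ball (extChartAt 𝓘(ℝ, E) p p) r,
        (∀ (f : SF E M) i, DVF (C i) f (ich p x) =
          fderiv ℝ (fun x => f (ich (E := E) p x)) x (Module.finBasis ℝ E i)) ∧
        (∀ i j, nabVF cov hcov.smooth (C i) (C j) (ich p x) =
          nabVF cov hcov.smooth (C j) (C i) (ich p x)) ∧
        ∀ X : VF E M, ∃ c : Fin (Module.finrank ℝ E) → ℝ,
          X (ich p x) = ∑ i, c i • C i (ich p x) := by
  classical
  let e := trivializationAt E (TangentSpace 𝓘(ℝ, E) : M → Type _) p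
  have hx : p ∈ e.baseSet := FiberBundle.mem_baseSet_trivializationAt' p
  have hN : e.baseSet ∈ 𝓝 p := e.open_baseSet.mem_nhds hx
  let b := Module.finBasis ℝ E
  have h1 : ∀ i, ∃ X : VF E M, ∀ᶠ y in 𝓝 p, X y = e.localFrame b i y := fun i =>
    cut_section hN (e.contMDiffOn_localFrame_baseSet ∞ b i)
  choose C hC using h1
  have hC' : ∀ᶠ y in 𝓝 p, (∀ i, C i y = e.localFrame b i y) ∧ y ∈ e.baseSet :=
    (eventually_all.mpr hC).and hN
  -- pull back to the chart
  have hcont : ContinuousAt (ich (E := E) p) (extChartAt 𝓘(ℝ, E) p p) :=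
    continuousAt_extChartAt_symm p
  have hpp : ich (E := E) p (extChartAt 𝓘(ℝ, E) p p) = p := extChartAt_to_inv p
  have h2 : ∀ᶠ x in 𝓝 (extChartAt 𝓘(ℝ, E) p p),
      ((∀ i, C i (ich p x) = e.localFrame b i (ich p x)) ∧ ich p x ∈ e.baseSet) ∧
        x ∈ (extChartAt 𝓘(ℝ, E) p).target := by
    refine Eventually.and ?_ (extChartAt_target_mem_nhds p)
    have h3 : Tendsto (ich (E := E) p) (𝓝 (extChartAt 𝓘(ℝ, E) p p)) (𝓝 p) := by
      have := hcont.tendsto
      rwa [hpp] at this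
    exact h3.eventually hC'
  obtain ⟨r, hr, hball⟩ := Metric.eventually_nhds_iff_ball.mp h2
  have key : ∀ x ∈ Metric.ball (extChartAt 𝓘(ℝ, E) p p) r, ∀ (f : SF E M) i,
      DVF (C i) f (ich p x) =
        fderiv ℝ (fun x => f (ich (E := E) p x)) x (Module.finBasis ℝ E i) := by
    intro x hxr f i
    obtain ⟨⟨hx1, hx2⟩, hx3⟩ := hball x hxr
    rw [DVF_apply, hx1 i, Trivialization.localFrame_apply_of_mem_baseSet _ _ hx2]
    have h4 := ChartF.deriv (E := E) (p := p) (q := ich p x) hx2 f (Module.finBasis ℝ E i)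
    rw [(extChartAt 𝓘(ℝ, E) p).right_inv hx3] at h4
    exact h4
  refine ⟨C, r, hr, fun x hx => (hball x hx).2, fun x hxr => ⟨key x hxr, ?_, ?_⟩⟩
  · intro i j
    obtain ⟨-, hx3⟩ := hball x hxr
    have hsm : ∀ f : SF E M, ContDiffAt ℝ ∞ (fun x => f (ich (E := E) p x)) x := fun f =>
      (ChartF.contDiffOn p f).contDiffAt ((isOpen_extChartAt_target p).mem_nhds hx3)
    have key2 : ∀ (f : SF E M) (i j : Fin (Module.finrank ℝ E)),
        DVF (C i) (DVF (C j) f) (ich p x) =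
          fderiv ℝ (fderiv ℝ (fun x => f (ich (E := E) p x))) x (Module.finBasis ℝ E i)
            (Module.finBasis ℝ E j) := by
      intro f i j
      rw [key x hxr (DVF (C j) f) i]
      have hev : (fun y => DVF (C j) f (ich (E := E) p y)) =ᶠ[𝓝 x]
          fun y => fderiv ℝ (fun x => f (ich (E := E) p x)) y (Module.finBasis ℝ E j) := by
        filter_upwards [Metric.isOpen_ball.mem_nhds hxr] with y hy
        exact key y hy f j
      rw [hev.fderiv_eq]
      have hd : DifferentiableAt ℝ (fderiv ℝ (fun x => f (ich (E := E) p x))) x :=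
        ((hsm f).fderiv_right (m := 1) (by norm_cast)).differentiableAt (by simp)
      have h2 := hd.hasFDerivAt.clm_apply (hasFDerivAt_const (Module.finBasis ℝ E j) x)
      rw [h2.fderiv]
      simp
    have hsymm : ∀ f : SF E M, DVF (C i) (DVF (C j) f) (ich p x) =
        DVF (C j) (DVF (C i) f) (ich p x) := by
      intro f
      rw [key2 f i j, key2 f j i]
      have h3 : IsSymmSndFDerivAt ℝ (fun x => f (ich (E := E) p x)) x :=
        (hsm f).isSymmSndFDerivAt (by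
          rw [minSmoothness_of_isRCLikeNormedField]
          exact WithTop.coe_le_coe.mpr (le_top : (2 : ℕ∞) ≤ ⊤))
      exact h3.eq _ _
    obtain ⟨f, hf⟩ := ChartF.exists_fun (E := E) (ich p x)
      (nabVF cov hcov.smooth (C i) (C j) - nabVF cov hcov.smooth (C j) (C i))
    have h4 := congrArg (fun h : SF E M => h (ich p x)) ((lcOf hcov).comm (C i) (C j) f)
    have h5 : DVF (nabVF cov hcov.smooth (C i) (C j) - nabVF cov hcov.smooth (C j) (C i)) f
        (ich p x) = DVF (C i) (DVF (C j) f) (ich p x) - DVF (C j) (DVF (C i) f) (ich p x) := h4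
    rw [hsymm f, sub_self, hf, gVF_self_eq_zero] at h5
    exact sub_eq_zero.mp h5
  · intro X
    obtain ⟨⟨hx1, hx2⟩, hx3⟩ := hball x hxr
    refine ⟨fun i => (e.basisAt b hx2).repr (X (ich p x)) i, ?_⟩
    conv_lhs => rw [← (e.basisAt b hx2).sum_repr (X (ich p x))]
    refine Finset.sum_congr rfl fun i _ => ?_
    rw [hx1 i, e.localFrame_apply_of_mem_baseSet b hx2]

end

end Vale.Agent.P211.HK
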