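import Vale.Agent.P211.HK.SC0
import Vale.Agent.P211.HK.SC2

/-! P211 / HK: block SC4 (helper153): linearity, Leibniz rule and metric compatibility of `nabS`. -/

set_option maxSynthPendingDepth 3
set_option linter.unusedSectionVars false

namespace Vale.Agent.P211.HK

open scoped Manifold ContDiff Topology RealInnerProductSpace
open Bundle Filter VectorField MeasureTheory

noncomputable section

namespace SC4

variable {W W' : Type} [NormedAddCommGroup W] [InnerProductSpace ℝ W]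
  [NormedAddCommGroup W'] [InnerProductSpace ℝ W']

variable {E : Type} [NormedAddCommGroup E] [NormedSpace ℝ E] [FiniteDimensional ℝ E]
  {M : Type} [TopologicalSpace M] [ChartedSpace E M] [IsManifold 𝓘(ℝ, E) ∞ M] [T2Space M]

theorem dirW_eq (φ : M → W) (p : M) (v : TangentSpace 𝓘(ℝ, E) p) :
    dirW φ p v = mvfderiv 𝓘(ℝ, E) φ p v := rfl

/-- the derivative at `p` as a map of the model spaces -/
def mD (φ : M → W) (p : M) : E →L[ℝ] W := mfderiv 𝓘(ℝ, E) 𝓘(ℝ, W) φ p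

/-- the derivative in the chart at `p` -/
theorem hasFDerivAt_chart {φ : M → W} {p : M} (h : MDifferentiableAt 𝓘(ℝ, E) 𝓘(ℝ, W) φ p) :
    HasFDerivAt (φ ∘ (extChartAt 𝓘(ℝ, E) p).symm)
      (mD (E := E) φ p) (extChartAt 𝓘(ℝ, E) p p) := by
  have h1 : HasFDerivWithinAt (φ ∘ (extChartAt 𝓘(ℝ, E) p).symm)
    (mD (E := E) φ p) (Set.range 𝓘(ℝ, E)) (extChartAt 𝓘(ℝ, E) p p) := h.hasMFDerivAt.2
  rwa [ModelWithCorners.range_eq_univ, hasFDerivWithinAt_univ] at h1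

theorem dirW_add {φ ψ : M → W} {p : M} (hφ : MDifferentiableAt 𝓘(ℝ, E) 𝓘(ℝ, W) φ p)
    (hψ : MDifferentiableAt 𝓘(ℝ, E) 𝓘(ℝ, W) ψ p) (v : TangentSpace 𝓘(ℝ, E) p) :
    dirW (fun q => φ q + ψ q) p v = dirW φ p v + dirW ψ p v := by
  have h := mvfderiv_add hφ hψ
  exact congrArg (fun L : TangentSpace 𝓘(ℝ, E) p →L[ℝ] W => L v) h

theorem dirW_const_smul {φ : M → W} {p : M} (c : ℝ)
    (hφ : ContMDiffAt 𝓘(ℝ, E) 𝓘(ℝ, W) ∞ φ p) (v : TangentSpace 𝓘(ℝ, E) p) :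
    dirW (fun q => c • φ q) p v = c • dirW φ p v :=
  SC2.dirW_clm (c • ContinuousLinearMap.id ℝ W) hφ v

theorem dirW_smul {a : M → ℝ} {φ : M → W} {p : M} (ha : MDifferentiableAt 𝓘(ℝ, E) 𝓘(ℝ, ℝ) a p)
    (hφ : MDifferentiableAt 𝓘(ℝ, E) 𝓘(ℝ, W) φ p) (v : TangentSpace 𝓘(ℝ, E) p) :
    dirW (fun q => a q • φ q) p v =
      (mvfderiv 𝓘(ℝ, E) a p v : ℝ) • φ p + a p • dirW φ p v := by
  have h := mvfderiv_smul ha hφ
  have h2 := congrArg (fun L : TangentSpace 𝓘(ℝ, E) p →L[ℝ] W => L v) h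
  have h3 : dirW (fun q => a q • φ q) p v = _ := h2
  rw [h3, add_comm]
  rfl

theorem dirW_inner {φ ψ : M → W} {p : M} (hφ : ContMDiffAt 𝓘(ℝ, E) 𝓘(ℝ, W) ∞ φ p)
    (hψ : ContMDiffAt 𝓘(ℝ, E) 𝓘(ℝ, W) ∞ ψ p) :
    ContMDiffAt 𝓘(ℝ, E) 𝓘(ℝ, ℝ) ∞ (fun q => (⟪φ q, ψ q⟫ : ℝ)) p ∧
    ∀ v : TangentSpace 𝓘(ℝ, E) p,
    (mvfderiv 𝓘(ℝ, E) (fun q => (⟪φ q, ψ q⟫ : ℝ)) p v : ℝ) =
      ⟪dirW φ p v, ψ p⟫ + ⟪φ p, dirW ψ p v⟫ := by
  have h0 : ContMDiffAt 𝓘(ℝ, E) 𝓘(ℝ, ℝ) ∞ (fun q => (⟪φ q, ψ q⟫ : ℝ)) p := by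
    have h1 : ContMDiffAt 𝓘(ℝ, E) 𝓘(ℝ, W × W) ∞ (fun q => (φ q, ψ q)) p :=
      hφ.prodMk_space hψ
    exact (contDiff_inner (𝕜 := ℝ) (E := W) (n := ∞)).contMDiff.contMDiffAt.comp p h1
  refine ⟨h0, fun v => ?_⟩
  have h1 := hasFDerivAt_chart (h0.mdifferentiableAt (by simp))
  have h2 := hasFDerivAt_chart (hφ.mdifferentiableAt (by simp))
  have h3 := hasFDerivAt_chart (hψ.mdifferentiableAt (by simp))
  have h4 := h2.inner ℝ h3
  have h5 := h1.unique h4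
  have h6 := congrArg (fun L : E →L[ℝ] ℝ => L v) h5
  have h7 : (mvfderiv 𝓘(ℝ, E) (fun q => (⟪φ q, ψ q⟫ : ℝ)) p v : ℝ) = _ := h6
  rw [h7]
  simp only [Function.comp_apply, extChartAt_to_inv]
  rw [add_comm]
  rfl

variable [RiemannianBundle fun p : M => TangentSpace 𝓘(ℝ, E) p]
  [IsContMDiffRiemannianBundle 𝓘(ℝ, E) ∞ E fun p : M => TangentSpace 𝓘(ℝ, E) p]
  {cov : CovariantDerivative 𝓘(ℝ, E) E (TangentSpace 𝓘(ℝ, E) : M → Type)}
  {om : Form4 E M}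

/-- one synchronous frame computes `nabS` for all `u` -/
theorem nabS_pos {p : M} {f : Fin 4 → TangentSpace 𝓘(ℝ, E) p}
    (h : PON om p f ∧ ∃ F : Fin 4 → VF E M, SyncExt cov om p f F) (u : PreS E M W) :
    nabS cov om u p f = mkT fun k => dirW (fun q => u q fun i => h.2.choose i q) p (f k) :=
  dif_pos h

theorem nabS_neg {p : M} {f : Fin 4 → TangentSpace 𝓘(ℝ, E) p}
    (h : ¬ (PON om p f ∧ ∃ F : Fin 4 → VF E M, SyncExt cov om p f F)) (u : PreS E M W) :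
    nabS cov om u p f = 0 := dif_neg h

theorem syncExt_choose {p : M} {f : Fin 4 → TangentSpace 𝓘(ℝ, E) p}
    (h : PON om p f ∧ ∃ F : Fin 4 → VF E M, SyncExt cov om p f F) :
    SyncExt cov om p f h.2.choose := h.2.choose_spec

/-- in a positively oriented frame `f` there is a synchronous frame through `f` computing `nabS`
for all `u` (of all types) -/
theorem exists_sync (hg : Geo4 cov om) {p : M} {f : Fin 4 → TangentSpace 𝓘(ℝ, E) p}
    (hf : PON om p f) : ∃ F : Fin 4 → VF E M, SyncExt cov om p f F ∧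
      ∀ (W : Type) [NormedAddCommGroup W] [InnerProductSpace ℝ W] (u : PreS E M W),
        nabS cov om u p f = mkT fun k => dirW (fun q => u q fun i => F i q) p (f k) := by
  have h : PON om p f ∧ ∃ F : Fin 4 → VF E M, SyncExt cov om p f F := ⟨hf, sc0_sync hg p f hf⟩
  exact ⟨h.2.choose, syncExt_choose h, fun W _ _ u => nabS_pos h u⟩

theorem nabS_add {R : Rep W} {u v : PreS E M W} (hu : u ∈ Sec om R) (hv : v ∈ Sec om R) :
    nabS cov om (u + v) = nabS cov om u + nabS cov om v := by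
  funext p f
  by_cases h : PON om p f ∧ ∃ F : Fin 4 → VF E M, SyncExt cov om p f F
  · have hF := (syncExt_choose h).1
    ext k
    simp only [Pi.add_apply, nabS_pos h]
    exact dirW_add ((hu.2.2 _ p hF).mdifferentiableAt (by simp))
      ((hv.2.2 _ p hF).mdifferentiableAt (by simp)) (f k)
  · simp [nabS_neg h]

theorem nabS_smul {R : Rep W} (c : ℝ) {u : PreS E M W} (hu : u ∈ Sec om R) :
    nabS cov om (c • u) = c • nabS cov om u := by
  funext p f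
  by_cases h : PON om p f ∧ ∃ F : Fin 4 → VF E M, SyncExt cov om p f F
  · have hF := (syncExt_choose h).1
    ext k
    simp only [Pi.smul_apply, nabS_pos h]
    exact dirW_const_smul c (hu.2.2 _ p hF) (f k)
  · simp [nabS_neg h]

theorem smul_mem {R : Rep W} (φ : SF E M) {u : PreS E M W} (hu : u ∈ Sec om R) :
    (fun p f => φ p • u p f : PreS E M W) ∈ Sec om R := by
  refine ⟨fun p f hf => by simp [hu.1 p f hf], fun p f g hf hg => ?_, fun F p hF => ?_⟩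
  · simp only [hu.2.1 p f g hf hg, map_smul]
  · exact (φ.contMDiff p).smul (hu.2.2 F p hF)

theorem nabS_leibniz {R : Rep W} (φ : SF E M) {u : PreS E M W} (hu : u ∈ Sec om R)
    (hg : Geo4 cov om) {p : M} {f : Fin 4 → TangentSpace 𝓘(ℝ, E) p} (hf : PON om p f)
    (k : Fin 4) :
    (nabS cov om (fun p f => φ p • u p f) p f) k =
      (mvfderiv 𝓘(ℝ, E) φ p (f k) : ℝ) • u p f + φ p • (nabS cov om u p f) k := by
  obtain ⟨F, hF, hn⟩ := exists_sync hg hf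
  rw [hn, hn]
  have h1 := dirW_smul (φ.mdiff p) ((hu.2.2 F p hF.1).mdifferentiableAt (by simp)) (f k)
  have h2 : (fun i => F i p) = f := funext hF.2.1
  simp only [h2] at h1
  exact h1

theorem inner_eq {R : Rep W} (hg : Geo4 cov om) {u v : PreS E M W} (hu : u ∈ Sec om R)
    (hv : v ∈ Sec om R) {p : M} {f f' : Fin 4 → TangentSpace 𝓘(ℝ, E) p} (hf : PON om p f)
    (hf' : PON om p f') : (⟪u p f, v p f⟫ : ℝ) = ⟪u p f', v p f'⟫ := by
  obtain ⟨g, hgs, rfl⟩ := (sc0 hg).2.2.2.1 p f f' hf hf'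
  rw [hu.2.1 p f g hf hgs, hv.2.1 p f g hf hgs, R.inner _ (SC2.isSO_trM hgs)]

/-- pointwise inner product of two sections -/
theorem exists_inner {R : Rep W} (hg : Geo4 cov om) {u v : PreS E M W} (hu : u ∈ Sec om R)
    (hv : v ∈ Sec om R) : ∃ φ : SF E M,
      (∀ p f, PON om p f → φ p = ⟪u p f, v p f⟫) ∧ ∀ p f, PON om p f → ∀ k,
        (mvfderiv 𝓘(ℝ, E) φ p (f k) : ℝ) =
          ⟪(nabS cov om u p f) k, v p f⟫ + ⟪u p f, (nabS cov om v p f) k⟫ := by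
  choose c hc using fun p : M => exists_pon hg p
  have h1 : ∀ p f, PON om p f → (⟪u p (c p), v p (c p)⟫ : ℝ) = ⟪u p f, v p f⟫ :=
    fun p f hf => inner_eq hg hu hv (hc p) hf
  have hloc : ∀ (F : Fin 4 → VF E M) (p : M), PONnear om p F →
      (fun q => (⟪u q (c q), v q (c q)⟫ : ℝ)) =ᶠ[𝓝 p]
        fun q => ⟪u q fun i => F i q, v q fun i => F i q⟫ := by
    intro F p hF
    filter_upwards [hF] with q hq
    exact h1 q _ hq
  have hsm : ContMDiff 𝓘(ℝ, E) 𝓘(ℝ, ℝ) ∞ fun q => (⟪u q (c q), v q (c q)⟫ : ℝ) := by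
    intro p
    obtain ⟨F, hF⟩ := sc0_sync hg p _ (hc p)
    exact (dirW_inner (hu.2.2 F p hF.1) (hv.2.2 F p hF.1)).1.congr_of_eventuallyEq
      (hloc F p hF.1)
  refine ⟨⟨_, hsm⟩, fun p f hf => h1 p f hf, fun p f hf k => ?_⟩
  obtain ⟨F, hF, hn⟩ := exists_sync hg hf
  have h2 : (fun i => F i p) = f := funext hF.2.1
  have h3 := (dirW_inner (hu.2.2 F p hF.1) (hv.2.2 F p hF.1)).2 (f k)
  have h4 := SC2.dirW_congr (W := ℝ) (hloc F p hF.1) (f k)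
  have h5 : (mvfderiv 𝓘(ℝ, E) (fun q => (⟪u q (c q), v q (c q)⟫ : ℝ)) p (f k) : ℝ) =
      mvfderiv 𝓘(ℝ, E) (fun q => (⟪u q fun i => F i q, v q fun i => F i q⟫ : ℝ)) p (f k) := h4
  change (mvfderiv 𝓘(ℝ, E) (fun q => (⟪u q (c q), v q (c q)⟫ : ℝ)) p (f k) : ℝ) = _
  rw [h5, h3, hn, hn]
  simp only [h2]
  rfl

end SC4

variable {E : Type} [NormedAddCommGroup E] [NormedSpace ℝ E] [FiniteDimensional ℝ E]
  {M : Type} [TopologicalSpace M] [ChartedSpace E M] [IsManifold 𝓘(ℝ, E) ∞ M] [T2Space M]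
  [RiemannianBundle fun p : M => TangentSpace 𝓘(ℝ, E) p]
  [IsContMDiffRiemannianBundle 𝓘(ℝ, E) ∞ E fun p : M => TangentSpace 𝓘(ℝ, E) p]
  {cov : CovariantDerivative 𝓘(ℝ, E) E (TangentSpace 𝓘(ℝ, E) : M → Type)}
  {om : Form4 E M}

theorem sc4 : SC4Stmt cov om := by
  intro hg W _ _ _ R
  exact ⟨fun u hu v hv => SC4.nabS_add hu hv, fun c u hu => SC4.nabS_smul c hu,
    fun φ u hu => ⟨SC4.smul_mem φ hu, fun p f hf k => SC4.nabS_leibniz φ hu hg hf k⟩,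
    fun u hu v hv => SC4.exists_inner hg hu hv⟩

end

end Vale.Agent.P211.HK
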