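import Vale.Agent.P211.HK.SC1
import Vale.Agent.P211.HK.SC4

/-! P211 / HK: sections with prescribed value at a point and vanishing covariant derivative there
(helper702). -/

set_option maxSynthPendingDepth 3
set_option linter.unusedSectionVars false

namespace Vale.Agent.P211.HK.Ex

open scoped Manifold ContDiff Topology RealInnerProductSpace
open Bundle Filter VectorField

noncomputable section

variable {W : Type} [NormedAddCommGroup W] [InnerProductSpace ℝ W]

variable {E : Type} [NormedAddCommGroup E] [NormedSpace ℝ E] [FiniteDimensional ℝ E]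
  {M : Type} [TopologicalSpace M] [ChartedSpace E M] [IsManifold 𝓘(ℝ, E) ∞ M] [T2Space M]
  [RiemannianBundle fun p : M => TangentSpace 𝓘(ℝ, E) p]
  [IsContMDiffRiemannianBundle 𝓘(ℝ, E) ∞ E fun p : M => TangentSpace 𝓘(ℝ, E) p]

variable {cov : CovariantDerivative 𝓘(ℝ, E) E (TangentSpace 𝓘(ℝ, E) : M → Type)}
  {om : Form4 E M}

/-- a global smooth function, equal to one near `x` and vanishing outside a neighbourhood -/
theorem exists_plateau {x : M} {U : Set M} (hU : U ∈ 𝓝 x) :
    ∃ f : SF E M, (∀ᶠ y in 𝓝 x, f y = 1) ∧ ∀ y, y ∉ U → f y = 0 := by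
  obtain ⟨χ, -, hχ⟩ := (SmoothBumpFunction.nhds_basis_tsupport (I := 𝓘(ℝ, E)) x).mem_iff.mp hU
  refine ⟨⟨χ, χ.contMDiff⟩, χ.eventuallyEq_one, fun y hy => ?_⟩
  exact image_eq_zero_of_notMem_tsupport fun h => hy (hχ h)

open Classical in
/-- the section which has constant components `w` in the frame `F`, cut off by `χ` -/
def cst (om : Form4 E M) (R : Rep W) (χ : M → ℝ) (F : Fin 4 → VF E M) (w : W) : PreS E M W :=
  fun q g => if PON om q g then χ q • R.ρ (fun i j => (inner ℝ (F j q) (g i) : ℝ)) w else 0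

theorem cst_mem (hG : Geo4 cov om) (R : Rep W) (χ : SF E M) (F : Fin 4 → VF E M)
    (hχ : ∀ q, ¬ PON om q (fun i => F i q) → χ q = 0) (w : W) :
    cst om R χ F w ∈ Sec om R := by
  refine ⟨fun p f h => if_neg h, fun p f g hf hg => ?_, fun G p hG' => ?_⟩
  · unfold cst
    rw [if_pos hf, if_pos (pon_fact hG hf hg)]
    by_cases h : PON om p (fun i => F i p)
    · have h1 := (pon_matrix hG h hf).1
      have h2 : (fun i j => (inner ℝ (F j p) (fact f g i) : ℝ)) =
          mulM (trM g) (fun i j => (inner ℝ (F j p) (f i) : ℝ)) := by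
        funext i j
        simp only [fact, mulM, trM, inner_sum, real_inner_smul_right]
      have h3 : R.ρ (mulM (trM g) (fun i j => (inner ℝ (F j p) (f i) : ℝ))) =
          (R.ρ (trM g)).comp (R.ρ (fun i j => (inner ℝ (F j p) (f i) : ℝ))) :=
        R.mul _ _ hg.tr h1.tr
      rw [h2, h3, ContinuousLinearMap.comp_apply, map_smul]
    · rw [hχ p h, zero_smul, zero_smul, map_zero]
  · have h1 : ∀ᶠ q in 𝓝 p, cst om R χ F w q (fun i => G i q) =
        χ q • (R.ρ (trM (gFF F G q))) w := by
      filter_upwards [hG'] with q hq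
      unfold cst
      rw [if_pos hq]
      rfl
    refine ContMDiffAt.congr_of_eventuallyEq ?_ h1
    have h2 : ContMDiffAt 𝓘(ℝ, E) 𝓘(ℝ, Mat4) ∞ (fun q => trM (gFF F G q)) p := by
      rw [contMDiffAt_pi_space]
      intro i
      rw [contMDiffAt_pi_space]
      intro j
      exact (gVF (F j) (G i)).contMDiff.contMDiffAt
    have h3 : ContMDiffAt 𝓘(ℝ, E) 𝓘(ℝ, W →L[ℝ] W) ∞ (fun q => R.ρ (trM (gFF F G q))) p :=
      R.smooth.contMDiff.contMDiffAt.comp p h2
    exact χ.contMDiff.contMDiffAt.smul (h3.clm_apply contMDiffAt_const)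

/-- a section with prescribed value at `p` and vanishing covariant derivative there -/
theorem exists_sec (hG : Geo4 cov om) (R : Rep W) {p : M} {f : Fin 4 → TangentSpace 𝓘(ℝ, E) p}
    (hf : PON om p f) (w : W) :
    ∃ u ∈ Sec (E := E) om R, u p f = w ∧ nabS cov om u p f = 0 := by
  obtain ⟨F, hF, hn⟩ := SC4.exists_sync hG hf
  obtain ⟨χ, h1, h0⟩ := exists_plateau (E := E) (x := p) (U := {q | PON om q fun i => F i q}) hF.1
  have hfF : f = fun i => F i p := funext fun i => (hF.2.1 i).symm
  have key : ∀ q, PON om q (fun i => F i q) → χ q = 1 →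
      cst om R χ F w q (fun i => F i q) = w := by
    intro q hq hχ
    unfold cst
    have h2 : (fun i j => (inner ℝ (F j q) (F i q) : ℝ)) = idM := by
      funext i j
      rw [orthonormal_iff_ite.1 hq.1 j i]
      simp [idM, eq_comm]
    rw [if_pos hq, hχ, one_smul, h2, R.one]
    rfl
  refine ⟨cst om R χ F w, cst_mem hG R χ F (fun q hq => h0 q hq) w, ?_, ?_⟩
  · rw [hfF]
    exact key p hF.1.pon h1.self_of_nhds
  · rw [hn]
    ext k
    have h2 : ∀ᶠ q in 𝓝 p, cst om R χ F w q (fun i => F i q) = w := by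
      filter_upwards [hF.1, h1] with q hq hχ using key q hq hχ
    have h3 : dirW (fun q => cst om R χ F w q fun i => F i q) p (f k) = 0 := by
      unfold dirW
      rw [Filter.EventuallyEq.mfderiv_eq (I := 𝓘(ℝ, E)) (I' := 𝓘(ℝ, W)) h2]
      rw [mfderiv_const]
      rfl
    exact h3

end

end Vale.Agent.P211.HK.Ex
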