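import Vale.Agent.P211.HK.SC2

/-! P211 / HK / SC3 (helper767): constant coefficient maps are parallel. -/

set_option maxSynthPendingDepth 3
set_option linter.unusedSectionVars false

namespace Vale.Agent.P211.HK

open scoped Manifold ContDiff Topology RealInnerProductSpace
open Bundle Filter VectorField MeasureTheory

noncomputable section

namespace SC3

open SC2

section alg

variable {W W' W'' : Type} [NormedAddCommGroup W] [InnerProductSpace ℝ W]
  [NormedAddCommGroup W'] [InnerProductSpace ℝ W']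
  [NormedAddCommGroup W''] [InnerProductSpace ℝ W'']

theorem tnC_apply (C : W →L[ℝ] W') (w : Tn W) (k : Fin 4) : (tnC C w) k = C (w k) := by
  unfold tnC
  simp only [FunLike.coe_sum, Finset.sum_apply, ContinuousLinearMap.coe_comp,
    Function.comp_apply, PiLp.proj_apply, WithLp.ofLp_sum]
  rw [Finset.sum_eq_single k]
  · simp
  · intro b _ hb
    simp [hb.symm]
  · simp

theorem tnC_mkT (C : W →L[ℝ] W') (w : Fin 4 → W) : tnC C (mkT w) = mkT fun k => C (w k) := by
  ext k
  rw [tnC_apply]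
  rfl

theorem tnC_tnMap (C : W →L[ℝ] W') (m : Mat4) {a : W →L[ℝ] W} {a' : W' →L[ℝ] W'}
    (h : ∀ w, C (a w) = a' (C w)) (w : Tn W) : tnC C (tnMap m a w) = tnMap m a' (tnC C w) := by
  ext k
  rw [tnC_apply, tnMap_apply, tnMap_apply, map_sum]
  refine Finset.sum_congr rfl fun l _ => ?_
  rw [map_smul, h, tnC_apply]

theorem intertwines_tnC {R : Rep W} {R' : Rep W'} {C : W →L[ℝ] W'} (hC : Intertwines R R' C)
    {T : Rep (Tn W)} {T' : Rep (Tn W')} (hT : Tens R T) (hT' : Tens R' T') :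
    Intertwines T T' (tnC C) := by
  intro g hg w
  rw [hT g hg, hT' g hg]
  exact tnC_tnMap C g (hC g hg) w

end alg

variable {W W' : Type} [NormedAddCommGroup W] [InnerProductSpace ℝ W]
  [NormedAddCommGroup W'] [InnerProductSpace ℝ W']
  {E : Type} [NormedAddCommGroup E] [NormedSpace ℝ E] [FiniteDimensional ℝ E]
  {M : Type} [TopologicalSpace M] [ChartedSpace E M] [IsManifold 𝓘(ℝ, E) ∞ M] [T2Space M]
  [RiemannianBundle fun p : M => TangentSpace 𝓘(ℝ, E) p]
  [IsContMDiffRiemannianBundle 𝓘(ℝ, E) ∞ E fun p : M => TangentSpace 𝓘(ℝ, E) p]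
  {cov : CovariantDerivative 𝓘(ℝ, E) E (TangentSpace 𝓘(ℝ, E) : M → Type)}
  {om : Form4 E M}

/-- `u` is smooth in every smooth positively oriented orthonormal frame -/
def SmF (om : Form4 E M) (u : PreS E M W) : Prop := ∀ (F : Fin 4 → VF E M) (p : M),
  PONnear om p F → ContMDiffAt 𝓘(ℝ, E) 𝓘(ℝ, W) ∞ (fun q => u q fun i => F i q) p

theorem nabS_mapS {u : PreS E M W} (hu : SmF om u) (C : W →L[ℝ] W') :
    nabS cov om (mapS C u) = mapS (tnC C) (nabS cov om u) := by
  funext p f
  change nabS cov om (fun p f => C (u p f)) p f = tnC C (nabS cov om u p f)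
  unfold nabS
  by_cases h : PON om p f ∧ ∃ F : Fin 4 → VF E M, SyncExt cov om p f F
  · rw [dif_pos h, dif_pos h, tnC_mkT]
    congr 1
    funext k
    exact dirW_clm C (hu _ p h.2.choose_spec.1) (f k)
  · rw [dif_neg h, dif_neg h, map_zero]

theorem smF_of_mem {R : Rep W} {u : PreS E M W} (hu : u ∈ Sec om R) : SmF om u := hu.2.2

/-- the covariant derivative of a section is smooth in every smooth frame (no representation on
`T ⊗ W` needed) -/
theorem smF_nabS [FiniteDimensional ℝ W] (h1 : SC1Stmt cov om) (hg : Geo4 cov om) {R : Rep W}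
    {u : PreS E M W} (hu : u ∈ Sec om R) : SmF om (nabS cov om u) := by
  intro F p hF
  have h1' := h1 hg W R u hu
  obtain ⟨hu1, hu2, hu3⟩ := hu
  have hF' := PONnear.eventually hF
  have h2 : (fun q => nabS cov om u q fun i => F i q) =ᶠ[𝓝 p] fun q =>
      mkT fun k => dirW (fun q => u q fun i => F i q) q (F k q) +
        R.d (GaF cov F q k) (u q fun i => F i q) := by
    filter_upwards [hF'] with q hq
    ext k
    exact h1' q F hq k
  refine ContMDiffAt.congr_of_eventuallyEq ?_ h2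
  have h3 : ∀ k, ContMDiffAt 𝓘(ℝ, E) 𝓘(ℝ, W) ∞ (fun q =>
      dirW (fun q => u q fun i => F i q) q (F k q) +
        R.d (GaF cov F q k) (u q fun i => F i q)) p := by
    intro k
    refine ContMDiffAt.add ?_ ?_
    · exact contMDiffAt_dirW (hF'.mono fun q hq => hu3 F q hq) (F k)
    · have h4 : ContMDiffAt 𝓘(ℝ, E) 𝓘(ℝ, W →L[ℝ] W) ∞ (fun q => R.d (GaF cov F q k)) p :=
        (fderiv ℝ R.ρ idM).contMDiff.contMDiffAt.comp p (contMDiff_GaF hg.lc F k p)
      exact h4.clm_apply (hu3 F p hF)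
  have h5 : ContMDiffAt 𝓘(ℝ, E) 𝓘(ℝ, Fin 4 → W) ∞ (fun q => fun k =>
      dirW (fun q => u q fun i => F i q) q (F k q) +
        R.d (GaF cov F q k) (u q fun i => F i q)) p := by
    rw [contMDiffAt_pi_space]
    exact h3
  exact ((PiLp.continuousLinearEquiv 2 ℝ fun _ : Fin 4 => W).symm : (Fin 4 → W) →L[ℝ] Tn W)
    |>.contMDiff.contMDiffAt.comp p h5

/-- images of sections under intertwining maps are sections -/
theorem mapS_mem {R : Rep W} {R' : Rep W'} {C : W →L[ℝ] W'} (hC : Intertwines R R' C)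
    {u : PreS E M W} (hu : u ∈ Sec om R) : mapS C u ∈ Sec om R' := by
  obtain ⟨hu1, hu2, hu3⟩ := hu
  refine ⟨fun p f hf => ?_, fun p f g hf hgS => ?_, fun F p hF => ?_⟩
  · unfold mapS
    rw [hu1 p f hf, map_zero]
  · unfold mapS
    rw [hu2 p f g hf hgS, hC _ (isSO_trM hgS)]
  · exact C.contMDiff.contMDiffAt.comp p (hu3 F p hF)

theorem lapS_mapS {u : PreS E M W} (hu : SmF om u) (hu' : SmF om (nabS cov om u))
    (C : W →L[ℝ] W') : lapS cov om (mapS C u) = mapS C (lapS cov om u) := by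
  funext p f
  unfold lapS
  rw [nabS_mapS hu, nabS_mapS hu']
  change - ∑ k, (tnC (tnC C) (nabS cov om (nabS cov om u) p f)) k k =
    C (- ∑ k, (nabS cov om (nabS cov om u) p f) k k)
  rw [map_neg, map_sum]
  congr 1
  refine Finset.sum_congr rfl fun k _ => ?_
  rw [tnC_apply, tnC_apply]

end SC3

open SC2 SC3

variable {E : Type} [NormedAddCommGroup E] [NormedSpace ℝ E] [FiniteDimensional ℝ E]
  {M : Type} [TopologicalSpace M] [ChartedSpace E M] [IsManifold 𝓘(ℝ, E) ∞ M] [T2Space M]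
  [RiemannianBundle fun p : M => TangentSpace 𝓘(ℝ, E) p]
  [IsContMDiffRiemannianBundle 𝓘(ℝ, E) ∞ E fun p : M => TangentSpace 𝓘(ℝ, E) p]
  (cov : CovariantDerivative 𝓘(ℝ, E) E (TangentSpace 𝓘(ℝ, E) : M → Type))
  (om : Form4 E M)

theorem sc3_of (h1 : SC1Stmt cov om) : SC3Stmt cov om := by
  intro hg W W' _ _ _ _ _ _ R R' C hC u hu
  exact ⟨mapS_mem hC hu, nabS_mapS (smF_of_mem hu) C,
    lapS_mapS (smF_of_mem hu) (smF_nabS h1 hg hu) C⟩

end

end Vale.Agent.P211.HK
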