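import Vale.Agent.P211.HK.SC1
import Vale.Agent.P211.HK.SC3
import Vale.Agent.P211.HK.SC4
import Vale.Agent.P211.HK.AN7
import Mathlib.MeasureTheory.Function.L2Space

/-! P211 / HK: `HKMainStmt` = the output of the analytic part (LK), and `hk_index` = the index
formula for section-level operators `D`, `D'` which follows from it (helper456). -/

set_option maxSynthPendingDepth 3
set_option linter.unusedSectionVars false

namespace Vale.Agent.P211.HK

open scoped Manifold ContDiff Topology RealInnerProductSpace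
open Bundle Filter VectorField MeasureTheory Set

noncomputable section

/-! ### algebra of the fibre -/

section fibre

variable {W : Type} [NormedAddCommGroup W] [InnerProductSpace ℝ W] [FiniteDimensional ℝ W]

/-- the trace -/
def trW (A : W →L[ℝ] W) : ℝ := LinearMap.trace ℝ W (A : W →ₗ[ℝ] W)

theorem trW_id : trW (ContinuousLinearMap.id ℝ W) = Module.finrank ℝ W := by
  unfold trW
  rw [ContinuousLinearMap.coe_id, LinearMap.trace_id]

theorem trW_sum {ι : Type} [Fintype ι] (A : ι → W →L[ℝ] W) : trW (∑ j, A j) = ∑ j, trW (A j) := by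
  unfold trW
  rw [ContinuousLinearMap.toLinearMap_sum, map_sum]

/-- Orthogonal projections of `W` with sum `1`, commuting with the representation. -/
structure ProjSys (R : Rep W) {ι : Type} [Fintype ι] (pr : ι → W →L[ℝ] W) : Prop where
  symm : ∀ j a b, ⟪pr j a, b⟫ = ⟪a, pr j b⟫
  idem : ∀ j, (pr j).comp (pr j) = pr j
  orth : ∀ i j, i ≠ j → (pr i).comp (pr j) = 0
  sum : ∑ j, pr j = ContinuousLinearMap.id ℝ W
  comm : ∀ j, Intertwines R R (pr j)

theorem ProjSys.sum_trW {R : Rep W} {ι : Type} [Fintype ι] {pr : ι → W →L[ℝ] W}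
    (h : ProjSys R pr) : ∑ j, trW (pr j) = Module.finrank ℝ W := by
  rw [← trW_sum, h.sum, trW_id]

end fibre

variable {E : Type} [NormedAddCommGroup E] [NormedSpace ℝ E] [FiniteDimensional ℝ E]
  {M : Type} [TopologicalSpace M] [ChartedSpace E M] [IsManifold 𝓘(ℝ, E) ∞ M] [T2Space M]
  [RiemannianBundle fun p : M => TangentSpace 𝓘(ℝ, E) p]
  [IsContMDiffRiemannianBundle 𝓘(ℝ, E) ∞ E fun p : M => TangentSpace 𝓘(ℝ, E) p]
  [MeasurableSpace M]

section defs

variable {W : Type} [NormedAddCommGroup W] [InnerProductSpace ℝ W] [FiniteDimensional ℝ W]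
  (cov : CovariantDerivative 𝓘(ℝ, E) E (TangentSpace 𝓘(ℝ, E) : M → Type))
  (om : Form4 E M)

/-- `∑_{k,l} tr (A Ω_kl Ω_kl)` at `p`, in the frame `f`; `Ω_kl = R.d (Om cov p f k l)` -/
def curvTr (R : Rep W) (A : W →L[ℝ] W) (p : M) (f : Fin 4 → TangentSpace 𝓘(ℝ, E) p) : ℝ :=
  ∑ k, ∑ l, trW (A.comp ((R.d (Om cov p f k l)).comp (R.d (Om cov p f k l))))

/-- Heat data (parametrix) of `lapS` on the `L²` classes of smooth sections of `R`. -/
structure SecHeat (R : Rep W) (μ : Measure M)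
    (fr : (p : M) → Fin 4 → TangentSpace 𝓘(ℝ, E) p) where
  P : HeatData (Lp W 2 μ)
  ex : ∀ u ∈ Sec om R, ∃ φ : Lp W 2 μ, φ =ᵐ[μ] fun p => u p (fr p)
  mem_iff : ∀ φ : Lp W 2 μ, φ ∈ P.Dm ↔ ∃ u ∈ Sec om R, φ =ᵐ[μ] fun p => u p (fr p)
  L_ae : ∀ (φ : P.Dm) (u : PreS E M W), u ∈ Sec om R →
    ((φ : Lp W 2 μ) =ᵐ[μ] fun p => u p (fr p)) →
    P.L φ =ᵐ[μ] fun p => lapS cov om u p (fr p)
  /-- weak eigenvectors are smooth -/
  reg : ∀ b l, P.WeakEig b l → b ∈ P.Dm

/-- HKMain: what the analytic part delivers. `s t` is the squared Hilbert-Schmidt norm of the scalar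
parametrix. -/
def HKMainStmt (μ : Measure M) : Prop :=
  Geo4 cov om →
  ∃ fr : (p : M) → Fin 4 → TangentSpace 𝓘(ℝ, E) p, (∀ p, PON om p (fr p)) ∧
  ∃ s : ℝ → ℝ,
    Tendsto (fun t => t ^ 2 * s t) (𝓝[>] 0) (𝓝 ((64 * Real.pi ^ 2)⁻¹ * μ.real univ)) ∧
    ∀ (W : Type) [NormedAddCommGroup W] [InnerProductSpace ℝ W] [FiniteDimensional ℝ W]
      (R : Rep W), ∃ H : SecHeat cov om R μ fr,
      ∀ A : W →L[ℝ] W, (∀ a b, ⟪A a, b⟫ = ⟪a, A b⟫) → A.comp A = A → Intertwines R R A →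
        ∃ y : ℝ → ℝ,
          (∃ C : ℝ, ∀ t ∈ Ioo (0 : ℝ) 1, 0 ≤ y t ∧ t ^ 2 * y t ≤ C) ∧
          (∀ t ∈ Ioo (0 : ℝ) 1, ∀ (κ : Type) (b : HilbertBasis κ ℝ (Lp W 2 μ)),
            hsSq b (ContinuousLinearMap.adjoint ((A.compLpL 2 μ).comp (H.P.Z t))) =
              ENNReal.ofReal (y t)) ∧
          Integrable (fun p => curvTr cov R A p (fr p)) μ ∧
          Tendsto (fun t => y t - trW A * s t) (𝓝[>] 0)
            (𝓝 ((192 * Real.pi ^ 2)⁻¹ * ∫ p, curvTr cov R A p (fr p) ∂μ))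

end defs

end

end Vale.Agent.P211.HK
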