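import Vale.Agent.P211.HK.LK2e

/-! P211 / HK / LK2: unconditional versions. helper339. -/

set_option maxSynthPendingDepth 3
set_option linter.unusedSectionVars false

namespace Vale.Agent.P211.HK

open scoped Manifold ContDiff Topology RealInnerProductSpace
open Bundle Filter VectorField MeasureTheory Set

noncomputable section

variable {E : Type} [NormedAddCommGroup E] [NormedSpace ℝ E] [FiniteDimensional ℝ E]
  {M : Type} [TopologicalSpace M] [ChartedSpace E M] [IsManifold 𝓘(ℝ, E) ∞ M] [T2Space M]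
  [RiemannianBundle fun p : M => TangentSpace 𝓘(ℝ, E) p]
  [IsContMDiffRiemannianBundle 𝓘(ℝ, E) ∞ E fun p : M => TangentSpace 𝓘(ℝ, E) p]

variable (cov : CovariantDerivative 𝓘(ℝ, E) E (TangentSpace 𝓘(ℝ, E) : M → Type))
  (om : Form4 E M)

theorem sc2' : SC2Stmt cov om := sc2_of cov om sc0 (sc1 cov om)

theorem lk2b : LK2bStmt cov om := LK2.lk2b sc0 (sc1 cov om) (sc2' cov om)

variable [MeasurableSpace M] [BorelSpace M] [CompactSpace M] (μ : Measure M)

theorem lk2a : LK2aStmt cov om μ := LK2.lk2a sc0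

theorem lk2c : LK2cStmt cov om μ := LK2.lk2c sc0 (sc1 cov om) (sc2' cov om)

theorem lk2e : LK2eStmt cov om μ := LK2.lk2e

end

end Vale.Agent.P211.HK
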