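import Vale.Agent.P211.HK.KSplit
import Vale.Agent.P211.HK.Vol
import Vale.Agent.P211.HK.LK2
import Vale.Agent.P211.HK.SC6
import Vale.Agent.P211.HK.ExSec
import Vale.Agent.P211.HK.HKMain
import Mathlib.Analysis.Distribution.AEEqOfIntegralContDiff

/-! P211 / HK (helper249): the section side of `KernelData`: smooth sections are dense in `L²`,
symmetry and semiboundedness of `lapS`; from the kernel fields to `SecHeat`. -/

set_option maxSynthPendingDepth 3
set_option linter.unusedSectionVars false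

namespace Vale.Agent.P211.HK

open scoped Manifold ContDiff Topology RealInnerProductSpace
open Bundle Filter VectorField MeasureTheory Set

noncomputable section

variable {E : Type} [NormedAddCommGroup E] [NormedSpace ℝ E] [FiniteDimensional ℝ E]
  {M : Type} [TopologicalSpace M] [ChartedSpace E M] [IsManifold 𝓘(ℝ, E) ∞ M] [T2Space M]
  [RiemannianBundle fun p : M => TangentSpace 𝓘(ℝ, E) p]
  [IsContMDiffRiemannianBundle 𝓘(ℝ, E) ∞ E fun p : M => TangentSpace 𝓘(ℝ, E) p]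
  [MeasurableSpace M] [BorelSpace M] [CompactSpace M]
  {W : Type} [NormedAddCommGroup W] [InnerProductSpace ℝ W] [FiniteDimensional ℝ W]
  {cov : CovariantDerivative 𝓘(ℝ, E) E (TangentSpace 𝓘(ℝ, E) : M → Type)}
  {om : Form4 E M} {R : Rep W} {μ : Measure M}
  {fr : (p : M) → Fin 4 → TangentSpace 𝓘(ℝ, E) p}

namespace KSec

theorem mem_secN {u : PreS E M W} (hu : u ∈ Sec om R) : u ∈ SecN om R 0 :=
  ⟨hu.1, hu.2.1, fun F p hF => (hu.2.2 F p hF).of_le (by simp)⟩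

theorem sm (S : FrSel om fr) {u : PreS E M W}
    (hu : u ∈ Sec om R) : StronglyMeasurable (fun p => u p (fr p)) := by
  have h1 : StronglyMeasurable ((univ : Set M).indicator fun p => u p (fr p)) := by
    refine VOL.sm_pieces (G := fun i p => u p fun j => S.F i j p) S.meas S.disj S.cover
      (fun i p hp => ?_) (fun i p hp => ?_)
    · show u p (fr p) = _
      rw [S.eq i p hp]
    · exact (hu.2.2 (S.F i) p (S.pon i p (subset_closure hp))).continuousAt.continuousWithinAt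
  rwa [indicator_univ] at h1

theorem bd (hG : Geo4 cov om) (S : FrSel om fr) {u : PreS E M W}
    (hu : u ∈ Sec om R) : ∃ C : ℝ, ∀ p, ‖u p (fr p)‖ ≤ C := by
  obtain ⟨C, hC⟩ := (isCompact_range (norm_sec_cont hG (mem_secN hu) S.ponfr)).bddAbove
  exact ⟨C, fun p => hC (mem_range_self p)⟩

theorem lapS_add (hG : Geo4 cov om) {u v : PreS E M W} (hu : u ∈ Sec om R) (hv : v ∈ Sec om R) :
    lapS cov om (u + v) = lapS cov om u + lapS cov om v := by
  have a1 := sc2' cov om hG W R R.tn R.tens_tn u hu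
  have a2 := sc2' cov om hG W R R.tn R.tens_tn v hv
  funext p f
  unfold lapS
  rw [SC4.nabS_add hu hv, SC4.nabS_add a1 a2]
  simp only [Pi.add_apply, PiLp.add_apply, Finset.sum_add_distrib, neg_add]

theorem lapS_smul (hG : Geo4 cov om) (c : ℝ) {u : PreS E M W} (hu : u ∈ Sec om R) :
    lapS cov om (c • u) = c • lapS cov om u := by
  have a1 := sc2' cov om hG W R R.tn R.tens_tn u hu
  funext p f
  unfold lapS
  rw [SC4.nabS_smul c hu, SC4.nabS_smul c a1]
  simp only [Pi.smul_apply, PiLp.smul_apply, ← Finset.smul_sum, smul_neg]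

theorem lapS_mem (hG : Geo4 cov om) {u : PreS E M W} (hu : u ∈ Sec om R) :
    lapS cov om u ∈ Sec om R := LK2.lapS_mem (sc2' cov om) hG hu

/-- evaluation of sections in the frame selection -/
def evS (om : Form4 E M) (R : Rep W) (fr : (p : M) → Fin 4 → TangentSpace 𝓘(ℝ, E) p) :
    Sec om R →ₗ[ℝ] (M → W) where
  toFun u p := u.1 p (fr p)
  map_add' _ _ := rfl
  map_smul' _ _ := rfl

/-- evaluation of `lapS` -/
def LfS (hG : Geo4 cov om) (R : Rep W) (fr : (p : M) → Fin 4 → TangentSpace 𝓘(ℝ, E) p) :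
    Sec om R →ₗ[ℝ] (M → W) where
  toFun u p := lapS cov om u.1 p (fr p)
  map_add' u v := by
    funext p
    rw [Submodule.coe_add, lapS_add hG u.2 v.2]
    rfl
  map_smul' c u := by
    funext p
    rw [Submodule.coe_smul, lapS_smul hG c u.2]
    rfl

theorem symm (hG : Geo4 cov om) [IsFiniteMeasure μ]
    (hdiv : ∀ (X : VF E M) (d : M → ℝ), (∀ p f, PON om p f →
      d p = ∑ i, inner ℝ (cov X p (f i)) (f i)) → ∫ p, d p ∂μ = 0)
    (hfr : ∀ p, PON om p (fr p)) {u v : PreS E M W} (hu : u ∈ Sec om R) (hv : v ∈ Sec om R) :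
    ∫ p, ⟪lapS cov om u p (fr p), v p (fr p)⟫ ∂μ =
      ∫ p, ⟪u p (fr p), lapS cov om v p (fr p)⟫ ∂μ := by
  have h := (sc6 cov om μ hG inferInstance hdiv W R R.tn R.tens_tn fr hfr).2
  rw [← h u hu v hv]
  simp_rw [real_inner_comm]
  rw [← h v hv u hu]
  simp_rw [real_inner_comm]

theorem lower (hG : Geo4 cov om) [IsFiniteMeasure μ]
    (hdiv : ∀ (X : VF E M) (d : M → ℝ), (∀ p f, PON om p f →
      d p = ∑ i, inner ℝ (cov X p (f i)) (f i)) → ∫ p, d p ∂μ = 0)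
    (hfr : ∀ p, PON om p (fr p)) {u : PreS E M W} (hu : u ∈ Sec om R) :
    0 ≤ ∫ p, ⟪lapS cov om u p (fr p), u p (fr p)⟫ ∂μ := by
  rw [symm hG hdiv hfr hu hu]
  have h := (sc6 cov om μ hG inferInstance hdiv W R R.tn R.tens_tn fr hfr).2
  rw [← h u hu u hu]
  exact integral_nonneg fun p => real_inner_self_nonneg

/-- a function in `L²` which is orthogonal to all smooth sections vanishes -/
theorem ae_zero (hG : Geo4 cov om) [IsFiniteMeasure μ] (S : FrSel om fr)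
    {b : M → W} (hb : MemLp b 2 μ)
    (h : ∀ u ∈ Sec om R, ∫ p, ⟪b p, u p (fr p)⟫ ∂μ = 0) : ∀ᵐ p ∂μ, b p = 0 := by
  have hfr := S.ponfr
  -- pointwise orthogonality
  have h1 : ∀ u ∈ Sec om R, ∀ᵐ p ∂μ, ⟪b p, u p (fr p)⟫ = 0 := by
    intro u hu
    refine ae_eq_zero_of_integral_contMDiff_smul_eq_zero 𝓘(ℝ, E) ?_ ?_
    · obtain ⟨C, hC⟩ := bd hG S hu
      have hm := sm S hu
      have hi : Integrable (fun p => ⟪b p, u p (fr p)⟫) μ := by
        refine ((hb.integrable one_le_two).norm.mul_const C).mono'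
          (hb.1.inner hm.aestronglyMeasurable) (ae_of_all _ fun p => ?_)
        exact (norm_inner_le_norm _ _).trans (by gcongr; exact hC p)
      exact hi.locallyIntegrable
    · intro g hg _
      have h2 := h _ (SC4.smul_mem (⟨g, hg⟩ : SF E M) hu)
      refine Eq.trans ?_ h2
      refine integral_congr_ae (ae_of_all _ fun p => ?_)
      change g p * ⟪b p, u p (fr p)⟫ = ⟪b p, g p • u p (fr p)⟫
      rw [real_inner_smul_right]
  -- local statement
  have h2 : ∀ q : M, ∃ V ∈ 𝓝 q, ∀ᵐ p ∂μ, p ∈ V → b p = 0 := by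
    intro q
    obtain ⟨F, hF, -⟩ := (sc0 hG).1 q (fr q) (hfr q)
    obtain ⟨χ, hχ1, hχ0⟩ := Ex.exists_plateau (E := E) (x := q)
      (U := {p | PON om p fun i => F i p}) hF
    refine ⟨{p | χ p = 1 ∧ PON om p fun i => F i p}, hχ1.and hF, ?_⟩
    set e := stdOrthonormalBasis ℝ W
    have h3 : ∀ j, ∀ᵐ p ∂μ, ⟪b p, Ex.cst om R χ F (e j) p (fr p)⟫ = 0 := fun j =>
      h1 _ (Ex.cst_mem hG R χ F (fun p hp => hχ0 p hp) (e j))
    rw [← ae_all_iff] at h3
    filter_upwards [h3] with p hp hpV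
    have hSO := (pon_matrix hG (hfr p) hpV.2).1
    set m : Mat4 := fun i j => (inner ℝ (fr p i) (F j p) : ℝ) with hm
    have hm' : m = fun i j => (inner ℝ (fr p i) (F j p) : ℝ) := rfl
    have hval : ∀ j, Ex.cst om R χ F (e j) p (fr p) = R.ρ m (e j) := by
      intro j
      unfold Ex.cst
      rw [if_pos (hfr p), hpV.1, one_smul]
      congr 2
      funext i k
      rw [hm', real_inner_comm]
    have hort : ∀ w : W, ⟪b p, R.ρ m w⟫ = 0 := by
      intro w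
      rw [← e.sum_repr w, map_sum, inner_sum]
      refine Finset.sum_eq_zero fun j _ => ?_
      rw [map_smul, real_inner_smul_right, ← hval j, hp j, mul_zero]
    have hinj : Function.Injective (R.ρ m : W →ₗ[ℝ] W) := by
      rw [← LinearMap.ker_eq_bot, LinearMap.ker_eq_bot']
      intro w hw
      have h5 := R.inner m hSO w w
      rw [show R.ρ m w = 0 from hw, inner_zero_left] at h5
      exact inner_self_eq_zero.1 h5.symm
    obtain ⟨w, hw⟩ := (LinearMap.injective_iff_surjective.1 hinj) (b p)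
    have h6 := hort w
    rw [show R.ρ m w = b p from hw] at h6
    exact inner_self_eq_zero.1 h6
  -- globalise
  have : SecondCountableTopology M := ChartedSpace.secondCountable_of_sigmaCompact E M
  refine measure_null_of_locally_null _ fun q _ => ?_
  obtain ⟨V, hV, hV2⟩ := h2 q
  refine ⟨{p | ¬ b p = 0} ∩ V, ?_, ?_⟩
  · exact inter_mem self_mem_nhdsWithin (mem_nhdsWithin_of_mem_nhds hV)
  · refine measure_mono_null ?_ hV2
    rintro p ⟨hp1, hp2⟩
    simp only [mem_compl_iff, Set.mem_ofPred_eq, not_forall]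
    exact ⟨hp2, hp1⟩

/-- the test functions: evaluations of smooth sections -/
def DS (om : Form4 E M) (R : Rep W) (fr : (p : M) → Fin 4 → TangentSpace 𝓘(ℝ, E) p) :
    Set (M → W) := {φ | ∃ u ∈ Sec om R, φ = fun p => u p (fr p)}

/-- smooth sections are dense in `L²` -/
theorem dense (hG : Geo4 cov om) [IsFiniteMeasure μ] (S : FrSel om fr) :
    (Submodule.span ℝ {f : Lp W 2 μ | ∃ φ ∈ DS om R fr, f =ᵐ[μ] φ}).topologicalClosure = ⊤ := by
  rw [Submodule.topologicalClosure_eq_top_iff, Submodule.eq_bot_iff]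
  intro b hb
  rw [Submodule.mem_orthogonal] at hb
  have h1 : ∀ᵐ p ∂μ, b p = 0 := by
    refine ae_zero (R := R) hG S (Lp.memLp b) fun u hu => ?_
    have hm : MemLp (fun p => u p (fr p)) 2 μ :=
      memLp_of_bdd (sm S hu) (bd hG S hu)
    have h2 := hb (hm.toLp _) (Submodule.subset_span ⟨_, ⟨u, hu, rfl⟩, hm.coeFn_toLp⟩)
    rw [L2.inner_def] at h2
    rw [← h2]
    refine integral_congr_ae ?_
    filter_upwards [hm.coeFn_toLp] with p hp
    rw [hp, real_inner_comm]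
  refine Lp.ext ?_
  filter_upwards [h1, Lp.coeFn_zero W 2 μ] with p hp h0
  rw [hp, h0]
  rfl

end KSec

/-- the kernel fields of `KernelData`, for sections -/
structure KerPart (cov : CovariantDerivative 𝓘(ℝ, E) E (TangentSpace 𝓘(ℝ, E) : M → Type))
    (om : Form4 E M) (R : Rep W) (μ : Measure M)
    (fr : (p : M) → Fin 4 → TangentSpace 𝓘(ℝ, E) p) where
  /-- the kernels: parametrix, error, `lapS` applied to the parametrix -/
  z : ℝ → M → M → (W →L[ℝ] W)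
  e : ℝ → M → M → (W →L[ℝ] W)
  lz : ℝ → M → M → (W →L[ℝ] W)
  z_meas : ∀ t, 0 < t → StronglyMeasurable fun p : M × M => z t p.1 p.2
  e_meas : ∀ t, 0 ≤ t → StronglyMeasurable fun p : M × M => e t p.1 p.2
  lz_meas : ∀ t, 0 < t → StronglyMeasurable fun p : M × M => lz t p.1 p.2
  bdd : ∀ a b : ℝ, 0 < a → ∃ C : ℝ, ∀ t ∈ Icc a b, ∀ x y,
    ‖z t x y‖ ≤ C ∧ ‖e t x y‖ ≤ C ∧ ‖lz t x y‖ ≤ C
  e_cont : ∀ x y, ContinuousOn (fun t => e t x y) (Icc 0 1)
  e_small : ∃ C : ℝ, ∀ t ∈ Icc (0 : ℝ) 1, ∀ x y, ‖e t x y‖ ≤ C * t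
  z_deriv : ∀ t, 0 < t → ∀ x y, HasDerivAt (fun s => z s x y) (e t x y - lz t x y) t
  z_mem : ∀ t, 0 < t → ∀ w : Lp W 2 μ, ∃ u ∈ Sec (E := E) om R,
    (∀ᵐ x ∂μ, u x (fr x) = ∫ y, z t x y (w y) ∂μ) ∧
    ∀ᵐ x ∂μ, lapS cov om u x (fr x) = ∫ y, lz t x y (w y) ∂μ
  schur : ∀ δ : ℝ, 0 < δ → ∀ᶠ t in 𝓝[>] (0 : ℝ),
    (∀ y, ∫ x, ‖z t x y‖ ∂μ ≤ 1 + δ) ∧ ∀ x, ∫ y, ‖z t x y‖ ∂μ ≤ 1 + δ
  lim : ∀ u ∈ Sec (E := E) om R, ∀ᵐ y ∂μ,
    Tendsto (fun t => ∫ x, (ContinuousLinearMap.adjoint (z t x y)) (u x (fr x)) ∂μ)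
      (𝓝[>] 0) (𝓝 (u y (fr y)))

namespace KerPart

variable (K : KerPart cov om R μ fr)

/-- the kernel data -/
def kd (hG : Geo4 cov om) [IsFiniteMeasure μ]
    (hdiv : ∀ (X : VF E M) (d : M → ℝ), (∀ p f, PON om p f →
      d p = ∑ i, inner ℝ (cov X p (f i)) (f i)) → ∫ p, d p ∂μ = 0)
    (S : FrSel om fr) : KernelData (W := W) (S := Sec om R) μ where
  ev := KSec.evS om R fr
  Lf := KSec.LfS hG R fr
  ev_meas := fun u => KSec.sm S u.2
  ev_bdd := fun u => KSec.bd hG S u.2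
  Lf_meas := fun u => KSec.sm S (KSec.lapS_mem hG u.2)
  Lf_bdd := fun u => KSec.bd hG S (KSec.lapS_mem hG u.2)
  symm := fun u v => KSec.symm hG hdiv S.ponfr u.2 v.2
  lower := ⟨0, fun u => by
    rw [neg_zero, zero_mul]
    exact KSec.lower hG hdiv S.ponfr u.2⟩
  z := K.z
  e := K.e
  lz := K.lz
  z_meas := K.z_meas
  e_meas := K.e_meas
  lz_meas := K.lz_meas
  bdd := K.bdd
  e_cont := K.e_cont
  e_small := K.e_small
  z_deriv := K.z_deriv
  z_mem := fun t ht w => by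
    obtain ⟨u, hu, h1, h2⟩ := K.z_mem t ht w
    exact ⟨⟨u, hu⟩, h1, h2⟩
  schur := K.schur
  D := KSec.DS om R fr
  D_meas := by
    rintro φ ⟨u, hu, rfl⟩
    exact KSec.sm S hu
  D_bdd := by
    rintro φ ⟨u, hu, rfl⟩
    exact KSec.bd hG S hu
  D_dense := KSec.dense hG S
  lim := by
    rintro φ ⟨u, hu, rfl⟩
    exact K.lim u hu

variable (hG : Geo4 cov om) [IsFiniteMeasure μ]
    (hdiv : ∀ (X : VF E M) (d : M → ℝ), (∀ p f, PON om p f →
      d p = ∑ i, inner ℝ (cov X p (f i)) (f i)) → ∫ p, d p ∂μ = 0)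
    (S : FrSel om fr)

theorem T_ae (u : Sec om R) :
    (K.kd hG hdiv S).T u =ᵐ[μ] fun p => u.1 p (fr p) := (K.kd hG hdiv S).T_ae u

theorem mem_iff (φ : Lp W 2 μ) :
    φ ∈ (K.kd hG hdiv S).heat.Dm ↔ ∃ u ∈ Sec om R, φ =ᵐ[μ] fun p => u p (fr p) := by
  rw [KernelData.mem_Dm_iff]
  constructor
  · rintro ⟨u, hu⟩
    exact ⟨u.1, u.2, hu.symm⟩
  · rintro ⟨u, hu, h⟩
    exact ⟨⟨u, hu⟩, h.symm⟩

/-- weak eigenvectors in terms of integrals -/
theorem weakEig_iff (b : Lp W 2 μ) (l : ℝ) :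
    (K.kd hG hdiv S).heat.WeakEig b l ↔ ∀ u ∈ Sec (E := E) om R,
      ∫ p, ⟪b p, lapS cov om u p (fr p)⟫ ∂μ = l * ∫ p, ⟪b p, u p (fr p)⟫ ∂μ := by
  rw [KernelData.weakEig_iff_integral]
  constructor
  · intro h u hu
    exact h ⟨u, hu⟩
  · rintro h ⟨u, hu⟩
    exact h u hu

/-- `SecHeat` from the kernel part and regularity -/
def secHeat (hreg : ∀ (b : Lp W 2 μ) (l : ℝ), (∀ u ∈ Sec (E := E) om R,
      ∫ p, ⟪b p, lapS cov om u p (fr p)⟫ ∂μ = l * ∫ p, ⟪b p, u p (fr p)⟫ ∂μ) →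
      ∃ u ∈ Sec (E := E) om R, b =ᵐ[μ] fun p => u p (fr p)) : SecHeat cov om R μ fr where
  P := (K.kd hG hdiv S).heat
  ex := fun u hu => ⟨(K.kd hG hdiv S).T ⟨u, hu⟩, K.T_ae hG hdiv S ⟨u, hu⟩⟩
  mem_iff := K.mem_iff hG hdiv S
  L_ae := fun φ u hu h => by
    have h1 : (K.kd hG hdiv S).T ⟨u, hu⟩ = (φ : Lp W 2 μ) :=
      Lp.ext ((K.T_ae hG hdiv S ⟨u, hu⟩).trans h.symm)
    have h2 : (K.kd hG hdiv S).heat.L φ = (K.kd hG hdiv S).G ⟨u, hu⟩ :=
      (K.kd hG hdiv S).L_apply' φ.2 h1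
    rw [h2]
    exact (K.kd hG hdiv S).G_ae ⟨u, hu⟩
  reg := fun b l h => by
    rw [K.mem_iff hG hdiv S]
    exact hreg b l ((K.weakEig_iff hG hdiv S b l).1 h)

/-- the Hilbert-Schmidt norm of the parametrix -/
theorem hsSq_Z {t : ℝ} (ht : 0 < t) (A : W →L[ℝ] W) (hA : ∀ a b, ⟪A a, b⟫ = ⟪a, A b⟫)
    (hA2 : A.comp A = A) {κ : Type} (b : HilbertBasis κ ℝ (Lp W 2 μ)) :
    hsSq b (ContinuousLinearMap.adjoint ((A.compLpL 2 μ).comp ((K.kd hG hdiv S).heat.Z t))) =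
      ENNReal.ofReal (∫ y, ∫ x, trW (A.comp ((K.z t x y).comp
        (ContinuousLinearMap.adjoint (K.z t x y)))) ∂μ ∂μ) := by
  have h := (K.kd hG hdiv S).hsSq_adj_cop_Z ht A b
  refine h.trans ?_
  congr 1
  refine integral_congr_ae (ae_of_all _ fun y => integral_congr_ae (ae_of_all _ fun x => ?_))
  exact KernelData.hsW_comp_eq A (K.z t x y) hA fun x => by
    rw [← ContinuousLinearMap.comp_apply, hA2]

end KerPart

end

end Vale.Agent.P211.HK
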