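import Vale.Agent.P211.HK.LKDefs
import Vale.Agent.P211.HK.KSec

/-! P211 / HK (helper249): LKD, and LKK (kernel data) from LKE - LKH. -/

set_option maxSynthPendingDepth 3
set_option linter.unusedSectionVars false

namespace Vale.Agent.P211.HK

open scoped Manifold ContDiff Topology RealInnerProductSpace
open Bundle Filter VectorField MeasureTheory Set

noncomputable section

variable {E : Type} [NormedAddCommGroup E] [NormedSpace ℝ E] [FiniteDimensional ℝ E]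
  {M : Type} [MetricSpace M] [ChartedSpace E M] [IsManifold 𝓘(ℝ, E) ∞ M]
  [RiemannianBundle fun p : M => TangentSpace 𝓘(ℝ, E) p]
  [IsContMDiffRiemannianBundle 𝓘(ℝ, E) ∞ E fun p : M => TangentSpace 𝓘(ℝ, E) p]
  [MeasurableSpace M] [BorelSpace M] [CompactSpace M]
  {cov : CovariantDerivative 𝓘(ℝ, E) E (TangentSpace 𝓘(ℝ, E) : M → Type)}
  {om : Form4 E M} {μ : Measure M} {D : ℝ}

/-- LKD: smooth sections are dense. -/
theorem lkd : LKDStmt cov om μ := by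
  intro hG hμ W _ _ _ R fr ⟨S⟩
  have h := KSec.dense (μ := μ) (R := R) hG S
  rw [← h]
  congr 2
  ext f
  constructor
  · rintro ⟨u, hu, h⟩
    exact ⟨_, ⟨u, hu, rfl⟩, h⟩
  · rintro ⟨φ, ⟨u, hu, rfl⟩, h⟩
    exact ⟨u, hu, h⟩

variable (A : MAtlas cov om μ D) (χ : Eu4 → ℝ) (N : ℕ)

/-- the kernel part from LKE - LKH -/
def MAtlas.kerPart (hG : Geo4 cov om) (hμ : IsFiniteMeasure μ) (hχ : EU5.Cut D χ) (hN : 5 ≤ N)
    (hE : LKEStmt A χ N) (hF : LKFStmt A χ N) (hGs : LKGStmt A χ N) (hH : LKHStmt A χ N)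
    {W : Type} [NormedAddCommGroup W] [InnerProductSpace ℝ W] [FiniteDimensional ℝ W]
    (R : Rep W) : KerPart cov om R μ A.fr where
  z := A.z R χ N
  e := A.e R χ N
  lz := A.lz R χ N
  z_meas := ((hE hG hμ hχ hN).2 W R).1
  e_meas := ((hE hG hμ hχ hN).2 W R).2.1
  lz_meas := ((hE hG hμ hχ hN).2 W R).2.2.1
  bdd := ((hE hG hμ hχ hN).2 W R).2.2.2.1
  e_cont := ((hE hG hμ hχ hN).2 W R).2.2.2.2.1
  e_small := ((hE hG hμ hχ hN).2 W R).2.2.2.2.2.1
  z_deriv := ((hE hG hμ hχ hN).2 W R).2.2.2.2.2.2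
  z_mem := fun t ht w => by
    obtain ⟨u, hu, h1, h2⟩ := hF hG hμ hχ W R t ht w ((Lp.memLp w).integrable one_le_two)
    exact ⟨u, hu, ae_of_all _ h1, ae_of_all _ h2⟩
  schur := hGs hG hμ hχ W R
  lim := fun u hu => ae_of_all _ (hH hG hμ hχ W R u hu)

/-- LKK: kernel data. -/
theorem lkk_of (hE : LKEStmt A χ N) (hF : LKFStmt A χ N) (hGs : LKGStmt A χ N)
    (hH : LKHStmt A χ N) : LKKStmt A χ N := by
  intro hG hμ _ hdiv hχ hN W _ _ _ R
  obtain ⟨S⟩ := (hE hG hμ hχ hN).1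
  exact ⟨(A.kerPart χ N hG hμ hχ hN hE hF hGs hH R).kd hG hdiv S, fun _ _ => rfl, fun _ _ => rfl,
    rfl, rfl, rfl⟩

end

end Vale.Agent.P211.HK
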