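import Vale.Agent.P211.HK.EUDefs

/-! P211 / HK, block EU1 (helper271): flat functions `t ^ a exp (-|v|² / 4t)`, extended by zero. -/

namespace Vale.Agent.P211.HK

open Filter Topology Set
open scoped ContDiff RealInnerProductSpace

noncomputable section

namespace EU1

section off

variable {V : Type*} [NormedAddCommGroup V] [InnerProductSpace ℝ V]

/-- `t ^ a exp (-|v|² / 4t)` for `t > 0`, zero for `t ≤ 0` -/
def g (a : ℤ) (x : ℝ × V) : ℝ :=
  if x.1 ≤ 0 then 0 else x.1 ^ a * Real.exp (-‖x.2‖ ^ 2 / (4 * x.1))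

/-- away from `v = 0` the functions are smooth, for every exponent -/
theorem contDiffOn_g (a : ℤ) : ContDiffOn ℝ ∞ (g (V := V) a) {x | x.2 ≠ 0} := by
  have hs : ContDiff ℝ ∞ fun x : ℝ × V => ‖x.2‖ ^ 2 / 4 :=
    (contDiff_snd.norm_sq ℝ).div_const 4
  have hx : ContDiffOn ℝ ∞ (fun x : ℝ × V => x.1 / (‖x.2‖ ^ 2 / 4)) {x | x.2 ≠ 0} := by
    refine contDiff_fst.contDiffOn.div hs.contDiffOn fun x hx => ?_
    have : ‖x.2‖ ≠ 0 := norm_ne_zero_iff.2 hx
    positivity
  obtain ⟨k, rfl | rfl⟩ := a.eq_nat_or_neg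
  · -- nonnegative exponent
    have h1 : ContDiff ℝ ∞ expNegInvGlue := expNegInvGlue.contDiff
    have h2 : ContDiffOn ℝ ∞ (fun x : ℝ × V => x.1 ^ k *
        expNegInvGlue (x.1 / (‖x.2‖ ^ 2 / 4))) {x | x.2 ≠ 0} :=
      (contDiff_fst.pow k).contDiffOn.mul (h1.comp_contDiffOn hx)
    refine h2.congr fun x hx => ?_
    have hv : 0 < ‖x.2‖ := norm_pos_iff.2 hx
    unfold g
    split_ifs with h
    · rw [expNegInvGlue.zero_of_nonpos (div_nonpos_of_nonpos_of_nonneg h (by positivity)), mul_zero]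
    · rw [not_le] at h
      have hp : 0 < x.1 / (‖x.2‖ ^ 2 / 4) := by positivity
      rw [expNegInvGlue, if_neg hp.not_ge, zpow_natCast]
      congr 2
      field_simp
  · have h1 : ContDiff ℝ ∞ (fun y : ℝ => (Polynomial.X ^ k : Polynomial ℝ).eval y⁻¹ *
        expNegInvGlue y) := expNegInvGlue.contDiff_polynomial_eval_inv_mul _
    have h3 : ContDiffOn ℝ ∞ (fun x : ℝ × V => ((‖x.2‖ ^ 2 / 4) ^ k)⁻¹) {x | x.2 ≠ 0} := by
      refine (hs.pow k).contDiffOn.inv fun x hx => ?_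
      have : ‖x.2‖ ≠ 0 := norm_ne_zero_iff.2 hx
      positivity
    have h2 := h3.mul (h1.comp_contDiffOn hx)
    refine h2.congr fun x hx => ?_
    have hv : 0 < ‖x.2‖ := norm_pos_iff.2 hx
    unfold g
    simp only [Function.comp_def, Polynomial.eval_pow, Polynomial.eval_X]
    split_ifs with h
    · rw [expNegInvGlue.zero_of_nonpos (div_nonpos_of_nonpos_of_nonneg h (by positivity)), mul_zero,
        mul_zero]
    · rw [not_le] at h
      have hp : 0 < x.1 / (‖x.2‖ ^ 2 / 4) := by positivity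
      rw [expNegInvGlue, if_neg hp.not_ge, zpow_neg, zpow_natCast]
      have e1 : -(x.1 / (‖x.2‖ ^ 2 / 4))⁻¹ = -‖x.2‖ ^ 2 / (4 * x.1) := by
        field_simp
      rw [e1, ← mul_assoc]
      congr 1
      have hs0 : (0 : ℝ) < ‖x.2‖ ^ 2 / 4 := by positivity
      generalize ‖x.2‖ ^ 2 / 4 = r at hs0
      rw [inv_div, div_pow, div_eq_mul_inv, ← mul_assoc, inv_mul_cancel₀ (pow_ne_zero k hs0.ne'),
        one_mul]

end off

/-! ### homogeneous factors -/

section hom

variable {V F : Type*} [NormedAddCommGroup V] [InnerProductSpace ℝ V]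
  [NormedAddCommGroup F] [NormedSpace ℝ F]

/-- smooth functions homogeneous of degree `k` -/
structure HomG (k : ℕ) (s : V → F) : Prop where
  smooth : ContDiff ℝ ∞ s
  hom : ∀ (c : ℝ) (v : V), s (c • v) = c ^ k • s v

theorem HomG.bound [FiniteDimensional ℝ V] {k : ℕ} {s : V → F} (h : HomG k s) :
    ∃ C : ℝ, 0 ≤ C ∧ ∀ v, ‖s v‖ ≤ C * ‖v‖ ^ k := by
  obtain ⟨C, hC⟩ := (isCompact_sphere (0 : V) 1).exists_bound_of_continuousOn
    h.smooth.continuous.continuousOn
  refine ⟨max C ‖s 0‖, le_max_of_le_right (norm_nonneg _), fun v => ?_⟩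
  rcases eq_or_ne v 0 with rfl | hv
  · rcases Nat.eq_zero_or_pos k with rfl | hk
    · rw [pow_zero, mul_one]; exact le_max_right _ _
    · have h1 := h.hom 0 0
      rw [zero_pow hk.ne', zero_smul, zero_smul] at h1
      rw [h1, norm_zero, norm_zero, zero_pow hk.ne', mul_zero]
  · have hvp : 0 < ‖v‖ := norm_pos_iff.2 hv
    have h1 := h.hom ‖v‖ (‖v‖⁻¹ • v)
    rw [smul_smul, mul_inv_cancel₀ hvp.ne', one_smul] at h1
    have h2 : ‖s (‖v‖⁻¹ • v)‖ ≤ C := by
      refine hC _ ?_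
      rw [mem_sphere_zero_iff_norm, norm_smul, norm_inv, norm_norm, inv_mul_cancel₀ hvp.ne']
    rw [h1, norm_smul, norm_pow, norm_norm, mul_comm]
    exact mul_le_mul_of_nonneg_right (h2.trans (le_max_left _ _)) (by positivity)

theorem HomG.dd {k : ℕ} {s : V → F} (h : HomG (k + 1) s) : HomG k (fderiv ℝ s) := by
  have hs : ContDiff ℝ ∞ (fderiv ℝ s) := h.smooth.fderiv_right (by simp)
  have h1 : ∀ c : ℝ, c ≠ 0 → ∀ v, fderiv ℝ s (c • v) = c ^ k • fderiv ℝ s v := by
    intro c hc v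
    have hd : ∀ w, HasFDerivAt s (fderiv ℝ s w) w := fun w =>
      (h.smooth.differentiable (by simp) w).hasFDerivAt
    have e1 : HasFDerivAt (fun w => s (c • w))
        ((fderiv ℝ s (c • v)).comp (c • ContinuousLinearMap.id ℝ V)) v :=
      (hd (c • v)).comp v ((hasFDerivAt_id v).const_smul c)
    have e2 : HasFDerivAt (fun w => s (c • w)) (c ^ (k + 1) • fderiv ℝ s v) v := by
      have : (fun w => s (c • w)) = fun w => c ^ (k + 1) • s w := funext fun w => h.hom c w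
      rw [this]
      exact (hd v).const_smul _
    have e3 := e1.unique e2
    have e4 : c • fderiv ℝ s (c • v) = c • (c ^ k • fderiv ℝ s v) := by
      rw [smul_smul, ← pow_succ', ← e3]
      ext w
      simp
    exact smul_right_injective _ hc e4
  refine ⟨hs, fun c v => ?_⟩
  by_cases hc : c = 0
  · have hcont1 : Continuous fun c : ℝ => fderiv ℝ s (c • v) :=
      hs.continuous.comp (continuous_id.smul continuous_const)
    have hcont2 : Continuous fun c : ℝ => c ^ k • fderiv ℝ s v :=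
      (continuous_id.pow k).smul continuous_const
    have hcl : IsClosed {c : ℝ | fderiv ℝ s (c • v) = c ^ k • fderiv ℝ s v} :=
      isClosed_eq hcont1 hcont2
    have hd : Dense ({0}ᶜ : Set ℝ) := dense_compl_singleton 0
    have hsub : ({0}ᶜ : Set ℝ) ⊆ {c : ℝ | fderiv ℝ s (c • v) = c ^ k • fderiv ℝ s v} :=
      fun c hc => h1 c hc v
    have := hcl.closure_subset_iff.2 hsub (hd c)
    exact this
  · exact h1 c hc v

theorem HomG.dd_zero {s : V → F} (h : HomG 0 s) : fderiv ℝ s = 0 := by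
  have : s = fun _ => s 0 := by
    funext v
    have := h.hom 0 v
    rw [zero_smul, pow_zero, one_smul] at this
    exact this.symm
  rw [this]
  funext v
  simp

/-- the flat function with a homogeneous factor -/
def fl (a : ℤ) (s : V → F) (x : ℝ × V) : F := g a x • s x.2

/-- `|v| ^ k exp (-|v|² / 4t)` is bounded by a multiple of `√t ^ k` -/
theorem exp_bound (k : ℕ) : ∃ C : ℝ, 0 ≤ C ∧ ∀ (t : ℝ), 0 < t → ∀ r : ℝ, 0 ≤ r →
    r ^ k * Real.exp (-r ^ 2 / (4 * t)) ≤ C * Real.sqrt t ^ k := by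
  -- `y ^ k exp (- y² / 4)` is bounded
  obtain ⟨C, hC⟩ : ∃ C : ℝ, ∀ y : ℝ, 0 ≤ y → y ^ k * Real.exp (-y ^ 2 / 4) ≤ C := by
    refine ⟨Real.exp (k ^ 2), fun y hy => ?_⟩
    rcases eq_or_lt_of_le hy with rfl | hy
    · rcases Nat.eq_zero_or_pos k with rfl | hk
      · simp
      · rw [zero_pow hk.ne', zero_mul]; positivity
    · have h1 : y ^ k ≤ Real.exp (k * y) := by
        rw [mul_comm, Real.exp_mul, Real.rpow_natCast]
        exact pow_le_pow_left₀ hy.le (by linarith [Real.add_one_le_exp y]) k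
      calc y ^ k * Real.exp (-y ^ 2 / 4) ≤ Real.exp (k * y) * Real.exp (-y ^ 2 / 4) := by gcongr
        _ = Real.exp (k * y + -y ^ 2 / 4) := (Real.exp_add _ _).symm
        _ ≤ Real.exp (k ^ 2) := by
          apply Real.exp_le_exp.2
          nlinarith [sq_nonneg (y / 2 - k)]
  refine ⟨max C 0, le_max_right _ _, fun t ht r hr => ?_⟩
  have hst : 0 < Real.sqrt t := Real.sqrt_pos.2 ht
  have h1 := hC (r / Real.sqrt t) (by positivity)
  have h2 : -(r / Real.sqrt t) ^ 2 / 4 = -r ^ 2 / (4 * t) := by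
    rw [div_pow, Real.sq_sqrt ht.le]; field_simp
  rw [h2, div_pow, div_mul_eq_mul_div, div_le_iff₀ (by positivity)] at h1
  exact h1.trans (mul_le_mul_of_nonneg_right (le_max_left _ _) (by positivity))

theorem fl_bound [FiniteDimensional ℝ V] {k : ℕ} {s : V → F} (h : HomG k s) (a : ℤ) :
    ∃ C : ℝ, 0 ≤ C ∧ ∀ x : ℝ × V, 0 < x.1 → ‖fl a s x‖ ≤ C * Real.sqrt x.1 ^ (2 * a + k) := by
  obtain ⟨C1, hC1, h1⟩ := h.bound
  obtain ⟨C2, hC2, h2⟩ := exp_bound k
  refine ⟨C1 * C2, by positivity, fun x hx => ?_⟩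
  have hsx : 0 < Real.sqrt x.1 := Real.sqrt_pos.2 hx
  have h3 := h2 x.1 hx ‖x.2‖ (norm_nonneg _)
  have h4 := h1 x.2
  unfold fl g
  rw [if_neg hx.not_ge, norm_smul, norm_mul, Real.norm_eq_abs, Real.norm_eq_abs,
    abs_of_pos (zpow_pos hx a), abs_of_pos (Real.exp_pos _)]
  have h5 : x.1 ^ a = Real.sqrt x.1 ^ (2 * a) := by
    rw [zpow_mul]
    congr 1
    exact (Real.sq_sqrt hx.le).symm
  calc x.1 ^ a * Real.exp (-‖x.2‖ ^ 2 / (4 * x.1)) * ‖s x.2‖
      ≤ x.1 ^ a * Real.exp (-‖x.2‖ ^ 2 / (4 * x.1)) * (C1 * ‖x.2‖ ^ k) := by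
        have := zpow_pos hx a
        gcongr
    _ = x.1 ^ a * C1 * (‖x.2‖ ^ k * Real.exp (-‖x.2‖ ^ 2 / (4 * x.1))) := by ring
    _ ≤ x.1 ^ a * C1 * (C2 * Real.sqrt x.1 ^ k) := by
        have := zpow_pos hx a
        gcongr
    _ = C1 * C2 * Real.sqrt x.1 ^ (2 * a + k) := by
        rw [zpow_add₀ hsx.ne', zpow_natCast, ← h5]; ring

/-! ### the derivative -/

theorem hasFDerivAt_g (a : ℤ) {x : ℝ × V} (hx : 0 < x.1) :
    HasFDerivAt (g a) ((a * g (a - 1) x + ‖x.2‖ ^ 2 / 4 * g (a - 2) x) •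
      ContinuousLinearMap.fst ℝ ℝ V - (1 / 2 * g (a - 1) x) •
        ((innerSL ℝ x.2).comp (ContinuousLinearMap.snd ℝ ℝ V))) x := by
  have h1 : HasFDerivAt (fun x : ℝ × V => x.1) (ContinuousLinearMap.fst ℝ ℝ V) x := hasFDerivAt_fst
  have h2 : HasFDerivAt (fun x : ℝ × V => x.2) (ContinuousLinearMap.snd ℝ ℝ V) x := hasFDerivAt_snd
  have h3 : HasFDerivAt (fun x : ℝ × V => x.1 ^ a) ((a * x.1 ^ (a - 1)) •
      ContinuousLinearMap.fst ℝ ℝ V) x :=
    (hasDerivAt_zpow a x.1 (Or.inl hx.ne')).comp_hasFDerivAt x h1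
  have h4 : HasFDerivAt (fun x : ℝ × V => -‖x.2‖ ^ 2) (-(2 • (innerSL ℝ x.2).comp
      (ContinuousLinearMap.snd ℝ ℝ V))) x := h2.norm_sq.neg
  have h5 : HasFDerivAt (fun x : ℝ × V => (4 * x.1)⁻¹) ((-((4 * x.1) ^ 2)⁻¹ * 4) •
      ContinuousLinearMap.fst ℝ ℝ V) x := by
    have e1 : HasDerivAt (fun y : ℝ => (4 * y)⁻¹) (-(4 * 1) / (4 * x.1) ^ 2) x.1 :=
      ((hasDerivAt_id x.1).const_mul 4).inv (by positivity)
    have e2 := e1.comp_hasFDerivAt x h1
    refine HasFDerivAt.congr_fderiv e2 ?_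
    congr 1
    ring
  have h6 : HasFDerivAt (fun x : ℝ × V => Real.exp (-‖x.2‖ ^ 2 * (4 * x.1)⁻¹)) _ x :=
    (h4.mul h5).exp
  have h7 := h3.mul h6
  have h8 : g a =ᶠ[𝓝 x] fun x : ℝ × V => x.1 ^ a * Real.exp (-‖x.2‖ ^ 2 * (4 * x.1)⁻¹) := by
    have : ∀ᶠ y : ℝ × V in 𝓝 x, 0 < y.1 := continuous_fst.continuousAt.eventually (lt_mem_nhds hx)
    filter_upwards [this] with y hy
    unfold g
    rw [if_neg hy.not_ge, div_eq_mul_inv]
  refine (h7.congr_of_eventuallyEq h8).congr_fderiv ?_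
  have ht : x.1 ≠ 0 := hx.ne'
  have eE : Real.exp (((fun x : ℝ × V => -‖x.2‖ ^ 2) * fun x : ℝ × V => (4 * x.1)⁻¹) x) =
      Real.exp (-‖x.2‖ ^ 2 / (4 * x.1)) := by
    rw [div_eq_mul_inv]; rfl
  have eE' : Real.exp (-‖x.2‖ ^ 2 * (4 * x.1)⁻¹) = Real.exp (-‖x.2‖ ^ 2 / (4 * x.1)) := by
    rw [div_eq_mul_inv]
  rw [eE, eE']
  unfold g
  rw [if_neg hx.not_ge, if_neg hx.not_ge]
  generalize Real.exp (-‖x.2‖ ^ 2 / (4 * x.1)) = X
  have z1 : x.1 ^ (a - 1) = x.1 ^ a / x.1 := by rw [zpow_sub_one₀ ht]; rfl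
  have z2 : x.1 ^ (a - 2) = x.1 ^ a / x.1 ^ 2 := by rw [zpow_sub₀ ht]; rfl
  rw [z1, z2]
  ext w
  · simp only [ContinuousLinearMap.comp_apply, ContinuousLinearMap.inl_apply,
      sub_apply, add_apply, smul_apply, neg_apply, ContinuousLinearMap.coe_fst',
      ContinuousLinearMap.coe_snd', map_zero, smul_zero, smul_eq_mul, mul_zero, mul_one, sub_zero,
      neg_zero, add_zero]
    field_simp
    ring
  · simp only [ContinuousLinearMap.comp_apply, ContinuousLinearMap.inr_apply,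
      sub_apply, add_apply, smul_apply, neg_apply, ContinuousLinearMap.coe_fst',
      ContinuousLinearMap.coe_snd', map_zero, smul_zero, smul_eq_mul, mul_zero, mul_one, zero_sub,
      neg_zero, add_zero, zero_add, two_smul]
    field_simp
    ring

/-! the four factors of the derivative -/

/-- factor of `dt` -/
def s1 (c : ℝ) (s : V → F) (v : V) : ℝ × V →L[ℝ] F :=
  (ContinuousLinearMap.fst ℝ ℝ V).smulRight (c • s v)

/-- factor of `dt` -/
def s2 (s : V → F) (v : V) : ℝ × V →L[ℝ] F :=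
  (ContinuousLinearMap.fst ℝ ℝ V).smulRight ((‖v‖ ^ 2 / 4) • s v)

/-- factor of `dv` -/
def s3 (s : V → F) (v : V) : ℝ × V →L[ℝ] F :=
  ((innerSL ℝ v).comp (ContinuousLinearMap.snd ℝ ℝ V)).smulRight ((-(1 / 2) : ℝ) • s v)

/-- factor of `dv` -/
def s4 (s : V → F) (v : V) : ℝ × V →L[ℝ] F :=
  (fderiv ℝ s v).comp (ContinuousLinearMap.snd ℝ ℝ V)

theorem hom_s1 {k : ℕ} {s : V → F} (h : HomG k s) (c : ℝ) : HomG k (s1 c s) := by
  refine ⟨?_, fun d v => ?_⟩
  · exact (ContinuousLinearMap.smulRightL ℝ (ℝ × V) F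
      (ContinuousLinearMap.fst ℝ ℝ V)).contDiff.comp (h.smooth.const_smul c)
  · refine ContinuousLinearMap.ext fun w => ?_
    simp only [s1, h.hom d v, ContinuousLinearMap.smulRight_apply, smul_apply]
    simp only [smul_smul]
    congr 1
    ring

theorem hom_s2 {k : ℕ} {s : V → F} (h : HomG k s) : HomG (k + 2) (s2 s) := by
  refine ⟨?_, fun d v => ?_⟩
  · exact (ContinuousLinearMap.smulRightL ℝ (ℝ × V) F
      (ContinuousLinearMap.fst ℝ ℝ V)).contDiff.comp (((contDiff_norm_sq ℝ).div_const 4).smul h.smooth)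
  · refine ContinuousLinearMap.ext fun w => ?_
    simp only [s2, h.hom d v, ContinuousLinearMap.smulRight_apply, smul_apply, norm_smul]
    simp only [smul_smul]
    congr 1
    rw [mul_pow, Real.norm_eq_abs, sq_abs, pow_add]
    ring

theorem hom_s3 {k : ℕ} {s : V → F} (h : HomG k s) : HomG (k + 1) (s3 s) := by
  refine ⟨?_, fun d v => ?_⟩
  · have h1 : ContDiff ℝ ∞ fun v : V => (innerSL ℝ v).comp (ContinuousLinearMap.snd ℝ ℝ V) :=
      (innerSL ℝ).contDiff.clm_comp contDiff_const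
    exact h1.smulRight (h.smooth.const_smul _)
  · refine ContinuousLinearMap.ext fun w => ?_
    simp only [s3, h.hom d v, ContinuousLinearMap.smulRight_apply, smul_apply,
      ContinuousLinearMap.comp_apply, map_smul, smul_eq_mul]
    simp only [smul_smul]
    congr 1
    rw [pow_succ]
    ring

theorem hom_s4 {k : ℕ} {s : V → F} (h : HomG (k + 1) s) : HomG k (s4 s) := by
  have h1 := h.dd
  refine ⟨h1.smooth.clm_comp contDiff_const, fun d v => ?_⟩
  refine ContinuousLinearMap.ext fun w => ?_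
  simp only [s4, h1.hom d v, ContinuousLinearMap.comp_apply, smul_apply]

/-- the candidate for the derivative -/
def D (a : ℤ) (s : V → F) (x : ℝ × V) : ℝ × V →L[ℝ] F :=
  fl (a - 1) (s1 a s) x + fl (a - 2) (s2 s) x + fl (a - 1) (s3 s) x + fl a (s4 s) x

theorem fl_of_nonpos (a : ℤ) (s : V → F) {x : ℝ × V} (hx : x.1 ≤ 0) : fl a s x = 0 := by
  unfold fl g
  rw [if_pos hx, zero_smul]

theorem hasFDerivAt_fl_pos {k : ℕ} {s : V → F} (h : HomG k s) (a : ℤ) {x : ℝ × V} (hx : 0 < x.1) :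
    HasFDerivAt (fl a s) (D a s x) x := by
  have h1 := hasFDerivAt_g a hx
  have h2 : HasFDerivAt (fun x : ℝ × V => s x.2) (s4 s x.2) x :=
    (h.smooth.differentiable (by simp) x.2).hasFDerivAt.comp x hasFDerivAt_snd
  have h3 := h1.smul h2
  refine HasFDerivAt.congr_fderiv h3 ?_
  refine ContinuousLinearMap.ext fun w => ?_
  simp only [D, fl, s1, s2, s3, ContinuousLinearMap.smulRight_apply, smul_apply, add_apply,
      ContinuousLinearMap.comp_apply, sub_apply, ContinuousLinearMap.coe_fst',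
      ContinuousLinearMap.coe_snd', smul_eq_mul]
  module

theorem hasFDerivAt_fl [FiniteDimensional ℝ V] {k : ℕ} {s : V → F} (h : HomG k s) {a : ℤ}
    (ha : 3 ≤ 2 * a + k) (x : ℝ × V) :
    HasFDerivAt (fl a s) (D a s x) x := by
  rcases lt_trichotomy x.1 0 with hx | hx | hx
  · have h0 : D a s x = 0 := by
      unfold D
      rw [fl_of_nonpos _ _ hx.le, fl_of_nonpos _ _ hx.le, fl_of_nonpos _ _ hx.le,
        fl_of_nonpos _ _ hx.le]
      simp
    rw [h0]
    refine (hasFDerivAt_const (0 : F) x).congr_of_eventuallyEq ?_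
    have : ∀ᶠ y : ℝ × V in 𝓝 x, y.1 < 0 := continuous_fst.continuousAt.eventually (gt_mem_nhds hx)
    filter_upwards [this] with y hy
    exact fl_of_nonpos _ _ hy.le
  · have h0 : D a s x = 0 := by
      unfold D
      rw [fl_of_nonpos _ _ hx.le, fl_of_nonpos _ _ hx.le, fl_of_nonpos _ _ hx.le,
        fl_of_nonpos _ _ hx.le]
      simp
    rw [h0]
    obtain ⟨C, hC, hb⟩ := fl_bound h a
    refine HasFDerivAt.of_isLittleO ?_
    rw [Asymptotics.isLittleO_iff]
    intro c hc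
    have e1 : ∀ᶠ y : ℝ × V in 𝓝 x, y.1 < 1 :=
      continuous_fst.continuousAt.eventually (gt_mem_nhds (by rw [hx]; exact one_pos))
    have e2 : ∀ᶠ y : ℝ × V in 𝓝 x, C * Real.sqrt y.1 < c := by
      have h1 : ContinuousAt (fun y : ℝ × V => C * Real.sqrt y.1) x := by fun_prop
      exact h1.eventually (gt_mem_nhds (by
        show C * Real.sqrt x.1 < c
        rw [hx, Real.sqrt_zero, mul_zero]; exact hc))
    filter_upwards [e1, e2] with y hy1 hy2
    rw [fl_of_nonpos a s hx.le, sub_zero, zero_apply, sub_zero]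
    rcases le_or_gt y.1 0 with hy | hy
    · rw [fl_of_nonpos a s hy, norm_zero]; positivity
    · have h1 := hb y hy
      have hs0 : 0 < Real.sqrt y.1 := Real.sqrt_pos.2 hy
      have hs1 : Real.sqrt y.1 ≤ 1 := Real.sqrt_le_one.2 hy1.le
      have h2 : Real.sqrt y.1 ^ (2 * a + k) ≤ Real.sqrt y.1 ^ (3 : ℤ) :=
        zpow_le_zpow_right_of_le_one₀ hs0 hs1 ha
      have h3 : Real.sqrt y.1 ^ (3 : ℤ) = Real.sqrt y.1 * y.1 := by
        rw [show (3 : ℤ) = ((3 : ℕ) : ℤ) from rfl, zpow_natCast, pow_succ', Real.sq_sqrt hy.le]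
      have h4 : y.1 ≤ ‖y - x‖ := by
        have h5 : ‖(y - x).1‖ ≤ ‖y - x‖ := norm_fst_le _
        rw [Prod.fst_sub, hx, sub_zero, Real.norm_eq_abs, abs_of_pos hy] at h5
        exact h5
      calc ‖fl a s y‖ ≤ C * Real.sqrt y.1 ^ (2 * a + k) := h1
        _ ≤ C * (Real.sqrt y.1 * y.1) := by rw [← h3]; gcongr
        _ = (C * Real.sqrt y.1) * y.1 := by ring
        _ ≤ c * ‖y - x‖ := by gcongr
  · exact hasFDerivAt_fl_pos h a hx

theorem continuous_fl [FiniteDimensional ℝ V] {k : ℕ} {s : V → F} (h : HomG k s) {a : ℤ}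
    (ha : 1 ≤ 2 * a + k) : Continuous (fl a s) := by
  rw [continuous_iff_continuousAt]
  intro x
  rcases lt_trichotomy x.1 0 with hx | hx | hx
  · refine (continuousAt_const (y := (0 : F))).congr ?_
    have : ∀ᶠ y : ℝ × V in 𝓝 x, y.1 < 0 := continuous_fst.continuousAt.eventually (gt_mem_nhds hx)
    filter_upwards [this] with y hy
    exact (fl_of_nonpos _ _ hy.le).symm
  · obtain ⟨C, hC, hb⟩ := fl_bound h a
    rw [ContinuousAt, fl_of_nonpos a s hx.le]
    have e1 : ∀ᶠ y : ℝ × V in 𝓝 x, y.1 < 1 :=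
      continuous_fst.continuousAt.eventually (gt_mem_nhds (by rw [hx]; exact one_pos))
    have e2 : Tendsto (fun y : ℝ × V => C * Real.sqrt y.1) (𝓝 x) (𝓝 0) := by
      have h1 : ContinuousAt (fun y : ℝ × V => C * Real.sqrt y.1) x := by fun_prop
      have h2 : C * Real.sqrt x.1 = 0 := by rw [hx, Real.sqrt_zero, mul_zero]
      rw [ContinuousAt, h2] at h1
      exact h1
    refine squeeze_zero_norm' ?_ e2
    filter_upwards [e1] with y hy1
    rcases le_or_gt y.1 0 with hy | hy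
    · rw [fl_of_nonpos a s hy, norm_zero]; positivity
    · have hs0 : 0 < Real.sqrt y.1 := Real.sqrt_pos.2 hy
      have hs1 : Real.sqrt y.1 ≤ 1 := Real.sqrt_le_one.2 hy1.le
      refine (hb y hy).trans ?_
      have h2 : Real.sqrt y.1 ^ (2 * a + k) ≤ Real.sqrt y.1 ^ (1 : ℤ) :=
        zpow_le_zpow_right_of_le_one₀ hs0 hs1 ha
      rw [zpow_one] at h2
      gcongr
  · exact (hasFDerivAt_fl_pos h a hx).continuousAt

theorem contDiff_fl {V : Type} [NormedAddCommGroup V] [InnerProductSpace ℝ V]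
    [FiniteDimensional ℝ V] (m : ℕ) : ∀ {F : Type} [NormedAddCommGroup F]
    [NormedSpace ℝ F] {k : ℕ} {s : V → F}, HomG k s → ∀ {a : ℤ}, 2 * m + 1 ≤ 2 * a + k →
    ContDiff ℝ m (fl a s) := by
  induction m with
  | zero =>
    intro F _ _ k s h a ha
    exact contDiff_zero.2 (continuous_fl h (by simpa using ha))
  | succ m ih =>
    intro F _ _ k s h a ha
    push_cast at ha
    have hD : ∀ x, HasFDerivAt (fl a s) (D a s x) x := fun x => hasFDerivAt_fl h (by omega) x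
    rw [show ((m + 1 : ℕ) : WithTop ℕ∞) = (m : WithTop ℕ∞) + 1 by norm_cast,
      contDiff_succ_iff_hasFDerivAt]
    refine ⟨fun x => D a s x, ?_, hD⟩
    have h1 : ContDiff ℝ m (fl (a - 1) (s1 (a : ℝ) s)) := ih (k := k) (hom_s1 h a) (by omega)
    have h2 : ContDiff ℝ m (fl (a - 2) (s2 s)) := ih (k := k + 2) (hom_s2 h) (by push_cast; omega)
    have h3 : ContDiff ℝ m (fl (a - 1) (s3 s)) := ih (k := k + 1) (hom_s3 h) (by push_cast; omega)
    have h4 : ContDiff ℝ m (fl a (s4 s)) := by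
      rcases Nat.eq_zero_or_pos k with rfl | hk
      · have h5 : (fl a (s4 s) : ℝ × V → ℝ × V →L[ℝ] F) = fun _ => 0 := by
          funext x
          unfold fl s4
          rw [h.dd_zero]
          simp
        rw [h5]
        exact contDiff_const
      · obtain ⟨j, rfl⟩ : ∃ j, k = j + 1 := ⟨k - 1, by omega⟩
        exact ih (k := j) (hom_s4 h) (by push_cast at ha; omega)
    exact ((h1.add h2).add h3).add h4

end hom

end EU1

theorem eu1 : EU1Stmt := by
  refine ⟨fun m n hmn => ?_, fun a c hc => ?_⟩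
  · have h : EU1.HomG 0 (fun _ : Eu4 => (1 : ℝ)) := ⟨contDiff_const, fun c v => by simp⟩
    have h1 := EU1.contDiff_fl m h (a := (n : ℤ)) (by push_cast; omega)
    convert h1 using 1
    funext x
    simp only [EU1.fl, EU1.g, smul_eq_mul, mul_one, zpow_natCast]
  · refine (EU1.contDiffOn_g (V := Eu4) a).mono fun x hx => ?_
    have : 0 < ‖x.2‖ := hc.trans hx
    exact norm_pos_iff.1 this

end

end Vale.Agent.P211.HK
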