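import Vale.Agent.P211.HK.R4Smooth

/-! P211 / HK / R4: transport equation and the exact parametrix identity.  helper638 -/

namespace Vale.Agent.P211.HK

open Set Filter Topology MeasureTheory
open scoped ContDiff

noncomputable section

namespace R4S

set_option linter.unusedSectionVars false
set_option linter.deprecated false
set_option linter.unnecessarySeqFocus false

variable {B : Type*} [NormedAddCommGroup B] [NormedSpace ℝ B]

/-! ### calculus of `dd` -/

theorem dd_congr {U V : R4 → B} {v : R4} (h : U =ᶠ[𝓝 v] V) (i : Fin 4) : dd i U v = dd i V v := by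
  simp only [dd, h.fderiv_eq]

theorem dd_const (β : B) (i : Fin 4) (v : R4) : dd i (fun _ => β) v = 0 := by
  simp [dd]

theorem dd_add {U V : R4 → B} {v : R4} (hU : DifferentiableAt ℝ U v)
    (hV : DifferentiableAt ℝ V v) (i : Fin 4) :
    dd i (fun v => U v + V v) v = dd i U v + dd i V v := by
  simp only [dd, fderiv_fun_add hU hV, ContinuousLinearMap.add_apply]

theorem dd_sub {U V : R4 → B} {v : R4} (hU : DifferentiableAt ℝ U v)
    (hV : DifferentiableAt ℝ V v) (i : Fin 4) :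
    dd i (fun v => U v - V v) v = dd i U v - dd i V v := by
  simp only [dd, fderiv_fun_sub hU hV, ContinuousLinearMap.sub_apply]

theorem dd_smul {f : R4 → ℝ} {U : R4 → B} {v : R4} (hf : DifferentiableAt ℝ f v)
    (hU : DifferentiableAt ℝ U v) (i : Fin 4) :
    dd i (fun v => f v • U v) v = dd i f v • U v + f v • dd i U v := by
  simp only [dd, fderiv_fun_smul hf hU, ContinuousLinearMap.add_apply,
    ContinuousLinearMap.smul_apply, ContinuousLinearMap.smulRight_apply]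
  rw [add_comm]

theorem dd_const_smul {U : R4 → B} {v : R4} (c : ℝ)
    (hU : DifferentiableAt ℝ U v) (i : Fin 4) :
    dd i (fun v => c • U v) v = c • dd i U v := by
  simp only [dd, fderiv_fun_const_smul hU c, ContinuousLinearMap.smul_apply]

theorem dd_sum {ι : Type*} (s : Finset ι) {U : ι → R4 → B} {v : R4}
    (hU : ∀ k ∈ s, DifferentiableAt ℝ (U k) v) (i : Fin 4) :
    dd i (fun v => ∑ k ∈ s, U k v) v = ∑ k ∈ s, dd i (U k) v := by
  simp only [dd, fderiv_fun_sum hU, ContinuousLinearMap.sum_apply]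

theorem dd_clm {C : Type*} [NormedAddCommGroup C] [NormedSpace ℝ C] {A : R4 → (B →L[ℝ] C)}
    {U : R4 → B} {v : R4} (hA : DifferentiableAt ℝ A v)
    (hU : DifferentiableAt ℝ U v) (i : Fin 4) :
    dd i (fun v => A v (U v)) v = dd i A v (U v) + A v (dd i U v) := by
  simp only [dd]
  rw [(hA.hasFDerivAt.clm_apply hU.hasFDerivAt).fderiv]
  simp [add_comm]

theorem hasFDerivAt_coord (j : Fin 4) (v : R4) :
    HasFDerivAt (fun v : R4 => v j) (EuclideanSpace.proj j : R4 →L[ℝ] ℝ) v :=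
  (EuclideanSpace.proj j : R4 →L[ℝ] ℝ).hasFDerivAt

theorem differentiableAt_coord (j : Fin 4) (v : R4) : DifferentiableAt ℝ (fun v : R4 => v j) v :=
  (hasFDerivAt_coord j v).differentiableAt

theorem dd_coord (i j : Fin 4) (v : R4) :
    dd i (fun v : R4 => v j) v = if i = j then 1 else 0 := by
  rw [dd, (hasFDerivAt_coord j v).fderiv]
  simp [e4, eq_comm]

/-- the radial derivative -/
def rd (U : R4 → B) (v : R4) : B := ∑ i, v i • dd i U v

theorem rd_eq (U : R4 → B) (v : R4) : rd U v = fderiv ℝ U v v := by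
  have h : v = ∑ i, v i • e4 i := by
    ext j
    simp [e4, Pi.single_apply]
  conv_rhs => rw [h]
  rw [map_sum]
  simp only [rd, dd]
  refine Finset.sum_congr rfl fun i _ => ?_
  rw [map_smul]
  rw [← h]

theorem rd_add {U V : R4 → B} {v : R4} (hU : DifferentiableAt ℝ U v)
    (hV : DifferentiableAt ℝ V v) :
    rd (fun v => U v + V v) v = rd U v + rd V v := by
  simp only [rd_eq, fderiv_fun_add hU hV, ContinuousLinearMap.add_apply]

theorem rd_smul {f : R4 → ℝ} {U : R4 → B} {v : R4} (hf : DifferentiableAt ℝ f v)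
    (hU : DifferentiableAt ℝ U v) :
    rd (fun v => f v • U v) v = rd f v • U v + f v • rd U v := by
  simp only [rd_eq, fderiv_fun_smul hf hU, ContinuousLinearMap.add_apply,
    ContinuousLinearMap.smul_apply, ContinuousLinearMap.smulRight_apply]
  rw [add_comm]

theorem rd_const_smul {U : R4 → B} {v : R4} (c : ℝ)
    (hU : DifferentiableAt ℝ U v) :
    rd (fun v => c • U v) v = c • rd U v := by
  simp only [rd_eq, fderiv_fun_const_smul hU c, ContinuousLinearMap.smul_apply]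

theorem rd_sum {ι : Type*} (s : Finset ι) {U : ι → R4 → B} {v : R4}
    (hU : ∀ k ∈ s, DifferentiableAt ℝ (U k) v) :
    rd (fun v => ∑ k ∈ s, U k v) v = ∑ k ∈ s, rd (U k) v := by
  simp only [rd_eq, fderiv_fun_sum hU, ContinuousLinearMap.sum_apply]

/-! ### the Gaussian -/

theorem norm_sq_eq (v : R4) : ‖v‖ ^ 2 = ∑ i, v i * v i := by
  rw [EuclideanSpace.norm_sq_eq]
  refine Finset.sum_congr rfl fun i _ => ?_
  rw [Real.norm_eq_abs, sq_abs, sq]

theorem hasFDerivAt_G4 (t : ℝ) (v : R4) :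
    HasFDerivAt (G4 t) ((-(1 / (2 * t)) * G4 t v) • (innerSL ℝ v : R4 →L[ℝ] ℝ)) v := by
  have h1 : HasFDerivAt (fun v : R4 => ‖v‖ ^ 2) (2 • (innerSL ℝ v : R4 →L[ℝ] ℝ)) v :=
    (hasStrictFDerivAt_norm_sq v).hasFDerivAt
  have h2 : HasFDerivAt (fun v : R4 => -‖v‖ ^ 2 / (4 * t))
      ((4 * t)⁻¹ • (-((2 : ℕ) • (innerSL ℝ v : R4 →L[ℝ] ℝ)) : R4 →L[ℝ] ℝ)) v := by
    have := (h1.neg).const_smul (4 * t)⁻¹
    refine this.congr_of_eventuallyEq (Filter.Eventually.of_forall fun w => ?_)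
    simp only [Pi.smul_apply, smul_eq_mul, Pi.neg_apply]
    rw [div_eq_inv_mul]
  have h3 := (h2.exp).const_smul ((4 * Real.pi * t) ^ 2)⁻¹
  refine (h3.congr_of_eventuallyEq (Filter.Eventually.of_forall fun w => ?_)).congr_fderiv ?_
  · simp only [G4, Pi.smul_apply, smul_eq_mul]
  · ext w
    simp only [G4, ContinuousLinearMap.smul_apply, ContinuousLinearMap.neg_apply, smul_eq_mul,
      nsmul_eq_mul, Nat.cast_ofNat]
    by_cases ht : t = 0
    · subst ht; simp
    · field_simp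
      ring

theorem differentiableAt_G4 (t : ℝ) (v : R4) : DifferentiableAt ℝ (G4 t) v :=
  (hasFDerivAt_G4 t v).differentiableAt

theorem dd_G4 (t : ℝ) (v : R4) (i : Fin 4) : dd i (G4 t) v = -(v i / (2 * t)) * G4 t v := by
  rw [dd, (hasFDerivAt_G4 t v).fderiv]
  simp [e4, EuclideanSpace.inner_single_right]
  ring

theorem hasDerivAt_G4_time {t : ℝ} (ht : 0 < t) (v : R4) :
    HasDerivAt (fun t => G4 t v) ((-2 / t + ‖v‖ ^ 2 / (4 * t ^ 2)) * G4 t v) t := by
  have h1 : HasDerivAt (fun t : ℝ => ((4 * Real.pi * t) ^ 2)⁻¹)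
      (-(2 * (4 * Real.pi * t) * (4 * Real.pi)) / ((4 * Real.pi * t) ^ 2) ^ 2) t := by
    have hne : (4 * Real.pi * t) ^ 2 ≠ 0 := by positivity
    have h := ((((hasDerivAt_id t).const_mul (4 * Real.pi)).pow 2).inv (by simpa using hne))
    refine h.congr_deriv ?_
    simp
  have h2 : HasDerivAt (fun t : ℝ => -‖v‖ ^ 2 / (4 * t)) (‖v‖ ^ 2 * 4 / (4 * t) ^ 2) t := by
    have h := (hasDerivAt_const t (-‖v‖ ^ 2)).div ((hasDerivAt_id t).const_mul (4 : ℝ))
      (by simpa using ht.ne')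
    refine h.congr_deriv ?_
    simp
  have h3 := h1.mul h2.exp
  refine h3.congr_deriv ?_
  simp only [G4]
  field_simp

/-! ### the operator applied to `G U` -/

section Op

variable {R : Rad B} {r : ℝ}

theorem sm_at {U : R4 → B} (hU : ContDiffOn ℝ ∞ U (Metric.ball 0 r)) {v : R4}
    (hv : v ∈ Metric.ball (0 : R4) r) : DifferentiableAt ℝ U v :=
  (hU.differentiableOn (by norm_num)).differentiableAt (Metric.isOpen_ball.mem_nhds hv)

theorem sm_dd {U : R4 → B} (hU : ContDiffOn ℝ ∞ U (Metric.ball 0 r)) (i : Fin 4) :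
    ContDiffOn ℝ ∞ (dd i U) (Metric.ball 0 r) :=
  (hU.fderiv_of_isOpen Metric.isOpen_ball (m := ∞) (by norm_num)).clm_apply contDiffOn_const

theorem OK.fam (h : R.OK r) : FamOK (univ : Set ℝ) r (fun _ => R) := by
  have h1 : ContDiffOn ℝ ∞ (fun z : ℝ × R4 => z.2) (univ ×ˢ Metric.ball (0 : R4) r) :=
    contDiff_snd.contDiffOn
  exact ⟨isOpen_univ, fun _ _ => h, h.J_smooth.comp h1 fun z hz => hz.2,
    fun i j => (h.gi_smooth i j).comp h1 fun z hz => hz.2,
    fun i => (h.A_smooth i).comp h1 fun z hz => hz.2⟩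

theorem sm_fam {U : R4 → B} (hU : ContDiffOn ℝ ∞ U (Metric.ball 0 r)) :
    Sm (univ : Set ℝ) r (fun _ => U) := by
  have h1 : ContDiffOn ℝ ∞ (fun z : ℝ × R4 => z.2) (univ ×ˢ Metric.ball (0 : R4) r) :=
    contDiff_snd.contDiffOn
  exact hU.comp h1 fun z hz => hz.2

theorem sm_cd (h : R.OK r) {U : R4 → B} (hU : ContDiffOn ℝ ∞ U (Metric.ball 0 r)) (j : Fin 4) :
    ContDiffOn ℝ ∞ (R.cd j U) (Metric.ball 0 r) :=
  ((OK.fam h).cd (sm_fam hU) j).slice (mem_univ 0)

theorem sm_fl (h : R.OK r) {U : R4 → B} (hU : ContDiffOn ℝ ∞ U (Metric.ball 0 r)) (j : Fin 4) :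
    ContDiffOn ℝ ∞ (R.fl U j) (Metric.ball 0 r) :=
  ((OK.fam h).fl (sm_fam hU) j).slice (mem_univ 0)

theorem sm_H (h : R.OK r) {U : R4 → B} (hU : ContDiffOn ℝ ∞ U (Metric.ball 0 r)) :
    ContDiffOn ℝ ∞ (R.H U) (Metric.ball 0 r) :=
  ((OK.fam h).H (sm_fam hU)).slice (mem_univ 0)

theorem sm_M (h : R.OK r) {U : R4 → B} (hU : ContDiffOn ℝ ∞ U (Metric.ball 0 r)) :
    ContDiffOn ℝ ∞ (R.M U) (Metric.ball 0 r) :=
  ((OK.fam h).M (sm_fam hU)).slice (mem_univ 0)

theorem sm_sqrtJinv (h : R.OK r) :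
    ContDiffOn ℝ ∞ (fun v => (√(R.J v))⁻¹) (Metric.ball 0 r) :=
  ((OK.fam h).sqrtJinv).slice (mem_univ 0)

theorem sm_c [CompleteSpace B] (h : R.OK r) (β : B) (k : ℕ) :
    ContDiffOn ℝ ∞ (R.c β k) (Metric.ball 0 r) :=
  ((OK.fam h).c β k).slice (mem_univ 0)

theorem sm_u [CompleteSpace B] (h : R.OK r) (β : B) (k : ℕ) :
    ContDiffOn ℝ ∞ (R.u β k) (Metric.ball 0 r) :=
  ((OK.fam h).u β k).slice (mem_univ 0)

theorem sm_G4 (t : ℝ) : ContDiffOn ℝ ∞ (G4 t) (Metric.ball 0 r) := by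
  unfold G4
  exact (contDiff_const.mul ((contDiff_norm_sq ℝ).neg.div_const _).exp).contDiffOn

theorem rd_cd (h : R.OK r) (U : R4 → B) {v : R4} (hv : v ∈ Metric.ball (0 : R4) r) :
    ∑ i, v i • R.cd i U v = rd U v := by
  simp only [Rad.cd, smul_add, Finset.sum_add_distrib, rd]
  have h1 : ∑ i, v i • (R.A i v) (U v) = (∑ i, v i • R.A i v) (U v) := by
    rw [ContinuousLinearMap.sum_apply]; rfl
  rw [h1, h.radial v hv, ContinuousLinearMap.zero_apply, add_zero]

theorem rd_fl (h : R.OK r) (U : R4 → B) {v : R4} (hv : v ∈ Metric.ball (0 : R4) r) :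
    ∑ i, v i • R.fl U i v = R.J v • rd U v := by
  rw [← rd_cd h U hv]
  simp only [Rad.fl, Finset.smul_sum]
  rw [Finset.sum_comm]
  have h2 : ∀ j, ∑ i, v i • R.J v • R.gi i j v • R.cd j U v = R.J v • v j • R.cd j U v := by
    intro j
    have h3 : ∑ i, R.gi i j v * v i = v j := by
      rw [← h.gauss j v hv]
      exact Finset.sum_congr rfl fun i _ => by rw [h.gi_symm i j v hv]
    rw [← h3, Finset.sum_smul, Finset.smul_sum]
    refine Finset.sum_congr rfl fun i _ => ?_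
    simp only [smul_smul]
    congr 1
    ring
  exact Finset.sum_congr rfl fun j _ => h2 j

theorem cd_smul {f : R4 → ℝ} {U : R4 → B} {v : R4} (hf : DifferentiableAt ℝ f v)
    (hU : DifferentiableAt ℝ U v) (j : Fin 4) :
    R.cd j (fun v => f v • U v) v = dd j f v • U v + f v • R.cd j U v := by
  simp only [Rad.cd, dd_smul hf hU, map_smul, smul_add, add_assoc]

theorem cd_congr {U V : R4 → B} {v : R4} (h : U =ᶠ[𝓝 v] V) (j : Fin 4) :
    R.cd j U v = R.cd j V v := by
  simp only [Rad.cd, dd_congr h, h.self_of_nhds]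

theorem cd_add {U V : R4 → B} {v : R4} (hU : DifferentiableAt ℝ U v)
    (hV : DifferentiableAt ℝ V v) (j : Fin 4) :
    R.cd j (fun v => U v + V v) v = R.cd j U v + R.cd j V v := by
  simp only [Rad.cd, dd_add hU hV, map_add]
  abel

theorem cd_sub {U V : R4 → B} {v : R4} (hU : DifferentiableAt ℝ U v)
    (hV : DifferentiableAt ℝ V v) (j : Fin 4) :
    R.cd j (fun v => U v - V v) v = R.cd j U v - R.cd j V v := by
  simp only [Rad.cd, dd_sub hU hV, map_sub]
  abel

theorem cd_sum {ι : Type*} (s : Finset ι) {U : ι → R4 → B} {v : R4}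
    (hU : ∀ k ∈ s, DifferentiableAt ℝ (U k) v) (j : Fin 4) :
    R.cd j (fun v => ∑ k ∈ s, U k v) v = ∑ k ∈ s, R.cd j (U k) v := by
  simp only [Rad.cd, dd_sum s hU, map_sum, Finset.sum_add_distrib]

theorem cd_const_smul (c : ℝ) {U : R4 → B} {v : R4}
    (hU : DifferentiableAt ℝ U v) (j : Fin 4) :
    R.cd j (fun v => c • U v) v = c • R.cd j U v := by
  simp only [Rad.cd, dd_const_smul c hU, map_smul, smul_add]

/-- flux of `G U` -/
theorem fl_G (h : R.OK r) (t : ℝ) {U : R4 → B}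
    (hU : ContDiffOn ℝ ∞ U (Metric.ball 0 r)) {v : R4} (hv : v ∈ Metric.ball (0 : R4) r)
    (i : Fin 4) : R.fl (fun v => G4 t v • U v) i v =
      G4 t v • (R.fl U i v - (v i / (2 * t)) • R.J v • U v) := by
  have h1 : ∀ j, R.cd j (fun v => G4 t v • U v) v =
      G4 t v • (R.cd j U v - (v j / (2 * t)) • U v) := fun j => by
    rw [cd_smul (differentiableAt_G4 t v) (sm_at hU hv), dd_G4]
    module
  have h2 : ∑ j, R.gi i j v • (v j / (2 * t)) • U v = (v i / (2 * t)) • U v := by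
    have h3 := h.gauss i v hv
    rw [← h3, Finset.sum_div, Finset.sum_smul]
    refine Finset.sum_congr rfl fun j _ => ?_
    rw [smul_smul, mul_div_assoc]
  simp only [Rad.fl, h1]
  have h4 : ∑ j, R.gi i j v • G4 t v • (R.cd j U v - (v j / (2 * t)) • U v) =
      G4 t v • (∑ j, R.gi i j v • R.cd j U v - ∑ j, R.gi i j v • (v j / (2 * t)) • U v) := by
    rw [← Finset.sum_sub_distrib, Finset.smul_sum]
    refine Finset.sum_congr rfl fun j _ => ?_
    module
  rw [h4, h2]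
  module

theorem H_G (h : R.OK r) {t : ℝ} (ht : 0 < t) {U : R4 → B}
    (hU : ContDiffOn ℝ ∞ U (Metric.ball 0 r)) {v : R4} (hv : v ∈ Metric.ball (0 : R4) r) :
    R.H (fun v => G4 t v • U v) v = G4 t v • (R.H U v + (1 / t) • rd U v +
      ((1 / (2 * t)) * (rd R.J v / R.J v) + 2 / t - ‖v‖ ^ 2 / (4 * t ^ 2)) • U v) := by
  have hB : Metric.ball (0 : R4) r ∈ 𝓝 v := Metric.isOpen_ball.mem_nhds hv
  have hdU := sm_at hU hv
  have hdJ : DifferentiableAt ℝ R.J v := sm_at h.J_smooth hv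
  have hJU : ContDiffOn ℝ ∞ (fun v => R.J v • U v) (Metric.ball 0 r) := h.J_smooth.smul hU
  have hc : ∀ i : Fin 4, ContDiffOn ℝ ∞ (fun v : R4 => v i / (2 * t)) (Metric.ball 0 r) :=
    fun i => (((EuclideanSpace.proj i : R4 →L[ℝ] ℝ).contDiff).div_const _).contDiffOn
  have hP : ∀ i : Fin 4, ContDiffOn ℝ ∞ (fun v : R4 => (v i / (2 * t)) • R.J v • U v)
      (Metric.ball 0 r) := fun i => (hc i).smul hJU
  have h1 : ∀ i, R.cd i (R.fl (fun v => G4 t v • U v) i) v =
      G4 t v • (R.cd i (R.fl U i) v - (1 / (2 * t)) • R.J v • U v -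
        (v i / (2 * t)) • (dd i R.J v • U v + R.J v • R.cd i U v) -
        (v i / (2 * t)) • (R.fl U i v - (v i / (2 * t)) • R.J v • U v)) := by
    intro i
    have h2 : R.fl (fun v => G4 t v • U v) i =ᶠ[𝓝 v] fun v =>
        G4 t v • (R.fl U i v - (v i / (2 * t)) • R.J v • U v) := by
      filter_upwards [hB] with w hw using fl_G h t hU hw i
    have hd1 := sm_at (sm_fl h hU i) hv
    have hd2 := sm_at (hP i) hv
    have hd3 := sm_at (hc i) hv
    rw [cd_congr h2, cd_smul (differentiableAt_G4 t v) (hd1.fun_sub hd2), cd_sub hd1 hd2,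
      cd_smul hd3 (sm_at hJU hv), cd_smul hdJ hdU, dd_G4]
    have h3 : dd i (fun v : R4 => v i / (2 * t)) v = 1 / (2 * t) := by
      have h4 : (fun v : R4 => v i / (2 * t)) = fun v : R4 => (1 / (2 * t)) • v i := by
        funext w; rw [smul_eq_mul]; ring
      rw [h4, dd_const_smul _ (differentiableAt_coord i v), dd_coord, if_pos rfl, smul_eq_mul,
        mul_one]
    rw [h3]
    module
  have h5 := rd_fl h U hv
  have h6 := rd_cd h U hv
  have h7 : ∑ i, v i • dd i R.J v • U v = rd R.J v • U v := by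
    rw [rd, Finset.sum_smul]
    exact Finset.sum_congr rfl fun i _ => by rw [smul_smul, smul_eq_mul]
  have h8 : ∑ i : Fin 4, (v i * v i) • R.J v • U v = ‖v‖ ^ 2 • R.J v • U v := by
    rw [norm_sq_eq, Finset.sum_smul]
  have h9 : ∑ i, R.cd i (R.fl (fun v => G4 t v • U v) i) v =
      G4 t v • (∑ i, R.cd i (R.fl U i) v - (2 / t) • R.J v • U v -
        (1 / (2 * t)) • (rd R.J v • U v + R.J v • rd U v) -
        (1 / (2 * t)) • (R.J v • rd U v) + (‖v‖ ^ 2 / (4 * t ^ 2)) • R.J v • U v) := by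
    simp only [h1]
    rw [← Finset.smul_sum]
    congr 1
    have h10 : ∀ i : Fin 4, (R.cd i (R.fl U i) v - (1 / (2 * t)) • R.J v • U v -
        (v i / (2 * t)) • (dd i R.J v • U v + R.J v • R.cd i U v) -
        (v i / (2 * t)) • (R.fl U i v - (v i / (2 * t)) • R.J v • U v)) =
        R.cd i (R.fl U i) v - (1 / (2 * t)) • R.J v • U v -
        (1 / (2 * t)) • v i • dd i R.J v • U v - (1 / (2 * t)) • R.J v • v i • R.cd i U v -
        (1 / (2 * t)) • v i • R.fl U i v + (1 / (4 * t ^ 2)) • (v i * v i) • R.J v • U v := by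
      intro i
      match_scalars <;> field_simp <;> ring
    simp only [h10, Finset.sum_add_distrib, Finset.sum_sub_distrib, ← Finset.smul_sum]
    rw [h5, h6, h7, h8]
    simp only [Finset.sum_const, Finset.card_univ, Fintype.card_fin]
    match_scalars <;> field_simp <;> ring
  have hJ := (h.J_pos v hv).ne'
  rw [Rad.H, h9, Rad.H]
  match_scalars <;> field_simp <;> ring

/-! ### the transport equation -/

theorem rd_c_succ [CompleteSpace B] (h : R.OK r) (β : B) (k : ℕ) {v : R4}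
    (hv : v ∈ Metric.ball (0 : R4) r) :
    rd (R.c β (k + 1)) v = -(((k : ℝ) + 1) • R.c β (k + 1) v) - R.M (R.c β k) v := by
  set F := R.M (R.c β k) with hF
  have hFs : ContDiffOn ℝ ∞ F (Metric.ball 0 r) := sm_M h (sm_c h β k)
  have hd := sm_at (sm_c h β (k + 1)) hv
  -- the curve
  have h1 : HasDerivAt (fun l : ℝ => R.c β (k + 1) (l • v)) (rd (R.c β (k + 1)) v) 1 := by
    have h2 : HasDerivAt (fun l : ℝ => l • v) v 1 := by
      simpa using (hasDerivAt_id (1 : ℝ)).smul_const v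
    have h3 : HasFDerivAt (R.c β (k + 1)) (fderiv ℝ (R.c β (k + 1)) v) ((1 : ℝ) • v) := by
      rw [one_smul]; exact hd.hasFDerivAt
    rw [rd_eq]
    exact h3.comp_hasDerivAt (1 : ℝ) h2
  let f : ℝ → B := fun σ => σ ^ k • F (σ • v)
  let T : Set ℝ := {σ | σ • v ∈ Metric.ball (0 : R4) r}
  have hT : IsOpen T := Metric.isOpen_ball.preimage (by fun_prop)
  have hfT : ContinuousOn f T := by
    refine ContinuousOn.smul (by fun_prop) ?_
    exact hFs.continuousOn.comp (by fun_prop) fun σ hσ => hσ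
  have hIcc : ∀ σ ∈ Icc (0 : ℝ) 1, σ ∈ T := fun σ hσ => smul_mem_ball hv hσ
  have h1T : (1 : ℝ) ∈ T := hIcc 1 ⟨zero_le_one, le_refl _⟩
  have hint : IntervalIntegrable f volume 0 1 := by
    refine ContinuousOn.intervalIntegrable ?_
    rw [uIcc_of_le zero_le_one]
    exact hfT.mono hIcc
  have h4 : HasDerivAt (fun l : ℝ => ∫ σ in (0 : ℝ)..l, f σ) (f 1) 1 :=
    intervalIntegral.integral_hasDerivAt_right hint
      (ContinuousOn.stronglyMeasurableAtFilter hT hfT 1 h1T) (hfT.continuousAt (hT.mem_nhds h1T))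
  have h5 : HasDerivAt (fun l : ℝ => -((l ^ (k + 1))⁻¹ • ∫ σ in (0 : ℝ)..l, f σ))
      (-(((1 : ℝ) ^ (k + 1))⁻¹ • f 1 + (-(((k + 1 : ℕ) : ℝ) * 1 ^ k) / (1 ^ (k + 1)) ^ 2) •
        ∫ σ in (0 : ℝ)..1, f σ)) 1 := by
    have h6 := ((hasDerivAt_pow (k + 1) (1 : ℝ)).inv (by simp))
    exact (h6.smul h4).neg
  have h7 : (fun l : ℝ => R.c β (k + 1) (l • v)) =ᶠ[𝓝 1]
      fun l : ℝ => -((l ^ (k + 1))⁻¹ • ∫ σ in (0 : ℝ)..l, f σ) := by
    filter_upwards [Ioi_mem_nhds (zero_lt_one : (0 : ℝ) < 1)] with l hl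
    have hl0 : l ≠ 0 := ne_of_gt hl
    have h8 := intervalIntegral.smul_integral_comp_mul_right (a := 0) (b := 1) f l
    rw [zero_mul, one_mul] at h8
    rw [← h8, c_succ]
    change -(∫ s in (0 : ℝ)..1, s ^ k • R.M (R.c β k) (s • l • v)) = _
    rw [neg_inj, smul_smul]
    refine Eq.trans ?_ (intervalIntegral.integral_smul ((l ^ (k + 1))⁻¹ * l)
      (fun x => f (x * l)))
    refine intervalIntegral.integral_congr fun σ _ => ?_
    simp only [f, smul_smul]
    congr 1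
    rw [mul_pow, pow_succ]
    field_simp
  have h9 := h1.unique (h5.congr_of_eventuallyEq h7)
  rw [h9, c_succ]
  simp only [f, one_pow, one_smul, inv_one, mul_one, div_one]
  push_cast
  module

theorem rd_c_zero (β : B) (v : R4) : rd (R.c β 0) v = 0 := by
  have h1 : R.c β 0 = fun _ => β := rfl
  rw [h1, rd_eq, fderiv_fun_const]
  rfl

/-! ### linearity of `H`, the identity -/

theorem fl_sum {ι : Type*} (s : Finset ι) {U : ι → R4 → B} {v : R4}
    (hU : ∀ k ∈ s, DifferentiableAt ℝ (U k) v) (i : Fin 4) :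
    R.fl (fun v => ∑ k ∈ s, U k v) i v = ∑ k ∈ s, R.fl (U k) i v := by
  simp only [Rad.fl, cd_sum s hU, Finset.smul_sum]
  rw [Finset.sum_comm]

theorem fl_const_smul (c : ℝ) {U : R4 → B} {v : R4}
    (hU : DifferentiableAt ℝ U v) (i : Fin 4) :
    R.fl (fun v => c • U v) i v = c • R.fl U i v := by
  simp only [Rad.fl, cd_const_smul c hU, Finset.smul_sum]
  refine Finset.sum_congr rfl fun j _ => ?_
  module

theorem H_congr {U V : R4 → B} {v : R4} (h : U =ᶠ[𝓝 v] V) : R.H U v = R.H V v := by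
  simp only [Rad.H]
  congr 1
  refine Finset.sum_congr rfl fun i _ => cd_congr ?_ i
  filter_upwards [h.eventuallyEq_nhds] with w hw
  simp only [Rad.fl]
  congr 1
  exact Finset.sum_congr rfl fun j _ => by rw [cd_congr hw]

theorem H_sum (h : R.OK r) {ι : Type*} (s : Finset ι) {U : ι → R4 → B}
    (hU : ∀ k ∈ s, ContDiffOn ℝ ∞ (U k) (Metric.ball 0 r)) {v : R4}
    (hv : v ∈ Metric.ball (0 : R4) r) :
    R.H (fun v => ∑ k ∈ s, U k v) v = ∑ k ∈ s, R.H (U k) v := by
  have h1 : ∀ i, R.cd i (R.fl (fun v => ∑ k ∈ s, U k v) i) v =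
      ∑ k ∈ s, R.cd i (R.fl (U k) i) v := by
    intro i
    rw [← cd_sum s (fun k hk => sm_at (sm_fl h (hU k hk) i) hv)]
    refine cd_congr ?_ i
    filter_upwards [Metric.isOpen_ball.mem_nhds hv] with w hw
    exact fl_sum s (fun k hk => sm_at (hU k hk) hw) i
  simp only [Rad.H, h1]
  rw [Finset.sum_comm, Finset.smul_sum]

theorem H_const_smul (h : R.OK r) (c : ℝ) {U : R4 → B}
    (hU : ContDiffOn ℝ ∞ U (Metric.ball 0 r)) {v : R4} (hv : v ∈ Metric.ball (0 : R4) r) :
    R.H (fun v => c • U v) v = c • R.H U v := by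
  have h1 : ∀ i, R.cd i (R.fl (fun v => c • U v) i) v = c • R.cd i (R.fl U i) v := by
    intro i
    rw [← cd_const_smul c (sm_at (sm_fl h hU i) hv)]
    refine cd_congr ?_ i
    filter_upwards [Metric.isOpen_ball.mem_nhds hv] with w hw
    exact fl_const_smul c (sm_at hU hw) i
  simp only [Rad.H, h1, ← Finset.smul_sum]
  module

theorem rd_sqrtJinv (h : R.OK r) {v : R4} (hv : v ∈ Metric.ball (0 : R4) r) :
    rd (fun v => (√(R.J v))⁻¹) v = -(1 / 2) * (rd R.J v / R.J v) * (√(R.J v))⁻¹ := by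
  have hJ := h.J_pos v hv
  have hd := (sm_at h.J_smooth hv).hasFDerivAt
  have hs : √(R.J v) ≠ 0 := (Real.sqrt_pos.2 hJ).ne'
  have h1 := (hd.sqrt hJ.ne')
  have h2 : HasFDerivAt (fun v => (√(R.J v))⁻¹)
      ((-((√(R.J v)) ^ 2)⁻¹) • ((1 / (2 * √(R.J v))) • fderiv ℝ R.J v)) v :=
    (hasDerivAt_inv hs).comp_hasFDerivAt v h1
  rw [rd_eq, h2.fderiv, rd_eq]
  simp only [ContinuousLinearMap.smul_apply, smul_eq_mul]
  rw [Real.sq_sqrt hJ.le]
  field_simp

theorem rd_u [CompleteSpace B] (h : R.OK r) (β : B) (k : ℕ) {v : R4}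
    (hv : v ∈ Metric.ball (0 : R4) r) :
    rd (R.u β k) v = (√(R.J v))⁻¹ • rd (R.c β k) v - ((1 / 2) * (rd R.J v / R.J v)) • R.u β k v := by
  have h1 : rd (R.u β k) v = rd (fun v => (√(R.J v))⁻¹) v • R.c β k v +
      (√(R.J v))⁻¹ • rd (R.c β k) v :=
    rd_smul (sm_at (sm_sqrtJinv h) hv) (sm_at (sm_c h β k) hv)
  rw [h1, rd_sqrtJinv h hv, Rad.u]
  module

theorem M_eq (h : R.OK r) (β : B) (k : ℕ) {v : R4} (hv : v ∈ Metric.ball (0 : R4) r) :
    (√(R.J v))⁻¹ • R.M (R.c β k) v = R.H (R.u β k) v := by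
  have hs : √(R.J v) ≠ 0 := (Real.sqrt_pos.2 (h.J_pos v hv)).ne'
  rw [Rad.M, smul_smul, inv_mul_cancel₀ hs, one_smul]
  rfl

/-- the transport equation for `u` -/
theorem tr_u_succ [CompleteSpace B] (h : R.OK r) (β : B) (k : ℕ) {v : R4}
    (hv : v ∈ Metric.ball (0 : R4) r) :
    ((k : ℝ) + 1) • R.u β (k + 1) v + rd (R.u β (k + 1)) v +
      ((1 / 2) * (rd R.J v / R.J v)) • R.u β (k + 1) v = -R.H (R.u β k) v := by
  rw [rd_u h β (k + 1) hv, rd_c_succ h β k hv, ← M_eq h β k hv]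
  simp only [Rad.u]
  module

theorem tr_u_zero [CompleteSpace B] (h : R.OK r) (β : B) {v : R4}
    (hv : v ∈ Metric.ball (0 : R4) r) :
    rd (R.u β 0) v + ((1 / 2) * (rd R.J v / R.J v)) • R.u β 0 v = 0 := by
  rw [rd_u h β 0 hv, rd_c_zero]
  module

theorem param_identity [CompleteSpace B] (h : R.OK r) (β : B) (N : ℕ) {t : ℝ} (ht : 0 < t)
    {v : R4} (hv : v ∈ Metric.ball (0 : R4) r) :
    deriv (fun t => G4 t v • ∑ k ∈ Finset.range (N + 1), t ^ k • R.u β k v) t
        + R.H (fun v => G4 t v • ∑ k ∈ Finset.range (N + 1), t ^ k • R.u β k v) v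
        = (G4 t v * t ^ N) • R.H (R.u β N) v := by
  have hu : ∀ k, ContDiffOn ℝ ∞ (R.u β k) (Metric.ball 0 r) := sm_u h β
  have hus : ∀ k ∈ Finset.range (N + 1), ContDiffOn ℝ ∞ (fun v => t ^ k • R.u β k v)
      (Metric.ball 0 r) := fun k _ => (hu k).const_smul (t ^ k)
  have hS : ContDiffOn ℝ ∞ (fun v => ∑ k ∈ Finset.range (N + 1), t ^ k • R.u β k v)
      (Metric.ball 0 r) := ContDiffOn.sum (f := fun k v => t ^ k • R.u β k v) hus
  have h1 : HasDerivAt (fun t : ℝ => ∑ k ∈ Finset.range (N + 1), t ^ k • R.u β k v)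
      (∑ k ∈ Finset.range (N + 1), ((k : ℝ) * t ^ (k - 1)) • R.u β k v) t :=
    HasDerivAt.fun_sum fun k _ => (hasDerivAt_pow k t).smul_const _
  have h2 : HasDerivAt (fun t => G4 t v • ∑ k ∈ Finset.range (N + 1), t ^ k • R.u β k v)
      (G4 t v • ∑ k ∈ Finset.range (N + 1), ((k : ℝ) * t ^ (k - 1)) • R.u β k v +
      ((-2 / t + ‖v‖ ^ 2 / (4 * t ^ 2)) * G4 t v) •
        ∑ k ∈ Finset.range (N + 1), t ^ k • R.u β k v) t := (hasDerivAt_G4_time ht v).smul h1
  rw [h2.deriv, H_G h ht hS hv, H_sum h _ hus hv,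
    rd_sum _ (fun k hk => sm_at (hus k hk) hv)]
  have h3 : ∀ k, R.H (fun v => t ^ k • R.u β k v) v = t ^ k • R.H (R.u β k) v :=
    fun k => H_const_smul h (t ^ k) (hu k) hv
  have h4 : ∀ k, rd (fun v => t ^ k • R.u β k v) v = t ^ k • rd (R.u β k) v :=
    fun k => rd_const_smul (t ^ k) (sm_at (hu k) hv)
  simp only [h3, h4]
  set q := (1 / 2) * (rd R.J v / R.J v) with hq
  -- the bracket
  have h5 : ∑ k ∈ Finset.range (N + 1), ((k : ℝ) * t ^ (k - 1)) • R.u β k v +
      (1 / t) • ∑ k ∈ Finset.range (N + 1), t ^ k • rd (R.u β k) v +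
      (q / t) • ∑ k ∈ Finset.range (N + 1), t ^ k • R.u β k v +
      ∑ k ∈ Finset.range (N + 1), t ^ k • R.H (R.u β k) v = t ^ N • R.H (R.u β N) v := by
    clear h1 h2 hS hus
    induction N with
    | zero =>
      have h6 := tr_u_zero h β hv
      rw [← hq] at h6
      simp only [zero_add, Finset.range_one, Finset.sum_singleton, Nat.cast_zero, zero_mul,
        zero_smul, pow_zero, one_smul]
      have h7 : (1 / t) • rd (R.u β 0) v + (q / t) • R.u β 0 v = 0 := by
        have : (1 / t) • rd (R.u β 0) v + (q / t) • R.u β 0 v =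
            (1 / t) • (rd (R.u β 0) v + q • R.u β 0 v) := by module
        rw [this, h6, smul_zero]
      rw [h7, zero_add]
    | succ N ih =>
      have h6 := tr_u_succ h β N hv
      rw [← hq] at h6
      rw [Finset.sum_range_succ _ (N + 1), Finset.sum_range_succ _ (N + 1),
        Finset.sum_range_succ _ (N + 1), Finset.sum_range_succ _ (N + 1)]
      have h7 : (((N + 1 : ℕ) : ℝ) * t ^ (N + 1 - 1)) • R.u β (N + 1) v +
          (1 / t) • t ^ (N + 1) • rd (R.u β (N + 1)) v +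
          (q / t) • t ^ (N + 1) • R.u β (N + 1) v = -(t ^ N • R.H (R.u β N) v) := by
        rw [← smul_neg, ← h6, Nat.add_sub_cancel]
        push_cast
        match_scalars <;> field_simp <;> ring
      rw [← ih] at h7
      rw [smul_add, smul_add]
      have h8 : ∀ a b c d x y z w X : B, x + y + z = -(a + b + c + d) →
          (a + x) + (b + y) + (c + z) + (d + w) = w := by
        intro a b c d x y z w X hh
        have : (a + x) + (b + y) + (c + z) + (d + w) = (a + b + c + d) + (x + y + z) + w := by abel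
        rw [this, hh]; abel
      exact h8 _ _ _ _ _ _ _ _ 0 h7
  have h6 : (G4 t v * t ^ N) • R.H (R.u β N) v = G4 t v • (t ^ N • R.H (R.u β N) v) := by module
  rw [h6, ← h5]
  match_scalars <;> field_simp <;> ring

theorem param_hasDerivAt [CompleteSpace B] (h : R.OK r) (β : B) (N : ℕ) {t : ℝ} (ht : 0 < t)
    {v : R4} (hv : v ∈ Metric.ball (0 : R4) r) :
    HasDerivAt (fun t => G4 t v • ∑ k ∈ Finset.range (N + 1), t ^ k • R.u β k v)
      ((G4 t v * t ^ N) • R.H (R.u β N) v -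
        R.H (fun v => G4 t v • ∑ k ∈ Finset.range (N + 1), t ^ k • R.u β k v) v) t := by
  have h1 : HasDerivAt (fun t : ℝ => ∑ k ∈ Finset.range (N + 1), t ^ k • R.u β k v)
      (∑ k ∈ Finset.range (N + 1), ((k : ℝ) * t ^ (k - 1)) • R.u β k v) t :=
    HasDerivAt.fun_sum fun k _ => (hasDerivAt_pow k t).smul_const _
  have h2 := ((hasDerivAt_G4_time ht v).fun_smul h1).differentiableAt.hasDerivAt
  exact h2.congr_deriv (eq_sub_of_add_eq (param_identity h β N ht hv))

end Op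

end R4S

theorem r4Id : R4IdStmt := by
  intro B _ _ _ R r h β N t ht v hv
  exact R4S.param_identity h β N ht hv

end

end Vale.Agent.P211.HK
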