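import Vale.Agent.P211.HK.EUDefs
import Vale.Agent.P211.HK.R4Id

/-! P211 / HK: EU2 (transport coefficients are smooth, heat equation of the parametrix).  helper638 -/

namespace Vale.Agent.P211.HK

open Set Filter Topology MeasureTheory
open scoped ContDiff RealInnerProductSpace

noncomputable section

namespace EU2

variable {P W : Type} [NormedAddCommGroup P] [NormedSpace ℝ P] [NormedAddCommGroup W]
    [InnerProductSpace ℝ W] {U : Set P} {D : ℝ} (Q : RadData P W U D)

/-- the data at the centre `y` acting on endomorphisms -/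
def rad (y : P) : Rad (W →L[ℝ] W) where
  J := fun v => Q.J (y, v)
  gi := fun i j v => Q.gi (y, v) i j
  A := fun i v => ContinuousLinearMap.compL ℝ W W W (Q.B (y, v) i)

theorem cd_eq (y : P) (f : R4 → W →L[ℝ] W) (i : Fin 4) : (rad Q y).cd i f = Q.dE y f i := rfl

theorem fl_eq (y : P) (f : R4 → W →L[ℝ] W) (i : Fin 4) : (rad Q y).fl f i =
    fun v' => ∑ j, (Q.J (y, v') * Q.gi (y, v') i j) • Q.dE y f j v' := by
  funext v
  simp only [Rad.fl, cd_eq, Finset.smul_sum, smul_smul]
  rfl

theorem H_eq (y : P) (f : R4 → W →L[ℝ] W) : (rad Q y).H f = Q.lapE y f := by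
  funext v
  simp only [Rad.H, RadData.lapE, fl_eq, cd_eq]
  rfl

theorem cc_eq (y : P) (k : ℕ) (v : R4) :
    Q.cc k (y, v) = (rad Q y).c (ContinuousLinearMap.id ℝ W) k v := by
  induction k generalizing v with
  | zero => rfl
  | succ k ih =>
    simp only [RadData.cc, R4S.c_succ, Rad.M, H_eq]
    have h1 : (fun v => (√(Q.J (y, v)))⁻¹ • Q.cc k (y, v)) =
        fun v => (√((rad Q y).J v))⁻¹ • (rad Q y).c (ContinuousLinearMap.id ℝ W) k v := by
      funext w
      rw [ih w]
      rfl
    rw [h1]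
    rfl

theorem uu_eq (y : P) (k : ℕ) (v : R4) :
    Q.uu k (y, v) = (rad Q y).u (ContinuousLinearMap.id ℝ W) k v := by
  simp only [RadData.uu, Rad.u, cc_eq]
  rfl

theorem fam [FiniteDimensional ℝ P] [FiniteDimensional ℝ W] : R4S.FamOK U D (rad Q) := by
  have hA : ∀ i, R4S.Sm U D (fun y => (rad Q y).A i) := by
    intro i
    have h1 : ContDiffOn ℝ ∞ (fun x => Q.B x i) (U ×ˢ Metric.ball 0 D) :=
      contDiffOn_pi.1 Q.B_smooth i
    have h2 : ContDiff ℝ ∞ (fun b : W →L[ℝ] W => ContinuousLinearMap.compL ℝ W W W b) :=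
      ContinuousLinearMap.contDiff (𝕜 := ℝ) (E := W →L[ℝ] W)
        (F := (W →L[ℝ] W) →L[ℝ] (W →L[ℝ] W)) (ContinuousLinearMap.compL ℝ W W W)
    exact h2.comp_contDiffOn h1
  have hJ : R4S.Sm U D (fun y => (rad Q y).J) := Q.J_smooth
  have hg : ∀ i j, R4S.Sm U D (fun y => (rad Q y).gi i j) := fun i j =>
    contDiffOn_pi.1 (contDiffOn_pi.1 Q.gi_smooth i) j
  refine ⟨Q.U_open, fun y hy => ?_, hJ, hg, hA⟩
  exact
    { r_pos := Q.D_pos
      J_smooth := hJ.slice hy
      gi_smooth := fun i j => (hg i j).slice hy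
      A_smooth := fun i => (hA i).slice hy
      J_pos := fun v hv => Q.J_pos (y, v) ⟨hy, hv⟩
      J_zero := Q.J_zero y hy
      gi_zero := Q.gi_zero y hy
      gi_symm := fun i j v hv => Q.gi_symm (y, v) ⟨hy, hv⟩ i j
      gauss := fun i v hv => Q.gauss (y, v) ⟨hy, hv⟩ i
      radial := fun v hv => by
        have h := Q.radial (y, v) ⟨hy, hv⟩
        have h2 := congrArg (ContinuousLinearMap.compL ℝ W W W) h
        rw [map_sum, map_zero] at h2
        rw [← h2]
        refine Finset.sum_congr rfl fun j _ => ?_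
        rw [map_smul]
        rfl }

theorem par_eq (N : ℕ) (t : ℝ) (y : P) (v : R4) : Q.par N t (y, v) =
    G4 t v • ∑ k ∈ Finset.range (N + 1), t ^ k • (rad Q y).u (ContinuousLinearMap.id ℝ W) k v := by
  simp only [RadData.par, uu_eq]
  rfl

end EU2

theorem eu2 : EU2Stmt := by
  intro P W _ _ _ _ _ _ U D Q
  have hF := EU2.fam Q
  refine ⟨fun k => ?_, fun N t ht y hy v hv => ?_⟩
  · have h1 := hF.c (ContinuousLinearMap.id ℝ W) k
    refine ContDiffOn.congr h1 fun z _ => ?_
    exact EU2.cc_eq Q z.1 k z.2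
  · have hok := hF.ok y hy
    have h1 := R4S.param_hasDerivAt hok (ContinuousLinearMap.id ℝ W) N ht hv
    have h4 : (fun s => Q.par N s (y, v)) = fun s => G4 s v • ∑ k ∈ Finset.range (N + 1),
        s ^ k • (EU2.rad Q y).u (ContinuousLinearMap.id ℝ W) k v := by
      funext s
      exact EU2.par_eq Q N s y v
    have h5 : (fun v' => Q.par N t (y, v')) = fun v => G4 t v • ∑ k ∈ Finset.range (N + 1),
        t ^ k • (EU2.rad Q y).u (ContinuousLinearMap.id ℝ W) k v := by
      funext v'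
      exact EU2.par_eq Q N t y v'
    have h6 : (fun v' => Q.uu N (y, v')) = (EU2.rad Q y).u (ContinuousLinearMap.id ℝ W) N := by
      funext v'
      exact EU2.uu_eq Q y N v'
    rw [h4, h5, h6, ← EU2.H_eq, ← EU2.H_eq]
    exact h1

end

end Vale.Agent.P211.HK
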