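import Vale.Agent.P211.HK.Gauss

/-! P211 / HK: the small time limit of blueprint 7.5 (manifold free, parameter space `Y`). helper501.

`∫_Y ∫ χ² G_t² ‖∑ t^k c_k‖²_HS` for `c_0 = 1`. -/

set_option linter.unusedSectionVars false

namespace Vale.Agent.P211.HK.Gauss

open MeasureTheory Filter Topology Set
open scoped RealInnerProductSpace

noncomputable section

/-- a cutoff function, `1` for `|v| ≤ r₁`, `0` for `|v| ≥ r₀` -/
structure Cut (χ : E4 → ℝ) (r₁ r₀ : ℝ) : Prop where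
  pos : 0 < r₁
  meas : Measurable χ
  bd : ∀ v, |χ v| ≤ 1
  one : ∀ v, ‖v‖ ≤ r₁ → χ v = 1
  zero : ∀ v, r₀ ≤ ‖v‖ → χ v = 0

variable {χ : E4 → ℝ} {r₁ r₀ : ℝ}

theorem Cut.sq_le (h : Cut χ r₁ r₀) (v : E4) : χ v ^ 2 ≤ 1 := by
  have := h.bd v
  rw [← sq_abs]
  nlinarith [abs_nonneg (χ v)]

theorem Cut.one_sub_le (h : Cut χ r₁ r₀) (v : E4) : |χ v ^ 2 - 1| ≤ ‖v‖ ^ 2 / r₁ ^ 2 := by
  have hp := h.pos
  by_cases hv : ‖v‖ ≤ r₁
  · rw [h.one v hv]
    simp
    positivity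
  · have h1 : 1 ≤ ‖v‖ ^ 2 / r₁ ^ 2 := by
      rw [le_div_iff₀ (by positivity)]
      nlinarith [not_le.mp hv]
    have h2 := h.sq_le v
    have h3 : 0 ≤ χ v ^ 2 := sq_nonneg _
    rw [abs_le]
    constructor <;> linarith

/-- cutting off changes Gaussian integrals little -/
theorem cut_integral (h : Cut χ r₁ r₀) (m : ℕ) {φ : E4 → ℝ} (hφ : Continuous φ) {A : ℝ}
    (hA : ∀ v, |φ v| ≤ A * ‖v‖ ^ m) {t : ℝ} (ht : 0 < t) :
    |(∫ v, χ v ^ 2 * G t v ^ 2 * φ v) - ∫ v, φ v * G t v ^ 2| ≤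
      A / r₁ ^ 2 * (Kp (m + 2) * 2 ^ (m + 2) * (Real.sqrt t) ^ (m + 2) / t ^ 2) := by
  have hp := h.pos
  have hχc := h.meas
  have hGc := (continuous_G t).measurable
  have hφc := hφ.measurable
  have I1 : Integrable (fun v => φ v * G t v ^ 2) := by
    refine Integrable.mono' ((integrable_pow_G_sq m ht).const_mul A)
      (Measurable.aestronglyMeasurable (by fun_prop))
      (Eventually.of_forall fun v => ?_)
    rw [Real.norm_eq_abs, abs_mul, abs_of_nonneg (sq_nonneg (G t v)), ← mul_assoc]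
    exact mul_le_mul_of_nonneg_right (hA v) (sq_nonneg _)
  have I2 : Integrable (fun v => χ v ^ 2 * G t v ^ 2 * φ v) := by
    refine Integrable.mono' I1.norm (Measurable.aestronglyMeasurable (by fun_prop))
      (Eventually.of_forall fun v => ?_)
    rw [Real.norm_eq_abs, Real.norm_eq_abs, abs_mul, abs_mul, abs_mul,
      abs_of_nonneg (sq_nonneg (χ v))]
    have h1 := h.sq_le v
    have h2 : 0 ≤ |G t v ^ 2| * |φ v| := by positivity
    calc χ v ^ 2 * |G t v ^ 2| * |φ v| = χ v ^ 2 * (|G t v ^ 2| * |φ v|) := by ring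
      _ ≤ 1 * (|G t v ^ 2| * |φ v|) := mul_le_mul_of_nonneg_right h1 h2
      _ = _ := by ring
  rw [← integral_sub I2 I1]
  have hI := (integrable_pow_G_sq (m + 2) ht).const_mul (A / r₁ ^ 2)
  have h1 : |∫ v, (χ v ^ 2 * G t v ^ 2 * φ v - φ v * G t v ^ 2)| ≤
      ∫ v, A / r₁ ^ 2 * (‖v‖ ^ (m + 2) * G t v ^ 2) := by
    rw [← Real.norm_eq_abs]
    refine norm_integral_le_of_norm_le hI (Eventually.of_forall fun v => ?_)
    rw [Real.norm_eq_abs, show χ v ^ 2 * G t v ^ 2 * φ v - φ v * G t v ^ 2 =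
      (χ v ^ 2 - 1) * φ v * G t v ^ 2 by ring, abs_mul, abs_mul,
      abs_of_nonneg (sq_nonneg (G t v))]
    have h2 := mul_le_mul (h.one_sub_le v) (hA v) (abs_nonneg _) (by positivity)
    calc |χ v ^ 2 - 1| * |φ v| * G t v ^ 2
        ≤ (‖v‖ ^ 2 / r₁ ^ 2 * (A * ‖v‖ ^ m)) * G t v ^ 2 :=
          mul_le_mul_of_nonneg_right h2 (sq_nonneg _)
      _ = _ := by rw [pow_add]; ring
  refine h1.trans ?_
  rw [integral_const_mul]
  have hA0 : 0 ≤ A := by
    by_contra hneg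
    have := (abs_nonneg _).trans (hA (EuclideanSpace.single 0 1))
    simp at this
    exact hneg this
  exact mul_le_mul_of_nonneg_left (integral_pow_G_sq_le (m + 2) ht) (by positivity)

theorem tendsto_sqrt_pow {m : ℕ} (hm : m ≠ 0) (A : ℝ) :
    Tendsto (fun t : ℝ => A * (Real.sqrt t) ^ m) (𝓝[>] 0) (𝓝 0) := by
  have h : Continuous fun t : ℝ => A * (Real.sqrt t) ^ m := by fun_prop
  have h1 := h.tendsto 0
  simp [hm] at h1
  exact h1.mono_left nhdsWithin_le_nhds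

/-- `t² ∫ χ² G² → 1/(64 π²)` -/
theorem cut_zero (h : Cut χ r₁ r₀) :
    Tendsto (fun t : ℝ => t ^ 2 * ∫ v, χ v ^ 2 * G t v ^ 2) (𝓝[>] 0)
      (𝓝 (64 * Real.pi ^ 2)⁻¹) := by
  have hpi := Real.pi_pos
  have hp := h.pos
  rw [tendsto_iff_norm_sub_tendsto_zero]
  refine squeeze_zero' (Eventually.of_forall fun t => norm_nonneg _) ?_
    (tendsto_sqrt_pow (m := 2) (by norm_num) (1 / r₁ ^ 2 * (Kp 2 * 2 ^ 2)))
  filter_upwards [self_mem_nhdsWithin] with t ht
  rw [mem_Ioi] at ht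
  have h1 := cut_integral h 0 (φ := fun _ => 1) continuous_const (A := 1) (by simp) ht
  simp only [mul_one, one_mul, zero_add] at h1
  rw [integral_G_sq ht] at h1
  rw [Real.norm_eq_abs]
  have h2 : t ^ 2 * (∫ v, χ v ^ 2 * G t v ^ 2) - (64 * Real.pi ^ 2)⁻¹ =
      t ^ 2 * ((∫ v, χ v ^ 2 * G t v ^ 2) - (64 * Real.pi ^ 2 * t ^ 2)⁻¹) := by
    field_simp
  rw [h2, abs_mul, abs_of_pos (by positivity : (0 : ℝ) < t ^ 2)]
  calc t ^ 2 * |(∫ v, χ v ^ 2 * G t v ^ 2) - (64 * Real.pi ^ 2 * t ^ 2)⁻¹|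
      ≤ t ^ 2 * (1 / r₁ ^ 2 * (Kp 2 * 2 ^ 2 * Real.sqrt t ^ 2 / t ^ 2)) :=
        mul_le_mul_of_nonneg_left h1 (by positivity)
    _ = _ := by field_simp

/-- `t ∫ χ² G² v_i v_k → δ_ik/(64 π²)` -/
theorem cut_two (h : Cut χ r₁ r₀) (i k : Fin 4) :
    Tendsto (fun t : ℝ => t * ∫ v : E4, χ v ^ 2 * G t v ^ 2 * (v i * v k)) (𝓝[>] 0)
      (𝓝 (if i = k then (64 * Real.pi ^ 2)⁻¹ else 0)) := by
  have hpi := Real.pi_pos
  have hp := h.pos
  rw [tendsto_iff_norm_sub_tendsto_zero]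
  refine squeeze_zero' (Eventually.of_forall fun t => norm_nonneg _) ?_
    (tendsto_sqrt_pow (m := 2) (by norm_num) (1 / r₁ ^ 2 * (Kp 4 * 2 ^ 4)))
  filter_upwards [self_mem_nhdsWithin] with t ht
  rw [mem_Ioi] at ht
  have h1 := cut_integral h 2 (φ := fun v : E4 => v i * v k) (by fun_prop) (A := 1)
    (fun v => by
      rw [abs_mul, one_mul, sq]
      exact mul_le_mul (abs_coord_le v i) (abs_coord_le v k) (abs_nonneg _) (norm_nonneg _)) ht
  rw [integral_G_sq_coord ht] at h1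
  rw [Real.norm_eq_abs]
  have h2 : t * (∫ v : E4, χ v ^ 2 * G t v ^ 2 * (v i * v k)) -
      (if i = k then (64 * Real.pi ^ 2)⁻¹ else 0) =
      t * ((∫ v : E4, χ v ^ 2 * G t v ^ 2 * (v i * v k)) -
        (if i = k then (64 * Real.pi ^ 2 * t)⁻¹ else 0)) := by
    split_ifs
    · field_simp
    · ring
  rw [h2, abs_mul, abs_of_pos ht]
  have hs : Real.sqrt t ^ (2 + 2) = t ^ 2 := by
    rw [show 2 + 2 = 2 * 2 by norm_num, pow_mul, Real.sq_sqrt ht.le]
  have hs2 : Real.sqrt t ^ 2 = t := Real.sq_sqrt ht.le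
  rw [hs] at h1
  rw [hs2]
  calc t * |(∫ v : E4, χ v ^ 2 * G t v ^ 2 * (v i * v k)) -
        (if i = k then (64 * Real.pi ^ 2 * t)⁻¹ else 0)|
      ≤ t * (1 / r₁ ^ 2 * (Kp (2 + 2) * 2 ^ (2 + 2) * t ^ 2 / t ^ 2)) :=
        mul_le_mul_of_nonneg_left h1 (by positivity)
    _ = _ := by
      norm_num
      field_simp

/-! ### parameters -/

variable {Y : Type*} [MeasurableSpace Y] {ν : Measure Y} [IsFiniteMeasure ν]

/-- integrability on the product -/
theorem integrable_prod_cut (h : Cut χ r₁ r₀) {f : Y → E4 → ℝ}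
    (hm : AEStronglyMeasurable (fun p : Y × E4 => χ p.2 ^ 2 * f p.1 p.2) (ν.prod volume))
    {C : ℝ} (hf : ∀ y v, ‖v‖ < r₀ → |f y v| ≤ C) {t : ℝ} (ht : 0 < t) :
    Integrable (fun p : Y × E4 => χ p.2 ^ 2 * G t p.2 ^ 2 * f p.1 p.2) (ν.prod volume) := by
  have hG : Integrable (fun p : Y × E4 => (1 : ℝ) * G t p.2 ^ 2) (ν.prod volume) :=
    Integrable.mul_prod (integrable_const 1) (integrable_G_sq ht)
  refine Integrable.mono' (hG.const_mul (max C 0)) ?_ (Eventually.of_forall fun p => ?_)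
  · have hGm : AEStronglyMeasurable (fun p : Y × E4 => G t p.2 ^ 2) (ν.prod volume) :=
      ((continuous_G t).pow 2).aestronglyMeasurable.comp_snd
    refine (hm.mul hGm).congr (Eventually.of_forall fun p => ?_)
    simp only [Pi.mul_apply]
    ring
  · rw [Real.norm_eq_abs, abs_mul, abs_mul, abs_of_nonneg (sq_nonneg (χ p.2)),
      abs_of_nonneg (sq_nonneg (G t p.2)), one_mul]
    by_cases hv : ‖p.2‖ < r₀
    · have h1 := hf p.1 p.2 hv
      have h2 := h.sq_le p.2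
      have h3 : |f p.1 p.2| ≤ max C 0 := h1.trans (le_max_left _ _)
      have h4 : 0 ≤ G t p.2 ^ 2 := sq_nonneg _
      calc χ p.2 ^ 2 * G t p.2 ^ 2 * |f p.1 p.2|
          ≤ 1 * G t p.2 ^ 2 * max C 0 := by gcongr
        _ = _ := by ring
    · rw [h.zero p.2 (not_lt.mp hv)]
      simp
      positivity

/-- the error term -/
theorem error_le (h : Cut χ r₁ r₀) {f : Y → E4 → ℝ} {e : E4 → ℝ} {t : ℝ}
    (he : ∀ v, 0 ≤ e v) (hei : Integrable (fun v => e v * G t v ^ 2))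
    (hf : ∀ y v, ‖v‖ < r₀ → |f y v| ≤ e v) :
    |∫ y, (∫ v, χ v ^ 2 * G t v ^ 2 * f y v) ∂ν| ≤ ν.real univ * ∫ v, e v * G t v ^ 2 := by
  have h1 : ∀ y, |∫ v, χ v ^ 2 * G t v ^ 2 * f y v| ≤ ∫ v, e v * G t v ^ 2 := fun y => by
    rw [← Real.norm_eq_abs]
    refine norm_integral_le_of_norm_le hei (Eventually.of_forall fun v => ?_)
    rw [Real.norm_eq_abs, abs_mul, abs_mul, abs_of_nonneg (sq_nonneg (χ v)),
      abs_of_nonneg (sq_nonneg (G t v))]
    by_cases hv : ‖v‖ < r₀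
    · have h2 := h.sq_le v
      have h3 := hf y v hv
      have h4 : 0 ≤ G t v ^ 2 := sq_nonneg _
      calc χ v ^ 2 * G t v ^ 2 * |f y v| ≤ 1 * G t v ^ 2 * e v := by gcongr
        _ = _ := by ring
    · rw [h.zero v (not_lt.mp hv)]
      have := he v
      simp
      positivity
  rw [← Real.norm_eq_abs]
  refine (norm_integral_le_of_norm_le (integrable_const (∫ v, e v * G t v ^ 2))
    (Eventually.of_forall h1)).trans (le_of_eq ?_)
  rw [integral_const, smul_eq_mul]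

/-- leading order: `t² ∫∫ χ² G² F → w ν(Y)/(64 π²)` if `|F - w| ≤ C (t + |v|)` -/
theorem lim_zero (h : Cut χ r₁ r₀) {F : ℝ → Y → E4 → ℝ} {w C : ℝ}
    (hm : ∀ t ∈ Ioo (0 : ℝ) 1, AEStronglyMeasurable
      (fun p : Y × E4 => χ p.2 ^ 2 * F t p.1 p.2) (ν.prod volume))
    (hF : ∀ t ∈ Ioo (0 : ℝ) 1, ∀ y v, ‖v‖ < r₀ → |F t y v - w| ≤ C * (t + ‖v‖)) :
    Tendsto (fun t : ℝ => t ^ 2 * ∫ y, (∫ v, χ v ^ 2 * G t v ^ 2 * F t y v) ∂ν) (𝓝[>] 0)
      (𝓝 (w * ν.real univ * (64 * Real.pi ^ 2)⁻¹)) := by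
  have hpi := Real.pi_pos
  -- the main term
  have hmain : Tendsto (fun t : ℝ => (w * ν.real univ) * (t ^ 2 * ∫ v, χ v ^ 2 * G t v ^ 2))
      (𝓝[>] 0) (𝓝 (w * ν.real univ * (64 * Real.pi ^ 2)⁻¹)) := (cut_zero h).const_mul _
  refine (hmain.congr_dist ?_)
  -- the error term
  have herr : Tendsto (fun t : ℝ => ν.real univ * |C| * ((64 * Real.pi ^ 2)⁻¹ * Real.sqrt t ^ 2 +
      Kp 1 * 2 ^ 1 * Real.sqrt t ^ 1)) (𝓝[>] 0) (𝓝 0) := by
    have h1 : Continuous fun t : ℝ => ν.real univ * |C| *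
        ((64 * Real.pi ^ 2)⁻¹ * Real.sqrt t ^ 2 + Kp 1 * 2 ^ 1 * Real.sqrt t ^ 1) := by fun_prop
    have h2 := h1.tendsto 0
    simp at h2
    exact (h2.mono_left nhdsWithin_le_nhds).congr fun t => by simp
  refine squeeze_zero' (Eventually.of_forall fun t => dist_nonneg) ?_ herr
  have hIoo : Ioo (0 : ℝ) 1 ∈ 𝓝[>] (0 : ℝ) := Ioo_mem_nhdsGT one_pos
  filter_upwards [hIoo] with t ht
  have ht0 := ht.1
  have hr : ∀ v : E4, ‖v‖ < r₀ → ‖v‖ < r₀ := fun _ h => h
  have hw : AEStronglyMeasurable (fun p : Y × E4 => χ p.2 ^ 2 * w) (ν.prod volume) :=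
    ((h.meas.pow_const 2).aestronglyMeasurable.comp_snd).mul_const w
  have hmF : AEStronglyMeasurable (fun p : Y × E4 => χ p.2 ^ 2 * (F t p.1 p.2 - w))
      (ν.prod volume) := by
    refine ((hm t ht).sub hw).congr (Eventually.of_forall fun p => ?_)
    simp only [Pi.sub_apply]
    ring
  have I1 := integrable_prod_cut (ν := ν) h (f := fun y v => F t y v - w) hmF
    (C := |C| * (1 + r₀)) (fun y v hv => (hF t ht y v hv).trans (by
      have h1 : C * (t + ‖v‖) ≤ |C| * (t + ‖v‖) :=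
        mul_le_mul_of_nonneg_right (le_abs_self C) (by have := norm_nonneg v; linarith)
      refine h1.trans (mul_le_mul_of_nonneg_left ?_ (abs_nonneg C))
      linarith [ht.2])) ht0
  have I2 : Integrable (fun p : Y × E4 => χ p.2 ^ 2 * G t p.2 ^ 2 * w) (ν.prod volume) :=
    integrable_prod_cut (ν := ν) h (f := fun y v => w) hw (C := |w|) (fun y v hv => le_rfl) ht0
  have hsplit : ∫ y, (∫ v, χ v ^ 2 * G t v ^ 2 * F t y v) ∂ν =
      (∫ y, (∫ v, χ v ^ 2 * G t v ^ 2 * (F t y v - w)) ∂ν) +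
        w * ν.real univ * ∫ v, χ v ^ 2 * G t v ^ 2 := by
    have e2 : ∫ y, (∫ v, χ v ^ 2 * G t v ^ 2 * w) ∂ν =
        w * ν.real univ * ∫ v, χ v ^ 2 * G t v ^ 2 := by
      rw [integral_const, integral_mul_const, smul_eq_mul]; ring
    rw [← e2]
    have I3 : Integrable (fun y => ∫ v, χ v ^ 2 * G t v ^ 2 * (F t y v - w)) ν :=
      I1.integral_prod_left
    have I4 : Integrable (fun y => ∫ v, χ v ^ 2 * G t v ^ 2 * w) ν := I2.integral_prod_left
    rw [← integral_add I3 I4]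
    refine integral_congr_ae ?_
    filter_upwards [I1.prod_right_ae, I2.prod_right_ae] with y hy1 hy2
    rw [← integral_add hy1 hy2]
    refine integral_congr_ae (Eventually.of_forall fun v => ?_)
    simp only
    ring
  have herr2 := error_le (ν := ν) h (f := fun y v => F t y v - w)
    (e := fun v => |C| * (t + ‖v‖)) (fun v => by positivity) (by
      have := ((integrable_pow_G_sq 0 ht0).const_mul (|C| * t)).add
        ((integrable_pow_G_sq 1 ht0).const_mul |C|)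
      refine this.congr (Eventually.of_forall fun v => ?_)
      simp only [Pi.add_apply, pow_zero, pow_one]
      ring) (fun y v hv => (hF t ht y v hv).trans
        (mul_le_mul_of_nonneg_right (le_abs_self C) (by have := norm_nonneg v; positivity)))
  have hei : ∫ v, |C| * (t + ‖v‖) * G t v ^ 2 ≤
      |C| * (t * (64 * Real.pi ^ 2 * t ^ 2)⁻¹ + Kp 1 * 2 ^ 1 * Real.sqrt t ^ 1 / t ^ 2) := by
    have e1 : ∫ v, |C| * (t + ‖v‖) * G t v ^ 2 =
        |C| * (t * ∫ v, G t v ^ 2) + |C| * ∫ v, ‖v‖ ^ 1 * G t v ^ 2 := by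
      rw [← integral_const_mul, ← integral_const_mul, ← integral_const_mul, ← integral_add]
      · refine integral_congr_ae (Eventually.of_forall fun v => ?_)
        simp only [pow_one]
        ring
      · exact ((integrable_G_sq ht0).const_mul _).const_mul _
      · exact (integrable_pow_G_sq 1 ht0).const_mul _
    rw [e1, integral_G_sq ht0, mul_add]
    exact add_le_add le_rfl (mul_le_mul_of_nonneg_left (integral_pow_G_sq_le 1 ht0)
      (abs_nonneg C))
  rw [Real.dist_eq, hsplit]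
  have e3 : (w * ν.real univ) * (t ^ 2 * ∫ v, χ v ^ 2 * G t v ^ 2) -
      t ^ 2 * ((∫ y, (∫ v, χ v ^ 2 * G t v ^ 2 * (F t y v - w)) ∂ν) +
        w * ν.real univ * ∫ v, χ v ^ 2 * G t v ^ 2) =
      -(t ^ 2 * ∫ y, (∫ v, χ v ^ 2 * G t v ^ 2 * (F t y v - w)) ∂ν) := by ring
  rw [e3, abs_neg, abs_mul, abs_of_pos (by positivity : (0 : ℝ) < t ^ 2)]
  have hν : 0 ≤ ν.real univ := measureReal_nonneg
  calc t ^ 2 * |∫ y, (∫ v, χ v ^ 2 * G t v ^ 2 * (F t y v - w)) ∂ν|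
      ≤ t ^ 2 * (ν.real univ * (|C| * (t * (64 * Real.pi ^ 2 * t ^ 2)⁻¹ +
          Kp 1 * 2 ^ 1 * Real.sqrt t ^ 1 / t ^ 2))) :=
        mul_le_mul_of_nonneg_left (herr2.trans (mul_le_mul_of_nonneg_left hei hν))
          (by positivity)
    _ = _ := by
      rw [Real.sq_sqrt ht0.le]
      field_simp

/-- next order: if `F = 2 t ∑ Q_ik v_i v_k + t² T + O(t|v|³ + t²|v| + t³)` then
`∫∫ χ² G² F → (1/64 π²) ∫ (2 tr Q + T)` -/
theorem lim_two (h : Cut χ r₁ r₀) {F : ℝ → Y → E4 → ℝ} {Q : Y → Fin 4 → Fin 4 → ℝ} {T : Y → ℝ}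
    {C C' : ℝ}
    (hm : ∀ t ∈ Ioo (0 : ℝ) 1, AEStronglyMeasurable
      (fun p : Y × E4 => χ p.2 ^ 2 * F t p.1 p.2) (ν.prod volume))
    (hQm : ∀ i k, AEStronglyMeasurable (fun y => Q y i k) ν) (hTm : AEStronglyMeasurable T ν)
    (hQb : ∀ y i k, |Q y i k| ≤ C') (hTb : ∀ y, |T y| ≤ C')
    (hF : ∀ t ∈ Ioo (0 : ℝ) 1, ∀ y v, ‖v‖ < r₀ →
      |F t y v - (2 * t * (∑ i, ∑ k, Q y i k * (v i * v k)) + t ^ 2 * T y)| ≤
        C * (t * ‖v‖ ^ 3 + t ^ 2 * ‖v‖ + t ^ 3)) :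
    Tendsto (fun t : ℝ => ∫ y, (∫ v, χ v ^ 2 * G t v ^ 2 * F t y v) ∂ν) (𝓝[>] 0)
      (𝓝 ((64 * Real.pi ^ 2)⁻¹ * ∫ y, (2 * (∑ i, Q y i i) + T y) ∂ν)) := by
  have hpi := Real.pi_pos
  have hQi : ∀ i k, Integrable (fun y => Q y i k) ν := fun i k =>
    Integrable.of_bound (hQm i k) C' (Eventually.of_forall fun y => hQb y i k)
  have hTi : Integrable T ν := Integrable.of_bound hTm C' (Eventually.of_forall hTb)
  -- the main term
  have hlim : (64 * Real.pi ^ 2)⁻¹ * ∫ y, (2 * (∑ i, Q y i i) + T y) ∂ν =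
      2 * (∑ i, ∑ k, (∫ y, Q y i k ∂ν) * (if i = k then (64 * Real.pi ^ 2)⁻¹ else 0)) +
        (∫ y, T y ∂ν) * (64 * Real.pi ^ 2)⁻¹ := by
    rw [integral_add ((integrable_finsetSum _ fun i _ => hQi i i).const_mul 2) hTi,
      integral_const_mul, integral_finsetSum _ fun i _ => hQi i i]
    simp only [mul_ite, mul_zero, Finset.sum_ite_eq, Finset.mem_univ, if_true]
    rw [← Finset.sum_mul]
    ring
  have hmain : Tendsto (fun t : ℝ => 2 * (∑ i, ∑ k, (∫ y, Q y i k ∂ν) *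
      (t * ∫ v : E4, χ v ^ 2 * G t v ^ 2 * (v i * v k))) +
        (∫ y, T y ∂ν) * (t ^ 2 * ∫ v, χ v ^ 2 * G t v ^ 2)) (𝓝[>] 0)
      (𝓝 ((64 * Real.pi ^ 2)⁻¹ * ∫ y, (2 * (∑ i, Q y i i) + T y) ∂ν)) := by
    rw [hlim]
    exact ((tendsto_finsetSum _ fun i _ => tendsto_finsetSum _ fun k _ =>
      (cut_two h i k).const_mul _).const_mul 2).add ((cut_zero h).const_mul _)
  refine hmain.congr_dist ?_
  -- the error term
  have herr : Tendsto (fun t : ℝ => ν.real univ * |C| * (Kp 3 * 2 ^ 3 * Real.sqrt t ^ 1 +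
      Kp 1 * 2 ^ 1 * Real.sqrt t ^ 1 + (64 * Real.pi ^ 2)⁻¹ * Real.sqrt t ^ 2))
      (𝓝[>] 0) (𝓝 0) := by
    have h1 : Continuous fun t : ℝ => ν.real univ * |C| * (Kp 3 * 2 ^ 3 * Real.sqrt t ^ 1 +
      Kp 1 * 2 ^ 1 * Real.sqrt t ^ 1 + (64 * Real.pi ^ 2)⁻¹ * Real.sqrt t ^ 2) := by fun_prop
    have h2 := h1.tendsto 0
    simp at h2
    exact (h2.mono_left nhdsWithin_le_nhds).congr fun t => by simp
  refine squeeze_zero' (Eventually.of_forall fun t => dist_nonneg) ?_ herr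
  have hIoo : Ioo (0 : ℝ) 1 ∈ 𝓝[>] (0 : ℝ) := Ioo_mem_nhdsGT one_pos
  filter_upwards [hIoo] with t ht
  have ht0 := ht.1
  set P : Y → E4 → ℝ := fun y v => 2 * t * (∑ i, ∑ k, Q y i k * (v i * v k)) + t ^ 2 * T y with hP
  have hχm : AEStronglyMeasurable (fun p : Y × E4 => χ p.2 ^ 2) (ν.prod volume) :=
    (h.meas.pow_const 2).aestronglyMeasurable.comp_snd
  have hPm : AEStronglyMeasurable (fun p : Y × E4 => P p.1 p.2) (ν.prod volume) := by
    simp only [hP]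
    refine AEStronglyMeasurable.add ?_ ?_
    · refine AEStronglyMeasurable.const_mul ?_ _
      refine Finset.aestronglyMeasurable_fun_sum _ fun i _ => ?_
      refine Finset.aestronglyMeasurable_fun_sum _ fun k _ => ?_
      refine AEStronglyMeasurable.mul (hQm i k).comp_fst ?_
      have : Continuous fun v : E4 => v i * v k := by fun_prop
      exact this.aestronglyMeasurable.comp_snd
    · exact hTm.comp_fst.const_mul _
  have hχP : AEStronglyMeasurable (fun p : Y × E4 => χ p.2 ^ 2 * P p.1 p.2) (ν.prod volume) :=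
    hχm.mul hPm
  have hmF : AEStronglyMeasurable (fun p : Y × E4 => χ p.2 ^ 2 * (F t p.1 p.2 - P p.1 p.2))
      (ν.prod volume) := by
    refine ((hm t ht).sub hχP).congr (Eventually.of_forall fun p => ?_)
    simp only [Pi.sub_apply]
    ring
  have hbd : ∀ v : E4, ‖v‖ < r₀ → t * ‖v‖ ^ 3 + t ^ 2 * ‖v‖ + t ^ 3 ≤ r₀ ^ 3 + r₀ + 1 := by
    intro v hv
    have h0 := norm_nonneg v
    have hr0 : 0 ≤ r₀ := h0.trans hv.le
    have h1 : ‖v‖ ^ 3 ≤ r₀ ^ 3 := pow_le_pow_left₀ h0 hv.le 3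
    have h2 : t ^ 2 ≤ 1 := pow_le_one₀ ht0.le ht.2.le
    have h3 : t ^ 3 ≤ 1 := pow_le_one₀ ht0.le ht.2.le
    have h4 : t * ‖v‖ ^ 3 ≤ 1 * r₀ ^ 3 := mul_le_mul ht.2.le h1 (by positivity) (by norm_num)
    have h5 : t ^ 2 * ‖v‖ ≤ 1 * r₀ := mul_le_mul h2 hv.le h0 (by norm_num)
    linarith
  have I1 := integrable_prod_cut (ν := ν) h (f := fun y v => F t y v - P y v) hmF
    (C := |C| * (r₀ ^ 3 + r₀ + 1)) (fun y v hv => (hF t ht y v hv).trans (by
      have h1 : C * (t * ‖v‖ ^ 3 + t ^ 2 * ‖v‖ + t ^ 3) ≤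
          |C| * (t * ‖v‖ ^ 3 + t ^ 2 * ‖v‖ + t ^ 3) :=
        mul_le_mul_of_nonneg_right (le_abs_self C) (by positivity)
      exact h1.trans (mul_le_mul_of_nonneg_left (hbd v hv) (abs_nonneg C)))) ht0
  have hPb : ∀ (y : Y) (v : E4), ‖v‖ < r₀ → |P y v| ≤ 2 * (16 * (|C'| * r₀ ^ 2)) + |C'| := by
    intro y v hv
    have h0 := norm_nonneg v
    have hr0 : 0 ≤ r₀ := h0.trans hv.le
    have hs : |∑ i, ∑ k, Q y i k * (v i * v k)| ≤ 16 * (|C'| * r₀ ^ 2) := by
      refine (Finset.abs_sum_le_sum_abs _ _).trans ?_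
      have : ∀ i : Fin 4, |∑ k, Q y i k * (v i * v k)| ≤ 4 * (|C'| * r₀ ^ 2) := fun i => by
        refine (Finset.abs_sum_le_sum_abs _ _).trans ?_
        have hk : ∀ k : Fin 4, |Q y i k * (v i * v k)| ≤ |C'| * r₀ ^ 2 := fun k => by
          rw [abs_mul, abs_mul]
          have h1 : |Q y i k| ≤ |C'| := (hQb y i k).trans (le_abs_self C')
          have h2 : |v i| * |v k| ≤ r₀ * r₀ := mul_le_mul ((abs_coord_le v i).trans hv.le)
            ((abs_coord_le v k).trans hv.le) (abs_nonneg _) hr0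
          rw [sq]
          exact mul_le_mul h1 h2 (by positivity) (abs_nonneg _)
        calc ∑ k, |Q y i k * (v i * v k)| ≤ ∑ _k : Fin 4, |C'| * r₀ ^ 2 :=
              Finset.sum_le_sum fun k _ => hk k
          _ = _ := by simp
      calc ∑ i, |∑ k, Q y i k * (v i * v k)| ≤ ∑ _i : Fin 4, 4 * (|C'| * r₀ ^ 2) :=
            Finset.sum_le_sum fun i _ => this i
        _ = _ := by simp; ring
    have ht2 : t ^ 2 ≤ 1 := pow_le_one₀ ht0.le ht.2.le
    have hT1 : |T y| ≤ |C'| := (hTb y).trans (le_abs_self C')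
    simp only [hP]
    refine (abs_add_le _ _).trans ?_
    rw [abs_mul (2 * t) _, abs_mul (t ^ 2) _, abs_of_pos (by positivity : (0 : ℝ) < 2 * t),
      abs_of_pos (by positivity : (0 : ℝ) < t ^ 2)]
    refine add_le_add ?_ ?_
    · calc 2 * t * |∑ i, ∑ k, Q y i k * (v i * v k)| ≤ 2 * 1 * (16 * (|C'| * r₀ ^ 2)) := by
            gcongr
            exact ht.2.le
        _ = _ := by ring
    · calc t ^ 2 * |T y| ≤ 1 * |C'| := mul_le_mul ht2 hT1 (abs_nonneg _) (by norm_num)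
        _ = _ := one_mul _
  have I2 := integrable_prod_cut (ν := ν) h (f := P) hχP hPb ht0
  have hsplit : ∫ y, (∫ v, χ v ^ 2 * G t v ^ 2 * F t y v) ∂ν =
      (∫ y, (∫ v, χ v ^ 2 * G t v ^ 2 * (F t y v - P y v)) ∂ν) +
        ∫ y, (∫ v, χ v ^ 2 * G t v ^ 2 * P y v) ∂ν := by
    rw [← integral_add I1.integral_prod_left I2.integral_prod_left]
    refine integral_congr_ae ?_
    filter_upwards [I1.prod_right_ae, I2.prod_right_ae] with y hy1 hy2
    rw [← integral_add hy1 hy2]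
    refine integral_congr_ae (Eventually.of_forall fun v => ?_)
    simp only
    ring
  -- explicit form of the main term
  have hIχ : Integrable (fun v => χ v ^ 2 * G t v ^ 2) := by
    refine Integrable.mono' (integrable_G_sq ht0)
      (((h.meas.pow_const 2).mul ((continuous_G t).measurable.pow_const 2)).aestronglyMeasurable)
      (Eventually.of_forall fun v => ?_)
    rw [Real.norm_eq_abs, abs_of_nonneg (by positivity)]
    calc χ v ^ 2 * G t v ^ 2 ≤ 1 * G t v ^ 2 :=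
          mul_le_mul_of_nonneg_right (h.sq_le v) (sq_nonneg _)
      _ = _ := one_mul _
  have hIχ2 : ∀ i k, Integrable (fun v : E4 => χ v ^ 2 * G t v ^ 2 * (v i * v k)) := fun i k => by
    refine Integrable.mono' (integrable_pow_G_sq 2 ht0)
      ((((h.meas.pow_const 2).mul ((continuous_G t).measurable.pow_const 2)).mul
        (by fun_prop : Continuous fun v : E4 => v i * v k).measurable).aestronglyMeasurable)
      (Eventually.of_forall fun v => ?_)
    rw [Real.norm_eq_abs, abs_mul, abs_of_nonneg (by positivity : 0 ≤ χ v ^ 2 * G t v ^ 2)]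
    have h1 : χ v ^ 2 * G t v ^ 2 ≤ G t v ^ 2 := by
      calc χ v ^ 2 * G t v ^ 2 ≤ 1 * G t v ^ 2 :=
          mul_le_mul_of_nonneg_right (h.sq_le v) (sq_nonneg _)
      _ = _ := one_mul _
    have h2 : |v i * v k| ≤ ‖v‖ ^ 2 := by
      rw [abs_mul, sq]
      exact mul_le_mul (abs_coord_le v i) (abs_coord_le v k) (abs_nonneg _) (norm_nonneg _)
    calc χ v ^ 2 * G t v ^ 2 * |v i * v k| ≤ G t v ^ 2 * ‖v‖ ^ 2 :=
          mul_le_mul h1 h2 (abs_nonneg _) (sq_nonneg _)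
      _ = _ := mul_comm _ _
  have hin : ∀ y, ∫ v, χ v ^ 2 * G t v ^ 2 * P y v =
      2 * t * (∑ i, ∑ k, Q y i k * ∫ v : E4, χ v ^ 2 * G t v ^ 2 * (v i * v k)) +
        t ^ 2 * T y * ∫ v, χ v ^ 2 * G t v ^ 2 := fun y => by
    have e1 : (fun v => χ v ^ 2 * G t v ^ 2 * P y v) = fun v : E4 =>
        (∑ i, ∑ k, (2 * t * Q y i k) * (χ v ^ 2 * G t v ^ 2 * (v i * v k))) +
          (t ^ 2 * T y) * (χ v ^ 2 * G t v ^ 2) := by
      funext v
      simp only [hP]
      rw [mul_add, Finset.mul_sum, Finset.mul_sum]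
      congr 1
      · refine Finset.sum_congr rfl fun i _ => ?_
        rw [Finset.mul_sum, Finset.mul_sum]
        refine Finset.sum_congr rfl fun k _ => ?_
        ring
      · ring
    rw [e1, integral_add, integral_finsetSum]
    · rw [integral_const_mul]
      congr 1
      rw [Finset.mul_sum]
      refine Finset.sum_congr rfl fun i _ => ?_
      rw [integral_finsetSum, Finset.mul_sum]
      · refine Finset.sum_congr rfl fun k _ => ?_
        rw [integral_const_mul]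
        ring
      · exact fun k _ => (hIχ2 i k).const_mul _
    · exact fun i _ => integrable_finsetSum _ fun k _ => (hIχ2 i k).const_mul _
    · exact integrable_finsetSum _ fun i _ => integrable_finsetSum _ fun k _ =>
        (hIχ2 i k).const_mul _
    · exact hIχ.const_mul _
  have hmain2 : ∫ y, (∫ v, χ v ^ 2 * G t v ^ 2 * P y v) ∂ν =
      2 * (∑ i, ∑ k, (∫ y, Q y i k ∂ν) *
        (t * ∫ v : E4, χ v ^ 2 * G t v ^ 2 * (v i * v k))) +
        (∫ y, T y ∂ν) * (t ^ 2 * ∫ v, χ v ^ 2 * G t v ^ 2) := by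
    simp only [hin]
    rw [integral_add, integral_const_mul, integral_finsetSum]
    · congr 1
      · rw [mul_assoc]
        congr 1
        rw [Finset.mul_sum]
        refine Finset.sum_congr rfl fun i _ => ?_
        rw [integral_finsetSum, Finset.mul_sum]
        · refine Finset.sum_congr rfl fun k _ => ?_
          rw [integral_mul_const]
          ring
        · exact fun k _ => (hQi i k).mul_const _
      · rw [integral_mul_const, integral_const_mul]
        ring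
    · exact fun i _ => integrable_finsetSum _ fun k _ => (hQi i k).mul_const _
    · exact (integrable_finsetSum _ fun i _ => integrable_finsetSum _ fun k _ =>
        (hQi i k).mul_const _).const_mul _
    · exact (hTi.const_mul _).mul_const _
  have herr2 := error_le (ν := ν) h (f := fun y v => F t y v - P y v)
    (e := fun v => |C| * (t * ‖v‖ ^ 3 + t ^ 2 * ‖v‖ + t ^ 3)) (fun v => by positivity) (by
      have := (((integrable_pow_G_sq 3 ht0).const_mul (|C| * t)).add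
        ((integrable_pow_G_sq 1 ht0).const_mul (|C| * t ^ 2))).add
        ((integrable_pow_G_sq 0 ht0).const_mul (|C| * t ^ 3))
      refine this.congr (Eventually.of_forall fun v => ?_)
      simp only [Pi.add_apply, pow_zero, pow_one]
      ring) (fun y v hv => (hF t ht y v hv).trans
        (mul_le_mul_of_nonneg_right (le_abs_self C) (by positivity)))
  have hei : ∫ v, |C| * (t * ‖v‖ ^ 3 + t ^ 2 * ‖v‖ + t ^ 3) * G t v ^ 2 ≤
      |C| * (t * (Kp 3 * 2 ^ 3 * Real.sqrt t ^ 3 / t ^ 2) +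
        t ^ 2 * (Kp 1 * 2 ^ 1 * Real.sqrt t ^ 1 / t ^ 2) +
        t ^ 3 * (64 * Real.pi ^ 2 * t ^ 2)⁻¹) := by
    have e1 : ∫ v, |C| * (t * ‖v‖ ^ 3 + t ^ 2 * ‖v‖ + t ^ 3) * G t v ^ 2 =
        |C| * (t * (∫ v, ‖v‖ ^ 3 * G t v ^ 2) + t ^ 2 * (∫ v, ‖v‖ ^ 1 * G t v ^ 2) +
          t ^ 3 * ∫ v, G t v ^ 2) := by
      rw [← integral_const_mul t, ← integral_const_mul (t ^ 2), ← integral_const_mul (t ^ 3),
        ← integral_add, ← integral_add, ← integral_const_mul]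
      · refine integral_congr_ae (Eventually.of_forall fun v => ?_)
        simp only [pow_one]
        ring
      · exact ((integrable_pow_G_sq 3 ht0).const_mul _).add
          ((integrable_pow_G_sq 1 ht0).const_mul _)
      · exact (integrable_G_sq ht0).const_mul _
      · exact (integrable_pow_G_sq 3 ht0).const_mul _
      · exact (integrable_pow_G_sq 1 ht0).const_mul _
    rw [e1, integral_G_sq ht0]
    refine mul_le_mul_of_nonneg_left ?_ (abs_nonneg C)
    have a1 := mul_le_mul_of_nonneg_left (integral_pow_G_sq_le 3 ht0) ht0.le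
    have a2 := mul_le_mul_of_nonneg_left (integral_pow_G_sq_le 1 ht0)
      (by positivity : (0 : ℝ) ≤ t ^ 2)
    linarith
  rw [Real.dist_eq, hsplit, hmain2]
  have e3 : ∀ a b : ℝ, a - (b + a) = -b := fun a b => by ring
  rw [e3, abs_neg]
  have hν : 0 ≤ ν.real univ := measureReal_nonneg
  have hs3 : Real.sqrt t ^ 3 = t * Real.sqrt t := by
    rw [pow_succ, Real.sq_sqrt ht0.le]
  calc |∫ y, (∫ v, χ v ^ 2 * G t v ^ 2 * (F t y v - P y v)) ∂ν|
      ≤ ν.real univ * (|C| * (t * (Kp 3 * 2 ^ 3 * Real.sqrt t ^ 3 / t ^ 2) +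
        t ^ 2 * (Kp 1 * 2 ^ 1 * Real.sqrt t ^ 1 / t ^ 2) +
        t ^ 3 * (64 * Real.pi ^ 2 * t ^ 2)⁻¹)) :=
        herr2.trans (mul_le_mul_of_nonneg_left hei hν)
    _ = _ := by
      rw [Real.sq_sqrt ht0.le, hs3]
      field_simp

end

end Vale.Agent.P211.HK.Gauss
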