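import Vale.Agent.P211.HK.EUDefs
import Vale.Agent.P211.HK.GaussLim

/-! P211 / HK: EU3, the Gaussian limits. helper501. -/

namespace Vale.Agent.P211.HK

open Filter Topology MeasureTheory Set
open scoped ContDiff RealInnerProductSpace

noncomputable section

/-- the two Gauss kernels agree -/
theorem gau_eqG (t : ℝ) (v : Eu4) : gau t v = Gauss.G t v := by
  unfold gau Gauss.G
  congr 2
  ring

theorem gau_eqG_fun (t : ℝ) : gau t = Gauss.G t := funext (gau_eqG t)

/-- EU3. -/
theorem eu3 : EU3Stmt := by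
  intro Y _ ν _ D χ hD hχ hb h1 h0
  have hcut : Gauss.Cut χ (D / 4) (D / 2) := ⟨by positivity, hχ, hb, h1, h0⟩
  refine ⟨?_, ?_⟩
  · intro q A b C hq hA hbm hAb hbb hF
    have hχm : Measurable fun p : Y × Eu4 => χ p.2 ^ 2 := (hχ.comp measurable_snd).pow_const 2
    have h := Gauss.lim_two (ν := ν) hcut (F := fun t y v => q t (y, v))
      (Q := fun y i k => A y i k / 2) (T := b) (C := C) (C' := |C|)
      (fun t _ => (hχm.mul (hq t)).aestronglyMeasurable)
      (fun i k => ((hA i k).div_const 2).aestronglyMeasurable) hbm.aestronglyMeasurable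
      (fun y i k => by
        have h2 := (hAb y i k).trans (le_abs_self C)
        rw [abs_div, abs_of_pos (by norm_num : (0 : ℝ) < 2)]
        have := abs_nonneg (A y i k)
        linarith)
      (fun y => (hbb y).trans (le_abs_self C))
      (fun t ht y v hv => by
        have h2 := hF t ⟨ht.1, ht.2.le⟩ y v hv.le
        refine le_trans (le_of_eq ?_) h2
        congr 1
        have h3 : 2 * t * (∑ i, ∑ k, A y i k / 2 * (v i * v k)) =
            t * (∑ i, ∑ j, A y i j * v i * v j) := by
          rw [Finset.mul_sum, Finset.mul_sum]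
          refine Finset.sum_congr rfl fun i _ => ?_
          rw [Finset.mul_sum, Finset.mul_sum]
          refine Finset.sum_congr rfl fun k _ => ?_
          ring
        rw [h3]
        ring)
    have e1 : (fun t : ℝ => ∫ y, (∫ v : Eu4, χ v ^ 2 * gau t v ^ 2 * q t (y, v)) ∂ν) =
        fun t : ℝ => ∫ y, (∫ v : Eu4, χ v ^ 2 * Gauss.G t v ^ 2 * q t (y, v)) ∂ν := by
      funext t
      simp only [gau_eqG]
    have e2 : ∀ y, (2 * (∑ i, A y i i / 2) + b y) = (∑ i, A y i i) + b y := fun y => by
      rw [← Finset.sum_div]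
      ring
    rw [e1]
    simpa only [e2] using h
  · intro x C hx hF
    have hχm : Measurable fun p : Y × Eu4 => χ p.2 ^ 2 := (hχ.comp measurable_snd).pow_const 2
    have h := Gauss.lim_zero (ν := ν) hcut (F := fun t y v => x t (y, v) ^ 2) (w := 1)
      (C := |C| * (|C| * (1 + D / 2) + 2))
      (fun t _ => (hχm.mul ((hx t).pow_const 2)).aestronglyMeasurable)
      (fun t ht y v hv => by
        have h2 := hF t ⟨ht.1, ht.2.le⟩ y v hv.le
        have hn := norm_nonneg v
        have h3 : |x t (y, v) - 1| ≤ |C| * (t + ‖v‖) :=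
          h2.trans (mul_le_mul_of_nonneg_right (le_abs_self C) (by linarith [ht.1]))
        have h4 : |x t (y, v) - 1| ≤ |C| * (1 + D / 2) :=
          h3.trans (mul_le_mul_of_nonneg_left (by linarith [ht.2]) (abs_nonneg C))
        have h5 : x t (y, v) ^ 2 - 1 = (x t (y, v) - 1) * ((x t (y, v) - 1) + 2) := by ring
        rw [h5, abs_mul]
        have h6 : |x t (y, v) - 1 + 2| ≤ |C| * (1 + D / 2) + 2 :=
          (abs_add_le _ _).trans (by
            rw [abs_of_pos (by norm_num : (0 : ℝ) < 2)]
            linarith)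
        calc |x t (y, v) - 1| * |x t (y, v) - 1 + 2|
            ≤ (|C| * (t + ‖v‖)) * (|C| * (1 + D / 2) + 2) :=
              mul_le_mul h3 h6 (abs_nonneg _) (by have := ht.1; positivity)
          _ = _ := by ring)
    have e1 : (fun t : ℝ => t ^ 2 * ∫ y, (∫ v : Eu4, χ v ^ 2 * gau t v ^ 2 * x t (y, v) ^ 2) ∂ν) =
        fun t : ℝ => t ^ 2 * ∫ y, (∫ v : Eu4, χ v ^ 2 * Gauss.G t v ^ 2 * x t (y, v) ^ 2) ∂ν := by
      funext t
      simp only [gau_eqG]
    rw [e1]
    rw [one_mul, mul_comm (ν.real univ)] at h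
    exact h

end

end Vale.Agent.P211.HK
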