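import Vale.Agent.P211.HK.EUT5

/-! P211 / HK, part EU4 (helper209): Taylor expansion of the Hilbert-Schmidt norm of the
parametrix.  The smoothness of the transport coefficients (first half of EU2) is an input. -/

namespace Vale.Agent.P211.HK.EU4

open Filter Topology MeasureTheory Set Vale.Agent.P211.HK
open scoped ContDiff RealInnerProductSpace

noncomputable section

set_option linter.unusedSectionVars false

variable {P W : Type} [NormedAddCommGroup P] [NormedSpace ℝ P] [NormedAddCommGroup W]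
    [InnerProductSpace ℝ W] [FiniteDimensional ℝ W] {U : Set P} {D : ℝ}

/-- the adjoint as a continuous linear map -/
def adjL : (W →L[ℝ] W) →L[ℝ] (W →L[ℝ] W) :=
  LinearMap.toContinuousLinearMap
    { toFun := fun A => ContinuousLinearMap.adjoint A
      map_add' := fun A B => map_add _ A B
      map_smul' := fun r A => by simp }

theorem adjL_apply (A : W →L[ℝ] W) : adjL A = ContinuousLinearMap.adjoint A := rfl

theorem lam_adj {Pr : W →L[ℝ] W} (hPr : ∀ a b, ⟪Pr a, b⟫ = ⟪a, Pr b⟫) (A : W →L[ℝ] W) :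
    lam Pr (adjL A) = lam Pr A :=
  lam_adjoint hPr fun a b => ContinuousLinearMap.adjoint_inner_left A b a

theorem adjL_id : adjL (ContinuousLinearMap.id ℝ W) = ContinuousLinearMap.id ℝ W := by
  rw [adjL_apply]
  exact ContinuousLinearMap.adjoint_id

/-- the coefficients of the expansion -/
def EE (Q : RadData P W U D) (Pr : W →L[ℝ] W) (k l : ℕ) (x : P × Eu4) : ℝ :=
  lam Pr ((Q.cc k x).comp (adjL (Q.cc l x))) -
    lam Pr (ContinuousLinearMap.id ℝ W) * (Q.scal.cc k x 1 * Q.scal.cc l x 1)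

theorem EE_smooth (Q : RadData P W U D) {Pr : W →L[ℝ] W}
    (h1 : ∀ k, ContDiffOn ℝ ∞ (Q.cc k) (U ×ˢ Metric.ball 0 D))
    (h1s : ∀ k, ContDiffOn ℝ ∞ (Q.scal.cc k) (U ×ˢ Metric.ball 0 D)) (k l : ℕ) :
    ContDiffOn ℝ ∞ (EE Q Pr k l) (U ×ˢ Metric.ball 0 D) := by
  have g1 : ContDiffOn ℝ ∞ (fun x => adjL (Q.cc l x)) (U ×ˢ Metric.ball 0 D) :=
    (ContinuousLinearMap.contDiff (adjL (W := W))).comp_contDiffOn (h1 l)
  have g2 : ContDiffOn ℝ ∞ (fun x => (Q.cc k x).comp (adjL (Q.cc l x)))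
      (U ×ˢ Metric.ball 0 D) := (h1 k).clm_comp g1
  have g3 : ContDiffOn ℝ ∞ (fun x => lam Pr ((Q.cc k x).comp (adjL (Q.cc l x))))
      (U ×ˢ Metric.ball 0 D) := (lam Pr).contDiff.comp_contDiffOn g2
  have g4 : ∀ m, ContDiffOn ℝ ∞ (fun x => Q.scal.cc m x 1) (U ×ˢ Metric.ball 0 D) := fun m =>
    (h1s m).clm_apply contDiffOn_const
  have g5 : ContDiffOn ℝ ∞ (fun x => lam Pr (ContinuousLinearMap.id ℝ W) *
      (Q.scal.cc k x 1 * Q.scal.cc l x 1)) (U ×ˢ Metric.ball 0 D) :=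
    contDiffOn_const.mul ((g4 k).mul (g4 l))
  exact g3.sub g5

theorem EE_zero_left (Q : RadData P W U D) {Pr : W →L[ℝ] W}
    (hPr : ∀ a b, ⟪Pr a, b⟫ = ⟪a, Pr b⟫) (k : ℕ) (x : P × Eu4) : EE Q Pr 0 k x = om Q Pr k x := by
  unfold EE om
  have h0 : Q.cc 0 x = ContinuousLinearMap.id ℝ W := rfl
  have h0s : Q.scal.cc 0 x = ContinuousLinearMap.id ℝ ℝ := rfl
  rw [h0, h0s, ContinuousLinearMap.id_comp, lam_adj hPr, ContinuousLinearMap.id_apply, one_mul]

theorem EE_zero_right (Q : RadData P W U D) {Pr : W →L[ℝ] W} (k : ℕ) (x : P × Eu4) :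
    EE Q Pr k 0 x = om Q Pr k x := by
  unfold EE om
  have h0 : Q.cc 0 x = ContinuousLinearMap.id ℝ W := rfl
  have h0s : Q.scal.cc 0 x = ContinuousLinearMap.id ℝ ℝ := rfl
  rw [h0, h0s, adjL_id, ContinuousLinearMap.comp_id, ContinuousLinearMap.id_apply, mul_one]

theorem om_zero (Q : RadData P W U D) {Pr : W →L[ℝ] W} (x : P × Eu4) : om Q Pr 0 x = 0 := by
  unfold om
  have h0 : Q.cc 0 x = ContinuousLinearMap.id ℝ W := rfl
  have h0s : Q.scal.cc 0 x = ContinuousLinearMap.id ℝ ℝ := rfl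
  rw [h0, h0s, ContinuousLinearMap.id_apply, mul_one, sub_self]

theorem EE_one_one (Q : RadData P W U D) {Pr : W →L[ℝ] W} {y : P} (hy : y ∈ U) :
    EE Q Pr 1 1 (y, 0) = 0 := by
  unfold EE
  have h2 := cc_one_zero Q.scal hy
  have h3 : Lap0 (ph Q.scal y) = Lap0 (ph Q y) := rfl
  rw [cc_one_zero Q hy, h2, h3, map_smul, adjL_id, ContinuousLinearMap.comp_smul,
    ContinuousLinearMap.smul_comp, ContinuousLinearMap.comp_id, map_smul, map_smul]
  simp only [smul_eq_mul, _root_.smul_apply, ContinuousLinearMap.id_apply, mul_one]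
  ring

theorem expand_XX (Q : RadData P W U D) (Pr : W →L[ℝ] W) (N : ℕ) (t : ℝ) (x : P × Eu4) :
    lam Pr ((Q.XX N t x).comp (ContinuousLinearMap.adjoint (Q.XX N t x))) -
      lam Pr (ContinuousLinearMap.id ℝ W) * (Q.scal.XX N t x 1) ^ 2 =
    ∑ k ∈ Finset.range (N + 1), ∑ l ∈ Finset.range (N + 1), t ^ (k + l) * EE Q Pr k l x := by
  have e1 : lam Pr ((Q.XX N t x).comp (ContinuousLinearMap.adjoint (Q.XX N t x))) =
      ∑ k ∈ Finset.range (N + 1), ∑ l ∈ Finset.range (N + 1), t ^ (k + l) *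
        lam Pr ((Q.cc k x).comp (adjL (Q.cc l x))) := by
    rw [← adjL_apply]
    unfold RadData.XX
    rw [map_sum, ContinuousLinearMap.finsetSum_comp, map_sum]
    refine Finset.sum_congr rfl fun k _ => ?_
    rw [ContinuousLinearMap.comp_finsetSum, map_sum]
    refine Finset.sum_congr rfl fun l _ => ?_
    rw [map_smul, ContinuousLinearMap.comp_smul, ContinuousLinearMap.smul_comp, map_smul, map_smul,
      smul_eq_mul, smul_eq_mul, pow_add]
    ring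
  have e2 : (Q.scal.XX N t x 1) ^ 2 = ∑ k ∈ Finset.range (N + 1), ∑ l ∈ Finset.range (N + 1),
      t ^ (k + l) * (Q.scal.cc k x 1 * Q.scal.cc l x 1) := by
    unfold RadData.XX
    rw [_root_.sum_apply, sq, Finset.sum_mul_sum]
    refine Finset.sum_congr rfl fun k _ => Finset.sum_congr rfl fun l _ => ?_
    rw [_root_.smul_apply, _root_.smul_apply, smul_eq_mul, smul_eq_mul, pow_add]
    ring
  rw [e1, e2, Finset.mul_sum, ← Finset.sum_sub_distrib]
  refine Finset.sum_congr rfl fun k _ => ?_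
  rw [Finset.mul_sum, ← Finset.sum_sub_distrib]
  refine Finset.sum_congr rfl fun l _ => ?_
  unfold EE
  ring

theorem scal_XX_bound (Q : RadData P W U D)
    (h1s : ∀ k, ContDiffOn ℝ ∞ (Q.scal.cc k) (U ×ˢ Metric.ball 0 D)) (N : ℕ) {K : Set P}
    (hK : IsCompact K) (hKU : K ⊆ U) : ∃ C : ℝ, 0 ≤ C ∧ ∀ t ∈ Icc (0 : ℝ) 1, ∀ y ∈ K, ∀ v : Eu4,
      ‖v‖ ≤ D / 2 → |Q.scal.XX N t (y, v) 1 - 1| ≤ C * t := by
  have h2 : ∀ k, ∃ C : ℝ, 0 ≤ C ∧ ∀ y ∈ K, ∀ v : Eu4, ‖v‖ ≤ D / 2 →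
      ‖Q.scal.cc k (y, v) 1‖ ≤ C := fun k =>
    exists_bound (F := fun x => Q.scal.cc k x 1) Q.D_pos
      ((h1s k).clm_apply contDiffOn_const).continuousOn hK hKU
  choose c hc hb using h2
  refine ⟨∑ k ∈ Finset.range N, c (k + 1), Finset.sum_nonneg fun k _ => hc _,
    fun t ht y hy v hv => ?_⟩
  have e1 : Q.scal.XX N t (y, v) 1 - 1 =
      ∑ k ∈ Finset.range N, t ^ (k + 1) * Q.scal.cc (k + 1) (y, v) 1 := by
    unfold RadData.XX
    rw [Finset.sum_range_succ', _root_.add_apply, _root_.sum_apply]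
    have h0s : Q.scal.cc 0 (y, v) = ContinuousLinearMap.id ℝ ℝ := rfl
    rw [h0s]
    simp
  rw [e1, Finset.sum_mul]
  refine (Finset.abs_sum_le_sum_abs _ _).trans (Finset.sum_le_sum fun k _ => ?_)
  rw [abs_mul, abs_of_nonneg (pow_nonneg ht.1 _), mul_comm]
  have h3 := hb (k + 1) y hy v hv
  rw [Real.norm_eq_abs] at h3
  have h4 : t ^ (k + 1) ≤ t := by
    calc t ^ (k + 1) ≤ t ^ 1 := pow_le_pow_of_le_one ht.1 ht.2 (by omega)
      _ = t := pow_one t
  exact mul_le_mul h3 h4 (pow_nonneg ht.1 _) (hc _)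

end

end Vale.Agent.P211.HK.EU4

namespace Vale.Agent.P211.HK

open Filter Topology MeasureTheory Set EU4
open scoped ContDiff RealInnerProductSpace

/-- EU4 from the smoothness of the transport coefficients. -/
theorem eu4 (h2 : EU2Stmt) : EU4Stmt := by
  intro P W _ _ _ _ _ _ U D Q Pr hPr _ _ N hN K hK hKU
  have h1 : ∀ k, ContDiffOn ℝ ∞ (Q.cc k) (U ×ˢ Metric.ball 0 D) := (h2 P W U D Q).1
  have h1s : ∀ k, ContDiffOn ℝ ∞ (Q.scal.cc k) (U ×ˢ Metric.ball 0 D) := (h2 P ℝ U D Q.scal).1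
  obtain ⟨Cs, hCs, hs⟩ := scal_XX_bound Q h1s N hK hKU
  obtain ⟨Co, hCo, ho⟩ := om_one_est Q hPr hK hKU
  obtain ⟨CG, hCG, hG⟩ := lip_unif (F := fun x => EE Q Pr 0 2 x + EE Q Pr 1 1 x + EE Q Pr 2 0 x)
    Q.U_open Q.D_pos (((EE_smooth Q h1 h1s 0 2).add (EE_smooth Q h1 h1s 1 1)).add
      (EE_smooth Q h1 h1s 2 0)) hK hKU
  have hb : ∀ k l, ∃ C : ℝ, 0 ≤ C ∧ ∀ y ∈ K, ∀ v : Eu4, ‖v‖ ≤ D / 2 →
      ‖EE Q Pr k l (y, v)‖ ≤ C := fun k l =>
    exists_bound Q.D_pos (EE_smooth Q h1 h1s k l).continuousOn hK hKU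
  choose c hc hb using hb
  set CE := ∑ k ∈ Finset.range (N + 1), ∑ l ∈ Finset.range (N + 1), c k l with hCE
  have hCE0 : 0 ≤ CE := Finset.sum_nonneg fun k _ => Finset.sum_nonneg fun l _ => hc k l
  have hcE : ∀ k ≤ N, ∀ l ≤ N, c k l ≤ CE := fun k hk l hl => by
    have e1 : c k l ≤ ∑ l ∈ Finset.range (N + 1), c k l :=
      Finset.single_le_sum (f := fun l => c k l) (fun l _ => hc k l)
        (Finset.mem_range.2 (by omega))
    have e2 : (∑ l ∈ Finset.range (N + 1), c k l) ≤ CE :=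
      Finset.single_le_sum (f := fun k => ∑ l ∈ Finset.range (N + 1), c k l)
        (fun k _ => Finset.sum_nonneg fun l _ => hc k l) (Finset.mem_range.2 (by omega))
    exact e1.trans e2
  refine ⟨(N + 1) ^ 2 * CE + 2 * Co + CG + Cs, fun t ht y hy v hv => ?_⟩
  have hyU := hKU hy
  have ht0 := ht.1
  have hv0 := norm_nonneg v
  constructor
  · have e1 := expand_XX Q Pr N t (y, v)
    have e2 : lam Pr (ContinuousLinearMap.id ℝ W) = LinearMap.trace ℝ W (Pr : W →ₗ[ℝ] W) := by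
      rw [lam_apply, ContinuousLinearMap.comp_id]
    rw [e2] at e1
    have e3 := expand N hN (fun k l => EE Q Pr k l (y, v)) (C := CE)
      (fun k hk l hl => by
        have := hb k l y hy v hv
        rw [Real.norm_eq_abs] at this
        exact this.trans (hcE k hk l hl)) ht0 ht.2
    rw [← e1] at e3
    simp only [EE_zero_left Q hPr, EE_zero_right Q, om_zero Q, zero_add] at e3
    have e4 := ho y hy v hv
    have e5 := hG y hy v hv
    simp only [EE_zero_left Q hPr, EE_zero_right Q, EE_one_one Q hyU, add_zero] at e5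
    have e6 : om Q Pr 2 (y, 0) + om Q Pr 2 (y, 0) =
        (1 / 6) * ∑ i, ∑ j, lam Pr ((Q.Omg y i j).comp (Q.Omg y i j)) := by
      rw [← two_mul]
      exact om_two_val Q hPr hyU (h1 1) (h1s 1)
    rw [e6, Real.norm_eq_abs] at e5
    show |lam Pr ((Q.XX N t (y, v)).comp (ContinuousLinearMap.adjoint (Q.XX N t (y, v)))) -
      LinearMap.trace ℝ W (Pr : W →ₗ[ℝ] W) * (Q.scal.XX N t (y, v) 1) ^ 2 -
      t * ((1 / 6) * SS Q Pr y v) -
      t ^ 2 * ((1 / 6) * ∑ i, ∑ j, lam Pr ((Q.Omg y i j).comp (Q.Omg y i j)))| ≤ _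
    set A := lam Pr ((Q.XX N t (y, v)).comp (ContinuousLinearMap.adjoint (Q.XX N t (y, v)))) -
      LinearMap.trace ℝ W (Pr : W →ₗ[ℝ] W) * (Q.scal.XX N t (y, v) 1) ^ 2
    set S1 := SS Q Pr y v
    set S2 := (1 / 6) * ∑ i, ∑ j, lam Pr ((Q.Omg y i j).comp (Q.Omg y i j))
    set o1 := om Q Pr 1 (y, v)
    set G := om Q Pr 2 (y, v) + EE Q Pr 1 1 (y, v) + om Q Pr 2 (y, v)
    have f1 : A - t * ((1 / 6) * S1) - t ^ 2 * S2 =
        (A - (t * (o1 + o1) + t ^ 2 * G)) + t * (2 * (o1 - (1 / 12) * S1)) +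
          t ^ 2 * (G - S2) := by ring
    rw [f1]
    refine (abs_add_le _ _).trans ((add_le_add (abs_add_le _ _) le_rfl).trans ?_)
    have f2 : |t * (2 * (o1 - (1 / 12) * S1))| ≤ t * (2 * (Co * ‖v‖ ^ 3)) := by
      rw [abs_mul, abs_of_nonneg ht0, abs_mul, abs_of_pos (by norm_num : (0 : ℝ) < 2)]
      gcongr
    have f3 : |t ^ 2 * (G - S2)| ≤ t ^ 2 * (CG * ‖v‖) := by
      rw [abs_mul, abs_of_nonneg (sq_nonneg t)]
      gcongr
    have g1 : 0 ≤ t * ‖v‖ ^ 3 := by positivity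
    have g2 : 0 ≤ t ^ 2 * ‖v‖ := by positivity
    have g3 : 0 ≤ t ^ 3 := by positivity
    have g4 : 0 ≤ ((N : ℝ) + 1) ^ 2 * CE := by positivity
    calc _ ≤ ((N : ℝ) + 1) ^ 2 * CE * t ^ 3 + t * (2 * (Co * ‖v‖ ^ 3)) + t ^ 2 * (CG * ‖v‖) :=
          add_le_add (add_le_add e3 f2) f3
      _ = ((N : ℝ) + 1) ^ 2 * CE * t ^ 3 + 2 * Co * (t * ‖v‖ ^ 3) + CG * (t ^ 2 * ‖v‖) := by ring
      _ ≤ _ := by
        nlinarith [mul_nonneg hCo g1, mul_nonneg hCo g2, mul_nonneg hCo g3, mul_nonneg hCG g1,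
          mul_nonneg hCG g2, mul_nonneg hCG g3, mul_nonneg hCs g1, mul_nonneg hCs g2,
          mul_nonneg hCs g3, mul_nonneg g4 g1, mul_nonneg g4 g2, mul_nonneg g4 g3]
  · have e1 := hs t ht y hy v hv
    have g4 : 0 ≤ ((N : ℝ) + 1) ^ 2 * CE := by positivity
    refine e1.trans ?_
    have g5 : 0 ≤ (((N : ℝ) + 1) ^ 2 * CE + 2 * Co + CG) * (t + ‖v‖) := by positivity
    have g6 : 0 ≤ Cs * ‖v‖ := by positivity
    nlinarith

end Vale.Agent.P211.HK
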