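import Vale.Agent.P211.HK.EUDefs

/-! P211 / HK: generic lemmas for EU4 (uniform Taylor expansion, expansion of a square). helper501. -/

set_option linter.unusedSectionVars false

namespace Vale.Agent.P211.HK.Tay

open Filter Topology MeasureTheory Set
open scoped ContDiff RealInnerProductSpace

noncomputable section

variable {P F V : Type*} [NormedAddCommGroup P] [NormedSpace ℝ P] [NormedAddCommGroup F]
  [NormedSpace ℝ F] [NormedAddCommGroup V] [NormedSpace ℝ V]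

/-- partial derivative in the second variable -/
def vD (f : P × V → F) (x : P × V) : V →L[ℝ] F := fderiv ℝ (fun v => f (x.1, v)) x.2

theorem vD_eq {f : P × V → F} {x : P × V} (hf : DifferentiableAt ℝ f x) :
    vD f x = (fderiv ℝ f x).comp (ContinuousLinearMap.inr ℝ P V) := by
  have h1 : HasFDerivAt (fun v : V => ((x.1, v) : P × V)) (ContinuousLinearMap.inr ℝ P V) x.2 :=
    hasFDerivAt_prodMk_right x.1 x.2
  have h2 : HasFDerivAt f (fderiv ℝ f x) ((x.1, x.2) : P × V) := hf.hasFDerivAt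
  exact (h2.comp x.2 h1).fderiv

theorem differentiableAt_slice {f : P × V → F} {x : P × V} (hf : DifferentiableAt ℝ f x) :
    DifferentiableAt ℝ (fun v => f (x.1, v)) x.2 := by
  have h1 : HasFDerivAt (fun v : V => ((x.1, v) : P × V)) (ContinuousLinearMap.inr ℝ P V) x.2 :=
    hasFDerivAt_prodMk_right x.1 x.2
  have h2 : HasFDerivAt f (fderiv ℝ f x) ((x.1, x.2) : P × V) := hf.hasFDerivAt
  exact (h2.comp x.2 h1).differentiableAt

theorem contDiffOn_vD {f : P × V → F} {S : Set (P × V)} (hS : IsOpen S)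
    (hf : ContDiffOn ℝ ∞ f S) : ContDiffOn ℝ ∞ (vD f) S := by
  have h1 : ContDiffOn ℝ ∞ (fderiv ℝ f) S := hf.fderiv_of_isOpen hS le_rfl
  have h2 : ContDiffOn ℝ ∞ (fun x => (fderiv ℝ f x).comp (ContinuousLinearMap.inr ℝ P V)) S :=
    h1.clm_comp contDiffOn_const
  refine h2.congr fun x hx => ?_
  exact vD_eq ((hf.contDiffAt (hS.mem_nhds hx)).differentiableAt (by simp))

variable {U K : Set P} {D : ℝ}

theorem isOpen_dom (hU : IsOpen U) : IsOpen (U ×ˢ Metric.ball (0 : V) D) :=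
  hU.prod Metric.isOpen_ball

theorem mem_dom (hK : K ⊆ U) (hD : 0 < D) {y : P} (hy : y ∈ K) {v : V} (hv : ‖v‖ ≤ D / 2) :
    (y, v) ∈ U ×ˢ Metric.ball (0 : V) D :=
  ⟨hK hy, by rw [Metric.mem_ball, dist_zero_right]; linarith⟩

/-- integration step -/
theorem step {f : P × V → F} (hU : IsOpen U) (hD : 0 < D)
    (hf : ContDiffOn ℝ ∞ f (U ×ˢ Metric.ball 0 D)) (hK : K ⊆ U) (h0 : ∀ y ∈ K, f (y, 0) = 0)
    {C : ℝ} {k : ℕ} (h : ∀ y ∈ K, ∀ v : V, ‖v‖ ≤ D / 2 → ‖vD f (y, v)‖ ≤ C * ‖v‖ ^ k) :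
    ∀ y ∈ K, ∀ v : V, ‖v‖ ≤ D / 2 → ‖f (y, v)‖ ≤ C * ‖v‖ ^ (k + 1) := by
  intro y hy v hv
  have hC : 0 ≤ C * ‖v‖ ^ k := (norm_nonneg _).trans (h y hy v hv)
  have hsub : Metric.closedBall (0 : V) ‖v‖ ⊆ {w : V | ‖w‖ ≤ D / 2} := fun w hw => by
    rw [mem_closedBall_zero_iff] at hw
    exact hw.trans hv
  have hdiff : ∀ w ∈ Metric.closedBall (0 : V) ‖v‖, DifferentiableAt ℝ (fun w => f (y, w)) w :=
    fun w hw => differentiableAt_slice (x := (y, w))
      ((hf.contDiffAt ((isOpen_dom hU).mem_nhds (mem_dom hK hD hy (hsub hw)))).differentiableAt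
        (by simp))
  have hb : ∀ w ∈ Metric.closedBall (0 : V) ‖v‖,
      ‖fderiv ℝ (fun w => f (y, w)) w‖ ≤ |C| * ‖v‖ ^ k := fun w hw => by
    have h1 := h y hy w (hsub hw)
    have h2 : C * ‖w‖ ^ k ≤ |C| * ‖v‖ ^ k := by
      rw [mem_closedBall_zero_iff] at hw
      exact mul_le_mul (le_abs_self C) (pow_le_pow_left₀ (norm_nonneg _) hw k) (by positivity)
        (abs_nonneg C)
    exact h1.trans h2
  have h3 := (convex_closedBall (0 : V) ‖v‖).norm_image_sub_le_of_norm_fderiv_le hdiff hb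
    (Metric.mem_closedBall_self (norm_nonneg v))
    (by rw [mem_closedBall_zero_iff] : v ∈ Metric.closedBall (0 : V) ‖v‖)
  simp only [h0 y hy, sub_zero] at h3
  rcases le_or_gt 0 C with hC0 | hC0
  · rw [abs_of_nonneg hC0] at h3
    rw [pow_succ, ← mul_assoc]
    exact h3
  · -- then `‖v‖ ^ k = 0`
    have h4 : ‖v‖ ^ k = 0 := by
      have : 0 ≤ ‖v‖ ^ k := by positivity
      nlinarith
    rw [h4] at h3
    rw [pow_succ, h4]
    simpa using h3

/-- boundedness on compact sets -/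
theorem bound [ProperSpace V] {f : P × V → F} (hU : IsOpen U) (hD : 0 < D)
    (hf : ContDiffOn ℝ ∞ f (U ×ˢ Metric.ball 0 D)) (hK : K ⊆ U) (hKc : IsCompact K) :
    ∃ C : ℝ, 0 ≤ C ∧ ∀ y ∈ K, ∀ v : V, ‖v‖ ≤ D / 2 → ‖f (y, v)‖ ≤ C := by
  have hc : IsCompact (K ×ˢ Metric.closedBall (0 : V) (D / 2)) :=
    hKc.prod (isCompact_closedBall _ _)
  have hcont : ContinuousOn f (K ×ˢ Metric.closedBall (0 : V) (D / 2)) :=
    hf.continuousOn.mono fun x hx => by
      obtain ⟨y, v⟩ := x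
      exact mem_dom hK hD hx.1 (by simpa using hx.2)
  obtain ⟨C, hC⟩ := hc.exists_bound_of_continuousOn hcont
  refine ⟨|C|, abs_nonneg C, fun y hy v hv => (hC (y, v) ⟨hy, ?_⟩).trans (le_abs_self C)⟩
  rw [mem_closedBall_zero_iff]
  exact hv

theorem taylor1 [ProperSpace V] {f : P × V → F} (hU : IsOpen U) (hD : 0 < D)
    (hf : ContDiffOn ℝ ∞ f (U ×ˢ Metric.ball 0 D)) (hK : K ⊆ U) (hKc : IsCompact K)
    (h0 : ∀ y ∈ K, f (y, 0) = 0) :
    ∃ C : ℝ, 0 ≤ C ∧ ∀ y ∈ K, ∀ v : V, ‖v‖ ≤ D / 2 → ‖f (y, v)‖ ≤ C * ‖v‖ := by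
  obtain ⟨C, hC0, hC⟩ := bound hU hD (contDiffOn_vD (isOpen_dom hU) hf) hK hKc
  refine ⟨C, hC0, fun y hy v hv => ?_⟩
  have := step hU hD hf hK h0 (C := C) (k := 0) (fun y hy v hv => by simpa using hC y hy v hv)
    y hy v hv
  simpa using this

theorem taylor2 [ProperSpace V] {f : P × V → F} (hU : IsOpen U) (hD : 0 < D)
    (hf : ContDiffOn ℝ ∞ f (U ×ˢ Metric.ball 0 D)) (hK : K ⊆ U) (hKc : IsCompact K)
    (h0 : ∀ y ∈ K, f (y, 0) = 0) (h1 : ∀ y ∈ K, vD f (y, 0) = 0) :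
    ∃ C : ℝ, 0 ≤ C ∧ ∀ y ∈ K, ∀ v : V, ‖v‖ ≤ D / 2 → ‖f (y, v)‖ ≤ C * ‖v‖ ^ 2 := by
  obtain ⟨C, hC0, hC⟩ := taylor1 hU hD (contDiffOn_vD (isOpen_dom hU) hf) hK hKc h1
  exact ⟨C, hC0, step hU hD hf hK h0 (C := C) (k := 1) (fun y hy v hv => by
    simpa using hC y hy v hv)⟩

theorem taylor3 [ProperSpace V] {f : P × V → F} (hU : IsOpen U) (hD : 0 < D)
    (hf : ContDiffOn ℝ ∞ f (U ×ˢ Metric.ball 0 D)) (hK : K ⊆ U) (hKc : IsCompact K)
    (h0 : ∀ y ∈ K, f (y, 0) = 0) (h1 : ∀ y ∈ K, vD f (y, 0) = 0)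
    (h2 : ∀ y ∈ K, vD (vD f) (y, 0) = 0) :
    ∃ C : ℝ, 0 ≤ C ∧ ∀ y ∈ K, ∀ v : V, ‖v‖ ≤ D / 2 → ‖f (y, v)‖ ≤ C * ‖v‖ ^ 3 := by
  obtain ⟨C, hC0, hC⟩ := taylor2 hU hD (contDiffOn_vD (isOpen_dom hU) hf) hK hKc h1 h2
  exact ⟨C, hC0, step hU hD hf hK h0 (C := C) (k := 2) hC⟩

/-- quadratic Taylor polynomial, uniformly in the parameter -/
theorem taylor_quad [ProperSpace V] {f : P × V → F} (hU : IsOpen U) (hD : 0 < D)
    (hf : ContDiffOn ℝ ∞ f (U ×ˢ Metric.ball 0 D)) (hK : K ⊆ U) (hKc : IsCompact K)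
    (h0 : ∀ y ∈ K, f (y, 0) = 0) (h1 : ∀ y ∈ K, vD f (y, 0) = 0) :
    ∃ C : ℝ, 0 ≤ C ∧ ∀ y ∈ K, ∀ v : V, ‖v‖ ≤ D / 2 →
      ‖f (y, v) - (1 / 2 : ℝ) • vD (vD f) (y, 0) v v‖ ≤ C * ‖v‖ ^ 3 := by
  have hdom := isOpen_dom (V := V) (D := D) hU
  have hf1 := contDiffOn_vD hdom hf
  have hf2 := contDiffOn_vD hdom hf1
  have hf3 := contDiffOn_vD hdom hf2
  -- third derivative bounded
  obtain ⟨C, hC0, hC⟩ := bound hU hD hf3 hK hKc
  refine ⟨C, hC0, ?_⟩
  -- second derivative minus its value at the centre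
  have hs2 : ∀ y ∈ K, ∀ v : V, ‖v‖ ≤ D / 2 →
      ‖vD (vD f) (y, v) - vD (vD f) (y, 0)‖ ≤ C * ‖v‖ := by
    intro y hy v hv
    have hdiff : ∀ w ∈ Metric.closedBall (0 : V) ‖v‖,
        DifferentiableAt ℝ (fun w => vD (vD f) (y, w)) w := fun w hw =>
      differentiableAt_slice (x := (y, w)) ((hf2.contDiffAt (hdom.mem_nhds (mem_dom hK hD hy
        (by rw [mem_closedBall_zero_iff] at hw; exact hw.trans hv)))).differentiableAt (by simp))
    exact (convex_closedBall (0 : V) ‖v‖).norm_image_sub_le_of_norm_fderiv_le hdiff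
      (fun w hw => hC y hy w (by rw [mem_closedBall_zero_iff] at hw; exact hw.trans hv))
      (Metric.mem_closedBall_self (norm_nonneg v))
      (by rw [mem_closedBall_zero_iff] : v ∈ Metric.closedBall (0 : V) ‖v‖) |>.trans
        (by rw [sub_zero])
  -- first derivative
  have hs1 : ∀ y ∈ K, ∀ v : V, ‖v‖ ≤ D / 2 →
      ‖vD f (y, v) - vD (vD f) (y, 0) v‖ ≤ C * ‖v‖ ^ 2 := by
    intro y hy v hv
    set L := vD (vD f) (y, 0) with hL
    have hd : ∀ w ∈ Metric.closedBall (0 : V) ‖v‖,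
        HasFDerivAt (fun w => vD f (y, w) - L w) (vD (vD f) (y, w) - L) w := fun w hw => by
      have hwv : ‖w‖ ≤ D / 2 := (mem_closedBall_zero_iff.mp hw).trans hv
      have := (differentiableAt_slice (x := (y, w)) ((hf1.contDiffAt (hdom.mem_nhds
        (mem_dom hK hD hy hwv))).differentiableAt (by simp))).hasFDerivAt
      exact this.sub L.hasFDerivAt
    have h3 := (convex_closedBall (0 : V) ‖v‖).norm_image_sub_le_of_norm_hasFDerivWithin_le
      (f := fun w => vD f (y, w) - L w) (f' := fun w => vD (vD f) (y, w) - L) (C := C * ‖v‖)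
      (fun w hw => (hd w hw).hasFDerivWithinAt)
      (fun w hw => by
        rw [mem_closedBall_zero_iff] at hw
        exact (hs2 y hy w (hw.trans hv)).trans (mul_le_mul_of_nonneg_left hw hC0))
      (Metric.mem_closedBall_self (norm_nonneg v))
      (by rw [mem_closedBall_zero_iff] : v ∈ Metric.closedBall (0 : V) ‖v‖)
    simp only [h1 y hy, map_zero, sub_zero] at h3
    calc ‖vD f (y, v) - L v‖ ≤ C * ‖v‖ * ‖v‖ := h3
      _ = _ := by ring
  intro y hy v hv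
  -- symmetry of the second derivative
  have hsymm : ∀ a b : V, vD (vD f) (y, 0) a b = vD (vD f) (y, 0) b a := by
    have hc : ContDiffAt ℝ 2 (fun v => f (y, v)) (0 : V) := by
      have h2 : ContDiffAt ℝ ∞ f (y, (0 : V)) :=
        hf.contDiffAt (hdom.mem_nhds (mem_dom hK hD hy (by simpa using (half_pos hD).le)))
      exact (h2.of_le (WithTop.coe_le_coe.2 le_top)).comp (0 : V)
        ((contDiff_const.prodMk contDiff_id).contDiffAt)
    intro a b
    have hs := hc.isSymmSndFDerivAt (by simp)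
    exact hs.eq a b
  set L := vD (vD f) (y, 0) with hL
  have hquad : ∀ w : V, HasFDerivAt (fun w => (1 / 2 : ℝ) • L w w) (L w) w := fun w => by
    have h4 : HasFDerivAt (fun w => L w w) (L.flip w + L w) w := by
      have := L.hasFDerivAt (x := w) |>.clm_apply (hasFDerivAt_id w)
      refine this.congr_fderiv ?_
      ext u
      simp [add_comm]
    have h5 := h4.const_smul (1 / 2 : ℝ)
    refine h5.congr_fderiv ?_
    ext u
    simp only [smul_apply, add_apply, ContinuousLinearMap.flip_apply]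
    rw [hsymm u w, ← two_smul ℝ, smul_smul]
    norm_num
  have hd : ∀ w ∈ Metric.closedBall (0 : V) ‖v‖,
      HasFDerivAt (fun w => f (y, w) - (1 / 2 : ℝ) • L w w) (vD f (y, w) - L w) w :=
    fun w hw => by
      have hwv : ‖w‖ ≤ D / 2 := (mem_closedBall_zero_iff.mp hw).trans hv
      have := (differentiableAt_slice (x := (y, w)) ((hf.contDiffAt (hdom.mem_nhds
        (mem_dom hK hD hy hwv))).differentiableAt (by simp))).hasFDerivAt
      exact this.sub (hquad w)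
  have h3 := (convex_closedBall (0 : V) ‖v‖).norm_image_sub_le_of_norm_hasFDerivWithin_le
    (f := fun w => f (y, w) - (1 / 2 : ℝ) • L w w) (f' := fun w => vD f (y, w) - L w)
    (C := C * ‖v‖ ^ 2)
    (fun w hw => (hd w hw).hasFDerivWithinAt)
    (fun w hw => by
      rw [mem_closedBall_zero_iff] at hw
      exact (hs1 y hy w (hw.trans hv)).trans (mul_le_mul_of_nonneg_left
        (pow_le_pow_left₀ (norm_nonneg _) hw 2) hC0))
    (Metric.mem_closedBall_self (norm_nonneg v))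
    (by rw [mem_closedBall_zero_iff] : v ∈ Metric.closedBall (0 : V) ‖v‖)
  simp only [h0 y hy, map_zero, smul_zero, sub_zero] at h3
  calc ‖f (y, v) - (1 / 2 : ℝ) • L v v‖ ≤ C * ‖v‖ ^ 2 * ‖v‖ := h3
    _ = _ := by ring

/-- comparison of second order Taylor coefficients in one direction: if
`|a + b s + (1/2) c s² - q s²| ≤ C |s|³` for small `s > 0` then `c = 2 q` -/
theorem coeff_eq {a b c q C δ : ℝ} (hδ : 0 < δ)
    (h : ∀ s : ℝ, |s| ≤ δ → |a + b * s + (1 / 2) * c * s ^ 2 - q * s ^ 2| ≤ C * |s| ^ 3) :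
    a = 0 ∧ b = 0 ∧ c = 2 * q := by
  have ha : a = 0 := by
    have := h 0 (by simpa using hδ.le)
    simpa using this
  subst ha
  -- combine `s` and `-s`
  have hq : c = 2 * q := by
    have h1 : ∀ s : ℝ, 0 < s → s ≤ δ → |(1 / 2) * c - q| ≤ C * s := by
      intro s hs hsδ
      have e1 := h s (by rw [abs_of_pos hs]; exact hsδ)
      have e2 := h (-s) (by rw [abs_neg, abs_of_pos hs]; exact hsδ)
      rw [abs_of_pos hs] at e1
      rw [abs_neg, abs_of_pos hs] at e2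
      rw [abs_le] at e1 e2
      have hs2 : 0 < s ^ 2 := by positivity
      rw [abs_le]
      constructor
      · by_contra hcon
        push Not at hcon
        nlinarith [mul_lt_mul_of_pos_right hcon hs2]
      · by_contra hcon
        push Not at hcon
        nlinarith [mul_lt_mul_of_pos_right hcon hs2]
    by_contra hne
    have hpos : 0 < |(1 / 2) * c - q| := abs_pos.mpr (fun h0 => hne (by linarith))
    have hC : 0 < C := by
      have := h1 δ hδ le_rfl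
      by_contra hC
      push Not at hC
      nlinarith
    have h2 := h1 (min δ (|(1 / 2) * c - q| / (2 * C))) (lt_min hδ (by positivity))
      (min_le_left _ _)
    have h3 : C * min δ (|(1 / 2) * c - q| / (2 * C)) ≤ |(1 / 2) * c - q| / 2 := by
      calc C * min δ (|(1 / 2) * c - q| / (2 * C)) ≤ C * (|(1 / 2) * c - q| / (2 * C)) :=
            mul_le_mul_of_nonneg_left (min_le_right _ _) hC.le
        _ = _ := by field_simp
    linarith
  refine ⟨rfl, ?_, hq⟩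
  subst hq
  have h1 : ∀ s : ℝ, 0 < s → s ≤ δ → |b| ≤ C * s ^ 2 := by
    intro s hs hsδ
    have e1 := h s (by rw [abs_of_pos hs]; exact hsδ)
    have e2 : (0 : ℝ) + b * s + 1 / 2 * (2 * q) * s ^ 2 - q * s ^ 2 = b * s := by ring
    rw [e2, abs_mul, abs_of_pos hs] at e1
    have : |b| * s ≤ (C * s ^ 2) * s := by rw [show C * s ^ 2 * s = C * s ^ 3 by ring]; exact e1
    exact le_of_mul_le_mul_right this hs
  by_contra hne
  have hpos : 0 < |b| := abs_pos.mpr hne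
  have hC : 0 < C := by
    have := h1 δ hδ le_rfl
    by_contra hC
    push Not at hC
    have : C * δ ^ 2 ≤ 0 := mul_nonpos_of_nonpos_of_nonneg hC (by positivity)
    linarith
  set s := min (min δ 1) (|b| / (2 * C)) with hs
  have hs0 : 0 < s := lt_min (lt_min hδ one_pos) (by positivity)
  have h2 := h1 s hs0 ((min_le_left _ _).trans (min_le_left _ _))
  have h3 : s ≤ 1 := (min_le_left _ _).trans (min_le_right _ _)
  have h4 : C * s ^ 2 ≤ |b| / 2 := by
    calc C * s ^ 2 ≤ C * s := by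
          refine mul_le_mul_of_nonneg_left ?_ hC.le
          nlinarith
      _ ≤ C * (|b| / (2 * C)) := mul_le_mul_of_nonneg_left (min_le_right _ _) hC.le
      _ = _ := by field_simp
  linarith

/-- second derivatives at the centre of a function with a quadratic expansion: if
`|f v - q v v| ≤ C |v|³` near `0` then `f 0 = 0`, `Df(0) = 0`, `D²f(0)(v,v) = 2 q v v` -/
theorem second_of_bound [ProperSpace V] [Nontrivial V] {f : V → ℝ} {r C : ℝ} (hr : 0 < r)
    (hf : ContDiffOn ℝ ∞ f (Metric.ball 0 r)) {q : V → V → ℝ}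
    (hq : ∀ (s : ℝ) (v : V), q (s • v) (s • v) = s ^ 2 * q v v)
    (h : ∀ v : V, ‖v‖ < r → |f v - q v v| ≤ C * ‖v‖ ^ 3) :
    f 0 = 0 ∧ fderiv ℝ f 0 = 0 ∧ ∀ v, fderiv ℝ (fderiv ℝ f) 0 v v = 2 * q v v := by
  -- Taylor expansion of `f`
  set g : ℝ × V → ℝ := fun x => f x.2 - f 0 - fderiv ℝ f 0 x.2 with hg
  have hball : (0 : V) ∈ Metric.ball (0 : V) r := Metric.mem_ball_self hr
  have hfd : ∀ w ∈ Metric.ball (0 : V) r, DifferentiableAt ℝ f w := fun w hw =>
    (hf.contDiffAt (Metric.isOpen_ball.mem_nhds hw)).differentiableAt (by simp)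
  have hgs : ContDiffOn ℝ ∞ g (univ ×ˢ Metric.ball 0 r) := by
    have h1 : ContDiffOn ℝ ∞ (fun x : ℝ × V => f x.2) (univ ×ˢ Metric.ball 0 r) :=
      hf.comp contDiffOn_snd fun x hx => hx.2
    have h2 : ContDiff ℝ ∞ (fun x : ℝ × V => fderiv ℝ f 0 x.2) :=
      (fderiv ℝ f 0).contDiff.comp contDiff_snd
    exact (h1.sub contDiffOn_const).sub h2.contDiffOn
  have hvg : ∀ (a : ℝ) (w : V), w ∈ Metric.ball (0 : V) r →
      vD g (a, w) = fderiv ℝ f w - fderiv ℝ f 0 := fun a w hw => by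
    have h1 := (((hfd w hw).hasFDerivAt).sub_const (f 0)).sub
      ((fderiv ℝ f 0).hasFDerivAt (x := w))
    exact h1.fderiv
  have hvvg : vD (vD g) (0, 0) = fderiv ℝ (fderiv ℝ f) 0 := by
    have h1 : (fun w : V => vD g ((0 : ℝ), w)) =ᶠ[𝓝 0] fun w => fderiv ℝ f w - fderiv ℝ f 0 := by
      filter_upwards [Metric.isOpen_ball.mem_nhds hball] with w hw
      exact hvg 0 w hw
    unfold vD at h1 ⊢
    simp only at h1 ⊢
    rw [h1.fderiv_eq, fderiv_sub_const]
  obtain ⟨C', hC'0, hC'⟩ := taylor_quad (K := {0}) (P := ℝ) isOpen_univ hr hgs (subset_univ _)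
    isCompact_singleton (fun y _ => by simp [hg]) (fun y _ => by rw [hvg y 0 hball, sub_self])
  have key : ∀ v : V, f 0 = 0 ∧ fderiv ℝ f 0 v = 0 ∧ fderiv ℝ (fderiv ℝ f) 0 v v = 2 * q v v := by
    intro v
    have hδ : 0 < r / (4 * (‖v‖ + 1)) := by positivity
    refine coeff_eq (C := (|C| + C') * ‖v‖ ^ 3) hδ fun s hs => ?_
    have hv0 := norm_nonneg v
    have hsv : ‖s • v‖ ≤ r / 4 := by
      rw [norm_smul, Real.norm_eq_abs]
      calc |s| * ‖v‖ ≤ r / (4 * (‖v‖ + 1)) * (‖v‖ + 1) :=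
            mul_le_mul hs (by linarith) hv0 hδ.le
        _ = _ := by field_simp
    have e1 := h (s • v) (by linarith)
    have e2 := hC' 0 rfl (s • v) (by linarith)
    rw [hvvg] at e2
    simp only [hg, map_smul, smul_apply, smul_eq_mul, Real.norm_eq_abs] at e2
    rw [hq] at e1
    rw [norm_smul, Real.norm_eq_abs, mul_pow] at e1 e2
    have e3 : f 0 + fderiv ℝ f 0 v * s + 1 / 2 * fderiv ℝ (fderiv ℝ f) 0 v v * s ^ 2 -
        q v v * s ^ 2 = (f (s • v) - s ^ 2 * q v v) -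
          (f (s • v) - f 0 - s * fderiv ℝ f 0 v -
            1 / 2 * (s * (s * fderiv ℝ (fderiv ℝ f) 0 v v))) := by ring
    rw [e3]
    refine (abs_sub _ _).trans ?_
    have e4 : C * (|s| ^ 3 * ‖v‖ ^ 3) ≤ |C| * (|s| ^ 3 * ‖v‖ ^ 3) :=
      mul_le_mul_of_nonneg_right (le_abs_self C) (by positivity)
    calc |f (s • v) - s ^ 2 * q v v| + |f (s • v) - f 0 - s * fderiv ℝ f 0 v -
            1 / 2 * (s * (s * fderiv ℝ (fderiv ℝ f) 0 v v))|
        ≤ |C| * (|s| ^ 3 * ‖v‖ ^ 3) + C' * (|s| ^ 3 * ‖v‖ ^ 3) :=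
          add_le_add (e1.trans e4) e2
      _ = _ := by ring
  exact ⟨(key 0).1, by ext v; simpa using (key v).2.1, fun v => (key v).2.2⟩

/-! ### expansion of a square -/

variable {L : Type*} [NormedAddCommGroup L] [NormedSpace ℝ L]

/-- expansion of `β(X, X)` for `X = ∑_{k ≤ N} t^k c_k`, `0 ≤ t ≤ 1` -/
theorem square_expand {N : ℕ} (hN : 2 ≤ N) {C κ : ℝ} (hC : 0 ≤ C) (hκ : 0 ≤ κ)
    (β : L →ₗ[ℝ] L →ₗ[ℝ] ℝ) (hβ : ∀ a b, |β a b| ≤ κ * ‖a‖ * ‖b‖) (c : ℕ → L)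
    (hc : ∀ k ≤ N, ‖c k‖ ≤ C) {t : ℝ} (ht0 : 0 ≤ t) (ht1 : t ≤ 1) :
    |β (∑ k ∈ Finset.range (N + 1), t ^ k • c k) (∑ k ∈ Finset.range (N + 1), t ^ k • c k) -
      (β (c 0) (c 0) + t * (β (c 0) (c 1) + β (c 1) (c 0)) +
        t ^ 2 * (β (c 0) (c 2) + β (c 1) (c 1) + β (c 2) (c 0)))| ≤
      κ * C ^ 2 * (2 * N + 3) * (N + 3) * t ^ 3 := by
  obtain ⟨n, rfl⟩ : ∃ n, N = n + 2 := ⟨N - 2, by omega⟩
  -- the tail
  set R : L := ∑ k ∈ Finset.range n, t ^ k • c (k + 3) with hR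
  have hsum : ∑ k ∈ Finset.range (n + 2 + 1), t ^ k • c k =
      c 0 + t • c 1 + t ^ 2 • c 2 + t ^ 3 • R := by
    rw [show n + 2 + 1 = n + 3 by ring, Finset.sum_range_succ', Finset.sum_range_succ',
      Finset.sum_range_succ']
    rw [hR, Finset.smul_sum]
    have : ∀ k ∈ Finset.range n, t ^ (k + 1 + 1 + 1) • c (k + 1 + 1 + 1) =
        t ^ 3 • t ^ k • c (k + 3) := fun k _ => by
      rw [smul_smul]
      congr 1
      ring
    rw [Finset.sum_congr rfl this]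
    simp only [zero_add, pow_zero, one_smul, pow_one]
    norm_num
    abel
  have hRn : ‖R‖ ≤ n * C := by
    refine (norm_sum_le _ _).trans ?_
    calc ∑ k ∈ Finset.range n, ‖t ^ k • c (k + 3)‖ ≤ ∑ _k ∈ Finset.range n, C := by
          refine Finset.sum_le_sum fun k hk => ?_
          rw [norm_smul, Real.norm_of_nonneg (by positivity)]
          have h1 : t ^ k ≤ 1 := pow_le_one₀ ht0 ht1
          have h2 := hc (k + 3) (by have := Finset.mem_range.mp hk; omega)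
          calc t ^ k * ‖c (k + 3)‖ ≤ 1 * C := mul_le_mul h1 h2 (norm_nonneg _) (by norm_num)
            _ = _ := one_mul _
      _ = _ := by simp
  rw [hsum]
  have h0 := hc 0 (by omega)
  have h1 := hc 1 (by omega)
  have h2 := hc 2 (by omega)
  -- split off
  set A : L := c 0 + t • c 1 + t ^ 2 • c 2 with hA
  have ht2 : t ^ 2 ≤ 1 := pow_le_one₀ ht0 ht1
  have ht3 : t ^ 3 ≤ 1 := pow_le_one₀ ht0 ht1
  have hAn : ‖A‖ ≤ 3 * C := by
    refine (norm_add₃_le).trans ?_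
    rw [norm_smul, norm_smul, Real.norm_of_nonneg ht0, Real.norm_of_nonneg (by positivity)]
    have e1 : t * ‖c 1‖ ≤ 1 * C := mul_le_mul ht1 h1 (norm_nonneg _) (by norm_num)
    have e2 : t ^ 2 * ‖c 2‖ ≤ 1 * C := mul_le_mul ht2 h2 (norm_nonneg _) (by norm_num)
    linarith
  have hsplit : β (A + t ^ 3 • R) (A + t ^ 3 • R) -
      (β (c 0) (c 0) + t * (β (c 0) (c 1) + β (c 1) (c 0)) +
        t ^ 2 * (β (c 0) (c 2) + β (c 1) (c 1) + β (c 2) (c 0))) =
      t ^ 3 * ((β (c 1) (c 2) + β (c 2) (c 1)) + t * β (c 2) (c 2) +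
        (β A R + β R A) + t ^ 3 * β R R) := by
    simp only [hA, map_add, map_smul, LinearMap.add_apply, LinearMap.smul_apply, smul_eq_mul]
    ring
  rw [hsplit, abs_mul, abs_of_nonneg (by positivity : (0 : ℝ) ≤ t ^ 3), mul_comm]
  refine mul_le_mul_of_nonneg_right ?_ (by positivity)
  have hb : ∀ a b : L, ∀ x y : ℝ, ‖a‖ ≤ x → ‖b‖ ≤ y → |β a b| ≤ κ * (x * y) :=
    fun a b x y ha hb => (hβ a b).trans (by
      rw [mul_assoc]
      exact mul_le_mul_of_nonneg_left (mul_le_mul ha hb (norm_nonneg _)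
        ((norm_nonneg _).trans ha)) hκ)
  have b1 := hb _ _ _ _ h1 h2
  have b2 := hb _ _ _ _ h2 h1
  have b3 := hb _ _ _ _ h2 h2
  have b4 := hb _ _ _ _ hAn hRn
  have b5 := hb _ _ _ _ hRn hAn
  have b6 := hb _ _ _ _ hRn hRn
  have b3' : |t * β (c 2) (c 2)| ≤ κ * (C * C) := by
    rw [abs_mul, abs_of_nonneg ht0]
    calc t * |β (c 2) (c 2)| ≤ 1 * (κ * (C * C)) :=
          mul_le_mul ht1 b3 (abs_nonneg _) (by norm_num)
      _ = _ := one_mul _
  have b6' : |t ^ 3 * β R R| ≤ κ * (n * C * (n * C)) := by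
    rw [abs_mul, abs_of_nonneg (by positivity : (0 : ℝ) ≤ t ^ 3)]
    calc t ^ 3 * |β R R| ≤ 1 * (κ * (n * C * (n * C))) :=
          mul_le_mul ht3 b6 (abs_nonneg _) (by norm_num)
      _ = _ := one_mul _
  have hn0 : (0 : ℝ) ≤ n := Nat.cast_nonneg n
  calc |(β (c 1) (c 2) + β (c 2) (c 1)) + t * β (c 2) (c 2) + (β A R + β R A) + t ^ 3 * β R R|
      ≤ (|β (c 1) (c 2)| + |β (c 2) (c 1)|) + |t * β (c 2) (c 2)| +
        (|β A R| + |β R A|) + |t ^ 3 * β R R| := by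
        refine (abs_add_le _ _).trans (add_le_add ?_ le_rfl)
        refine (abs_add_le _ _).trans (add_le_add ?_ (abs_add_le _ _))
        exact (abs_add_le _ _).trans (add_le_add (abs_add_le _ _) le_rfl)
    _ ≤ (κ * (C * C) + κ * (C * C)) + κ * (C * C) +
        (κ * (3 * C * (n * C)) + κ * (n * C * (3 * C))) + κ * (n * C * (n * C)) := by
        gcongr
    _ = κ * C ^ 2 * (3 + 6 * n + n ^ 2) := by ring
    _ ≤ κ * C ^ 2 * ((2 * (n + 2) + 3) * (n + 2 + 3)) := by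
        refine mul_le_mul_of_nonneg_left ?_ (by positivity)
        nlinarith
    _ = _ := by push_cast; ring

end

end Vale.Agent.P211.HK.Tay
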