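import Vale.Agent.P211.HK.EU4a

/-! P211 / HK: assembly of EU4 from the data of `c_1`, `c_2` at the centre. helper501. -/

set_option linter.unusedSectionVars false

namespace Vale.Agent.P211.HK

open Filter Topology MeasureTheory Set
open scoped ContDiff RealInnerProductSpace

noncomputable section

namespace EU4e

variable {W : Type} [NormedAddCommGroup W] [InnerProductSpace ℝ W] [FiniteDimensional ℝ W]

/-- the trace as a linear functional on continuous endomorphisms -/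
def trA (A : W →L[ℝ] W) : ℝ := LinearMap.trace ℝ W (A : W →ₗ[ℝ] W)

theorem trA_add (A B : W →L[ℝ] W) : trA (A + B) = trA A + trA B := by simp [trA]

theorem trA_smul (c : ℝ) (A : W →L[ℝ] W) : trA (c • A) = c * trA A := by simp [trA]

theorem trA_comm (A B : W →L[ℝ] W) : trA (A.comp B) = trA (B.comp A) := by
  unfold trA
  exact LinearMap.trace_mul_comm ℝ (A : W →ₗ[ℝ] W) (B : W →ₗ[ℝ] W)

theorem trA_adjoint (A : W →L[ℝ] W) : trA (ContinuousLinearMap.adjoint A) = trA A := by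
  unfold trA
  rw [LinearMap.trace_eq_sum_inner _ (stdOrthonormalBasis ℝ W),
    LinearMap.trace_eq_sum_inner _ (stdOrthonormalBasis ℝ W)]
  refine Finset.sum_congr rfl fun i _ => ?_
  simp only [ContinuousLinearMap.coe_coe]
  rw [ContinuousLinearMap.adjoint_inner_right, real_inner_comm]

/-- the trace as a continuous linear functional -/
def trL : (W →L[ℝ] W) →L[ℝ] ℝ :=
  LinearMap.toContinuousLinearMap
    { toFun := trA, map_add' := trA_add, map_smul' := fun c A => trA_smul c A }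

theorem trL_apply (A : W →L[ℝ] W) : trL A = trA A := rfl

/-- the form `tr (Pr A B*)` -/
def bet (Pr : W →L[ℝ] W) : (W →L[ℝ] W) →ₗ[ℝ] (W →L[ℝ] W) →ₗ[ℝ] ℝ :=
  LinearMap.mk₂ ℝ (fun A B => trA (Pr.comp (A.comp (ContinuousLinearMap.adjoint B))))
    (fun A A' B => by rw [ContinuousLinearMap.add_comp, ContinuousLinearMap.comp_add, trA_add])
    (fun c A B => by
      rw [ContinuousLinearMap.smul_comp, ContinuousLinearMap.comp_smul, trA_smul, smul_eq_mul])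
    (fun A B B' => by
      rw [map_add, ContinuousLinearMap.comp_add, ContinuousLinearMap.comp_add, trA_add])
    (fun c A B => by
      rw [map_smulₛₗ, ContinuousLinearMap.comp_smul, ContinuousLinearMap.comp_smul, trA_smul,
        smul_eq_mul]
      rfl)

theorem bet_apply (Pr A B : W →L[ℝ] W) :
    bet Pr A B = trA (Pr.comp (A.comp (ContinuousLinearMap.adjoint B))) := rfl

theorem bet_bound (Pr A B : W →L[ℝ] W) :
    |bet Pr A B| ≤ (‖(trL : (W →L[ℝ] W) →L[ℝ] ℝ)‖ * ‖Pr‖) * ‖A‖ * ‖B‖ := by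
  rw [bet_apply, ← trL_apply, ← Real.norm_eq_abs]
  refine (ContinuousLinearMap.le_opNorm (trL : (W →L[ℝ] W) →L[ℝ] ℝ) _).trans ?_
  have h1 : ‖Pr.comp (A.comp (ContinuousLinearMap.adjoint B))‖ ≤ ‖Pr‖ * (‖A‖ * ‖B‖) := by
    refine (ContinuousLinearMap.opNorm_comp_le _ _).trans
      (mul_le_mul_of_nonneg_left ?_ (norm_nonneg _))
    refine (ContinuousLinearMap.opNorm_comp_le _ _).trans (le_of_eq ?_)
    rw [LinearIsometryEquiv.norm_map]
  calc ‖(trL : (W →L[ℝ] W) →L[ℝ] ℝ)‖ * ‖Pr.comp (A.comp (ContinuousLinearMap.adjoint B))‖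
      ≤ ‖(trL : (W →L[ℝ] W) →L[ℝ] ℝ)‖ * (‖Pr‖ * (‖A‖ * ‖B‖)) :=
        mul_le_mul_of_nonneg_left h1 (by positivity)
    _ = _ := by ring

theorem bet_id_right (Pr A : W →L[ℝ] W) :
    bet Pr A (ContinuousLinearMap.id ℝ W) = trA (Pr.comp A) := by
  rw [bet_apply]
  congr 2
  have : ContinuousLinearMap.adjoint (ContinuousLinearMap.id ℝ W) = ContinuousLinearMap.id ℝ W := by
    symm
    rw [ContinuousLinearMap.eq_adjoint_iff]
    intro x y
    rfl
  rw [this]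
  rfl

theorem bet_id_left {Pr : W →L[ℝ] W} (hP : ∀ a b, ⟪Pr a, b⟫ = ⟪a, Pr b⟫) (A : W →L[ℝ] W) :
    bet Pr (ContinuousLinearMap.id ℝ W) A = trA (Pr.comp A) := by
  rw [bet_apply]
  have hadj : ContinuousLinearMap.adjoint Pr = Pr := by
    symm
    rw [ContinuousLinearMap.eq_adjoint_iff]
    exact hP
  have h1 : Pr.comp ((ContinuousLinearMap.id ℝ W).comp (ContinuousLinearMap.adjoint A)) =
      ContinuousLinearMap.adjoint (A.comp Pr) := by
    rw [ContinuousLinearMap.adjoint_comp, hadj]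
    rfl
  rw [h1, trA_adjoint, trA_comm]

theorem contDiffOn_bet {X : Type*} [NormedAddCommGroup X] [NormedSpace ℝ X] (Pr : W →L[ℝ] W)
    {f g : X → W →L[ℝ] W} {S : Set X} (hf : ContDiffOn ℝ ∞ f S) (hg : ContDiffOn ℝ ∞ g S) :
    ContDiffOn ℝ ∞ (fun x => bet Pr (f x) (g x)) S := by
  have h1 : ContDiffOn ℝ ∞ (fun x => ContinuousLinearMap.adjoint (g x)) S := by
    have hadj : ContDiff ℝ ∞ (fun A : W →L[ℝ] W => ContinuousLinearMap.adjoint A) := by
      have hl : IsBoundedLinearMap ℝ (fun A : W →L[ℝ] W => ContinuousLinearMap.adjoint A) := by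
        refine ⟨⟨fun x y => map_add _ x y, fun c x => ?_⟩, 1, one_pos, fun x => ?_⟩
        · rw [map_smulₛₗ]
          rfl
        · rw [LinearIsometryEquiv.norm_map, one_mul]
      exact hl.contDiff
    exact hadj.comp_contDiffOn hg
  have h2 : ContDiffOn ℝ ∞ (fun x => Pr.comp ((f x).comp (ContinuousLinearMap.adjoint (g x)))) S :=
    contDiffOn_const.clm_comp (hf.clm_comp h1)
  exact (trL : (W →L[ℝ] W) →L[ℝ] ℝ).contDiff.comp_contDiffOn h2

end EU4e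

variable {P W : Type} [NormedAddCommGroup P] [NormedSpace ℝ P] [FiniteDimensional ℝ P]
  [NormedAddCommGroup W] [InnerProductSpace ℝ W] [FiniteDimensional ℝ W] {U : Set P} {D : ℝ}

open EU4e

/-- EU4 from the data of the first two transport coefficients. -/
theorem RadData.eu4_end (h2 : EU2Stmt) (Q : RadData P W U D) (Pr : W →L[ℝ] W)
    (hP : ∀ a b, ⟪Pr a, b⟫ = ⟪a, Pr b⟫) (N : ℕ) (hN : 2 ≤ N) (K : Set P) (hKc : IsCompact K)
    (hK : K ⊆ U)
    (hB : ∃ C : ℝ, ∀ y ∈ K, ∀ v, ‖v‖ ≤ D / 2 →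
      |LinearMap.trace ℝ W ((Pr.comp (Q.cc 1 (y, v)) : W →L[ℝ] W) : W →ₗ[ℝ] W) -
        LinearMap.trace ℝ W (Pr : W →ₗ[ℝ] W) * (Q.scal.cc 1 (y, v) 1) -
        (1 / 12) * ∑ i, ∑ j, ∑ k, v i * v k *
          LinearMap.trace ℝ W ((Pr.comp ((Q.Omg y i j).comp (Q.Omg y k j)) : W →L[ℝ] W) :
            W →ₗ[ℝ] W)| ≤ C * ‖v‖ ^ 3)
    (hC : ∀ y ∈ K, Q.cc 1 (y, 0) = (Q.scal.cc 1 (y, 0) 1) • ContinuousLinearMap.id ℝ W)
    (hD : ∀ y ∈ K, LinearMap.trace ℝ W ((Pr.comp (Q.cc 2 (y, 0)) : W →L[ℝ] W) : W →ₗ[ℝ] W) -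
        LinearMap.trace ℝ W (Pr : W →ₗ[ℝ] W) * (Q.scal.cc 2 (y, 0) 1) =
        (1 / 12) * ∑ i, ∑ j, LinearMap.trace ℝ W
          ((Pr.comp ((Q.Omg y i j).comp (Q.Omg y i j)) : W →L[ℝ] W) : W →ₗ[ℝ] W)) :
    ∃ C : ℝ, ∀ t ∈ Icc (0 : ℝ) 1, ∀ y ∈ K, ∀ v, ‖v‖ ≤ D / 2 →
      |LinearMap.trace ℝ W ((Pr.comp ((Q.XX N t (y, v)).comp
          (ContinuousLinearMap.adjoint (Q.XX N t (y, v)))) : W →L[ℝ] W) : W →ₗ[ℝ] W) -
        LinearMap.trace ℝ W (Pr : W →ₗ[ℝ] W) * (Q.scal.XX N t (y, v) 1) ^ 2 -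
        t * ((1 / 6) * ∑ i, ∑ j, ∑ k, v i * v k *
          LinearMap.trace ℝ W ((Pr.comp ((Q.Omg y i j).comp (Q.Omg y k j)) : W →L[ℝ] W) :
            W →ₗ[ℝ] W)) -
        t ^ 2 * ((1 / 6) * ∑ i, ∑ j, LinearMap.trace ℝ W
          ((Pr.comp ((Q.Omg y i j).comp (Q.Omg y i j)) : W →L[ℝ] W) : W →ₗ[ℝ] W))| ≤
        C * (t * ‖v‖ ^ 3 + t ^ 2 * ‖v‖ + t ^ 3) ∧
      |Q.scal.XX N t (y, v) 1 - 1| ≤ C * (t + ‖v‖) := by
  have hUo := Q.U_open
  have hDp := Q.D_pos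
  have hsm := (h2 P W U D Q).1
  have hss := (h2 P ℝ U D Q.scal).1
  set s : ℕ → P × Eu4 → ℝ := fun k x => Q.scal.cc k x 1 with hs
  have hssm : ∀ k, ContDiffOn ℝ ∞ (s k) (U ×ˢ Metric.ball 0 D) := fun k =>
    (hss k).clm_apply contDiffOn_const
  -- bounds
  choose Cc hCc0 hCc using fun k => Tay.bound hUo hDp (hsm k) hK hKc
  choose Cs hCs0 hCs using fun k => Tay.bound hUo hDp (hssm k) hK hKc
  set A : ℝ := ∑ k ∈ Finset.range (N + 1), Cc k with hA
  set S : ℝ := ∑ k ∈ Finset.range (N + 1), Cs k with hS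
  have hA0 : 0 ≤ A := Finset.sum_nonneg fun k _ => hCc0 k
  have hS0 : 0 ≤ S := Finset.sum_nonneg fun k _ => hCs0 k
  have hAk : ∀ k ≤ N, Cc k ≤ A := fun k hk =>
    Finset.single_le_sum (fun k _ => hCc0 k) (Finset.mem_range.mpr (Nat.lt_succ_of_le hk))
  have hSk : ∀ k ≤ N, Cs k ≤ S := fun k hk =>
    Finset.single_le_sum (fun k _ => hCs0 k) (Finset.mem_range.mpr (Nat.lt_succ_of_le hk))
  -- the function at order `t²`
  set f : P × Eu4 → ℝ := fun x => 2 * (trA (Pr.comp (Q.cc 2 x)) - trA Pr * s 2 x) +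
    bet Pr (Q.cc 1 x) (Q.cc 1 x) - trA Pr * s 1 x ^ 2 with hf
  have htr : ∀ k, ContDiffOn ℝ ∞ (fun x => trA (Pr.comp (Q.cc k x))) (U ×ˢ Metric.ball 0 D) :=
    fun k => (trL : (W →L[ℝ] W) →L[ℝ] ℝ).contDiff.comp_contDiffOn
      (contDiffOn_const.clm_comp (hsm k))
  have hfs : ContDiffOn ℝ ∞ f (U ×ˢ Metric.ball 0 D) := by
    refine ContDiffOn.sub (ContDiffOn.add ?_ ?_) ?_
    · exact contDiffOn_const.mul ((htr 2).sub (contDiffOn_const.mul (hssm 2)))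
    · exact contDiffOn_bet Pr (hsm 1) (hsm 1)
    · exact contDiffOn_const.mul ((hssm 1).pow 2)
  clear_value f
  have hg0 : ContDiffOn ℝ ∞ (fun x : P × Eu4 => ((x.1, (0 : Eu4)) : P × Eu4))
      (U ×ˢ Metric.ball 0 D) := (contDiff_fst.prodMk contDiff_const).contDiffOn
  have hf0s : ContDiffOn ℝ ∞ (fun x : P × Eu4 => f x - f (x.1, 0)) (U ×ˢ Metric.ball 0 D) :=
    hfs.sub (hfs.comp hg0 fun x hx => ⟨hx.1, Metric.mem_ball_self hDp⟩)
  obtain ⟨Cf, hCf0, hCf⟩ := Tay.taylor1 hUo hDp hf0s hK hKc (fun y _ => sub_self _)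
  obtain ⟨CB, hCB⟩ := hB
  set κ : ℝ := ‖(trL : (W →L[ℝ] W) →L[ℝ] ℝ)‖ * ‖Pr‖ with hκ
  have hκ0 : 0 ≤ κ := by positivity
  set K1 : ℝ := κ * A ^ 2 * (2 * N + 3) * (N + 3) with hK1
  set K2 : ℝ := 1 * S ^ 2 * (2 * N + 3) * (N + 3) with hK2
  have hK10 : 0 ≤ K1 := by positivity
  have hK20 : 0 ≤ K2 := by positivity
  set τ : ℝ := trA Pr with hτ
  clear_value K1 K2
  refine ⟨K1 + |τ| * K2 + 2 * |CB| + Cf + N * S, fun t ht y hy v hv => ?_⟩
  have ht0 := ht.1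
  have ht1 := ht.2
  have hn := norm_nonneg v
  set q1 : ℝ := ∑ i, ∑ j, ∑ k, v i * v k *
    trA (Pr.comp ((Q.Omg y i j).comp (Q.Omg y k j))) with hq1
  set q2 : ℝ := ∑ i, ∑ j, trA (Pr.comp ((Q.Omg y i j).comp (Q.Omg y i j))) with hq2
  have eB := hCB y hy v hv
  have eC := hC y hy
  have eD := hD y hy
  change |trA (Pr.comp (Q.cc 1 (y, v))) - τ * s 1 (y, v) - 1 / 12 * q1| ≤ CB * ‖v‖ ^ 3 at eB
  change Q.cc 1 (y, 0) = s 1 (y, 0) • ContinuousLinearMap.id ℝ W at eC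
  change trA (Pr.comp (Q.cc 2 (y, 0))) - τ * s 2 (y, 0) = 1 / 12 * q2 at eD
  -- expansions
  have x1 := Tay.square_expand hN hA0 hκ0 (bet Pr) (bet_bound Pr) (fun k => Q.cc k (y, v))
    (fun k hk => (hCc k y hy v hv).trans (hAk k hk)) ht0 ht1
  have x2 := Tay.square_expand hN hS0 zero_le_one (LinearMap.mul ℝ ℝ)
    (fun a b => by simp [abs_mul]) (fun k => s k (y, v))
    (fun k hk => (hCs k y hy v hv).trans (hSk k hk)) ht0 ht1
  have c0 : Q.cc 0 (y, v) = ContinuousLinearMap.id ℝ W := rfl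
  have s0 : s 0 (y, v) = 1 := rfl
  have hX : ∑ k ∈ Finset.range (N + 1), t ^ k • Q.cc k (y, v) = Q.XX N t (y, v) := rfl
  have hx : ∑ k ∈ Finset.range (N + 1), t ^ k • s k (y, v) = Q.scal.XX N t (y, v) 1 := by
    simp only [RadData.XX, hs, smul_eq_mul]
    rw [sum_apply]
    rfl
  rw [hX, c0, bet_id_left hP, bet_id_left hP, bet_id_left hP, bet_id_right, bet_id_right,
    ← hK1] at x1
  rw [hx, ← hK2] at x2
  simp only [LinearMap.mul_apply', s0, one_mul, mul_one] at x2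
  have hPid : Pr.comp (ContinuousLinearMap.id ℝ W) = Pr := rfl
  rw [hPid] at x1
  -- the order `t²` term
  have ef : |f (y, v) - 1 / 6 * q2| ≤ Cf * ‖v‖ := by
    have h3 := hCf y hy v hv
    have h4 : f (y, 0) = 1 / 6 * q2 := by
      simp only [hf]
      rw [eD, eC]
      simp only [map_smul, LinearMap.smul_apply, smul_eq_mul, bet_id_right, hPid]
      rw [← hτ]
      ring
    rw [Real.norm_eq_abs] at h3
    simp only at h3
    rwa [h4] at h3
  set x : ℝ := Q.scal.XX N t (y, v) 1 with hxdef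
  have hgoal : trA (Pr.comp ((Q.XX N t (y, v)).comp
        (ContinuousLinearMap.adjoint (Q.XX N t (y, v))))) - τ * x ^ 2 - t * (1 / 6 * q1) -
      t ^ 2 * (1 / 6 * q2) =
      (bet Pr (Q.XX N t (y, v)) (Q.XX N t (y, v)) -
        (trA Pr + t * (trA (Pr.comp (Q.cc 1 (y, v))) + trA (Pr.comp (Q.cc 1 (y, v)))) +
        t ^ 2 * (trA (Pr.comp (Q.cc 2 (y, v))) + bet Pr (Q.cc 1 (y, v)) (Q.cc 1 (y, v)) +
          trA (Pr.comp (Q.cc 2 (y, v)))))) -
      τ * (x * x - (1 + t * (s 1 (y, v) + s 1 (y, v)) +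
        t ^ 2 * (s 2 (y, v) + s 1 (y, v) * s 1 (y, v) + s 2 (y, v)))) +
      2 * t * (trA (Pr.comp (Q.cc 1 (y, v))) - τ * s 1 (y, v) - 1 / 12 * q1) +
      t ^ 2 * (f (y, v) - 1 / 6 * q2) := by
    rw [← bet_apply]
    simp only [hf]
    ring
  constructor
  · change |trA (Pr.comp ((Q.XX N t (y, v)).comp
        (ContinuousLinearMap.adjoint (Q.XX N t (y, v))))) - τ * x ^ 2 - t * (1 / 6 * q1) -
      t ^ 2 * (1 / 6 * q2)| ≤ _
    rw [hgoal]
    have b1 : |τ * (x * x - (1 + t * (s 1 (y, v) + s 1 (y, v)) +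
        t ^ 2 * (s 2 (y, v) + s 1 (y, v) * s 1 (y, v) + s 2 (y, v))))| ≤ |τ| * (K2 * t ^ 3) := by
      rw [abs_mul]
      exact mul_le_mul_of_nonneg_left x2 (abs_nonneg _)
    have b2 : |2 * t * (trA (Pr.comp (Q.cc 1 (y, v))) - τ * s 1 (y, v) - 1 / 12 * q1)| ≤
        2 * t * (|CB| * ‖v‖ ^ 3) := by
      rw [abs_mul, abs_of_nonneg (by positivity : 0 ≤ 2 * t)]
      refine mul_le_mul_of_nonneg_left (eB.trans ?_) (by positivity)
      exact mul_le_mul_of_nonneg_right (le_abs_self _) (by positivity)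
    have b3 : |t ^ 2 * (f (y, v) - 1 / 6 * q2)| ≤ t ^ 2 * (Cf * ‖v‖) := by
      rw [abs_mul, abs_of_nonneg (by positivity : 0 ≤ t ^ 2)]
      exact mul_le_mul_of_nonneg_left ef (by positivity)
    refine (abs_add_le _ _).trans ?_
    refine (add_le_add ((abs_add_le _ _).trans (add_le_add (abs_sub _ _) le_rfl)) le_rfl).trans ?_
    refine (add_le_add (add_le_add (add_le_add x1 b1) b2) b3).trans ?_
    have p1 : 0 ≤ t * ‖v‖ ^ 3 := by positivity
    have p2 : 0 ≤ t ^ 2 * ‖v‖ := by positivity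
    have p3 : 0 ≤ t ^ 3 := by positivity
    have p4 : 0 ≤ |CB| := abs_nonneg _
    have p5 : 0 ≤ |τ| := abs_nonneg _
    have p6 : (0 : ℝ) ≤ N * S := by positivity
    have p7 : 0 ≤ |τ| * K2 := by positivity
    calc K1 * t ^ 3 + |τ| * (K2 * t ^ 3) + 2 * t * (|CB| * ‖v‖ ^ 3) + t ^ 2 * (Cf * ‖v‖)
        = (K1 + |τ| * K2) * t ^ 3 + (2 * |CB|) * (t * ‖v‖ ^ 3) + Cf * (t ^ 2 * ‖v‖) := by ring
      _ ≤ (K1 + |τ| * K2 + 2 * |CB| + Cf + N * S) * t ^ 3 +
          (K1 + |τ| * K2 + 2 * |CB| + Cf + N * S) * (t * ‖v‖ ^ 3) +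
          (K1 + |τ| * K2 + 2 * |CB| + Cf + N * S) * (t ^ 2 * ‖v‖) :=
          add_le_add (add_le_add
            (mul_le_mul_of_nonneg_right (by linarith) p3)
            (mul_le_mul_of_nonneg_right (by linarith) p1))
            (mul_le_mul_of_nonneg_right (by linarith) p2)
      _ = _ := by ring
  · rw [← hx, Finset.sum_range_succ']
    simp only [s0, pow_zero, one_smul, add_sub_cancel_right]
    refine (Finset.abs_sum_le_sum_abs _ _).trans ?_
    have hk : ∀ k ∈ Finset.range N, |t ^ (k + 1) • s (k + 1) (y, v)| ≤ S * t := fun k hk => by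
      have hk' : k + 1 ≤ N := Finset.mem_range.mp hk
      have h3 := (hCs (k + 1) y hy v hv).trans (hSk (k + 1) hk')
      rw [Real.norm_eq_abs] at h3
      rw [smul_eq_mul, abs_mul, abs_of_nonneg (by positivity : 0 ≤ t ^ (k + 1)), pow_succ]
      have h4 : t ^ k ≤ 1 := pow_le_one₀ ht0 ht1
      calc t ^ k * t * |s (k + 1) (y, v)| ≤ 1 * t * S := by gcongr
        _ = _ := by ring
    refine (Finset.sum_le_sum hk).trans ?_
    rw [Finset.sum_const, Finset.card_range, nsmul_eq_mul]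
    have p4 : 0 ≤ |CB| := abs_nonneg _
    have p7 : 0 ≤ |τ| * K2 := by positivity
    have p6 : (0 : ℝ) ≤ N * S := by positivity
    calc (N : ℝ) * (S * t) = (N * S) * t := by ring
      _ ≤ (K1 + |τ| * K2 + 2 * |CB| + Cf + N * S) * (t + ‖v‖) := by
        apply mul_le_mul _ _ ht0 _
        · linarith
        · linarith
        · linarith

end

end Vale.Agent.P211.HK
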