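import Vale.Agent.P211.HK.EUDefs

/-! P211 / HK / EU5 (helper674): the Euclidean error term of the cut-off parametrix: joint
smoothness up to `t = 0`, support, smallness. -/

namespace Vale.Agent.P211.HK

open Filter Topology MeasureTheory Set
open scoped ContDiff RealInnerProductSpace

noncomputable section

variable {P W : Type} [NormedAddCommGroup P] [NormedSpace ℝ P] [NormedAddCommGroup W]
    [InnerProductSpace ℝ W] {U : Set P} {D : ℝ}

namespace EU5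

theorem cdo_smul {X V : Type*} [NormedAddCommGroup X] [NormedSpace ℝ X] [NormedAddCommGroup V]
    [NormedSpace ℝ V] {n : WithTop ℕ∞} {s : Set X} {a : X → ℝ} {b : X → V}
    (ha : ContDiffOn ℝ n a s) (hb : ContDiffOn ℝ n b s) :
    ContDiffOn ℝ n (fun x => a x • b x) s := ha.smul hb

theorem cda_smul {X V : Type*} [NormedAddCommGroup X] [NormedSpace ℝ X] [NormedAddCommGroup V]
    [NormedSpace ℝ V] {n : WithTop ℕ∞} {x : X} {a : X → ℝ} {b : X → V}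
    (ha : ContDiffAt ℝ n a x) (hb : ContDiffAt ℝ n b x) :
    ContDiffAt ℝ n (fun x => a x • b x) x := ha.smul hb

/-! ### slices -/

theorem hasFDerivAt_slice {V : Type*} [NormedAddCommGroup V] [NormedSpace ℝ V]
    {f : ℝ × P × Eu4 → V} {x : ℝ × P × Eu4} (hf : DifferentiableAt ℝ f x) :
    HasFDerivAt (fun v' : Eu4 => f (x.1, x.2.1, v'))
      ((fderiv ℝ f x).comp ((ContinuousLinearMap.inr ℝ ℝ (P × Eu4)).comp
        (ContinuousLinearMap.inr ℝ P Eu4))) x.2.2 := by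
  have h1 : HasFDerivAt (fun v' : Eu4 => (x.1, x.2.1, v'))
      ((ContinuousLinearMap.inr ℝ ℝ (P × Eu4)).comp (ContinuousLinearMap.inr ℝ P Eu4)) x.2.2 :=
    (hasFDerivAt_prodMk_right x.1 (x.2.1, x.2.2)).comp x.2.2
      (hasFDerivAt_prodMk_right x.2.1 x.2.2)
  exact HasFDerivAt.comp (f := fun v' : Eu4 => (x.1, x.2.1, v')) (g := f) x.2.2
    hf.hasFDerivAt h1

theorem fderiv_slice {V : Type*} [NormedAddCommGroup V] [NormedSpace ℝ V]
    {f : ℝ × P × Eu4 → V} {x : ℝ × P × Eu4} (hf : DifferentiableAt ℝ f x) (w : Eu4) :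
    fderiv ℝ (fun v' : Eu4 => f (x.1, x.2.1, v')) x.2.2 w = fderiv ℝ f x (0, 0, w) := by
  rw [(hasFDerivAt_slice hf).fderiv]
  simp

theorem dE_congr (Q : RadData P W U D) {y : P} {f g : Eu4 → W →L[ℝ] W} {i : Fin 4} {v : Eu4}
    (h : f =ᶠ[𝓝 v] g) : Q.dE y f i v = Q.dE y g i v := by
  unfold RadData.dE
  rw [h.fderiv_eq, h.eq_of_nhds]

/-- joint version of `dE` -/
def DJ (Q : RadData P W U D) (i : Fin 4) (f : ℝ × P × Eu4 → W →L[ℝ] W) (x : ℝ × P × Eu4) :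
    W →L[ℝ] W := fderiv ℝ f x (0, 0, ev4 i) + (Q.B x.2 i).comp (f x)

theorem dE_eq (Q : RadData P W U D) (i : Fin 4) {f : ℝ × P × Eu4 → W →L[ℝ] W}
    {x : ℝ × P × Eu4} (hf : DifferentiableAt ℝ f x) :
    Q.dE x.2.1 (fun v' => f (x.1, x.2.1, v')) i x.2.2 = DJ Q i f x := by
  unfold RadData.dE DJ
  rw [fderiv_slice hf]

/-- joint version of `lapE` -/
def LJ (Q : RadData P W U D) (f : ℝ × P × Eu4 → W →L[ℝ] W) (x : ℝ × P × Eu4) : W →L[ℝ] W :=
  - (Q.J x.2)⁻¹ • ∑ i, DJ Q i (fun x' => ∑ j, (Q.J x'.2 * Q.gi x'.2 i j) • DJ Q j f x') x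

variable {Ω : Set (ℝ × P × Eu4)}

theorem contDiffOn_DJ (Q : RadData P W U D) (hΩ : IsOpen Ω)
    (hsub : ∀ x ∈ Ω, x.2 ∈ U ×ˢ Metric.ball (0 : Eu4) D) (i : Fin 4)
    {f : ℝ × P × Eu4 → W →L[ℝ] W} (hf : ContDiffOn ℝ ∞ f Ω) : ContDiffOn ℝ ∞ (DJ Q i f) Ω := by
  have h1 : ContDiffOn ℝ ∞ (fun x => fderiv ℝ f x (0, 0, ev4 i)) Ω :=
    (hf.fderiv_of_isOpen hΩ (m := ∞) (by simp)).clm_apply contDiffOn_const
  have h2 : ContDiffOn ℝ ∞ (fun x : ℝ × P × Eu4 => Q.B x.2 i) Ω :=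
    (contDiffOn_pi.1 Q.B_smooth i).comp contDiff_snd.contDiffOn fun x hx => hsub x hx
  exact h1.add (h2.clm_comp hf)

theorem contDiffOn_flux (Q : RadData P W U D) (hΩ : IsOpen Ω)
    (hsub : ∀ x ∈ Ω, x.2 ∈ U ×ˢ Metric.ball (0 : Eu4) D) (i : Fin 4)
    {f : ℝ × P × Eu4 → W →L[ℝ] W} (hf : ContDiffOn ℝ ∞ f Ω) :
    ContDiffOn ℝ ∞ (fun x' => ∑ j, (Q.J x'.2 * Q.gi x'.2 i j) • DJ Q j f x') Ω := by
  have hJ : ContDiffOn ℝ ∞ (fun x : ℝ × P × Eu4 => Q.J x.2) Ω :=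
    Q.J_smooth.comp contDiff_snd.contDiffOn fun x hx => hsub x hx
  have hg : ∀ j, ContDiffOn ℝ ∞ (fun x : ℝ × P × Eu4 => Q.gi x.2 i j) Ω := fun j =>
    (contDiffOn_pi.1 (contDiffOn_pi.1 Q.gi_smooth i) j).comp contDiff_snd.contDiffOn
      fun x hx => hsub x hx
  exact ContDiffOn.sum fun j _ => (hJ.mul (hg j)).smul (contDiffOn_DJ Q hΩ hsub j hf)

theorem contDiffOn_LJ (Q : RadData P W U D) (hΩ : IsOpen Ω)
    (hsub : ∀ x ∈ Ω, x.2 ∈ U ×ˢ Metric.ball (0 : Eu4) D)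
    {f : ℝ × P × Eu4 → W →L[ℝ] W} (hf : ContDiffOn ℝ ∞ f Ω) : ContDiffOn ℝ ∞ (LJ Q f) Ω := by
  have hJ : ContDiffOn ℝ ∞ (fun x : ℝ × P × Eu4 => Q.J x.2) Ω :=
    Q.J_smooth.comp contDiff_snd.contDiffOn fun x hx => hsub x hx
  have hJ' : ContDiffOn ℝ ∞ (fun x : ℝ × P × Eu4 => -(Q.J x.2)⁻¹) Ω :=
    (hJ.inv fun _ hx => (Q.J_pos _ (hsub _ hx)).ne').neg
  exact hJ'.smul (ContDiffOn.sum fun i _ =>
    contDiffOn_DJ Q hΩ hsub i (contDiffOn_flux Q hΩ hsub i hf))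

theorem lapE_eq (Q : RadData P W U D) (hΩ : IsOpen Ω)
    (hsub : ∀ x ∈ Ω, x.2 ∈ U ×ˢ Metric.ball (0 : Eu4) D)
    {f : ℝ × P × Eu4 → W →L[ℝ] W} (hf : ContDiffOn ℝ ∞ f Ω) {x : ℝ × P × Eu4} (hx : x ∈ Ω) :
    Q.lapE x.2.1 (fun v' => f (x.1, x.2.1, v')) x.2.2 = LJ Q f x := by
  have hne : (1 : WithTop ℕ∞) ≤ ∞ := by exact_mod_cast le_top
  have hdf : ∀ x ∈ Ω, DifferentiableAt ℝ f x := fun x hx =>
    (hf.contDiffAt (hΩ.mem_nhds hx)).differentiableAt (by simp)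
  have hcont : Continuous fun v' : Eu4 => ((x.1, x.2.1, v') : ℝ × P × Eu4) := by fun_prop
  have hnear : ∀ᶠ v' in 𝓝 x.2.2, ((x.1, x.2.1, v') : ℝ × P × Eu4) ∈ Ω :=
    hcont.continuousAt.eventually_mem (hΩ.mem_nhds hx)
  unfold RadData.lapE LJ
  congr 1
  refine Finset.sum_congr rfl fun i _ => ?_
  have h1 : (fun v' => ∑ j, (Q.J (x.2.1, v') * Q.gi (x.2.1, v') i j) •
      Q.dE x.2.1 (fun v' => f (x.1, x.2.1, v')) j v') =ᶠ[𝓝 x.2.2]
      fun v' => (fun x' : ℝ × P × Eu4 => ∑ j, (Q.J x'.2 * Q.gi x'.2 i j) • DJ Q j f x')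
        (x.1, x.2.1, v') := by
    filter_upwards [hnear] with v' hv'
    refine Finset.sum_congr rfl fun j _ => ?_
    rw [← dE_eq Q j (hdf _ hv')]
  have hd : DifferentiableAt ℝ
      (fun x' : ℝ × P × Eu4 => ∑ j, (Q.J x'.2 * Q.gi x'.2 i j) • DJ Q j f x') x :=
    ((contDiffOn_flux Q hΩ hsub i hf).contDiffAt (hΩ.mem_nhds hx)).differentiableAt (by simp)
  rw [← dE_eq Q i hd]
  exact dE_congr Q h1

/-- `lapE` of a jointly smooth family is jointly smooth. -/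
theorem contDiffOn_lapE (Q : RadData P W U D) (hΩ : IsOpen Ω)
    (hsub : ∀ x ∈ Ω, x.2 ∈ U ×ˢ Metric.ball (0 : Eu4) D)
    {f : ℝ × P × Eu4 → W →L[ℝ] W} (hf : ContDiffOn ℝ ∞ f Ω) :
    ContDiffOn ℝ ∞ (fun x => Q.lapE x.2.1 (fun v' => f (x.1, x.2.1, v')) x.2.2) Ω :=
  (contDiffOn_LJ Q hΩ hsub hf).congr fun _ hx => lapE_eq Q hΩ hsub hf hx

/-- `lapE` only depends on the germ -/
theorem lapE_congr (Q : RadData P W U D) {y : P} {f g : Eu4 → W →L[ℝ] W} {v : Eu4}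
    (h : f =ᶠ[𝓝 v] g) : Q.lapE y f v = Q.lapE y g v := by
  have h1 : ∀ i, (fun v' => Q.dE y f i v') =ᶠ[𝓝 v] fun v' => Q.dE y g i v' := by
    intro i
    filter_upwards [h.eventuallyEq_nhds] with v' hv'
    exact dE_congr Q hv'
  unfold RadData.lapE
  congr 1
  refine Finset.sum_congr rfl fun i _ => ?_
  have h2 : (fun v' => ∑ j, (Q.J (y, v') * Q.gi (y, v') i j) • Q.dE y f j v') =ᶠ[𝓝 v]
      fun v' => ∑ j, (Q.J (y, v') * Q.gi (y, v') i j) • Q.dE y g j v' := by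
    have h3 : ∀ᶠ v' in 𝓝 v, ∀ j, Q.dE y f j v' = Q.dE y g j v' :=
      eventually_all.2 fun j => h1 j
    filter_upwards [h3] with v' hv'
    exact Finset.sum_congr rfl fun j _ => by rw [hv' j]
  exact dE_congr Q h2

theorem lapE_zero (Q : RadData P W U D) (y : P) (v : Eu4) :
    Q.lapE y (fun _ => (0 : W →L[ℝ] W)) v = 0 := by
  unfold RadData.lapE RadData.dE
  simp

/-- cut-off function of the radial coordinate -/
structure Cut (D : ℝ) (χ : Eu4 → ℝ) : Prop where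
  smooth : ContDiff ℝ ∞ χ
  abs_le : ∀ v, |χ v| ≤ 1
  one : ∀ v, ‖v‖ ≤ D / 4 → χ v = 1
  zero : ∀ v, D / 2 ≤ ‖v‖ → χ v = 0

theorem exists_cut {D : ℝ} (hD : 0 < D) : ∃ χ : Eu4 → ℝ, Cut D χ ∧ ∀ v, 0 ≤ χ v := by
  let f : ContDiffBump (0 : Eu4) := ⟨D / 4, D / 2, by linarith, by linarith⟩
  refine ⟨f, ⟨f.contDiff, fun v => ?_, fun v hv => ?_, fun v hv => ?_⟩, fun v => f.nonneg⟩
  · rw [abs_of_nonneg f.nonneg]; exact f.le_one
  · exact f.one_of_mem_closedBall (by simpa [mem_closedBall_zero_iff] using hv)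
  · exact f.zero_of_le_dist (by simpa [dist_zero_right] using hv)

/-! ### smoothness of the ingredients -/

theorem contDiffOn_gau : ContDiffOn ℝ ∞ (fun x : ℝ × Eu4 => gau x.1 x.2) {x | 0 < x.1} := by
  unfold gau
  refine ContDiffOn.mul ?_ ?_
  · refine ContDiffOn.inv (by fun_prop) fun x hx => ?_
    have : (0 : ℝ) < 4 * Real.pi * x.1 := by have := Real.pi_pos; have hx' : 0 < x.1 := hx; positivity
    positivity
  · refine ContDiffOn.exp (ContDiffOn.div ?_ (by fun_prop) fun x hx => ?_)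
    · exact (contDiff_snd.norm_sq ℝ).neg.contDiffOn
    · have hx' : 0 < x.1 := hx
      positivity

/-- the extension by zero of `t^a exp (-|v|²/4t)` -/
def fl (a : ℤ) (t : ℝ) (v : Eu4) : ℝ :=
  if t ≤ 0 then 0 else t ^ a * Real.exp (-‖v‖ ^ 2 / (4 * t))

theorem gau_mul_pow {t : ℝ} (ht : 0 < t) (k : ℕ) (v : Eu4) :
    gau t v * t ^ k = (16 * Real.pi ^ 2)⁻¹ * fl ((k : ℤ) - 2) t v := by
  unfold gau fl
  rw [if_neg (not_le.2 ht), zpow_sub₀ ht.ne', zpow_natCast]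
  have : (t : ℝ) ^ (2 : ℤ) = t ^ 2 := by norm_cast
  rw [this]
  field_simp
  ring

variable {Q : RadData P W U D}

theorem contDiffOn_uu [FiniteDimensional ℝ P] [FiniteDimensional ℝ W] (h2 : EU2Stmt)
    (Q : RadData P W U D) (k : ℕ) :
    ContDiffOn ℝ ∞ (Q.uu k) (U ×ˢ Metric.ball 0 D) := by
  have h := (h2 P W U D Q).1 k
  unfold RadData.uu
  refine cdo_smul ?_ h
  refine ContDiffOn.inv (Q.J_smooth.sqrt fun x hx => (Q.J_pos x hx).ne') fun x hx => ?_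
  exact (Real.sqrt_pos.2 (Q.J_pos x hx)).ne'

/-- the parametrix is jointly smooth for `t > 0` -/
theorem contDiffOn_par [FiniteDimensional ℝ P] [FiniteDimensional ℝ W] (h2 : EU2Stmt)
    (Q : RadData P W U D) (N : ℕ) :
    ContDiffOn ℝ ∞ (fun x : ℝ × P × Eu4 => Q.par N x.1 x.2)
      {x | 0 < x.1 ∧ x.2 ∈ U ×ˢ Metric.ball (0 : Eu4) D} := by
  unfold RadData.par
  refine cdo_smul ?_ (ContDiffOn.sum fun k _ => cdo_smul ?_ ?_)
  · exact contDiffOn_gau.comp (f := fun x : ℝ × P × Eu4 => (x.1, x.2.2))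
      (by fun_prop) fun x hx => hx.1
  · fun_prop
  · exact (contDiffOn_uu h2 Q k).comp contDiff_snd.contDiffOn fun x hx => hx.2

/-- the parametrix, extended by zero to `t ≤ 0` -/
def parX (Q : RadData P W U D) (N : ℕ) (x : ℝ × P × Eu4) : W →L[ℝ] W :=
  if x.1 ≤ 0 then 0 else Q.par N x.1 x.2

theorem parX_eq (Q : RadData P W U D) (N : ℕ) (x : ℝ × P × Eu4) :
    parX Q N x = ∑ k ∈ Finset.range (N + 1),
      ((16 * Real.pi ^ 2)⁻¹ * fl ((k : ℤ) - 2) x.1 x.2.2) • Q.uu k x.2 := by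
  unfold parX
  split_ifs with h
  · refine (Finset.sum_eq_zero fun k _ => ?_).symm
    simp [fl, h]
  · rw [not_le] at h
    unfold RadData.par
    rw [Finset.smul_sum]
    refine Finset.sum_congr rfl fun k _ => ?_
    rw [smul_smul, gau_mul_pow h]

theorem contDiffOn_parX [FiniteDimensional ℝ P] [FiniteDimensional ℝ W] (h1 : EU1Stmt)
    (h2 : EU2Stmt) (Q : RadData P W U D) (N : ℕ) {c : ℝ} (hc : 0 < c) :
    ContDiffOn ℝ ∞ (parX Q N) {x | c < ‖x.2.2‖ ∧ x.2 ∈ U ×ˢ Metric.ball (0 : Eu4) D} := by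
  have h : parX Q N = fun x => ∑ k ∈ Finset.range (N + 1),
      ((16 * Real.pi ^ 2)⁻¹ * fl ((k : ℤ) - 2) x.1 x.2.2) • Q.uu k x.2 := by
    funext x; exact parX_eq Q N x
  rw [h]
  refine ContDiffOn.sum fun k _ => cdo_smul (contDiffOn_const.mul ?_) ?_
  · exact (h1.2 ((k : ℤ) - 2) c hc).comp (f := fun x : ℝ × P × Eu4 => (x.1, x.2.2))
      (by fun_prop) fun x hx => hx.1
  · exact (contDiffOn_uu h2 Q k).comp contDiff_snd.contDiffOn fun x hx => hx.2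

end EU5

open EU5

/-- the error term of the cut-off parametrix `χ · par N t` (zero for `t ≤ 0`) -/
def RadData.err (Q : RadData P W U D) (χ : Eu4 → ℝ) (N : ℕ) (t : ℝ) (x : P × Eu4) : W →L[ℝ] W :=
  if t ≤ 0 then 0 else
    (χ x.2 * gau t x.2 * t ^ N) • Q.lapE x.1 (fun v' => Q.uu N (x.1, v')) x.2 +
      (Q.lapE x.1 (fun v' => χ v' • Q.par N t (x.1, v')) x.2 -
        χ x.2 • Q.lapE x.1 (fun v' => Q.par N t (x.1, v')) x.2)

namespace RadData

variable [FiniteDimensional ℝ P] [FiniteDimensional ℝ W]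

omit [FiniteDimensional ℝ P] [FiniteDimensional ℝ W] in
theorem err_of_nonpos (Q : RadData P W U D) (χ : Eu4 → ℝ) (N : ℕ) {t : ℝ} (ht : t ≤ 0)
    (x : P × Eu4) : Q.err χ N t x = 0 := if_pos ht

/-- (a) the heat equation of the cut-off parametrix -/
theorem hasDerivAt_chi_par (h2 : EU2Stmt) (Q : RadData P W U D) (χ : Eu4 → ℝ) (N : ℕ) {t : ℝ}
    (ht : 0 < t) {y : P} (hy : y ∈ U) {v : Eu4} (hv : v ∈ Metric.ball (0 : Eu4) D) :
    HasDerivAt (fun s => χ v • Q.par N s (y, v))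
      (Q.err χ N t (y, v) - Q.lapE y (fun v' => χ v' • Q.par N t (y, v')) v) t := by
  have h := ((h2 P W U D Q).2 N t ht y hy v hv).const_smul (χ v)
  have h3 : Q.err χ N t (y, v) - Q.lapE y (fun v' => χ v' • Q.par N t (y, v')) v =
      χ v • ((gau t v * t ^ N) • Q.lapE y (fun v' => Q.uu N (y, v')) v -
        Q.lapE y (fun v' => Q.par N t (y, v')) v) := by
    unfold err
    rw [if_neg (not_le.2 ht)]
    simp only
    rw [smul_sub, smul_smul, mul_assoc]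
    abel
  rw [h3]
  exact h

/-- the part of the error term containing derivatives of the cut-off -/
def errK (Q : RadData P W U D) (χ : Eu4 → ℝ) (N : ℕ) (x : ℝ × P × Eu4) : W →L[ℝ] W :=
  Q.lapE x.2.1 (fun v' => χ v' • parX Q N (x.1, x.2.1, v')) x.2.2 -
    χ x.2.2 • Q.lapE x.2.1 (fun v' => parX Q N (x.1, x.2.1, v')) x.2.2

omit [FiniteDimensional ℝ P] [FiniteDimensional ℝ W] in
theorem err_eq (Q : RadData P W U D) (χ : Eu4 → ℝ) (N : ℕ) (x : ℝ × P × Eu4) :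
    Q.err χ N x.1 x.2 = (χ x.2.2 * ((16 * Real.pi ^ 2)⁻¹ * fl ((N : ℤ) - 2) x.1 x.2.2)) •
      Q.lapE x.2.1 (fun v' => Q.uu N (x.2.1, v')) x.2.2 + Q.errK χ N x := by
  unfold err errK
  split_ifs with h
  · simp [parX, h, fl, lapE_zero]
  · rw [not_le] at h
    rw [mul_assoc, gau_mul_pow h]
    simp [parX, not_le.2 h]

theorem contDiffAt_errK (h1 : EU1Stmt) (h2 : EU2Stmt) (Q : RadData P W U D) {χ : Eu4 → ℝ}
    (hχ : Cut D χ) (N : ℕ) {x : ℝ × P × Eu4} (hx : x.2 ∈ U ×ˢ Metric.ball (0 : Eu4) D) :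
    ContDiffAt ℝ ∞ (Q.errK χ N) x := by
  have hD := Q.D_pos
  have hcv : Continuous fun x : ℝ × P × Eu4 => ‖x.2.2‖ := by fun_prop
  by_cases hv : ‖x.2.2‖ < D / 4
  · -- near `x` the term vanishes
    have hopen : ∀ᶠ x' in 𝓝 x, ‖x'.2.2‖ < D / 4 := hcv.continuousAt.eventually_lt_const hv
    have : Q.errK χ N =ᶠ[𝓝 x] fun _ => 0 := by
      filter_upwards [hopen] with x' hx'
      unfold errK
      have h3 : (fun v' => χ v' • parX Q N (x'.1, x'.2.1, v')) =ᶠ[𝓝 x'.2.2]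
          fun v' => parX Q N (x'.1, x'.2.1, v') := by
        have : ∀ᶠ v' in 𝓝 x'.2.2, ‖v'‖ < D / 4 :=
          continuous_norm.continuousAt.eventually_lt_const hx'
        filter_upwards [this] with v' hv'
        rw [hχ.one v' hv'.le, one_smul]
      rw [lapE_congr Q h3, hχ.one _ hx'.le, one_smul, sub_self]
    exact contDiffAt_const.congr_of_eventuallyEq this
  · rw [not_lt] at hv
    set Ω : Set (ℝ × P × Eu4) := {x | D / 8 < ‖x.2.2‖ ∧ x.2 ∈ U ×ˢ Metric.ball (0 : Eu4) D} with hΩd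
    have hΩ : IsOpen Ω := (isOpen_lt continuous_const hcv).inter
      ((Q.U_open.prod Metric.isOpen_ball).preimage continuous_snd)
    have hsub : ∀ x ∈ Ω, x.2 ∈ U ×ˢ Metric.ball (0 : Eu4) D := fun x hx => hx.2
    have hxΩ : x ∈ Ω := ⟨by linarith, hx⟩
    have hp := contDiffOn_parX h1 h2 Q N (c := D / 8) (by linarith)
    have hp1 : ContDiffOn ℝ ∞ (fun x : ℝ × P × Eu4 => χ x.2.2 • parX Q N x) Ω :=
      cdo_smul (hχ.smooth.comp_contDiffOn (by fun_prop)) hp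
    have h3 := contDiffOn_lapE Q hΩ hsub hp1
    have h4 := contDiffOn_lapE Q hΩ hsub hp
    have h5 : ContDiffOn ℝ ∞ (Q.errK χ N) Ω :=
      h3.sub (cdo_smul (hχ.smooth.comp_contDiffOn (by fun_prop)) h4)
    exact h5.contDiffAt (hΩ.mem_nhds hxΩ)

theorem contDiffOn_lap_uu (h2 : EU2Stmt) (Q : RadData P W U D) (N : ℕ) :
    ContDiffOn ℝ ∞ (fun x : ℝ × P × Eu4 => Q.lapE x.2.1 (fun v' => Q.uu N (x.2.1, v')) x.2.2)
      (univ ×ˢ (U ×ˢ Metric.ball 0 D)) := by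
  have hΩ : IsOpen (univ ×ˢ (U ×ˢ Metric.ball 0 D) : Set (ℝ × P × Eu4)) :=
    isOpen_univ.prod (Q.U_open.prod Metric.isOpen_ball)
  exact contDiffOn_lapE Q hΩ (fun x hx => hx.2) (f := fun x => Q.uu N x.2)
    ((contDiffOn_uu h2 Q N).comp contDiff_snd.contDiffOn fun x hx => hx.2)

/-- (b) joint smoothness of the error term up to `t = 0` -/
theorem err_contDiffOn (h1 : EU1Stmt) (h2 : EU2Stmt) (Q : RadData P W U D) {χ : Eu4 → ℝ}
    (hχ : Cut D χ) (m N : ℕ) (hN : 2 * m + 3 ≤ N) :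
    ContDiffOn ℝ m (fun x : ℝ × P × Eu4 => Q.err χ N x.1 x.2)
      (univ ×ˢ (U ×ˢ Metric.ball 0 D)) := by
  have h : (fun x : ℝ × P × Eu4 => Q.err χ N x.1 x.2) = fun x =>
      (χ x.2.2 * ((16 * Real.pi ^ 2)⁻¹ * fl ((N : ℤ) - 2) x.1 x.2.2)) •
      Q.lapE x.2.1 (fun v' => Q.uu N (x.2.1, v')) x.2.2 + Q.errK χ N x := by
    funext x; exact Q.err_eq χ N x
  rw [h]
  refine ContDiffOn.add (cdo_smul (ContDiffOn.mul ?_ (contDiffOn_const.mul ?_)) ?_) ?_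
  · exact ((hχ.smooth.of_le (by exact_mod_cast le_top)).comp_contDiffOn (by fun_prop))
  · obtain ⟨n, rfl⟩ : ∃ n, N = n + 2 := ⟨N - 2, by omega⟩
    have h3 := h1.1 m n (by omega)
    have h4 : (fun x : ℝ × P × Eu4 => fl (((n + 2 : ℕ) : ℤ) - 2) x.1 x.2.2) = fun x =>
        (fun x : ℝ × Eu4 => if x.1 ≤ 0 then (0 : ℝ) else
          x.1 ^ n * Real.exp (-‖x.2‖ ^ 2 / (4 * x.1))) (x.1, x.2.2) := by
      funext x
      unfold fl
      simp only
      congr 2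
      push_cast
      rw [add_sub_cancel_right, zpow_natCast]
    rw [h4]
    exact (h3.comp (f := fun x : ℝ × P × Eu4 => (x.1, x.2.2)) (by fun_prop)).contDiffOn
  · exact (contDiffOn_lap_uu h2 Q N).of_le (by exact_mod_cast le_top)
  · intro x hx
    exact ((contDiffAt_errK h1 h2 Q hχ N hx.2).of_le (by exact_mod_cast le_top)).contDiffWithinAt

/-- (b') smoothness for `t > 0` and every `N` -/
theorem err_contDiffAt_pos (h1 : EU1Stmt) (h2 : EU2Stmt) (Q : RadData P W U D) {χ : Eu4 → ℝ}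
    (hχ : Cut D χ) (N : ℕ) {x : ℝ × P × Eu4} (ht : 0 < x.1)
    (hx : x.2 ∈ U ×ˢ Metric.ball (0 : Eu4) D) :
    ContDiffAt ℝ ∞ (fun x : ℝ × P × Eu4 => Q.err χ N x.1 x.2) x := by
  have h : (fun x : ℝ × P × Eu4 => Q.err χ N x.1 x.2) =ᶠ[𝓝 x] fun x =>
      (χ x.2.2 * (gau x.1 x.2.2 * x.1 ^ N)) •
      Q.lapE x.2.1 (fun v' => Q.uu N (x.2.1, v')) x.2.2 + Q.errK χ N x := by
    filter_upwards [(isOpen_lt continuous_const continuous_fst).mem_nhds ht] with x' hx'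
    rw [Q.err_eq χ N x', gau_mul_pow hx']
  refine ContDiffAt.congr_of_eventuallyEq ?_ h
  refine ContDiffAt.add (cda_smul (ContDiffAt.mul ?_ (ContDiffAt.mul ?_ ?_)) ?_) ?_
  · exact hχ.smooth.contDiffAt.comp x (by fun_prop)
  · have h3 : ContDiffAt ℝ ∞ (fun x : ℝ × Eu4 => gau x.1 x.2) (x.1, x.2.2) :=
      contDiffOn_gau.contDiffAt ((isOpen_lt continuous_const continuous_fst).mem_nhds ht)
    exact h3.comp x (f := fun x : ℝ × P × Eu4 => (x.1, x.2.2)) (by fun_prop)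
  · fun_prop
  · exact (contDiffOn_lap_uu h2 Q N).contDiffAt
      ((isOpen_univ.prod (Q.U_open.prod Metric.isOpen_ball)).mem_nhds ⟨mem_univ _, hx⟩)
  · exact contDiffAt_errK h1 h2 Q hχ N hx

/-- (c) support of the error term -/
theorem err_eq_zero (h1 : EU1Stmt) (h2 : EU2Stmt) (Q : RadData P W U D) {χ : Eu4 → ℝ}
    (hχ : Cut D χ) (N : ℕ) (t : ℝ) {y : P} (hy : y ∈ U) {v : Eu4} (hv : D / 2 ≤ ‖v‖) :
    Q.err χ N t (y, v) = 0 := by
  have hD := Q.D_pos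
  rcases le_or_gt t 0 with ht | ht
  · exact Q.err_of_nonpos χ N ht _
  have key : ∀ v : Eu4, D / 2 < ‖v‖ → Q.err χ N t (y, v) = 0 := by
    intro v hv
    unfold err
    rw [if_neg (not_le.2 ht), hχ.zero v hv.le]
    have h3 : (fun v' => χ v' • Q.par N t (y, v')) =ᶠ[𝓝 v] fun _ => 0 := by
      filter_upwards [continuous_norm.continuousAt.eventually_const_lt hv] with v' hv'
      rw [hχ.zero v' hv'.le, zero_smul]
    simp only [lapE_congr Q h3, lapE_zero]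
    simp
  rcases hv.lt_or_eq with h | h
  · exact key v h
  · -- boundary case by continuity
    have hvb : v ∈ Metric.ball (0 : Eu4) D := by
      rw [mem_ball_zero_iff, ← h]; linarith
    have hc : ContinuousAt (fun v' : Eu4 => Q.err χ N t (y, v')) v :=
      ContinuousAt.comp (f := fun v' : Eu4 => (t, y, v'))
        (g := fun x : ℝ × P × Eu4 => Q.err χ N x.1 x.2)
        (err_contDiffAt_pos h1 h2 Q hχ N (x := (t, y, v)) ht ⟨hy, hvb⟩).continuousAt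
        (by fun_prop)
    have hc2 : ContinuousAt (fun s : ℝ => Q.err χ N t (y, s • v)) 1 := by
      have : ContinuousAt (fun v' : Eu4 => Q.err χ N t (y, v')) ((1 : ℝ) • v) := by
        rwa [one_smul]
      exact ContinuousAt.comp (f := fun s : ℝ => s • v)
        (g := fun v' : Eu4 => Q.err χ N t (y, v')) this (by fun_prop)
    have h4 : Tendsto (fun s : ℝ => Q.err χ N t (y, s • v)) (𝓝[>] 1) (𝓝 0) := by
      refine tendsto_const_nhds.congr' ?_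
      filter_upwards [self_mem_nhdsWithin] with s hs
      refine (key _ ?_).symm
      rw [norm_smul, Real.norm_eq_abs, abs_of_pos (by have : (1 : ℝ) < s := hs; linarith), ← h]
      have : (1 : ℝ) < s := hs
      nlinarith
    have h5 := tendsto_nhds_unique (hc2.tendsto.mono_left nhdsWithin_le_nhds) h4
    simpa using h5

/-- (d) the error term is `O(t)`, locally uniformly in the centre -/
theorem err_le (h1 : EU1Stmt) (h2 : EU2Stmt) (Q : RadData P W U D) {χ : Eu4 → ℝ}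
    (hχ : Cut D χ) (N : ℕ) (hN : 5 ≤ N) {K : Set P} (hK : IsCompact K) (hKU : K ⊆ U) :
    ∃ C : ℝ, 0 ≤ C ∧ ∀ t ∈ Icc (0 : ℝ) 1, ∀ y ∈ K, ∀ v, ‖Q.err χ N t (y, v)‖ ≤ C * t := by
  have hD := Q.D_pos
  have hΩ : IsOpen (univ ×ˢ (U ×ˢ Metric.ball 0 D) : Set (ℝ × P × Eu4)) :=
    isOpen_univ.prod (Q.U_open.prod Metric.isOpen_ball)
  have hsm := err_contDiffOn h1 h2 Q hχ 1 N (by omega)
  set g : ℝ × P × Eu4 → W →L[ℝ] W := fun x => Q.err χ N x.1 x.2 with hg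
  set S : Set (ℝ × P × Eu4) := Icc 0 1 ×ˢ (K ×ˢ Metric.closedBall 0 (D / 2)) with hS
  have hSc : IsCompact S := isCompact_Icc.prod (hK.prod (isCompact_closedBall _ _))
  have hSsub : S ⊆ univ ×ˢ (U ×ˢ Metric.ball 0 D) := by
    rintro ⟨t, y, v⟩ ⟨-, hy, hv⟩
    refine ⟨mem_univ _, hKU hy, ?_⟩
    rw [mem_closedBall_zero_iff] at hv
    rw [mem_ball_zero_iff]
    simp only at hv ⊢
    linarith
  obtain ⟨C, hC⟩ : ∃ C, ∀ x ∈ S, ‖fderiv ℝ g x‖ ≤ C := by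
    have hcn : ContinuousOn (fun x => ‖fderiv ℝ g x‖) S :=
      (continuous_norm.comp_continuousOn (hsm.continuousOn_fderiv_of_isOpen hΩ (by simp))).mono
        hSsub
    obtain ⟨C, hC⟩ := hSc.bddAbove_image hcn
    exact ⟨C, fun x hx => hC (mem_image_of_mem _ hx)⟩
  refine ⟨max C 0, le_max_right _ _, fun t ht y hy v => ?_⟩
  rcases le_or_gt (D / 2) ‖v‖ with hv | hv
  · rw [err_eq_zero h1 h2 Q hχ N t (hKU hy) hv, norm_zero]
    exact mul_nonneg (le_max_right _ _) ht.1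
  have hmem : ∀ s ∈ Icc (0 : ℝ) t, ((s, y, v) : ℝ × P × Eu4) ∈ S := fun s hs =>
    ⟨⟨hs.1, hs.2.trans ht.2⟩, hy, by rw [mem_closedBall_zero_iff]; exact hv.le⟩
  have hd : ∀ s ∈ Icc (0 : ℝ) t,
      HasDerivAt (fun s => Q.err χ N s (y, v)) (fderiv ℝ g (s, y, v) (1, 0)) s := by
    intro s hs
    have hda : DifferentiableAt ℝ g (s, y, v) :=
      (hsm.contDiffAt (hΩ.mem_nhds (hSsub (hmem s hs)))).differentiableAt (by simp)
    have h3 : HasDerivAt (fun s : ℝ => ((s, y, v) : ℝ × P × Eu4)) (1, 0) s :=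
      (hasDerivAt_id s).prodMk (hasDerivAt_const s _)
    exact HasFDerivAt.comp_hasDerivAt (f := fun s : ℝ => ((s, y, v) : ℝ × P × Eu4)) s
      hda.hasFDerivAt h3
  have h4 : ∀ s ∈ Icc (0 : ℝ) t, ‖fderiv ℝ g (s, y, v) (1, 0)‖ ≤ max C 0 := by
    intro s hs
    calc ‖fderiv ℝ g (s, y, v) (1, 0)‖ ≤ ‖fderiv ℝ g (s, y, v)‖ * ‖((1 : ℝ), (0 : P × Eu4))‖ :=
          ContinuousLinearMap.le_opNorm _ _
      _ ≤ max C 0 * 1 := by
          gcongr
          · exact (hC _ (hmem s hs)).trans (le_max_left _ _)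
          · simp [Prod.norm_def]
      _ = max C 0 := mul_one _
  have h5 := (convex_Icc (0 : ℝ) t).norm_image_sub_le_of_norm_hasDerivWithin_le
    (f := fun s => Q.err χ N s (y, v)) (fun s hs => (hd s hs).hasDerivWithinAt) h4
    (left_mem_Icc.2 ht.1) (right_mem_Icc.2 ht.1)
  rw [Q.err_of_nonpos χ N le_rfl, sub_zero, sub_zero, Real.norm_eq_abs, abs_of_nonneg ht.1] at h5
  exact h5

end RadData

end

end Vale.Agent.P211.HK
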