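import Mathlib

/-! P211 / HK: FROZEN interface of the Euclidean part (no manifold). captain helper423.

Transport recursion in a ball of `ℝ⁴` with parameters, flat functions, Gaussian limits. -/

namespace Vale.Agent.P211.HK

open Filter Topology MeasureTheory Set
open scoped ContDiff RealInnerProductSpace

noncomputable section

/-- Euclidean four-space -/
abbrev Eu4 : Type := EuclideanSpace ℝ (Fin 4)

/-- coordinate vectors -/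
def ev4 (i : Fin 4) : Eu4 := EuclideanSpace.single i 1

/-- the Gauss kernel -/
def gau (t : ℝ) (v : Eu4) : ℝ := ((4 * Real.pi * t) ^ 2)⁻¹ * Real.exp (-‖v‖ ^ 2 / (4 * t))

/-- Radial data with parameter in `U`: inverse metric, volume density and connection (with values in
the endomorphisms of `W`) in normal coordinates and radial gauge, on the ball of radius `D`. -/
structure RadData (P W : Type) [NormedAddCommGroup P] [NormedSpace ℝ P] [NormedAddCommGroup W]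
    [InnerProductSpace ℝ W] (U : Set P) (D : ℝ) where
  gi : P × Eu4 → Fin 4 → Fin 4 → ℝ
  J : P × Eu4 → ℝ
  B : P × Eu4 → Fin 4 → W →L[ℝ] W
  U_open : IsOpen U
  D_pos : 0 < D
  gi_smooth : ContDiffOn ℝ ∞ gi (U ×ˢ Metric.ball 0 D)
  J_smooth : ContDiffOn ℝ ∞ J (U ×ˢ Metric.ball 0 D)
  B_smooth : ContDiffOn ℝ ∞ B (U ×ˢ Metric.ball 0 D)
  J_pos : ∀ x ∈ U ×ˢ Metric.ball (0 : Eu4) D, 0 < J x
  gi_symm : ∀ x ∈ U ×ˢ Metric.ball (0 : Eu4) D, ∀ i j, gi x i j = gi x j i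
  B_skew : ∀ x ∈ U ×ˢ Metric.ball (0 : Eu4) D, ∀ i (a b : W), ⟪B x i a, b⟫ = - ⟪a, B x i b⟫
  gauss : ∀ x ∈ U ×ˢ Metric.ball (0 : Eu4) D, ∀ i, ∑ j, gi x i j * x.2 j = x.2 i
  radial : ∀ x ∈ U ×ˢ Metric.ball (0 : Eu4) D, ∑ i, x.2 i • B x i = 0
  /-- normalisation at the centre -/
  gi_zero : ∀ y ∈ U, ∀ i j, gi (y, 0) i j = if i = j then 1 else 0
  J_zero : ∀ y ∈ U, J (y, 0) = 1
  gi_crit : ∀ y ∈ U, fderiv ℝ (fun v => gi (y, v)) 0 = 0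
  J_crit : ∀ y ∈ U, fderiv ℝ (fun v => J (y, v)) 0 = 0

variable {P W : Type} [NormedAddCommGroup P] [NormedSpace ℝ P] [NormedAddCommGroup W]
    [InnerProductSpace ℝ W] {U : Set P} {D : ℝ}

namespace RadData

variable (Q : RadData P W U D)

/-- covariant derivative of a `W`-valued function in the direction `i` -/
def dW (y : P) (f : Eu4 → W) (i : Fin 4) (v : Eu4) : W :=
  fderiv ℝ f v (ev4 i) + Q.B (y, v) i (f v)

/-- `∇*∇` of a `W`-valued function: `- J⁻¹ (∂_i + B_i) (J g^{ij} (∂_j + B_j) f)` -/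
def lapW (y : P) (f : Eu4 → W) (v : Eu4) : W :=
  - (Q.J (y, v))⁻¹ • ∑ i, Q.dW y (fun v' => ∑ j, (Q.J (y, v') * Q.gi (y, v') i j) • Q.dW y f j v') i v

/-- covariant derivative of an `End W`-valued function in the direction `i` (acting on the left) -/
def dE (y : P) (f : Eu4 → W →L[ℝ] W) (i : Fin 4) (v : Eu4) : W →L[ℝ] W :=
  fderiv ℝ f v (ev4 i) + (Q.B (y, v) i).comp (f v)

/-- `∇*∇` of an `End W`-valued function -/
def lapE (y : P) (f : Eu4 → W →L[ℝ] W) (v : Eu4) : W →L[ℝ] W :=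
  - (Q.J (y, v))⁻¹ • ∑ i, Q.dE y (fun v' => ∑ j, (Q.J (y, v') * Q.gi (y, v') i j) • Q.dE y f j v') i v

/-- the transport coefficients -/
def cc : ℕ → P × Eu4 → W →L[ℝ] W
  | 0 => fun _ => ContinuousLinearMap.id ℝ W
  | k + 1 => fun x => - ∫ s in (0 : ℝ)..1, s ^ k • (Real.sqrt (Q.J (x.1, s • x.2)) •
      Q.lapE x.1 (fun v => (Real.sqrt (Q.J (x.1, v)))⁻¹ • cc k (x.1, v)) (s • x.2))

/-- `u_k = J^{-1/2} c_k` -/
def uu (k : ℕ) (x : P × Eu4) : W →L[ℝ] W := (Real.sqrt (Q.J x))⁻¹ • Q.cc k x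

/-- the parametrix in the ball (before cut-off) -/
def par (N : ℕ) (t : ℝ) (x : P × Eu4) : W →L[ℝ] W :=
  gau t x.2 • ∑ k ∈ Finset.range (N + 1), t ^ k • Q.uu k x

/-- the sum `∑ t^k c_k` -/
def XX (N : ℕ) (t : ℝ) (x : P × Eu4) : W →L[ℝ] W :=
  ∑ k ∈ Finset.range (N + 1), t ^ k • Q.cc k x

/-- the same radial data with the trivial line bundle -/
def scal : RadData P ℝ U D :=
  { gi := Q.gi, J := Q.J, B := fun _ _ => 0, U_open := Q.U_open, D_pos := Q.D_pos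
    gi_smooth := Q.gi_smooth, J_smooth := Q.J_smooth, B_smooth := contDiffOn_const
    J_pos := Q.J_pos, gi_symm := Q.gi_symm, B_skew := by intros; simp
    gauss := Q.gauss, radial := by intros; simp
    gi_zero := Q.gi_zero, J_zero := Q.J_zero, gi_crit := Q.gi_crit, J_crit := Q.J_crit }

/-- curvature at the centre: `Ω_{ji} = 2 ∂_j B_i (0)` -/
def Omg (y : P) (j i : Fin 4) : W →L[ℝ] W :=
  (2 : ℝ) • fderiv ℝ (fun v => Q.B (y, v) i) 0 (ev4 j)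

end RadData

/-- EU1: flat functions. -/
def EU1Stmt : Prop :=
  (∀ m n : ℕ, 2 * m + 1 ≤ n → ContDiff ℝ m (fun x : ℝ × Eu4 =>
    if x.1 ≤ 0 then (0 : ℝ) else x.1 ^ n * Real.exp (-‖x.2‖ ^ 2 / (4 * x.1)))) ∧
  (∀ (a : ℤ) (c : ℝ), 0 < c → ContDiffOn ℝ ∞ (fun x : ℝ × Eu4 =>
    if x.1 ≤ 0 then (0 : ℝ) else x.1 ^ a * Real.exp (-‖x.2‖ ^ 2 / (4 * x.1))) {x | c < ‖x.2‖})

/-- EU2: smoothness of the transport coefficients and the heat equation of the parametrix. -/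
def EU2Stmt : Prop :=
  ∀ (P W : Type) [NormedAddCommGroup P] [NormedSpace ℝ P] [FiniteDimensional ℝ P]
    [NormedAddCommGroup W] [InnerProductSpace ℝ W] [FiniteDimensional ℝ W]
    (U : Set P) (D : ℝ) (Q : RadData P W U D),
    (∀ k, ContDiffOn ℝ ∞ (Q.cc k) (U ×ˢ Metric.ball 0 D)) ∧
    ∀ (N : ℕ) (t : ℝ), 0 < t → ∀ y ∈ U, ∀ v ∈ Metric.ball (0 : Eu4) D,
      HasDerivAt (fun s => Q.par N s (y, v))
        ((gau t v * t ^ N) • Q.lapE y (fun v' => Q.uu N (y, v')) v -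
          Q.lapE y (fun v' => Q.par N t (y, v')) v) t

/-- EU3: Gaussian limits (curvature term, leading term). -/
def EU3Stmt : Prop :=
  ∀ (Y : Type) [MeasurableSpace Y] (ν : Measure Y) [IsFiniteMeasure ν] (D : ℝ) (χ : Eu4 → ℝ),
    0 < D → Measurable χ → (∀ v, |χ v| ≤ 1) → (∀ v, ‖v‖ ≤ D / 4 → χ v = 1) →
    (∀ v, D / 2 ≤ ‖v‖ → χ v = 0) →
    (∀ (q : ℝ → Y × Eu4 → ℝ) (A : Y → Fin 4 → Fin 4 → ℝ) (b : Y → ℝ) (C : ℝ),
      (∀ t, Measurable (q t)) → (∀ i j, Measurable fun y => A y i j) → Measurable b →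
      (∀ y i j, |A y i j| ≤ C) → (∀ y, |b y| ≤ C) →
      (∀ t ∈ Ioc (0 : ℝ) 1, ∀ y v, ‖v‖ ≤ D / 2 →
        |q t (y, v) - t * (∑ i, ∑ j, A y i j * v i * v j) - t ^ 2 * b y| ≤
          C * (t * ‖v‖ ^ 3 + t ^ 2 * ‖v‖ + t ^ 3)) →
      Tendsto (fun t => ∫ y, (∫ v : Eu4, χ v ^ 2 * gau t v ^ 2 * q t (y, v)) ∂ν) (𝓝[>] 0)
        (𝓝 ((64 * Real.pi ^ 2)⁻¹ * ∫ y, ((∑ i, A y i i) + b y) ∂ν))) ∧
    (∀ (x : ℝ → Y × Eu4 → ℝ) (C : ℝ), (∀ t, Measurable (x t)) →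
      (∀ t ∈ Ioc (0 : ℝ) 1, ∀ y v, ‖v‖ ≤ D / 2 → |x t (y, v) - 1| ≤ C * (t + ‖v‖)) →
      Tendsto (fun t => t ^ 2 * ∫ y, (∫ v : Eu4, χ v ^ 2 * gau t v ^ 2 * x t (y, v) ^ 2) ∂ν) (𝓝[>] 0)
        (𝓝 ((64 * Real.pi ^ 2)⁻¹ * ν.real univ)))

/-- EU4: Taylor expansion of the Hilbert-Schmidt norm of the parametrix; `Π` is an orthogonal
projection commuting with the connection. -/
def EU4Stmt : Prop :=
  ∀ (P W : Type) [NormedAddCommGroup P] [NormedSpace ℝ P] [FiniteDimensional ℝ P]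
    [NormedAddCommGroup W] [InnerProductSpace ℝ W] [FiniteDimensional ℝ W]
    (U : Set P) (D : ℝ) (Q : RadData P W U D) (Pr : W →L[ℝ] W),
    (∀ a b, ⟪Pr a, b⟫ = ⟪a, Pr b⟫) → Pr.comp Pr = Pr →
    (∀ x ∈ U ×ˢ Metric.ball (0 : Eu4) D, ∀ i, Pr.comp (Q.B x i) = (Q.B x i).comp Pr) →
    ∀ (N : ℕ), 2 ≤ N → ∀ K : Set P, IsCompact K → K ⊆ U →
    ∃ C : ℝ, ∀ t ∈ Icc (0 : ℝ) 1, ∀ y ∈ K, ∀ v, ‖v‖ ≤ D / 2 →
      |LinearMap.trace ℝ W ((Pr.comp ((Q.XX N t (y, v)).comp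
          (ContinuousLinearMap.adjoint (Q.XX N t (y, v)))) : W →L[ℝ] W) : W →ₗ[ℝ] W) -
        LinearMap.trace ℝ W (Pr : W →ₗ[ℝ] W) * (Q.scal.XX N t (y, v) 1) ^ 2 -
        t * ((1 / 6) * ∑ i, ∑ j, ∑ k, v i * v k *
          LinearMap.trace ℝ W ((Pr.comp ((Q.Omg y i j).comp (Q.Omg y k j)) : W →L[ℝ] W) :
            W →ₗ[ℝ] W)) -
        t ^ 2 * ((1 / 6) * ∑ i, ∑ j, LinearMap.trace ℝ W
          ((Pr.comp ((Q.Omg y i j).comp (Q.Omg y i j)) : W →L[ℝ] W) : W →ₗ[ℝ] W))| ≤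
        C * (t * ‖v‖ ^ 3 + t ^ 2 * ‖v‖ + t ^ 3) ∧
      |Q.scal.XX N t (y, v) 1 - 1| ≤ C * (t + ‖v‖)

end

end Vale.Agent.P211.HK
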