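import Vale.Agent.P211.HK.EUDefs

/-! P211 / HK, part EU4 (helper209), first file: uniform Taylor estimates and second derivatives. -/

namespace Vale.Agent.P211.HK.EU4

open Filter Topology MeasureTheory Set Vale.Agent.P211.HK
open scoped ContDiff RealInnerProductSpace

noncomputable section

set_option linter.unusedSectionVars false

variable {P : Type} [NormedAddCommGroup P] [NormedSpace ℝ P]
  {G : Type*} [NormedAddCommGroup G] [NormedSpace ℝ G] {U : Set P} {D : ℝ}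

/-- the partial derivative in the second variable -/
def dv (F : P × Eu4 → G) (x : P × Eu4) : Eu4 →L[ℝ] G :=
  (fderiv ℝ F x).comp (ContinuousLinearMap.inr ℝ P Eu4)

theorem isOpen_S (hU : IsOpen U) : IsOpen (U ×ˢ Metric.ball (0 : Eu4) D) :=
  hU.prod Metric.isOpen_ball

theorem contDiffOn_dv {F : P × Eu4 → G} (hU : IsOpen U)
    (hF : ContDiffOn ℝ ∞ F (U ×ˢ Metric.ball 0 D)) :
    ContDiffOn ℝ ∞ (dv F) (U ×ˢ Metric.ball 0 D) :=
  (hF.fderiv_of_isOpen (isOpen_S hU) (by simp)).clm_comp contDiffOn_const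

theorem hasFDerivAt_slice {F : P × Eu4 → G} (hU : IsOpen U)
    (hF : ContDiffOn ℝ ∞ F (U ×ˢ Metric.ball 0 D)) {y : P} (hy : y ∈ U) {v : Eu4}
    (hv : v ∈ Metric.ball (0 : Eu4) D) : HasFDerivAt (fun w => F (y, w)) (dv F (y, v)) v := by
  have hx : (y, v) ∈ U ×ˢ Metric.ball (0 : Eu4) D := ⟨hy, hv⟩
  have h0 : ContDiffAt ℝ ∞ F (y, v) := hF.contDiffAt ((isOpen_S hU).mem_nhds hx)
  have h1 : HasFDerivAt F (fderiv ℝ F (y, v)) (y, v) :=
    (h0.differentiableAt (by simp)).hasFDerivAt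
  have h2 : HasFDerivAt (fun w : Eu4 => (y, w)) (ContinuousLinearMap.inr ℝ P Eu4) v :=
    hasFDerivAt_prodMk_right y v
  exact HasFDerivAt.comp v h1 h2

theorem exists_bound {F : P × Eu4 → G} (hD : 0 < D)
    (hF : ContinuousOn F (U ×ˢ Metric.ball 0 D)) {K : Set P} (hK : IsCompact K) (hKU : K ⊆ U) :
    ∃ C : ℝ, 0 ≤ C ∧ ∀ y ∈ K, ∀ v : Eu4, ‖v‖ ≤ D / 2 → ‖F (y, v)‖ ≤ C := by
  have h1 : IsCompact (K ×ˢ Metric.closedBall (0 : Eu4) (D / 2)) :=
    hK.prod (isCompact_closedBall 0 (D / 2))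
  have h2 : K ×ˢ Metric.closedBall (0 : Eu4) (D / 2) ⊆ U ×ˢ Metric.ball 0 D :=
    prod_mono hKU (Metric.closedBall_subset_ball (by linarith))
  obtain ⟨C, hC⟩ := h1.exists_bound_of_continuousOn (hF.mono h2)
  refine ⟨max C 0, le_max_right _ _, fun y hy v hv => (hC (y, v) ⟨hy, ?_⟩).trans (le_max_left _ _)⟩
  simpa using hv

theorem lip_unif {F : P × Eu4 → G} (hU : IsOpen U) (hD : 0 < D)
    (hF : ContDiffOn ℝ ∞ F (U ×ˢ Metric.ball 0 D)) {K : Set P} (hK : IsCompact K) (hKU : K ⊆ U) :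
    ∃ C : ℝ, 0 ≤ C ∧ ∀ y ∈ K, ∀ v : Eu4, ‖v‖ ≤ D / 2 → ‖F (y, v) - F (y, 0)‖ ≤ C * ‖v‖ := by
  obtain ⟨C, hC, hb⟩ := exists_bound hD (contDiffOn_dv hU hF).continuousOn hK hKU
  refine ⟨C, hC, fun y hy v hv => ?_⟩
  have h1 := (convex_closedBall (0 : Eu4) (D / 2)).norm_image_sub_le_of_norm_hasFDerivWithin_le
    (f := fun w => F (y, w)) (f' := fun w => dv F (y, w)) (C := C) (x := 0) (y := v)
    (fun w hw => (hasFDerivAt_slice hU hF (hKU hy)
      (Metric.closedBall_subset_ball (by linarith) hw)).hasFDerivWithinAt)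
    (fun w hw => hb y hy w (by simpa using hw)) (by simp; linarith) (by simpa using hv)
  simpa using h1

theorem taylor_unif {F : P × Eu4 → G} (hU : IsOpen U) (hD : 0 < D)
    (hF : ContDiffOn ℝ ∞ F (U ×ˢ Metric.ball 0 D)) {K : Set P} (hK : IsCompact K) (hKU : K ⊆ U) :
    ∃ C : ℝ, 0 ≤ C ∧ ∀ y ∈ K, ∀ v : Eu4, ‖v‖ ≤ D / 2 →
      ‖F (y, v) - F (y, 0) - dv F (y, 0) v‖ ≤ C * ‖v‖ ^ 2 := by
  obtain ⟨C, hC, hb⟩ := lip_unif hU hD (contDiffOn_dv hU hF) hK hKU
  refine ⟨C, hC, fun y hy v hv => ?_⟩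
  have h1 := (convex_closedBall (0 : Eu4) ‖v‖).norm_image_sub_le_of_norm_hasFDerivWithin_le'
    (f := fun w => F (y, w)) (f' := fun w => dv F (y, w)) (C := C * ‖v‖) (x := 0) (y := v)
    (φ := dv F (y, 0))
    (fun w hw => (hasFDerivAt_slice hU hF (hKU hy)
      (Metric.closedBall_subset_ball (by linarith) hw)).hasFDerivWithinAt)
    (fun w hw => by
      have hw' : ‖w‖ ≤ ‖v‖ := by simpa using hw
      exact (hb y hy w (hw'.trans hv)).trans (mul_le_mul_of_nonneg_left hw' hC))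
    (by simp) (by simp)
  simpa [sq, mul_assoc] using h1

/-- a function of one variable that is `O(s ^ 3)` has vanishing second derivative at zero -/
theorem second_zero {φ φ' : ℝ → ℝ} {a C δ : ℝ} (hδ : 0 < δ)
    (h1 : ∀ s, |s| < δ → HasDerivAt φ (φ' s) s) (h2 : HasDerivAt φ' a 0)
    (h3 : ∀ s, |s| < δ → |φ s| ≤ C * |s| ^ 3) : a = 0 := by
  have hC : 0 ≤ C := by
    have := (abs_nonneg _).trans (h3 (δ / 2) (by rw [abs_of_pos (by linarith)]; linarith))
    by_contra hlt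
    push Not at hlt
    have h5 : 0 < |δ / 2| ^ 3 := by positivity
    nlinarith
  have h0 : φ 0 = 0 := by
    have := h3 0 (by simpa using hδ)
    simpa using this
  have hd0 : φ' 0 = 0 := by
    have h4 : HasDerivAt φ 0 0 := by
      rw [hasDerivAt_iff_isLittleO_nhds_zero]
      simp only [zero_add, h0, sub_zero, smul_zero]
      rw [Asymptotics.isLittleO_iff]
      intro c hc
      have hcont : ∀ᶠ s : ℝ in 𝓝 0, C * |s| ^ 2 < c ∧ |s| < δ := by
        have e1 : Continuous fun s : ℝ => C * |s| ^ 2 := by fun_prop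
        have e2 : Continuous fun s : ℝ => |s| := by fun_prop
        exact ((e1.tendsto 0).eventually (gt_mem_nhds (by simpa using hc))).and
          ((e2.tendsto 0).eventually (gt_mem_nhds (by simpa using hδ)))
      filter_upwards [hcont] with s hs
      rw [Real.norm_eq_abs, Real.norm_eq_abs]
      calc |φ s| ≤ C * |s| ^ 3 := h3 s hs.2
        _ = (C * |s| ^ 2) * |s| := by ring
        _ ≤ c * |s| := mul_le_mul_of_nonneg_right hs.1.le (abs_nonneg _)
    exact (h1 0 (by simpa using hδ)).unique h4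
  by_contra hne
  have ha : 0 < |a| := abs_pos.2 hne
  have h5 : ∀ᶠ s : ℝ in 𝓝 0, |φ' s - a * s| ≤ |a| / 8 * |s| := by
    rw [hasDerivAt_iff_isLittleO_nhds_zero] at h2
    have := (Asymptotics.isLittleO_iff.1 h2) (show 0 < |a| / 8 by positivity)
    filter_upwards [this] with s hs
    simpa [hd0, mul_comm] using hs
  obtain ⟨η, hη, h6⟩ := Metric.eventually_nhds_iff.1 h5
  obtain ⟨s, hs0, hs1, hs2, hs3⟩ : ∃ s : ℝ, 0 < s ∧ s < δ ∧ s < η ∧ C * s < |a| / 8 := by
    refine ⟨min (min (δ / 2) (η / 2)) (|a| / (8 * (C + 1) * 2)), ?_, ?_, ?_, ?_⟩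
    · positivity
    · exact ((min_le_left _ _).trans (min_le_left _ _)).trans_lt (by linarith)
    · exact ((min_le_left _ _).trans (min_le_right _ _)).trans_lt (by linarith)
    · have : C * min (min (δ / 2) (η / 2)) (|a| / (8 * (C + 1) * 2)) ≤
          C * (|a| / (8 * (C + 1) * 2)) := mul_le_mul_of_nonneg_left (min_le_right _ _) hC
      refine this.trans_lt ?_
      have e : C * (|a| / (8 * (C + 1) * 2)) = (C / (C + 1)) * (|a| / 16) := by
        field_simp; ring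
      rw [e]
      have e2 : C / (C + 1) ≤ 1 := (div_le_one (by linarith)).2 (by linarith)
      nlinarith
  have h7 : |(φ s - a * s ^ 2 / 2) - (φ 0 - a * 0 ^ 2 / 2)| ≤ (|a| / 8 * s) * |s - 0| := by
    have hder : ∀ r ∈ Icc (0 : ℝ) s, HasDerivWithinAt (fun r => φ r - a * r ^ 2 / 2)
        (φ' r - a * r) (Icc 0 s) r := by
      intro r hr
      have hr' : |r| < δ := by rw [abs_of_nonneg hr.1]; linarith [hr.2]
      have e1 := h1 r hr'
      have e2 : HasDerivAt (fun r : ℝ => a * r ^ 2 / 2) (a * r) r := by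
        have := ((hasDerivAt_pow 2 r).const_mul a).div_const 2
        refine this.congr_deriv ?_
        push_cast; ring
      exact (e1.sub e2).hasDerivWithinAt
    have := (convex_Icc (0 : ℝ) s).norm_image_sub_le_of_norm_hasDerivWithin_le
      (f := fun r => φ r - a * r ^ 2 / 2) (f' := fun r => φ' r - a * r) (C := |a| / 8 * s)
      (x := 0) (y := s) hder (fun r hr => by
        have hr' : dist r 0 < η := by
          rw [Real.dist_eq, sub_zero, abs_of_nonneg hr.1]; linarith [hr.2]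
        have := h6 hr'
        rw [abs_of_nonneg hr.1] at this
        exact this.trans (mul_le_mul_of_nonneg_left hr.2 (by positivity)))
      (left_mem_Icc.2 hs0.le) (right_mem_Icc.2 hs0.le)
    simpa [Real.norm_eq_abs] using this
  have h8 : |φ s| ≤ C * s ^ 3 := by
    have := h3 s (by rwa [abs_of_pos hs0])
    rwa [abs_of_pos hs0] at this
  rw [h0, sub_zero, abs_of_pos hs0] at h7
  have h9 : |a| * s ^ 2 / 2 ≤ |a| / 8 * s ^ 2 + C * s ^ 3 := by
    have e1 : |a * s ^ 2 / 2| ≤ |φ s - a * s ^ 2 / 2| + |φ s| := by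
      have := abs_sub_abs_le_abs_sub (a * s ^ 2 / 2) (φ s)
      rw [abs_sub_comm] at this
      linarith
    have e2 : |a * s ^ 2 / 2| = |a| * s ^ 2 / 2 := by
      rw [abs_div, abs_mul, abs_of_nonneg (sq_nonneg s)]; norm_num
    have e3 : |φ s - a * s ^ 2 / 2| ≤ |a| / 8 * s * s := by simpa using h7
    rw [e2] at e1
    nlinarith
  have h10 : |a| / 2 ≤ |a| / 8 + C * s := by
    have hs2' : 0 < s ^ 2 := by positivity
    have : (|a| / 2) * s ^ 2 ≤ (|a| / 8 + C * s) * s ^ 2 := by nlinarith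
    exact le_of_mul_le_mul_right this hs2'
  linarith

/-- the Laplacian at the origin -/
def Lap0 (f : Eu4 → G) : G := ∑ i, fderiv ℝ (fun v => fderiv ℝ f v (ev4 i)) 0 (ev4 i)

theorem norm_ev4 (i : Fin 4) : ‖ev4 i‖ = 1 := by simp [ev4]

theorem lap0_of_cubic {h : Eu4 → ℝ} (hD : 0 < D) (hh : ContDiffOn ℝ ∞ h (Metric.ball 0 D))
    (q : Fin 4 → ℝ) {C : ℝ}
    (hb : ∀ i, ∀ s : ℝ, |s| ≤ D / 2 → |h (s • ev4 i) - s ^ 2 * q i| ≤ C * |s| ^ 3) :
    Lap0 h = ∑ i, 2 * q i := by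
  refine Finset.sum_congr rfl fun i _ => ?_
  have hmem : ∀ s : ℝ, |s| < D → s • ev4 i ∈ Metric.ball (0 : Eu4) D := fun s hs => by
    simpa [norm_smul, norm_ev4] using hs
  have hline : ∀ s : ℝ, HasDerivAt (fun s : ℝ => s • ev4 i) (ev4 i) s := fun s => by
    simpa using (hasDerivAt_id s).smul_const (ev4 i)
  have hd : ∀ s : ℝ, |s| < D → HasDerivAt (fun s : ℝ => h (s • ev4 i))
      (fderiv ℝ h (s • ev4 i) (ev4 i)) s := fun s hs => by
    have e1 : HasFDerivAt h (fderiv ℝ h (s • ev4 i)) (s • ev4 i) :=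
      ((hh.contDiffAt (Metric.isOpen_ball.mem_nhds (hmem s hs))).differentiableAt
        (by simp)).hasFDerivAt
    exact e1.comp_hasDerivAt s (hline s)
  have hh2 : ContDiffOn ℝ ∞ (fun v => fderiv ℝ h v (ev4 i)) (Metric.ball 0 D) :=
    (hh.fderiv_of_isOpen Metric.isOpen_ball (by simp)).clm_apply contDiffOn_const
  have hd2 : HasDerivAt (fun s : ℝ => fderiv ℝ h (s • ev4 i) (ev4 i))
      (fderiv ℝ (fun v => fderiv ℝ h v (ev4 i)) 0 (ev4 i)) 0 := by
    have e1 : HasFDerivAt (fun v => fderiv ℝ h v (ev4 i))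
        (fderiv ℝ (fun v => fderiv ℝ h v (ev4 i)) ((0 : ℝ) • ev4 i)) ((0 : ℝ) • ev4 i) :=
      ((hh2.contDiffAt (Metric.isOpen_ball.mem_nhds (hmem 0 (by simpa using hD)))).differentiableAt
        (by simp)).hasFDerivAt
    have e3 := e1.comp_hasDerivAt (0 : ℝ) (hline 0)
    rw [zero_smul] at e3
    exact e3
  have key := second_zero (φ := fun s => h (s • ev4 i) - s ^ 2 * q i)
    (φ' := fun s => fderiv ℝ h (s • ev4 i) (ev4 i) - 2 * s * q i)
    (a := fderiv ℝ (fun v => fderiv ℝ h v (ev4 i)) 0 (ev4 i) - 2 * q i) (C := C) (δ := D / 2)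
    (by linarith)
    (fun s hs => by
      have e2 : HasDerivAt (fun s : ℝ => s ^ 2 * q i) (2 * s * q i) s := by
        have := (hasDerivAt_pow 2 s).mul_const (q i)
        refine this.congr_deriv ?_
        push_cast; ring
      exact (hd s (by linarith)).sub e2)
    (by
      have e2 : HasDerivAt (fun s : ℝ => 2 * s * q i) (2 * q i) 0 := by
        have := ((hasDerivAt_id (0 : ℝ)).const_mul 2).mul_const (q i)
        simpa using this
      exact hd2.sub e2)
    (fun s hs => hb i s hs.le)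
  linarith

/-- expansion of a double sum in powers of `t` -/
theorem expand (N : ℕ) (hN : 2 ≤ N) (E : ℕ → ℕ → ℝ) {C : ℝ}
    (hE : ∀ k ≤ N, ∀ l ≤ N, |E k l| ≤ C) {t : ℝ} (ht0 : 0 ≤ t) (ht1 : t ≤ 1) :
    |(∑ k ∈ Finset.range (N + 1), ∑ l ∈ Finset.range (N + 1), t ^ (k + l) * E k l) -
      (E 0 0 + t * (E 0 1 + E 1 0) + t ^ 2 * (E 0 2 + E 1 1 + E 2 0))| ≤
      (N + 1) ^ 2 * C * t ^ 3 := by
  have hC : 0 ≤ C := (abs_nonneg _).trans (hE 0 (by omega) 0 (by omega))
  rw [← Finset.sum_product' (f := fun k l => t ^ (k + l) * E k l)]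
  set S := Finset.range (N + 1) ×ˢ Finset.range (N + 1) with hS
  have hA : S.filter (fun p => p.1 + p.2 ≤ 2) =
      (Finset.range 3 ×ˢ Finset.range 3).filter (fun p => p.1 + p.2 ≤ 2) := by
    ext p
    simp only [hS, Finset.mem_filter, Finset.mem_product, Finset.mem_range]
    omega
  rw [← Finset.sum_filter_add_sum_filter_not S (fun p => p.1 + p.2 ≤ 2), hA]
  have hs : ∑ p ∈ (Finset.range 3 ×ˢ Finset.range 3).filter (fun p => p.1 + p.2 ≤ 2),
      t ^ (p.1 + p.2) * E p.1 p.2 =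
      E 0 0 + t * (E 0 1 + E 1 0) + t ^ 2 * (E 0 2 + E 1 1 + E 2 0) := by
    rw [Finset.sum_filter, Finset.sum_product]
    simp [Finset.sum_range_succ]
    ring
  rw [hs, add_sub_cancel_left]
  calc |∑ p ∈ S.filter (fun p => ¬ p.1 + p.2 ≤ 2), t ^ (p.1 + p.2) * E p.1 p.2|
      ≤ ∑ p ∈ S.filter (fun p => ¬ p.1 + p.2 ≤ 2), |t ^ (p.1 + p.2) * E p.1 p.2| :=
        Finset.abs_sum_le_sum_abs _ _
    _ ≤ ∑ p ∈ S.filter (fun p => ¬ p.1 + p.2 ≤ 2), t ^ 3 * C := by
        refine Finset.sum_le_sum fun p hp => ?_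
        simp only [hS, Finset.mem_filter, Finset.mem_product, Finset.mem_range] at hp
        rw [abs_mul, abs_of_nonneg (pow_nonneg ht0 _)]
        exact mul_le_mul (pow_le_pow_of_le_one ht0 ht1 (by omega)) (hE _ (by omega) _ (by omega))
          (abs_nonneg _) (by positivity)
    _ ≤ ∑ p ∈ S, t ^ 3 * C :=
        Finset.sum_le_sum_of_subset_of_nonneg (Finset.filter_subset _ _)
          fun _ _ _ => by positivity
    _ = (N + 1) ^ 2 * C * t ^ 3 := by
        rw [Finset.sum_const, hS, Finset.card_product, Finset.card_range, nsmul_eq_mul]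
        push_cast; ring

end

end Vale.Agent.P211.HK.EU4
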