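import Vale.Agent.P211.HK.EUT1

/-! P211 / HK, part EU4 (helper209), second file: trace functional, Laplacian of a scalar function. -/

namespace Vale.Agent.P211.HK.EU4

open Filter Topology MeasureTheory Set Vale.Agent.P211.HK
open scoped ContDiff RealInnerProductSpace

noncomputable section

set_option linter.unusedSectionVars false

variable {P W : Type} [NormedAddCommGroup P] [NormedSpace ℝ P] [NormedAddCommGroup W]
    [InnerProductSpace ℝ W] [FiniteDimensional ℝ W] {U : Set P} {D : ℝ}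

/-- the functional `A ↦ tr (Pr A)` -/
def lam (Pr : W →L[ℝ] W) : (W →L[ℝ] W) →L[ℝ] ℝ :=
  LinearMap.toContinuousLinearMap
    { toFun := fun A => LinearMap.trace ℝ W ((Pr.comp A : W →L[ℝ] W) : W →ₗ[ℝ] W)
      map_add' := fun A B => by
        rw [ContinuousLinearMap.comp_add, ContinuousLinearMap.toLinearMap_add, map_add]
      map_smul' := fun r A => by
        rw [ContinuousLinearMap.comp_smul, ContinuousLinearMap.toLinearMap_smul, map_smul]; rfl }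

theorem lam_apply (Pr A : W →L[ℝ] W) :
    lam Pr A = LinearMap.trace ℝ W ((Pr.comp A : W →L[ℝ] W) : W →ₗ[ℝ] W) := rfl

theorem lam_adjoint {Pr : W →L[ℝ] W} (hPr : ∀ a b, ⟪Pr a, b⟫ = ⟪a, Pr b⟫) {A B : W →L[ℝ] W}
    (hAB : ∀ a b, ⟪B a, b⟫ = ⟪a, A b⟫) : lam Pr B = lam Pr A := by
  rw [lam_apply, lam_apply]
  have h1 : LinearMap.trace ℝ W ((Pr.comp A : W →L[ℝ] W) : W →ₗ[ℝ] W) =
      LinearMap.trace ℝ W ((A.comp Pr : W →L[ℝ] W) : W →ₗ[ℝ] W) := by
    exact LinearMap.trace_mul_comm ℝ (Pr : W →ₗ[ℝ] W) (A : W →ₗ[ℝ] W)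
  rw [h1, LinearMap.trace_eq_sum_inner _ (stdOrthonormalBasis ℝ W),
    LinearMap.trace_eq_sum_inner _ (stdOrthonormalBasis ℝ W)]
  refine Finset.sum_congr rfl fun i _ => ?_
  simp only [ContinuousLinearMap.coe_coe, ContinuousLinearMap.coe_comp, Function.comp_apply]
  rw [← hPr, ← hAB, real_inner_comm]

theorem lam_skew {Pr : W →L[ℝ] W} (hPr : ∀ a b, ⟪Pr a, b⟫ = ⟪a, Pr b⟫) {B : W →L[ℝ] W}
    (hB : ∀ a b, ⟪B a, b⟫ = - ⟪a, B b⟫) : lam Pr B = 0 := by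
  have h1 : lam Pr B = lam Pr (-B) := lam_adjoint hPr (fun a b => by
    rw [hB, _root_.neg_apply, inner_neg_right])
  rw [map_neg] at h1
  linarith

variable {G : Type*} [NormedAddCommGroup G] [NormedSpace ℝ G]

theorem slice_smooth {F : P × Eu4 → G} (hF : ContDiffOn ℝ ∞ F (U ×ˢ Metric.ball 0 D)) {y : P}
    (hy : y ∈ U) : ContDiffOn ℝ ∞ (fun v => F (y, v)) (Metric.ball 0 D) := by
  have h1 : ContDiff ℝ ∞ (fun v : Eu4 => (y, v)) := contDiff_const.prodMk contDiff_id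
  exact hF.comp h1.contDiffOn (fun v hv => ⟨hy, hv⟩)

theorem gi_slice (Q : RadData P W U D) {y : P} (hy : y ∈ U) (i j : Fin 4) :
    ContDiffOn ℝ ∞ (fun v => Q.gi (y, v) i j) (Metric.ball 0 D) := by
  have h1 := slice_smooth Q.gi_smooth hy
  exact contDiffOn_pi.1 (contDiffOn_pi.1 h1 i) j

theorem J_slice (Q : RadData P W U D) {y : P} (hy : y ∈ U) :
    ContDiffOn ℝ ∞ (fun v => Q.J (y, v)) (Metric.ball 0 D) := slice_smooth Q.J_smooth hy

theorem B_slice (Q : RadData P W U D) {y : P} (hy : y ∈ U) (i : Fin 4) :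
    ContDiffOn ℝ ∞ (fun v => Q.B (y, v) i) (Metric.ball 0 D) :=
  contDiffOn_pi.1 (slice_smooth Q.B_smooth hy) i

theorem sqrtJ_smooth (Q : RadData P W U D) :
    ContDiffOn ℝ ∞ (fun x => Real.sqrt (Q.J x)) (U ×ˢ Metric.ball 0 D) :=
  Q.J_smooth.sqrt fun x hx => (Q.J_pos x hx).ne'

theorem phi_smooth (Q : RadData P W U D) :
    ContDiffOn ℝ ∞ (fun x => (Real.sqrt (Q.J x))⁻¹) (U ×ˢ Metric.ball 0 D) :=
  (sqrtJ_smooth Q).inv fun x hx => (Real.sqrt_pos.2 (Q.J_pos x hx)).ne'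

theorem contDiffOn_partial {f : Eu4 → G} (hf : ContDiffOn ℝ ∞ f (Metric.ball 0 D)) (i : Fin 4) :
    ContDiffOn ℝ ∞ (fun v => fderiv ℝ f v (ev4 i)) (Metric.ball 0 D) :=
  (hf.fderiv_of_isOpen Metric.isOpen_ball (by simp)).clm_apply contDiffOn_const

theorem diffAt {f : Eu4 → G} (hf : ContDiffOn ℝ ∞ f (Metric.ball 0 D)) {v : Eu4}
    (hv : v ∈ Metric.ball (0 : Eu4) D) : DifferentiableAt ℝ f v :=
  (hf.contDiffAt (Metric.isOpen_ball.mem_nhds hv)).differentiableAt (by simp)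

theorem contDiffOn_dE (Q : RadData P W U D) {y : P} (hy : y ∈ U) {f : Eu4 → W →L[ℝ] W}
    (hf : ContDiffOn ℝ ∞ f (Metric.ball 0 D)) (i : Fin 4) :
    ContDiffOn ℝ ∞ (Q.dE y f i) (Metric.ball 0 D) :=
  (contDiffOn_partial hf i).add ((B_slice Q hy i).clm_comp hf)

theorem contDiffOn_inner (Q : RadData P W U D) {y : P} (hy : y ∈ U) {f : Eu4 → W →L[ℝ] W}
    (hf : ContDiffOn ℝ ∞ f (Metric.ball 0 D)) (i : Fin 4) :
    ContDiffOn ℝ ∞ (fun v' => ∑ j, (Q.J (y, v') * Q.gi (y, v') i j) • Q.dE y f j v')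
      (Metric.ball 0 D) :=
  ContDiffOn.sum fun j _ => ((J_slice Q hy).mul (gi_slice Q hy i j)).smul (contDiffOn_dE Q hy hf j)

theorem contDiffOn_lapE (Q : RadData P W U D) {y : P} (hy : y ∈ U) {f : Eu4 → W →L[ℝ] W}
    (hf : ContDiffOn ℝ ∞ f (Metric.ball 0 D)) :
    ContDiffOn ℝ ∞ (Q.lapE y f) (Metric.ball 0 D) := by
  have h1 : ContDiffOn ℝ ∞ (fun v => - (Q.J (y, v))⁻¹) (Metric.ball 0 D) :=
    ((J_slice Q hy).inv fun v hv => (Q.J_pos (y, v) ⟨hy, hv⟩).ne').neg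
  exact h1.smul (ContDiffOn.sum fun i _ => contDiffOn_dE Q hy (contDiffOn_inner Q hy hf i) i)

theorem fderiv_clm (Λ : G →L[ℝ] ℝ) {f : Eu4 → G} {v : Eu4} (hf : DifferentiableAt ℝ f v) (w : Eu4) :
    fderiv ℝ (fun v => Λ (f v)) v w = Λ (fderiv ℝ f v w) := by
  have h1 := Λ.hasFDerivAt.comp v hf.hasFDerivAt
  have h2 : fderiv ℝ (fun v => Λ (f v)) v = Λ.comp (fderiv ℝ f v) := h1.fderiv
  rw [h2]; rfl

/-- the scalar Laplacian -/
def Lsc (Q : RadData P W U D) (y : P) (φ : Eu4 → ℝ) (v : Eu4) : ℝ :=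
  - (Q.J (y, v))⁻¹ * ∑ i, fderiv ℝ (fun v' => ∑ j, (Q.J (y, v') * Q.gi (y, v') i j) *
    fderiv ℝ φ v' (ev4 j)) v (ev4 i)

theorem fderiv_smul_id {φ : Eu4 → ℝ} {v : Eu4} (hφ : DifferentiableAt ℝ φ v) (w : Eu4) :
    fderiv ℝ (fun v => φ v • ContinuousLinearMap.id ℝ W) v w =
      (fderiv ℝ φ v w) • ContinuousLinearMap.id ℝ W := by
  have h1 := hφ.hasFDerivAt.smul_const (ContinuousLinearMap.id ℝ W)
  rw [h1.fderiv]
  rfl

theorem Lam_lapE (Q : RadData P W U D) (Λ : (W →L[ℝ] W) →L[ℝ] ℝ) {y : P} (hy : y ∈ U)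
    (hΛ : ∀ v ∈ Metric.ball (0 : Eu4) D, ∀ i, Λ (Q.B (y, v) i) = 0) {φ : Eu4 → ℝ}
    (hφ : ContDiffOn ℝ ∞ φ (Metric.ball 0 D)) {v : Eu4} (hv : v ∈ Metric.ball (0 : Eu4) D) :
    Λ (Q.lapE y (fun w => φ w • ContinuousLinearMap.id ℝ W) v) =
      Λ (ContinuousLinearMap.id ℝ W) * Lsc Q y φ v -
        φ v * ∑ i, ∑ j, Q.gi (y, v) i j * Λ ((Q.B (y, v) i).comp (Q.B (y, v) j)) := by
  have hf : ContDiffOn ℝ ∞ (fun w => φ w • ContinuousLinearMap.id ℝ W) (Metric.ball (0 : Eu4) D) :=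
    hφ.smul contDiffOn_const
  have hdE : ∀ w ∈ Metric.ball (0 : Eu4) D, ∀ j,
      Q.dE y (fun w => φ w • ContinuousLinearMap.id ℝ W) j w =
        (fderiv ℝ φ w (ev4 j)) • ContinuousLinearMap.id ℝ W + φ w • Q.B (y, w) j := by
    intro w hw j
    unfold RadData.dE
    rw [fderiv_smul_id (diffAt hφ hw)]
    congr 1
    ext a
    simp
  unfold RadData.lapE Lsc
  rw [map_smul, map_sum, smul_eq_mul]
  have hterm : ∀ i, Λ (Q.dE y (fun v' => ∑ j, (Q.J (y, v') * Q.gi (y, v') i j) •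
      Q.dE y (fun w => φ w • ContinuousLinearMap.id ℝ W) j v') i v) =
      Λ (ContinuousLinearMap.id ℝ W) * fderiv ℝ (fun v' => ∑ j, (Q.J (y, v') * Q.gi (y, v') i j) *
        fderiv ℝ φ v' (ev4 j)) v (ev4 i) +
      Q.J (y, v) * φ v * ∑ j, Q.gi (y, v) i j * Λ ((Q.B (y, v) i).comp (Q.B (y, v) j)) := by
    intro i
    have e1 : ∀ h : Eu4 → W →L[ℝ] W, Q.dE y h i v = fderiv ℝ h v (ev4 i) +
      (Q.B (y, v) i).comp (h v) := fun h => rfl
    rw [e1, map_add, ← fderiv_clm Λ (diffAt (contDiffOn_inner Q hy hf i) hv)]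
    congr 1
    · have e2 : (fun v' => Λ (∑ j, (Q.J (y, v') * Q.gi (y, v') i j) •
          Q.dE y (fun w => φ w • ContinuousLinearMap.id ℝ W) j v')) =ᶠ[𝓝 v]
          fun v' => Λ (ContinuousLinearMap.id ℝ W) * ∑ j, (Q.J (y, v') * Q.gi (y, v') i j) *
            fderiv ℝ φ v' (ev4 j) := by
        filter_upwards [Metric.isOpen_ball.mem_nhds hv] with w hw
        rw [map_sum, Finset.mul_sum]
        refine Finset.sum_congr rfl fun j _ => ?_
        rw [hdE w hw, map_smul, map_add, map_smul, map_smul, hΛ w hw]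
        simp only [smul_eq_mul]
        ring
      rw [e2.fderiv_eq, fderiv_const_mul]
      · rfl
      · exact DifferentiableAt.fun_sum fun j _ => ((diffAt (J_slice Q hy) hv).mul
          (diffAt (gi_slice Q hy i j) hv)).mul (diffAt (contDiffOn_partial hφ j) hv)
    · rw [Finset.mul_sum, ContinuousLinearMap.comp_finsetSum, map_sum]
      refine Finset.sum_congr rfl fun j _ => ?_
      rw [hdE v hv, ContinuousLinearMap.comp_smul, map_smul, ContinuousLinearMap.comp_add, map_add,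
        ContinuousLinearMap.comp_smul, ContinuousLinearMap.comp_smul, map_smul, map_smul,
        ContinuousLinearMap.comp_id, hΛ v hv]
      simp only [smul_eq_mul]
      ring
  simp only [hterm]
  rw [Finset.sum_add_distrib, ← Finset.mul_sum, ← Finset.mul_sum]
  have hJ : Q.J (y, v) ≠ 0 := (Q.J_pos (y, v) ⟨hy, hv⟩).ne'
  field_simp
  ring

end

end Vale.Agent.P211.HK.EU4
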