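import Vale.Agent.P211.HK.EUT2

/-! P211 / HK, part EU4 (helper209), third file: values at the centre. -/

namespace Vale.Agent.P211.HK.EU4

open Filter Topology MeasureTheory Set Vale.Agent.P211.HK
open scoped ContDiff RealInnerProductSpace

noncomputable section

set_option linter.unusedSectionVars false

variable {P W : Type} [NormedAddCommGroup P] [NormedSpace ℝ P] [NormedAddCommGroup W]
    [InnerProductSpace ℝ W] [FiniteDimensional ℝ W] {U : Set P} {D : ℝ}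

variable {G : Type*} [NormedAddCommGroup G] [NormedSpace ℝ G]

theorem mem_zero (Q : RadData P W U D) : (0 : Eu4) ∈ Metric.ball (0 : Eu4) D :=
  Metric.mem_ball_self Q.D_pos

/-- a differentiable function vanishing off zero on a line vanishes together with its derivative -/
theorem line_zero {f : Eu4 → G} {i : Fin 4} (hf : DifferentiableAt ℝ f 0)
    (h : ∀ᶠ s : ℝ in 𝓝[≠] 0, f (s • ev4 i) = 0) : f 0 = 0 ∧ fderiv ℝ f 0 (ev4 i) = 0 := by
  have hline : HasDerivAt (fun s : ℝ => s • ev4 i) (ev4 i) 0 := by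
    simpa using (hasDerivAt_id (0 : ℝ)).smul_const (ev4 i)
  have h1 : HasDerivAt (fun s : ℝ => f (s • ev4 i)) (fderiv ℝ f 0 (ev4 i)) 0 := by
    have h2 : HasFDerivAt f (fderiv ℝ f ((0 : ℝ) • ev4 i)) ((0 : ℝ) • ev4 i) := by
      rw [zero_smul]; exact hf.hasFDerivAt
    have h3 := h2.comp_hasDerivAt (0 : ℝ) hline
    rw [zero_smul] at h3
    exact h3
  have h0 : f 0 = 0 := by
    have hc : Tendsto (fun s : ℝ => f (s • ev4 i)) (𝓝[≠] 0) (𝓝 (f ((0 : ℝ) • ev4 i))) :=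
      h1.continuousAt.tendsto.mono_left nhdsWithin_le_nhds
    rw [zero_smul] at hc
    have hc2 : Tendsto (fun s : ℝ => f (s • ev4 i)) (𝓝[≠] 0) (𝓝 0) :=
      tendsto_const_nhds.congr' (h.mono fun s hs => hs.symm)
    exact tendsto_nhds_unique hc hc2
  refine ⟨h0, ?_⟩
  have h4 : (fun s : ℝ => f (s • ev4 i)) =ᶠ[𝓝 0] fun _ => (0 : G) := by
    rw [eventually_nhdsWithin_iff] at h
    filter_upwards [h] with s hs
    by_cases hs0 : s = 0
    · rw [hs0, zero_smul, h0]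
    · exact hs hs0
  exact (h1.congr_of_eventuallyEq h4.symm).unique (hasDerivAt_const 0 0)

theorem B_line (Q : RadData P W U D) {y : P} (hy : y ∈ U) (i : Fin 4) :
    ∀ᶠ s : ℝ in 𝓝[≠] 0, Q.B (y, s • ev4 i) i = 0 := by
  have h1 : ∀ᶠ s : ℝ in 𝓝 0, s • ev4 i ∈ Metric.ball (0 : Eu4) D := by
    have hc : Continuous fun s : ℝ => s • ev4 i := by fun_prop
    exact hc.continuousAt.eventually_mem (by
      rw [zero_smul]; exact Metric.ball_mem_nhds 0 Q.D_pos)
  filter_upwards [self_mem_nhdsWithin, nhdsWithin_le_nhds h1] with s hs0 hs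
  have h2 := Q.radial (y, s • ev4 i) ⟨hy, hs⟩
  rw [Finset.sum_eq_single i] at h2
  · have h3 : (s • ev4 i : Eu4) i = s := by simp [ev4]
    simp only [h3] at h2
    exact (smul_eq_zero.1 h2).resolve_left hs0
  · intro j _ hj
    have h3 : (s • ev4 i : Eu4) j = 0 := by simp [ev4, hj]
    simp [h3]
  · intro hi; exact absurd (Finset.mem_univ i) hi

theorem B_zero (Q : RadData P W U D) {y : P} (hy : y ∈ U) (i : Fin 4) : Q.B (y, 0) i = 0 :=
  (line_zero (f := fun v => Q.B (y, v) i) (diffAt (B_slice Q hy i) (mem_zero Q))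
    (B_line Q hy i)).1

theorem B_diag (Q : RadData P W U D) {y : P} (hy : y ∈ U) (i : Fin 4) :
    fderiv ℝ (fun v => Q.B (y, v) i) 0 (ev4 i) = 0 :=
  (line_zero (f := fun v => Q.B (y, v) i) (diffAt (B_slice Q hy i) (mem_zero Q))
    (B_line Q hy i)).2

theorem gi_dzero (Q : RadData P W U D) {y : P} (hy : y ∈ U) (i j : Fin 4) (w : Eu4) :
    fderiv ℝ (fun v => Q.gi (y, v) i j) 0 w = 0 := by
  have h0 : DifferentiableAt ℝ (fun v => Q.gi (y, v)) 0 :=
    diffAt (slice_smooth Q.gi_smooth hy) (mem_zero Q)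
  have h1 := h0.hasFDerivAt
  rw [Q.gi_crit y hy] at h1
  have h2 := hasFDerivAt_pi'.1 (hasFDerivAt_pi'.1 h1 i) j
  rw [h2.fderiv]
  rfl

theorem JG_dzero (Q : RadData P W U D) {y : P} (hy : y ∈ U) (i j : Fin 4) (w : Eu4) :
    fderiv ℝ (fun v => Q.J (y, v) * Q.gi (y, v) i j) 0 w = 0 := by
  have h1 := (diffAt (J_slice Q hy) (mem_zero Q)).hasFDerivAt
  have h2 := (diffAt (gi_slice Q hy i j) (mem_zero Q)).hasFDerivAt
  rw [Q.J_crit y hy] at h1
  have h3 := h1.fun_mul h2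
  rw [h3.fderiv]
  simp [gi_dzero Q hy i j w]

theorem lapE_zero (Q : RadData P W U D) {y : P} (hy : y ∈ U) {f : Eu4 → W →L[ℝ] W}
    (hf : ContDiffOn ℝ ∞ f (Metric.ball 0 D)) : Q.lapE y f 0 = - Lap0 f := by
  have hm := mem_zero Q
  unfold RadData.lapE Lap0
  rw [Q.J_zero y hy, inv_one, neg_smul, one_smul]
  congr 1
  refine Finset.sum_congr rfl fun i _ => ?_
  have e1 : ∀ h : Eu4 → W →L[ℝ] W, Q.dE y h i 0 = fderiv ℝ h 0 (ev4 i) +
      (Q.B (y, 0) i).comp (h 0) := fun h => rfl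
  rw [e1, B_zero Q hy i, ContinuousLinearMap.zero_comp, add_zero]
  have e2 : ∀ j, HasFDerivAt (fun v' => (Q.J (y, v') * Q.gi (y, v') i j) • Q.dE y f j v')
      ((Q.J (y, 0) * Q.gi (y, 0) i j) • fderiv ℝ (Q.dE y f j) 0 +
        (fderiv ℝ (fun v => Q.J (y, v) * Q.gi (y, v) i j) 0).smulRight (Q.dE y f j 0)) 0 :=
    fun j => (diffAt ((J_slice Q hy).mul (gi_slice Q hy i j)) hm).hasFDerivAt.smul
      (diffAt (contDiffOn_dE Q hy hf j) hm).hasFDerivAt
  have e3 := HasFDerivAt.fun_sum (u := Finset.univ) fun j _ => e2 j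
  rw [e3.fderiv]
  simp only [_root_.sum_apply, _root_.add_apply,
    _root_.smul_apply, ContinuousLinearMap.smulRight_apply, JG_dzero Q hy,
    Q.J_zero y hy, Q.gi_zero y hy, one_mul, zero_smul, add_zero]
  rw [Finset.sum_eq_single i (fun j _ hj => by rw [if_neg (Ne.symm hj), zero_smul]) (fun h =>
    absurd (Finset.mem_univ i) h), if_pos rfl, one_smul]
  have e4 : HasFDerivAt (Q.dE y f i) (fderiv ℝ (fun v => fderiv ℝ f v (ev4 i)) 0 +
      fderiv ℝ (fun v => (Q.B (y, v) i).comp (f v)) 0) 0 :=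
    (diffAt (contDiffOn_partial hf i) hm).hasFDerivAt.add
      (diffAt ((B_slice Q hy i).clm_comp hf) hm).hasFDerivAt
  have e5 : HasFDerivAt (fun v => (Q.B (y, v) i).comp (f v)) _ 0 :=
    (diffAt (B_slice Q hy i) hm).hasFDerivAt.clm_comp (diffAt hf hm).hasFDerivAt
  rw [e4.fderiv, e5.fderiv]
  simp only [_root_.add_apply]
  have e6 : (Q.B (y, 0) i) = 0 := B_zero Q hy i
  have e7 := B_diag Q hy i
  simp only [ContinuousLinearMap.comp_apply, e6, e7, map_zero, _root_.zero_apply,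
    ContinuousLinearMap.zero_comp, add_zero]

theorem Lap0_clm (Λ : G →L[ℝ] ℝ) (hD : 0 < D) {f : Eu4 → G}
    (hf : ContDiffOn ℝ ∞ f (Metric.ball 0 D)) : Lap0 (fun v => Λ (f v)) = Λ (Lap0 f) := by
  unfold Lap0
  rw [map_sum]
  refine Finset.sum_congr rfl fun i _ => ?_
  rw [← fderiv_clm Λ (diffAt (contDiffOn_partial hf i) (Metric.mem_ball_self hD))]
  have e : (fun v => fderiv ℝ (fun v => Λ (f v)) v (ev4 i)) =ᶠ[𝓝 0]
      fun v => Λ (fderiv ℝ f v (ev4 i)) := by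
    filter_upwards [Metric.isOpen_ball.mem_nhds (Metric.mem_ball_self hD)] with w hw
    exact fderiv_clm Λ (diffAt hf hw) _
  rw [e.fderiv_eq]

theorem Lap0_smul_const {G : Type} [NormedAddCommGroup G] [NormedSpace ℝ G] (a : G) (hD : 0 < D) {φ : Eu4 → ℝ}
    (hf : ContDiffOn ℝ ∞ φ (Metric.ball 0 D)) : Lap0 (fun v => φ v • a) = (Lap0 φ) • a := by
  unfold Lap0
  rw [Finset.sum_smul]
  refine Finset.sum_congr rfl fun i _ => ?_
  have e : (fun v => fderiv ℝ (fun v => φ v • a) v (ev4 i)) =ᶠ[𝓝 0]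
      fun v => (fderiv ℝ φ v (ev4 i)) • a := by
    filter_upwards [Metric.isOpen_ball.mem_nhds (Metric.mem_ball_self hD)] with w hw
    rw [((diffAt hf hw).hasFDerivAt.smul_const a).fderiv]
    rfl
  rw [e.fderiv_eq, ((diffAt (contDiffOn_partial hf i)
    (Metric.mem_ball_self hD)).hasFDerivAt.smul_const a).fderiv]
  rfl

theorem Lap0_sub_mul (hD : 0 < D) {f g : Eu4 → ℝ} (c : ℝ)
    (hf : ContDiffOn ℝ ∞ f (Metric.ball 0 D)) (hg : ContDiffOn ℝ ∞ g (Metric.ball 0 D)) :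
    Lap0 (fun v => f v - c * g v) = Lap0 f - c * Lap0 g := by
  unfold Lap0
  rw [Finset.mul_sum, ← Finset.sum_sub_distrib]
  refine Finset.sum_congr rfl fun i _ => ?_
  have e : (fun v => fderiv ℝ (fun v => f v - c * g v) v (ev4 i)) =ᶠ[𝓝 0]
      fun v => fderiv ℝ f v (ev4 i) - c * fderiv ℝ g v (ev4 i) := by
    filter_upwards [Metric.isOpen_ball.mem_nhds (Metric.mem_ball_self hD)] with w hw
    rw [((diffAt hf hw).hasFDerivAt.fun_sub ((diffAt hg hw).hasFDerivAt.const_mul c)).fderiv]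
    rfl
  rw [e.fderiv_eq, ((diffAt (contDiffOn_partial hf i) (Metric.mem_ball_self hD)).hasFDerivAt.fun_sub
    ((diffAt (contDiffOn_partial hg i) (Metric.mem_ball_self hD)).hasFDerivAt.const_mul c)).fderiv]
  rfl

end

end Vale.Agent.P211.HK.EU4
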