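import Vale.Agent.P211.HK.EUT3

/-! P211 / HK, part EU4 (helper209), fourth file: the first transport coefficient. -/

namespace Vale.Agent.P211.HK.EU4

open Filter Topology MeasureTheory Set Vale.Agent.P211.HK
open scoped ContDiff RealInnerProductSpace

noncomputable section

set_option linter.unusedSectionVars false

variable {P W : Type} [NormedAddCommGroup P] [NormedSpace ℝ P] [NormedAddCommGroup W]
    [InnerProductSpace ℝ W] [FiniteDimensional ℝ W] {U : Set P} {D : ℝ}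

variable {G : Type*} [NormedAddCommGroup G] [NormedSpace ℝ G]

theorem seg_mem {v : Eu4} (hv : v ∈ Metric.ball (0 : Eu4) D) {s : ℝ} (hs : s ∈ Icc (0 : ℝ) 1) :
    s • v ∈ Metric.ball (0 : Eu4) D := by
  rw [mem_ball_zero_iff] at hv ⊢
  rw [norm_smul, Real.norm_eq_abs, abs_of_nonneg hs.1]
  nlinarith [norm_nonneg v, hs.2, hs.1]

theorem seg_int {f : Eu4 → G} (hf : ContinuousOn f (Metric.ball 0 D)) {v : Eu4}
    (hv : v ∈ Metric.ball (0 : Eu4) D) :
    IntervalIntegrable (fun s : ℝ => f (s • v)) volume 0 1 := by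
  refine ContinuousOn.intervalIntegrable ?_
  rw [uIcc_of_le zero_le_one]
  have hc : Continuous fun s : ℝ => s • v := by fun_prop
  exact hf.comp hc.continuousOn fun s hs => seg_mem hv hs

theorem cc_one (Q : RadData P W U D) (x : P × Eu4) :
    Q.cc 1 x = - ∫ s in (0 : ℝ)..1, Real.sqrt (Q.J (x.1, s • x.2)) •
      Q.lapE x.1 (fun v => (Real.sqrt (Q.J (x.1, v)))⁻¹ • ContinuousLinearMap.id ℝ W)
        (s • x.2) := by
  simp [RadData.cc]

/-- the defect of the trace of `c_k` -/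
def om (Q : RadData P W U D) (Pr : W →L[ℝ] W) (k : ℕ) (x : P × Eu4) : ℝ :=
  lam Pr (Q.cc k x) - lam Pr (ContinuousLinearMap.id ℝ W) * Q.scal.cc k x 1

/-- the quadratic connection term -/
def tau (Q : RadData P W U D) (Pr : W →L[ℝ] W) (x : P × Eu4) : ℝ :=
  ∑ i, ∑ j, Q.gi x i j * lam Pr ((Q.B x i).comp (Q.B x j))

theorem tau_cont (Q : RadData P W U D) (Pr : W →L[ℝ] W) {y : P} (hy : y ∈ U) :
    ContinuousOn (fun v => tau Q Pr (y, v)) (Metric.ball 0 D) := by
  unfold tau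
  refine continuousOn_finsetSum _ fun i _ => continuousOn_finsetSum _ fun j _ => ?_
  exact (gi_slice Q hy i j).continuousOn.mul ((lam Pr).continuous.comp_continuousOn
    ((B_slice Q hy i).clm_comp (B_slice Q hy j)).continuousOn)

theorem om_one (Q : RadData P W U D) {Pr : W →L[ℝ] W} (hPr : ∀ a b, ⟪Pr a, b⟫ = ⟪a, Pr b⟫)
    {y : P} (hy : y ∈ U) {v : Eu4} (hv : v ∈ Metric.ball (0 : Eu4) D) :
    om Q Pr 1 (y, v) = ∫ s in (0 : ℝ)..1, tau Q Pr (y, s • v) := by
  set φ : Eu4 → ℝ := fun v => (Real.sqrt (Q.J (y, v)))⁻¹ with hφdef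
  have hφ : ContDiffOn ℝ ∞ φ (Metric.ball 0 D) := slice_smooth (phi_smooth Q) hy
  have hA : IntervalIntegrable (fun s : ℝ => Real.sqrt (Q.J (y, s • v)) •
      Q.lapE y (fun v => φ v • ContinuousLinearMap.id ℝ W) (s • v)) volume 0 1 :=
    seg_int (f := fun w => Real.sqrt (Q.J (y, w)) •
      Q.lapE y (fun v => φ v • ContinuousLinearMap.id ℝ W) w)
      ((slice_smooth (sqrtJ_smooth Q) hy).smul
        (contDiffOn_lapE Q hy (hφ.smul contDiffOn_const))).continuousOn hv
  have ha : IntervalIntegrable (fun s : ℝ => Real.sqrt (Q.J (y, s • v)) •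
      Q.scal.lapE y (fun v => φ v • ContinuousLinearMap.id ℝ ℝ) (s • v)) volume 0 1 :=
    seg_int (f := fun w => Real.sqrt (Q.J (y, w)) •
      Q.scal.lapE y (fun v => φ v • ContinuousLinearMap.id ℝ ℝ) w)
      ((slice_smooth (sqrtJ_smooth Q) hy).smul
        (contDiffOn_lapE Q.scal hy (hφ.smul contDiffOn_const))).continuousOn hv
  set Λ := lam Pr with hΛ
  set ε : (ℝ →L[ℝ] ℝ) →L[ℝ] ℝ := ContinuousLinearMap.apply ℝ ℝ 1 with hε
  have e1 : Λ (Q.cc 1 (y, v)) = - ∫ s in (0 : ℝ)..1, Λ (Real.sqrt (Q.J (y, s • v)) •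
      Q.lapE y (fun v => φ v • ContinuousLinearMap.id ℝ W) (s • v)) := by
    rw [cc_one, map_neg, ContinuousLinearMap.intervalIntegral_comp_comm Λ hA]
  have e2 : Q.scal.cc 1 (y, v) 1 = - ∫ s in (0 : ℝ)..1, ε (Real.sqrt (Q.J (y, s • v)) •
      Q.scal.lapE y (fun v => φ v • ContinuousLinearMap.id ℝ ℝ) (s • v)) := by
    rw [ContinuousLinearMap.intervalIntegral_comp_comm ε ha]
    rw [cc_one, _root_.neg_apply]
    rfl
  unfold om
  rw [e1, e2, mul_neg, sub_neg_eq_add, ← intervalIntegral.integral_const_mul,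
    neg_add_eq_sub, ← intervalIntegral.integral_sub]
  · refine intervalIntegral.integral_congr fun s hs => ?_
    rw [uIcc_of_le zero_le_one] at hs
    have hsv := seg_mem hv hs
    have h1 := Lam_lapE Q Λ hy (fun w hw i => lam_skew hPr (Q.B_skew (y, w) ⟨hy, hw⟩ i)) hφ hsv
    have h2 := Lam_lapE Q.scal ε hy (fun w hw i => by
      simp [RadData.scal, hε]) hφ hsv
    simp only [map_smul, h1, h2]
    have h3 : Lsc Q.scal y φ (s • v) = Lsc Q y φ (s • v) := rfl
    have h4 : ε (ContinuousLinearMap.id ℝ ℝ) = 1 := rfl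
    have h5 : ∑ i, ∑ j, Q.scal.gi (y, s • v) i j * ε ((Q.scal.B (y, s • v) i).comp
        (Q.scal.B (y, s • v) j)) = 0 := by
      refine Finset.sum_eq_zero fun i _ => Finset.sum_eq_zero fun j _ => ?_
      have : (Q.scal.B (y, s • v) i).comp (Q.scal.B (y, s • v) j) = 0 := by
        simp [RadData.scal]
      rw [this, map_zero, mul_zero]
    rw [h3, h4, h5]
    have hJ : 0 < Real.sqrt (Q.J (y, s • v)) := Real.sqrt_pos.2 (Q.J_pos (y, s • v) ⟨hy, hsv⟩)
    have h6 : Real.sqrt (Q.J (y, s • v)) * φ (s • v) = 1 := mul_inv_cancel₀ hJ.ne'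
    simp only [smul_eq_mul, mul_zero, sub_zero, one_mul]
    unfold tau
    linear_combination (∑ i, ∑ j, Q.gi (y, s • v) i j *
      lam Pr ((Q.B (y, s • v) i).comp (Q.B (y, s • v) j))) * h6
  · have h7 : IntervalIntegrable (fun s : ℝ => ε (Real.sqrt (Q.J (y, s • v)) •
        Q.scal.lapE y (fun v => φ v • ContinuousLinearMap.id ℝ ℝ) (s • v))) volume 0 1 :=
      ⟨ε.integrable_comp ha.1, ε.integrable_comp ha.2⟩
    exact h7.const_mul _
  · exact ⟨Λ.integrable_comp hA.1, Λ.integrable_comp hA.2⟩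

/-- the quadratic form of the curvature -/
def SS (Q : RadData P W U D) (Pr : W →L[ℝ] W) (y : P) (v : Eu4) : ℝ :=
  ∑ i, ∑ j, ∑ k, v i * v k * lam Pr ((Q.Omg y i j).comp (Q.Omg y k j))

theorem SS_smul (Q : RadData P W U D) (Pr : W →L[ℝ] W) (y : P) (v : Eu4) (s : ℝ) :
    SS Q Pr y (s • v) = s ^ 2 * SS Q Pr y v := by
  unfold SS
  simp only [Finset.mul_sum]
  refine Finset.sum_congr rfl fun i _ => Finset.sum_congr rfl fun j _ =>
    Finset.sum_congr rfl fun k _ => ?_
  simp only [PiLp.smul_apply, smul_eq_mul]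
  ring

/-- the linear part of the connection -/
def bet (Q : RadData P W U D) (y : P) (v : Eu4) (j : Fin 4) : W →L[ℝ] W :=
  ∑ k, v k • ((1 / 2 : ℝ) • Q.Omg y k j)

theorem vec_eq (v : Eu4) : v = ∑ k, v k • ev4 k := by
  ext i
  simp [ev4, Finset.sum_apply, Pi.single_apply]

theorem bet_eq (Q : RadData P W U D) {y : P} (hy : y ∈ U) (v : Eu4) (j : Fin 4) :
    dv Q.B (y, 0) v j = bet Q y v j := by
  have h1 : HasFDerivAt (fun w => Q.B (y, w)) (dv Q.B (y, 0)) 0 :=
    hasFDerivAt_slice Q.U_open Q.B_smooth hy (mem_zero Q)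
  have h2 := hasFDerivAt_pi'.1 h1 j
  have h3 : ∀ k, (1 / 2 : ℝ) • Q.Omg y k j = dv Q.B (y, 0) (ev4 k) j := by
    intro k
    unfold RadData.Omg
    rw [h2.fderiv, smul_smul]
    norm_num
  unfold bet
  simp only [h3]
  conv_lhs => rw [vec_eq v]
  rw [map_sum, Finset.sum_apply]
  refine Finset.sum_congr rfl fun k _ => ?_
  rw [map_smul]; rfl

theorem bet_sq (Q : RadData P W U D) (Pr : W →L[ℝ] W) (y : P) (v : Eu4) :
    ∑ j, lam Pr ((bet Q y v j).comp (bet Q y v j)) = (1 / 4) * SS Q Pr y v := by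
  unfold SS bet
  rw [Finset.sum_comm (f := fun i j => ∑ k, v i * v k *
    lam Pr ((Q.Omg y i j).comp (Q.Omg y k j))), Finset.mul_sum]
  refine Finset.sum_congr rfl fun j _ => ?_
  rw [ContinuousLinearMap.finsetSum_comp, map_sum, Finset.mul_sum]
  refine Finset.sum_congr rfl fun i _ => ?_
  rw [ContinuousLinearMap.comp_finsetSum, map_sum, Finset.mul_sum]
  refine Finset.sum_congr rfl fun k _ => ?_
  simp only [ContinuousLinearMap.comp_smul, ContinuousLinearMap.smul_comp, map_smul, smul_eq_mul]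
  ring

end

end Vale.Agent.P211.HK.EU4
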