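import Vale.Agent.P211.HK.EUT4

/-! P211 / HK, part EU4 (helper209), fifth file: estimates of the coefficients. -/

namespace Vale.Agent.P211.HK.EU4

open Filter Topology MeasureTheory Set Vale.Agent.P211.HK
open scoped ContDiff RealInnerProductSpace

noncomputable section

set_option linter.unusedSectionVars false

variable {P W : Type} [NormedAddCommGroup P] [NormedSpace ℝ P] [NormedAddCommGroup W]
    [InnerProductSpace ℝ W] [FiniteDimensional ℝ W] {U : Set P} {D : ℝ}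

theorem lam_nn (Pr : W →L[ℝ] W) : 0 ≤ ‖lam Pr‖ := norm_nonneg (lam Pr)

theorem lam_comp_le (Pr A B : W →L[ℝ] W) : |lam Pr (A.comp B)| ≤ ‖lam Pr‖ * (‖A‖ * ‖B‖) := by
  rw [← Real.norm_eq_abs]
  exact ((lam Pr).le_opNorm _).trans
    (mul_le_mul_of_nonneg_left (ContinuousLinearMap.opNorm_comp_le _ _) (lam_nn Pr))

theorem tau_est (Q : RadData P W U D) (Pr : W →L[ℝ] W) {K : Set P} (hK : IsCompact K)
    (hKU : K ⊆ U) : ∃ C : ℝ, 0 ≤ C ∧ ∀ y ∈ K, ∀ v : Eu4, ‖v‖ ≤ D / 2 →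
      |tau Q Pr (y, v) - (1 / 4) * SS Q Pr y v| ≤ C * ‖v‖ ^ 3 := by
  obtain ⟨C1, hC1, h1⟩ := lip_unif Q.U_open Q.D_pos Q.B_smooth hK hKU
  obtain ⟨C2, hC2, h2⟩ := taylor_unif Q.U_open Q.D_pos Q.B_smooth hK hKU
  obtain ⟨C3, hC3, h3⟩ := lip_unif Q.U_open Q.D_pos Q.gi_smooth hK hKU
  have hD := Q.D_pos
  set M := ‖lam Pr‖ with hM
  have hM0 : 0 ≤ M := lam_nn Pr
  refine ⟨16 * (C3 * (M * (C1 * C1))) + 4 * (M * (C1 * C2) + M * (C2 * (C1 + C2 * D))),
    by positivity, fun y hy v hv => ?_⟩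
  have hyU := hKU hy
  have hv0 := norm_nonneg v
  have hB0 : Q.B (y, 0) = 0 := funext fun i => B_zero Q hyU i
  have b1 : ∀ i, ‖Q.B (y, v) i‖ ≤ C1 * ‖v‖ := fun i => by
    have := h1 y hy v hv
    rw [hB0, sub_zero] at this
    exact (norm_le_pi_norm _ i).trans this
  have b2 : ∀ i, ‖Q.B (y, v) i - bet Q y v i‖ ≤ C2 * ‖v‖ ^ 2 := fun i => by
    have := h2 y hy v hv
    rw [hB0, sub_zero] at this
    have h5 := (norm_le_pi_norm (Q.B (y, v) - dv Q.B (y, 0) v) i).trans this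
    rwa [Pi.sub_apply, bet_eq Q hyU] at h5
  have b3 : ∀ i, ‖bet Q y v i‖ ≤ (C1 + C2 * D) * ‖v‖ := fun i => by
    have e : bet Q y v i = Q.B (y, v) i - (Q.B (y, v) i - bet Q y v i) := by abel
    rw [e]
    refine (norm_sub_le _ _).trans ((add_le_add (b1 i) (b2 i)).trans ?_)
    have : C2 * ‖v‖ ^ 2 ≤ C2 * D * ‖v‖ := by
      rw [sq, ← mul_assoc, mul_assoc C2 D, mul_comm D, ← mul_assoc]
      exact mul_le_mul_of_nonneg_left (by linarith) (by positivity)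
    linarith
  have b4 : ∀ i j, |Q.gi (y, v) i j - (if i = j then 1 else 0)| ≤ C3 * ‖v‖ := fun i j => by
    have h5 := (norm_le_pi_norm _ j).trans ((norm_le_pi_norm _ i).trans (h3 y hy v hv))
    rw [Pi.sub_apply, Pi.sub_apply, Q.gi_zero y hyU, Real.norm_eq_abs] at h5
    exact h5
  have key : tau Q Pr (y, v) - (1 / 4) * SS Q Pr y v =
      (∑ i, ∑ j, (Q.gi (y, v) i j - (if i = j then 1 else 0)) *
        lam Pr ((Q.B (y, v) i).comp (Q.B (y, v) j))) +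
      ∑ j, (lam Pr ((Q.B (y, v) j).comp (Q.B (y, v) j - bet Q y v j)) +
        lam Pr ((Q.B (y, v) j - bet Q y v j).comp (bet Q y v j))) := by
    rw [← bet_sq]
    unfold tau
    have e1 : ∀ j, lam Pr ((Q.B (y, v) j).comp (Q.B (y, v) j - bet Q y v j)) +
        lam Pr ((Q.B (y, v) j - bet Q y v j).comp (bet Q y v j)) =
        lam Pr ((Q.B (y, v) j).comp (Q.B (y, v) j)) -
          lam Pr ((bet Q y v j).comp (bet Q y v j)) := fun j => by
      rw [ContinuousLinearMap.comp_sub, ContinuousLinearMap.sub_comp, map_sub, map_sub]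
      ring
    simp only [e1, sub_mul, Finset.sum_sub_distrib]
    simp
  rw [key]
  have g1 : |∑ i, ∑ j, (Q.gi (y, v) i j - (if i = j then 1 else 0)) *
        lam Pr ((Q.B (y, v) i).comp (Q.B (y, v) j))| ≤
      16 * (C3 * (M * (C1 * C1))) * ‖v‖ ^ 3 := by
    refine (Finset.abs_sum_le_sum_abs _ _).trans ?_
    refine (Finset.sum_le_sum fun i _ => (Finset.abs_sum_le_sum_abs _ _).trans
      (Finset.sum_le_sum (g := fun _ => (C3 * (M * (C1 * C1))) * ‖v‖ ^ 3) fun j _ => ?_)).trans ?_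
    · rw [abs_mul]
      refine (mul_le_mul (b4 i j) ((lam_comp_le Pr _ _).trans (mul_le_mul_of_nonneg_left
        (mul_le_mul (b1 i) (b1 j) (norm_nonneg _) (by positivity)) (lam_nn Pr)))
        (abs_nonneg _) (by positivity)).trans (le_of_eq ?_)
      rw [← hM]; ring
    · simp only [Finset.sum_const, Finset.card_univ, Fintype.card_fin, nsmul_eq_mul]
      push_cast
      nlinarith
  have g2 : |∑ j, (lam Pr ((Q.B (y, v) j).comp (Q.B (y, v) j - bet Q y v j)) +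
        lam Pr ((Q.B (y, v) j - bet Q y v j).comp (bet Q y v j)))| ≤
      4 * (M * (C1 * C2) + M * (C2 * (C1 + C2 * D))) * ‖v‖ ^ 3 := by
    refine (Finset.abs_sum_le_sum_abs _ _).trans ?_
    refine (Finset.sum_le_sum (g := fun _ => (M * (C1 * C2) + M * (C2 * (C1 + C2 * D))) *
      ‖v‖ ^ 3) fun j _ => ?_).trans ?_
    · refine (abs_add_le _ _).trans ?_
      have t1 := (lam_comp_le Pr (Q.B (y, v) j) (Q.B (y, v) j - bet Q y v j)).trans
        (mul_le_mul_of_nonneg_left (mul_le_mul (b1 j) (b2 j) (norm_nonneg _) (by positivity))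
          (lam_nn Pr))
      have t2 := (lam_comp_le Pr (Q.B (y, v) j - bet Q y v j) (bet Q y v j)).trans
        (mul_le_mul_of_nonneg_left (mul_le_mul (b2 j) (b3 j) (norm_nonneg _) (by positivity))
          (lam_nn Pr))
      refine (add_le_add t1 t2).trans (le_of_eq ?_)
      rw [← hM]; ring
    · simp only [Finset.sum_const, Finset.card_univ, Fintype.card_fin, nsmul_eq_mul]
      push_cast
      nlinarith
  refine (abs_add_le _ _).trans ((add_le_add g1 g2).trans (le_of_eq ?_))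
  ring

theorem om_one_est (Q : RadData P W U D) {Pr : W →L[ℝ] W} (hPr : ∀ a b, ⟪Pr a, b⟫ = ⟪a, Pr b⟫)
    {K : Set P} (hK : IsCompact K) (hKU : K ⊆ U) : ∃ C : ℝ, 0 ≤ C ∧ ∀ y ∈ K, ∀ v : Eu4,
      ‖v‖ ≤ D / 2 → |om Q Pr 1 (y, v) - (1 / 12) * SS Q Pr y v| ≤ C * ‖v‖ ^ 3 := by
  obtain ⟨C, hC, h1⟩ := tau_est Q Pr hK hKU
  refine ⟨C, hC, fun y hy v hv => ?_⟩
  have hyU := hKU hy
  have hD := Q.D_pos
  have hvb : v ∈ Metric.ball (0 : Eu4) D := by
    rw [mem_ball_zero_iff]; linarith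
  rw [om_one Q hPr hyU hvb]
  have e1 : (1 / 12) * SS Q Pr y v = ∫ s in (0 : ℝ)..1, s ^ 2 * ((1 / 4) * SS Q Pr y v) := by
    rw [intervalIntegral.integral_mul_const, integral_pow]
    norm_num
    ring
  have e2 : IntervalIntegrable (fun s : ℝ => s ^ 2 * ((1 / 4) * SS Q Pr y v)) volume 0 1 := by
    apply Continuous.intervalIntegrable
    fun_prop
  rw [e1, ← intervalIntegral.integral_sub (seg_int (tau_cont Q Pr hyU) hvb) e2]
  have h2 := intervalIntegral.norm_integral_le_of_norm_le_const (a := 0) (b := 1)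
    (f := fun s : ℝ => tau Q Pr (y, s • v) - s ^ 2 * ((1 / 4) * SS Q Pr y v))
    (C := C * ‖v‖ ^ 3) (fun s hs => by
      rw [uIoc_of_le zero_le_one] at hs
      have hs' : ‖s • v‖ ≤ ‖v‖ := by
        rw [norm_smul, Real.norm_eq_abs, abs_of_pos hs.1]
        nlinarith [norm_nonneg v, hs.2]
      have h3 := h1 y hy (s • v) (hs'.trans hv)
      rw [SS_smul] at h3
      rw [Real.norm_eq_abs]
      have h4 : tau Q Pr (y, s • v) - s ^ 2 * ((1 / 4) * SS Q Pr y v) =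
        tau Q Pr (y, s • v) - (1 / 4) * (s ^ 2 * SS Q Pr y v) := by ring
      rw [h4]
      exact h3.trans (mul_le_mul_of_nonneg_left (pow_le_pow_left₀ (norm_nonneg _) hs' 3) hC))
  rw [Real.norm_eq_abs] at h2
  simpa using h2

/-- the factor `J ^ (-1/2)` -/
def ph (Q : RadData P W U D) (y : P) (v : Eu4) : ℝ := (Real.sqrt (Q.J (y, v)))⁻¹

theorem ph_smooth (Q : RadData P W U D) {y : P} (hy : y ∈ U) :
    ContDiffOn ℝ ∞ (ph Q y) (Metric.ball 0 D) := slice_smooth (phi_smooth Q) hy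

theorem cc_one_zero (Q : RadData P W U D) {y : P} (hy : y ∈ U) :
    Q.cc 1 (y, 0) = (Lap0 (ph Q y)) • ContinuousLinearMap.id ℝ W := by
  rw [cc_one]
  simp only [smul_zero, Q.J_zero y hy, Real.sqrt_one, one_smul, intervalIntegral.integral_const,
    sub_zero]
  have h1 : Q.lapE y (fun v => (Real.sqrt (Q.J (y, v)))⁻¹ • ContinuousLinearMap.id ℝ W) 0 =
      - Lap0 (fun v => ph Q y v • ContinuousLinearMap.id ℝ W) :=
    lapE_zero Q hy ((ph_smooth Q hy).smul contDiffOn_const)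
  rw [h1, Lap0_smul_const _ Q.D_pos (ph_smooth Q hy), neg_neg]

theorem cc_succ (Q : RadData P W U D) (k : ℕ) (x : P × Eu4) :
    Q.cc (k + 1) x = - ∫ s in (0 : ℝ)..1, s ^ k • (Real.sqrt (Q.J (x.1, s • x.2)) •
      Q.lapE x.1 (fun v => (Real.sqrt (Q.J (x.1, v)))⁻¹ • Q.cc k (x.1, v)) (s • x.2)) := rfl

theorem cc_two_zero (Q : RadData P W U D) {y : P} (hy : y ∈ U)
    (h1 : ContDiffOn ℝ ∞ (Q.cc 1) (U ×ˢ Metric.ball 0 D)) :
    Q.cc 2 (y, 0) = (1 / 2 : ℝ) • Lap0 (fun v => ph Q y v • Q.cc 1 (y, v)) := by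
  have h2 : Q.lapE y (fun v => (Real.sqrt (Q.J (y, v)))⁻¹ • Q.cc 1 (y, v)) 0 =
      - Lap0 (fun v => ph Q y v • Q.cc 1 (y, v)) :=
    lapE_zero Q hy ((ph_smooth Q hy).smul (slice_smooth h1 hy))
  rw [cc_succ Q 1 (y, 0)]
  simp only [smul_zero, Q.J_zero y hy, Real.sqrt_one, one_smul, h2, pow_one]
  rw [intervalIntegral.integral_smul_const, integral_id]
  norm_num

theorem om_two_zero (Q : RadData P W U D) {Pr : W →L[ℝ] W} {y : P} (hy : y ∈ U)
    (h1 : ContDiffOn ℝ ∞ (Q.cc 1) (U ×ˢ Metric.ball 0 D))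
    (h1s : ContDiffOn ℝ ∞ (Q.scal.cc 1) (U ×ˢ Metric.ball 0 D)) :
    om Q Pr 2 (y, 0) = (1 / 2) * Lap0 (fun v => ph Q y v * om Q Pr 1 (y, v)) := by
  unfold om
  rw [cc_two_zero Q hy h1, cc_two_zero Q.scal hy h1s, map_smul, smul_eq_mul]
  set ε : (ℝ →L[ℝ] ℝ) →L[ℝ] ℝ := ContinuousLinearMap.apply ℝ ℝ 1 with hε
  have hs1 : ContDiffOn ℝ ∞ (fun v => ph Q y v • Q.cc 1 (y, v)) (Metric.ball 0 D) :=
    (ph_smooth Q hy).smul (slice_smooth h1 hy)
  have hs2 : ContDiffOn ℝ ∞ (fun v => ph Q.scal y v • Q.scal.cc 1 (y, v)) (Metric.ball 0 D) :=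
    (ph_smooth Q.scal hy).smul (slice_smooth h1s hy)
  have e1 := Lap0_clm (lam Pr) Q.D_pos hs1
  have e2 := Lap0_clm ε Q.D_pos hs2
  have e3 : ((1 / 2 : ℝ) • Lap0 (fun v => ph Q.scal y v • Q.scal.cc 1 (y, v))) 1 =
      (1 / 2) * ε (Lap0 (fun v => ph Q.scal y v • Q.scal.cc 1 (y, v))) := rfl
  rw [e3, ← e1, ← e2]
  have hs3 : ContDiffOn ℝ ∞ (fun v => lam Pr (ph Q y v • Q.cc 1 (y, v))) (Metric.ball 0 D) :=
    (lam Pr).contDiff.comp_contDiffOn hs1
  have hs4 : ContDiffOn ℝ ∞ (fun v => ε (ph Q.scal y v • Q.scal.cc 1 (y, v)))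
      (Metric.ball 0 D) := ε.contDiff.comp_contDiffOn hs2
  have e4 := Lap0_sub_mul Q.D_pos (lam Pr (ContinuousLinearMap.id ℝ W)) hs3 hs4
  have e5 : (fun v => ph Q y v * (lam Pr (Q.cc 1 (y, v)) -
      lam Pr (ContinuousLinearMap.id ℝ W) * Q.scal.cc 1 (y, v) 1)) =
      fun v => lam Pr (ph Q y v • Q.cc 1 (y, v)) - lam Pr (ContinuousLinearMap.id ℝ W) *
        ε (ph Q.scal y v • Q.scal.cc 1 (y, v)) := by
    funext v
    have e6 : ε (ph Q.scal y v • Q.scal.cc 1 (y, v)) = ph Q y v * Q.scal.cc 1 (y, v) 1 := rfl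
    rw [e6, map_smul, smul_eq_mul]
    ring
  rw [e5, e4]
  ring

theorem om_smooth (Q : RadData P W U D) {Pr : W →L[ℝ] W} {k : ℕ}
    (h1 : ContDiffOn ℝ ∞ (Q.cc k) (U ×ˢ Metric.ball 0 D))
    (h1s : ContDiffOn ℝ ∞ (Q.scal.cc k) (U ×ˢ Metric.ball 0 D)) :
    ContDiffOn ℝ ∞ (om Q Pr k) (U ×ˢ Metric.ball 0 D) :=
  ((lam Pr).contDiff.comp_contDiffOn h1).sub
    (contDiffOn_const.mul (h1s.clm_apply contDiffOn_const))

theorem ev4_apply (i j : Fin 4) : (ev4 i) j = if i = j then 1 else 0 := by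
  simp [ev4, eq_comm]

theorem SS_ev4 (Q : RadData P W U D) (Pr : W →L[ℝ] W) (y : P) (i : Fin 4) :
    SS Q Pr y (ev4 i) = ∑ j, lam Pr ((Q.Omg y i j).comp (Q.Omg y i j)) := by
  unfold SS
  simp only [ev4_apply, ite_mul, one_mul, zero_mul]
  rw [Finset.sum_eq_single i]
  · simp
  · intro j _ hj
    simp [Ne.symm hj]
  · intro h; exact absurd (Finset.mem_univ i) h

theorem om_two_val (Q : RadData P W U D) {Pr : W →L[ℝ] W} (hPr : ∀ a b, ⟪Pr a, b⟫ = ⟪a, Pr b⟫)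
    {y : P} (hy : y ∈ U)
    (h1 : ContDiffOn ℝ ∞ (Q.cc 1) (U ×ˢ Metric.ball 0 D))
    (h1s : ContDiffOn ℝ ∞ (Q.scal.cc 1) (U ×ˢ Metric.ball 0 D)) :
    2 * om Q Pr 2 (y, 0) =
      (1 / 6) * ∑ i, ∑ j, lam Pr ((Q.Omg y i j).comp (Q.Omg y i j)) := by
  rw [om_two_zero Q hy h1 h1s]
  have hD := Q.D_pos
  obtain ⟨C, hC, h2⟩ := om_one_est Q hPr (isCompact_singleton (x := y))
    (singleton_subset_iff.2 hy)
  obtain ⟨C', hC', h3⟩ := lip_unif Q.U_open Q.D_pos (phi_smooth Q) (isCompact_singleton (x := y))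
    (singleton_subset_iff.2 hy)
  have hph0 : (Real.sqrt (Q.J (y, 0)))⁻¹ = 1 := by rw [Q.J_zero y hy]; simp
  obtain ⟨C'', hC'', h4⟩ := exists_bound Q.D_pos (phi_smooth Q).continuousOn
    (isCompact_singleton (x := y)) (singleton_subset_iff.2 hy)
  have hs : ContDiffOn ℝ ∞ (fun v => ph Q y v * om Q Pr 1 (y, v)) (Metric.ball 0 D) :=
    (ph_smooth Q hy).mul (slice_smooth (om_smooth Q h1 h1s) hy)
  have h5 := lap0_of_cubic hD hs (fun i => (1 / 12) * SS Q Pr y (ev4 i))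
    (C := C'' * C + C' * ∑ i, |(1 / 12) * SS Q Pr y (ev4 i)|) (fun i s hs => by
      have hn : ‖s • ev4 i‖ = |s| := by rw [norm_smul, norm_ev4, mul_one, Real.norm_eq_abs]
      have e1 := h2 y rfl (s • ev4 i) (by rwa [hn])
      have e2 := h3 y rfl (s • ev4 i) (by rwa [hn])
      have e3 := h4 y rfl (s • ev4 i) (by rwa [hn])
      rw [SS_smul, hn] at e1
      rw [hph0, hn, Real.norm_eq_abs] at e2
      rw [Real.norm_eq_abs] at e3
      have e4 : ph Q y (s • ev4 i) * om Q Pr 1 (y, s • ev4 i) -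
          s ^ 2 * ((1 / 12) * SS Q Pr y (ev4 i)) =
          ph Q y (s • ev4 i) * (om Q Pr 1 (y, s • ev4 i) -
            (1 / 12) * (s ^ 2 * SS Q Pr y (ev4 i))) +
          (ph Q y (s • ev4 i) - 1) * (s ^ 2 * ((1 / 12) * SS Q Pr y (ev4 i))) := by ring
      rw [e4]
      refine (abs_add_le _ _).trans ?_
      rw [abs_mul, abs_mul, abs_mul (s ^ 2), abs_of_nonneg (sq_nonneg s)]
      have e5 : |(1 / 12) * SS Q Pr y (ev4 i)| ≤ ∑ i, |(1 / 12) * SS Q Pr y (ev4 i)| :=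
        Finset.single_le_sum (f := fun i => |(1 / 12) * SS Q Pr y (ev4 i)|)
          (fun i _ => abs_nonneg _) (Finset.mem_univ i)
      have e6 : |ph Q y (s • ev4 i)| * |om Q Pr 1 (y, s • ev4 i) -
            (1 / 12) * (s ^ 2 * SS Q Pr y (ev4 i))| ≤ C'' * (C * |s| ^ 3) :=
        mul_le_mul e3 e1 (abs_nonneg _) hC''
      have e7 : |ph Q y (s • ev4 i) - 1| * (s ^ 2 * |(1 / 12) * SS Q Pr y (ev4 i)|) ≤
          (C' * |s|) * (s ^ 2 * ∑ i, |(1 / 12) * SS Q Pr y (ev4 i)|) :=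
        mul_le_mul e2 (mul_le_mul_of_nonneg_left e5 (sq_nonneg s)) (by positivity) (by positivity)
      refine (add_le_add e6 e7).trans (le_of_eq ?_)
      rw [← sq_abs s]
      ring)
  rw [h5, Finset.mul_sum, Finset.mul_sum, Finset.mul_sum]
  refine Finset.sum_congr rfl fun i _ => ?_
  rw [SS_ev4]
  ring

end

end Vale.Agent.P211.HK.EU4
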