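import Mathlib.Topology.Homotopy.Lifting
import Mathlib.Topology.Homeomorph.Lemmas
import Mathlib.Topology.Connected.LocallyConnected
import Mathlib.AlgebraicTopology.FundamentalGroupoid.SimplyConnected

/-! P211 / HK (helper858), block FB0: locally constant systems on simply connected spaces.

`Par p s` means that the section `s` is parallel near `p`. On a simply connected and locally path
connected space every value extends to exactly one global parallel section (`LocSys.existsUnique`).
-/

namespace Vale.Agent.P211.HK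

open Set Topology Filter

universe u v

variable {X : Type u} [TopologicalSpace X] {F : X → Type v}

/-- A system of local parallel sections: `Par p s` means that `s` is parallel near `p`. -/
structure LocSys (Par : (p : X) → ((q : X) → F q) → Prop) : Prop where
  opn : ∀ p s, Par p s → ∀ᶠ q in 𝓝 p, Par q s
  uniq : ∀ p s s', Par p s → Par p s' → s p = s' p → ∀ᶠ q in 𝓝 p, s q = s' q
  clo : ∀ p s s', Par p s → Par p s' → (∃ᶠ q in 𝓝 p, s q = s' q) → s p = s' p
  loc : ∀ p s s', Par p s → (∀ᶠ q in 𝓝 p, s q = s' q) → Par p s'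
  ext : ∀ p, ∃ U ∈ 𝓝 p, ∀ q ∈ U, ∀ v : F q,
    ∃ s : (q : X) → F q, s q = v ∧ ∀ q' ∈ U, Par q' s

namespace LocSys

variable {Par : (p : X) → ((q : X) → F q) → Prop}

/-- parallel sections on a connected set which agree at one point agree -/
theorem eqOn (h : LocSys Par) {V : Set X} (hV : IsPreconnected V) {s s' : (q : X) → F q}
    (hs : ∀ q ∈ V, Par q s) (hs' : ∀ q ∈ V, Par q s') {p : X} (hp : p ∈ V) (hps : s p = s' p) :
    ∀ q ∈ V, s q = s' q := by
  let O1 : Set X := {q | ∀ᶠ q' in 𝓝 q, s q' = s' q'}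
  let O2 : Set X := {q | ∀ᶠ q' in 𝓝 q, s q' ≠ s' q'}
  have hO1 : IsOpen O1 := isOpen_setOfPred_eventually_nhds
  have hO2 : IsOpen O2 := isOpen_setOfPred_eventually_nhds
  have hcov : V ⊆ O1 ∪ O2 := by
    intro q hq
    by_cases he : s q = s' q
    · exact Or.inl (h.uniq q s s' (hs q hq) (hs' q hq) he)
    · right
      by_contra hn
      exact he (h.clo q s s' (hs q hq) (hs' q hq) (by
        intro h2
        exact hn h2))
  intro q hq
  rcases hcov hq with h1 | h2
  · exact h1.self_of_nhds
  · exfalso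
    obtain ⟨x, -, hx1, hx2⟩ := hV O1 O2 hO1 hO2 hcov
      ⟨p, hp, h.uniq p s s' (hs p hp) (hs' p hp) hps⟩ ⟨q, hq, h2⟩
    exact hx2.self_of_nhds hx1.self_of_nhds

end LocSys

/-- the total space -/
def Tot (_Par : (p : X) → ((q : X) → F q) → Prop) : Type (max u v) := Σ p, F p

namespace Tot

variable (Par : (p : X) → ((q : X) → F q) → Prop)

/-- the point `v` over `p` -/
def mk (p : X) (v : F p) : Tot Par := ⟨p, v⟩

/-- the projection -/
def pr (e : Tot Par) : X := e.1

omit [TopologicalSpace X] in
theorem mk_pr (p : X) (v : F p) : pr Par (mk Par p v) = p := rfl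

variable {Par}

omit [TopologicalSpace X] in
theorem mk_inj {p : X} {v w : F p} (h : mk Par p v = mk Par p w) : v = w := by
  cases h
  rfl

omit [TopologicalSpace X] in
theorem exists_mk (e : Tot Par) : ∃ v : F (pr Par e), e = mk Par (pr Par e) v := ⟨e.2, rfl⟩

omit [TopologicalSpace X] in
theorem exists_mk' {p : X} {e : Tot Par} (h : pr Par e = p) : ∃ v : F p, e = mk Par p v := by
  subst h
  exact exists_mk e

variable (Par)

instance : TopologicalSpace (Tot Par) where
  IsOpen O := ∀ p s, Par p s → mk Par p (s p) ∈ O → ∀ᶠ q in 𝓝 p, mk Par q (s q) ∈ O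
  isOpen_univ _ _ _ _ := Eventually.of_forall fun _ => mem_univ _
  isOpen_inter O O' hO hO' p s hs h :=
    ((hO p s hs h.1).and (hO' p s hs h.2)).mono fun _ hq => hq
  isOpen_sUnion 𝒪 h𝒪 p s hs h := by
    obtain ⟨O, hO, hp⟩ := h
    exact (h𝒪 O hO p s hs hp).mono fun q hq => ⟨O, hO, hq⟩

variable {Par}

theorem isOpen_iff {O : Set (Tot Par)} : IsOpen O ↔
    ∀ p s, Par p s → mk Par p (s p) ∈ O → ∀ᶠ q in 𝓝 p, mk Par q (s q) ∈ O := Iff.rfl

theorem continuousAt_sec {p : X} {s : (q : X) → F q} (h : Par p s) :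
    ContinuousAt (fun q => mk Par q (s q)) p :=
  tendsto_nhds.mpr fun _ hO hp => hO p s h hp

theorem isOpen_preimage {U : Set X} (hU : IsOpen U) : IsOpen (pr Par ⁻¹' U) :=
  fun _ _ _ h => hU.mem_nhds h

theorem isOpen_image (h : LocSys Par) {U : Set X} (hU : IsOpen U) {s : (q : X) → F q}
    (hs : ∀ q ∈ U, Par q s) : IsOpen ((fun q => mk Par q (s q)) '' U) := by
  intro p s' hs' hp
  obtain ⟨q, hq, he⟩ := hp
  have hqp : q = p := congrArg (pr Par) he
  subst hqp
  have h1 : s q = s' q := mk_inj he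
  filter_upwards [h.uniq q s s' (hs q hq) hs' h1, hU.mem_nhds hq] with x hx hxU
  exact ⟨x, hxU, congrArg (mk Par x) hx⟩

variable [LocallyPathConnectedSpace X]

/-- The projection is a covering map. -/
theorem isCoveringMap (h : LocSys Par) : IsCoveringMap (pr Par) := by
  intro p
  obtain ⟨U, hU, hUs⟩ := h.ext p
  -- an open connected neighbourhood
  let V : Set X := connectedComponentIn (interior U) p
  have hpU : p ∈ interior U := mem_interior_iff_mem_nhds.mpr hU
  have hVo : IsOpen V := isOpen_interior.connectedComponentIn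
  have hVc : IsPreconnected V := isPreconnected_connectedComponentIn
  have hpV : p ∈ V := mem_connectedComponentIn hpU
  have hVU : V ⊆ U := (connectedComponentIn_subset _ _).trans interior_subset
  have hpU' : p ∈ U := hVU hpV
  choose S hS1 hS2 using hUs p hpU'
  let _ : TopologicalSpace (F p) := ⊥
  have _ : DiscreteTopology (F p) := ⟨rfl⟩
  let K : V × F p → Tot Par := fun x => mk Par x.1.1 (S x.2 x.1.1)
  have hKc : Continuous K := by
    rw [continuous_prod_of_discrete_right]
    intro v
    rw [continuous_iff_continuousAt]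
    intro x
    have h1 : ContinuousAt (fun q => mk Par q (S v q)) x.1 :=
      continuousAt_sec (hS2 v x.1 (hVU x.2))
    exact h1.comp continuous_subtype_val.continuousAt
  have hKi : Function.Injective K := by
    rintro ⟨⟨q, hq⟩, v⟩ ⟨⟨q', hq'⟩, w⟩ hKK
    have hqq : q = q' := congrArg (pr Par) hKK
    subst hqq
    have h1 : S v q = S w q := mk_inj hKK
    have h2 := h.eqOn hVc (fun x hx => hS2 v x (hVU hx)) (fun x hx => hS2 w x (hVU hx)) hq h1 p hpV
    rw [hS1, hS1] at h2
    rw [h2]
  have hKo : IsOpenMap K := by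
    intro O hO
    have h1 : K '' O = ⋃ v : F p, (fun q => mk Par q (S v q)) ''
        (Subtype.val '' {x : V | (x, v) ∈ O}) := by
      ext e
      constructor
      · rintro ⟨⟨x, v⟩, hx, rfl⟩
        exact mem_iUnion.mpr ⟨v, x.1, ⟨x, hx, rfl⟩, rfl⟩
      · intro he
        obtain ⟨v, _, ⟨x, hx, rfl⟩, rfl⟩ := mem_iUnion.mp he
        exact ⟨(x, v), hx, rfl⟩
    rw [h1]
    refine isOpen_iUnion fun v => ?_
    refine isOpen_image h ?_ ?_
    · refine hVo.isOpenMap_subtype_val _ ?_
      exact hO.preimage (by fun_prop)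
    · rintro _ ⟨x, -, rfl⟩
      exact hS2 v x.1 (hVU x.2)
  have hKe : IsOpenEmbedding K := IsOpenEmbedding.of_continuous_injective_isOpenMap hKc hKi hKo
  have hKr : range K = pr Par ⁻¹' V := by
    ext e
    constructor
    · rintro ⟨⟨x, v⟩, rfl⟩
      exact x.2
    · intro he
      obtain ⟨w, hw⟩ := exists_mk e
      obtain ⟨s, hs1, hs2⟩ := hUs (pr Par e) (hVU he) w
      have h2 := h.eqOn hVc (fun x hx => hs2 x (hVU hx))
        (fun x hx => hS2 (s p) x (hVU hx)) hpV (hS1 (s p)).symm (pr Par e) he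
      refine ⟨(⟨pr Par e, he⟩, s p), ?_⟩
      exact (congrArg (mk Par (pr Par e)) (h2.symm.trans hs1)).trans hw.symm
  have H : IsEvenlyCovered (pr Par) p (F p) := by
    refine ⟨inferInstance, V, hpV, hVo, isOpen_preimage hVo, ?_⟩
    refine ⟨((hKe.toHomeomorph).trans (Homeomorph.setCongr hKr)).symm, ?_⟩
    intro e
    obtain ⟨y, hy⟩ := ((hKe.toHomeomorph).trans (Homeomorph.setCongr hKr)).surjective e
    rw [← hy, Homeomorph.symm_apply_apply]
    rfl
  exact H.to_isEvenlyCovered_preimage

end Tot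

namespace LocSys

variable {Par : (p : X) → ((q : X) → F q) → Prop}

/-- **On a simply connected space every value extends to exactly one global parallel section.** -/
theorem existsUnique [SimplyConnectedSpace X] [LocallyPathConnectedSpace X] (h : LocSys Par)
    (p : X) (v : F p) : ∃! s : (q : X) → F q, s p = v ∧ ∀ q, Par q s := by
  obtain ⟨σ, ⟨hσ0, hσ⟩, -⟩ := (Tot.isCoveringMap h).existsUnique_continuousMap_lifts
    (ContinuousMap.id X) p (Tot.mk Par p v) rfl
  have hσ' : ∀ q, Tot.pr Par (σ q) = q := fun q => congrFun hσ q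
  choose s hs using fun q => Tot.exists_mk' (hσ' q)
  have hsp : s p = v := by
    have h1 := hs p
    rw [hσ0] at h1
    exact (Tot.mk_inj h1).symm
  have hpar : ∀ q, Par q s := by
    intro q
    obtain ⟨U, hU, hUs⟩ := h.ext q
    obtain ⟨t, ht1, ht2⟩ := hUs q (mem_of_mem_nhds hU) (s q)
    refine h.loc q t s (ht2 q (mem_of_mem_nhds hU)) ?_
    have hopen : IsOpen ((fun x => Tot.mk Par x (t x)) '' interior U) :=
      Tot.isOpen_image h isOpen_interior fun x hx => ht2 x (interior_subset hx)
    have hmem : σ q ∈ ((fun x => Tot.mk Par x (t x)) '' interior U) := by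
      refine ⟨q, mem_interior_iff_mem_nhds.mpr hU, ?_⟩
      change Tot.mk Par q (t q) = σ q
      rw [hs q, ht1]
    filter_upwards [σ.continuous.continuousAt.preimage_mem_nhds (hopen.mem_nhds hmem)] with x hx
    obtain ⟨y, -, hy⟩ := hx
    have hyx : y = x := by
      have h2 := congrArg (Tot.pr Par) hy
      change y = Tot.pr Par (σ x) at h2
      rw [hσ'] at h2
      exact h2
    subst hyx
    change Tot.mk Par y (t y) = σ y at hy
    rw [hs y] at hy
    exact Tot.mk_inj hy
  refine ⟨s, ⟨hsp, hpar⟩, ?_⟩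
  rintro s' ⟨hs'1, hs'2⟩
  funext q
  exact h.eqOn isPreconnected_univ (fun x _ => hs'2 x) (fun x _ => hpar x) (mem_univ p)
    (hs'1.trans hsp.symm) q (mem_univ q)

end LocSys

end Vale.Agent.P211.HK
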