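import Vale.Agent.P211.HK.FlatGlob
import Vale.Agent.P211.HK.LocSys

/-! P211 / HK (helper858), block FB2: parallel pairs with prescribed initial value. -/

set_option maxSynthPendingDepth 3
set_option linter.unusedSectionVars false

namespace Vale.Agent.P211.HK.S22.FS

open scoped Manifold ContDiff Topology
open Bundle Filter VectorField Vale.Agent.P211 Vale.Agent.P211.NN

noncomputable section

variable {E : Type} [NormedAddCommGroup E] [NormedSpace ℝ E] [FiniteDimensional ℝ E]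
  {M : Type} [TopologicalSpace M] [ChartedSpace E M] [IsManifold 𝓘(ℝ, E) ∞ M] [T2Space M]
  [RiemannianBundle fun p : M => TangentSpace 𝓘(ℝ, E) p]
  [IsContMDiffRiemannianBundle 𝓘(ℝ, E) ∞ E fun p : M => TangentSpace 𝓘(ℝ, E) p]
  {cov : CovariantDerivative 𝓘(ℝ, E) E (TangentSpace 𝓘(ℝ, E) : M → Type)}
  {hcov : IsLC cov} {lam : ℝ} {P : VF E M →ₗ[SF E M] VF E M}

theorem qT_near (hl : 0 < lam) {s : Tri E M} {q : M}
    (h : ∀ᶠ y in 𝓝 q, EqT hcov lam P s y) : ∀ᶠ y in 𝓝 q, qT lam s y = qT lam s q :=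
  const_near hcov (h.mono fun _ hy X => DVF_qT hl hy X)

/-- the parallel germs form a local system -/
theorem locSys (hE : Module.finrank ℝ E = 4) (hl : 0 < lam) (hS : Split hcov lam P) :
    LocSys (Par hcov lam P) where
  opn := by
    rintro p σ ⟨s, h1, h2⟩
    filter_upwards [h1.eventually_nhds, h2.eventually_nhds] with q hq1 hq2
    exact ⟨s, hq1, hq2⟩
  uniq := by
    rintro p σ σ' ⟨s, h1, h2⟩ ⟨s', h1', h2'⟩ he
    have h3 : ∀ᶠ y in 𝓝 p, EqT hcov lam P (s - s') y := by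
      filter_upwards [h2, h2'] with y a b
      exact a.sub b
    have h4 := qT_near hl h3
    have h5 : qT lam (s - s') p = 0 := qT_zero (by
      rw [evT_sub, ← h1.self_of_nhds, ← h1'.self_of_nhds, he, sub_self])
    filter_upwards [h4, h1, h1'] with y a b c
    rw [h5] at a
    have h6 := qT_eq_zero hl a
    rw [evT_sub, sub_eq_zero] at h6
    rw [b, c, h6]
  clo := by
    rintro p σ σ' ⟨s, h1, h2⟩ ⟨s', h1', h2'⟩ he
    have h3 : ∀ᶠ y in 𝓝 p, EqT hcov lam P (s - s') y := by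
      filter_upwards [h2, h2'] with y a b
      exact a.sub b
    have h4 := qT_near hl h3
    obtain ⟨y, hy, a, b, c⟩ := (he.and_eventually (h4.and (h1.and h1'))).exists
    have h5 : qT lam (s - s') y = 0 := qT_zero (by rw [evT_sub, ← b, ← c, hy, sub_self])
    rw [h5] at a
    have h6 := qT_eq_zero hl a.symm
    rw [evT_sub, sub_eq_zero] at h6
    rw [h1.self_of_nhds, h1'.self_of_nhds, h6]
  loc := by
    rintro p σ σ' ⟨s, h1, h2⟩ h
    refine ⟨s, ?_, h2⟩
    filter_upwards [h1, h] with y a b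
    rw [← b, a]
  ext := fun p => exists_local hE hS p

/-- `D` is local -/
theorem DT_local (s : Tri E M) {q : M} (h : ∀ᶠ y in 𝓝 q, evT y s = 0) (X : VF E M) :
    evT q (DT hcov lam P X s) = 0 := by
  obtain ⟨f, g, ξ⟩ := s
  have h1 : ∀ᶠ y in 𝓝 q, f y = (0 : SF E M) y := h.mono fun y hy => congrArg (fun u => u.1) hy
  have h2 : ∀ᶠ y in 𝓝 q, g y = (0 : SF E M) y := h.mono fun y hy => congrArg (fun u => u.2.1) hy
  have h3 : ∀ᶠ y in 𝓝 q, ξ y = 0 := h.mono fun y hy => congrArg (fun u => u.2.2) hy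
  have d0 : ∀ X : VF E M, DVF X 0 = 0 := (lcOf hcov).D_zero
  have e1 : DVF X f q = 0 := by rw [DVF_local q f 0 h1 X, d0]; rfl
  have e2 : DVF X g q = 0 := by rw [DVF_local q g 0 h2 X, d0]; rfl
  have e3 : nabVF cov hcov.smooth X ξ q = 0 := by
    obtain ⟨χ, hχ1, hχ0⟩ := exists_bump (E := E) h3
    have h4 : χ • ξ = 0 := by
      ext y
      rw [smulVF_apply]
      by_cases hy : ξ y = 0
      · rw [hy, smul_zero]; rfl
      · rw [hχ0 y hy, zero_smul]; rfl
    have h5 := nab_smul_apply hcov X ξ χ q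
    rw [h4, hχ1, h3.self_of_nhds, smul_zero, one_smul, zero_add] at h5
    rw [← h5]
    have h6 : nabVF cov hcov.smooth X 0 = 0 := (lcOf hcov).nab_zero X
    rw [h6]
    rfl
  have f0 : f q = 0 := h1.self_of_nhds
  have g0 : g q = 0 := h2.self_of_nhds
  have x0 : ξ q = 0 := h3.self_of_nhds
  refine Prod.ext ?_ (Prod.ext ?_ ?_)
  · change DVF X f q - inner ℝ (P X q) (ξ q) = 0
    rw [e1, x0, inner_zero_right, sub_zero]
  · change DVF X g q - inner ℝ ((X - P X) q) (ξ q) = 0
    rw [e2, x0, inner_zero_right, sub_zero]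
  · change nabVF cov hcov.smooth X ξ q + lam • (f q • P X q + g q • (X - P X) q) = 0
    rw [e3, f0, g0, zero_smul, zero_smul, add_zero, smul_zero, add_zero]

/-- a triple is determined by its values -/
theorem tri_ext {s s' : Tri E M} (h : ∀ q, evT q s = evT q s') : s = s' := by
  refine Prod.ext ?_ (Prod.ext ?_ ?_)
  · ext q
    exact congrArg (fun u => u.1) (h q)
  · ext q
    exact congrArg (fun u => u.2.1) (h q)
  · ext q
    exact congrArg (fun u => u.2.2) (h q)

/-- gluing of germs -/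
theorem exists_glue (σ : (y : M) → Fib E y) (h : ∀ q, Par hcov lam P q σ) :
    ∃ T : Tri E M, (∀ q, evT q T = σ q) ∧ ∀ X, DT hcov lam P X T = 0 := by
  choose s hs1 hs2 using h
  have c1 : ContMDiff 𝓘(ℝ, E) 𝓘(ℝ) ∞ fun q => (σ q).1 := fun q => by
    refine ((s q).1.contMDiff q).congr_of_eventuallyEq ?_
    filter_upwards [hs1 q] with y hy
    rw [hy]
    rfl
  have c2 : ContMDiff 𝓘(ℝ, E) 𝓘(ℝ) ∞ fun q => (σ q).2.1 := fun q => by
    refine ((s q).2.1.contMDiff q).congr_of_eventuallyEq ?_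
    filter_upwards [hs1 q] with y hy
    rw [hy]
    rfl
  have c3 : ContMDiff 𝓘(ℝ, E) (𝓘(ℝ, E).prod 𝓘(ℝ, E)) ∞
      fun q => (⟨q, (σ q).2.2⟩ : TangentBundle 𝓘(ℝ, E) M) := fun q => by
    refine ((s q).2.2.contMDiff q).congr_of_eventuallyEq ?_
    filter_upwards [hs1 q] with y hy
    rw [hy]
    rfl
  let T : Tri E M := (⟨_, c1⟩, ⟨_, c2⟩, ⟨_, c3⟩)
  have hT : ∀ q, evT q T = σ q := fun q => rfl
  refine ⟨T, hT, fun X => tri_ext fun q => ?_⟩
  have h1 : ∀ᶠ y in 𝓝 q, evT y (T - s q) = 0 := by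
    filter_upwards [hs1 q] with y hy
    rw [evT_sub, hT, hy, sub_self]
  have h2 := DT_local (hcov := hcov) (lam := lam) (P := P) _ h1 X
  have h3 : DT hcov lam P X (T - s q) = DT hcov lam P X T - DT hcov lam P X (s q) :=
    DS_sub (lcOf hcov) P (cst lam) X _ _
  rw [h3, evT_sub, (hs2 q).self_of_nhds X, sub_zero] at h2
  exact h2

/-- **Parallel pairs with prescribed initial value exist.** -/
theorem ppairEx (hE : Module.finrank ℝ E = 4) (hsc : SimplyConnectedSpace M) (hl : 0 < lam)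
    (hS : Split hcov lam P) : PPairEx hcov lam P := by
  intro p c V hV
  have hlp : LocallyPathConnectedSpace M := ChartedSpace.locallyPathConnectedSpace E M
  obtain ⟨σ, ⟨hσp, hσ⟩, -⟩ := (locSys hE hl hS).existsUnique p ((c, 0, V p) : Fib E p)
  obtain ⟨⟨z, g, ξ⟩, hT, hD⟩ := exists_glue σ hσ
  have gs : ∀ A B C : VF E M, gVF (A - B) C = gVF A C - gVF B C := (lcOf hcov).g_sub_left
  have gr : ∀ A B C : VF E M, gVF A (B - C) = gVF A B - gVF A C := fun A B C => by
    have := (lcOf hcov).g_symm A (B - C)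
    have e1 : gVF A (B - C) = gVF (B - C) A := this
    have e2 : gVF A B = gVF B A := (lcOf hcov).g_symm A B
    have e3 : gVF A C = gVF C A := (lcOf hcov).g_symm A C
    rw [e1, gs, e2, e3]
  have d1 : ∀ X, DVF X z = gVF (P X) ξ := fun X =>
    sub_eq_zero.mp (congrArg (fun u => u.1) (hD X))
  have d2 : ∀ X, DVF X g = gVF (X - P X) ξ := fun X =>
    sub_eq_zero.mp (congrArg (fun u => u.2.1) (hD X))
  have d3 : ∀ X, nabVF cov hcov.smooth X ξ = -(cst lam • (z • P X + g • (X - P X))) := fun X =>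
    eq_neg_of_add_eq_zero_left (congrArg (fun u => u.2.2) (hD X))
  -- the complementary part is parallel
  have k0 : ∀ X, DT hcov lam P X (0, g, ξ - P ξ) = 0 := by
    intro X
    refine Prod.ext ?_ (Prod.ext ?_ ?_)
    · change DVF X 0 - gVF (P X) (ξ - P ξ) = 0
      have e0 : DVF X (0 : SF E M) = 0 := (lcOf hcov).D_zero X
      rw [e0, hS.symm, map_sub, hS.proj, sub_self]
      ext q
      change (0 : ℝ) - inner ℝ (X q) 0 = 0
      rw [inner_zero_right, sub_zero]
    · change DVF X g - gVF (X - P X) (ξ - P ξ) = 0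
      rw [d2, gr, gs X (P X) (P ξ), hS.symm X (P ξ), hS.proj]
      ring
    · change nabVF cov hcov.smooth X (ξ - P ξ) + cst lam • ((0 : SF E M) • P X + g • (X - P X)) = 0
      have e1 : nabVF cov hcov.smooth X (ξ - P ξ) = nabVF cov hcov.smooth X ξ -
        nabVF cov hcov.smooth X (P ξ) := (lcOf hcov).nab_sub X ξ (P ξ)
      rw [e1, hS.par, d3, map_neg, map_smul, map_add, map_smul, map_smul, map_sub, hS.proj]
      module
  have k1 : ∀ X, DVF X (qT lam (0, g, ξ - P ξ)) = 0 := fun X => by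
    ext q
    refine DVF_qT (hcov := hcov) (P := P) hl ?_ X
    intro X
    rw [k0 X]
    rfl
  have hp1 : z p = c := congrArg (fun u => u.1) ((hT p).trans hσp)
  have hp2 : g p = 0 := congrArg (fun u => u.2.1) ((hT p).trans hσp)
  have hp3 : ξ p = V p := congrArg (fun u => u.2.2) ((hT p).trans hσp)
  have hp4 : P ξ p = V p := by
    have h1 : (ξ - V) p = 0 := by
      change ξ p - V p = 0
      rw [hp3, sub_self]
    have h2 := P_ptwise P h1
    rw [map_sub] at h2
    have h3 : P ξ p - P V p = 0 := h2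
    rw [sub_eq_zero] at h3
    rw [h3, hV]
  have k2 : ∀ q, evT q ((0, g, ξ - P ξ) : Tri E M) = 0 := by
    intro q
    refine qT_eq_zero hl ?_
    have h1 := const_of_DVF (qT lam (0, g, ξ - P ξ)) k1 q p
    rw [h1]
    refine qT_zero ?_
    refine Prod.ext rfl (Prod.ext hp2 ?_)
    change ξ p - P ξ p = 0
    rw [hp3, hp4, sub_self]
  have hg : g = 0 := by
    ext q
    exact congrArg (fun u => u.2.1) (k2 q)
  have hξ : P ξ = ξ := by
    have : ξ - P ξ = 0 := by
      ext q
      exact congrArg (fun u => u.2.2) (k2 q)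
    exact (sub_eq_zero.mp this).symm
  refine ⟨z, ξ, ⟨hξ, fun X => ?_, fun X => ?_⟩, hp1, hp3⟩
  · rw [d1, hS.symm, hξ]
    exact (lcOf hcov).g_symm X ξ
  · rw [d3, hg, zero_smul, add_zero, smul_smul]

/-- FB2 for `0 < lam` -/
theorem fb2 (hl : 0 < lam) : FB2Stmt (M := M) hcov lam := by
  intro hE hsc P hS p c V hV
  obtain ⟨f, ξ, h, h1, h2⟩ := ppairEx hE hsc hl hS p c V hV
  refine ⟨f, h.sol hS, h1, fun X => ?_⟩
  rw [h.grad X, gVF_apply, gVF_apply, h2]

/-- SV without hypotheses -/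
theorem sv_final : SVStmt (M := M) hcov lam := fun hE hsc hl P hS =>
  sv_of (fun _ hS' hsc' => ppairEx hE hsc' hl hS') hE hsc hl P hS

end

end Vale.Agent.P211.HK.S22.FS
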