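import Mathlib

set_option linter.all false

/-! P211 / HK (helper124): local parallel sections of a flat connection (Euclidean part).

`flat_local`: if `A : V → V →L[ℝ] W →L[ℝ] W` is smooth on a ball and `dA + A ∧ A = 0` there, then
for every `w` there is `Y` on a smaller ball with `Y 0 = w` and `dY = - A Y`. -/

open Set Filter Topology Metric
open scoped ContDiff

noncomputable section

namespace Vale.Agent.P211.HK.FB

/-! ### linear differential equations on the whole line (after P219.Bdl.B6) -/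

section Volterra

variable {W : Type*} [NormedAddCommGroup W] [NormedSpace ℝ W] [CompleteSpace W]

/-- The terms of the Volterra series. -/
def vol (A : ℝ → W →L[ℝ] W) : ℕ → ℝ → W →L[ℝ] W
  | 0 => fun _ => ContinuousLinearMap.id ℝ W
  | n + 1 => fun t => ∫ s in (0 : ℝ)..t, (A s).comp (vol A n s)

theorem vol_cont {A : ℝ → W →L[ℝ] W} (hA : Continuous A) (n : ℕ) : Continuous (vol A n) := by
  induction n with
  | zero => exact continuous_const
  | succ n ih =>
    exact intervalIntegral.continuous_primitive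
      (fun a b => (hA.clm_comp ih).intervalIntegrable a b) 0

theorem vol_deriv {A : ℝ → W →L[ℝ] W} (hA : Continuous A) (n : ℕ) (t : ℝ) :
    HasDerivAt (vol A (n + 1)) ((A t).comp (vol A n t)) t := by
  have hc : Continuous fun s => (A s).comp (vol A n s) := hA.clm_comp (vol_cont hA n)
  exact intervalIntegral.integral_hasDerivAt_right (hc.intervalIntegrable 0 t)
    (hc.stronglyMeasurableAtFilter _ _) hc.continuousAt

theorem vol_bound {A : ℝ → W →L[ℝ] W} (hA : Continuous A) {T M : ℝ}
    (hM : ∀ s, |s| ≤ T → ‖A s‖ ≤ M) (n : ℕ) (t : ℝ) (ht : |t| ≤ T) :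
    ‖vol A n t‖ ≤ M ^ n * |t| ^ n / n.factorial := by
  induction n generalizing t with
  | zero => simpa [vol] using ContinuousLinearMap.norm_id_le (𝕜 := ℝ) (E := W)
  | succ n ih =>
    have hM0 : 0 ≤ M := (norm_nonneg _).trans (hM t ht)
    have hc : Continuous fun s => (A s).comp (vol A n s) := hA.clm_comp (vol_cont hA n)
    have h1 : ‖vol A (n + 1) t‖ ≤ ∫ s in uIoc (0 : ℝ) t, ‖(A s).comp (vol A n s)‖ :=
      intervalIntegral.norm_integral_le_integral_norm_uIoc
    have h2 : ∫ s in uIoc (0 : ℝ) t, ‖(A s).comp (vol A n s)‖ ≤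
        ∫ s in uIoc (0 : ℝ) t, M ^ (n + 1) / n.factorial * |s - 0| ^ n := by
      refine MeasureTheory.setIntegral_mono_on ?_ ?_ measurableSet_uIoc fun s hs => ?_
      · exact (hc.norm.intervalIntegrable 0 t).def'
      · have : Continuous fun s : ℝ => M ^ (n + 1) / n.factorial * |s - 0| ^ n := by fun_prop
        exact (this.intervalIntegrable 0 t).def'
      · have hs' : |s| ≤ |t| := by
          have := Set.abs_sub_left_of_mem_uIcc (uIoc_subset_uIcc hs)
          simpa using this
        calc ‖(A s).comp (vol A n s)‖ ≤ ‖A s‖ * ‖vol A n s‖ :=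
              ContinuousLinearMap.opNorm_comp_le _ _
          _ ≤ M * (M ^ n * |s| ^ n / n.factorial) :=
              mul_le_mul (hM s (hs'.trans ht)) (ih s (hs'.trans ht)) (norm_nonneg _) hM0
          _ = M ^ (n + 1) / n.factorial * |s - 0| ^ n := by
              rw [sub_zero]
              ring
    have h3 : ∫ s in uIoc (0 : ℝ) t, M ^ (n + 1) / n.factorial * |s - 0| ^ n =
        M ^ (n + 1) * |t| ^ (n + 1) / (n + 1).factorial := by
      rw [MeasureTheory.integral_const_mul, integral_pow_abs_sub_uIoc, sub_zero,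
        Nat.factorial_succ]
      push_cast
      have : (n.factorial : ℝ) ≠ 0 := by positivity
      field_simp
    exact (h1.trans h2).trans h3.le

/-- The fundamental solution of `P' = A P`. -/
theorem exists_fundamental {A : ℝ → W →L[ℝ] W} (hc : Continuous A) :
    ∃ P : ℝ → W →L[ℝ] W, P 0 = ContinuousLinearMap.id ℝ W ∧
      ∀ t, HasDerivAt P ((A t).comp (P t)) t := by
  have hbd : ∀ T : ℝ, ∃ M : ℝ, 0 ≤ M ∧ ∀ s, |s| ≤ T → ‖A s‖ ≤ M := by
    intro T
    obtain ⟨M, hM⟩ := (isCompact_Icc (a := -T) (b := T)).exists_bound_of_continuousOn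
      hc.continuousOn
    exact ⟨max M 0, le_max_right _ _, fun s hs => (hM s (abs_le.1 hs)).trans (le_max_left _ _)⟩
  have hsum : ∀ (M T : ℝ), Summable fun n : ℕ => M ^ n * T ^ n / n.factorial := by
    intro M T
    have := Real.summable_pow_div_factorial (M * T)
    simpa [mul_pow] using this
  have hs : ∀ t, Summable fun n => vol A n t := by
    intro t
    obtain ⟨M, -, hM⟩ := hbd |t|
    exact Summable.of_norm_bounded (hsum M |t|) fun n => vol_bound hc hM n t le_rfl
  have hd : ∀ t, HasDerivAt (fun z => ∑' n, vol A n z) ((A t).comp (∑' n, vol A n t)) t := by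
    intro t
    obtain ⟨M, hM0, hM⟩ := hbd (|t| + 1)
    set g' : ℕ → ℝ → W →L[ℝ] W := fun n y => match n with
      | 0 => 0
      | n + 1 => (A y).comp (vol A n y) with hg'
    have hu : Summable fun n : ℕ => match n with
      | 0 => (0 : ℝ)
      | n + 1 => M * (M ^ n * (|t| + 1) ^ n / n.factorial) := by
      rw [← summable_nat_add_iff 1]
      exact (hsum M (|t| + 1)).mul_left M
    have h1 := hasDerivAt_tsum_of_isPreconnected (g := vol A) (g' := g') (y := t) (y₀ := t)
      (t := Ioo (-(|t| + 1)) (|t| + 1)) hu isOpen_Ioo isPreconnected_Ioo ?_ ?_ ?_ (hs t) ?_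
    · have h2 : Summable fun n => g' n t := by
        rw [← summable_nat_add_iff 1]
        exact ((ContinuousLinearMap.compL ℝ W W W (A t)).summable (hs t))
      refine h1.congr_deriv ?_
      rw [h2.tsum_eq_zero_add]
      simp only [hg', zero_add]
      exact ((ContinuousLinearMap.compL ℝ W W W (A t)).map_tsum (hs t)).symm
    · intro n y _
      cases n with
      | zero => exact hasDerivAt_const y _
      | succ n => exact vol_deriv hc n y
    · intro n y hy
      have hy' : |y| ≤ |t| + 1 := abs_le.2 ⟨hy.1.le, hy.2.le⟩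
      cases n with
      | zero => simp [hg']
      | succ n =>
        refine (ContinuousLinearMap.opNorm_comp_le _ _).trans ?_
        refine mul_le_mul (hM y hy') ((vol_bound hc hM n y hy').trans ?_) (norm_nonneg _) hM0
        gcongr
    · exact ⟨by linarith [neg_abs_le t], by linarith [le_abs_self t]⟩
    · exact ⟨by linarith [neg_abs_le t], by linarith [le_abs_self t]⟩
  refine ⟨fun t => ∑' n, vol A n t, ?_, hd⟩
  have h0 : ∀ n, vol A (n + 1) 0 = 0 := fun n => by simp [vol]
  show ∑' n, vol A n 0 = _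
  rw [(hs 0).tsum_eq_zero_add]
  simp only [h0, tsum_zero, add_zero]
  rfl

end Volterra

/-! ### the flat connection -/

variable {V W : Type*} [NormedAddCommGroup V] [NormedSpace ℝ V] [FiniteDimensional ℝ V]
  [NormedAddCommGroup W] [NormedSpace ℝ W] [CompleteSpace W]

/-- Gronwall on `[0, 1]` with zero initial value. -/
theorem gron {f f' : ℝ → W} {K ε : ℝ} (hK : 0 < K) (hε : 0 ≤ ε) {d : ℝ} (hd : 0 ≤ d)
    (hf : ∀ t ∈ Icc (0 : ℝ) 1, HasDerivAt f (f' t) t) (h0 : ‖f 0‖ ≤ d)
    (hb : ∀ t ∈ Icc (0 : ℝ) 1, ‖f' t‖ ≤ K * ‖f t‖ + ε) :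
    ∀ t ∈ Icc (0 : ℝ) 1, ‖f t‖ ≤ (d + ε / K) * Real.exp K := by
  intro t ht
  have h1 := norm_le_gronwallBound_of_norm_deriv_right_le (f := f) (f' := f') (δ := d) (K := K)
    (ε := ε) (a := 0) (b := 1) (fun x hx => (hf x hx).continuousAt.continuousWithinAt)
    (fun x hx => (hf x ⟨hx.1, hx.2.le⟩).hasDerivWithinAt) h0
    (fun x hx => hb x ⟨hx.1, hx.2.le⟩) t ht
  rw [gronwallBound_of_K_ne_0 hK.ne', sub_zero] at h1
  have h2 : Real.exp (K * t) ≤ Real.exp K := Real.exp_le_exp.2 (by nlinarith [ht.1, ht.2])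
  have h3 : 0 ≤ ε / K := by positivity
  calc ‖f t‖ ≤ d * Real.exp (K * t) + ε / K * (Real.exp (K * t) - 1) := h1
    _ ≤ d * Real.exp K + ε / K * Real.exp K := by
        have : Real.exp (K * t) - 1 ≤ Real.exp K := by linarith
        gcongr
    _ = _ := by ring

section Coef

variable {N : Type*} [NormedAddCommGroup N] [NormedSpace ℝ N]

/-- the derivative of `y ↦ A (t y) y` -/
def DB (A : V → V →L[ℝ] N) (t : ℝ) (y : V) : V →L[ℝ] N :=
  (fderiv ℝ (fun p : ℝ × V => A (p.1 • p.2) p.2) (t, y)).comp (ContinuousLinearMap.inr ℝ ℝ V)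

theorem contDiff_B {A : V → V →L[ℝ] N} (hA : ContDiff ℝ ∞ A) :
    ContDiff ℝ ∞ fun p : ℝ × V => A (p.1 • p.2) p.2 :=
  (hA.comp (contDiff_fst.smul contDiff_snd)).clm_apply contDiff_snd

theorem hasFDerivAt_B {A : V → V →L[ℝ] N} (hA : ContDiff ℝ ∞ A) (t : ℝ) (y : V) :
    HasFDerivAt (fun y => A (t • y) y) (DB A t y) y := by
  have h1 : HasFDerivAt (fun p : ℝ × V => A (p.1 • p.2) p.2)
      (fderiv ℝ (fun p : ℝ × V => A (p.1 • p.2) p.2) (t, y)) (t, y) :=
    ((contDiff_B hA).differentiable (by simp)).differentiableAt.hasFDerivAt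
  have h2 : HasFDerivAt (fun y : V => (t, y)) (ContinuousLinearMap.inr ℝ ℝ V) y :=
    hasFDerivAt_prodMk_right t y
  exact h1.comp y h2

theorem DB_apply {A : V → V →L[ℝ] N} (hA : ContDiff ℝ ∞ A) (t : ℝ) (y h : V) :
    DB A t y h = fderiv ℝ A (t • y) (t • h) y + A (t • y) h := by
  have h1 : HasFDerivAt A (fderiv ℝ A (t • y)) (t • y) :=
    (hA.differentiable (by simp)).differentiableAt.hasFDerivAt
  have h2 : HasFDerivAt (fun y : V => t • y) (t • ContinuousLinearMap.id ℝ V) y :=
    (hasFDerivAt_id y).const_smul t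
  have h3 : HasFDerivAt (fun y : V => A (t • y))
      ((fderiv ℝ A (t • y)).comp (t • ContinuousLinearMap.id ℝ V)) y := h1.comp y h2
  have h4 := h3.clm_apply (hasFDerivAt_id y)
  have h5 := (hasFDerivAt_B hA t y).unique h4
  rw [h5]
  simp
  abel

theorem continuous_DB {A : V → V →L[ℝ] N} (hA : ContDiff ℝ ∞ A) :
    Continuous fun p : ℝ × V => DB A p.1 p.2 := by
  have h1 : Continuous (fderiv ℝ (fun p : ℝ × V => A (p.1 • p.2) p.2)) :=
    (contDiff_B hA).continuous_fderiv (by simp)
  exact h1.clm_comp continuous_const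

/-- bounds of the coefficients near `x` -/
theorem coef_bounds {A : V → V →L[ℝ] N} (hA : ContDiff ℝ ∞ A) (x : V) :
    (∃ b : ℝ, 0 < b ∧ ∀ t ∈ Icc (0 : ℝ) 1, ∀ y ∈ closedBall x 1, ‖A (t • y) y‖ ≤ b) ∧
    (∃ c : ℝ, 0 < c ∧ (∀ t ∈ Icc (0 : ℝ) 1, ∀ y ∈ closedBall x 1, ‖DB A t y‖ ≤ c) ∧
      ∀ t ∈ Icc (0 : ℝ) 1, ∀ h : V, ‖h‖ ≤ 1 →
        ‖A (t • (x + h)) (x + h) - A (t • x) x‖ ≤ c * ‖h‖) ∧
    ∀ ε : ℝ, 0 < ε → ∃ δ : ℝ, 0 < δ ∧ ∀ t ∈ Icc (0 : ℝ) 1, ∀ h : V, ‖h‖ < δ →
      ‖A (t • (x + h)) (x + h) - A (t • x) x - DB A t x h‖ ≤ ε * ‖h‖ := by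
  have hK := (isCompact_Icc (a := (0 : ℝ)) (b := 1)).prod (isCompact_closedBall x 1)
  have hxx : x ∈ closedBall x 1 := mem_closedBall_self zero_le_one
  have hxh : ∀ h : V, ‖h‖ ≤ 1 → x + h ∈ closedBall x 1 := fun h hh => by
    simpa [mem_closedBall, dist_eq_norm] using hh
  refine ⟨?_, ?_, ?_⟩
  · obtain ⟨b, hb⟩ := hK.exists_bound_of_continuousOn (contDiff_B hA).continuous.continuousOn
    exact ⟨max b 1, by positivity, fun t ht y hy => (hb (t, y) ⟨ht, hy⟩).trans (le_max_left _ _)⟩
  · obtain ⟨c, hc⟩ := hK.exists_bound_of_continuousOn (continuous_DB hA).continuousOn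
    have hc' : ∀ t ∈ Icc (0 : ℝ) 1, ∀ y ∈ closedBall x 1, ‖DB A t y‖ ≤ max c 1 :=
      fun t ht y hy => (hc (t, y) ⟨ht, hy⟩).trans (le_max_left _ _)
    refine ⟨max c 1, by positivity, hc', fun t ht h hh => ?_⟩
    have := (convex_closedBall x 1).norm_image_sub_le_of_norm_hasFDerivWithin_le
        (f := fun y => A (t • y) y) (f' := fun y => DB A t y)
        (fun y _ => (hasFDerivAt_B hA t y).hasFDerivWithinAt) (fun y hy => hc' t ht y hy)
        hxx (hxh h hh)
    simpa using this
  · intro ε hε0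
    have hunif : ∀ᶠ y in 𝓝 x, ∀ t ∈ Icc (0 : ℝ) 1, ‖DB A t y - DB A t x‖ < ε := by
      refine IsCompact.eventually_forall_of_forall_eventually isCompact_Icc fun t ht => ?_
      have hcont : Continuous fun z : V × ℝ => ‖DB A z.2 z.1 - DB A z.2 x‖ := by
        have h1 : Continuous fun z : V × ℝ => DB A z.2 z.1 :=
          (continuous_DB hA).comp (continuous_snd.prodMk continuous_fst)
        have h2 : Continuous fun z : V × ℝ => DB A z.2 x :=
          (continuous_DB hA).comp (continuous_snd.prodMk continuous_const)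
        exact (h1.sub h2).norm
      have := hcont.tendsto (x, t)
      simp only [sub_self, norm_zero] at this
      exact this.eventually (gt_mem_nhds hε0)
    obtain ⟨δ, hδ0, hδ⟩ := Metric.eventually_nhds_iff_ball.1 hunif
    refine ⟨δ, hδ0, fun t ht h hh => ?_⟩
    have := (convex_ball x δ).norm_image_sub_le_of_norm_hasFDerivWithin_le'
        (f := fun y => A (t • y) y) (f' := fun y => DB A t y) (φ := DB A t x)
        (fun y _ => (hasFDerivAt_B hA t y).hasFDerivWithinAt) (fun y hy => (hδ y hy t ht).le)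
        (mem_ball_self hδ0) (show x + h ∈ ball x δ by simpa [mem_ball, dist_eq_norm] using hh)
    simpa using this

/-- cut off -/
theorem exists_cut {N : Type*} [NormedAddCommGroup N] [NormedSpace ℝ N] {p : V} {r : ℝ}
    (hr : 0 < r) {A : V → N} (hA : ContDiffOn ℝ ∞ A (ball p r)) :
    ∃ A' : V → N, ContDiff ℝ ∞ A' ∧
      ∀ x ∈ ball (0 : V) (r / 2), A' =ᶠ[𝓝 x] fun x => A (p + x) := by
  obtain ⟨f, hf1, hf2⟩ : ∃ f : V → ℝ, ContDiff ℝ ∞ f ∧ (∀ x ∈ ball (0 : V) (r / 2), f =ᶠ[𝓝 x] 1) ∧
      tsupport f ⊆ ball (0 : V) r := by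
    let f : ContDiffBump (0 : V) := ⟨r / 2, 3 * r / 4, by positivity, by linarith⟩
    refine ⟨f, f.contDiff, fun x hx => ?_, ?_⟩
    · filter_upwards [isOpen_ball.mem_nhds hx] with y hy
      exact f.one_of_mem_closedBall (ball_subset_closedBall hy)
    · rw [f.tsupport_eq]
      exact closedBall_subset_ball (by show 3 * r / 4 < r; linarith)
  refine ⟨fun x => f x • A (p + x), ?_, ?_⟩
  · rw [contDiff_iff_contDiffAt]
    intro x
    by_cases hx : x ∈ tsupport f
    · have h1 : p + x ∈ ball p r := by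
        have := hf2.2 hx
        rw [mem_ball_zero_iff] at this
        simpa [mem_ball, dist_eq_norm] using this
      have h2 : ContDiffAt ℝ ∞ A (p + x) := hA.contDiffAt (isOpen_ball.mem_nhds h1)
      have h3 : ContDiffAt ℝ ∞ (fun x => A (p + x)) x :=
        ContDiffAt.comp x h2 (contDiffAt_const.add contDiffAt_id)
      exact hf1.contDiffAt.smul h3
    · have h1 : (fun x => f x • A (p + x)) =ᶠ[𝓝 x] fun _ => 0 := by
        have h2 : ∀ᶠ y in 𝓝 x, y ∉ tsupport f :=
          (isClosed_tsupport f).isOpen_compl.mem_nhds hx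
        filter_upwards [h2] with y hy
        rw [image_eq_zero_of_notMem_tsupport hy, zero_smul]
      exact contDiffAt_const.congr_of_eventuallyEq h1
  · intro x hx
    filter_upwards [hf2.1 x hx] with y hy
    rw [hy]
    simp

theorem exists_bound_ball {N : Type*} [NormedAddCommGroup N] [NormedSpace ℝ N] {x : V} {ρ : ℝ}
    {A : V → N} (hA : ContinuousOn A (closedBall x ρ)) :
    ∃ c : ℝ, ∀ y ∈ closedBall x ρ, ‖A y‖ ≤ c :=
  (isCompact_closedBall x ρ).exists_bound_of_continuousOn hA

end Coef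

theorem flat_aux {A : V → V →L[ℝ] W →L[ℝ] W} (hA : ContDiff ℝ ∞ A) {ρ : ℝ}
    {Q : V → W →L[ℝ] W} {Q' : V → V →L[ℝ] W →L[ℝ] W}
    (hQ : ∀ x ∈ ball (0 : V) ρ, HasFDerivAt Q (Q' x) x)
    (hdQ : ∀ x ∈ ball (0 : V) ρ, ∀ a, Q' x a = (Q x).comp (A x a) - (A x a).comp (Q x))
    (hflat : ∀ x ∈ ball (0 : V) ρ, ∀ u v w, Q x w = w →
      (fderiv ℝ A x u v - fderiv ℝ A x v u +
      (A x u).comp (A x v) - (A x v).comp (A x u)) w = 0) (w : W) (hw : Q 0 w = w) :
    ∃ Y : V → W, Y 0 = w ∧ ∀ x ∈ ball (0 : V) ρ, Q x (Y x) = Y x ∧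
      HasFDerivAt Y (-(A x).flip (Y x)) x := by
  have hAc := hA.continuous
  have hBc : Continuous fun p : ℝ × V => A (p.1 • p.2) p.2 := by
    have h : Continuous fun p : ℝ × V => A (p.1 • p.2) := by fun_prop
    exact h.clm_apply continuous_snd
  have hex : ∀ y : V, ∃ P : ℝ → W →L[ℝ] W, P 0 = ContinuousLinearMap.id ℝ W ∧
      ∀ t, HasDerivAt P ((-(A (t • y) y)).comp (P t)) t := by
    intro y
    refine exists_fundamental (A := fun t => -(A (t • y) y)) ?_
    have : Continuous fun t : ℝ => A (t • y) y :=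
      hBc.comp (Continuous.prodMk continuous_id continuous_const)
    exact this.neg
  choose P hP0 hP using hex
  set φ : V → ℝ → W := fun y t => P y t w with hφdef
  have hφ0 : ∀ y, φ y 0 = w := fun y => by simp [hφdef, hP0]
  have hφ : ∀ y t, HasDerivAt (φ y) (-(A (t • y) y (φ y t))) t := by
    intro y t
    have := (hP y t).clm_apply (hasDerivAt_const t w)
    simpa [hφdef] using this
  refine ⟨fun y => φ y 1, ?_, fun x hx => ?_⟩
  · -- value at zero
    have h1 : ∀ t, HasDerivAt (fun t => φ 0 t - w) 0 t := by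
      intro t
      have := (hφ 0 t).sub_const w
      simpa using this
    have h2 := gron (f := fun t => φ 0 t - w) (f' := fun _ => 0) one_pos le_rfl le_rfl
      (fun t _ => h1 t) (by simp [hφ0]) (fun t _ => by simp) 1 (by simp)
    simp only [zero_div, add_zero, zero_mul] at h2
    exact sub_eq_zero.1 (norm_le_zero_iff.1 h2)
  · -- differentiability at `x`
    obtain ⟨⟨b, hb0, hb⟩, ⟨c, hc0, hc, hLip⟩, hunif⟩ := coef_bounds hA x
    set m : ℝ := ‖w‖ * Real.exp b with hm
    have hm0 : 0 ≤ m := by positivity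
    have hφb : ∀ y ∈ closedBall x 1, ∀ t ∈ Icc (0 : ℝ) 1, ‖φ y t‖ ≤ m := by
      intro y hy t ht
      have := gron (f := φ y) (f' := fun t => -(A (t • y) y (φ y t))) hb0 le_rfl (norm_nonneg w)
        (fun t _ => hφ y t) (by rw [hφ0]) (fun s hs => by
          rw [norm_neg, add_zero]
          exact ((A (s • y) y).le_opNorm _).trans
            (mul_le_mul_of_nonneg_right (hb s hs y hy) (norm_nonneg _))) t ht
      simpa [hm] using this
    have hxx : x ∈ closedBall x 1 := mem_closedBall_self zero_le_one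
    have hxh : ∀ h : V, ‖h‖ ≤ 1 → x + h ∈ closedBall x 1 := fun h hh => by
      simpa [mem_closedBall, dist_eq_norm] using hh
    have htx : ∀ s ∈ Icc (0 : ℝ) 1, s • x ∈ ball (0 : V) ρ := by
      intro s hs
      rw [mem_ball_zero_iff] at hx ⊢
      rw [norm_smul, Real.norm_eq_abs, abs_of_nonneg hs.1]
      have := mul_le_mul_of_nonneg_right hs.2 (norm_nonneg x)
      linarith
    -- the solution stays in the image of `Q`
    have hQφ : ∀ t ∈ Icc (0 : ℝ) 1, Q (t • x) (φ x t) = φ x t := by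
      intro t ht
      have hder : ∀ t ∈ Icc (0 : ℝ) 1, HasDerivAt (fun t => φ x t - Q (t • x) (φ x t))
          (-(A (t • x) x (φ x t - Q (t • x) (φ x t)))) t := by
        intro t ht
        have h1 : HasDerivAt (fun t : ℝ => t • x) x t := by
          simpa using (hasDerivAt_id t).smul_const x
        have h3 : HasDerivAt (fun t : ℝ => Q (t • x)) (Q' (t • x) x) t :=
          (hQ _ (htx t ht)).comp_hasDerivAt t h1
        have h4 := (hφ x t).sub (h3.clm_apply (hφ x t))
        refine h4.congr_deriv ?_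
        rw [hdQ _ (htx t ht)]
        simp only [ContinuousLinearMap.sub_apply, ContinuousLinearMap.comp_apply, map_sub, map_neg]
        abel
      have h5 := gron (f := fun t => φ x t - Q (t • x) (φ x t))
        (f' := fun t => -(A (t • x) x (φ x t - Q (t • x) (φ x t)))) hb0 le_rfl le_rfl hder
        (by simp [hφ0, hw]) (fun s hs => by
          rw [norm_neg, add_zero]
          exact ((A (s • x) x).le_opNorm _).trans
            (mul_le_mul_of_nonneg_right (hb s hs x hxx) (norm_nonneg _))) t ht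
      simp only [zero_div, add_zero, zero_mul] at h5
      exact (sub_eq_zero.1 (norm_le_zero_iff.1 h5)).symm
    refine ⟨by simpa using hQφ 1 (by simp), ?_⟩
    -- Lipschitz bound of the solutions
    set C1 : ℝ := c * m / b * Real.exp b with hC1
    have hC10 : 0 ≤ C1 := by positivity
    have hd : ∀ h : V, ‖h‖ ≤ 1 → ∀ t ∈ Icc (0 : ℝ) 1, ‖φ (x + h) t - φ x t‖ ≤ C1 * ‖h‖ := by
      intro h hh t ht
      have := gron (f := fun t => φ (x + h) t - φ x t)
        (f' := fun t => -(A (t • (x + h)) (x + h) (φ (x + h) t)) - -(A (t • x) x (φ x t)))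
        (ε := c * ‖h‖ * m) hb0 (by positivity) le_rfl
        (fun t _ => (hφ (x + h) t).sub (hφ x t)) (by simp [hφ0]) (fun s hs => by
          have e : -(A (s • (x + h)) (x + h) (φ (x + h) s)) - -(A (s • x) x (φ x s)) =
              -(A (s • (x + h)) (x + h) (φ (x + h) s - φ x s) +
                (A (s • (x + h)) (x + h) - A (s • x) x) (φ x s)) := by
            simp only [map_sub, ContinuousLinearMap.sub_apply]
            abel
          rw [e, norm_neg]
          refine (norm_add_le _ _).trans (add_le_add ?_ ?_)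
          · exact ((A (s • (x + h)) (x + h)).le_opNorm _).trans
              (mul_le_mul_of_nonneg_right (hb s hs _ (hxh h hh)) (norm_nonneg _))
          · refine ((A (s • (x + h)) (x + h) - A (s • x) x).le_opNorm _).trans ?_
            exact mul_le_mul (hLip s hs h hh) (hφb x hxx s hs) (norm_nonneg _) (by positivity))
        t ht
      refine this.trans (le_of_eq ?_)
      rw [hC1]
      ring
    rw [hasFDerivAt_iff_isLittleO_nhds_zero, Asymptotics.isLittleO_iff]
    intro ε₀ hε₀
    -- choice of constants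
    set K : ℝ := Real.exp b / b with hK
    have hK0 : 0 < K := by positivity
    set ε : ℝ := ε₀ / (2 * (K * (m + 1))) with hε
    have hε0 : 0 < ε := by positivity
    obtain ⟨δ, hδ0, hδ⟩ := hunif ε hε0
    have hev : ∀ᶠ h : V in 𝓝 0, ‖h‖ < δ ∧ ‖h‖ ≤ 1 ∧ K * (c * C1 * ‖h‖) ≤ ε₀ / 2 := by
      have h1 : ∀ᶠ h : V in 𝓝 0, ‖h‖ < δ := by
        have : Tendsto (fun h : V => ‖h‖) (𝓝 0) (𝓝 0) := by
          simpa using (continuous_norm.tendsto (0 : V))
        exact this.eventually (gt_mem_nhds hδ0)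
      have h2 : ∀ᶠ h : V in 𝓝 0, ‖h‖ < 1 := by
        have : Tendsto (fun h : V => ‖h‖) (𝓝 0) (𝓝 0) := by
          simpa using (continuous_norm.tendsto (0 : V))
        exact this.eventually (gt_mem_nhds one_pos)
      have h3 : ∀ᶠ h : V in 𝓝 0, K * (c * C1 * ‖h‖) < ε₀ / 2 := by
        have : Tendsto (fun h : V => K * (c * C1 * ‖h‖)) (𝓝 0) (𝓝 0) := by
          have := ((continuous_norm (E := V)).const_mul (c * C1)).const_mul K |>.tendsto (0 : V)
          simpa using this
        exact this.eventually (gt_mem_nhds (by positivity))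
      filter_upwards [h1, h2, h3] with h a b c using ⟨a, b.le, c.le⟩
    filter_upwards [hev] with h hh
    obtain ⟨hhδ, hh1, hh2⟩ := hh
    have hlin := fun t ht => hδ t ht h hhδ
    -- the error function
    have hE : ∀ t, HasDerivAt (fun t => φ (x + h) t - φ x t + A (t • x) (t • h) (φ x t))
        (-(A (t • (x + h)) (x + h) (φ (x + h) t)) - -(A (t • x) x (φ x t)) +
          ((fderiv ℝ A (t • x) x (t • h) + A (t • x) h) (φ x t) +
            A (t • x) (t • h) (-(A (t • x) x (φ x t))))) t := by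
      intro t
      refine ((hφ (x + h) t).sub (hφ x t)).add ?_
      have h1 : HasDerivAt (fun t : ℝ => t • x) x t := by
        simpa using (hasDerivAt_id t).smul_const x
      have h2 : HasDerivAt (fun t : ℝ => t • h) h t := by
        simpa using (hasDerivAt_id t).smul_const h
      have h3 : HasDerivAt (fun t : ℝ => A (t • x)) (fderiv ℝ A (t • x) x) t :=
        ((hA.differentiable (by simp)).differentiableAt.hasFDerivAt).comp_hasDerivAt t h1
      exact (h3.clm_apply h2).clm_apply (hφ x t)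
    have hfin := gron (f := fun t => φ (x + h) t - φ x t + A (t • x) (t • h) (φ x t))
      (f' := fun t => -(A (t • (x + h)) (x + h) (φ (x + h) t)) - -(A (t • x) x (φ x t)) +
          ((fderiv ℝ A (t • x) x (t • h) + A (t • x) h) (φ x t) +
            A (t • x) (t • h) (-(A (t • x) x (φ x t)))))
      (ε := ε * ‖h‖ * m + c * ‖h‖ * (C1 * ‖h‖)) hb0 (by positivity) le_rfl (fun t _ => hE t)
      (by simp [hφ0]) (fun s hs => by
        have hfl := hflat (s • x) (htx s hs) x (s • h) (φ x s) (hQφ s hs)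
        simp only [ContinuousLinearMap.add_apply, ContinuousLinearMap.sub_apply,
          ContinuousLinearMap.comp_apply, ContinuousLinearMap.zero_apply] at hfl
        have e : -(A (s • (x + h)) (x + h) (φ (x + h) s)) - -(A (s • x) x (φ x s)) +
            ((fderiv ℝ A (s • x) x (s • h) + A (s • x) h) (φ x s) +
              A (s • x) (s • h) (-(A (s • x) x (φ x s)))) =
            -(A (s • x) x (φ (x + h) s - φ x s + A (s • x) (s • h) (φ x s))) -
            ((A (s • (x + h)) (x + h) - A (s • x) x - DB A s x h) (φ (x + h) s)) -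
            DB A s x h (φ (x + h) s - φ x s) := by
          rw [DB_apply hA]
          simp only [map_add, map_sub, map_neg, ContinuousLinearMap.add_apply,
            ContinuousLinearMap.sub_apply]
          rw [← sub_eq_zero]
          rw [← hfl]
          abel
        rw [e]
        refine (norm_sub_le _ _).trans ?_
        refine (add_le_add (norm_sub_le _ _) le_rfl).trans ?_
        rw [norm_neg]
        have i1 : ‖A (s • x) x (φ (x + h) s - φ x s + A (s • x) (s • h) (φ x s))‖ ≤
            b * ‖φ (x + h) s - φ x s + A (s • x) (s • h) (φ x s)‖ :=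
          ((A (s • x) x).le_opNorm _).trans
            (mul_le_mul_of_nonneg_right (hb s hs x hxx) (norm_nonneg _))
        have i2 : ‖(A (s • (x + h)) (x + h) - A (s • x) x - DB A s x h) (φ (x + h) s)‖ ≤
            ε * ‖h‖ * m :=
          (ContinuousLinearMap.le_opNorm _ _).trans
            (mul_le_mul (hlin s hs) (hφb _ (hxh h hh1) s hs) (norm_nonneg _) (by positivity))
        have i3 : ‖DB A s x h (φ (x + h) s - φ x s)‖ ≤ c * ‖h‖ * (C1 * ‖h‖) := by
          refine (ContinuousLinearMap.le_opNorm _ _).trans ?_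
          refine mul_le_mul ?_ (hd h hh1 s hs) (norm_nonneg _) (by positivity)
          exact ((DB A s x).le_opNorm _).trans
            (mul_le_mul_of_nonneg_right (hc s hs x hxx) (norm_nonneg _))
        linarith) 1 (by simp)
    simp only [one_smul, zero_add] at hfin
    have e2 : φ (x + h) 1 - φ x 1 - (-(A x).flip (φ x 1)) h =
        φ (x + h) 1 - φ x 1 + A x h (φ x 1) := by
      simp
    rw [e2]
    refine hfin.trans ?_
    have e3 : (ε * ‖h‖ * m + c * ‖h‖ * (C1 * ‖h‖)) / b * Real.exp b =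
        (K * (ε * m) + K * (c * C1 * ‖h‖)) * ‖h‖ := by
      rw [hK]
      ring
    rw [e3]
    refine mul_le_mul_of_nonneg_right ?_ (norm_nonneg h)
    have e4 : K * (ε * m) ≤ ε₀ / 2 := by
      have : K * (ε * (m + 1)) = ε₀ / 2 := by
        rw [hε]
        field_simp
      have h5 : K * (ε * m) ≤ K * (ε * (m + 1)) := by
        have : ε * m ≤ ε * (m + 1) := by nlinarith
        exact mul_le_mul_of_nonneg_left this hK0.le
      linarith
    linarith

/-- smoothness of a parallel section -/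
theorem contDiffOn_of_flat {A : V → V →L[ℝ] W →L[ℝ] W} {U : Set V} (hU : IsOpen U)
    (hA : ContDiffOn ℝ ∞ A U) {Y : V → W} (hY : ∀ x ∈ U, HasFDerivAt Y (-(A x).flip (Y x)) x) :
    ContDiffOn ℝ ∞ Y U := by
  rw [contDiffOn_infty]
  intro n
  induction n with
  | zero =>
    exact contDiffOn_zero.2 fun x hx => (hY x hx).continuousAt.continuousWithinAt
  | succ n ih =>
    push_cast
    rw [contDiffOn_succ_iff_fderiv_of_isOpen hU]
    refine ⟨fun x hx => (hY x hx).differentiableAt.differentiableWithinAt, by simp, ?_⟩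
    have h0 : ContDiffOn ℝ n A U := hA.of_le (WithTop.coe_le_coe.2 le_top)
    have h1 : ContDiffOn ℝ n (fun x => ContinuousLinearMap.apply ℝ W (Y x)) U :=
      (ContinuousLinearMap.apply ℝ W : W →L[ℝ] (W →L[ℝ] W) →L[ℝ] W).contDiff.comp_contDiffOn ih
    have h2 : ContDiffOn ℝ n (fun x => (ContinuousLinearMap.apply ℝ W (Y x)).comp (A x)) U :=
      h1.clm_comp h0
    have h3 : ContDiffOn ℝ n (fun x => -(A x).flip (Y x)) U := h2.neg
    exact h3.congr fun x hx => (hY x hx).fderiv

theorem fderiv_shift {N : Type*} [NormedAddCommGroup N] [NormedSpace ℝ N] (A : V → N) (p x : V) :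
    fderiv ℝ (fun x => A (p + x)) x = fderiv ℝ A (p + x) :=
  fderiv_comp_add_left (f := A) (x := x) p

/-- Local existence of parallel sections of a connection `d + A` which is flat on the parallel
sub-bundle `im Q` (`Q` a smooth field of projections). -/
theorem flat_local_sub {p : V} {r : ℝ} (hr : 0 < r) {A : V → V →L[ℝ] W →L[ℝ] W}
    {Q : V → W →L[ℝ] W} (hA : ContDiffOn ℝ ∞ A (ball p r)) (hQ : ContDiffOn ℝ ∞ Q (ball p r))
    (hdQ : ∀ x ∈ ball p r, ∀ a, fderiv ℝ Q x a = (Q x).comp (A x a) - (A x a).comp (Q x))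
    (hflat : ∀ x ∈ ball p r, ∀ u v w, Q x w = w → (fderiv ℝ A x u v - fderiv ℝ A x v u +
      (A x u).comp (A x v) - (A x v).comp (A x u)) w = 0) (w : W) (hw : Q p w = w) :
    ∃ Y : V → W, Y p = w ∧ ContDiffOn ℝ ∞ Y (ball p (r / 2)) ∧
      ∀ x ∈ ball p (r / 2), Q x (Y x) = Y x ∧ HasFDerivAt Y (-(A x).flip (Y x)) x := by
  obtain ⟨A', hsm, heq⟩ := exists_cut hr hA
  have hmem : ∀ x ∈ ball (0 : V) (r / 2), p + x ∈ ball p r := by
    intro x hx
    rw [mem_ball_zero_iff] at hx
    have : ‖x‖ < r := by linarith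
    simpa [mem_ball, dist_eq_norm] using this
  have hfl' : ∀ x ∈ ball (0 : V) (r / 2), ∀ u v w, Q (p + x) w = w →
      (fderiv ℝ A' x u v - fderiv ℝ A' x v u +
      (A' x u).comp (A' x v) - (A' x v).comp (A' x u)) w = 0 := by
    intro x hx u v w hw
    have e1 : fderiv ℝ (fun x => A (p + x)) x = fderiv ℝ A (p + x) := by
      convert fderiv_shift A p x
    rw [(heq x hx).fderiv_eq, (heq x hx).eq_of_nhds, e1]
    exact hflat (p + x) (hmem x hx) u v w hw
  have hQ1 : ∀ x ∈ ball (0 : V) (r / 2),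
      HasFDerivAt (fun x => Q (p + x)) (fderiv ℝ Q (p + x)) x := by
    intro x hx
    have h1 : HasFDerivAt Q (fderiv ℝ Q (p + x)) (p + x) :=
      ((hQ.contDiffAt (isOpen_ball.mem_nhds (hmem x hx))).differentiableAt
        (by simp)).hasFDerivAt
    have h2 : HasFDerivAt (fun x : V => p + x) (ContinuousLinearMap.id ℝ V) x :=
      (hasFDerivAt_id x).const_add p
    exact h1.comp x h2
  have hQ2 : ∀ x ∈ ball (0 : V) (r / 2), ∀ a, fderiv ℝ Q (p + x) a =
      (Q (p + x)).comp (A' x a) - (A' x a).comp (Q (p + x)) := by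
    intro x hx a
    rw [(heq x hx).eq_of_nhds]
    exact hdQ (p + x) (hmem x hx) a
  obtain ⟨Y, hY0, hY⟩ := flat_aux hsm hQ1 hQ2 hfl' w (by simpa using hw)
  have hY' : ∀ x ∈ ball p (r / 2), Q x (Y (x - p)) = Y (x - p) ∧
      HasFDerivAt (fun x => Y (x - p)) (-(A x).flip (Y (x - p))) x := by
    intro x hx
    have hx' : x - p ∈ ball (0 : V) (r / 2) := by
      rw [mem_ball_zero_iff, ← dist_eq_norm]
      exact hx
    obtain ⟨h0, h1⟩ := hY (x - p) hx'
    rw [(heq _ hx').eq_of_nhds] at h1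
    simp only [add_sub_cancel] at h0 h1
    have h2 : HasFDerivAt (fun x : V => x - p) (ContinuousLinearMap.id ℝ V) x :=
      (hasFDerivAt_id x).sub_const p
    refine ⟨h0, ?_⟩
    have h3 := HasFDerivAt.comp (g := Y) (f := fun x : V => x - p) x h1 h2
    rw [ContinuousLinearMap.comp_id] at h3
    exact h3
  refine ⟨fun x => Y (x - p), by simpa using hY0, ?_, hY'⟩
  exact contDiffOn_of_flat isOpen_ball (hA.mono (ball_subset_ball (by linarith)))
    fun x hx => (hY' x hx).2

/-- Local existence of parallel sections of a flat connection `d + A`. -/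
theorem flat_local {p : V} {r : ℝ} (hr : 0 < r) {A : V → V →L[ℝ] W →L[ℝ] W}
    (hA : ContDiffOn ℝ ∞ A (ball p r))
    (hflat : ∀ x ∈ ball p r, ∀ u v, fderiv ℝ A x u v - fderiv ℝ A x v u +
      (A x u).comp (A x v) - (A x v).comp (A x u) = 0) (w : W) :
    ∃ Y : V → W, Y p = w ∧ ContDiffOn ℝ ∞ Y (ball p (r / 2)) ∧
      ∀ x ∈ ball p (r / 2), HasFDerivAt Y (-(A x).flip (Y x)) x := by
  obtain ⟨Y, h1, h2, h3⟩ := flat_local_sub (Q := fun _ => ContinuousLinearMap.id ℝ W) hr hA
    contDiffOn_const (fun x hx a => by simp) (fun x hx u v w _ => by rw [hflat x hx u v]; rfl) w rfl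
  exact ⟨Y, h1, h2, fun x hx => (h3 x hx).2⟩

/-- Uniqueness of parallel sections on a preconnected open set. -/
theorem flat_unique {A : V → V →L[ℝ] W →L[ℝ] W} {U : Set V} (hU : IsOpen U)
    (hUc : IsPreconnected U) (hA : ContinuousOn A U) {Y Z : V → W}
    (hY : ∀ x ∈ U, HasFDerivAt Y (-(A x).flip (Y x)) x)
    (hZ : ∀ x ∈ U, HasFDerivAt Z (-(A x).flip (Z x)) x) {p : V} (hp : p ∈ U) (h0 : Y p = Z p) :
    EqOn Y Z U := by
  have hD : ∀ x ∈ U, HasFDerivAt (fun x => Y x - Z x) (-(A x).flip (Y x - Z x)) x := by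
    intro x hx
    refine ((hY x hx).sub (hZ x hx)).congr_fderiv ?_
    ext h
    simp
    abel
  have hcY : ContinuousOn (fun x => Y x - Z x) U := fun x hx =>
    (hD x hx).continuousAt.continuousWithinAt
  -- the set where they agree is open and closed in `U`
  have key : ∀ x ∈ U, Y x = Z x → ∀ᶠ y in 𝓝 x, Y y = Z y := by
    intro x hx hxe
    obtain ⟨ρ, hρ0, hρ⟩ := Metric.isOpen_iff.1 hU x hx
    have hcb : closedBall x (ρ / 2) ⊆ U := (closedBall_subset_ball (by linarith)).trans hρ
    obtain ⟨c, hc⟩ := exists_bound_ball (N := V →L[ℝ] W →L[ℝ] W) (A := A) (x := x) (ρ := ρ / 2)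
      (hA.mono hcb)
    filter_upwards [ball_mem_nhds x (half_pos hρ0)] with y hy
    set K : ℝ := max c 0 * ‖y - x‖ + 1 with hK
    have hK0 : 0 < K := by positivity
    have hmem : ∀ t ∈ Icc (0 : ℝ) 1, x + t • (y - x) ∈ closedBall x (ρ / 2) := by
      intro t ht
      rw [mem_closedBall, dist_eq_norm]
      rw [mem_ball, dist_eq_norm] at hy
      have : ‖x + t • (y - x) - x‖ = t * ‖y - x‖ := by
        rw [add_sub_cancel_left, norm_smul, Real.norm_eq_abs, abs_of_nonneg ht.1]
      rw [this]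
      nlinarith [ht.1, ht.2, norm_nonneg (y - x)]
    have hder : ∀ t ∈ Icc (0 : ℝ) 1, HasDerivAt (fun t : ℝ => Y (x + t • (y - x)) -
        Z (x + t • (y - x))) (-(A (x + t • (y - x)) (y - x)) (Y (x + t • (y - x)) -
          Z (x + t • (y - x)))) t := by
      intro t ht
      have h1 := hD _ (hcb (hmem t ht))
      have h2 : HasDerivAt (fun t : ℝ => x + t • (y - x)) (y - x) t := by
        simpa using ((hasDerivAt_id t).smul_const (y - x)).const_add x
      have h3 := h1.comp_hasDerivAt t h2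
      refine h3.congr_deriv ?_
      simp only [ContinuousLinearMap.neg_apply, ContinuousLinearMap.flip_apply]
    have hg := norm_le_gronwallBound_of_norm_deriv_right_le
      (f := fun t : ℝ => Y (x + t • (y - x)) - Z (x + t • (y - x)))
      (f' := fun t => (-(A (x + t • (y - x)) (y - x)) (Y (x + t • (y - x)) -
          Z (x + t • (y - x))))) (δ := 0) (K := K) (ε := 0) (a := 0) (b := 1)
      (fun t ht => (hder t ht).continuousAt.continuousWithinAt)
      (fun t ht => (hder t ⟨ht.1, ht.2.le⟩).hasDerivWithinAt) (by simp [hxe])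
      (fun t ht => by
        rw [norm_neg, add_zero]
        refine (ContinuousLinearMap.le_opNorm _ _).trans
          (mul_le_mul_of_nonneg_right ?_ (norm_nonneg _))
        refine (ContinuousLinearMap.le_opNorm _ _).trans ?_
        have h1 := hc _ (hmem t ⟨ht.1, ht.2.le⟩)
        have h2 := mul_le_mul_of_nonneg_right (h1.trans (le_max_left c 0)) (norm_nonneg (y - x))
        linarith) 1 (by simp)
    rw [gronwallBound_of_K_ne_0 hK0.ne'] at hg
    simp only [zero_mul, zero_div, add_zero, one_smul, add_sub_cancel] at hg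
    exact sub_eq_zero.1 (norm_le_zero_iff.1 hg)
  have hsub := hUc.subset_of_closure_inter_subset (u := {x | x ∈ U ∧ Y x = Z x}) ?_ ?_ ?_
  · exact fun x hx => (hsub hx).2
  · rw [isOpen_iff_mem_nhds]
    rintro x ⟨hx, hxe⟩
    filter_upwards [hU.mem_nhds hx, key x hx hxe] with y h1 h2 using ⟨h1, h2⟩
  · exact ⟨p, hp, hp, h0⟩
  · rintro x ⟨hx1, hx2⟩
    refine ⟨hx2, ?_⟩
    have h1 := mem_closure_iff_seq_limit.1 hx1
    obtain ⟨u, hu, hux⟩ := h1
    have h2 : Tendsto (fun n => Y (u n) - Z (u n)) atTop (𝓝 (Y x - Z x)) := by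
      have := (hcY x hx2).continuousAt (hU.mem_nhds hx2)
      exact this.tendsto.comp hux
    have h3 : (fun n => Y (u n) - Z (u n)) = fun _ => 0 := by
      ext n
      simp [(hu n).2]
    rw [h3] at h2
    exact sub_eq_zero.1 (tendsto_nhds_unique h2 tendsto_const_nhds)

end Vale.Agent.P211.HK.FB
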