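import Vale.Agent.P211.H555.Main
import Vale.Agent.P211.H555.Orient
import Vale.Agent.P211.HK.Fin0

/-! P211 / HK: the starting theorem plugged into the assembly (helper153). -/

set_option maxSynthPendingDepth 3
set_option linter.unusedSectionVars false

namespace Vale.Agent.P211.HK

open scoped Manifold ContDiff Topology
open Bundle Filter VectorField Set

noncomputable section

variable {E : Type} [NormedAddCommGroup E] [NormedSpace ℝ E] [FiniteDimensional ℝ E]
  {M : Type} [MetricSpace M] [ChartedSpace E M] [IsManifold 𝓘(ℝ, E) ∞ M]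
  [RiemannianBundle fun p : M => TangentSpace 𝓘(ℝ, E) p]
  [IsContMDiffRiemannianBundle 𝓘(ℝ, E) ∞ E fun p : M => TangentSpace 𝓘(ℝ, E) p]
  [IsRiemannianManifold 𝓘(ℝ, E) M] [CompactSpace M] [ConnectedSpace M]
  [MeasurableSpace M] [BorelSpace M]
  {cov : CovariantDerivative 𝓘(ℝ, E) E (TangentSpace 𝓘(ℝ, E) : M → Type)}

theorem finConcl_of' (hcore : Vale.Agent.P211.H210.Core) (hE : Module.finrank ℝ E = 4)
    (hs : cov.ContMDiffCovariantDerivative ∞) (ht : cov.torsion = 0)
    (hm : CovariantDerivative.IsMetricCompatible (V := (TangentSpace 𝓘(ℝ, E) : M → Type)) cov)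
    (hK : NN.SecNonneg cov) {lam : ℝ} (hlam : 0 < lam) (hR : NN.RicciEq cov (fun _ => lam))
    (hIX : ∀ om : Form4 E M, IXStmt cov om lam) (hKR : ∀ om : Form4 E M, KRStmt' cov om lam)
    (hS : ∀ om : Form4 E M, S4IsoStmt cov om lam) (hC : ∀ om : Form4 E M, CP2IsoStmt cov om lam)
    (hP : ∀ om : Form4 E M, S22IsoStmt cov om lam) : FinConcl cov lam := by
  have : CompleteSpace E := FiniteDimensional.complete ℝ E
  have hL := Vale.Agent.P211.H555.levi hs ht hm
  refine finConcl_of (isLC_of hL) hE hlam hK hR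
    (fun om hom => Vale.Agent.P211.H555.q1 hcore hE hL hK hlam hR hom)
    (fun h p hp => Vale.Agent.P211.H555.not_pos h p hp) (fun hsc => ?_) hIX hKR hS hC hP
  choose F hF using Vale.Agent.P211.H555.exists_local_frame
    (Vale.Agent.P211.isLC_of hL) hE
  exact Vale.Agent.P211.H555.orientable_of_frames hE hF

end

end Vale.Agent.P211.HK
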