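import Vale.Agent.P211.HK.Jac
import Vale.Agent.P211.HK.CP2Fin

/-! P211 / HK / JAC (helper756): the block JAC, in the form of `JACStmt`. -/

set_option maxSynthPendingDepth 3
set_option linter.all false

namespace Vale.Agent.P211.HK

open scoped Manifold ContDiff Topology
open Bundle Filter VectorField Set
open Vale.Agent.P234 Vale.Agent.P231 Vale.Agent.P211.HK.Jac

noncomputable section

variable {E : Type} [NormedAddCommGroup E] [NormedSpace ℝ E] [FiniteDimensional ℝ E]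
  {M : Type} [MetricSpace M] [ChartedSpace E M] [IsManifold 𝓘(ℝ, E) ∞ M]
  [RiemannianBundle fun p : M => TangentSpace 𝓘(ℝ, E) p]
  [IsContMDiffRiemannianBundle 𝓘(ℝ, E) ∞ E fun p : M => TangentSpace 𝓘(ℝ, E) p]
  [IsRiemannianManifold 𝓘(ℝ, E) M] [CompactSpace M] [ConnectedSpace M]

variable {cov : CovariantDerivative 𝓘(ℝ, E) E (TangentSpace 𝓘(ℝ, E) : M → Type)}
  {om : Form4 E M}

theorem rpar_of (hcov : IsLC cov)
    (h : ∀ (p : M) (U X Y Z W : NN.SmoothField E M), NN.nabRm cov U X Y Z W p = 0) :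
    RPar hcov := fun U X Y Z W q => by
  rw [← dRiem_eq hcov U X Y Z W q]
  exact h q U X Y Z W

/-- the Jacobi operator in the format of `JacEig` -/
theorem jacEig_raw (hcov : IsLC cov) {κ : Fin 4 → ℝ} {p : M} {v : E}
    (h : JacEig cov κ p (v : TangentSpace 𝓘(ℝ, E) p)) :
    ∃ b : Fin 4 → E, b 0 = v ∧ (∀ i j, P231.ip p (b i) (b j) = if i = j then 1 else 0) ∧
      (∀ w z : E, P231.ip p (Rv hcov p w v v) z =
        ∑ i, κ i * (P231.ip p (b i) w * P231.ip p (b i) z)) ∧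
      ∀ w : E, w = ∑ i, P231.ip p (b i) w • b i := by
  obtain ⟨b, hb0, hb⟩ := h
  refine ⟨fun i => (b i : TangentSpace 𝓘(ℝ, E) p), hb0, fun i j => ?_, fun w z => ?_, fun w => ?_⟩
  · exact orthonormal_iff_ite.1 b.orthonormal i j
  · obtain ⟨X, hX⟩ := exists_vv p w
    obtain ⟨V, hV⟩ := exists_vv p v
    obtain ⟨Z, hZ⟩ := exists_vv p z
    have h1 := hb X V V Z hV hV
    have hr : NN.Rm cov X V V Z = ((lcOf hcov).Rm X V V Z : SF E M) := riem_eq hcov X V V Z
    rw [congrFun hr p] at h1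
    have h2 := Rm_eq hcov p X V V Z
    rw [hX, hV, hZ] at h2
    rw [← h2]
    refine h1.trans ?_
    refine Finset.sum_congr rfl fun i _ => ?_
    rw [← hX, ← hZ]
    rfl
  · exact (b.sum_repr' (w : TangentSpace 𝓘(ℝ, E) p)).symm

theorem rbdd_of (hcov : IsLC cov) {κ : Fin 4 → ℝ}
    (h : ∀ (p : M) (v : TangentSpace 𝓘(ℝ, E) p), ‖v‖ = 1 → JacEig cov κ p v) : RBdd hcov := by
  refine ⟨∑ i, |κ i|, fun q v w z hv => ?_⟩
  obtain ⟨b, -, hb1, hb2, -⟩ := jacEig_raw hcov (h q v hv)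
  rw [hb2]
  refine (Finset.abs_sum_le_sum_abs _ _).trans ?_
  rw [Finset.sum_mul]
  refine Finset.sum_le_sum fun i _ => ?_
  rw [abs_mul, abs_mul]
  have hCS : ∀ (a b : E), |P231.ip q a b| ≤ nm q a * nm q b := fun a b =>
    abs_real_inner_le_norm (F := TangentSpace 𝓘(ℝ, E) q) a b
  have hn : nm q (b i) = 1 := by
    have h1 := hb1 i i
    rw [asm_ip_self, if_pos rfl] at h1
    nlinarith [nm_nonneg q (b i)]
  have h1 := hCS (b i) w
  have h2 := hCS (b i) z
  rw [hn, one_mul] at h1 h2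
  exact mul_le_mul_of_nonneg_left (mul_le_mul h1 h2 (abs_nonneg _) (nm_nonneg _ _)) (abs_nonneg _)

theorem ip_sum_right' (x : M) {ι : Type*} (s : Finset ι) (a : E) (f : ι → E) :
    P231.ip x a (∑ i ∈ s, f i) = ∑ i ∈ s, P231.ip x a (f i) := asm_ip_sum_right x s a f

/-- the Gram matrices of Jacobi fields -/
theorem jf_gram (hcov : IsLC cov) (hE : Module.finrank ℝ E = 4)
    {e : ∀ x : M, TangentSpace 𝓘(ℝ, E) x → M} (F : Facts e) (hp : RPar hcov) (hb : RBdd hcov)
    {κ : Fin 4 → ℝ} (hκ0 : ∀ i, 0 ≤ κ i) {x : M} {u : E} (hu : nm x u = 1) {b : Fin 4 → E}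
    (hb1 : ∀ i j, P231.ip x (b i) (b j) = if i = j then 1 else 0)
    (hb2 : ∀ i, Rv hcov x (b i) u u = κ i • b i) (t : ℝ) :
    ∃ q : Fin 4 → E, (∀ i j, P231.ip (gam e x u t) (q i) (q j) = if i = j then 1 else 0) ∧
      ∀ i, jf e x u 0 t (b i) = sn (κ i) t • q i := by
  have h0 : gam e x u 0 = x := gam_zero F.isExp x u
  have hv0 : vel e x u 0 = u := vel_zero F.isExp x u
  have hb2' : ∀ i, Rv hcov (gam e x u 0) (b i) (vel e x u 0) (vel e x u 0) = κ i • b i := by
    intro i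
    rw [hv0, h0]
    exact hb2 i
  choose P hP0 hP1 hP2 hP3 using fun i => jac_eigen hcov hE F hp hb hu (hκ0 i) (hb2' i)
  refine ⟨fun i => P i t, fun i j => ?_, fun i => ?_⟩
  · have h1 : ∀ r, HasDerivAt (fun r => P231.ip (gam e x u r) (P i r) (P j r)) 0 r := fun r => by
      have := (hP1 i r).inner hcov hE F (hP1 j r)
      rwa [ip_zero_left', asm_ip_zero_right, add_zero] at this
    have h2 := is_const_of_deriv_eq_zero (fun r => (h1 r).differentiableAt)
      (fun r => (h1 r).deriv) t 0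
    change P231.ip (gam e x u t) (P i t) (P j t) = P231.ip (gam e x u 0) (P i 0) (P j 0) at h2
    rw [h2, hP0, hP0, h0]
    exact hb1 i j
  · rw [hP3 i t, sub_zero]

/-- block JAC -/
theorem jac_stmt (cov : CovariantDerivative 𝓘(ℝ, E) E (TangentSpace 𝓘(ℝ, E) : M → Type))
    (om : Form4 E M) (κ : Fin 4 → ℝ) : JACStmt cov om κ := by
  intro hG hnab hκ0 _ hJ e F x u hu
  have hcov := hG.lc
  have hp := rpar_of hcov hnab
  have hb := rbdd_of hcov hJ
  obtain ⟨b, hb0, hb1, hb2, hb3⟩ := jacEig_raw hcov (hJ x u hu)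
  refine ⟨b, hb0, hb1, fun r hr i j => ?_⟩
  have hb4 : ∀ i, Rv hcov x (b i) u u = κ i • b i := by
    intro i
    refine eq_of_ip (x := x) fun z => ?_
    rw [hb2, ip_smul_left']
    simp only [hb1]
    rw [Finset.sum_eq_single i]
    · rw [if_pos rfl, one_mul]
    · intro k _ hk
      rw [if_neg hk]; ring
    · intro h; exact absurd (Finset.mem_univ i) h
  obtain ⟨q, hq, hjf⟩ := jf_gram hcov hG.dim F hp hb hκ0 hu hb1 hb4 r
  have hdE : ∀ i, dE e x (r • u) (b i) = VE.snq (κ i) r • q i := by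
    intro i
    have h1 := hjf i
    rw [jf, gam_zero F.isExp, vel_zero F.isExp, sub_zero] at h1
    have h2 := congrArg (fun z : E => r⁻¹ • z) h1
    simp only [smul_smul, inv_mul_cancel₀ hr.ne', one_smul] at h2
    rw [h2]
    congr 1
    unfold sn VE.snq
    by_cases h : κ i = 0
    · simp only [h, if_true]
      exact inv_mul_cancel₀ hr.ne'
    · simp only [h, if_false]
      rw [div_eq_mul_inv, div_eq_mul_inv, mul_inv]
      ring
  have hpt : e x (r • u : E) = gam e x u r := rfl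
  rw [hdE, hdE, hpt, ip_smul_left', asm_ip_smul_right, hq]
  by_cases h : i = j
  · subst h
    simp [sq]
  · simp [h]

end

end Vale.Agent.P211.HK
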