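import Vale.Agent.P211.Bdl.S0

set_option linter.all false

/-! P211 / HK (helper115): scaling of the metric in the formal calculus. -/

namespace Vale.Agent.P211.HK

open Topology Filter Vale.Agent.P211 Vale.Agent.P211.S4
open scoped ContDiff

variable {M 𝒪 V : Type*} [TopologicalSpace M] [CommRing 𝒪] [Algebra ℝ 𝒪]
    [AddCommGroup V] [Module 𝒪 V]

section
variable (G : Geo2 M 𝒪 V)

theorem ev_cst (p : M) (c : ℝ) : G.ev p (algebraMap ℝ 𝒪 c) = c := by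
  rw [AlgHom.commutes]; rfl

/-- multiple of a field by a real constant -/
def cs (𝒪 : Type*) {V : Type*} [CommRing 𝒪] [Algebra ℝ 𝒪] [AddCommGroup V] [Module 𝒪 V] (c : ℝ)
    (X : V) : V := algebraMap ℝ 𝒪 c • X

theorem cs_cs (a b : ℝ) (X : V) : cs 𝒪 a (cs 𝒪 b X) = cs 𝒪 (a * b) X := by
  unfold cs
  rw [smul_smul, ← map_mul]

theorem cs_inv {c : ℝ} (hc : c ≠ 0) (X : V) : cs 𝒪 c⁻¹ (cs 𝒪 c X) = X := by
  rw [cs_cs, inv_mul_cancel₀ hc]
  unfold cs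
  rw [map_one, one_smul]

theorem cs_inv' {c : ℝ} (hc : c ≠ 0) (X : V) : cs 𝒪 c (cs 𝒪 c⁻¹ X) = X := by
  rw [cs_cs, mul_inv_cancel₀ hc]
  unfold cs
  rw [map_one, one_smul]

theorem ev_g_cs (p : M) (a b : ℝ) (X Y : V) :
    G.ev p (G.g (cs 𝒪 a X) (cs 𝒪 b Y)) = a * b * G.ev p (G.g X Y) := by
  unfold cs
  rw [G.g_smul_left, G.g_symm, G.g_smul_left, map_mul, map_mul, ev_cst, ev_cst, G.g_symm]
  ring

theorem ev_g_cs_left (p : M) (a : ℝ) (X Y : V) :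
    G.ev p (G.g (cs 𝒪 a X) Y) = a * G.ev p (G.g X Y) := by
  unfold cs
  rw [G.g_smul_left, map_mul, ev_cst]

theorem ev_g_cs_right (p : M) (a : ℝ) (X Y : V) :
    G.ev p (G.g X (cs 𝒪 a Y)) = a * G.ev p (G.g X Y) := by
  rw [G.g_symm, ev_g_cs_left, G.g_symm]

theorem nab_cs (a : ℝ) (X Y : V) : G.nab X (cs 𝒪 a Y) = cs 𝒪 a (G.nab X Y) := by
  unfold cs
  rw [G.nab_smul, G.D_const, zero_smul, add_zero]

theorem nab_cs_left (a : ℝ) (X Y : V) : G.nab (cs 𝒪 a X) Y = cs 𝒪 a (G.nab X Y) := by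
  unfold cs
  rw [G.nab_smul_left]

theorem cs_sub (a : ℝ) (X Y : V) : cs 𝒪 a (X - Y) = cs 𝒪 a X - cs 𝒪 a Y := by
  unfold cs
  rw [smul_sub]

variable {c : ℝ} (hc : 0 < c)

include hc in
/-- orthonormal for `c² g` if and only if the multiple by `c` is orthonormal for `g` -/
theorem on_scale {p : M} {F : Fin 4 → V}
    (hF : ∀ i j, G.ev p (algebraMap ℝ 𝒪 (c ^ 2) * G.g (F i) (F j)) = if i = j then 1 else 0) :
    ∀ i j, G.ev p (G.g (cs 𝒪 c (F i)) (cs 𝒪 c (F j))) = if i = j then 1 else 0 := by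
  intro i j
  rw [← hF i j, ev_g_cs, map_mul, ev_cst]
  ring

include hc in
theorem on_scale_inv {p : M} {F : Fin 4 → V}
    (hF : ∀ i j, G.ev p (G.g (F i) (F j)) = if i = j then 1 else 0) :
    ∀ i j, G.ev p (algebraMap ℝ 𝒪 (c ^ 2) * G.g (cs 𝒪 c⁻¹ (F i)) (cs 𝒪 c⁻¹ (F j))) =
      if i = j then 1 else 0 := by
  intro i j
  rw [← hF i j, map_mul, ev_g_cs, ev_cst]
  have : c ≠ 0 := hc.ne'
  field_simp

/-- the calculus of the metric `c² g` -/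
noncomputable def scaleG : Geo2 M 𝒪 V where
  D := G.D
  D_add_left := G.D_add_left
  D_smul_left := G.D_smul_left
  D_add := G.D_add
  D_mul := G.D_mul
  D_const := G.D_const
  g X Y := algebraMap ℝ 𝒪 (c ^ 2) * G.g X Y
  g_symm X Y := by rw [G.g_symm]
  g_add_left X Y Z := by rw [G.g_add_left]; ring
  g_smul_left a X Y := by rw [G.g_smul_left]; ring
  nab := G.nab
  nab_add_left := G.nab_add_left
  nab_smul_left := G.nab_smul_left
  nab_add := G.nab_add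
  nab_smul := G.nab_smul
  metric X Y Z := by rw [G.D_mul, G.D_const, G.metric]; ring
  comm := G.comm
  jacobi := G.jacobi
  ev := G.ev
  ev_cont := G.ev_cont
  D_local := G.D_local
  min_test := G.min_test
  g_nonneg p X := by
    rw [map_mul, ev_cst]
    exact mul_nonneg (sq_nonneg c) (G.g_nonneg p X)
  ptwise p Φ X h := by
    rw [map_mul, ev_cst] at h
    rcases mul_eq_zero.1 h with h | h
    · exact absurd h (pow_ne_zero 2 hc.ne')
    · exact G.ptwise p Φ X h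
  parseval p F hF Z := by
    have h1 := G.parseval p (fun i => cs 𝒪 c (F i)) (on_scale G hc hF) Z
    rw [map_mul, ev_cst, h1, Finset.mul_sum]
    refine Finset.sum_congr rfl fun i _ => ?_
    rw [ev_g_cs_right, map_mul, ev_cst]
    ring
  extend p X Y h1 h2 h3 := by
    obtain ⟨F, hF, h4, h5⟩ := G.extend p (cs 𝒪 c X) (cs 𝒪 c Y)
      (by rw [ev_g_cs, ← h1, map_mul, ev_cst]; ring)
      (by rw [ev_g_cs, ← h2, map_mul, ev_cst]; ring)
      (by rw [ev_g_cs, ← mul_zero (1 : ℝ), ← h3, map_mul, ev_cst]; ring)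
    refine ⟨fun i => cs 𝒪 c⁻¹ (F i), on_scale_inv G hc hF, ?_, ?_⟩
    · show cs 𝒪 c⁻¹ (F 0) = X
      rw [h4, cs_inv hc.ne']
    · show cs 𝒪 c⁻¹ (F 1) = Y
      rw [h5, cs_inv hc.ne']
  jets p F hF a := by
    obtain ⟨f, h1, h2⟩ := G.jets p (fun i => cs 𝒪 c (F i)) (on_scale G hc hF) (fun i => c * a i)
    refine ⟨f, h1, fun i => ?_⟩
    have h3 := h2 i
    have h4 : G.D (cs 𝒪 c (F i)) f = algebraMap ℝ 𝒪 c * G.D (F i) f := G.D_smul_left _ _ _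
    rw [h4, map_mul, ev_cst] at h3
    exact mul_left_cancel₀ hc.ne' h3
  sync p F₀ hF₀ := by
    obtain ⟨F, h1, h2, h3⟩ := G.sync p (fun i => cs 𝒪 c (F₀ i)) (on_scale G hc hF₀)
    refine ⟨fun i => cs 𝒪 c⁻¹ (F i), ?_, fun i => ?_, fun X i => ?_⟩
    · filter_upwards [h1] with q hq
      exact on_scale_inv G hc hq
    · have e : cs 𝒪 c⁻¹ (F i) - F₀ i = cs 𝒪 c⁻¹ (F i - cs 𝒪 c (F₀ i)) := by
        rw [cs_sub, cs_inv hc.ne']
      show G.ev p (algebraMap ℝ 𝒪 (c ^ 2) * G.g (cs 𝒪 c⁻¹ (F i) - F₀ i)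
        (cs 𝒪 c⁻¹ (F i) - F₀ i)) = 0
      rw [e, map_mul, ev_g_cs, h2 i, mul_zero, mul_zero]
    · show G.ev p (algebraMap ℝ 𝒪 (c ^ 2) * G.g (G.nab X (cs 𝒪 c⁻¹ (F i)))
        (G.nab X (cs 𝒪 c⁻¹ (F i)))) = 0
      rw [nab_cs, map_mul, ev_g_cs, h3 X i, mul_zero, mul_zero]
  gronwall s C h0 h1 p q hp := by
    refine G.gronwall s (C * c) h0 (fun x => ?_) p q hp
    obtain ⟨ρ, κ, a1, a2, a3⟩ := h1 x
    refine ⟨ρ, κ, a1, a2, fun X => (a3 X).trans (le_of_eq ?_)⟩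
    rw [map_mul, ev_cst, Real.sqrt_mul (sq_nonneg c), Real.sqrt_sq hc.le]
    ring
  frame p := by
    obtain ⟨F, hF⟩ := G.frame p
    exact ⟨fun i => cs 𝒪 c⁻¹ (F i), on_scale_inv G hc hF⟩
  grad f := cs 𝒪 (c ^ 2)⁻¹ (G.grad f)
  grad_spec f X := by
    unfold cs
    rw [G.g_smul_left, ← mul_assoc, ← map_mul, mul_inv_cancel₀ (pow_ne_zero 2 hc.ne'), map_one,
      one_mul, G.grad_spec]
  dv := G.dv
  dv_spec X p F hF := by
    rw [G.dv_spec X p (fun i => cs 𝒪 c (F i)) (on_scale G hc hF)]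
    refine Finset.sum_congr rfl fun i _ => ?_
    rw [nab_cs_left, ev_g_cs, map_mul, ev_cst]
    ring
  glue := G.glue
  ev_ext := G.ev_ext
  comp := G.comp

theorem scale_g (X Y : V) : (scaleG G hc).g X Y = algebraMap ℝ 𝒪 (c ^ 2) * G.g X Y := rfl

theorem scale_Rm (X Y Z W : V) : (scaleG G hc).Rm X Y Z W = algebraMap ℝ 𝒪 (c ^ 2) * G.Rm X Y Z W :=
  rfl

theorem scale_d1 (U X Y Z W : V) : (scaleG G hc).d1 (scaleG G hc).Rm U X Y Z W =
    algebraMap ℝ 𝒪 (c ^ 2) * G.d1 G.Rm U X Y Z W := by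
  have hD : ∀ f, (scaleG G hc).D U f = G.D U f := fun _ => rfl
  unfold LC.d1
  simp only [scale_Rm, hD, G.D_mul, G.D_const]
  show _ * G.Rm X Y Z W + _ - _ * G.Rm (G.nab U X) Y Z W - _ * G.Rm X (G.nab U Y) Z W
    - _ * G.Rm X Y (G.nab U Z) W - _ * G.Rm X Y Z (G.nab U W) = _
  ring

theorem scale_on {p : M} {F : Fin 4 → V} (hF : (scaleG G hc).ON p F) :
    G.ON p fun i => cs 𝒪 c (F i) := on_scale G hc hF

theorem scale_on_inv {p : M} {F : Fin 4 → V} (hF : G.ON p F) :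
    (scaleG G hc).ON p fun i => cs 𝒪 c⁻¹ (F i) := on_scale_inv G hc hF

/-- values of a four-tensor on multiples -/
theorem t4_cs {T : V → V → V → V → 𝒪} (h : IsT4 T) (a : ℝ) (p : M) (X Y Z W : V) :
    G.ev p (T (cs 𝒪 a X) (cs 𝒪 a Y) (cs 𝒪 a Z) (cs 𝒪 a W)) = a ^ 4 * G.ev p (T X Y Z W) := by
  unfold cs
  rw [h.smul1, h.smul2, h.smul3, h.smul4]
  simp only [map_mul, ev_cst]
  ring

theorem scale_einstein {lam : ℝ} (hE : G.Einstein lam) : (scaleG G hc).Einstein (lam / c ^ 2) := by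
  intro p F hF Y Z
  have h1 := hE p _ (scale_on G hc hF) Y Z
  have e : ∀ i, G.ev p (G.Rm (cs 𝒪 c (F i)) Y Z (cs 𝒪 c (F i))) =
      G.ev p ((scaleG G hc).Rm (F i) Y Z (F i)) := by
    intro i
    rw [scale_Rm]
    unfold cs
    rw [G.isT4_Rm.smul1, G.isT4_Rm.smul4, map_mul, map_mul, map_mul, ev_cst, ev_cst]
    ring
  simp only [e] at h1
  show ∑ i, G.ev p ((scaleG G hc).Rm (F i) Y Z (F i)) = lam / c ^ 2 * G.ev p (_ * G.g Y Z)
  rw [h1, map_mul, ev_cst]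
  have : c ≠ 0 := hc.ne'
  field_simp

theorem scale_sec (hK : G.SecGe 0) : (scaleG G hc).SecGe 0 := by
  intro p X Y
  have h := hK p X Y
  rw [zero_mul] at h ⊢
  show 0 ≤ G.ev p (algebraMap ℝ 𝒪 (c ^ 2) * G.Rm X Y Y X)
  rw [map_mul, ev_cst]
  exact mul_nonneg (sq_nonneg c) h

variable {G} in
/-- the scaled orientation -/
theorem scale_orient {om : V → V → V → V → 𝒪} (ho : Orient G om) :
    Orient (scaleG G hc) fun X Y Z W => algebraMap ℝ 𝒪 (c ^ 4) * om X Y Z W where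
  t4 := by
    have h := ho.t4
    constructor <;> intros <;>
      simp only [h.add1, h.add2, h.add3, h.add4, h.smul1, h.smul2, h.smul3, h.smul4] <;> ring
  a12 X Y Z W := by rw [ho.a12]; ring
  a23 X Y Z W := by rw [ho.a23]; ring
  a34 X Y Z W := by rw [ho.a34]; ring
  unit p F hF := by
    have h1 := ho.unit p _ (scale_on G hc hF)
    rw [t4_cs G ho.t4] at h1
    show (G.ev p (algebraMap ℝ 𝒪 (c ^ 4) * om (F 0) (F 1) (F 2) (F 3))) ^ 2 = 1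
    rw [map_mul, ev_cst]
    exact h1

variable {G} in
theorem scale_pos {om : V → V → V → V → 𝒪} (ho : Orient G om) {p : M} {F : Fin 4 → V}
    (hF : Pos (scaleG G hc) (fun X Y Z W => algebraMap ℝ 𝒪 (c ^ 4) * om X Y Z W) p F) :
    Pos G om p fun i => cs 𝒪 c (F i) := by
  refine ⟨scale_on G hc hF.1, ?_⟩
  have h1 := hF.2
  show G.ev p (om (cs 𝒪 c (F 0)) (cs 𝒪 c (F 1)) (cs 𝒪 c (F 2)) (cs 𝒪 c (F 3))) = 1
  rw [t4_cs G ho.t4, ← h1]
  show _ = G.ev p (algebraMap ℝ 𝒪 (c ^ 4) * om (F 0) (F 1) (F 2) (F 3))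
  rw [map_mul, ev_cst]

theorem scale_rr (p : M) (F : Fin 4 → V) (i j k l : Fin 4) :
    G.rr p (fun i => cs 𝒪 c (F i)) i j k l = c ^ 2 * (scaleG G hc).rr p F i j k l := by
  unfold Geom.rr
  rw [scale_Rm]
  show G.ev p (G.Rm (cs 𝒪 c (F i)) (cs 𝒪 c (F j)) (cs 𝒪 c (F k)) (cs 𝒪 c (F l))) =
    c ^ 2 * G.ev p (_ * _)
  rw [t4_cs G G.isT4_Rm, map_mul, ev_cst]
  ring

end

end Vale.Agent.P211.HK
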