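import Vale.Agent.P211.HK.KR5
import Vale.Agent.P211.HK.KRDefs
import Vale.Agent.P211.HK.ScaleG
import Vale.Agent.P211.H555.Main

set_option linter.all false
set_option maxSynthPendingDepth 3

/-! P211 / HK, block KR (helper115): the rigidity theorem for manifolds. -/

namespace Vale.Agent.P211.HK

open Topology Filter Vale.Agent.P211 Vale.Agent.P211.S4
open scoped Manifold ContDiff RealInnerProductSpace
open Bundle VectorField

section abs

variable {M 𝒪 V : Type*} [TopologicalSpace M] [CommRing 𝒪] [Algebra ℝ 𝒪]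
    [AddCommGroup V] [Module 𝒪 V] {G : Geo2 M 𝒪 V} {om : V → V → V → V → 𝒪}

/-- the self-dual block is the identity if its first entry is one in all positive frames -/
theorem block_of_00 (hE : G.Einstein 3) (ho : Orient G om)
    (h : ∀ p F, Pos G om p F → S4.Ab (G.rr p F) 0 0 = 1) {p : M} {F : Fin 4 → V}
    (hF : Pos G om p F) (i j : Fin 3) : S4.Ab (G.rr p F) i j = if i = j then 1 else 0 := by
  obtain ⟨F₀, hF₀, hd⟩ := exists_diag hE ho p
  have e0 := h p F₀ hF₀
  have e1 := h p (cyc F₀) (pos_cyc ho hF₀)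
  rw [(Ab_cyc (G := G) p F₀).1] at e1
  have e2 := h p (cyc (cyc F₀)) (pos_cyc ho (pos_cyc ho hF₀))
  rw [(Ab_cyc (G := G) p (cyc F₀)).1, (Ab_cyc (G := G) p F₀).2.1] at e2
  have hn : nA (G.rr p F) = 3 := by
    rw [nA_inv hE ho hF hF₀, nA_diag hd, e0, e1, e2]; norm_num
  exact H210.block_id (Ab_sum hE hF.1) hn i j

theorem sk_abs {a b c d e f B : ℝ} (hB : 0 ≤ B) (ha : |a| ≤ B) (hb : |b| ≤ B) (hc : |c| ≤ B)
    (hd : |d| ≤ B) (he : |e| ≤ B) (hf : |f| ≤ B) (i j : Fin 4) : |sk a b c d e f i j| ≤ B := by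
  fin_cases i <;> fin_cases j <;> simp [sk, *]

theorem sk2_abs {a b c d e f : Fin 4 → Fin 4 → ℝ} {B : ℝ} (hB : 0 ≤ B) (k l : Fin 4)
    (ha : |a k l| ≤ B) (hb : |b k l| ≤ B) (hc : |c k l| ≤ B)
    (hd : |d k l| ≤ B) (he : |e k l| ≤ B) (hf : |f k l| ≤ B) (i j : Fin 4) :
    |sk a b c d e f i j k l| ≤ B := by
  fin_cases i <;> fin_cases j <;> simp [sk, *]

theorem ein_abs {P S : Fin 3 → Fin 3 → ℝ} {B : ℝ} (hB : 0 ≤ B) (hP : ∀ i j, |P i j| ≤ B)
    (hS : ∀ i j, |S i j| ≤ B) (i j k l : Fin 4) : |einArr P S i j k l| ≤ B := by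
  unfold einArr
  apply sk2_abs hB <;> apply sk_abs hB <;> simp only [abs_neg, hP, hS]

theorem entry_le {A : Fin 3 → Fin 3 → ℝ} {C : ℝ} (h : ∑ i, ∑ j, A i j ^ 2 ≤ C) (i j : Fin 3) :
    A i j ^ 2 ≤ C :=
  (Finset.single_le_sum (f := fun j => A i j ^ 2) (fun j _ => sq_nonneg _)
    (Finset.mem_univ j)).trans ((Finset.single_le_sum (f := fun i => ∑ j, A i j ^ 2)
    (fun i _ => Finset.sum_nonneg fun j _ => sq_nonneg _) (Finset.mem_univ i)).trans h)

theorem rr_bdd (hE : G.Einstein 3) (hK : G.SecGe 0) (ho : Orient G om) :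
    ∃ C : ℝ, ∀ p (F : Fin 4 → V), G.ON p F → ∀ i j k l, |G.rr p F i j k l| ≤ C := by
  refine ⟨6, fun p F hF => ?_⟩
  obtain ⟨n, m, hn, hm, hN, hM⟩ := H56.exists_nm hE hK ho
  have hb : nA (G.rr p F) ≤ 27 ∧ H56.nB (G.rr p F) ≤ 27 := by
    have hu := ho.unit p F hF
    rcases mul_eq_zero.1 (show (G.ev p (om (F 0) (F 1) (F 2) (F 3)) - 1) *
      (G.ev p (om (F 0) (F 1) (F 2) (F 3)) + 1) = 0 by linear_combination hu) with h | h
    · have hP : Pos G om p F := ⟨hF, by linarith only [h]⟩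
      rw [← hn p F hP, ← hm p F hP]
      constructor <;> linarith [hN.le p, hM.le p]
    · have hP : Pos G om p (H56.refl F) := by
        refine ⟨H56.refl_on hF, ?_⟩
        simp only [H56.refl, Matrix.cons_val_zero, Matrix.cons_val_one, Matrix.cons_val]
        rw [H56.t4_neg1 ho.t4, map_neg]
        linarith only [h]
      rw [← H56.nB_refl p F, ← H56.nA_refl p F, ← hn p _ hP, ← hm p _ hP]
      constructor <;> linarith [hN.le p, hM.le p]
  obtain ⟨e, -, -, -, -⟩ := eq_einArr (Geom.algCurv_rr p F) (rr_ein hE hF)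
  have hA : ∀ i j, (Pm (G.rr p F) i j + Sm (G.rr p F) i j) ^ 2 ≤ 27 := entry_le hb.1
  have hC : ∀ i j, (Pm (G.rr p F) i j - Sm (G.rr p F) i j) ^ 2 ≤ 27 := entry_le hb.2
  have hP : ∀ i j, |Pm (G.rr p F) i j| ≤ 6 := fun i j => by
    apply abs_le_of_sq_le_sq _ (by norm_num)
    nlinarith [hA i j, hC i j, sq_nonneg (Sm (G.rr p F) i j)]
  have hS : ∀ i j, |Sm (G.rr p F) i j| ≤ 6 := fun i j => by
    apply abs_le_of_sq_le_sq _ (by norm_num)
    nlinarith [hA i j, hC i j, sq_nonneg (Pm (G.rr p F) i j)]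
  intro i j k l
  rw [e]
  exact ein_abs (by norm_num) hP hS i j k l

/-- the curvature tensor of the complex projective plane -/
theorem rf_cp (x y z w : Fin 4 → ℝ) : rf (einArr cpP cpS) x y z w =
    3 / 6 * ((∑ a, y a * z a) * (∑ a, x a * w a) - (∑ a, x a * z a) * (∑ a, y a * w a) +
      ((y 0 * z 1 - z 0 * y 1) + (y 2 * z 3 - z 2 * y 3)) *
        ((x 0 * w 1 - w 0 * x 1) + (x 2 * w 3 - w 2 * x 3)) -
      ((x 0 * z 1 - z 0 * x 1) + (x 2 * z 3 - z 2 * x 3)) *
        ((y 0 * w 1 - w 0 * y 1) + (y 2 * w 3 - w 2 * y 3)) -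
      2 * ((x 0 * y 1 - y 0 * x 1) + (x 2 * y 3 - y 2 * x 3)) *
        ((z 0 * w 1 - w 0 * z 1) + (z 2 * w 3 - w 2 * z 3))) := by
  rw [rf_einArr]
  simp only [qf, wE, wF, cpP, cpS, Fin.sum_univ_four, Matrix.cons_val_zero, Matrix.cons_val_one,
    Matrix.cons_val]
  ring

end abs

noncomputable section

variable {E : Type} [NormedAddCommGroup E] [NormedSpace ℝ E] [FiniteDimensional ℝ E]
  {M : Type} [TopologicalSpace M] [ChartedSpace E M] [IsManifold 𝓘(ℝ, E) ∞ M] [T2Space M]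
  [RiemannianBundle fun p : M => TangentSpace 𝓘(ℝ, E) p]
  [IsContMDiffRiemannianBundle 𝓘(ℝ, E) ∞ E fun p : M => TangentSpace 𝓘(ℝ, E) p]

theorem cb_eq (X : Fin 6 → VF E M) (c : Fin 6 → ℝ) : cb (SF E M) X c = ∑ i, c i • X i := by
  unfold cb
  refine Finset.sum_congr rfl fun i _ => ?_
  ext x
  rw [smulVF_apply]
  simp [Algebra.algebraMap_eq_smul_one]

/-- **KR** -/
theorem kr (cov : CovariantDerivative 𝓘(ℝ, E) E (TangentSpace 𝓘(ℝ, E) : M → Type))
    (om : Form4 E M) : KRStmt cov om := by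
  intro g4 hconn hcpt hK lam hlam hR hWm ⟨X, hli, hkill⟩
  have h := g4.lc
  have hE := g4.dim
  have hc : 0 < Real.sqrt (lam / 3) := Real.sqrt_pos.2 (by positivity)
  obtain ⟨c, hcdef⟩ : ∃ c : ℝ, c = Real.sqrt (lam / 3) := ⟨_, rfl⟩
  rw [← hcdef] at hc
  have hc2 : c ^ 2 = lam / 3 := by rw [hcdef, Real.sq_sqrt (by positivity)]
  have hcne : c ≠ 0 := hc.ne'
  obtain ⟨B, hB⟩ := H555.exists_frames h hE
  have hof : Final.IsOrientation (H555.unitForm om B) := H555.orientation_of h hE hB g4.ori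
  obtain ⟨om', ho0, hw⟩ := orient_of h hE (H210.isVolForm_of hof)
  have e1 : (scaleG (geo2Of h hE) hc).Einstein 3 := by
    have := scale_einstein (geo2Of h hE) hc (H210.einstein2_of h hE (H555.einstein_to hR))
    rw [hc2] at this
    have e3 : lam / (lam / 3) = 3 := by field_simp
    rw [e3] at this
    exact this
  have e2 : (scaleG (geo2Of h hE) hc).SecGe 0 :=
    scale_sec (geo2Of h hE) hc (H210.secGe0_of h hE (H555.sec_to hK))
  have ho := scale_orient hc ho0
  have hno := H56.orient_neg ho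
  have hne : ∀ (p : M) (F : Fin 4 → VF E M), NN.OrthonormalAt F p → (om p fun i => F i p) ≠ 0 :=
    fun p F hF => H555.alt_ne (show Module.finrank ℝ (TangentSpace 𝓘(ℝ, E) p) = 4 from hE)
      (g4.ori.2 p) hF
  -- signs
  have hpos : ∀ p F, Pos (geo2Of h hE) om' p F → NN.OrthonormalAt F p ∧ 0 < om p fun i => F i p := by
    intro p F hF
    have h1 : NN.OrthonormalAt F p := H555.on_iff.2 hF.1
    refine ⟨h1, ?_⟩
    have h2 := (H210.om_val h hE hw F p).symm.trans hF.2
    rcases lt_or_gt_of_ne (hne p F h1) with h0 | h0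
    · have := H555.val_neg hE hB h1 h0
      rw [this] at h2
      norm_num at h2
    · exact h0
  have hneg : ∀ p F, Pos (geo2Of h hE) (H56.omn om') p F →
      NN.OrthonormalAt F p ∧ (om p fun i => F i p) < 0 := by
    intro p F hF
    have h1 : NN.OrthonormalAt F p := H555.on_iff.2 hF.1
    refine ⟨h1, ?_⟩
    have h3 : (geo2Of h hE).ev p (om' (F 0) (F 1) (F 2) (F 3)) = -1 := by
      have := hF.2
      simp only [H56.omn, map_neg] at this
      linarith
    have h2 := (H210.om_val h hE hw F p).symm.trans h3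
    rcases lt_or_gt_of_ne (hne p F h1) with h0 | h0
    · exact h0
    · have := H555.val_pos hE hB h1 h0
      rw [this] at h2
      norm_num at h2
  -- `W₋ = 0`
  have h00 : ∀ p F, Pos (scaleG (geo2Of h hE) hc)
      (H56.omn fun X Y Z W => algebraMap ℝ (SF E M) (c ^ 4) * om' X Y Z W) p F →
      S4.Ab ((scaleG (geo2Of h hE) hc).rr p F) 0 0 = 1 := by
    intro p F hF
    have hF' : Pos (geo2Of h hE) (H56.omn om') p fun i => cs (SF E M) c (F i) := by
      refine scale_pos hc (H56.orient_neg ho0) ⟨hF.1, ?_⟩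
      have h5 : (fun X Y Z W : VF E M => algebraMap ℝ (SF E M) (c ^ 4) * H56.omn om' X Y Z W) =
          H56.omn fun X Y Z W => algebraMap ℝ (SF E M) (c ^ 4) * om' X Y Z W := by
        funext X Y Z W
        simp only [H56.omn]
        ring
      rw [h5]
      exact hF.2
    obtain ⟨h1, h2⟩ := hneg p _ hF'
    have h3 := hWm p _ h1 (by
      show 0 < -(om p fun i => (cs (SF E M) c (F i) : VF E M) p)
      linarith)
    have hh : ∀ i j k l, NN.Rm cov (cs (SF E M) c (F i) : VF E M) (cs (SF E M) c (F j) : VF E M)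
        (cs (SF E M) c (F k) : VF E M) (cs (SF E M) c (F l) : VF E M) p =
        c ^ 2 * (scaleG (geo2Of h hE) hc).rr p F i j k l := fun i j k l =>
      (congrFun (H555.rm_eq h _ _ _ _) p).trans (scale_rr (geo2Of h hE) hc p F i j k l)
    rw [hh, hh, hh] at h3
    obtain ⟨e, -, -, -, -⟩ := eq_einArr (Geom.algCurv_rr p F) (rr_ein e1 hF.1)
    have h4 : (scaleG (geo2Of h hE) hc).rr p F 2 3 3 2 =
        (scaleG (geo2Of h hE) hc).rr p F 0 1 1 0 := by
      rw [e]; simp [einArr, sk]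
    rw [h4, ← hc2] at h3
    have h6 : c ^ 2 * ((scaleG (geo2Of h hE) hc).rr p F 0 1 1 0 +
        (scaleG (geo2Of h hE) hc).rr p F 0 1 3 2 - 1) = 0 := by linarith
    rcases mul_eq_zero.1 h6 with h7 | h7
    · exact absurd h7 (pow_ne_zero 2 hcne)
    · unfold S4.Ab Pm Sm
      simp only [Matrix.cons_val_zero]
      linarith
  have hW : AsdOne (scaleG (geo2Of h hE) hc)
      fun X Y Z W => algebraMap ℝ (SF E M) (c ^ 4) * om' X Y Z W := by
    intro p F hF i j
    have := block_of_00 e1 hno h00 ((H56.pos_neg_iff ho).2 hF) i j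
    rw [H56.Ab_refl] at this
    exact this
  have hbd := rr_bdd e1 e2 ho
  have hk : ∀ i, Kill (scaleG (geo2Of h hE) hc).toLC (X i) := by
    intro i A C
    have h8 : (geo2Of h hE).g ((geo2Of h hE).nab A (X i)) C +
        (geo2Of h hE).g A ((geo2Of h hE).nab C (X i)) = 0 := by
      ext x
      exact hkill i x (A x) (C x)
    show algebraMap ℝ (SF E M) (c ^ 2) * (geo2Of h hE).g ((geo2Of h hE).nab A (X i)) C +
      algebraMap ℝ (SF E M) (c ^ 2) * (geo2Of h hE).g A ((geo2Of h hE).nab C (X i)) = 0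
    rw [← mul_add, h8, mul_zero]
  have hl : ∀ a : Fin 6 → ℝ, (∀ q, (scaleG (geo2Of h hE) hc).ev q
      ((scaleG (geo2Of h hE) hc).g (cb (SF E M) X a) (cb (SF E M) X a)) = 0) → a = 0 := by
    intro a ha
    have h0 : ∑ i, a i • X i = 0 := by
      rw [← cb_eq]
      ext x
      have h9 : c ^ 2 * inner ℝ (cb (SF E M) X a x) (cb (SF E M) X a x) = (0 : ℝ) := by
        rw [← ev_cst (geo2Of h hE) x (c ^ 2)]
        exact (map_mul ((geo2Of h hE).ev x) _ _).symm.trans (ha x)
      rcases mul_eq_zero.1 h9 with h10 | h10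
      · exact absurd h10 (pow_ne_zero 2 hcne)
      · exact inner_self_eq_zero.1 h10
    funext i
    exact Fintype.linearIndependent_iff.1 hli a h0 i
  have hnonempty : Nonempty M := hconn.toNonempty
  rcases kr_abs e1 ho hW hbd hk hl with hr | ⟨hr, hF⟩
  · left
    intro p Y Z W T
    rw [H555.rm_eq h]
    have h1 := hr p Y Z W T
    have h2 : c ^ 2 * ((lcOf h).Rm Y Z W T : SF E M) p =
        (c ^ 2 * inner ℝ (Z p) (W p)) * (c ^ 2 * inner ℝ (Y p) (T p)) -
        (c ^ 2 * inner ℝ (Y p) (W p)) * (c ^ 2 * inner ℝ (Z p) (T p)) := by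
      have a1 : ∀ f : SF E M, (geo2Of h hE).ev p (algebraMap ℝ (SF E M) (c ^ 2) * f) =
          c ^ 2 * f p := fun f => by rw [map_mul, ev_cst]; rfl
      have a2 : (geo2Of h hE).ev p (algebraMap ℝ (SF E M) (c ^ 2) * (geo2Of h hE).Rm Y Z W T) =
          c ^ 2 * ((lcOf h).Rm Y Z W T : SF E M) p := a1 _
      rw [← a2]
      refine h1.trans ?_
      show (geo2Of h hE).ev p ((algebraMap ℝ (SF E M) (c ^ 2) * (geo2Of h hE).g Z W) *
        (algebraMap ℝ (SF E M) (c ^ 2) * (geo2Of h hE).g Y T) -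
        (algebraMap ℝ (SF E M) (c ^ 2) * (geo2Of h hE).g Y W) *
        (algebraMap ℝ (SF E M) (c ^ 2) * (geo2Of h hE).g Z T)) = _
      rw [map_sub, map_mul _ (algebraMap ℝ (SF E M) (c ^ 2) * (geo2Of h hE).g Z W),
        map_mul _ (algebraMap ℝ (SF E M) (c ^ 2) * (geo2Of h hE).g Y W), a1, a1, a1, a1]
      rfl
    have h3 : c ^ 2 * (((lcOf h).Rm Y Z W T : SF E M) p - c ^ 2 * (inner ℝ (Z p) (W p) *
        inner ℝ (Y p) (T p) - inner ℝ (Y p) (W p) * inner ℝ (Z p) (T p))) = 0 := by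
      linear_combination h2
    rcases mul_eq_zero.1 h3 with h4 | h4
    · exact absurd h4 (pow_ne_zero 2 hcne)
    · rw [← hc2]
      linear_combination h4
  · right
    refine ⟨fun p U Y Z W T => ?_, fun p => ?_⟩
    · rw [H555.nabRm_eq]
      refine (dRiem_eq h U Y Z W T p).trans ?_
      have h1 := hr U Y Z W T
      rw [scale_d1] at h1
      have h2 : c ^ 2 * ((lcOf h).d1 (lcOf h).Rm U Y Z W T : SF E M) p = 0 := by
        have a2 : (geo2Of h hE).ev p (algebraMap ℝ (SF E M) (c ^ 2) *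
            (geo2Of h hE).d1 (geo2Of h hE).Rm U Y Z W T) =
            c ^ 2 * ((lcOf h).d1 (lcOf h).Rm U Y Z W T : SF E M) p := by
          rw [map_mul, ev_cst]; rfl
        rw [← a2, h1, map_zero]
      rcases mul_eq_zero.1 h2 with h4 | h4
      · exact absurd h4 (pow_ne_zero 2 hcne)
      · exact h4
    · obtain ⟨F, hP, hr⟩ := hF p
      have hP' := scale_pos hc ho0 hP
      obtain ⟨h1, h2⟩ := hpos p _ hP'
      refine ⟨_, h1, h2, fun Y Z W T => ?_⟩
      rw [H555.rm_eq h]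
      have h3 := Geom.Rm_rf hP'.1 Y Z W T
      have hrr : (geo2Of h hE).rr p (fun i => cs (SF E M) c (F i)) =
          fun i j k l => c ^ 2 * einArr cpP cpS i j k l := by
        funext i j k l
        refine (scale_rr (geo2Of h hE) hc p F i j k l).trans ?_
        rw [hr]
      have hsc : ∀ x y z w : Fin 4 → ℝ, rf (fun i j k l => c ^ 2 * einArr cpP cpS i j k l) x y z w =
          c ^ 2 * rf (einArr cpP cpS) x y z w := by
        intro x y z w
        unfold rf
        simp only [Finset.mul_sum]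
        refine Finset.sum_congr rfl fun a _ => Finset.sum_congr rfl fun b _ =>
          Finset.sum_congr rfl fun d _ => Finset.sum_congr rfl fun e _ => ?_
        ring
      rw [hrr, hsc, rf_cp, ← Geom.g_cf hP'.1, ← Geom.g_cf hP'.1, ← Geom.g_cf hP'.1,
        ← Geom.g_cf hP'.1] at h3
      refine (show ((lcOf h).Rm Y Z W T : SF E M) p = _ from h3).trans ?_
      have ci : ∀ (A : VF E M) (i : Fin 4), (geo2Of h hE).cf p (fun i => cs (SF E M) c (F i)) A i =
          inner ℝ ((cs (SF E M) c (F i) : VF E M) p) (A p) := by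
        intro A i
        have h5 : (geo2Of h hE).cf p (fun i => cs (SF E M) c (F i)) A i =
          inner ℝ (A p) ((cs (SF E M) c (F i) : VF E M) p) := rfl
        rw [h5, real_inner_comm]
      simp only [ci]
      rw [← mul_assoc, show c ^ 2 * (3 / 6) = lam / 6 by rw [hc2]; ring]
      rfl

end

end Vale.Agent.P211.HK
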