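import Vale.Agent.P211.HK.S4Iso
import Vale.Agent.P211.HK.CP2Fin
import Vale.Agent.P211.H555.Bridge

/-! P211 / HK / S4Asm (helper861): `S4IsoStmt` from the block JAC. -/

set_option maxSynthPendingDepth 3
set_option linter.unusedSectionVars false
set_option linter.unusedVariables false

open Bundle Manifold Set Filter MeasureTheory Module
open scoped ContDiff Manifold Topology RealInnerProductSpace

namespace Vale.Agent.P211.HK.S4I

noncomputable section

open Vale.Agent.P234 Vale.Agent.P231 Vale.Agent.P211 Vale.Agent.P211.S4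

section gram

variable {E : Type*} [NormedAddCommGroup E] [NormedSpace ℝ E] [FiniteDimensional ℝ E]
  {M : Type*} [MetricSpace M] [ChartedSpace E M]
  [RiemannianBundle (fun x : M => TangentSpace 𝓘(ℝ, E) x)]
  [IsManifold 𝓘(ℝ, E) ∞ M]
  [IsContMDiffRiemannianBundle 𝓘(ℝ, E) ∞ E (fun x : M => TangentSpace 𝓘(ℝ, E) x)]
  {e : ∀ x : M, TangentSpace 𝓘(ℝ, E) x → M}

theorem inner_expand {T : Type*} [NormedAddCommGroup T] [InnerProductSpace ℝ T]
    {T' : Type*} [NormedAddCommGroup T'] [InnerProductSpace ℝ T'] (hT : finrank ℝ T = 4)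
    {b : Fin 4 → T} (hb : ∀ i j, ⟪b i, b j⟫ = if i = j then (1 : ℝ) else 0) (L : T →ₗ[ℝ] T')
    {μ : Fin 4 → ℝ} (hL : ∀ i j, ⟪L (b i), L (b j)⟫ = if i = j then μ i else 0) (w : T) :
    ⟪L w, L w⟫ = ∑ i, ⟪b i, w⟫ ^ 2 * μ i ∧ ⟪w, w⟫ = ∑ i, ⟪b i, w⟫ ^ 2 := by
  have hon : Orthonormal ℝ b := by rw [orthonormal_iff_ite]; exact hb
  have hfd : FiniteDimensional ℝ T := FiniteDimensional.of_finrank_eq_succ hT
  have hcard : Fintype.card (Fin 4) = finrank ℝ T := by rw [Fintype.card_fin]; exact hT.symm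
  obtain ⟨β, hβ⟩ : ∃ β : OrthonormalBasis (Fin 4) ℝ T, ∀ i, β i = b i := by
    have h0 : ⊤ ≤ Submodule.span ℝ (range b) := by
      rw [hon.linearIndependent.span_eq_top_of_card_eq_finrank' hcard]
    refine ⟨OrthonormalBasis.mk hon h0, fun i => ?_⟩
    rw [OrthonormalBasis.coe_mk]
  have hw : w = ∑ i, ⟪b i, w⟫ • b i := by
    conv_lhs => rw [← β.sum_repr w]
    refine Finset.sum_congr rfl fun i _ => ?_
    rw [β.repr_apply_apply, hβ]
  refine ⟨?_, ?_⟩
  · have h3 : L w = ∑ i, ⟪b i, w⟫ • L (b i) := by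
      conv_lhs => rw [hw]
      rw [map_sum]
      exact Finset.sum_congr rfl fun i _ => map_smul _ _ _
    rw [h3, sum_inner]
    refine Finset.sum_congr rfl fun i _ => ?_
    rw [inner_sum, Finset.sum_eq_single i]
    · rw [inner_smul_left, inner_smul_right, hL, if_pos rfl]
      simp only [conj_trivial]
      ring
    · intro j _ hj
      rw [inner_smul_left, inner_smul_right, hL, if_neg hj.symm]
      simp
    · simp
  · conv_lhs => rw [hw]
    rw [sum_inner]
    refine Finset.sum_congr rfl fun i _ => ?_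
    rw [inner_sum, Finset.sum_eq_single i]
    · rw [inner_smul_left, inner_smul_right, hb, if_pos rfl]
      simp only [conj_trivial]
      ring
    · intro j _ hj
      rw [inner_smul_left, inner_smul_right, hb, if_neg hj.symm]
      simp
    · simp

theorem snq_sq {k : ℝ} (hk : 0 < k) (r : ℝ) :
    VE.snq k r = Real.sin (√k * r) / (√k * r) := VE.snq_ne hk.ne' r

/-- the form needed for the sphere from the Gram matrices -/
theorem sphJ_of_gram (hE : finrank ℝ E = 4) {k : ℝ} (hk : 0 < k)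
    (h : VE.JacGram e ![0, k, k, k]) : SphJ (√k) e := by
  intro x v w hv _
  have hn : nm x v ≠ 0 := fun h0 => hv (nm_zero_imp (E := E) x h0)
  have hn0 : 0 < nm x v := lt_of_le_of_ne (nm_nonneg x v) hn.symm
  obtain ⟨u, hu, hvu⟩ := VE.exists_unit x hn0
  obtain ⟨b, hb0, hb, hG⟩ := h x u hu
  have hG1 := hG (nm x v) hn0
  rw [← hvu] at hG1
  have hT : finrank ℝ (TangentSpace 𝓘(ℝ, E) x) = 4 := hE
  obtain ⟨h1, h2⟩ := inner_expand (T := TangentSpace 𝓘(ℝ, E) x)
    (T' := TangentSpace 𝓘(ℝ, E) (e x (v : TangentSpace 𝓘(ℝ, E) x))) hT (b := b) hb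
    (dEc e x v).toLinearMap (μ := fun i => VE.snq ((![0, k, k, k] : Fin 4 → ℝ) i) (nm x v) ^ 2)
    hG1 w
  have h3 : nm (E := E) (e x (v : TangentSpace 𝓘(ℝ, E) x)) (dE e x v w) ^ 2 =
      ∑ i, (Vale.Agent.P231.ip x (b i) w) ^ 2 *
        VE.snq ((![0, k, k, k] : Fin 4 → ℝ) i) (nm x v) ^ 2 := by
    refine Eq.trans ?_ h1
    exact (real_inner_self_eq_norm_sq (F := TangentSpace 𝓘(ℝ, E) (e x (v :
      TangentSpace 𝓘(ℝ, E) x))) _).symm
  have h4 : nm x w ^ 2 = ∑ i, (Vale.Agent.P231.ip x (b i) w) ^ 2 := by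
    refine Eq.trans ?_ h2
    exact (real_inner_self_eq_norm_sq (F := TangentSpace 𝓘(ℝ, E) x) _).symm
  have h5 : Vale.Agent.P231.ip x v w = nm x v * Vale.Agent.P231.ip x (b 0) w := by
    rw [hb0]
    conv_lhs => rw [hvu]
    exact real_inner_smul_left (F := TangentSpace 𝓘(ℝ, E) x) _ _ _
  rw [h3, h5, h4, Fin.sum_univ_four, Fin.sum_univ_four]
  simp only [Matrix.cons_val_zero, Matrix.cons_val_one, Matrix.cons_val, VE.snq_zero, snq_sq hk]
  field_simp
  ring

end gram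

end

end Vale.Agent.P211.HK.S4I

namespace Vale.Agent.P211.HK

open scoped Manifold ContDiff Topology
open Bundle Filter VectorField Set
open Vale.Agent.P231 (riemVol)
open Vale.Agent.P234 (Facts)

noncomputable section

section conc

variable {E : Type} [NormedAddCommGroup E] [NormedSpace ℝ E] [FiniteDimensional ℝ E]
  {M : Type} [TopologicalSpace M] [ChartedSpace E M] [IsManifold 𝓘(ℝ, E) ∞ M] [T2Space M]
  [RiemannianBundle fun p : M => TangentSpace 𝓘(ℝ, E) p]
  [IsContMDiffRiemannianBundle 𝓘(ℝ, E) ∞ E fun p : M => TangentSpace 𝓘(ℝ, E) p]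
  {cov : CovariantDerivative 𝓘(ℝ, E) E (TangentSpace 𝓘(ℝ, E) : M → Type)}

/-- constant curvature: the curvature is parallel -/
theorem ConstCurv.nabRm_eq_zero (hcov : IsLC cov) {k : ℝ} (hC : ConstCurv cov k) (p : M)
    (U X Y Z W : NN.SmoothField E M) : NN.nabRm cov U X Y Z W p = 0 := by
  set G := lcOf hcov with hG
  have hR : ∀ X Y Z W, G.Rk k X Y Z W = 0 := by
    intro X Y Z W
    ext q
    have h1 := hC q X Y Z W
    rw [H555.rm_eq hcov] at h1
    change ((lcOf hcov).Rm X Y Z W : SF E M) q - k * (inner ℝ (Y q) (Z q) * inner ℝ (X q) (W q) -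
      inner ℝ (X q) (Z q) * inner ℝ (Y q) (W q)) = 0
    rw [h1, sub_self]
  have hd : G.d1 G.Rm U X Y Z W = 0 := by
    rw [← G.d1_Rk k]
    unfold LC.d1
    simp only [hR, G.D_zero, sub_zero]
  have e : ∀ X Y Z W : VF E M, NN.Rm cov X Y Z W p = (G.Rm X Y Z W : SF E M) p :=
    fun X Y Z W => by rw [H555.rm_eq hcov]
  have h2 : NN.nabRm cov U X Y Z W p = (G.d1 G.Rm U X Y Z W : SF E M) p := by
    unfold NN.nabRm LC.d1
    rw [H555.rm_eq hcov X Y Z W]
    have c1 := e (G.nab U X) Y Z W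
    have c2 := e X (G.nab U Y) Z W
    have c3 := e X Y (G.nab U Z) W
    have c4 := e X Y Z (G.nab U W)
    show _ - NN.Rm cov (G.nab U X) Y Z W p - NN.Rm cov X (G.nab U Y) Z W p
      - NN.Rm cov X Y (G.nab U Z) W p - NN.Rm cov X Y Z (G.nab U W) p = _
    rw [c1, c2, c3, c4]
    rfl
  rw [h2, hd]
  rfl

end conc

variable {E : Type} [NormedAddCommGroup E] [NormedSpace ℝ E] [FiniteDimensional ℝ E]
  {M : Type} [MetricSpace M] [ChartedSpace E M] [IsManifold 𝓘(ℝ, E) ∞ M]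
  [RiemannianBundle fun p : M => TangentSpace 𝓘(ℝ, E) p]
  [IsContMDiffRiemannianBundle 𝓘(ℝ, E) ∞ E fun p : M => TangentSpace 𝓘(ℝ, E) p]
  [IsRiemannianManifold 𝓘(ℝ, E) M] [CompactSpace M] [ConnectedSpace M]
  [MeasurableSpace M] [BorelSpace M]
  {cov : CovariantDerivative 𝓘(ℝ, E) E (TangentSpace 𝓘(ℝ, E) : M → Type)}
  {om : Form4 E M} {lam : ℝ}

/-- **isometry with the round sphere** -/
theorem s4Iso_of (hJ : JACStmt cov om ![0, lam / 3, lam / 3, lam / 3])
    (hF : ∃ e : ∀ x : M, TangentSpace 𝓘(ℝ, E) x → M, Facts e) : S4IsoStmt cov om lam := by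
  intro hG hl hC hvol
  obtain ⟨e, F⟩ := hF
  have hk : 0 < lam / 3 := by positivity
  have hE := hG.dim
  obtain ⟨h1, h2, h3⟩ := s4_injGE_of hk hJ hG (hC.nabRm_eq_zero hG.lc) hC
    (by rw [hvol]; field_simp; ring) F
  have hκ : 0 < √(lam / 3) := Real.sqrt_pos.2 hk
  obtain ⟨Z, hZ1, hZ2, hZ3⟩ := S4I.sphere_iso hκ F (S4I.sphJ_of_gram hE hk h1) hE (by norm_num)
    h2 h3
  refine ⟨Z, hZ1, fun x y => ?_, hZ3⟩
  rw [← hZ2 x y, ← mul_assoc, ← Real.sqrt_mul (by positivity),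
    show 3 / lam * (lam / 3) = 1 by field_simp, Real.sqrt_one, one_mul]

end

end Vale.Agent.P211.HK
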