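import Vale.Agent.P211.HK.SecStmt

/-! P211 / HK: FROZEN statements of block KI (section 4 of the blueprint: `E₂` = Killing fields).
architect helper485; KI1, KI2: helper786; KI0, KI3, KI: helper485.

`kap = lam / 3`; `Ric = lam g`, `W₋ = 0`. -/

set_option maxSynthPendingDepth 3
set_option linter.unusedSectionVars false

namespace Vale.Agent.P211.HK

open scoped Manifold ContDiff Topology RealInnerProductSpace
open Bundle Filter VectorField MeasureTheory

noncomputable section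

/-- three-dimensional Euclidean space -/
abbrev Eu3 : Type := EuclideanSpace ℝ (Fin 3)

/-- the matrices `M₀ = e₀₁ - e₂₃`, `M₁ = e₀₂ - e₃₁`, `M₂ = e₀₃ - e₁₂` (`e_ij = E_ij - E_ji`), a basis
of the anti-self-dual skew matrices; `M_a M_b = - δ_ab + ε_abc M_c`. -/
def Mm (a : Fin 3) : Mat4 :=
  ![![![0, 1, 0, 0], ![-1, 0, 0, 0], ![0, 0, 0, -1], ![0, 0, 1, 0]],
    ![![0, 0, 1, 0], ![0, 0, 0, 1], ![-1, 0, 0, 0], ![0, -1, 0, 0]],
    ![![0, 0, 0, 1], ![0, 0, -1, 0], ![0, 1, 0, 0], ![-1, 0, 0, 0]]] a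

/-- `R` is the representation of `SO(4)` on the anti-self-dual two-forms `∑ w_a M_a`
(`(1/4) tr (M_aᵀ g M_b gᵀ)` is the matrix of `B ↦ g B gᵀ`) -/
def IsLam (R : Rep Eu3) : Prop := ∀ g, IsSO g → ∀ (w : Eu3) (a : Fin 3),
  (R.ρ g w) a = ∑ b, (1 / 4 * ∑ i, ∑ j, ∑ k, ∑ l, Mm a i j * g i k * Mm b k l * g j l) * w b

/-- `R` is the standard representation of `SO(4)` on `ℝ⁴ = Tn ℝ` -/
def IsTan (R : Rep (Tn ℝ)) : Prop := ∀ g, IsSO g → ∀ (z : Tn ℝ) (k : Fin 4),
  (R.ρ g z) k = ∑ l, g k l * z l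

/-- `(Sᵀ η)_l = ∑ (M_a)_kl η_{k a}`, a map `T ⊗ Λ₋ → T` -/
def STm : Tn Eu3 →L[ℝ] Tn ℝ :=
  LinearMap.toContinuousLinearMap
    { toFun := fun η => mkT fun l => ∑ k, ∑ a, Mm a k l * (η k) a
      map_add' := fun η ζ => by
        ext l
        simp only [mkT, PiLp.add_apply, mul_add, Finset.sum_add_distrib]
      map_smul' := fun c η => by
        ext l
        simp only [mkT, PiLp.smul_apply, smul_eq_mul, RingHom.id_apply, Finset.mul_sum]
        refine Finset.sum_congr rfl fun k _ => Finset.sum_congr rfl fun a _ => ?_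
        ring }

variable {E : Type} [NormedAddCommGroup E] [NormedSpace ℝ E] [FiniteDimensional ℝ E]
  {M : Type} [TopologicalSpace M] [ChartedSpace E M] [IsManifold 𝓘(ℝ, E) ∞ M] [T2Space M]
  [RiemannianBundle fun p : M => TangentSpace 𝓘(ℝ, E) p]
  [IsContMDiffRiemannianBundle 𝓘(ℝ, E) ∞ E fun p : M => TangentSpace 𝓘(ℝ, E) p]

variable (cov : CovariantDerivative 𝓘(ℝ, E) E (TangentSpace 𝓘(ℝ, E) : M → Type))
  (om : Form4 E M)

/-- the anti-self-dual part of the curvature of the bundle of anti-self-dual forms is constant: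
`⟨R(f_k, f_l), M_a⟩ = 2 kap (M_a)_kl`; for Einstein metrics this is `W₋ = 0`, `kap = lam / 3` -/
def Asd (kap : ℝ) : Prop := ∀ (p : M) (f : Fin 4 → TangentSpace 𝓘(ℝ, E) p), PON om p f →
  ∀ (a : Fin 3) (k l : Fin 4), ∑ i, ∑ j, Mm a i j * Om cov p f k l i j = 2 * kap * Mm a k l

/-- smooth Killing fields -/
def IsKill (X : VF E M) : Prop := ∀ (p : M) (v w : TangentSpace 𝓘(ℝ, E) p),
  (inner ℝ (cov X p v) w : ℝ) + inner ℝ v (cov X p w) = 0

/-- `∫ div X = 0`, for a measure `μ` -/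
def DivZero [MeasurableSpace M] (μ : Measure M) : Prop :=
  ∀ (X : VF E M) (d : M → ℝ), (∀ p f, PON om p f →
      d p = ∑ i, inner ℝ (cov X p (f i)) (f i)) → ∫ p, d p ∂μ = 0

/-- KI0: the hypothesis in the language of the starting files. -/
def KI0Stmt : Prop := Geo4 cov om → ∀ lam : ℝ, NN.RicciEq cov (fun _ => lam) →
  NN.WPlusZero cov lam (-om) → Asd cov om (lam / 3)

/-- KI1: eigensections to the eigenvalue `2 kap` are twistor forms. `μ` is the volume measure,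
`SC6Stmt` is integration by parts. -/
def KI1Stmt [MeasurableSpace M] [BorelSpace M] [CompactSpace M] (μ : Measure M) : Prop :=
  Geo4 cov om → IsFiniteMeasure μ → (∀ U : Set M, IsOpen U → U.Nonempty → 0 < μ U) →
  DivZero cov om μ → ∀ kap : ℝ, 0 < kap → Asd cov om kap →
  ∀ (R : Rep Eu3) (RT : Rep (Tn ℝ)), IsLam R → IsTan RT →
  ∀ u ∈ Sec (E := E) (M := M) om R, lapS cov om u = (2 * kap) • u →
    mapS STm (nabS cov om u) ∈ Sec om RT ∧
    ∀ p f, PON om p f → ∀ (k : Fin 4) (a : Fin 3),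
      (nabS cov om u p f k) a = 1 / 3 * ∑ l, Mm a k l * (STm (nabS cov om u p f)) l

/-- KI2: twistor forms give Killing fields, pointwise form. -/
def KI2Stmt : Prop :=
  Geo4 cov om → ∀ kap : ℝ, 0 < kap → Asd cov om kap →
  ∀ (R : Rep Eu3) (RT : Rep (Tn ℝ)), IsLam R → IsTan RT →
  ∀ u ∈ Sec (E := E) (M := M) om R, ∀ z ∈ Sec (E := E) (M := M) om RT,
    (∀ p f, PON om p f → ∀ (k : Fin 4) (a : Fin 3),
      (nabS cov om u p f k) a = 1 / 3 * ∑ l, Mm a k l * (z p f) l) →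
    (∀ p f, PON om p f → ∀ k l : Fin 4,
      (nabS cov om z p f k) l = - (nabS cov om z p f l) k) ∧
    ((∀ p f, z p f = 0) → ∀ p f, u p f = 0)

/-- KI3: sections for the standard representation are smooth vector fields. -/
def KI3Stmt : Prop := Geo4 cov om → ∀ RT : Rep (Tn ℝ), IsTan RT →
  (∀ z ∈ Sec (E := E) (M := M) om RT, ∃ X : VF E M,
    (∀ p f, PON om p f → ∀ l, inner ℝ (f l) (X p) = (z p f) l) ∧
    (∀ p f, PON om p f → X p = ∑ l, (z p f) l • f l) ∧
    ∀ p f, PON om p f → ∀ k l, (nabS cov om z p f k) l = inner ℝ (f l) (cov X p (f k))) ∧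
  (∀ X : VF E M, ∃ z ∈ Sec (E := E) (M := M) om RT,
    ∀ p f, PON om p f → ∀ l, (z p f) l = inner ℝ (f l) (X p))

/-- KI: linearly independent eigensections give linearly independent Killing fields. -/
def KIStmt [MeasurableSpace M] [BorelSpace M] [CompactSpace M] (μ : Measure M) : Prop :=
  Geo4 cov om → IsFiniteMeasure μ → (∀ U : Set M, IsOpen U → U.Nonempty → 0 < μ U) →
  DivZero cov om μ → ∀ kap : ℝ, 0 < kap → Asd cov om kap →
  ∀ (R : Rep Eu3), IsLam R → ∀ (n : ℕ) (u : Fin n → PreS E M Eu3), (∀ i, u i ∈ Sec om R) →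
    (∀ i, lapS cov om (u i) = (2 * kap) • u i) → LinearIndependent ℝ u →
    ∃ X : Fin n → VF E M, LinearIndependent ℝ X ∧ ∀ i, IsKill cov (X i)

end

end Vale.Agent.P211.HK
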