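import Vale.Agent.P211.HK.SecStmt

/-! P211 / HK: block SC0, frames (helper627). -/

set_option maxSynthPendingDepth 3
set_option linter.unusedSectionVars false

namespace Vale.Agent.P211.HK

open scoped Manifold ContDiff Topology RealInnerProductSpace
open Bundle Filter VectorField MeasureTheory

noncomputable section

/-! ### linear algebra -/

section LA

variable {T : Type*} [NormedAddCommGroup T] [InnerProductSpace ℝ T]

theorem exists_onb (hT : Module.finrank ℝ T = 4) {f : Fin 4 → T} (hf : Orthonormal ℝ f) :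
    ∃ b : OrthonormalBasis (Fin 4) ℝ T, (b : Fin 4 → T) = f := by
  have hc : Fintype.card (Fin 4) = Module.finrank ℝ T := by rw [hT]; simp
  have ev : (basisOfOrthonormalOfCardEqFinrank hf hc : Fin 4 → T) = f :=
    coe_basisOfOrthonormalOfCardEqFinrank hf hc
  have hv' : Orthonormal ℝ (basisOfOrthonormalOfCardEqFinrank hf hc) := by rw [ev]; exact hf
  exact ⟨(basisOfOrthonormalOfCardEqFinrank hf hc).toOrthonormalBasis hv', by
    rw [Module.Basis.coe_toOrthonormalBasis, ev]⟩

/-- an alternating form on the frame `f g` -/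
theorem alt_fact (hT : Module.finrank ℝ T = 4) {f : Fin 4 → T} (hf : Orthonormal ℝ f)
    (η : T [⋀^Fin 4]→ₗ[ℝ] ℝ) (g : Mat4) :
    η (fun j => ∑ i, g i j • f i) = (Matrix.of g).det * η f := by
  obtain ⟨b, rfl⟩ := exists_onb hT hf
  have h1 := AlternatingMap.eq_smul_basis_det b.toBasis η
  have h2 : b.toBasis.toMatrix (fun j => ∑ i, g i j • b i) = Matrix.of g := by
    ext i j
    rw [Module.Basis.toMatrix_apply]
    simp only [← OrthonormalBasis.coe_toBasis, map_sum, map_smul, Module.Basis.repr_self,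
      Finsupp.coe_finsetSum, Finset.sum_apply, Finsupp.coe_smul, Pi.smul_apply, smul_eq_mul,
      Matrix.of_apply]
    rw [Finset.sum_eq_single i]
    · simp
    · intro k _ hk
      simp [hk]
    · simp
  rw [h1]
  simp only [AlternatingMap.smul_apply, smul_eq_mul]
  rw [Module.Basis.det_apply, h2]
  have h3 : b.toBasis.det (b : Fin 4 → T) = 1 := by
    rw [← OrthonormalBasis.coe_toBasis, Module.Basis.det_self]
  rw [h3, OrthonormalBasis.coe_toBasis]
  ring

theorem alt_ne_zero (hT : Module.finrank ℝ T = 4) {f : Fin 4 → T} (hf : Orthonormal ℝ f)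
    {η : T [⋀^Fin 4]→ₗ[ℝ] ℝ} (hη : η ≠ 0) : η f ≠ 0 := by
  obtain ⟨b, rfl⟩ := exists_onb hT hf
  intro h0
  apply hη
  have h1 := AlternatingMap.eq_smul_basis_det b.toBasis η
  rw [h1, OrthonormalBasis.coe_toBasis, h0, zero_smul]

theorem orthonormal_fact {f : Fin 4 → T} (hf : Orthonormal ℝ f) {g : Mat4}
    (hg : mulM (trM g) g = idM) : Orthonormal ℝ fun j => ∑ i, g i j • f i := by
  rw [orthonormal_iff_ite]
  intro j l
  rw [orthonormal_iff_ite] at hf
  have h1 : (inner ℝ (∑ i, g i j • f i) (∑ i, g i l • f i) : ℝ) = mulM (trM g) g j l := by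
    simp only [sum_inner, inner_sum, real_inner_smul_left, real_inner_smul_right, hf, mulM, trM]
    refine Finset.sum_congr rfl fun i _ => ?_
    simp [mul_comm]
  rw [h1, hg]
  rfl

theorem exists_fact (hT : Module.finrank ℝ T = 4) {f f' : Fin 4 → T} (hf : Orthonormal ℝ f)
    (hf' : Orthonormal ℝ f') {η : T [⋀^Fin 4]→ₗ[ℝ] ℝ} (h : 0 < η f) (h' : 0 < η f') :
    IsSO (fun i j => (inner ℝ (f i) (f' j) : ℝ)) ∧
      f' = fun j => ∑ i, (inner ℝ (f i) (f' j) : ℝ) • f i := by
  have e : f' = fun j => ∑ i, (inner ℝ (f i) (f' j) : ℝ) • f i := by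
    obtain ⟨b, rfl⟩ := exists_onb hT hf
    funext j
    exact (b.sum_repr' (f' j)).symm
  refine ⟨?_, e⟩
  have h1 : mulM (trM fun i j => (inner ℝ (f i) (f' j) : ℝ))
      (fun i j => (inner ℝ (f i) (f' j) : ℝ)) = idM := by
    obtain ⟨b, rfl⟩ := exists_onb hT hf
    funext j l
    simp only [mulM, trM]
    have h2 := b.sum_inner_mul_inner (f' j) (f' l)
    have h3 := (orthonormal_iff_ite.1 hf') j l
    rw [← h2] at h3
    rw [show idM j l = if j = l then (1 : ℝ) else 0 from rfl, ← h3]
    refine Finset.sum_congr rfl fun i _ => ?_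
    rw [real_inner_comm]
  refine ⟨h1, ?_⟩
  have h2 := alt_fact hT hf η (fun i j => (inner ℝ (f i) (f' j) : ℝ))
  rw [← e] at h2
  have h3 : 0 < (Matrix.of fun i j => (inner ℝ (f i) (f' j) : ℝ)).det := by
    by_contra hc
    have := mul_nonpos_of_nonpos_of_nonneg (not_lt.1 hc) h.le
    rw [← h2] at this
    exact absurd h' (not_lt.2 this)
  have h4 : (Matrix.of fun i j => (inner ℝ (f i) (f' j) : ℝ)).transpose *
      (Matrix.of fun i j => (inner ℝ (f i) (f' j) : ℝ)) = 1 := by
    ext j l
    have := congrFun (congrFun h1 j) l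
    simp only [mulM, trM, idM] at this
    rw [Matrix.mul_apply]
    simp only [Matrix.transpose_apply, Matrix.of_apply]
    rw [this, Matrix.one_apply]
  have h5 := congrArg Matrix.det h4
  rw [Matrix.det_mul, Matrix.det_transpose, Matrix.det_one] at h5
  nlinarith

end LA

variable {E : Type} [NormedAddCommGroup E] [NormedSpace ℝ E] [FiniteDimensional ℝ E]
  {M : Type} [TopologicalSpace M] [ChartedSpace E M] [IsManifold 𝓘(ℝ, E) ∞ M] [T2Space M]
  [RiemannianBundle fun p : M => TangentSpace 𝓘(ℝ, E) p]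
  [IsContMDiffRiemannianBundle 𝓘(ℝ, E) ∞ E fun p : M => TangentSpace 𝓘(ℝ, E) p]
  {cov : CovariantDerivative 𝓘(ℝ, E) E (TangentSpace 𝓘(ℝ, E) : M → Type)}
  {om : Form4 E M}

theorem sc0_sync (h : Geo4 cov om) (p : M) (f : Fin 4 → TangentSpace 𝓘(ℝ, E) p)
    (hf : PON om p f) : ∃ F, SyncExt cov om p f F := by
  choose F₀ hF₀ using fun i => exists_ext (E := E) p (f i)
  have hF0 : ∀ i j, gVF (F₀ i) (F₀ j) p = if i = j then 1 else 0 := by
    intro i j
    rw [gVF_apply, hF₀ i, hF₀ j]
    exact orthonormal_iff_ite.1 hf.1 i j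
  obtain ⟨F, h1, h2, h3⟩ := syncVF h.lc h.dim p F₀ hF0
  have h4 : ∀ i, F i p = f i := fun i => by rw [h2 i, hF₀ i]
  refine ⟨F, ?_, h4, ?_⟩
  · have hc : ContinuousAt (fun q => om q fun i => F i q) p :=
      (h.ori.1 F).continuous.continuousAt
    have hpos : 0 < om p fun i => F i p := by
      have : (fun i => F i p) = f := funext h4
      rw [this]; exact hf.2
    filter_upwards [h1, hc.eventually (lt_mem_nhds hpos)] with q hq hq2
    exact ⟨orthonormal_iff_ite.2 fun i j => hq i j, hq2⟩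
  · intro i v
    obtain ⟨X, hX⟩ := exists_ext (E := E) p v
    have := h3 X i
    rw [nabVF_apply, hX] at this
    exact this

theorem exists_pon (h : Geo4 cov om) (p : M) : ∃ f, PON om p f := by
  have hT : Module.finrank ℝ (TangentSpace 𝓘(ℝ, E) p) = 4 := h.dim
  have : FiniteDimensional ℝ (TangentSpace 𝓘(ℝ, E) p) :=
    inferInstanceAs (FiniteDimensional ℝ E)
  let b : OrthonormalBasis (Fin 4) ℝ (TangentSpace 𝓘(ℝ, E) p) :=
    (stdOrthonormalBasis ℝ (TangentSpace 𝓘(ℝ, E) p)).reindex (finCongr hT)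
  have hb : om p b ≠ 0 := alt_ne_zero hT b.orthonormal (h.ori.2 p)
  rcases lt_or_gt_of_ne hb with hlt | hgt
  · have e := alt_fact hT b.orthonormal (om p) (fun i j => if i = j then (if i = 0 then -1 else 1)
      else 0)
    have hdet : (Matrix.of fun i j : Fin 4 => if i = j then (if i = 0 then (-1 : ℝ) else 1)
        else 0).det = -1 := by
      have : (Matrix.of fun i j : Fin 4 => if i = j then (if i = 0 then (-1 : ℝ) else 1)
          else 0) = Matrix.diagonal fun i => if i = 0 then (-1 : ℝ) else 1 := by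
        ext i j
        simp [Matrix.diagonal_apply]
      rw [this, Matrix.det_diagonal]
      simp
    refine ⟨_, orthonormal_fact b.orthonormal (g := fun i j => if i = j then
      (if i = 0 then -1 else 1) else 0) ?_, ?_⟩
    · funext i j
      simp only [mulM, trM, idM]
      fin_cases i <;> fin_cases j <;> simp
    · rw [e, hdet]
      linarith
  · exact ⟨b, b.orthonormal, hgt⟩

theorem sc0 : SC0Stmt cov om := by
  intro h
  have hT : ∀ p : M, Module.finrank ℝ (TangentSpace 𝓘(ℝ, E) p) = 4 := fun _ => h.dim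
  refine ⟨fun p f hf => sc0_sync h p f hf, fun p => exists_pon h p, ?_, ?_, ?_⟩
  · intro p f g hf hg
    refine ⟨orthonormal_fact hf.1 hg.1, ?_⟩
    have := alt_fact (hT p) hf.1 (om p) g
    change 0 < om p (fun j => ∑ i, g i j • f i)
    rw [this, hg.2, one_mul]
    exact hf.2
  · intro p f f' hf hf'
    obtain ⟨h1, h2⟩ := exists_fact (hT p) hf.1 hf'.1 hf.2 hf'.2
    exact ⟨_, h1, h2⟩
  · intro p F F' _ _
    rw [contMDiffAt_pi_space]
    intro i
    rw [contMDiffAt_pi_space]
    intro j
    exact (gVF (F i) (F' j)).contMDiff.contMDiffAt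

end

end Vale.Agent.P211.HK
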