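import Vale.Agent.P211.Bdl.S5
import Vale.Agent.P211.HK.SC0
import Vale.Agent.P211.HK.KIDefs

/-! P211 / HK: the Riemannian volume `riemVol 4 M` satisfies the hypotheses of SC6 and KI
(helper153): finite, positive on open sets, divergence theorem in the language of frames. -/

set_option maxSynthPendingDepth 3
set_option linter.unusedSectionVars false

namespace Vale.Agent.P211.HK

open scoped Manifold ContDiff Topology
open Bundle Filter VectorField MeasureTheory Set
open Vale.Agent.P231 Vale.Agent.P234 Vale.Agent.P211.S4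

noncomputable section

variable {E : Type} [NormedAddCommGroup E] [NormedSpace ℝ E] [FiniteDimensional ℝ E]
  {M : Type} [MetricSpace M] [ChartedSpace E M] [IsManifold 𝓘(ℝ, E) ∞ M]
  [RiemannianBundle fun p : M => TangentSpace 𝓘(ℝ, E) p]
  [IsContMDiffRiemannianBundle 𝓘(ℝ, E) ∞ E fun p : M => TangentSpace 𝓘(ℝ, E) p]
  [IsRiemannianManifold 𝓘(ℝ, E) M] [CompactSpace M] [ConnectedSpace M]
  [MeasurableSpace M] [BorelSpace M]
  {cov : CovariantDerivative 𝓘(ℝ, E) E (TangentSpace 𝓘(ℝ, E) : M → Type)}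
  {om : Form4 E M}

theorem exists_facts (E : Type) [NormedAddCommGroup E] [NormedSpace ℝ E] [FiniteDimensional ℝ E]
    (M : Type) [MetricSpace M] [ChartedSpace E M] [IsManifold 𝓘(ℝ, E) ∞ M]
    [RiemannianBundle fun p : M => TangentSpace 𝓘(ℝ, E) p]
    [IsContMDiffRiemannianBundle 𝓘(ℝ, E) ∞ E fun p : M => TangentSpace 𝓘(ℝ, E) p]
    [IsRiemannianManifold 𝓘(ℝ, E) M] [CompactSpace M] [ConnectedSpace M] :
    ∃ e : ∀ x : M, TangentSpace 𝓘(ℝ, E) x → M, Facts e := by
  obtain ⟨e, he⟩ := exists_isExp (E := E) (M := M)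
  exact ⟨e, facts_of_isExp he⟩

theorem finite_riemVol (hE : Module.finrank ℝ E = 4) : IsFiniteMeasure (riemVol 4 M) := by
  obtain ⟨e, F⟩ := exists_facts E M
  exact V11_finite F hE

theorem riemVol_open_pos (hE : Module.finrank ℝ E = 4) (U : Set M) (hU : IsOpen U)
    (hne : U.Nonempty) : 0 < riemVol 4 M U := by
  obtain ⟨e, F⟩ := exists_facts E M
  obtain ⟨p, hp⟩ := hne
  obtain ⟨r0, hr0, hb⟩ := Metric.isOpen_iff.1 hU p hp
  have h := vol_ball F hE p
  have hpi : (0 : ℝ) < Real.pi ^ 2 / 2 := by positivity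
  have h1 := h.eventually (lt_mem_nhds hpi)
  have h2 : ∀ᶠ r in 𝓝[>] (0 : ℝ), r < r0 :=
    mem_nhdsWithin_of_mem_nhds (Iio_mem_nhds hr0)
  have h3 : ∀ᶠ r in 𝓝[>] (0 : ℝ), 0 < r := self_mem_nhdsWithin
  obtain ⟨r, hr1, hr2, hr3⟩ := (h1.and (h2.and h3)).exists
  have h4 : 0 < (riemVol 4 M).real (Metric.ball p r) := by
    rcases (measureReal_nonneg : 0 ≤ (riemVol 4 M).real (Metric.ball p r)).lt_or_eq with h | h
    · exact h
    · rw [← h] at hr1
      simp at hr1
  have h5 : 0 < riemVol 4 M (Metric.ball p r) := by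
    rw [Measure.real] at h4
    exact (ENNReal.toReal_pos_iff.1 h4).1
  exact lt_of_lt_of_le h5 (measure_mono ((Metric.ball_subset_ball hr2.le).trans hb))

/-- the divergence of a smooth field, computed in any positive orthonormal frame -/
theorem dv_eq_pon (hG : Geo4 cov om) (X : VF E M) {p : M}
    {f : Fin 4 → TangentSpace 𝓘(ℝ, E) p} (hf : PON om p f) :
    (geo2Of hG.lc hG.dim).ev p ((geo2Of hG.lc hG.dim).dv X) =
      ∑ i, (inner ℝ (cov X p (f i)) (f i) : ℝ) := by
  choose F hF using fun i => exists_ext (E := E) p (f i)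
  rw [(geo2Of hG.lc hG.dim).dv_spec X p F (by
    intro i j
    change (inner ℝ (F i p) (F j p) : ℝ) = _
    rw [hF, hF]
    exact orthonormal_iff_ite.1 hf.1 i j)]
  refine Finset.sum_congr rfl fun i _ => ?_
  change (inner ℝ (cov X p (F i p)) (F i p) : ℝ) = _
  rw [hF]

theorem divZero_riemVol (hG : Geo4 cov om) : DivZero cov om (riemVol 4 M) := by
  intro X d hd
  obtain ⟨e, F⟩ := exists_facts E M
  have h1 : ∀ p, d p = (geo2Of hG.lc hG.dim).ev p ((geo2Of hG.lc hG.dim).dv X) := by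
    intro p
    obtain ⟨f, hf⟩ := exists_pon hG p
    rw [hd p f hf, dv_eq_pon hG X hf]
  simp only [h1]
  exact div_global hG.lc hG.dim F X

end

end Vale.Agent.P211.HK
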