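import Vale.Agent.P211.HK.Fin1
import Vale.Agent.P211.HK.VolGlue
import Vale.Agent.P211.HK.KR6
import Vale.Agent.P211.HK.S4Asm
import Vale.Agent.P211.HK.CP2Fin
import Vale.Agent.P211.HK.JacFin

/-! P211 / HK: the blocks KR, JAC, the round sphere and the complex projective plane plugged into
the assembly (helper153). What is left: `IXStmt` and `S22IsoStmt`. -/

set_option maxSynthPendingDepth 3
set_option linter.unusedSectionVars false

namespace Vale.Agent.P211.HK

open scoped Manifold ContDiff Topology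
open Bundle Filter VectorField Set

noncomputable section

variable {E : Type} [NormedAddCommGroup E] [NormedSpace ℝ E] [FiniteDimensional ℝ E]
  {M : Type} [MetricSpace M] [ChartedSpace E M] [IsManifold 𝓘(ℝ, E) ∞ M]
  [RiemannianBundle fun p : M => TangentSpace 𝓘(ℝ, E) p]
  [IsContMDiffRiemannianBundle 𝓘(ℝ, E) ∞ E fun p : M => TangentSpace 𝓘(ℝ, E) p]
  [IsRiemannianManifold 𝓘(ℝ, E) M] [CompactSpace M] [ConnectedSpace M]
  [MeasurableSpace M] [BorelSpace M]
  {cov : CovariantDerivative 𝓘(ℝ, E) E (TangentSpace 𝓘(ℝ, E) : M → Type)}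

theorem krStmt' (om : Form4 E M) (lam : ℝ) : KRStmt' cov om lam :=
  fun hG hK hlam hR hW hX => kr cov om hG inferInstance inferInstance hK lam hlam hR hW hX

theorem s4Iso (om : Form4 E M) (lam : ℝ) : S4IsoStmt cov om lam :=
  s4Iso_of (jac_stmt cov om _) (exists_facts E M)

theorem cp2Iso (om : Form4 E M) (lam : ℝ) : CP2IsoStmt cov om lam :=
  cp2Iso_of (jac_stmt cov om _) (exists_facts E M)

/-- the final theorem from `IXStmt` and `S22IsoStmt` -/
theorem finConcl_of2 (hcore : Vale.Agent.P211.H210.Core) (hE : Module.finrank ℝ E = 4)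
    (hs : cov.ContMDiffCovariantDerivative ∞) (ht : cov.torsion = 0)
    (hm : CovariantDerivative.IsMetricCompatible (V := (TangentSpace 𝓘(ℝ, E) : M → Type)) cov)
    (hK : NN.SecNonneg cov) {lam : ℝ} (hlam : 0 < lam) (hR : NN.RicciEq cov (fun _ => lam))
    (hIX : ∀ om : Form4 E M, IXStmt cov om lam)
    (hP : ∀ om : Form4 E M, S22IsoStmt cov om lam) : FinConcl cov lam :=
  finConcl_of' hcore hE hs ht hm hK hlam hR hIX (fun om => krStmt' om lam)
    (fun om => s4Iso om lam) (fun om => cp2Iso om lam) hP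

end

end Vale.Agent.P211.HK
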