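import Vale.Agent.P211.HK.S22Defs
import Vale.Agent.P211.Bdl.S3

/-! P211 / HK / SV (helper69): the three functions of a parallel splitting. -/

set_option maxSynthPendingDepth 3
set_option linter.unusedSectionVars false

namespace Vale.Agent.P211.HK.S22

open scoped Manifold ContDiff Topology
open Bundle Filter VectorField Vale.Agent.P211 Vale.Agent.P211.NN

noncomputable section

variable {E : Type} [NormedAddCommGroup E] [NormedSpace ℝ E] [FiniteDimensional ℝ E]
  {M : Type} [TopologicalSpace M] [ChartedSpace E M] [IsManifold 𝓘(ℝ, E) ∞ M] [T2Space M]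
  [RiemannianBundle fun p : M => TangentSpace 𝓘(ℝ, E) p]
  [IsContMDiffRiemannianBundle 𝓘(ℝ, E) ∞ E fun p : M => TangentSpace 𝓘(ℝ, E) p]
  {cov : CovariantDerivative 𝓘(ℝ, E) E (TangentSpace 𝓘(ℝ, E) : M → Type)}

theorem cst_apply (c : ℝ) (p : M) : (cst c : SF E M) p = c := rfl

/-- parallel pair: `P ξ = ξ`, `df = ⟨ξ, .⟩`, `∇_X ξ = - lam f P X` -/
structure PPair (hcov : IsLC cov) (lam : ℝ) (P : VF E M →ₗ[SF E M] VF E M) (f : SF E M)
    (ξ : VF E M) : Prop where
  fix : P ξ = ξ
  grad : ∀ X, DVF X f = gVF ξ X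
  hess : ∀ X, nabVF cov hcov.smooth X ξ = -((cst lam * f) • P X)

/-- existence of parallel pairs with given initial value (flat bundle theorem) -/
def PPairEx (hcov : IsLC cov) (lam : ℝ) (P : VF E M →ₗ[SF E M] VF E M) : Prop :=
  ∀ (p : M) (c : ℝ) (V : VF E M), P V p = V p →
    ∃ (f : SF E M) (ξ : VF E M), PPair hcov lam P f ξ ∧ f p = c ∧ ξ p = V p

/-- a function with zero derivative is constant -/
theorem const_of_DVF [PreconnectedSpace M] (f : SF E M) (h : ∀ X, DVF X f = 0) (p q : M) :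
    f p = f q := by
  have hs := gronwallVF (fun x => (f x - f p) ^ 2) 0 (fun x => sq_nonneg _)
    (fun x => ⟨(f - cst (f p)) * (f - cst (f p)), 0, ?_, rfl, fun X => ?_⟩) p q (by simp)
  · have := pow_eq_zero_iff (n := 2) (by norm_num) |>.1 hs
    linarith
  · refine Eventually.of_forall fun y => ?_
    have : (f y - f p) ^ 2 - ((f - cst (f p)) * (f - cst (f p)) : SF E M) y = 0 := by
      show (f y - f p) ^ 2 - (f y - f p) * (f y - f p) = 0
      ring
    rw [this]
    simp
  · have h1 : DVF X (f - cst (f p)) = 0 := by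
      have e : (f - cst (f p) : SF E M) = f + cst (-f p) := by
        ext y
        show f y - f p = f y + - f p
        ring
      rw [e, DVF_add, h X]
      unfold cst
      rw [DVF_const, add_zero]
    rw [DVF_mul, h1]
    simp

variable {hcov : IsLC cov} {lam : ℝ} {P : VF E M →ₗ[SF E M] VF E M}

theorem PPair.sol (hS : Split hcov lam P) {f : SF E M} {ξ : VF E M} (h : PPair hcov lam P f ξ) :
    Sol hcov lam P f := by
  refine ⟨fun X Y => ?_, fun X => ?_⟩
  · ext p
    have e1 := metricVF hcov X ξ Y p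
    have e2 : DVF (nabVF cov hcov.smooth X Y) f = gVF ξ (nabVF cov hcov.smooth X Y) := h.grad _
    rw [h.grad Y, e2]
    show DVF X (gVF ξ Y) p - gVF ξ (nabVF cov hcov.smooth X Y) p = _
    rw [e1, h.hess X]
    show inner ℝ (-((lam * f p) • (P X p)) : TangentSpace 𝓘(ℝ, E) p) (Y p) +
      inner ℝ (ξ p) (nabVF cov hcov.smooth X Y p) - inner ℝ (ξ p) (nabVF cov hcov.smooth X Y p)
        = -(lam * f p * inner ℝ (P X p) (Y p))
    rw [inner_neg_left, real_inner_smul_left]
    ring
  · rw [h.grad, h.grad, ← hS.symm, h.fix]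

/-- the scalar product of two parallel pairs -/
def pprod (lam : ℝ) (f g : SF E M) (ξ η : VF E M) : SF E M := cst lam * f * g + gVF ξ η

theorem DVF_pprod (hS : Split hcov lam P) {f g : SF E M} {ξ η : VF E M}
    (h : PPair hcov lam P f ξ) (k : PPair hcov lam P g η) (X : VF E M) :
    DVF X (pprod lam f g ξ η) = 0 := by
  ext p
  unfold pprod
  rw [DVF_add, DVF_mul, DVF_mul, h.grad, k.grad]
  have e0 : DVF X (cst lam) = 0 := DVF_const X lam
  have e1 := metricVF hcov X ξ η p
  rw [e0]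
  show (0 * f p + lam * inner ℝ (ξ p) (X p)) * g p + (lam * f p) * inner ℝ (η p) (X p) +
    DVF X (gVF ξ η) p = 0
  rw [e1, h.hess X, k.hess X]
  show (0 * f p + lam * inner ℝ (ξ p) (X p)) * g p + (lam * f p) * inner ℝ (η p) (X p) +
    (inner ℝ (-((lam * f p) • (P X p)) : TangentSpace 𝓘(ℝ, E) p) (η p) +
      inner ℝ (ξ p) (-((lam * g p) • (P X p)) : TangentSpace 𝓘(ℝ, E) p)) = 0
  have e2 : (inner ℝ (P X p) (η p) : ℝ) = inner ℝ (η p) (X p) := by
    have := congrArg (fun F : SF E M => F p) (hS.symm X η)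
    rw [k.fix] at this
    exact this.trans (real_inner_comm (η p) (X p))
  have e3 : (inner ℝ (ξ p) (P X p) : ℝ) = inner ℝ (ξ p) (X p) := by
    have := congrArg (fun F : SF E M => F p) (hS.symm ξ X)
    rw [h.fix] at this
    exact this.symm
  rw [inner_neg_left, inner_neg_right, real_inner_smul_left, real_inner_smul_right, e2, e3]
  ring

theorem pprod_const [PreconnectedSpace M] (hS : Split hcov lam P) {f g : SF E M} {ξ η : VF E M}
    (h : PPair hcov lam P f ξ) (k : PPair hcov lam P g η) (p q : M) :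
    pprod lam f g ξ η p = pprod lam f g ξ η q :=
  const_of_DVF _ (fun X => DVF_pprod hS h k X) p q

/-- Parseval in an orthonormal frame at a point -/
theorem on_sum (hE : Module.finrank ℝ E = 4) {F : Fin 4 → VF E M} {q : M}
    (hF : OrthonormalAt F q) (x y : TangentSpace 𝓘(ℝ, E) q) :
    ∑ j, inner ℝ x (F j q) * inner ℝ (F j q) y = (inner ℝ x y : ℝ) := by
  have hc : Fintype.card (Fin 4) = Module.finrank ℝ (TangentSpace 𝓘(ℝ, E) q) := by
    rw [show Module.finrank ℝ (TangentSpace 𝓘(ℝ, E) q) = 4 from hE]; simp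
  set bv := basisOfOrthonormalOfCardEqFinrank hF hc with hbv
  have ev : (bv : Fin 4 → TangentSpace 𝓘(ℝ, E) q) = fun i => F i q :=
    coe_basisOfOrthonormalOfCardEqFinrank hF hc
  have hv' : Orthonormal ℝ bv := by rw [ev]; exact hF
  set ov := bv.toOrthonormalBasis hv' with hov
  have eov : (ov : Fin 4 → TangentSpace 𝓘(ℝ, E) q) = fun i => F i q := by
    rw [hov, Module.Basis.coe_toOrthonormalBasis, ev]
  have := ov.sum_inner_mul_inner x y
  rw [eov] at this
  exact this

/-- a real 3 x 3 matrix with orthogonal rows of length `sqrt lam` has orthogonal columns -/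
theorem col_of_row {lam : ℝ} (hl : 0 < lam) (A : Fin 3 → Fin 3 → ℝ)
    (h : ∀ i j, ∑ k, A i k * A j k = if i = j then lam else 0) (k l : Fin 3) :
    ∑ i, A i k * A i l = if k = l then lam else 0 := by
  have h1 : (lam⁻¹ • Matrix.of A) * (Matrix.of A).transpose = 1 := by
    ext i j
    rw [Matrix.smul_mul, Matrix.smul_apply, Matrix.mul_apply, Matrix.one_apply]
    simp only [Matrix.of_apply, Matrix.transpose_apply, h i j, smul_eq_mul]
    split_ifs
    · exact inv_mul_cancel₀ hl.ne'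
    · simp
  have h2 := mul_eq_one_comm.1 h1
  have h3 := congrFun (congrFun (congrArg (fun B : Matrix (Fin 3) (Fin 3) ℝ => fun a b => B a b) h2)
    k) l
  simp only [Matrix.mul_apply, Matrix.transpose_apply, Matrix.smul_apply, Matrix.of_apply,
    smul_eq_mul, Matrix.one_apply] at h3
  have h4 : ∑ i, A i k * (lam⁻¹ * A i l) = lam⁻¹ * ∑ i, A i k * A i l := by
    rw [Finset.mul_sum]
    exact Finset.sum_congr rfl fun i _ => by ring
  rw [h4] at h3
  split_ifs at h3 ⊢
  · field_simp at h3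
    linarith
  · have := mul_eq_zero.1 h3
    rcases this with h5 | h5
    · exact absurd h5 (inv_ne_zero hl.ne')
    · exact h5

theorem sv_of (h : ∀ P : VF E M →ₗ[SF E M] VF E M, Split hcov lam P → SimplyConnectedSpace M →
    PPairEx hcov lam P) : SVStmt hcov lam := by
  intro hE hsc hl P hS
  have hex := h P hS hsc
  obtain ⟨p⟩ : Nonempty M := inferInstance
  obtain ⟨F, hF, hF0, hF1, hF2, hF3⟩ := hS.rank p
  let cs : SF E M := cst (Real.sqrt lam)
  let V : Fin 3 → VF E M := ![0, cs • F 0, cs • F 1]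
  have hinit : ∀ i : Fin 3, ∃ (f : SF E M) (ξ : VF E M), PPair hcov lam P f ξ ∧
      f p = (![1, 0, 0] : Fin 3 → ℝ) i ∧ ξ p = V i p := by
    intro i
    refine hex p _ (V i) ?_
    fin_cases i
    · show P 0 p = (0 : VF E M) p
      rw [map_zero]
    · show P (cs • F 0) p = (cs • F 0 : VF E M) p
      rw [map_smul, smulVF_apply, smulVF_apply, hF0]
    · show P (cs • F 1) p = (cs • F 1 : VF E M) p
      rw [map_smul, smulVF_apply, smulVF_apply, hF1]
  choose z ξ hz hz1 hz2 using hinit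
  have hs : Real.sqrt lam * Real.sqrt lam = lam := Real.mul_self_sqrt hl.le
  have h00 : (inner ℝ (F 0 p) (F 0 p) : ℝ) = 1 := by
    simpa using (orthonormal_iff_ite.1 hF) 0 0
  have h01 : (inner ℝ (F 0 p) (F 1 p) : ℝ) = 0 := by
    simpa using (orthonormal_iff_ite.1 hF) 0 1
  have h10 : (inner ℝ (F 1 p) (F 0 p) : ℝ) = 0 := by
    simpa using (orthonormal_iff_ite.1 hF) 1 0
  have h11 : (inner ℝ (F 1 p) (F 1 p) : ℝ) = 1 := by
    simpa using (orthonormal_iff_ite.1 hF) 1 1
  have hgram0 : ∀ i j : Fin 3, lam * z i p * z j p + inner ℝ (ξ i p) (ξ j p) =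
      if i = j then lam else 0 := by
    intro i j
    rw [hz1 i, hz1 j, hz2 i, hz2 j]
    have v0 : V 0 p = (0 : TangentSpace 𝓘(ℝ, E) p) := rfl
    have v1 : V 1 p = Real.sqrt lam • F 0 p := rfl
    have v2 : V 2 p = Real.sqrt lam • F 1 p := rfl
    have n1 : ‖Real.sqrt lam • F 0 p‖ ^ 2 = lam := by
      rw [← real_inner_self_eq_norm_sq, real_inner_smul_left, real_inner_smul_right, h00, mul_one, hs]
    have n2 : ‖Real.sqrt lam • F 1 p‖ ^ 2 = lam := by
      rw [← real_inner_self_eq_norm_sq, real_inner_smul_left, real_inner_smul_right, h11, mul_one, hs]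
    fin_cases i <;> fin_cases j <;>
      simp [v0, v1, v2, inner_smul_left, inner_smul_right, h01, h10, n1, n2]
  have hgram : ∀ q i j, lam * z i q * z j q + inner ℝ (ξ i q) (ξ j q) =
      if i = j then lam else 0 := by
    intro q i j
    rw [← hgram0 i j]
    exact pprod_const hS (hz i) (hz j) q p
  have hmain : ∀ q (X Y : VF E M), (∑ i, z i q * z i q = 1) ∧
      ∑ i, (inner ℝ (ξ i q) (X q) : ℝ) * inner ℝ (ξ i q) (Y q) =
        lam * inner ℝ (P X q) (Y q) := by
    intro q X Y
    obtain ⟨G, hG, hG0, hG1, hG2, hG3⟩ := hS.rank q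
    have sym : ∀ A B : VF E M, (inner ℝ (P A q) (B q) : ℝ) = inner ℝ (A q) (P B q) := fun A B =>
      congrArg (fun F : SF E M => F q) (hS.symm A B)
    have x2 : ∀ i, (inner ℝ (ξ i q) (G 2 q) : ℝ) = 0 := by
      intro i
      have := sym (ξ i) (G 2)
      rwa [(hz i).fix, hG2, inner_zero_right] at this
    have x3 : ∀ i, (inner ℝ (ξ i q) (G 3 q) : ℝ) = 0 := by
      intro i
      have := sym (ξ i) (G 3)
      rwa [(hz i).fix, hG3, inner_zero_right] at this
    have hexp : ∀ i (A : VF E M), (inner ℝ (ξ i q) (A q) : ℝ) =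
        inner ℝ (ξ i q) (G 0 q) * inner ℝ (G 0 q) (A q) +
          inner ℝ (ξ i q) (G 1 q) * inner ℝ (G 1 q) (A q) := by
      intro i A
      rw [← on_sum hE hG (ξ i q) (A q), Fin.sum_univ_four, x2, x3]
      ring
    have hP : (inner ℝ (P X q) (Y q) : ℝ) = inner ℝ (G 0 q) (X q) * inner ℝ (G 0 q) (Y q) +
        inner ℝ (G 1 q) (X q) * inner ℝ (G 1 q) (Y q) := by
      rw [← on_sum hE hG (P X q) (Y q), Fin.sum_univ_four, sym X (G 0), sym X (G 1), sym X (G 2),
        sym X (G 3), hG0, hG1, hG2, hG3, inner_zero_right, real_inner_comm (G 0 q) (X q),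
        real_inner_comm (G 1 q) (X q)]
      ring
    let A : Fin 3 → Fin 3 → ℝ := fun i => ![Real.sqrt lam * z i q, inner ℝ (ξ i q) (G 0 q),
      inner ℝ (ξ i q) (G 1 q)]
    have hA : ∀ i j, ∑ k, A i k * A j k = if i = j then lam else 0 := by
      intro i j
      rw [← hgram q i j, Fin.sum_univ_three]
      have e := hexp i (ξ j)
      rw [real_inner_comm (ξ j q) (G 0 q), real_inner_comm (ξ j q) (G 1 q)] at e
      show Real.sqrt lam * z i q * (Real.sqrt lam * z j q) +
        inner ℝ (ξ i q) (G 0 q) * inner ℝ (ξ j q) (G 0 q) +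
          inner ℝ (ξ i q) (G 1 q) * inner ℝ (ξ j q) (G 1 q) = _
      rw [e]
      linear_combination (z i q * z j q) * hs
    have hc := col_of_row hl A hA
    have c00 : ∑ i, (Real.sqrt lam * z i q) * (Real.sqrt lam * z i q) = lam := by
      have := hc 0 0; rw [if_pos rfl] at this; exact this
    have c11 : ∑ i, (inner ℝ (ξ i q) (G 0 q) : ℝ) * inner ℝ (ξ i q) (G 0 q) = lam := by
      have := hc 1 1; rw [if_pos rfl] at this; exact this
    have c12 : ∑ i, (inner ℝ (ξ i q) (G 0 q) : ℝ) * inner ℝ (ξ i q) (G 1 q) = 0 := by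
      have := hc 1 2; rw [if_neg (by decide)] at this; exact this
    have c22 : ∑ i, (inner ℝ (ξ i q) (G 1 q) : ℝ) * inner ℝ (ξ i q) (G 1 q) = lam := by
      have := hc 2 2; rw [if_pos rfl] at this; exact this
    constructor
    · have e1 : ∑ i, (Real.sqrt lam * z i q) * (Real.sqrt lam * z i q) =
          lam * ∑ i, z i q * z i q := by
        rw [Finset.mul_sum]
        exact Finset.sum_congr rfl fun i _ => by linear_combination (z i q * z i q) * hs
      rw [e1] at c00
      have : lam * (∑ i, z i q * z i q - 1) = 0 := by linarith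
      rcases mul_eq_zero.1 this with h5 | h5
      · exact absurd h5 hl.ne'
      · linarith
    · have e2 : ∑ i, (inner ℝ (ξ i q) (X q) : ℝ) * inner ℝ (ξ i q) (Y q) =
          (∑ i, (inner ℝ (ξ i q) (G 0 q) : ℝ) * inner ℝ (ξ i q) (G 0 q)) *
              (inner ℝ (G 0 q) (X q) * inner ℝ (G 0 q) (Y q)) +
            (∑ i, (inner ℝ (ξ i q) (G 0 q) : ℝ) * inner ℝ (ξ i q) (G 1 q)) *
              (inner ℝ (G 0 q) (X q) * inner ℝ (G 1 q) (Y q) +
                inner ℝ (G 1 q) (X q) * inner ℝ (G 0 q) (Y q)) +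
            (∑ i, (inner ℝ (ξ i q) (G 1 q) : ℝ) * inner ℝ (ξ i q) (G 1 q)) *
              (inner ℝ (G 1 q) (X q) * inner ℝ (G 1 q) (Y q)) := by
        rw [Finset.sum_mul, Finset.sum_mul, Finset.sum_mul, ← Finset.sum_add_distrib,
          ← Finset.sum_add_distrib]
        refine Finset.sum_congr rfl fun i _ => ?_
        rw [hexp i X, hexp i Y]
        ring
      rw [e2, c11, c12, c22, hP]
      ring
  have sum_app : ∀ (f : Fin 3 → SF E M) (q : M), (∑ i, f i) q = ∑ i, f i q := fun f q =>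
    (SF.sum_apply Finset.univ f q)
  refine ⟨z, fun i => (hz i).sol hS, ?_, fun X Y => ?_⟩
  · ext q
    rw [sum_app]
    exact (hmain q 0 0).1
  · ext q
    rw [sum_app]
    refine Eq.trans ?_ (hmain q X Y).2
    refine Finset.sum_congr rfl fun i _ => ?_
    rw [(hz i).grad, (hz i).grad]
    rfl

theorem gVF_sub_left (X Y Z : VF E M) : gVF (X - Y) Z = gVF X Z - gVF Y Z := by
  ext q
  exact inner_sub_left (X q) (Y q) (Z q)

theorem VF_ext_gVF {X Y : VF E M} (h : ∀ Z, gVF X Z = gVF Y Z) : X = Y := by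
  have h1 : ∀ q, (X - Y) q = 0 := by
    intro q
    refine gVF_self_eq_zero.1 ?_
    rw [gVF_sub_left, h (X - Y), sub_self]
    rfl
  ext q
  have := h1 q
  change X q - Y q = 0 at this
  exact sub_eq_zero.1 this

/-- the gradient of a solution gives a parallel pair -/
theorem ppair_of_sol (hE : Module.finrank ℝ E = 4) (hS : Split hcov lam P) {z : SF E M}
    (h : Sol hcov lam P z) : ∃ ξ : VF E M, PPair hcov lam P z ξ := by
  obtain ⟨ξ, hξ⟩ := S4.exists_grad hE z
  have hfix : P ξ = ξ := VF_ext_gVF fun Z => by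
    rw [hS.symm, hξ, hξ]
    exact h.2 Z
  refine ⟨ξ, hfix, fun X => (hξ X).symm, fun X => VF_ext_gVF fun Y => ?_⟩
  ext q
  have e1 := metricVF hcov X ξ Y q
  have e2 := congrArg (fun F : SF E M => F q) (h.1 X Y)
  rw [← hξ Y, ← hξ (nabVF cov hcov.smooth X Y)] at e2
  change DVF X (gVF ξ Y) q - gVF ξ (nabVF cov hcov.smooth X Y) q =
    -(lam * z q * inner ℝ (P X q) (Y q)) at e2
  rw [e1] at e2
  show gVF (nabVF cov hcov.smooth X ξ) Y q =
    inner ℝ (-((lam * z q) • (P X q)) : TangentSpace 𝓘(ℝ, E) q) (Y q)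
  rw [inner_neg_left, real_inner_smul_left]
  linarith

theorem ppairEx_of (hE : Module.finrank ℝ E = 4) (hsc : SimplyConnectedSpace M)
    (h : FB2Stmt hcov lam) (hS : Split hcov lam P) : PPairEx hcov lam P := by
  intro p c V hV
  obtain ⟨z, hz, hz1, hz2⟩ := h hE hsc P hS p c V hV
  obtain ⟨ξ, hξ⟩ := ppair_of_sol hE hS hz
  refine ⟨z, ξ, hξ, hz1, ?_⟩
  have h1 : gVF (ξ - V) (ξ - V) p = 0 := by
    have e := hz2 (ξ - V)
    rw [hξ.grad] at e
    rw [gVF_sub_left]
    show gVF ξ (ξ - V) p - gVF V (ξ - V) p = 0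
    rw [e, sub_self]
  have h2 := gVF_self_eq_zero.1 h1
  change ξ p - V p = 0 at h2
  exact sub_eq_zero.1 h2

/-- SV from FB2 -/
theorem sv (h : FB2Stmt hcov lam) : SVStmt hcov lam := by
  intro hE hsc hl P hS
  exact sv_of (fun Q hQ hsc' => ppairEx_of hE hsc' h hQ) hE hsc hl P hS

end

end Vale.Agent.P211.HK.S22
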