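import Vale.Agent.P211.HK.FlatLoc
import Vale.Agent.P211.HK.SV

/-! P211 / HK (helper858), block FB2: global solutions of the flat bundle of a splitting. -/

set_option maxSynthPendingDepth 3
set_option linter.unusedSectionVars false

namespace Vale.Agent.P211.HK.S22.FS

open scoped Manifold ContDiff Topology
open Bundle Filter VectorField Vale.Agent.P211 Vale.Agent.P211.NN

noncomputable section

variable {E : Type} [NormedAddCommGroup E] [NormedSpace ℝ E] [FiniteDimensional ℝ E]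
  {M : Type} [TopologicalSpace M] [ChartedSpace E M] [IsManifold 𝓘(ℝ, E) ∞ M] [T2Space M]
  [RiemannianBundle fun p : M => TangentSpace 𝓘(ℝ, E) p]
  [IsContMDiffRiemannianBundle 𝓘(ℝ, E) ∞ E fun p : M => TangentSpace 𝓘(ℝ, E) p]
  {cov : CovariantDerivative 𝓘(ℝ, E) E (TangentSpace 𝓘(ℝ, E) : M → Type)}

/-- `D s = 0` at `q` -/
def EqT (hcov : IsLC cov) (lam : ℝ) (P : VF E M →ₗ[SF E M] VF E M) (s : Tri E M) (q : M) : Prop :=
  ∀ X : VF E M, evT q (DT hcov lam P X s) = 0

/-- germs of parallel triples -/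
def Par (hcov : IsLC cov) (lam : ℝ) (P : VF E M →ₗ[SF E M] VF E M) (q : M)
    (σ : (y : M) → Fib E y) : Prop :=
  ∃ s : Tri E M, (∀ᶠ y in 𝓝 q, σ y = evT y s) ∧ ∀ᶠ y in 𝓝 q, EqT hcov lam P s y

variable {hcov : IsLC cov} {lam : ℝ} {P : VF E M →ₗ[SF E M] VF E M}

theorem EqT.sub {s s' : Tri E M} {q : M} (h : EqT hcov lam P s q) (h' : EqT hcov lam P s' q) :
    EqT hcov lam P (s - s') q := by
  intro X
  have : DT hcov lam P X (s - s') = DT hcov lam P X s - DT hcov lam P X s' :=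
    DS_sub (lcOf hcov) P (cst lam) X s s'
  rw [this, evT_sub, h X, h' X, sub_zero]

/-- the parallel quadratic form -/
def qT (lam : ℝ) (s : Tri E M) : SF E M :=
  s.1 * s.1 + s.2.1 * s.2.1 + cst lam⁻¹ * gVF s.2.2 s.2.2

theorem qT_apply (lam : ℝ) (s : Tri E M) (q : M) :
    qT lam s q = s.1 q * s.1 q + s.2.1 q * s.2.1 q + lam⁻¹ * gVF s.2.2 s.2.2 q := rfl

theorem qT_eq_zero (hl : 0 < lam) {s : Tri E M} {q : M} (h : qT lam s q = 0) : evT q s = 0 := by
  rw [qT_apply] at h
  have h1 : 0 ≤ gVF s.2.2 s.2.2 q := by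
    rw [gVF_apply]
    exact real_inner_self_nonneg
  have h2 : 0 ≤ lam⁻¹ * gVF s.2.2 s.2.2 q := mul_nonneg (inv_pos.mpr hl).le h1
  have h3 := mul_self_nonneg (s.1 q)
  have h4 := mul_self_nonneg (s.2.1 q)
  have e1 : s.1 q = 0 := mul_self_eq_zero.mp (by linarith)
  have e2 : s.2.1 q = 0 := mul_self_eq_zero.mp (by linarith)
  have e3 : lam⁻¹ * gVF s.2.2 s.2.2 q = 0 := by linarith
  have e4 : s.2.2 q = 0 := by
    rcases mul_eq_zero.mp e3 with h5 | h5
    · exact absurd h5 (inv_pos.mpr hl).ne'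
    · exact gVF_self_eq_zero.mp h5
  exact Prod.ext e1 (Prod.ext e2 e4)

theorem qT_zero {s : Tri E M} {q : M} (h : evT q s = 0) : qT lam s q = 0 := by
  have e1 : s.1 q = 0 := congrArg (fun u => u.1) h
  have e2 : s.2.1 q = 0 := congrArg (fun u => u.2.1) h
  have e3 : s.2.2 q = 0 := congrArg (fun u => u.2.2) h
  rw [qT_apply, e1, e2, gVF_self_eq_zero.mpr e3]
  ring

theorem DVF_qT (hl : 0 < lam) {s : Tri E M} {q : M} (h : EqT hcov lam P s q) (X : VF E M) :
    DVF X (qT lam s) q = 0 := by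
  obtain ⟨f, g, ξ⟩ := s
  have h1 : DVF X f q - gVF (P X) ξ q = 0 := congrArg (fun u => u.1) (h X)
  have h2 : DVF X g q - gVF (X - P X) ξ q = 0 := congrArg (fun u => u.2.1) (h X)
  have h3 : nabVF cov hcov.smooth X ξ q + lam • (f q • P X q + g q • (X - P X) q) = 0 :=
    congrArg (fun u => u.2.2) (h X)
  have h4 := metricVF hcov X ξ ξ q
  have h5 : gVF (nabVF cov hcov.smooth X ξ) ξ q =
      - (lam * (f q * gVF (P X) ξ q + g q * gVF (X - P X) ξ q)) := by
    have e : nabVF cov hcov.smooth X ξ q = - (lam • (f q • P X q + g q • (X - P X) q)) :=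
      eq_neg_of_add_eq_zero_left h3
    rw [gVF_apply, e, inner_neg_left, real_inner_smul_left, inner_add_left, real_inner_smul_left,
      real_inner_smul_left]
    rfl
  have h6 : gVF ξ (nabVF cov hcov.smooth X ξ) q = gVF (nabVF cov hcov.smooth X ξ) ξ q :=
    congrArg (fun u : SF E M => u q) ((lcOf hcov).g_symm ξ (nabVF cov hcov.smooth X ξ))
  have h7 : DVF X (qT lam (f, g, ξ)) q = 2 * f q * DVF X f q + 2 * g q * DVF X g q +
      lam⁻¹ * DVF X (gVF ξ ξ) q := by
    unfold qT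
    rw [DVF_add, DVF_add, DVF_mul, DVF_mul, DVF_mul, DVF_cst]
    change DVF X f q * f q + f q * DVF X f q + (DVF X g q * g q + g q * DVF X g q) +
      (0 * gVF ξ ξ q + lam⁻¹ * DVF X (gVF ξ ξ) q) = _
    ring
  rw [h7, h4, h6, h5]
  have hl' : lam⁻¹ * lam = 1 := inv_mul_cancel₀ hl.ne'
  linear_combination (2 * f q) * h1 + (2 * g q) * h2 -
    2 * (f q * gVF (P X) ξ q + g q * gVF (X - P X) ξ q) * hl'

/-- a function with zero derivative near `q` is constant near `q` -/
theorem const_near (hcov : IsLC cov) {q : M} {f : SF E M}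
    (h : ∀ᶠ y in 𝓝 q, ∀ X : VF E M, DVF X f y = 0) : ∀ᶠ y in 𝓝 q, f y = f q := by
  obtain ⟨C, r0, hr0, hsub, hC⟩ := exists_chartFields (E := E) hcov q
  have hpp : ich (E := E) q (extChartAt 𝓘(ℝ, E) q q) = q := extChartAt_to_inv q
  have hcont0 : ContinuousAt (ich (E := E) q) (extChartAt 𝓘(ℝ, E) q q) :=
    continuousAt_extChartAt_symm q
  have h3 : Tendsto (ich (E := E) q) (𝓝 (extChartAt 𝓘(ℝ, E) q q)) (𝓝 q) := by
    have := hcont0.tendsto
    rwa [hpp] at this
  obtain ⟨r1, hr1, hball⟩ := Metric.eventually_nhds_iff_ball.mp (h3.eventually h)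
  have hr : 0 < min r0 r1 := lt_min hr0 hr1
  have hz : ∀ x ∈ Metric.ball (extChartAt 𝓘(ℝ, E) q q) (min r0 r1),
      HasFDerivWithinAt (fun x => f (ich (E := E) q x)) (0 : E →L[ℝ] ℝ)
        (Metric.ball (extChartAt 𝓘(ℝ, E) q q) (min r0 r1)) x := by
    intro x hx
    have hx0 := Metric.ball_subset_ball (min_le_left _ _) hx
    have hx1 := Metric.ball_subset_ball (min_le_right _ _) hx
    have hd : DifferentiableAt ℝ (fun x => f (ich (E := E) q x)) x :=
      ((ChartF.contDiffOn q f).contDiffAt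
        ((isOpen_extChartAt_target q).mem_nhds (hsub hx0))).differentiableAt (by simp)
    have h4 : fderiv ℝ (fun x => f (ich (E := E) q x)) x = 0 := by
      refine ContinuousLinearMap.ext fun v => ?_
      conv_lhs => rw [← sum_co v]
      rw [zero_apply]
      simp only [map_sum, map_smul]
      refine Finset.sum_eq_zero fun k _ => ?_
      rw [← (hC x hx0).1 f k, hball x hx1 (C k), smul_zero]
    rw [← h4]
    exact hd.hasFDerivAt.hasFDerivWithinAt
  have h5 : ∀ x ∈ Metric.ball (extChartAt 𝓘(ℝ, E) q q) (min r0 r1),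
      f (ich q x) = f (ich q (extChartAt 𝓘(ℝ, E) q q)) := by
    intro x hx
    exact (convex_ball (extChartAt 𝓘(ℝ, E) q q) (min r0 r1)).is_const_of_fderivWithin_eq_zero
      (𝕜 := ℝ) (fun y hy => (hz y hy).differentiableWithinAt)
      (fun y hy => (hz y hy).fderivWithin (Metric.isOpen_ball.uniqueDiffWithinAt hy)) hx
      (Metric.mem_ball_self hr)
  have hcont : ContinuousAt (extChartAt 𝓘(ℝ, E) q) q := continuousAt_extChartAt q
  filter_upwards [hcont.preimage_mem_nhds (Metric.ball_mem_nhds _ hr),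
    extChartAt_source_mem_nhds (I := 𝓘(ℝ, E)) q] with y hy hys
  have h6 := h5 _ hy
  rw [hpp] at h6
  have h7 : ich (E := E) q (extChartAt 𝓘(ℝ, E) q y) = y := (extChartAt 𝓘(ℝ, E) q).left_inv hys
  rw [h7] at h6
  exact h6

/-- values of `D_X s` from the components -/
theorem ev_of_tht (hE : Module.finrank ℝ E = 4) {F : Fin 4 → VF E M} {q : M} (hF : ONq F q)
    {s : Tri E M} (h : ∀ i, tht F s i q = 0) : evT q s = 0 := by
  have h1 : s.1 q = 0 := h none
  have h2 : s.2.1 q = 0 := h (some none)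
  have h3 : s.2.2 q = 0 := by
    rw [expandVF hE q F hF s.2.2]
    refine Finset.sum_eq_zero fun i _ => ?_
    have : gVF s.2.2 (F i) q = 0 := h (some (some i))
    rw [this, zero_smul]
  exact Prod.ext h1 (Prod.ext h2 h3)

/-- `D_X s` as a linear map of `X` -/
def DTl (hcov : IsLC cov) (lam : ℝ) (P : VF E M →ₗ[SF E M] VF E M) (s : Tri E M) :
    VF E M →ₗ[SF E M] Tri E M where
  toFun X := DT hcov lam P X s
  map_add' X Y := by
    obtain ⟨f, g, ξ⟩ := s
    refine Prod.ext ?_ (Prod.ext ?_ ?_)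
    · change DVF (X + Y) f - gVF (P (X + Y)) ξ = DVF X f - gVF (P X) ξ + (DVF Y f - gVF (P Y) ξ)
      have ga : ∀ A B C : VF E M, gVF (A + B) C = gVF A C + gVF B C := (lcOf hcov).g_add_left
      rw [DVF_add_left, map_add, ga]
      ring
    · change DVF (X + Y) g - gVF (X + Y - P (X + Y)) ξ =
        DVF X g - gVF (X - P X) ξ + (DVF Y g - gVF (Y - P Y) ξ)
      have ga : ∀ A B C : VF E M, gVF (A + B) C = gVF A C + gVF B C := (lcOf hcov).g_add_left
      rw [DVF_add_left, map_add, show X + Y - (P X + P Y) = (X - P X) + (Y - P Y) by abel, ga]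
      ring
    · change nabVF cov hcov.smooth (X + Y) ξ + cst lam • (f • P (X + Y) + g • (X + Y - P (X + Y))) =
        nabVF cov hcov.smooth X ξ + cst lam • (f • P X + g • (X - P X)) +
          (nabVF cov hcov.smooth Y ξ + cst lam • (f • P Y + g • (Y - P Y)))
      rw [nabVF_add_left, map_add]
      module
  map_smul' a X := by
    obtain ⟨f, g, ξ⟩ := s
    have gm : ∀ (a : SF E M) (B C : VF E M), gVF (a • B) C = a * gVF B C :=
      (lcOf hcov).g_smul_left
    refine Prod.ext ?_ (Prod.ext ?_ ?_)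
    · change DVF (a • X) f - gVF (P (a • X)) ξ = a * (DVF X f - gVF (P X) ξ)
      rw [DVF_smul_left, map_smul, gm]
      ring
    · change DVF (a • X) g - gVF (a • X - P (a • X)) ξ = a * (DVF X g - gVF (X - P X) ξ)
      rw [DVF_smul_left, map_smul, ← smul_sub, gm]
      ring
    · change nabVF cov hcov.smooth (a • X) ξ + cst lam • (f • P (a • X) + g • (a • X - P (a • X))) =
        a • (nabVF cov hcov.smooth X ξ + cst lam • (f • P X + g • (X - P X)))
      rw [nabVF_smul_left, map_smul]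
      module

theorem evT_add (q : M) (s s' : Tri E M) : evT q (s + s') = evT q s + evT q s' := rfl

theorem evT_smul (q : M) (a : SF E M) (s : Tri E M) : evT q (a • s) = a q • evT q s := rfl

theorem evT_sum (q : M) {n : ℕ} (s : Fin n → Tri E M) (h : ∀ i, evT q (s i) = 0) (t : Finset (Fin n)) :
    evT q (∑ i ∈ t, s i) = 0 := by
  classical
  induction t using Finset.induction_on with
  | empty => rfl
  | insert a t ha ih => rw [Finset.sum_insert ha, evT_add, h a, ih, add_zero]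

/-- `D_X s` is linear in `X` -/
theorem evT_DT_sum (hcov : IsLC cov) (lam : ℝ) (P : VF E M →ₗ[SF E M] VF E M) {q : M} {n : ℕ}
    (C : Fin n → VF E M) (c : Fin n → ℝ) (X : VF E M) (hX : X q = ∑ i, c i • C i q)
    (s : Tri E M) (h : ∀ i, evT q (DT hcov lam P (C i) s) = 0) : evT q (DT hcov lam P X s) = 0 := by
  have h1 : DT hcov lam P X s = DTl hcov lam P s (X - ∑ i, (cst (c i) : SF E M) • C i) +
      ∑ i, (cst (c i) : SF E M) • DT hcov lam P (C i) s := by
    have h2 : (X : VF E M) = (X - ∑ i, (cst (c i) : SF E M) • C i) +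
      ∑ i, (cst (c i) : SF E M) • C i := by abel
    change DTl hcov lam P s X = _
    conv_lhs => rw [h2, map_add, map_sum]
    congr 1
    exact Finset.sum_congr rfl fun i _ => by rw [map_smul]; rfl
  have h3 : (X - ∑ i, (cst (c i) : SF E M) • C i : VF E M) q = 0 := by
    change X q - (∑ i, (cst (c i) : SF E M) • C i : VF E M) q = 0
    rw [VF.sum_apply, hX, sub_eq_zero]
    exact Finset.sum_congr rfl fun i _ => by rw [smulVF_apply, cst_apply]
  rw [h1, evT_add, evT_sum q _ (fun i => by rw [evT_smul, h i, smul_zero])]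
  rw [add_zero]
  exact DT_ptwise hcov lam P h3 s

/-- components of an element of the fibre -/
def cmp (F : Fin 4 → VF E M) (q : M) (v : Fib E q) : Ix → ℝ
  | none => v.1
  | some none => v.2.1
  | some (some j) => inner ℝ v.2.2 (F j q)

/-- element of the fibre with given components -/
def asm (F : Fin 4 → VF E M) (q : M) (w : Ix → ℝ) : Fib E q :=
  (w none, w (some none), ∑ j, w (some (some j)) • F j q)

theorem asm_cmp (hE : Module.finrank ℝ E = 4) {F : Fin 4 → VF E M} {q : M} (hF : ONq F q)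
    (v : Fib E q) : asm F q (cmp F q v) = v := by
  obtain ⟨Z, hZ⟩ := exists_ext (E := E) q v.2.2
  have h1 := expandVF hE q F hF Z
  rw [hZ] at h1
  refine Prod.ext rfl (Prod.ext rfl ?_)
  change ∑ j, (inner ℝ v.2.2 (F j q) : ℝ) • F j q = v.2.2
  conv_rhs => rw [h1]
  refine Finset.sum_congr rfl fun j _ => ?_
  rw [gVF_apply, hZ]

/-- the triple with given components -/
def asmT (F : Fin 4 → VF E M) (u : Ix → SF E M) : Tri E M :=
  (u none, u (some none), ∑ j, u (some (some j)) • F j)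

theorem evT_asmT (F : Fin 4 → VF E M) (u : Ix → SF E M) (q : M) :
    evT q (asmT F u) = asm F q fun i => u i q := by
  refine Prod.ext rfl (Prod.ext rfl ?_)
  change (∑ j, u (some (some j)) • F j : VF E M) q = ∑ j, u (some (some j)) q • F j q
  rw [VF.sum_apply]
  rfl

theorem tht_asmT {F : Fin 4 → VF E M} {q : M} (hF : ONq F q) (u : Ix → SF E M) (i : Ix) :
    tht F (asmT F u) i q = u i q := by
  match i with
  | none => rfl
  | some none => rfl
  | some (some j) =>
    change gVF (∑ j, u (some (some j)) • F j) (F j) q = _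
    rw [gVF_apply, VF.sum_apply, sum_inner]
    rw [Finset.sum_eq_single j]
    · rw [smulVF_apply, real_inner_smul_left, ← gVF_apply, hF j j, if_pos rfl, mul_one]
    · intro l _ hl
      rw [smulVF_apply, real_inner_smul_left, ← gVF_apply, hF l j, if_neg hl, mul_zero]
    · intro h
      exact absurd (Finset.mem_univ j) h

/-- **Local solutions.** -/
theorem exists_local (hE : Module.finrank ℝ E = 4) (hS : Split hcov lam P) (p : M) :
    ∃ U ∈ 𝓝 p, ∀ q ∈ U, ∀ v : Fib E q, ∃ σ : (y : M) → Fib E y, σ q = v ∧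
      ∀ y ∈ U, Par hcov lam P y σ := by
  obtain ⟨F0, hF0, -⟩ := hS.rank p
  obtain ⟨F, hF, -, -⟩ := syncVF hcov hE p F0 fun i j => by
    rw [gVF_apply]
    exact (orthonormal_iff_ite.1 hF0) i j
  obtain ⟨C, r, hr, hsub, hC, hsol⟩ := exists_sol_chart hE hS p hF
  have hcont : ContinuousAt (extChartAt 𝓘(ℝ, E) p) p := continuousAt_extChartAt p
  refine ⟨(extChartAt 𝓘(ℝ, E) p).source ∩ extChartAt 𝓘(ℝ, E) p ⁻¹'
    Metric.ball (extChartAt 𝓘(ℝ, E) p p) (r / 8), inter_mem (extChartAt_source_mem_nhds p)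
      (hcont.preimage_mem_nhds (Metric.ball_mem_nhds _ (by linarith))), ?_⟩
  rintro q ⟨hqs, hqb⟩ v
  have hq1 : extChartAt 𝓘(ℝ, E) p q ∈ Metric.ball (extChartAt 𝓘(ℝ, E) p p) (r / 2) :=
    Metric.ball_subset_ball (by linarith) hqb
  have hq2 : extChartAt 𝓘(ℝ, E) p q ∈ Metric.ball (extChartAt 𝓘(ℝ, E) p p) r :=
    Metric.ball_subset_ball (by linarith) hqb
  have hqq : ich (E := E) p (extChartAt 𝓘(ℝ, E) p q) = q := (extChartAt 𝓘(ℝ, E) p).left_inv hqs
  have hFq : ONq F q := by
    have := (hC _ hq2).1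
    rw [hqq] at this
    exact this.self_of_nhds
  obtain ⟨Y, hY1, hY2, hY3⟩ := hsol _ hq1 (cmp F q v)
  refine ⟨fun y => asm F y (Y (extChartAt 𝓘(ℝ, E) p y)), ?_, ?_⟩
  · change asm F q (Y (extChartAt 𝓘(ℝ, E) p q)) = v
    rw [hY1, asm_cmp hE hFq]
  · rintro y ⟨hys, hyb⟩
    let O : Set M := (extChartAt 𝓘(ℝ, E) p).source ∩ extChartAt 𝓘(ℝ, E) p ⁻¹'
      (Metric.ball (extChartAt 𝓘(ℝ, E) p q) (r / 4) ∩ Metric.ball (extChartAt 𝓘(ℝ, E) p p) r)
    have hOo : IsOpen O := (continuousOn_extChartAt (I := 𝓘(ℝ, E)) p).isOpen_inter_preimage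
      (isOpen_extChartAt_source p) (Metric.isOpen_ball.inter Metric.isOpen_ball)
    have hyO : y ∈ O := by
      refine ⟨hys, ?_, Metric.ball_subset_ball (by linarith) hyb⟩
      rw [Metric.mem_ball]
      have h1 : dist (extChartAt 𝓘(ℝ, E) p y) (extChartAt 𝓘(ℝ, E) p p) < r / 8 := hyb
      have h2 : dist (extChartAt 𝓘(ℝ, E) p q) (extChartAt 𝓘(ℝ, E) p p) < r / 8 := hqb
      have h3 := dist_triangle_right (extChartAt 𝓘(ℝ, E) p y) (extChartAt 𝓘(ℝ, E) p q)
        (extChartAt 𝓘(ℝ, E) p p)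
      linarith
    have hsm : ∀ i, ContMDiffOn 𝓘(ℝ, E) 𝓘(ℝ) ∞ (fun z => Y (extChartAt 𝓘(ℝ, E) p z) i) O := by
      intro i
      have h1 : ContMDiffOn 𝓘(ℝ, E) 𝓘(ℝ, E) ∞ (extChartAt 𝓘(ℝ, E) p) O :=
        (contMDiffOn_extChartAt (x := p)).mono fun z hz => by
          rw [← extChartAt_source (I := 𝓘(ℝ, E))]
          exact hz.1
      have h2 : ContDiffOn ℝ ∞ (fun x => Y x i) (Metric.ball (extChartAt 𝓘(ℝ, E) p q) (r / 4)) :=
        contDiffOn_pi.mp hY2 i
      exact h2.contMDiffOn.comp h1 fun z hz => hz.2.1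
    choose u hu using fun i => cut_fun (E := E) (hOo.mem_nhds hyO) (hsm i)
    have hu' : ∀ᶠ z in 𝓝 y, ∀ i, u i z = Y (extChartAt 𝓘(ℝ, E) p z) i := eventually_all.mpr hu
    refine ⟨asmT F u, ?_, ?_⟩
    · filter_upwards [hu'] with z hz
      rw [evT_asmT]
      congr 1
      funext i
      exact (hz i).symm
    · filter_upwards [hu'.eventually_nhds, hOo.mem_nhds hyO] with z hz hzO X
      have hzz : ich (E := E) p (extChartAt 𝓘(ℝ, E) p z) = z :=
        (extChartAt 𝓘(ℝ, E) p).left_inv hzO.1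
      obtain ⟨hC1, hC2, hC3⟩ := hC _ hzO.2.2
      rw [hzz] at hC1 hC3
      obtain ⟨c, hc⟩ := hC3 X
      refine evT_DT_sum hcov lam P C c X hc _ fun k => ev_of_tht hE hC1.self_of_nhds fun i => ?_
      rw [tht_DT hE hcov lam P hC1.self_of_nhds]
      have e1 : DVF (C k) (tht F (asmT F u) i) z = DVF (C k) (u i) z := by
        refine DVF_local z _ _ ?_ _
        filter_upwards [hC1] with w hw
        exact tht_asmT hw u i
      have e2 := hC2 (u i) k
      rw [hzz] at e2
      have hzt : extChartAt 𝓘(ℝ, E) p z ∈ (extChartAt 𝓘(ℝ, E) p).target :=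
        (extChartAt 𝓘(ℝ, E) p).map_source hzO.1
      have hct : Tendsto (ich (E := E) p) (𝓝 (extChartAt 𝓘(ℝ, E) p z)) (𝓝 z) := by
        have h5 : ContinuousAt (ich (E := E) p) (extChartAt 𝓘(ℝ, E) p z) :=
          continuousAt_extChartAt_symm' hzO.1
        have := h5.tendsto
        rwa [hzz] at this
      have e3 : (fun x => u i (ich (E := E) p x)) =ᶠ[𝓝 (extChartAt 𝓘(ℝ, E) p z)]
          fun x => Y x i := by
        filter_upwards [hct.eventually hz, (isOpen_extChartAt_target (I := 𝓘(ℝ, E)) p).mem_nhds hzt]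
          with x hx hxt
        rw [hx i, (extChartAt 𝓘(ℝ, E) p).right_inv hxt]
      have e4 := hY3 _ hzO.2.1 k i
      rw [hzz] at e4
      rw [e1, e2, e3.fderiv_eq, e4, neg_add_eq_zero]
      refine Finset.sum_congr rfl fun j _ => ?_
      rw [tht_asmT hC1.self_of_nhds, hz.self_of_nhds j]

end

end Vale.Agent.P211.HK.S22.FS
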