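import Vale.Agent.P211.HK.FlatSec
import Vale.Agent.P211.HK.FBloc

/-! P211 / HK (helper858), block FB2: local solutions of the flat bundle of a splitting. -/

set_option maxSynthPendingDepth 3
set_option linter.unusedSectionVars false

namespace Vale.Agent.P211.HK.S22.FS

open scoped Manifold ContDiff Topology
open Bundle Filter VectorField Vale.Agent.P211 Vale.Agent.P211.NN

noncomputable section

/-! ### matrices -/

/-- matrices as operators -/
def L0 : (Ix → Ix → ℝ) →L[ℝ] ((Ix → ℝ) →L[ℝ] (Ix → ℝ)) :=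
  LinearMap.toContinuousLinearMap
    { toFun := fun m => LinearMap.toContinuousLinearMap
        { toFun := fun w i => ∑ j, m i j * w j
          map_add' := fun w w' => by
            funext i
            simp [mul_add, Finset.sum_add_distrib]
          map_smul' := fun c w => by
            funext i
            simp only [Pi.smul_apply, smul_eq_mul, RingHom.id_apply, Finset.mul_sum]
            exact Finset.sum_congr rfl fun j _ => by ring }
      map_add' := fun m m' => by
        ext w i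
        simp [add_mul, Finset.sum_add_distrib]
      map_smul' := fun c m => by
        refine ContinuousLinearMap.ext fun w => funext fun i => ?_
        change ∑ j, c * m i j * w j = c * ∑ j, m i j * w j
        rw [Finset.mul_sum]
        exact Finset.sum_congr rfl fun j _ => by ring }

theorem L0_apply (m : Ix → Ix → ℝ) (w : Ix → ℝ) (i : Ix) : L0 m w i = ∑ j, m i j * w j := rfl

theorem L0_comp (m n : Ix → Ix → ℝ) :
    (L0 m).comp (L0 n) = L0 fun i j => ∑ h, m i h * n h j := by
  ext w i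
  change ∑ h, m i h * ∑ j, n h j * w j = ∑ j, (∑ h, m i h * n h j) * w j
  simp only [Finset.mul_sum, Finset.sum_mul]
  rw [Finset.sum_comm]
  exact Finset.sum_congr rfl fun j _ => Finset.sum_congr rfl fun h _ => by ring

variable {E : Type} [NormedAddCommGroup E] [NormedSpace ℝ E] [FiniteDimensional ℝ E]

/-- the coordinates -/
def co (k : Fin (Module.finrank ℝ E)) : E →L[ℝ] ℝ :=
  LinearMap.toContinuousLinearMap ((Module.finBasis ℝ E).coord k)

theorem sum_co (u : E) : ∑ k, co k u • Module.finBasis ℝ E k = u := (Module.finBasis ℝ E).sum_repr u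

/-- the connection form of matrices `m k` -/
def Am (m : Fin (Module.finrank ℝ E) → E → Ix → Ix → ℝ) (x : E) :
    E →L[ℝ] (Ix → ℝ) →L[ℝ] (Ix → ℝ) :=
  ∑ k, (co k).smulRight (L0 (m k x))

theorem Am_apply (m : Fin (Module.finrank ℝ E) → E → Ix → Ix → ℝ) (x u : E) :
    Am m x u = ∑ k, co k u • L0 (m k x) := by
  simp [Am]

theorem Am_smooth {m : Fin (Module.finrank ℝ E) → E → Ix → Ix → ℝ} {s : Set E}
    (h : ∀ k i j, ContDiffOn ℝ ∞ (fun x => m k x i j) s) : ContDiffOn ℝ ∞ (Am m) s := by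
  unfold Am
  refine ContDiffOn.sum fun k _ => ?_
  have h1 : ContDiffOn ℝ ∞ (m k) s :=
    contDiffOn_pi.mpr fun i => contDiffOn_pi.mpr fun j => h k i j
  exact contDiffOn_const.smulRight (L0.contDiff.comp_contDiffOn h1)

/-- flatness from the coordinate identities -/
theorem Am_flat {m : Fin (Module.finrank ℝ E) → E → Ix → Ix → ℝ} {x : E}
    (hd : ∀ k i j, DifferentiableAt ℝ (fun x => m k x i j) x)
    (hf : ∀ k l i j, fderiv ℝ (fun x => m l x i j) x (Module.finBasis ℝ E k) -
      fderiv ℝ (fun x => m k x i j) x (Module.finBasis ℝ E l) +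
      ((∑ h, m k x i h * m l x h j) - ∑ h, m l x i h * m k x h j) = 0) (u v : E) :
    fderiv ℝ (Am m) x u v - fderiv ℝ (Am m) x v u + (Am m x u).comp (Am m x v) -
      (Am m x v).comp (Am m x u) = 0 := by
  have hd1 : ∀ k, HasFDerivAt (m k) (ContinuousLinearMap.pi fun i => ContinuousLinearMap.pi fun j =>
      fderiv ℝ (fun x => m k x i j) x) x := fun k =>
    hasFDerivAt_pi.mpr fun i => hasFDerivAt_pi.mpr fun j => (hd k i j).hasFDerivAt
  have hd2 : ∀ u v, fderiv ℝ (Am m) x u v =
      ∑ k, ∑ l, (co k v * co l u) • L0 fun i j => fderiv ℝ (fun x => m k x i j) x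
        (Module.finBasis ℝ E l) := by
    intro u v
    have h1 : HasFDerivAt (Am m) (∑ k, ((ContinuousLinearMap.smulRightL ℝ E
        ((Ix → ℝ) →L[ℝ] (Ix → ℝ)) (co k)).comp L0).comp
          (ContinuousLinearMap.pi fun i => ContinuousLinearMap.pi fun j =>
            fderiv ℝ (fun x => m k x i j) x)) x := by
      have h2 := HasFDerivAt.fun_sum (u := Finset.univ) fun k _ =>
        ((ContinuousLinearMap.smulRightL ℝ E ((Ix → ℝ) →L[ℝ] (Ix → ℝ))
          (co k)).comp L0).hasFDerivAt.comp x (hd1 k)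
      exact h2
    rw [h1.fderiv]
    have hs : ∀ k (z : (Ix → ℝ) →L[ℝ] (Ix → ℝ)), ContinuousLinearMap.smulRightL ℝ E
        ((Ix → ℝ) →L[ℝ] (Ix → ℝ)) (co k) z v = co k v • z := fun k z => rfl
    simp only [sum_apply, ContinuousLinearMap.comp_apply, hs]
    refine Finset.sum_congr rfl fun k _ => ?_
    have h3 : (ContinuousLinearMap.pi fun i => ContinuousLinearMap.pi fun j =>
        fderiv ℝ (fun x => m k x i j) x) u = ∑ l, co l u • fun i j => fderiv ℝ
          (fun x => m k x i j) x (Module.finBasis ℝ E l) := by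
      funext i j
      change fderiv ℝ (fun x => m k x i j) x u = _
      conv_lhs => rw [← sum_co u]
      simp only [map_sum, map_smul, Finset.sum_apply, Pi.smul_apply]
    rw [h3, map_sum, Finset.smul_sum]
    exact Finset.sum_congr rfl fun l _ => by rw [map_smul, smul_smul]
  have hc : ∀ u v, (Am m x u).comp (Am m x v) = ∑ k, ∑ l, (co k v * co l u) • L0 fun i j =>
      ∑ h, m l x i h * m k x h j := by
    intro u v
    rw [Am_apply, Am_apply, ContinuousLinearMap.finsetSum_comp]
    rw [Finset.sum_comm]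
    refine Finset.sum_congr rfl fun k _ => ?_
    rw [ContinuousLinearMap.comp_finsetSum]
    refine Finset.sum_congr rfl fun l _ => ?_
    rw [ContinuousLinearMap.comp_smul, ContinuousLinearMap.smul_comp, L0_comp, smul_smul]
  rw [hd2 u v, hd2 v u, hc u v, hc v u]
  rw [Finset.sum_comm (f := fun k l => (co k u * co l v) • L0 fun i j =>
    fderiv ℝ (fun x => m k x i j) x (Module.finBasis ℝ E l))]
  rw [Finset.sum_comm (f := fun k l => (co k u * co l v) • L0 fun i j =>
    ∑ h, m l x i h * m k x h j)]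
  rw [← Finset.sum_sub_distrib, ← Finset.sum_add_distrib, ← Finset.sum_sub_distrib]
  refine Finset.sum_eq_zero fun k _ => ?_
  rw [← Finset.sum_sub_distrib, ← Finset.sum_add_distrib, ← Finset.sum_sub_distrib]
  refine Finset.sum_eq_zero fun l _ => ?_
  rw [mul_comm (co l u) (co k v), ← smul_sub, ← smul_add, ← smul_sub, ← map_sub, ← map_add,
    ← map_sub]
  have h6 : ((fun i j => fderiv ℝ (fun x => m k x i j) x (Module.finBasis ℝ E l)) -
      (fun i j => fderiv ℝ (fun x => m l x i j) x (Module.finBasis ℝ E k)) +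
      (fun i j => ∑ h, m l x i h * m k x h j) -
      fun i j => ∑ h, m k x i h * m l x h j : Ix → Ix → ℝ) = 0 := by
    funext i j
    have := hf l k i j
    simp only [Pi.add_apply, Pi.sub_apply, Pi.zero_apply]
    linarith
  rw [h6, map_zero, smul_zero]

/-! ### local solutions -/

variable {M : Type} [TopologicalSpace M] [ChartedSpace E M] [IsManifold 𝓘(ℝ, E) ∞ M] [T2Space M]
  [RiemannianBundle fun p : M => TangentSpace 𝓘(ℝ, E) p]
  [IsContMDiffRiemannianBundle 𝓘(ℝ, E) ∞ E fun p : M => TangentSpace 𝓘(ℝ, E) p]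
  {cov : CovariantDerivative 𝓘(ℝ, E) E (TangentSpace 𝓘(ℝ, E) : M → Type)}

/-- solutions in the chart -/
theorem exists_sol_chart (hE : Module.finrank ℝ E = 4) {hcov : IsLC cov} {lam : ℝ}
    {P : VF E M →ₗ[SF E M] VF E M} (hS : Split hcov lam P) (p : M) {F : Fin 4 → VF E M}
    (hF : ∀ᶠ y in 𝓝 p, ONq F y) :
    ∃ (C : Fin (Module.finrank ℝ E) → VF E M) (r : ℝ), 0 < r ∧
      Metric.ball (extChartAt 𝓘(ℝ, E) p p) r ⊆ (extChartAt 𝓘(ℝ, E) p).target ∧
      (∀ x ∈ Metric.ball (extChartAt 𝓘(ℝ, E) p p) r,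
        (∀ᶠ y in 𝓝 (ich p x), ONq F y) ∧
        (∀ (f : SF E M) i, DVF (C i) f (ich p x) =
          fderiv ℝ (fun x => f (ich (E := E) p x)) x (Module.finBasis ℝ E i)) ∧
        ∀ X : VF E M, ∃ c : Fin (Module.finrank ℝ E) → ℝ,
          X (ich p x) = ∑ i, c i • C i (ich p x)) ∧
      ∀ x ∈ Metric.ball (extChartAt 𝓘(ℝ, E) p p) (r / 2), ∀ w : Ix → ℝ,
        ∃ Y : E → Ix → ℝ, Y x = w ∧ ContDiffOn ℝ ∞ Y (Metric.ball x (r / 4)) ∧
          ∀ y ∈ Metric.ball x (r / 4), ∀ k i, fderiv ℝ (fun z => Y z i) y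
            (Module.finBasis ℝ E k) = - ∑ j, mat hcov lam P F (C k) i j (ich p y) * Y y j := by
  obtain ⟨C, r0, hr0, hsub, hC⟩ := exists_chartFields (E := E) hcov p
  have hcont : ContinuousAt (ich (E := E) p) (extChartAt 𝓘(ℝ, E) p p) :=
    continuousAt_extChartAt_symm p
  have hpp : ich (E := E) p (extChartAt 𝓘(ℝ, E) p p) = p := extChartAt_to_inv p
  have h3 : Tendsto (ich (E := E) p) (𝓝 (extChartAt 𝓘(ℝ, E) p p)) (𝓝 p) := by
    have := hcont.tendsto
    rwa [hpp] at this
  obtain ⟨r1, hr1, hball⟩ := Metric.eventually_nhds_iff_ball.mp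
    (h3.eventually hF.eventually_nhds)
  have hr : 0 < min r0 r1 := lt_min hr0 hr1
  have hin : ∀ x ∈ Metric.ball (extChartAt 𝓘(ℝ, E) p p) (min r0 r1),
      x ∈ Metric.ball (extChartAt 𝓘(ℝ, E) p p) r0 ∧
        x ∈ Metric.ball (extChartAt 𝓘(ℝ, E) p p) r1 := fun x hx =>
    ⟨Metric.ball_subset_ball (min_le_left _ _) hx, Metric.ball_subset_ball (min_le_right _ _) hx⟩
  refine ⟨C, min r0 r1, hr, fun x hx => hsub (hin x hx).1, fun x hx =>
    ⟨hball x (hin x hx).2, (hC x (hin x hx).1).1, (hC x (hin x hx).1).2.2⟩, ?_⟩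
  intro x hx w
  set r := min r0 r1 with hrd
  have hxin : Metric.ball x (r / 2) ⊆ Metric.ball (extChartAt 𝓘(ℝ, E) p p) r := by
    intro y hy
    rw [Metric.mem_ball] at hx hy ⊢
    calc dist y _ ≤ dist y x + dist x _ := dist_triangle _ _ _
      _ < r / 2 + r / 2 := add_lt_add hy hx
      _ = r := by ring
  let m : Fin (Module.finrank ℝ E) → E → Ix → Ix → ℝ := fun k y i j =>
    mat hcov lam P F (C k) i j (ich p y)
  have hm : ∀ k i j, ContDiffOn ℝ ∞ (fun x => m k x i j) (Metric.ball x (r / 2)) := fun k i j =>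
    (ChartF.contDiffOn p (mat hcov lam P F (C k) i j)).mono fun y hy => hsub (hin y (hxin hy)).1
  have hflat : ∀ y ∈ Metric.ball x (r / 2), ∀ u v, fderiv ℝ (Am m) y u v - fderiv ℝ (Am m) y v u +
      (Am m y u).comp (Am m y v) - (Am m y v).comp (Am m y u) = 0 := by
    intro y hy u v
    have hy' := hin y (hxin hy)
    refine Am_flat (fun k i j => ?_) (fun k l i j => ?_) u v
    · exact ((hm k i j).contDiffAt (Metric.isOpen_ball.mem_nhds hy)).differentiableAt (by simp)
    · have h5 := mat_flat hE hS (hball y hy'.2) (C k) (C l) ((hC y hy'.1).2.1 k l) i j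
      rw [(hC y hy'.1).1, (hC y hy'.1).1] at h5
      exact h5
  obtain ⟨Y, hY1, hY2, hY3⟩ := FB.flat_local_sub (p := x) (r := r / 2) (by linarith) (A := Am m)
    (Q := fun _ => ContinuousLinearMap.id ℝ (Ix → ℝ)) (Am_smooth hm) contDiffOn_const
    (fun y _ a => by
      rw [fderiv_fun_const]
      ext w i
      simp)
    (fun y hy u v w _ => by rw [hflat y hy u v]; rfl) w rfl
  refine ⟨Y, hY1, by rwa [show r / 2 / 2 = r / 4 by ring] at hY2, ?_⟩
  intro y hy k i
  have h6 := (hY3 y (by rwa [show r / 2 / 2 = r / 4 by ring])).2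
  have h7 := (hasFDerivAt_pi'.mp h6) i
  rw [h7.fderiv]
  change (-(Am m y (Module.finBasis ℝ E k)) (Y y)) i = _
  rw [Am_apply]
  have h8 : ∀ l, co l (Module.finBasis ℝ E k) = if k = l then 1 else 0 := by
    intro l
    change (Module.finBasis ℝ E).coord l (Module.finBasis ℝ E k) = _
    rw [Module.Basis.coord_apply, Module.Basis.repr_self, Finsupp.single_apply]
  simp only [h8]
  rw [Finset.sum_eq_single k (fun l _ hl => by simp [Ne.symm hl]) (fun h => absurd (Finset.mem_univ k) h)]
  simp only [if_true, one_smul]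
  rfl

end

end Vale.Agent.P211.HK.S22.FS
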