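import Vale.Agent.P211.HK.S22Defs
import Vale.Agent.P211.HK.ChartF
import Vale.Agent.P211.HK.LocSys

/-! P211 / HK (helper858), block FB2: the flat bundle of a splitting. Sections are triples
`(f, h, ξ)`; the connection is
`D_X (f, h, ξ) = (X f - ⟨P X, ξ⟩, X h - ⟨X - P X, ξ⟩, ∇_X ξ + lam (f P X + h (X - P X)))`. -/

set_option maxSynthPendingDepth 3
set_option linter.unusedSectionVars false

namespace Vale.Agent.P211.HK.S22.FS

open scoped Manifold ContDiff Topology
open Bundle Filter VectorField Vale.Agent.P211 Vale.Agent.P211.NN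

noncomputable section

/-! ### abstract algebra -/

section alg

variable {𝒪 V : Type*} [CommRing 𝒪] [Algebra ℝ 𝒪] [AddCommGroup V] [Module 𝒪 V] (G : LC 𝒪 V)
  (P : V →ₗ[𝒪] V) (L : 𝒪)

/-- the connection on triples -/
def DS (X : V) (s : 𝒪 × 𝒪 × V) : 𝒪 × 𝒪 × V :=
  (G.D X s.1 - G.g (P X) s.2.2, G.D X s.2.1 - G.g (X - P X) s.2.2,
    G.nab X s.2.2 + L • (s.1 • P X + s.2.1 • (X - P X)))

theorem DS_sub (X : V) (s s' : 𝒪 × 𝒪 × V) :
    DS G P L X (s - s') = DS G P L X s - DS G P L X s' := by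
  obtain ⟨f, h, ξ⟩ := s
  obtain ⟨f', h', ξ'⟩ := s'
  refine Prod.ext ?_ (Prod.ext ?_ ?_)
  · change G.D X (f - f') - G.g (P X) (ξ - ξ') = G.D X f - G.g (P X) ξ - (G.D X f' - G.g (P X) ξ')
    rw [G.D_sub, G.g_symm (P X) (ξ - ξ'), G.g_sub_left, G.g_symm ξ, G.g_symm ξ']
    ring
  · change G.D X (h - h') - G.g (X - P X) (ξ - ξ') =
      G.D X h - G.g (X - P X) ξ - (G.D X h' - G.g (X - P X) ξ')
    rw [G.D_sub, G.g_symm (X - P X) (ξ - ξ'), G.g_sub_left, G.g_symm ξ, G.g_symm ξ']
    ring
  · change G.nab X (ξ - ξ') + L • ((f - f') • P X + (h - h') • (X - P X)) =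
      G.nab X ξ + L • (f • P X + h • (X - P X)) - (G.nab X ξ' + L • (f' • P X + h' • (X - P X)))
    rw [G.nab_sub]
    module

/-- `D` is flat -/
theorem DS_comm (hL : ∀ X, G.D X L = 0) (hproj : ∀ X, P (P X) = P X)
    (hsymm : ∀ X Y, G.g (P X) Y = G.g X (P Y)) (hpar : ∀ X Y, G.nab X (P Y) = P (G.nab X Y))
    (hcurv : ∀ X Y Z, G.R X Y Z = L • (G.g (P Y) Z • P X - G.g (P X) Z • P Y +
      (G.g (Y - P Y) Z • (X - P X) - G.g (X - P X) Z • (Y - P Y)))) (X Y : V) (s : 𝒪 × 𝒪 × V) :
    DS G P L X (DS G P L Y s) - DS G P L Y (DS G P L X s) = DS G P L (G.brk X Y) s := by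
  obtain ⟨f, h, ξ⟩ := s
  have gr : ∀ A B C, G.g A (B - C) = G.g A B - G.g A C := by
    intro A B C
    rw [G.g_symm, G.g_sub_left, G.g_symm B, G.g_symm C]
  have o1 : ∀ A B, G.g (P A) (P B) = G.g A (P B) := by
    intro A B
    rw [hsymm, hproj]
  have hPb : P (G.brk X Y) = P (G.nab X Y) - P (G.nab Y X) := map_sub P _ _
  refine Prod.ext ?_ (Prod.ext ?_ ?_)
  · change G.D X (G.D Y f - G.g (P Y) ξ) -
        G.g (P X) (G.nab Y ξ + L • (f • P Y + h • (Y - P Y))) -
      (G.D Y (G.D X f - G.g (P X) ξ) -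
        G.g (P Y) (G.nab X ξ + L • (f • P X + h • (X - P X)))) =
      G.D (G.brk X Y) f - G.g (P (G.brk X Y)) ξ
    rw [hPb, G.D_brk]
    simp only [G.D_sub, G.metric, G.g_add_right, G.g_smul_right, G.g_sub_left, gr, hpar, o1, hsymm]
    rw [G.g_symm Y (P X), hsymm]
    ring
  · change G.D X (G.D Y h - G.g (Y - P Y) ξ) -
        G.g (X - P X) (G.nab Y ξ + L • (f • P Y + h • (Y - P Y))) -
      (G.D Y (G.D X h - G.g (X - P X) ξ) -
        G.g (Y - P Y) (G.nab X ξ + L • (f • P X + h • (X - P X)))) =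
      G.D (G.brk X Y) h - G.g (G.brk X Y - P (G.brk X Y)) ξ
    rw [hPb, G.D_brk]
    simp only [LC.brk, G.D_sub, G.metric, G.g_add_right, G.g_smul_right, G.g_sub_left, gr, hpar,
      o1, hsymm]
    rw [G.g_symm Y (P X), hsymm, G.g_symm Y X]
    ring
  · have hR := hcurv X Y ξ
    have e : G.nab X (G.nab Y ξ) = G.nab Y (G.nab X ξ) + G.nab (G.brk X Y) ξ +
        L • (G.g (P Y) ξ • P X - G.g (P X) ξ • P Y +
          (G.g (Y - P Y) ξ • (X - P X) - G.g (X - P X) ξ • (Y - P Y))) := by
      rw [← hR, LC.R]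
      abel
    change G.nab X (G.nab Y ξ + L • (f • P Y + h • (Y - P Y))) +
        L • ((G.D Y f - G.g (P Y) ξ) • P X + (G.D Y h - G.g (Y - P Y) ξ) • (X - P X)) -
      (G.nab Y (G.nab X ξ + L • (f • P X + h • (X - P X))) +
        L • ((G.D X f - G.g (P X) ξ) • P Y + (G.D X h - G.g (X - P X) ξ) • (Y - P Y))) =
      G.nab (G.brk X Y) ξ + L • (f • P (G.brk X Y) + h • (G.brk X Y - P (G.brk X Y)))
    rw [hPb]
    simp only [G.nab_add, G.nab_smul, G.nab_sub, hL, hpar, e]
    rw [show G.brk X Y = G.nab X Y - G.nab Y X from rfl]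
    module

end alg

/-! ### the flat bundle of a splitting -/

variable {E : Type} [NormedAddCommGroup E] [NormedSpace ℝ E] [FiniteDimensional ℝ E]
  {M : Type} [TopologicalSpace M] [ChartedSpace E M] [IsManifold 𝓘(ℝ, E) ∞ M] [T2Space M]
  [RiemannianBundle fun p : M => TangentSpace 𝓘(ℝ, E) p]
  [IsContMDiffRiemannianBundle 𝓘(ℝ, E) ∞ E fun p : M => TangentSpace 𝓘(ℝ, E) p]
  {cov : CovariantDerivative 𝓘(ℝ, E) E (TangentSpace 𝓘(ℝ, E) : M → Type)}

/-- triples of two functions and a field -/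
abbrev Tri (E M : Type) [NormedAddCommGroup E] [NormedSpace ℝ E] [TopologicalSpace M]
    [ChartedSpace E M] [IsManifold 𝓘(ℝ, E) ∞ M] : Type :=
  SF E M × SF E M × VF E M

/-- the fibre of the bundle -/
abbrev Fib (E : Type) {M : Type} [NormedAddCommGroup E] [NormedSpace ℝ E] [TopologicalSpace M]
    [ChartedSpace E M] [IsManifold 𝓘(ℝ, E) ∞ M] (q : M) : Type :=
  ℝ × ℝ × TangentSpace 𝓘(ℝ, E) q

/-- value of a triple at a point -/
def evT (q : M) (s : Tri E M) : Fib E q := (s.1 q, s.2.1 q, s.2.2 q)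

theorem evT_sub (q : M) (s s' : Tri E M) : evT q (s - s') = evT q s - evT q s' := rfl

theorem VF_eq_zero {Z : VF E M} (h : ∀ W : VF E M, gVF Z W = 0) : Z = 0 := by
  ext q
  have h1 : gVF Z Z q = 0 := by
    rw [h Z]
    rfl
  exact gVF_self_eq_zero.mp h1

theorem DVF_cst (X : VF E M) (c : ℝ) : DVF X (cst c) = 0 := DVF_const X c

theorem cst_apply (c : ℝ) (q : M) : (cst c : SF E M) q = c := by
  simp [cst, Algebra.algebraMap_eq_smul_one]

/-- endomorphism fields act pointwise -/
theorem P_ptwise (P : VF E M →ₗ[SF E M] VF E M) {q : M} {Z : VF E M} (h : Z q = 0) :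
    P Z q = 0 := by
  let Φ : VF E M →ₗ[SF E M] SF E M :=
    { toFun := fun A => gVF (P A) (P Z)
      map_add' := fun A B => by
        rw [map_add]
        ext x
        exact inner_add_left (𝕜 := ℝ) (P A x) (P B x) (P Z x)
      map_smul' := fun a A => by
        rw [map_smul]
        ext x
        change inner ℝ (a x • P A x) (P Z x) = a x * inner ℝ (P A x) (P Z x)
        rw [real_inner_smul_left] }
  exact gVF_self_eq_zero.mp (lin_ptwise Φ h)

/-- derivative of a triple -/
def DT (hcov : IsLC cov) (lam : ℝ) (P : VF E M →ₗ[SF E M] VF E M) (X : VF E M) (s : Tri E M) :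
    Tri E M := DS (lcOf hcov) P (cst lam) X s

/-- the curvature operator of a splitting -/
theorem R_eq {hcov : IsLC cov} {lam : ℝ} {P : VF E M →ₗ[SF E M] VF E M}
    (hS : Split hcov lam P) (X Y Z : VF E M) :
    (lcOf hcov).R X Y Z = (cst lam : SF E M) • (gVF (P Y) Z • P X - gVF (P X) Z • P Y +
      (gVF (Y - P Y) Z • (X - P X) - gVF (X - P X) Z • (Y - P Y))) := by
  rw [← sub_eq_zero]
  refine VF_eq_zero (E := E) (M := M) fun W => ?_
  have h1 := hS.curv X Y Z W
  have h2 : (lcOf hcov).Rm X Y Z W = gVF ((lcOf hcov).R X Y Z) W := rfl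
  rw [h2] at h1
  have gs : ∀ A B C : VF E M, gVF (A - B) C = gVF A C - gVF B C := (lcOf hcov).g_sub_left
  have ga : ∀ A B C : VF E M, gVF (A + B) C = gVF A C + gVF B C := (lcOf hcov).g_add_left
  have gm : ∀ (a : SF E M) (B C : VF E M), gVF (a • B) C = a * gVF B C := (lcOf hcov).g_smul_left
  rw [gs, h1]
  simp only [gm, ga, gs]
  ring

theorem DT_comm {hcov : IsLC cov} {lam : ℝ} {P : VF E M →ₗ[SF E M] VF E M}
    (hS : Split hcov lam P) (X Y : VF E M) (s : Tri E M) :
    DT hcov lam P X (DT hcov lam P Y s) - DT hcov lam P Y (DT hcov lam P X s) =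
      DT hcov lam P ((lcOf hcov).brk X Y) s :=
  DS_comm (lcOf hcov) P (cst lam) (fun X => DVF_cst X lam) hS.proj hS.symm hS.par (R_eq hS) X Y s

theorem DT_ptwise (hcov : IsLC cov) (lam : ℝ) (P : VF E M →ₗ[SF E M] VF E M) {q : M}
    {Z : VF E M} (h : Z q = 0) (s : Tri E M) : evT q (DT hcov lam P Z s) = 0 := by
  obtain ⟨f, g, ξ⟩ := s
  have hP : P Z q = 0 := P_ptwise P h
  have hP' : (Z - P Z) q = 0 := by
    change Z q - P Z q = 0
    rw [h, hP, sub_zero]
  refine Prod.ext ?_ (Prod.ext ?_ ?_)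
  · change mvfderiv 𝓘(ℝ, E) f q (Z q) - inner ℝ (P Z q) (ξ q) = 0
    rw [h, hP, map_zero, inner_zero_left, sub_zero]
  · change mvfderiv 𝓘(ℝ, E) g q (Z q) - inner ℝ ((Z - P Z) q) (ξ q) = 0
    rw [h, hP', map_zero, inner_zero_left, sub_zero]
  · change cov ξ q (Z q) + cst lam q • (f q • P Z q + g q • (Z - P Z) q) = 0
    rw [h, hP, hP', map_zero, smul_zero, smul_zero, add_zero, smul_zero, add_zero]

/-! ### components in an orthonormal frame -/

/-- index set of the components -/
abbrev Ix : Type := Option (Option (Fin 4))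

/-- components of a triple in a frame -/
def tht (F : Fin 4 → VF E M) (s : Tri E M) : Ix → SF E M
  | none => s.1
  | some none => s.2.1
  | some (some j) => gVF s.2.2 (F j)

theorem tht_of_ev (F : Fin 4 → VF E M) (i : Ix) {q : M} {s : Tri E M} (h : evT q s = 0) :
    tht F s i q = 0 := by
  obtain ⟨f, g, ξ⟩ := s
  match i with
  | none => exact congrArg (fun u => u.1) h
  | some none => exact congrArg (fun u => u.2.1) h
  | some (some j) =>
    have h1 : ξ q = 0 := congrArg (fun u => u.2.2) h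
    change inner ℝ (ξ q) (F j q) = 0
    rw [h1, inner_zero_left]

theorem tht_sub (F : Fin 4 → VF E M) (i : Ix) (s s' : Tri E M) (q : M) :
    tht F (s - s') i q = tht F s i q - tht F s' i q := by
  match i with
  | none => rfl
  | some none => rfl
  | some (some j) => exact inner_sub_left (𝕜 := ℝ) (s.2.2 q) (s'.2.2 q) (F j q)

/-- the triples with constant components -/
def bas (F : Fin 4 → VF E M) : Ix → Tri E M
  | none => (1, 0, 0)
  | some none => (0, 1, 0)
  | some (some j) => (0, 0, F j)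

/-- the connection matrix -/
def mat (hcov : IsLC cov) (lam : ℝ) (P : VF E M →ₗ[SF E M] VF E M) (F : Fin 4 → VF E M)
    (X : VF E M) : Ix → Ix → SF E M
  | none, none => 0
  | none, some none => 0
  | none, some (some j) => - gVF (P X) (F j)
  | some none, none => 0
  | some none, some none => 0
  | some none, some (some j) => - gVF (X - P X) (F j)
  | some (some i), none => cst lam * gVF (P X) (F i)
  | some (some i), some none => cst lam * gVF (X - P X) (F i)
  | some (some i), some (some j) => - gVF (F j) (nabVF cov hcov.smooth X (F i))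

/-- `F` is orthonormal at `q` -/
def ONq (F : Fin 4 → VF E M) (q : M) : Prop := ∀ i j, gVF (F i) (F j) q = if i = j then 1 else 0

theorem inner_frame (hE : Module.finrank ℝ E = 4) {F : Fin 4 → VF E M} {q : M} (hF : ONq F q)
    (Y Z : VF E M) : gVF Y Z q = ∑ j, gVF Y (F j) q * gVF Z (F j) q := by
  have h := expandVF hE q F hF Z
  rw [gVF_apply, h, inner_sum]
  refine Finset.sum_congr rfl fun j _ => ?_
  rw [real_inner_smul_right, gVF_apply, gVF_apply]
  ring

theorem tht_DT (hE : Module.finrank ℝ E = 4) (hcov : IsLC cov) (lam : ℝ)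
    (P : VF E M →ₗ[SF E M] VF E M) {F : Fin 4 → VF E M} {q : M} (hF : ONq F q) (X : VF E M)
    (s : Tri E M) (i : Ix) :
    tht F (DT hcov lam P X s) i q =
      DVF X (tht F s i) q + ∑ j, mat hcov lam P F X i j q * tht F s j q := by
  obtain ⟨f, h, ξ⟩ := s
  rw [Fintype.sum_option, Fintype.sum_option]
  match i with
  | none =>
    change DVF X f q - gVF (P X) ξ q = DVF X f q + (0 * f q + (0 * h q +
      ∑ j, - gVF (P X) (F j) q * gVF ξ (F j) q))
    rw [inner_frame hE hF (P X) ξ]
    simp only [neg_mul, Finset.sum_neg_distrib]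
    ring
  | some none =>
    change DVF X h q - gVF (X - P X) ξ q = DVF X h q + (0 * f q + (0 * h q +
      ∑ j, - gVF (X - P X) (F j) q * gVF ξ (F j) q))
    rw [inner_frame hE hF (X - P X) ξ]
    simp only [neg_mul, Finset.sum_neg_distrib]
    ring
  | some (some i) =>
    have gs : ∀ A B C : VF E M, gVF (A - B) C = gVF A C - gVF B C := (lcOf hcov).g_sub_left
    have ga : ∀ A B C : VF E M, gVF (A + B) C = gVF A C + gVF B C := (lcOf hcov).g_add_left
    have gm : ∀ (a : SF E M) (B C : VF E M), gVF (a • B) C = a * gVF B C :=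
      (lcOf hcov).g_smul_left
    have h1 := metricVF hcov X ξ (F i) q
    have h2 := inner_frame hE hF ξ (nabVF cov hcov.smooth X (F i))
    change gVF (nabVF cov hcov.smooth X ξ + cst lam • (f • P X + h • (X - P X))) (F i) q =
      DVF X (gVF ξ (F i)) q + (cst lam q * gVF (P X) (F i) q * f q +
        (cst lam q * gVF (X - P X) (F i) q * h q +
        ∑ j, - gVF (F j) (nabVF cov hcov.smooth X (F i)) q * gVF ξ (F j) q))
    rw [h1, h2, ga, gm, ga, gm, gm]
    have h3 : ∀ j, gVF (F j) (nabVF cov hcov.smooth X (F i)) q =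
        gVF (nabVF cov hcov.smooth X (F i)) (F j) q := fun j =>
      congrArg (fun u : SF E M => u q) ((lcOf hcov).g_symm (F j) (nabVF cov hcov.smooth X (F i)))
    simp only [h3, neg_mul, Finset.sum_neg_distrib]
    change gVF (nabVF cov hcov.smooth X ξ) (F i) q + cst lam q * (f q * gVF (P X) (F i) q +
      h q * gVF (X - P X) (F i) q) = _
    simp only [mul_comm (gVF (nabVF cov hcov.smooth X (F i)) (F _) q)]
    ring

theorem gVF_zero_left (Z : VF E M) (q : M) : gVF (0 : VF E M) Z q = 0 := by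
  rw [gVF_apply]
  exact inner_zero_left _

theorem tht_bas {F : Fin 4 → VF E M} {q : M} (hF : ONq F q) (i j : Ix) :
    tht F (bas F j) i q = if i = j then 1 else 0 := by
  match i, j with
  | none, none => rfl
  | none, some none => rfl
  | none, some (some j) => rfl
  | some none, none => rfl
  | some none, some none => rfl
  | some none, some (some j) => rfl
  | some (some i), none => exact gVF_zero_left (F i) q
  | some (some i), some none => exact gVF_zero_left (F i) q
  | some (some i), some (some j) =>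
    change gVF (F j) (F i) q = if (some (some i) : Ix) = some (some j) then 1 else 0
    rw [hF j i]
    simp only [Option.some.injEq, eq_comm]

/-- the connection matrix is flat -/
theorem mat_flat (hE : Module.finrank ℝ E = 4) {hcov : IsLC cov} {lam : ℝ}
    {P : VF E M →ₗ[SF E M] VF E M} (hS : Split hcov lam P) {F : Fin 4 → VF E M} {q : M}
    (hF : ∀ᶠ y in 𝓝 q, ONq F y) (X Y : VF E M)
    (hXY : nabVF cov hcov.smooth X Y q = nabVF cov hcov.smooth Y X q) (i j : Ix) :
    DVF X (mat hcov lam P F Y i j) q - DVF Y (mat hcov lam P F X i j) q +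
      ((∑ h, mat hcov lam P F X i h q * mat hcov lam P F Y h j q) -
        ∑ h, mat hcov lam P F Y i h q * mat hcov lam P F X h j q) = 0 := by
  have h1 : ∀ (Y : VF E M) (h : Ix), ∀ᶠ y in 𝓝 q, tht F (DT hcov lam P Y (bas F j)) h y =
      mat hcov lam P F Y h j y := by
    intro Y h
    filter_upwards [hF.eventually_nhds] with y hy
    rw [tht_DT hE hcov lam P hy.self_of_nhds]
    have h2 : DVF Y (tht F (bas F j) h) y = 0 := by
      rw [DVF_local y (tht F (bas F j) h) (cst (if h = j then 1 else 0)) ?_ Y, DVF_cst]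
      · rfl
      · filter_upwards [hy] with z hz
        rw [tht_bas hz, cst_apply]
    rw [h2, zero_add]
    simp only [tht_bas hy.self_of_nhds]
    simp
  have h2 : ∀ X Y : VF E M, tht F (DT hcov lam P X (DT hcov lam P Y (bas F j))) i q =
      DVF X (mat hcov lam P F Y i j) q +
        ∑ h, mat hcov lam P F X i h q * mat hcov lam P F Y h j q := by
    intro X Y
    rw [tht_DT hE hcov lam P hF.self_of_nhds, DVF_local q _ _ (h1 Y i) X]
    congr 1
    exact Finset.sum_congr rfl fun h _ => by rw [(h1 Y h).self_of_nhds]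
  have h3 := DT_comm hS X Y (bas F j)
  have h4 : tht F (DT hcov lam P X (DT hcov lam P Y (bas F j)) -
      DT hcov lam P Y (DT hcov lam P X (bas F j))) i q = 0 := by
    rw [h3]
    refine tht_of_ev F i (DT_ptwise hcov lam P ?_ _)
    change nabVF cov hcov.smooth X Y q - nabVF cov hcov.smooth Y X q = 0
    rw [hXY, sub_self]
  have h5 : tht F (DT hcov lam P X (DT hcov lam P Y (bas F j)) -
      DT hcov lam P Y (DT hcov lam P X (bas F j))) i q =
      tht F (DT hcov lam P X (DT hcov lam P Y (bas F j))) i q -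
      tht F (DT hcov lam P Y (DT hcov lam P X (bas F j))) i q := tht_sub F i _ _ q
  rw [h5, h2, h2] at h4
  linarith

end

end Vale.Agent.P211.HK.S22.FS
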