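import Mathlib

/-! P211 / HK, part EUJ (helper209): joint smoothness of `t ^ a * exp (-|v|^2 / (4 t)) * P v`, extended by `0`
to `t ≤ 0`. The weight of `t ^ a * P v`, `P` homogeneous of degree `k`, is `a + k / 2`; every
derivative lowers the weight by at most `1`; weight `> m` implies `C^m` on `ℝ × V`. -/

namespace Vale.Agent.P211.HK

open Filter Topology Set
open scoped RealInnerProductSpace ContDiff

noncomputable section

variable {V : Type*} [NormedAddCommGroup V] [InnerProductSpace ℝ V]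

/-- homogeneous polynomials of degree `k` on `V` -/
inductive Hm : ℕ → (V → ℝ) → Prop
  | one (c : ℝ) : Hm 0 (fun _ => c)
  | mul (c : V) {k : ℕ} {P : V → ℝ} : Hm k P → Hm (k + 1) (fun v => ⟪c, v⟫ * P v)
  | add {k : ℕ} {P Q : V → ℝ} : Hm k P → Hm k Q → Hm k (fun v => P v + Q v)

theorem Hm.congr {k : ℕ} {P Q : V → ℝ} (h : Hm k P) (e : ∀ v, Q v = P v) : Hm k Q := by
  rw [show Q = P from funext e]; exact h

theorem Hm.smul {k : ℕ} {P : V → ℝ} (h : Hm k P) (r : ℝ) : Hm k (fun v => r * P v) := by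
  induction h with
  | one c => exact Hm.one (r * c)
  | mul c h ih =>
    have := Hm.mul c ih
    refine this.congr fun v => ?_
    ring
  | add h1 h2 ih1 ih2 =>
    have := Hm.add ih1 ih2
    refine this.congr fun v => ?_
    ring

theorem Hm.zero (k : ℕ) : Hm k (fun _ : V => (0 : ℝ)) := by
  induction k with
  | zero => exact Hm.one 0
  | succ k ih =>
    have := Hm.mul (0 : V) ih
    refine this.congr fun v => ?_
    simp

theorem Hm.sum {ι : Type*} (s : Finset ι) {k : ℕ} {P : ι → V → ℝ} (h : ∀ i ∈ s, Hm k (P i)) :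
    Hm k (fun v => ∑ i ∈ s, P i v) := by
  classical
  induction s using Finset.induction_on with
  | empty => simpa using Hm.zero k
  | insert a s ha ih =>
    have := Hm.add (h a (Finset.mem_insert_self a s))
      (ih fun i hi => h i (Finset.mem_insert_of_mem hi))
    refine this.congr fun v => ?_
    rw [Finset.sum_insert ha]

theorem Hm.contDiff {k : ℕ} {P : V → ℝ} (h : Hm k P) {n : WithTop ℕ∞} : ContDiff ℝ n P := by
  induction h with
  | one c => exact contDiff_const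
  | mul c h ih => exact (contDiff_const.inner ℝ contDiff_id).mul ih
  | add h1 h2 ih1 ih2 => exact ih1.add ih2

theorem Hm.bound {k : ℕ} {P : V → ℝ} (h : Hm k P) : ∃ C : ℝ, 0 ≤ C ∧ ∀ v, |P v| ≤ C * ‖v‖ ^ k := by
  induction h with
  | one c => exact ⟨|c|, abs_nonneg c, fun v => by simp⟩
  | @mul c k P h ih =>
    obtain ⟨C, hC, h⟩ := ih
    refine ⟨‖c‖ * C, by positivity, fun v => ?_⟩
    rw [abs_mul]
    calc |⟪c, v⟫| * |P v| ≤ (‖c‖ * ‖v‖) * (C * ‖v‖ ^ k) :=
          mul_le_mul (abs_real_inner_le_norm c v) (h v) (abs_nonneg _) (by positivity)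
      _ = ‖c‖ * C * ‖v‖ ^ (k + 1) := by ring
  | @add k P Q h1 h2 ih1 ih2 =>
    obtain ⟨C, hC, h⟩ := ih1
    obtain ⟨D, hD, h'⟩ := ih2
    refine ⟨C + D, by positivity, fun v => ?_⟩
    calc |P v + Q v| ≤ |P v| + |Q v| := abs_add_le _ _
      _ ≤ C * ‖v‖ ^ k + D * ‖v‖ ^ k := add_le_add (h v) (h' v)
      _ = (C + D) * ‖v‖ ^ k := by ring

/-- the directional derivative of a homogeneous polynomial -/
theorem Hm.deriv {k : ℕ} {P : V → ℝ} (h : Hm k P) (e : V) :
    (k = 0 → ∀ v, fderiv ℝ P v e = 0) ∧ ∀ j, k = j + 1 → Hm j (fun v => fderiv ℝ P v e) := by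
  induction h with
  | one c => exact ⟨fun _ v => by simp, fun j hj => by omega⟩
  | @mul c k P h ih =>
    refine ⟨fun h => by omega, fun j hj => ?_⟩
    obtain rfl : k = j := by omega
    have hd : ∀ v, fderiv ℝ (fun v => ⟪c, v⟫ * P v) v e = ⟪c, v⟫ * fderiv ℝ P v e + ⟪c, e⟫ * P v := by
      intro v
      have h1 : HasFDerivAt (fun v : V => ⟪c, v⟫) (innerSL ℝ c) v :=
        (innerSL ℝ c).hasFDerivAt
      have h2 : HasFDerivAt P (fderiv ℝ P v) v :=
        ((h.contDiff (n := 1)).differentiable (by simp) v).hasFDerivAt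
      rw [(h1.fun_mul h2).fderiv]
      simp [innerSL_apply_apply, mul_comm]
    rcases Nat.eq_zero_or_pos k with hk | hk
    · subst hk
      have : Hm 0 (fun v => ⟪c, e⟫ * P v) := h.smul _
      refine this.congr fun v => ?_
      rw [hd, ih.1 rfl v]
      ring
    · obtain ⟨i, rfl⟩ := Nat.exists_eq_succ_of_ne_zero hk.ne'
      have h3 : Hm (i + 1) (fun v => ⟪c, v⟫ * fderiv ℝ P v e) := Hm.mul c (ih.2 i rfl)
      have h4 := Hm.add h3 (h.smul ⟪c, e⟫)
      refine h4.congr fun v => ?_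
      rw [hd]
  | @add k P Q h1 h2 ih1 ih2 =>
    have hd : ∀ v, fderiv ℝ (fun v => P v + Q v) v e = fderiv ℝ P v e + fderiv ℝ Q v e := by
      intro v
      rw [fderiv_fun_add ((h1.contDiff (n := 1)).differentiable (by simp) v)
        ((h2.contDiff (n := 1)).differentiable (by simp) v)]
      rfl
    refine ⟨fun h v => by rw [hd, ih1.1 h v, ih2.1 h v, add_zero], fun j hj => ?_⟩
    have := Hm.add (ih1.2 j hj) (ih2.2 j hj)
    refine this.congr fun v => ?_
    rw [hd]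

theorem Hm.normSq_mul [FiniteDimensional ℝ V] {k : ℕ} {P : V → ℝ} (h : Hm k P) :
    Hm (k + 2) (fun v => ‖v‖ ^ 2 * P v) := by
  have b := stdOrthonormalBasis ℝ V
  have := Hm.sum Finset.univ (k := k + 2) (P := fun i v => ⟪b i, v⟫ * (⟪b i, v⟫ * P v))
    (fun i _ => Hm.mul (b i) (Hm.mul (b i) h))
  refine this.congr fun v => ?_
  have h2 : ‖v‖ ^ 2 = ∑ i, ⟪b i, v⟫ * ⟪b i, v⟫ := by
    rw [← real_inner_self_eq_norm_sq, ← b.sum_inner_mul_inner v v]
    exact Finset.sum_congr rfl fun i _ => by rw [real_inner_comm v (b i)]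
  rw [h2, Finset.sum_mul]
  exact Finset.sum_congr rfl fun i _ => by ring

/-- the Gaussian family -/
def gE (a : ℝ) (P : V → ℝ) : ℝ × V → ℝ := fun q =>
  if 0 < q.1 then q.1 ^ a * P q.2 * Real.exp (-‖q.2‖ ^ 2 / (4 * q.1)) else 0

omit [InnerProductSpace ℝ V] in
theorem gE_of_pos (a : ℝ) (P : V → ℝ) {q : ℝ × V} (h : 0 < q.1) :
    gE a P q = q.1 ^ a * P q.2 * Real.exp (-‖q.2‖ ^ 2 / (4 * q.1)) := if_pos h

omit [InnerProductSpace ℝ V] in
theorem gE_of_nonpos (a : ℝ) (P : V → ℝ) {q : ℝ × V} (h : q.1 ≤ 0) : gE a P q = 0 :=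
  if_neg (not_lt.2 h)

theorem pow_mul_exp_le (k : ℕ) {x : ℝ} (hx : 0 ≤ x) :
    x ^ k * Real.exp (-x ^ 2 / 4) ≤ k.factorial * Real.exp 1 := by
  have h1 : x ^ k / k.factorial ≤ Real.exp x := Real.pow_div_factorial_le_exp x hx k
  have h2 : x ^ k ≤ k.factorial * Real.exp x := by
    rw [div_le_iff₀ (by positivity)] at h1
    linarith [mul_comm (Real.exp x) (k.factorial : ℝ)]
  calc x ^ k * Real.exp (-x ^ 2 / 4) ≤ (k.factorial * Real.exp x) * Real.exp (-x ^ 2 / 4) :=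
        mul_le_mul_of_nonneg_right h2 (Real.exp_nonneg _)
    _ = k.factorial * Real.exp (x + -x ^ 2 / 4) := by rw [Real.exp_add]; ring
    _ ≤ k.factorial * Real.exp 1 := by
        refine mul_le_mul_of_nonneg_left (Real.exp_le_exp.2 ?_) (by positivity)
        nlinarith [sq_nonneg (x - 2)]

/-- global bound: weight `a + k / 2` -/
theorem gE_bound (a : ℝ) {k : ℕ} {P : V → ℝ} (h : Hm k P) :
    ∃ C : ℝ, 0 ≤ C ∧ ∀ q : ℝ × V, 0 < q.1 → |gE a P q| ≤ C * q.1 ^ (a + k / 2) := by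
  obtain ⟨C, hC, hP⟩ := h.bound
  refine ⟨C * (k.factorial * Real.exp 1), by positivity, fun q hq => ?_⟩
  obtain ⟨t, v⟩ := q
  simp only at hq
  rw [gE_of_pos a P hq]
  simp only
  have hs : 0 < Real.sqrt t := Real.sqrt_pos.2 hq
  set x := ‖v‖ / Real.sqrt t with hx
  have hx0 : 0 ≤ x := by positivity
  have hv : ‖v‖ = x * Real.sqrt t := by rw [hx]; field_simp
  have h1 : ‖v‖ ^ k = x ^ k * t ^ ((k : ℝ) / 2) := by
    rw [hv, mul_pow]
    congr 1
    rw [Real.sqrt_eq_rpow, ← Real.rpow_natCast, ← Real.rpow_mul hq.le]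
    congr 1; ring
  have h2 : -‖v‖ ^ 2 / (4 * t) = -x ^ 2 / 4 := by
    rw [hv, mul_pow, Real.sq_sqrt hq.le]
    field_simp
  rw [abs_mul, abs_mul, abs_of_pos (Real.rpow_pos_of_pos hq a), abs_of_pos (Real.exp_pos _), h2]
  calc t ^ a * |P v| * Real.exp (-x ^ 2 / 4)
      ≤ t ^ a * (C * ‖v‖ ^ k) * Real.exp (-x ^ 2 / 4) := by
        gcongr
        exact hP v
    _ = t ^ a * t ^ ((k : ℝ) / 2) * C * (x ^ k * Real.exp (-x ^ 2 / 4)) := by rw [h1]; ring
    _ ≤ t ^ a * t ^ ((k : ℝ) / 2) * C * (k.factorial * Real.exp 1) := by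
        exact mul_le_mul_of_nonneg_left (pow_mul_exp_le k hx0) (by positivity)
    _ = C * (k.factorial * Real.exp 1) * t ^ (a + k / 2) := by
        rw [Real.rpow_add hq]; ring

/-- the expression for the derivative of `gE a P` in the direction `(s, e)` -/
def dE (a : ℝ) (P : V → ℝ) (s : ℝ) (e : V) (q : ℝ × V) : ℝ :=
  s * (a * gE (a - 1) P q + 1 / 4 * gE (a - 2) (fun v => ‖v‖ ^ 2 * P v) q) +
    gE a (fun v => fderiv ℝ P v e) q - 1 / 2 * gE (a - 1) (fun v => ⟪e, v⟫ * P v) q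

theorem hasFDerivAt_gE_pos (a : ℝ) {k : ℕ} {P : V → ℝ} (h : Hm k P) {q : ℝ × V} (hq : 0 < q.1) :
    ∃ D : ℝ × V →L[ℝ] ℝ, HasFDerivAt (gE a P) D q ∧ ∀ s e, D (s, e) = dE a P s e q := by
  obtain ⟨t, v⟩ := q
  simp only at hq
  have hne : t ≠ 0 := hq.ne'
  have h1 : HasFDerivAt (fun q : ℝ × V => q.1 ^ a)
      ((a * t ^ (a - 1)) • ContinuousLinearMap.fst ℝ ℝ V) (t, v) := by
    have := (hasFDerivAt_fst (𝕜 := ℝ) (p := (t, v))).rpow_const (p := a) (Or.inl hne)
    simpa using this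
  have h2 : HasFDerivAt (fun q : ℝ × V => P q.2)
      ((fderiv ℝ P v).comp (ContinuousLinearMap.snd ℝ ℝ V)) (t, v) :=
    (((h.contDiff (n := 1)).differentiable (by simp) v).hasFDerivAt).comp (t, v) hasFDerivAt_snd
  have h3 : HasFDerivAt (fun q : ℝ × V => q.1⁻¹)
      ((-(t ^ 2)⁻¹) • ContinuousLinearMap.fst ℝ ℝ V) (t, v) := by
    have := (hasDerivAt_inv hne).comp_hasFDerivAt (t, v) (hasFDerivAt_fst (𝕜 := ℝ) (p := (t, v)))
    exact this
  have h4 : HasFDerivAt (fun q : ℝ × V => ‖q.2‖ ^ 2)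
      ((2 : ℝ) • (innerSL ℝ v).comp (ContinuousLinearMap.snd ℝ ℝ V)) (t, v) := by
    have := (hasFDerivAt_snd (𝕜 := ℝ) (p := (t, v)) (E := ℝ) (F := V)).norm_sq
    rw [← Nat.cast_smul_eq_nsmul ℝ] at this
    simpa using this
  have h5 : HasFDerivAt (fun q : ℝ × V => Real.exp ((-1 / 4 : ℝ) * (‖q.2‖ ^ 2 * q.1⁻¹)))
      (Real.exp ((-1 / 4 : ℝ) * (‖v‖ ^ 2 * t⁻¹)) • ((-1 / 4 : ℝ) • (‖v‖ ^ 2 •
        ((-(t ^ 2)⁻¹) • ContinuousLinearMap.fst ℝ ℝ V) +
          t⁻¹ • ((2 : ℝ) • (innerSL ℝ v).comp (ContinuousLinearMap.snd ℝ ℝ V))))) (t, v) :=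
    ((h4.fun_mul h3).const_mul (-1 / 4 : ℝ)).exp
  have h6 := ((h1.fun_mul h2).fun_mul h5)
  have hev : gE a P =ᶠ[𝓝 (t, v)] fun q : ℝ × V =>
      q.1 ^ a * P q.2 * Real.exp ((-1 / 4 : ℝ) * (‖q.2‖ ^ 2 * q.1⁻¹)) := by
    have : ∀ᶠ q : ℝ × V in 𝓝 (t, v), 0 < q.1 :=
      continuous_fst.continuousAt.eventually (lt_mem_nhds hq)
    filter_upwards [this] with q hq'
    rw [gE_of_pos a P hq']
    congr 2
    field_simp
  refine ⟨_, h6.congr_of_eventuallyEq hev, fun s e => ?_⟩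
  have e1 : t ^ (a - 1) = t ^ a * t⁻¹ := by rw [Real.rpow_sub_one hne]; rfl
  have e2 : t ^ (a - 2) = t ^ a * (t ^ 2)⁻¹ := by
    rw [Real.rpow_sub hq, div_eq_mul_inv]; norm_cast
  have e3 : -‖v‖ ^ 2 / (4 * t) = (-1 / 4 : ℝ) * (‖v‖ ^ 2 * t⁻¹) := by field_simp
  simp only [dE, gE_of_pos _ _ (show 0 < (t, v).1 from hq), e1, e2, e3]
  simp only [add_apply, smul_apply, smul_eq_mul,
    ContinuousLinearMap.coe_fst', ContinuousLinearMap.coe_comp, Function.comp_apply,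
    ContinuousLinearMap.coe_snd', innerSL_apply_apply, real_inner_comm e v]
  ring

theorem hasFDerivAt_gE_nonpos (a : ℝ) {k : ℕ} {P : V → ℝ} (h : Hm k P) (hw : 1 < a + k / 2)
    {q : ℝ × V} (hq : q.1 ≤ 0) : HasFDerivAt (gE a P) (0 : ℝ × V →L[ℝ] ℝ) q := by
  obtain ⟨C, hC, hb⟩ := gE_bound a h
  rw [hasFDerivAt_iff_isLittleO_nhds_zero]
  rw [Asymptotics.isLittleO_iff]
  intro c hc
  have hcont : ∀ᶠ y : ℝ × V in 𝓝 0, C * |y.1| ^ (a + k / 2 - 1) < c := by
    have h1 : Continuous fun y : ℝ × V => C * |y.1| ^ (a + k / 2 - 1) :=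
      continuous_const.mul ((continuous_abs.comp continuous_fst).rpow_const
        fun y => Or.inr (by linarith))
    have h2 := h1.tendsto (0 : ℝ × V)
    have h3 : C * |(0 : ℝ × V).1| ^ (a + k / 2 - 1) < c := by
      simp only [Prod.fst_zero, abs_zero]
      rw [Real.zero_rpow (by linarith), mul_zero]; exact hc
    exact h2.eventually (gt_mem_nhds h3)
  filter_upwards [hcont] with y hy
  rw [gE_of_nonpos a P hq]
  simp only [zero_apply, sub_zero]
  rcases le_or_gt (q + y).1 0 with h0 | h0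
  · rw [gE_of_nonpos a P h0]; simp; positivity
  · have h1 := hb _ h0
    have hle : (q + y).1 ≤ |y.1| := by
      have : (q + y).1 = q.1 + y.1 := rfl
      rw [this]; linarith [le_abs_self y.1]
    have hpos : 0 < |y.1| := h0.trans_le hle
    calc ‖gE a P (q + y)‖ = |gE a P (q + y)| := rfl
      _ ≤ C * (q + y).1 ^ (a + k / 2) := h1
      _ ≤ C * |y.1| ^ (a + k / 2) :=
          mul_le_mul_of_nonneg_left (Real.rpow_le_rpow h0.le hle (by linarith)) hC
      _ = (C * |y.1| ^ (a + k / 2 - 1)) * |y.1| := by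
          rw [Real.rpow_sub_one hpos.ne']; field_simp
      _ ≤ c * ‖y‖ := by
          refine mul_le_mul hy.le ?_ (abs_nonneg _) hc.le
          exact norm_fst_le y

theorem dE_nonpos (a : ℝ) (P : V → ℝ) (s : ℝ) (e : V) {q : ℝ × V} (hq : q.1 ≤ 0) :
    dE a P s e q = 0 := by
  simp [dE, gE_of_nonpos _ _ hq]

theorem gE_fderiv (a : ℝ) {k : ℕ} {P : V → ℝ} (h : Hm k P) (hw : 1 < a + k / 2) (q : ℝ × V) :
    DifferentiableAt ℝ (gE a P) q ∧ ∀ s e, fderiv ℝ (gE a P) q (s, e) = dE a P s e q := by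
  rcases le_or_gt q.1 0 with hq | hq
  · have h1 := hasFDerivAt_gE_nonpos a h hw hq
    exact ⟨h1.differentiableAt, fun s e => by rw [h1.fderiv, dE_nonpos a P s e hq]; rfl⟩
  · obtain ⟨D, hD, h2⟩ := hasFDerivAt_gE_pos a h hq
    exact ⟨hD.differentiableAt, fun s e => by rw [hD.fderiv, h2]⟩

theorem continuous_gE (a : ℝ) {k : ℕ} {P : V → ℝ} (h : Hm k P) (hw : 0 < a + k / 2) :
    Continuous (gE a P) := by
  obtain ⟨C, hC, hb⟩ := gE_bound a h
  rw [continuous_iff_continuousAt]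
  intro q
  rcases le_or_gt q.1 0 with hq | hq
  · rw [ContinuousAt, gE_of_nonpos a P hq]
    have hlim : Tendsto (fun y : ℝ × V => C * |y.1 - q.1| ^ (a + k / 2)) (𝓝 q) (𝓝 0) := by
      have h1 : Continuous fun y : ℝ × V => C * |y.1 - q.1| ^ (a + k / 2) :=
        continuous_const.mul ((continuous_abs.comp
          (continuous_fst.sub continuous_const)).rpow_const fun y => Or.inr hw.le)
      have h2 := h1.tendsto q
      simpa [Real.zero_rpow hw.ne'] using h2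
    refine squeeze_zero_norm (fun y => ?_) hlim
    rcases le_or_gt y.1 0 with h0 | h0
    · rw [gE_of_nonpos a P h0]; simp; positivity
    · refine (hb y h0).trans (mul_le_mul_of_nonneg_left ?_ hC)
      refine Real.rpow_le_rpow h0.le ?_ hw.le
      rw [abs_of_pos (by linarith)]; linarith
  · obtain ⟨D, hD, h2⟩ := hasFDerivAt_gE_pos a h hq
    exact hD.continuousAt

theorem contDiff_gE [FiniteDimensional ℝ V] (m : ℕ) : ∀ (a : ℝ) {k : ℕ} {P : V → ℝ}, Hm k P →
    (m : ℝ) < a + k / 2 → ContDiff ℝ m (gE a P) := by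
  induction m with
  | zero =>
    intro a k P h hw
    rw [Nat.cast_zero]
    exact contDiff_zero.2 (continuous_gE a h (by simpa using hw))
  | succ m ih =>
    intro a k P h hw
    push_cast at hw
    have hw1 : 1 < a + k / 2 := by
      have : (0 : ℝ) ≤ m := Nat.cast_nonneg m
      linarith
    have hd := gE_fderiv a h hw1
    rw [show ((m + 1 : ℕ) : WithTop ℕ∞) = (m : WithTop ℕ∞) + 1 by push_cast; rfl,
      contDiff_succ_iff_fderiv_apply]
    refine ⟨fun q => (hd q).1, fun hω => ?_, fun y => ?_⟩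
    · exact absurd hω (by simp)
    · obtain ⟨s, e⟩ := y
      have e0 : (fun q => fderiv ℝ (gE a P) q (s, e)) = dE a P s e := funext fun q => (hd q).2 s e
      rw [e0]
      have c1 : ContDiff ℝ m (gE (a - 1) P) := ih (a - 1) h (by linarith)
      have c2 : ContDiff ℝ m (gE (a - 2) fun v => ‖v‖ ^ 2 * P v) :=
        ih (a - 2) h.normSq_mul (by push_cast; linarith)
      have c4 : ContDiff ℝ m (gE (a - 1) fun v => ⟪e, v⟫ * P v) :=
        ih (a - 1) (Hm.mul e h) (by push_cast; linarith)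
      have c3 : ContDiff ℝ m (gE a fun v => fderiv ℝ P v e) := by
        rcases Nat.eq_zero_or_pos k with hk | hk
        · have h0 : (gE a fun v => fderiv ℝ P v e) = fun _ => 0 := by
            funext q
            have := (h.deriv e).1 hk
            simp [gE, this]
          rw [h0]; exact contDiff_const
        · obtain ⟨j, rfl⟩ := Nat.exists_eq_succ_of_ne_zero hk.ne'
          refine ih a ((h.deriv e).2 j rfl) ?_
          push_cast at hw
          linarith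
      exact ((contDiff_const.mul ((contDiff_const.mul c1).add (contDiff_const.mul c2))).add c3).sub
        (contDiff_const.mul c4)

/-- `t ^ a * exp (-|v|^2 / (4 t))` for `t > 0`, zero for `t ≤ 0` -/
def gX (a : ℝ) (q : ℝ × V) : ℝ :=
  if 0 < q.1 then q.1 ^ a * Real.exp (-‖q.2‖ ^ 2 / (4 * q.1)) else 0

theorem contDiff_gX [FiniteDimensional ℝ V] (m : ℕ) {a : ℝ} (h : (m : ℝ) < a) :
    ContDiff ℝ m (gX (V := V) a) := by
  have h1 := contDiff_gE (V := V) m a (Hm.one 1) (by simpa using h)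
  have : gX (V := V) a = gE a fun _ => 1 := by
    funext q; simp [gX, gE]
  rwa [this]


omit [InnerProductSpace ℝ V] in
theorem gX_of_pos (a : ℝ) {q : ℝ × V} (h : 0 < q.1) :
    gX a q = q.1 ^ a * Real.exp (-‖q.2‖ ^ 2 / (4 * q.1)) := if_pos h

omit [InnerProductSpace ℝ V] in
theorem gX_of_nonpos (a : ℝ) {q : ℝ × V} (h : q.1 ≤ 0) : gX a q = 0 := if_neg (not_lt.2 h)

theorem Hm.normPow [FiniteDimensional ℝ V] (j : ℕ) : Hm (2 * j) (fun v : V => ‖v‖ ^ (2 * j)) := by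
  induction j with
  | zero => exact (Hm.one 1).congr fun v => by simp
  | succ j ih =>
    have h := ih.normSq_mul
    rw [show 2 * (j + 1) = 2 * j + 2 by ring]
    exact h.congr fun v => by ring

/-- away from `v = 0` every power of `t` is allowed -/
theorem contDiffAt_gX [FiniteDimensional ℝ V] (m : ℕ) (a : ℝ) {q : ℝ × V} (hq : q.2 ≠ 0) :
    ContDiffAt ℝ m (gX (V := V) a) q := by
  obtain ⟨j, hj⟩ := exists_nat_gt ((m : ℝ) - a)
  have h1 : ContDiff ℝ m (gE a fun v : V => ‖v‖ ^ (2 * j)) :=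
    contDiff_gE m a (Hm.normPow j) (by push_cast; linarith)
  have h2 : ContDiffAt ℝ m (fun q : ℝ × V => (‖q.2‖ ^ 2) ^ j) q :=
    ((contDiff_norm_sq ℝ).comp contDiff_snd).contDiffAt.pow j
  have h3 : (‖q.2‖ ^ 2) ^ j ≠ 0 := pow_ne_zero _ (pow_ne_zero _ (norm_ne_zero_iff.2 hq))
  refine ((h2.inv h3).mul h1.contDiffAt).congr_of_eventuallyEq ?_
  have hne : ∀ᶠ y : ℝ × V in 𝓝 q, y.2 ≠ 0 :=
    continuous_snd.continuousAt.eventually_ne hq
  filter_upwards [hne] with y hy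
  have h4 : (‖y.2‖ ^ 2) ^ j ≠ 0 := pow_ne_zero _ (pow_ne_zero _ (norm_ne_zero_iff.2 hy))
  simp only [Pi.inv_apply]
  rcases le_or_gt y.1 0 with h0 | h0
  · rw [gX_of_nonpos a h0, gE_of_nonpos _ _ h0, mul_zero]
  · rw [gX_of_pos a h0, gE_of_pos _ _ h0, pow_mul]
    field_simp

/-- **EUJ, main form.** `t ^ a exp(-|v|^2/4t) u(t,v)` extended by zero is `C^m` if `u` is and `m < a` -/
theorem contDiff_gExt [FiniteDimensional ℝ V] {F : Type*} [NormedAddCommGroup F] [NormedSpace ℝ F]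
    (m : ℕ) {a : ℝ} (h : (m : ℝ) < a) {u : ℝ × V → F} (hu : ContDiff ℝ m u) :
    ContDiff ℝ m (fun q => gX a q • u q) :=
  (contDiff_gX m h).smul hu

/-- **EUJ, cut-off form.** any exponent `a`, if `u` vanishes for small `v` -/
theorem contDiff_gExt_far [FiniteDimensional ℝ V] {F : Type*} [NormedAddCommGroup F]
    [NormedSpace ℝ F] (m : ℕ) (a : ℝ) {r : ℝ} (hr : 0 < r) {u : ℝ × V → F}
    (hu : ContDiff ℝ m u) (h0 : ∀ q : ℝ × V, ‖q.2‖ < r → u q = 0) :
    ContDiff ℝ m (fun q => gX a q • u q) := by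
  rw [contDiff_iff_contDiffAt]
  intro q
  rcases eq_or_ne q.2 0 with hq | hq
  · have : (fun q : ℝ × V => gX a q • u q) =ᶠ[𝓝 q] fun _ => 0 := by
      have h1 : ∀ᶠ y : ℝ × V in 𝓝 q, ‖y.2‖ < r :=
        (continuous_norm.comp continuous_snd).continuousAt.eventually
          (gt_mem_nhds (by simp [hq, hr]))
      filter_upwards [h1] with y hy
      rw [h0 y hy, smul_zero]
    exact contDiffAt_const.congr_of_eventuallyEq this
  · exact (contDiffAt_gX m a hq).smul hu.contDiffAt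

/-- the local version with a point-dependent factor -/
theorem contDiffAt_gExt [FiniteDimensional ℝ V] {F : Type*} [NormedAddCommGroup F]
    [NormedSpace ℝ F] (m : ℕ) {a : ℝ} {q : ℝ × V} (h : (m : ℝ) < a ∨ q.2 ≠ 0) {u : ℝ × V → F}
    (hu : ContDiffAt ℝ m u q) : ContDiffAt ℝ m (fun q => gX a q • u q) q := by
  rcases h with h | h
  · exact (contDiff_gX m h).contDiffAt.smul hu
  · exact (contDiffAt_gX m a h).smul hu

/-- with parameters: `q ↦ t(q), v(q)` any `C^m` maps -/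
theorem contDiffAt_gExt_comp [FiniteDimensional ℝ V] {F Q : Type*} [NormedAddCommGroup F]
    [NormedSpace ℝ F] [NormedAddCommGroup Q] [NormedSpace ℝ Q] (m : ℕ) {a : ℝ} {q : Q}
    {t : Q → ℝ} {v : Q → V} (ht : ContDiffAt ℝ m t q) (hv : ContDiffAt ℝ m v q)
    (h : (m : ℝ) < a ∨ v q ≠ 0) {u : Q → F} (hu : ContDiffAt ℝ m u q) :
    ContDiffAt ℝ m (fun q => gX a (t q, v q) • u q) q := by
  have h1 : ContDiffAt ℝ m (gX (V := V) a) (t q, v q) := by
    rcases h with h | h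
    · exact (contDiff_gX m h).contDiffAt
    · exact contDiffAt_gX m a h
  exact (h1.comp q (ht.prodMk hv)).smul hu

/-- global bounds: `|t ^ a P(v) exp(-|v|^2/4t)| ≤ C t ^ (a + k/2)` for `t > 0` -/
theorem gX_mul_bound (a : ℝ) {k : ℕ} {P : V → ℝ} (h : Hm k P) :
    ∃ C : ℝ, 0 ≤ C ∧ ∀ q : ℝ × V, 0 < q.1 → |gX a q * P q.2| ≤ C * q.1 ^ (a + k / 2) := by
  obtain ⟨C, hC, hb⟩ := gE_bound a h
  refine ⟨C, hC, fun q hq => ?_⟩
  have h1 := hb q hq
  rw [gE_of_pos a P hq] at h1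
  rw [gX_of_pos a hq]
  rwa [show q.1 ^ a * Real.exp (-‖q.2‖ ^ 2 / (4 * q.1)) * P q.2 =
    q.1 ^ a * P q.2 * Real.exp (-‖q.2‖ ^ 2 / (4 * q.1)) by ring]

/-- the partial derivatives of `gX a` for `t > 0` -/
theorem fderiv_gX_pos (a : ℝ) {q : ℝ × V} (hq : 0 < q.1) (s : ℝ) (e : V) :
    DifferentiableAt ℝ (gX (V := V) a) q ∧ fderiv ℝ (gX a) q (s, e) =
      s * (a * gX (a - 1) q + ‖q.2‖ ^ 2 / 4 * gX (a - 2) q) - ⟪e, q.2⟫ / 2 * gX (a - 1) q := by
  obtain ⟨D, hD, h2⟩ := hasFDerivAt_gE_pos a (Hm.one (V := V) 1) hq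
  have h0 : gX (V := V) a = gE a fun _ => 1 := by funext q; simp [gX, gE]
  rw [← h0] at hD
  refine ⟨hD.differentiableAt, ?_⟩
  rw [hD.fderiv, h2]
  simp only [dE, gX_of_pos _ hq, gE_of_pos _ _ hq]
  simp
  ring


end

end Vale.Agent.P211.HK
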