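import Mathlib

/-! P211 / HK: Gaussian calculus in `ℝ⁴` (manifold free). helper501.

`G t v = (4 π t)⁻² exp (-|v|²/(4t))`. Moments, derivatives, pointwise bounds, approximate identity and
the small time limit of `∫ χ² G² F`. -/

set_option linter.unusedSectionVars false

namespace Vale.Agent.P211.HK.Gauss

open MeasureTheory Filter Topology Set
open scoped RealInnerProductSpace

noncomputable section

/-- Euclidean four-space -/
abbrev E4 : Type := EuclideanSpace ℝ (Fin 4)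

/-- the Euclidean heat kernel -/
def G (t : ℝ) (v : E4) : ℝ := ((4 * Real.pi * t) ^ 2)⁻¹ * Real.exp (-(1 / (4 * t)) * ‖v‖ ^ 2)

/-! ### pointwise bounds -/

/-- the constant in `pow_mul_exp_le` -/
def Kp (m : ℕ) : ℝ := 1 + m.factorial * 2 ^ m

theorem Kp_pos (m : ℕ) : 0 < Kp m := by unfold Kp; positivity

theorem pow_mul_exp_le_one (m : ℕ) {x : ℝ} (hx : 0 ≤ x) :
    x ^ m * Real.exp (-x ^ 2) ≤ Kp m * Real.exp (-(1 / 2) * x ^ 2) := by
  have h1 : x ^ m ≤ 1 + (x ^ 2) ^ m := by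
    rcases le_total x 1 with h | h
    · have := pow_le_one₀ hx h (n := m)
      have h2 : 0 ≤ (x ^ 2) ^ m := by positivity
      linarith
    · have : x ^ m ≤ (x ^ 2) ^ m := by
        apply pow_le_pow_left₀ hx
        nlinarith
      linarith
  have h2 : ((1 / 2) * x ^ 2) ^ m / m.factorial ≤ Real.exp ((1 / 2) * x ^ 2) :=
    Real.pow_div_factorial_le_exp _ (by positivity) m
  have h3 : (x ^ 2) ^ m ≤ (m.factorial * 2 ^ m) * Real.exp ((1 / 2) * x ^ 2) := by
    have hf : (0 : ℝ) < m.factorial := by exact_mod_cast m.factorial_pos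
    rw [div_le_iff₀ hf, mul_pow] at h2
    have : (x ^ 2) ^ m = 2 ^ m * ((1 / 2) ^ m * (x ^ 2) ^ m) := by
      rw [← mul_assoc, ← mul_pow]; norm_num
    rw [this]
    calc (2 : ℝ) ^ m * ((1 / 2) ^ m * (x ^ 2) ^ m)
        ≤ 2 ^ m * (Real.exp ((1 / 2) * x ^ 2) * m.factorial) :=
          mul_le_mul_of_nonneg_left h2 (by positivity)
      _ = _ := by ring
  have h4 : (1 : ℝ) ≤ Real.exp ((1 / 2) * x ^ 2) := Real.one_le_exp (by positivity)
  have h5 : x ^ m ≤ Kp m * Real.exp ((1 / 2) * x ^ 2) := by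
    unfold Kp; nlinarith
  calc x ^ m * Real.exp (-x ^ 2) ≤ (Kp m * Real.exp ((1 / 2) * x ^ 2)) * Real.exp (-x ^ 2) :=
        mul_le_mul_of_nonneg_right h5 (Real.exp_pos _).le
    _ = _ := by
      rw [mul_assoc, ← Real.exp_add]
      ring_nf

theorem pow_mul_exp_le (m : ℕ) {b s : ℝ} (hb : 0 < b) (hs : 0 ≤ s) :
    s ^ m * Real.exp (-b * s ^ 2) ≤ Kp m / (Real.sqrt b) ^ m * Real.exp (-(b / 2) * s ^ 2) := by
  have h := pow_mul_exp_le_one m (x := Real.sqrt b * s) (by positivity)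
  have h0 : (Real.sqrt b * s) ^ 2 = b * s ^ 2 := by rw [mul_pow, Real.sq_sqrt hb.le]
  rw [h0, mul_pow] at h
  have hp : 0 < (Real.sqrt b) ^ m := by positivity
  rw [div_mul_eq_mul_div, le_div_iff₀ hp]
  calc s ^ m * Real.exp (-b * s ^ 2) * Real.sqrt b ^ m
      = Real.sqrt b ^ m * s ^ m * Real.exp (-(b * s ^ 2)) := by ring_nf
    _ ≤ Kp m * Real.exp (-(1 / 2) * (b * s ^ 2)) := h
    _ = _ := by ring_nf

/-! ### integrals -/

theorem integral_exp {b : ℝ} (hb : 0 < b) :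
    ∫ v : E4, Real.exp (-b * ‖v‖ ^ 2) = (Real.pi / b) ^ 2 := by
  rw [GaussianFourier.integral_rexp_neg_mul_sq_norm hb]
  have : (Module.finrank ℝ E4 : ℝ) / 2 = (2 : ℕ) := by
    rw [finrank_euclideanSpace]; norm_num
  rw [this, Real.rpow_natCast]

theorem integrable_exp {b : ℝ} (hb : 0 < b) :
    Integrable (fun v : E4 => Real.exp (-b * ‖v‖ ^ 2)) := by
  by_contra h
  have h1 := integral_exp hb
  rw [integral_undef h] at h1
  have : 0 < (Real.pi / b) ^ 2 := by positivity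
  linarith

theorem continuous_exp (b : ℝ) : Continuous fun v : E4 => Real.exp (-b * ‖v‖ ^ 2) := by fun_prop

theorem integrable_pow_exp (m : ℕ) {b : ℝ} (hb : 0 < b) :
    Integrable (fun v : E4 => ‖v‖ ^ m * Real.exp (-b * ‖v‖ ^ 2)) := by
  refine Integrable.mono' ((integrable_exp (half_pos hb)).const_mul (Kp m / (Real.sqrt b) ^ m))
    (by fun_prop) (Eventually.of_forall fun v => ?_)
  rw [Real.norm_of_nonneg (by positivity)]
  exact pow_mul_exp_le m hb (norm_nonneg v)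

theorem integral_pow_exp_le (m : ℕ) {b : ℝ} (hb : 0 < b) :
    ∫ v : E4, ‖v‖ ^ m * Real.exp (-b * ‖v‖ ^ 2) ≤
      Kp m / (Real.sqrt b) ^ m * (2 * Real.pi / b) ^ 2 := by
  have h1 : ∫ v : E4, ‖v‖ ^ m * Real.exp (-b * ‖v‖ ^ 2) ≤
      ∫ v : E4, Kp m / (Real.sqrt b) ^ m * Real.exp (-(b / 2) * ‖v‖ ^ 2) :=
    integral_mono (integrable_pow_exp m hb) ((integrable_exp (half_pos hb)).const_mul _)
      fun v => pow_mul_exp_le m hb (norm_nonneg v)
  rw [integral_const_mul, integral_exp (half_pos hb)] at h1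
  refine h1.trans (le_of_eq ?_)
  congr 2
  field_simp

theorem abs_coord_le (v : E4) (i : Fin 4) : |v i| ≤ ‖v‖ := by
  have := PiLp.norm_apply_le v i
  simpa using this

theorem hasFDerivAt_exp (b : ℝ) (v : E4) :
    HasFDerivAt (fun v : E4 => Real.exp (-b * ‖v‖ ^ 2))
      ((-2 * b * Real.exp (-b * ‖v‖ ^ 2)) • innerSL ℝ v) v := by
  have h1 : HasFDerivAt (fun v : E4 => ‖v‖ ^ 2) (2 • innerSL ℝ v) v :=
    (hasStrictFDerivAt_norm_sq v).hasFDerivAt
  have h2 := ((h1.const_mul (-b)).exp)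
  refine h2.congr_fderiv ?_
  ext w
  simp
  ring

/-- second moments of a Gaussian -/
theorem integral_coord {b : ℝ} (hb : 0 < b) (i k : Fin 4) :
    ∫ v : E4, v i * v k * Real.exp (-b * ‖v‖ ^ 2) =
      if i = k then Real.pi ^ 2 / (2 * b ^ 3) else 0 := by
  classical
  -- integration by parts with `f = v i`, `g = exp`
  set e : E4 := EuclideanSpace.single k 1 with he
  have hfd : ∀ v : E4, HasFDerivAt (fun v : E4 => v i) (EuclideanSpace.proj i : E4 →L[ℝ] ℝ) v :=
    fun v => (EuclideanSpace.proj i : E4 →L[ℝ] ℝ).hasFDerivAt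
  have hf' : ∀ v : E4, fderiv ℝ (fun v : E4 => v i) v e = if i = k then 1 else 0 := fun v => by
    rw [(hfd v).fderiv, he]
    simp
  have hg' : ∀ v : E4, fderiv ℝ (fun v : E4 => Real.exp (-b * ‖v‖ ^ 2)) v e =
      -2 * b * (v k * Real.exp (-b * ‖v‖ ^ 2)) := fun v => by
    rw [(hasFDerivAt_exp b v).fderiv, he]
    simp [EuclideanSpace.inner_single_right]
    ring
  have I2 : Integrable (fun v : E4 => v i * (v k * Real.exp (-b * ‖v‖ ^ 2))) := by
    refine Integrable.mono' (integrable_pow_exp 2 hb) (by fun_prop)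
      (Eventually.of_forall fun v => ?_)
    rw [Real.norm_eq_abs, abs_mul, abs_mul, abs_of_pos (Real.exp_pos _), ← mul_assoc]
    refine mul_le_mul_of_nonneg_right ?_ (Real.exp_pos _).le
    rw [sq]
    exact mul_le_mul (abs_coord_le v i) (abs_coord_le v k) (abs_nonneg _) (norm_nonneg _)
  have I1 : Integrable (fun v : E4 => v i * Real.exp (-b * ‖v‖ ^ 2)) := by
    refine Integrable.mono' (integrable_pow_exp 1 hb) (by fun_prop)
      (Eventually.of_forall fun v => ?_)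
    rw [Real.norm_eq_abs, abs_mul, abs_of_pos (Real.exp_pos _), pow_one]
    exact mul_le_mul_of_nonneg_right (abs_coord_le v i) (Real.exp_pos _).le
  have key := integral_mul_fderiv_eq_neg_fderiv_mul_of_integrable (μ := (volume : Measure E4))
    (f := fun v : E4 => v i) (g := fun v : E4 => Real.exp (-b * ‖v‖ ^ 2)) (v := e)
    (by simp only [hf']; exact (integrable_exp hb).const_mul _)
    (by
      simp only [hg']
      refine (I2.const_mul (-2 * b)).congr (Eventually.of_forall fun v => ?_)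
      simp only
      ring) I1
    (fun v _ => (hfd v).differentiableAt) (fun v _ => (hasFDerivAt_exp b v).differentiableAt)
  simp only [hf', hg'] at key
  have h3 : ∫ v : E4, v i * (-2 * b * (v k * Real.exp (-b * ‖v‖ ^ 2))) =
      -2 * b * ∫ v : E4, v i * v k * Real.exp (-b * ‖v‖ ^ 2) := by
    rw [← integral_const_mul]
    refine integral_congr_ae (Eventually.of_forall fun v => ?_)
    simp only
    ring
  rw [h3, integral_const_mul, integral_exp hb] at key
  have hb' : b ≠ 0 := hb.ne'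
  split_ifs with hik
  · rw [if_pos hik] at key
    have : ∫ v : E4, v i * v k * Real.exp (-b * ‖v‖ ^ 2) = (Real.pi / b) ^ 2 / (2 * b) := by
      field_simp
      field_simp at key
      linarith
    rw [this]
    field_simp
  · rw [if_neg hik] at key
    have h4 : -2 * b * ∫ v : E4, v i * v k * Real.exp (-b * ‖v‖ ^ 2) = 0 := by simpa using key
    rcases mul_eq_zero.mp h4 with h | h
    · exact absurd h (by simp [hb'])
    · exact h

/-! ### the kernel `G` -/

theorem G_pos {t : ℝ} (ht : 0 < t) (v : E4) : 0 < G t v := by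
  have := Real.pi_pos
  unfold G; positivity

theorem G_nonneg (t : ℝ) (v : E4) : 0 ≤ G t v := by
  unfold G; positivity

theorem continuous_G (t : ℝ) : Continuous (G t) := by
  unfold G; fun_prop

theorem G_neg (t : ℝ) (v : E4) : G t (-v) = G t v := by simp [G]

theorem G_le {t : ℝ} (ht : 0 < t) (v : E4) : G t v ≤ ((4 * Real.pi * t) ^ 2)⁻¹ := by
  unfold G
  have h : Real.exp (-(1 / (4 * t)) * ‖v‖ ^ 2) ≤ 1 := by
    rw [Real.exp_le_one_iff]
    have : 0 ≤ 1 / (4 * t) * ‖v‖ ^ 2 := by positivity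
    linarith
  exact mul_le_of_le_one_right (by positivity) h

theorem G_sq (t : ℝ) (v : E4) :
    G t v ^ 2 = ((4 * Real.pi * t) ^ 4)⁻¹ * Real.exp (-(1 / (2 * t)) * ‖v‖ ^ 2) := by
  unfold G
  rw [mul_pow, ← Real.exp_nat_mul]
  congr 1
  · rw [inv_pow, ← pow_mul]
  · congr 1
    push_cast
    ring

theorem integrable_G {t : ℝ} (ht : 0 < t) : Integrable (G t) := by
  unfold G
  exact (integrable_exp (by positivity)).const_mul _

theorem integral_G {t : ℝ} (ht : 0 < t) : ∫ v, G t v = 1 := by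
  have := Real.pi_pos
  unfold G
  rw [integral_const_mul, integral_exp (by positivity)]
  field_simp

theorem integrable_pow_G (m : ℕ) {t : ℝ} (ht : 0 < t) :
    Integrable (fun v => ‖v‖ ^ m * G t v) := by
  have := (integrable_pow_exp m (b := 1 / (4 * t)) (by positivity)).const_mul
    (((4 * Real.pi * t) ^ 2)⁻¹)
  refine this.congr (Eventually.of_forall fun v => ?_)
  simp only [G]
  ring

theorem integrable_pow_G_sq (m : ℕ) {t : ℝ} (ht : 0 < t) :
    Integrable (fun v => ‖v‖ ^ m * G t v ^ 2) := by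
  have := (integrable_pow_exp m (b := 1 / (2 * t)) (by positivity)).const_mul
    (((4 * Real.pi * t) ^ 4)⁻¹)
  refine this.congr (Eventually.of_forall fun v => ?_)
  simp only [G_sq]
  ring

theorem integrable_G_sq {t : ℝ} (ht : 0 < t) : Integrable (fun v => G t v ^ 2) := by
  simpa using integrable_pow_G_sq 0 ht

/-- `∫ G² = 1/(64 π² t²)` -/
theorem integral_G_sq {t : ℝ} (ht : 0 < t) :
    ∫ v, G t v ^ 2 = (64 * Real.pi ^ 2 * t ^ 2)⁻¹ := by
  have := Real.pi_pos
  simp only [G_sq]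
  rw [integral_const_mul, integral_exp (by positivity)]
  field_simp
  norm_num

/-- `∫ G² v_i v_k = t δ_ik /(64 π² t²)` -/
theorem integral_G_sq_coord {t : ℝ} (ht : 0 < t) (i k : Fin 4) :
    ∫ v : E4, v i * v k * G t v ^ 2 = if i = k then (64 * Real.pi ^ 2 * t)⁻¹ else 0 := by
  have := Real.pi_pos
  have h : ∀ v : E4, v i * v k * G t v ^ 2 =
      ((4 * Real.pi * t) ^ 4)⁻¹ * (v i * v k * Real.exp (-(1 / (2 * t)) * ‖v‖ ^ 2)) := fun v => by
    rw [G_sq]; ring
  simp only [h]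
  rw [integral_const_mul, integral_coord (by positivity)]
  split_ifs with hik
  · field_simp
    norm_num
  · simp

/-- the constant in the bounds for the moments of `G` -/
def KG (m : ℕ) : ℝ := 64 * Kp m * 2 ^ m

theorem KG_pos (m : ℕ) : 0 < KG m := by have := Kp_pos m; unfold KG; positivity

/-- `|v|^m G_t(v) ≤ C (√t)^m t⁻² exp(-|v|²/8t)` -/
theorem pow_mul_G_le (m : ℕ) {t : ℝ} (ht : 0 < t) (v : E4) :
    ‖v‖ ^ m * G t v ≤ KG m * (Real.sqrt t) ^ m / t ^ 2 *
      Real.exp (-(1 / (8 * t)) * ‖v‖ ^ 2) := by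
  have hpi := Real.pi_gt_three
  have h := pow_mul_exp_le m (b := 1 / (4 * t)) (s := ‖v‖) (by positivity) (norm_nonneg v)
  have hs : Real.sqrt (1 / (4 * t)) = (2 * Real.sqrt t)⁻¹ := by
    rw [one_div, Real.sqrt_inv, Real.sqrt_mul (by norm_num)]
    congr 2
    rw [show (4 : ℝ) = 2 ^ 2 by norm_num, Real.sqrt_sq (by norm_num)]
  rw [hs, inv_pow, div_inv_eq_mul, mul_pow, show 1 / (4 * t) / 2 = 1 / (8 * t) by
    field_simp; norm_num] at h
  have hst : 0 < Real.sqrt t := Real.sqrt_pos.mpr ht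
  have hK := Kp_pos m
  have h2 : ((4 * Real.pi * t) ^ 2)⁻¹ ≤ 64 / t ^ 2 := by
    rw [inv_eq_one_div, div_le_div_iff₀ (by positivity) (by positivity)]
    nlinarith [pow_pos ht 2, mul_pow (4 * Real.pi) t 2, sq_nonneg (4 * Real.pi),
      mul_self_le_mul_self (by norm_num : (0:ℝ) ≤ 3) hpi.le]
  calc ‖v‖ ^ m * G t v = ((4 * Real.pi * t) ^ 2)⁻¹ *
        (‖v‖ ^ m * Real.exp (-(1 / (4 * t)) * ‖v‖ ^ 2)) := by unfold G; ring
    _ ≤ (64 / t ^ 2) * (Kp m * (2 ^ m * Real.sqrt t ^ m) *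
        Real.exp (-(1 / (8 * t)) * ‖v‖ ^ 2)) :=
      mul_le_mul h2 h (by positivity) (by positivity)
    _ = _ := by unfold KG; ring

theorem pow_mul_G_le' (m : ℕ) {t : ℝ} (ht : 0 < t) (v : E4) :
    ‖v‖ ^ m * G t v ≤ KG m * (Real.sqrt t) ^ m / t ^ 2 := by
  refine (pow_mul_G_le m ht v).trans ?_
  have h : Real.exp (-(1 / (8 * t)) * ‖v‖ ^ 2) ≤ 1 := by
    rw [Real.exp_le_one_iff]
    have : 0 ≤ 1 / (8 * t) * ‖v‖ ^ 2 := by positivity
    linarith
  have hK := KG_pos m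
  exact mul_le_of_le_one_right (by positivity) h

/-- off-diagonal decay: for `|v| ≥ r`, `G_t(v) = O(t^N)` for every `N` -/
theorem G_le_of_le_norm (N : ℕ) {t r : ℝ} (ht : 0 < t) (hr : 0 < r) {v : E4} (hv : r ≤ ‖v‖) :
    G t v ≤ KG (2 * N + 4) / r ^ (2 * N + 4) * t ^ N := by
  have h := pow_mul_G_le' (2 * N + 4) ht v
  have h1 : Real.sqrt t ^ (2 * N + 4) = t ^ N * t ^ 2 := by
    rw [show 2 * N + 4 = 2 * (N + 2) by ring, pow_mul, Real.sq_sqrt ht.le, pow_add]
  rw [h1] at h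
  have h2 : r ^ (2 * N + 4) * G t v ≤ ‖v‖ ^ (2 * N + 4) * G t v :=
    mul_le_mul_of_nonneg_right (pow_le_pow_left₀ hr.le hv _) (G_nonneg t v)
  have h3 : r ^ (2 * N + 4) * G t v ≤ KG (2 * N + 4) * t ^ N := by
    refine h2.trans (h.trans (le_of_eq ?_))
    field_simp
  rw [div_mul_eq_mul_div, le_div_iff₀ (by positivity)]
  linarith

theorem integral_pow_G_le (m : ℕ) {t : ℝ} (ht : 0 < t) :
    ∫ v, ‖v‖ ^ m * G t v ≤ 4 * Kp m * 2 ^ m * (Real.sqrt t) ^ m := by
  have hpi := Real.pi_pos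
  have hst : 0 < Real.sqrt t := Real.sqrt_pos.mpr ht
  have h := integral_pow_exp_le m (b := 1 / (4 * t)) (by positivity)
  have hs : Real.sqrt (1 / (4 * t)) = (2 * Real.sqrt t)⁻¹ := by
    rw [one_div, Real.sqrt_inv, Real.sqrt_mul (by norm_num)]
    congr 2
    rw [show (4 : ℝ) = 2 ^ 2 by norm_num, Real.sqrt_sq (by norm_num)]
  rw [hs, inv_pow, div_inv_eq_mul, mul_pow] at h
  have h1 : ∫ v, ‖v‖ ^ m * G t v = ((4 * Real.pi * t) ^ 2)⁻¹ *
      ∫ v : E4, ‖v‖ ^ m * Real.exp (-(1 / (4 * t)) * ‖v‖ ^ 2) := by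
    rw [← integral_const_mul]
    refine integral_congr_ae (Eventually.of_forall fun v => ?_)
    simp only [G]
    ring
  rw [h1]
  calc ((4 * Real.pi * t) ^ 2)⁻¹ * ∫ v : E4, ‖v‖ ^ m * Real.exp (-(1 / (4 * t)) * ‖v‖ ^ 2)
      ≤ ((4 * Real.pi * t) ^ 2)⁻¹ * (Kp m * (2 ^ m * Real.sqrt t ^ m) *
        (2 * Real.pi / (1 / (4 * t))) ^ 2) := mul_le_mul_of_nonneg_left h (by positivity)
    _ = _ := by field_simp; ring

theorem integral_pow_G_sq_le (m : ℕ) {t : ℝ} (ht : 0 < t) :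
    ∫ v, ‖v‖ ^ m * G t v ^ 2 ≤ Kp m * 2 ^ m * (Real.sqrt t) ^ m / t ^ 2 := by
  have hpi := Real.pi_gt_three
  have hst : 0 < Real.sqrt t := Real.sqrt_pos.mpr ht
  have h := integral_pow_exp_le m (b := 1 / (2 * t)) (by positivity)
  have hs : (Real.sqrt (1 / (2 * t))) ^ m = ((Real.sqrt 2) ^ m * Real.sqrt t ^ m)⁻¹ := by
    rw [one_div, Real.sqrt_inv, Real.sqrt_mul (by norm_num), inv_pow, mul_pow]
  rw [hs, div_inv_eq_mul] at h
  have h1 : ∫ v, ‖v‖ ^ m * G t v ^ 2 = ((4 * Real.pi * t) ^ 4)⁻¹ *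
      ∫ v : E4, ‖v‖ ^ m * Real.exp (-(1 / (2 * t)) * ‖v‖ ^ 2) := by
    rw [← integral_const_mul]
    refine integral_congr_ae (Eventually.of_forall fun v => ?_)
    simp only [G_sq]
    ring
  have h2 : Real.sqrt 2 ^ m ≤ 2 ^ m := by
    apply pow_le_pow_left₀ (Real.sqrt_nonneg _)
    rw [Real.sqrt_le_left (by norm_num)]
    norm_num
  have hK := Kp_pos m
  rw [h1]
  calc ((4 * Real.pi * t) ^ 4)⁻¹ * ∫ v : E4, ‖v‖ ^ m * Real.exp (-(1 / (2 * t)) * ‖v‖ ^ 2)
      ≤ ((4 * Real.pi * t) ^ 4)⁻¹ * (Kp m * (Real.sqrt 2 ^ m * Real.sqrt t ^ m) *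
        (2 * Real.pi / (1 / (2 * t))) ^ 2) := mul_le_mul_of_nonneg_left h (by positivity)
    _ ≤ ((4 * Real.pi * t) ^ 4)⁻¹ * (Kp m * (2 ^ m * Real.sqrt t ^ m) *
        (2 * Real.pi / (1 / (2 * t))) ^ 2) := by gcongr
    _ = Kp m * 2 ^ m * (Real.sqrt t) ^ m / t ^ 2 * (16 * Real.pi ^ 2)⁻¹ := by
      field_simp; ring
    _ ≤ _ := by
      refine mul_le_of_le_one_right (by positivity) ?_
      apply inv_le_one_of_one_le₀
      nlinarith

/-! ### derivatives of `G` -/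

theorem hasDerivAt_G {t : ℝ} (ht : t ≠ 0) (v : E4) :
    HasDerivAt (fun s => G s v) ((‖v‖ ^ 2 / (4 * t ^ 2) - 2 / t) * G t v) t := by
  have hpi := Real.pi_pos
  have h1 : HasDerivAt (fun s : ℝ => ((4 * Real.pi * s) ^ 2)⁻¹)
      (-(2 * (4 * Real.pi * t) * (4 * Real.pi)) / ((4 * Real.pi * t) ^ 2) ^ 2) t := by
    have h := (((hasDerivAt_id t).const_mul (4 * Real.pi)).pow 2).inv
      (by simp only [id]; exact pow_ne_zero _ (mul_ne_zero (by positivity) ht))
    refine h.congr_deriv ?_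
    simp
  have h2 : HasDerivAt (fun s : ℝ => Real.exp (-(1 / (4 * s)) * ‖v‖ ^ 2))
      (Real.exp (-(1 / (4 * t)) * ‖v‖ ^ 2) * (‖v‖ ^ 2 / (4 * t ^ 2))) t := by
    have h3 : HasDerivAt (fun s : ℝ => -(1 / (4 * s)) * ‖v‖ ^ 2) (‖v‖ ^ 2 / (4 * t ^ 2)) t := by
      have h := ((((hasDerivAt_id t).const_mul (4 : ℝ)).inv (by simpa using ht)).neg).mul_const
        (‖v‖ ^ 2)
      simp only [id, one_div] at h ⊢
      refine h.congr_deriv ?_
      field_simp
    exact h3.exp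
  have h := h1.mul h2
  refine h.congr_deriv ?_
  unfold G
  field_simp
  ring

theorem hasFDerivAt_G (t : ℝ) (v : E4) :
    HasFDerivAt (G t) ((-(1 / (2 * t)) * G t v) • innerSL ℝ v) v := by
  have h := (hasFDerivAt_exp (1 / (4 * t)) v).const_mul (((4 * Real.pi * t) ^ 2)⁻¹)
  refine h.congr_fderiv ?_
  ext w
  simp only [G, smul_apply, smul_eq_mul]
  ring

theorem contDiffAt_G {n : WithTop ℕ∞} {t : ℝ} (ht : t ≠ 0) (v : E4) :
    ContDiffAt ℝ n (fun p : ℝ × E4 => G p.1 p.2) (t, v) := by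
  have hpi := Real.pi_pos
  unfold G
  refine ContDiffAt.mul ?_ ?_
  · refine ContDiffAt.inv (by fun_prop) ?_
    simp only
    positivity
  · refine ContDiffAt.exp (ContDiffAt.mul ?_ ?_)
    · refine ContDiffAt.neg (ContDiffAt.div contDiffAt_const (by fun_prop) ?_)
      simpa using ht
    · exact (contDiff_norm_sq ℝ).contDiffAt.comp _ contDiffAt_snd

theorem contDiff_G {n : WithTop ℕ∞} (t : ℝ) : ContDiff ℝ n (G t) := by
  unfold G
  exact contDiff_const.mul ((contDiff_const.mul (contDiff_norm_sq ℝ)).exp)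

/-- first derivatives in coordinates -/
theorem dd_G (t : ℝ) (v : E4) (i : Fin 4) :
    fderiv ℝ (G t) v (EuclideanSpace.single i 1) = -(v i / (2 * t)) * G t v := by
  rw [(hasFDerivAt_G t v).fderiv]
  simp [EuclideanSpace.inner_single_right]
  ring

/-- second derivatives in coordinates -/
theorem dd_dd_G (t : ℝ) (v : E4) (i k : Fin 4) :
    fderiv ℝ (fun w => fderiv ℝ (G t) w (EuclideanSpace.single i 1)) v
      (EuclideanSpace.single k 1) =
      (v i * v k / (4 * t ^ 2) - (if i = k then 1 else 0) / (2 * t)) * G t v := by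
  have h : (fun w => fderiv ℝ (G t) w (EuclideanSpace.single i 1)) =
      fun w : E4 => -(w i / (2 * t)) * G t w := funext fun w => dd_G t w i
  have hp : HasFDerivAt (fun w : E4 => -(w i / (2 * t)))
      ((-(1 / (2 * t))) • (EuclideanSpace.proj i : E4 →L[ℝ] ℝ)) v := by
    have := ((EuclideanSpace.proj i : E4 →L[ℝ] ℝ).hasFDerivAt (x := v)).const_mul (-(1 / (2 * t)))
    refine this.congr_of_eventuallyEq (Eventually.of_forall fun w => ?_)
    simp
    ring
  have hm : HasFDerivAt (fun w : E4 => -(w i / (2 * t)) * G t w)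
      ((-(v i / (2 * t))) • ((-(1 / (2 * t)) * G t v) • innerSL ℝ v) +
        G t v • ((-(1 / (2 * t))) • (EuclideanSpace.proj i : E4 →L[ℝ] ℝ))) v :=
    hp.mul (hasFDerivAt_G t v)
  rw [h, hm.fderiv]
  simp [EuclideanSpace.inner_single_right]
  split_ifs <;> ring

/-- the heat equation -/
theorem heat_G {t : ℝ} (ht : t ≠ 0) (v : E4) :
    ∑ i, fderiv ℝ (fun w => fderiv ℝ (G t) w (EuclideanSpace.single i 1)) v
      (EuclideanSpace.single i 1) = (‖v‖ ^ 2 / (4 * t ^ 2) - 2 / t) * G t v := by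
  simp only [dd_dd_G]
  rw [← Finset.sum_mul, EuclideanSpace.norm_sq_eq]
  congr 1
  simp [Fin.sum_univ_four]
  field_simp
  ring

/-! ### approximate identity -/

theorem integral_G_far_le (m : ℕ) {t δ : ℝ} (ht : 0 < t) (hδ : 0 < δ) :
    ∫ v in {v : E4 | δ ≤ ‖v‖}, G t v ≤ 4 * Kp m * 2 ^ m * (Real.sqrt t) ^ m / δ ^ m := by
  have hms : MeasurableSet {v : E4 | δ ≤ ‖v‖} := measurableSet_le measurable_const measurable_norm
  have h1 : ∫ v in {v : E4 | δ ≤ ‖v‖}, G t v ≤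
      ∫ v in {v : E4 | δ ≤ ‖v‖}, (‖v‖ ^ m * G t v) / δ ^ m := by
    refine setIntegral_mono_on (integrable_G ht).integrableOn
      ((integrable_pow_G m ht).div_const _).integrableOn hms fun v hv => ?_
    rw [le_div_iff₀ (by positivity), mul_comm]
    exact mul_le_mul_of_nonneg_right (pow_le_pow_left₀ hδ.le hv _) (G_nonneg t v)
  refine h1.trans ?_
  have h2 : ∫ v in {v : E4 | δ ≤ ‖v‖}, (‖v‖ ^ m * G t v) / δ ^ m ≤
      ∫ v, (‖v‖ ^ m * G t v) / δ ^ m :=
    setIntegral_le_integral ((integrable_pow_G m ht).div_const _)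
      (Eventually.of_forall fun v => by have := G_nonneg t v; simp only [Pi.zero_apply]; positivity)
  refine h2.trans ?_
  rw [integral_div]
  exact div_le_div_of_nonneg_right (integral_pow_G_le m ht) (by positivity)

variable {F : Type*} [NormedAddCommGroup F] [NormedSpace ℝ F]

/-- quantitative approximate identity -/
theorem approx_id_le [CompleteSpace F] {f : E4 → F} (hf : AEStronglyMeasurable f volume)
    {C ω δ t : ℝ} (ht : 0 < t) (hδ : 0 < δ) (hω : 0 ≤ ω) (hC : ∀ v, ‖f v‖ ≤ C) (f0 : F)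
    (hω' : ∀ v, ‖v‖ < δ → ‖f v - f0‖ ≤ ω) :
    ‖(∫ v, G t v • f v) - f0‖ ≤ ω + (C + ‖f0‖) * (16 * Kp 2 * t / δ ^ 2) := by
  have hC0 : 0 ≤ C := (norm_nonneg _).trans (hC 0)
  have hG := integrable_G ht
  have I1 : Integrable (fun v => G t v • f v) :=
    Integrable.smul_of_top_left hG (memLp_top_of_bound hf C (Eventually.of_forall hC))
  have I2 : Integrable (fun v => G t v • f0) := hG.smul_const f0
  have h0 : f0 = ∫ v, G t v • f0 := by
    rw [integral_smul_const, integral_G ht, one_smul]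
  have h1 : (∫ v, G t v • f v) - f0 = ∫ v, G t v • (f v - f0) := by
    conv_lhs => rw [h0]
    rw [← integral_sub I1 I2]
    simp only [smul_sub]
  rw [h1]
  set S : Set E4 := {v : E4 | δ ≤ ‖v‖} with hS
  have hms : MeasurableSet S := measurableSet_le measurable_const measurable_norm
  have h2 : ‖∫ v, G t v • (f v - f0)‖ ≤
      ∫ v, (G t v * ω + S.indicator (fun v => G t v * (C + ‖f0‖)) v) := by
    refine norm_integral_le_of_norm_le ((hG.mul_const ω).add
      ((hG.mul_const _).indicator hms)) (Eventually.of_forall fun v => ?_)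
    rw [norm_smul, Real.norm_of_nonneg (G_nonneg t v)]
    have hGv := G_nonneg t v
    by_cases hv : δ ≤ ‖v‖
    · rw [indicator_of_mem (by simpa [hS] using hv)]
      have : ‖f v - f0‖ ≤ C + ‖f0‖ := (norm_sub_le _ _).trans (add_le_add (hC v) le_rfl)
      nlinarith [mul_nonneg hGv hω, mul_le_mul_of_nonneg_left this hGv]
    · rw [indicator_of_notMem (by simpa [hS] using hv)]
      have := hω' v (not_le.mp hv)
      nlinarith [mul_le_mul_of_nonneg_left this hGv]
  refine h2.trans ?_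
  rw [integral_add (hG.mul_const ω) ((hG.mul_const _).indicator hms), integral_mul_const,
    integral_G ht, one_mul, integral_indicator hms, integral_mul_const]
  have h3 := integral_G_far_le 2 ht hδ
  rw [Real.sq_sqrt ht.le] at h3
  have h4 : 4 * Kp 2 * 2 ^ 2 * t / δ ^ 2 = 16 * Kp 2 * t / δ ^ 2 := by ring
  rw [h4] at h3
  have h5 : 0 ≤ C + ‖f0‖ := by positivity
  nlinarith [mul_le_mul_of_nonneg_left h3 h5]

/-- approximate identity, uniform in a parameter -/
theorem approx_id_uniform [CompleteSpace F] {ι : Type*} {f : ι → E4 → F}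
    (hf : ∀ i, AEStronglyMeasurable (f i) volume) {C : ℝ} (hC : ∀ i v, ‖f i v‖ ≤ C)
    (hcont : ∀ ε : ℝ, 0 < ε → ∃ δ : ℝ, 0 < δ ∧ ∀ i v, ‖v‖ < δ → ‖f i v - f i 0‖ ≤ ε) :
    ∀ ε : ℝ, 0 < ε → ∃ t₀ : ℝ, 0 < t₀ ∧ ∀ t, 0 < t → t < t₀ → ∀ i,
      ‖(∫ v, G t v • f i v) - f i 0‖ ≤ ε := by
  intro ε hε
  obtain ⟨δ, hδ, h⟩ := hcont (ε / 2) (half_pos hε)
  by_cases hι : Nonempty ι
  · obtain ⟨i₀⟩ := hι
    have hC0 : 0 ≤ C := (norm_nonneg _).trans (hC i₀ 0)
    have hK := Kp_pos 2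
    set A : ℝ := (C + C) * (16 * Kp 2 / δ ^ 2) + 1 with hA
    have hApos : 0 < A := by positivity
    refine ⟨ε / 2 / A, by positivity, fun t ht htt i => ?_⟩
    refine (approx_id_le (hf i) ht hδ (half_pos hε).le (hC i) (f i 0) (h i)).trans ?_
    have h1 : (C + ‖f i 0‖) * (16 * Kp 2 * t / δ ^ 2) ≤ A * t := by
      have h2 : (C + ‖f i 0‖) * (16 * Kp 2 * t / δ ^ 2) ≤
          (C + C) * (16 * Kp 2 * t / δ ^ 2) :=
        mul_le_mul_of_nonneg_right (by linarith [hC i 0]) (by positivity)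
      refine h2.trans ?_
      rw [hA]
      have : (C + C) * (16 * Kp 2 * t / δ ^ 2) = (C + C) * (16 * Kp 2 / δ ^ 2) * t := by ring
      nlinarith
    have h2 : A * t ≤ ε / 2 := by
      rw [lt_div_iff₀ hApos] at htt
      linarith
    linarith
  · exact ⟨1, one_pos, fun t _ _ i => absurd ⟨i⟩ hι⟩

end

end Vale.Agent.P211.HK.Gauss
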