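import Vale.Agent.P211.Bdl.S3
import Vale.Agent.P231.Bd3.B3

/-! P211 / HK: derivatives along geodesics (helper853).

`gam e x u` is the geodesic with initial velocity `u`, `vel e x u` its velocity (P231). For a smooth
vector field `ξ`, `d/dt ⟨ξ(γ), γ'⟩ = ⟨∇_{γ'} ξ, γ'⟩`. -/

set_option maxSynthPendingDepth 3
set_option linter.unusedSectionVars false
set_option linter.unusedVariables false

namespace Vale.Agent.P211.HK.Geod

open scoped Manifold ContDiff Topology
open Bundle Filter VectorField Set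
open Vale.Agent.P234 Vale.Agent.P231 Vale.Agent.P211.S4

noncomputable section

section nometric

variable {E : Type*} [NormedAddCommGroup E] [NormedSpace ℝ E] [FiniteDimensional ℝ E]
  {M : Type*} [TopologicalSpace M] [T2Space M] [ChartedSpace E M] [IsManifold 𝓘(ℝ, E) ∞ M]

theorem curve_deriv {γ : ℝ → M} {t : ℝ} (hγ : MDifferentiableAt 𝓘(ℝ, ℝ) 𝓘(ℝ, E) γ t) {w : E}
    (hw : (mfderiv 𝓘(ℝ, ℝ) 𝓘(ℝ, E) γ t (1 : ℝ) : E) = w) (f : SF E M) :
    HasDerivAt (fun s => f (γ s)) (mvfderiv 𝓘(ℝ, E) f (γ t) (w : TangentSpace 𝓘(ℝ, E) (γ t))) t := by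
  obtain ⟨X, hX⟩ := exists_ext (E := E) (γ t) w
  have h2 : mfderiv 𝓘(ℝ, ℝ) 𝓘(ℝ, E) γ t = ((1 : ℝ →L[ℝ] ℝ).smulRight (X (γ t))) := by
    refine ContinuousLinearMap.ext_ring ?_
    refine hw.trans ?_
    have h3 : ((1 : ℝ →L[ℝ] ℝ).smulRight (X (γ t))) (1 : ℝ) = X (γ t) := by
      simp
    exact (h3.trans hX).symm
  have h := hγ.hasMFDerivAt
  rw [h2] at h
  have h4 := hasDerivAt_curve h f
  have h5 : DVF X f (γ t) = mvfderiv 𝓘(ℝ, E) f (γ t) (w : TangentSpace 𝓘(ℝ, E) (γ t)) := by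
    rw [DVF_apply, hX]
  rwa [h5] at h4

end nometric

variable {E : Type*} [NormedAddCommGroup E] [NormedSpace ℝ E] [FiniteDimensional ℝ E]
  {M : Type*} [MetricSpace M] [ChartedSpace E M] [IsManifold 𝓘(ℝ, E) ∞ M]
  [RiemannianBundle (fun x : M => TangentSpace 𝓘(ℝ, E) x)]
  [IsContMDiffRiemannianBundle 𝓘(ℝ, E) ∞ E (fun x : M => TangentSpace 𝓘(ℝ, E) x)]

variable {cov : CovariantDerivative 𝓘(ℝ, E) E (TangentSpace 𝓘(ℝ, E) : M → Type _)}
  {e : ∀ x : M, TangentSpace 𝓘(ℝ, E) x → M}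

/-- scalar product of two vectors of `E` in the tangent space at `x` -/
def ip (x : M) (u w : E) : ℝ :=
  @inner ℝ (TangentSpace 𝓘(ℝ, E) x) _ u w

/-- value of a field, as a vector of `E` -/
def pv (X : VF E M) (x : M) : E := X x

/-- differential of `f` at `x` -/
def dd (f : SF E M) (x : M) (w : E) : ℝ := mvfderiv 𝓘(ℝ, E) f x (w : TangentSpace 𝓘(ℝ, E) x)

/-- covariant derivative of `X` at `x` in the direction `w` -/
def cv (cov : CovariantDerivative 𝓘(ℝ, E) E (TangentSpace 𝓘(ℝ, E) : M → Type _))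
    (X : VF E M) (x : M) (w : E) : E := cov X x (w : TangentSpace 𝓘(ℝ, E) x)

/-- derivative of a function along a geodesic -/
theorem hasDerivAt_gam (he : IsExp e) (f : SF E M) (x : M) (u : E) (t : ℝ) :
    HasDerivAt (fun s => f (gam e x u s)) (dd f (gam e x u t) (vel e x u t)) t :=
  curve_deriv ((contMDiff_gam he x u).contMDiffAt.mdifferentiableAt (by simp))
    (mfderiv_gam he x u t) f

theorem ip_comm (x : M) (u w : E) : ip x u w = ip x w u :=
  real_inner_comm (F := TangentSpace 𝓘(ℝ, E) x) _ _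

theorem ip_smul_left (x : M) (c : ℝ) (u w : E) : ip x (c • u) w = c * ip x u w :=
  real_inner_smul_left (F := TangentSpace 𝓘(ℝ, E) x) _ _ _

theorem ip_smul_right (x : M) (c : ℝ) (u w : E) : ip x u (c • w) = c * ip x u w :=
  real_inner_smul_right (F := TangentSpace 𝓘(ℝ, E) x) _ _ _

theorem ip_neg_left (x : M) (u w : E) : ip x (-u) w = -ip x u w :=
  inner_neg_left (E := TangentSpace 𝓘(ℝ, E) x) (𝕜 := ℝ) _ _

theorem ip_self (x : M) (u : E) : ip x u u = nm x u ^ 2 :=
  real_inner_self_eq_norm_sq (F := TangentSpace 𝓘(ℝ, E) x) _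

theorem ip_neg_neg (x : M) (u : E) : ip x (-u) (-u) = nm x u ^ 2 := by
  rw [ip_neg_left, ip_comm, ip_neg_left, neg_neg, ip_self]

theorem ip_ext (x : M) {u w : E} (h : ∀ z : E, ip x u z = ip x w z) : u = w :=
  ext_inner_right (E := TangentSpace 𝓘(ℝ, E) x) ℝ h

theorem dd_smul (f : SF E M) (x : M) (c : ℝ) (w : E) : dd f x (c • w) = c * dd f x w :=
  map_smul (mvfderiv 𝓘(ℝ, E) f x) c (w : TangentSpace 𝓘(ℝ, E) x)

theorem cv_smul (X : VF E M) (x : M) (c : ℝ) (w : E) : cv cov X x (c • w) = c • cv cov X x w :=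
  map_smul (cov X x) c (w : TangentSpace 𝓘(ℝ, E) x)

theorem dd_X (f : SF E M) (x : M) (X : VF E M) : dd f x (pv X x) = DVF X f x := rfl

theorem ip_X (X Y : VF E M) (x : M) : ip x (pv X x) (pv Y x) = gVF X Y x := rfl

theorem nm_neg (x : M) (u : E) : nm x (-u) = nm x u :=
  norm_neg (E := TangentSpace 𝓘(ℝ, E) x) _

theorem nm_smul' (x : M) (c : ℝ) (u : E) : nm x (c • u) = |c| * nm x u :=
  norm_smul (β := TangentSpace 𝓘(ℝ, E) x) c u

theorem ip_zero_right (x : M) (u : E) : ip x u 0 = 0 :=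
  inner_zero_right (E := TangentSpace 𝓘(ℝ, E) x) (𝕜 := ℝ) _

theorem nm_pos (x : M) {u : E} (hu : u ≠ 0) : 0 < nm x u :=
  (@norm_pos_iff (TangentSpace 𝓘(ℝ, E) x) _ u).2 hu

theorem cv_X (hcov : IsLC cov) (X Y : VF E M) (x : M) :
    cv cov Y x (pv X x) = pv (nabVF cov hcov.smooth X Y) x := rfl

/-- gradient of the cost -/
theorem dd_cost (he : IsExp e) {p q : M} {v : E} (hv : e q v = p) (hd : dist q p = nm q v)
    (hs : SmoothAt E q p) {φ : SF E M} (hφ : ∀ᶠ z in 𝓝 q, φ z = cost p z) (w : E) :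
    dd φ q w = - ip q v w := by
  subst hv
  have h1 := mfderiv_cost he q (v : TangentSpace 𝓘(ℝ, E) q) hd hs (w : TangentSpace 𝓘(ℝ, E) q)
  have h2 : (φ : M → ℝ) =ᶠ[𝓝 q] fun z => cost z (e q v) := by
    filter_upwards [hφ] with z hz
    rw [hz, cost_comm]
  have h3 : dd φ q w = mfderiv 𝓘(ℝ, E) 𝓘(ℝ, ℝ) (fun z => cost z (e q v)) q
      (w : TangentSpace 𝓘(ℝ, E) q) := by
    have h4 := h2.mfderiv_eq (I := 𝓘(ℝ, E)) (I' := 𝓘(ℝ, ℝ))
    exact congrArg (fun A : E →L[ℝ] ℝ => A w) h4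
  rw [h3]
  exact h1

theorem exists_injGE (he : IsExp e) : ∃ D : ℝ, 0 < D ∧ InjGE e D := by
  obtain ⟨ρ, hρ, h⟩ := he.minimizing
  refine ⟨ρ, hρ, fun x v hv => ?_⟩
  have h1 := h x v 0 1 (by simpa using hv)
  rw [zero_smul, one_smul, he.map_zero] at h1
  simpa using h1

/-- half the squared distance from `p` is smooth near points at distance less than `D` -/
theorem exists_cost (F : Facts e) {D : ℝ} (hB : InjGE e D) {p q : M} (hq : dist p q < D) :
    ∃ φ : SF E M, (∀ᶠ z in 𝓝 q, φ z = cost p z) := by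
  have hU : Metric.ball p D ∈ 𝓝 q := by
    refine Metric.isOpen_ball.mem_nhds ?_
    rw [Metric.mem_ball, dist_comm]; exact hq
  have hsm : ContMDiffOn 𝓘(ℝ, E) 𝓘(ℝ) ∞ (fun z => cost p z) (Metric.ball p D) := by
    intro y hy
    rw [Metric.mem_ball, dist_comm] at hy
    obtain ⟨v, hv, hd⟩ := F.hopfRinow p y
    have hs := F.smooth_cost p v (hB.mem_injDomain (by rw [← hd]; exact hy))
    rw [hv] at hs
    have h1 := hs.contMDiffAt
    have h2 : ContMDiffAt 𝓘(ℝ, E) (𝓘(ℝ, E).prod 𝓘(ℝ, E)) ∞ (fun q : M => (p, q)) y :=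
      contMDiffAt_const.prodMk contMDiffAt_id
    exact (ContMDiffAt.comp (x := y) (g := fun p : M × M => cost p.1 p.2)
      (f := fun q : M => (p, q)) h1 h2).contMDiffWithinAt
  exact cut_fun (E := E) hU hsm

section radial

variable {D : ℝ} {p q : M} {φ : SF E M} {N : VF E M}

/-- the gradient of half the squared distance from `p` is minus the vector pointing to `p` -/
theorem grad_eq (F : Facts e) (hB : InjGE e D) (hN : ∀ X, gVF N X = DVF X φ)
    (hφ : ∀ᶠ z in 𝓝 q, φ z = cost p z) {v : E} (hv : e q v = p) (hd : dist q p = nm q v)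
    (hD : dist q p < D) : pv N q = -v := by
  have hs : SmoothAt E q p := by
    have := F.smooth_cost q v (hB.mem_injDomain (by
      have h : nm q v < D := by rw [← hd]; exact hD
      exact h))
    rwa [hv] at this
  refine ip_ext (E := E) q fun z => ?_
  obtain ⟨X, hX⟩ := exists_ext (E := E) q (z : TangentSpace 𝓘(ℝ, E) q)
  have h1 := dd_cost F.isExp hv hd hs hφ z
  rw [ip_neg_left, ← h1]
  have h2 : gVF N X q = DVF X φ q := by rw [hN]
  rw [← ip_X, ← dd_X] at h2
  have h3 : pv X q = z := hX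
  rw [h3] at h2
  exact h2

/-- the eikonal equation -/
theorem eik (F : Facts e) (hB : InjGE e D) (hN : ∀ X, gVF N X = DVF X φ)
    (hφ : ∀ᶠ z in 𝓝 q, φ z = cost p z) (hD : dist q p < D) :
    ∀ᶠ z in 𝓝 q, gVF N N z = 2 * φ z := by
  have hD' : ∀ᶠ z in 𝓝 q, dist z p < D :=
    (isOpen_lt (continuous_id.dist continuous_const) continuous_const).mem_nhds hD
  filter_upwards [hφ.eventually_nhds, hD'] with z hz hzD
  obtain ⟨v', hv', hd'⟩ := F.hopfRinow z p
  obtain ⟨v, hvv⟩ : ∃ v : E, v = v' := ⟨v', rfl⟩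
  have hv : e z v = p := by rw [hvv]; exact hv'
  have hd : dist z p = nm z v := by rw [hvv]; exact hd'
  have h1 := grad_eq F hB hN hz (v := v) hv hd hzD
  have h4 : gVF N N z = nm z v ^ 2 := by
    rw [← ip_neg_neg, ← ip_X]
    exact congrArg (fun w : E => ip z w w) h1
  rw [h4, hz.self_of_nhds, ← hd, cost, dist_comm]
  ring

/-- the radial field satisfies `∇_N N = N` -/
theorem nab_N (hcov : IsLC cov) (hN : ∀ X, gVF N X = DVF X φ)
    (h : ∀ᶠ z in 𝓝 q, gVF N N z = 2 * φ z) : pv (nabVF cov hcov.smooth N N) q = pv N q := by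
  refine ip_ext (E := E) q fun z => ?_
  obtain ⟨X, hX⟩ := exists_ext (E := E) q (z : TangentSpace 𝓘(ℝ, E) q)
  have hX' : pv X q = z := hX
  rw [← hX', ip_X, ip_X]
  -- derivative of the eikonal equation
  have h1 : DVF X (gVF N N) q = 2 * DVF X φ q := by
    have h2 := DVF_local q (gVF N N) (φ + φ) (by
      filter_upwards [h] with y hy
      rw [hy]
      change _ = φ y + φ y
      ring) X
    rw [h2, DVF_add]
    change DVF X φ q + DVF X φ q = _
    ring
  rw [metricVF hcov X N N q] at h1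
  have h3 : gVF N (nabVF cov hcov.smooth X N) q = gVF (nabVF cov hcov.smooth X N) N q :=
    real_inner_comm (F := TangentSpace 𝓘(ℝ, E) q) _ _
  rw [h3] at h1
  -- symmetry of the Hessian
  have h4 : gVF (nabVF cov hcov.smooth X N) N q = gVF (nabVF cov hcov.smooth N N) X q := by
    have e1 := metricVF hcov X N N q
    have e2 := metricVF hcov N N X q
    have e3 := metricVF hcov X N N q
    have a1 : DVF N (gVF N X) q = DVF N (DVF X φ) q := by rw [hN]
    have a2 : DVF X (gVF N N) q = DVF X (DVF N φ) q := by rw [hN]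
    have a3 : DVF N (DVF X φ) q - DVF X (DVF N φ) q =
        mvfderiv 𝓘(ℝ, E) φ q (mlieBracket 𝓘(ℝ, E) N X q) := (mlie_fun hcov N X φ q).symm
    have a4 : mvfderiv 𝓘(ℝ, E) φ q (mlieBracket 𝓘(ℝ, E) N X q) =
        gVF N (nabVF cov hcov.smooth N X) q - gVF N (nabVF cov hcov.smooth X N) q := by
      rw [← hcov.torsion N X q]
      have b1 : mvfderiv 𝓘(ℝ, E) φ q (cov X q (N q) - cov N q (X q)) =
          DVF (nabVF cov hcov.smooth N X) φ q - DVF (nabVF cov hcov.smooth X N) φ q :=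
        map_sub (mvfderiv 𝓘(ℝ, E) φ q) _ _
      rw [b1, ← hN, ← hN]
    rw [a1] at e2
    rw [a2] at e1
    linarith
  rw [← h4]
  have h5 : gVF N X q = DVF X φ q := by rw [hN]
  rw [h5]
  linarith

end radial

theorem vel_zero_vec (x : M) (t : ℝ) : vel e x (0 : E) t = 0 := by
  have h := vel_smul (e := e) x (0 : E) (0 : ℝ) t
  rwa [zero_smul, zero_smul] at h

/-- the acceleration of a geodesic vanishes: derivative of `⟨ξ, γ'⟩` along `γ` -/
theorem hasDerivAt_ip (hcov : IsLC cov) (hE : Module.finrank ℝ E = 4) (F : Facts e) (ξ : VF E M)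
    (x : M) (u : E) (t : ℝ) :
    HasDerivAt (fun s => ip (gam e x u s) (pv ξ (gam e x u s)) (vel e x u s))
      (ip (gam e x u t) (cv cov ξ (gam e x u t) (vel e x u t)) (vel e x u t)) t := by
  by_cases hu : u = 0
  · subst hu
    have h0 : ∀ s, vel e x (0 : E) s = 0 := vel_zero_vec x
    simp only [h0, ip_zero_right]
    exact hasDerivAt_const t (0 : ℝ)
  have hnu : 0 < nm x u := nm_pos x hu
  obtain ⟨D, hD, hB⟩ := exists_injGE F.isExp
  -- the centre
  obtain ⟨τ, hτ0, hτ⟩ : ∃ τ : ℝ, 0 < τ ∧ τ * nm x u < D :=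
    ⟨D / (2 * nm x u), by positivity, by field_simp; linarith⟩
  obtain ⟨p, hp⟩ : ∃ p, p = gam e x u (t - τ) := ⟨_, rfl⟩
  obtain ⟨q, hq⟩ : ∃ q, q = gam e x u t := ⟨_, rfl⟩
  -- the vector from `γ s` to `p`
  have hvec : ∀ s, e (gam e x u s) (-((s - t + τ) • vel e x u s) : E) = p := by
    intro s
    have h1 := gam_flow F x u s (-(s - t + τ))
    have h2 : s + -(s - t + τ) = t - τ := by ring
    rw [h2, ← hp] at h1
    rw [← h1, ← neg_smul]
    rfl
  have hnv : ∀ s, nm (gam e x u s) (-((s - t + τ) • vel e x u s)) = |s - t + τ| * nm x u := by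
    intro s
    rw [nm_neg, nm_smul', nm_vel F]
  have hdist : ∀ s, |s - t + τ| * nm x u ≤ D → dist (gam e x u s) p =
      nm (gam e x u s) (-((s - t + τ) • vel e x u s)) := by
    intro s hs
    have h4 := hB (gam e x u s) (-((s - t + τ) • vel e x u s) : E) (by
      change nm _ _ ≤ D
      rw [hnv]; exact hs)
    rw [hvec s] at h4
    exact h4
  have hτs : ∀ᶠ s in 𝓝 t, |s - t + τ| * nm x u < D ∧ 0 < s - t + τ := by
    have hc : ContinuousAt (fun s : ℝ => |s - t + τ| * nm x u) t := by fun_prop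
    have hc2 : ContinuousAt (fun s : ℝ => s - t + τ) t := by fun_prop
    refine (hc.eventually_lt continuousAt_const ?_).and
      (continuousAt_const.eventually_lt hc2 ?_)
    · simpa [abs_of_pos hτ0] using hτ
    · simpa using hτ0
  have hqp : dist q p < D := by
    rw [hq, hdist t (hτs.self_of_nhds.1.le), hnv]
    exact hτs.self_of_nhds.1
  obtain ⟨φ, hφ⟩ := exists_cost (E := E) F hB (p := p) (q := q) (by rw [dist_comm]; exact hqp)
  obtain ⟨N, hN⟩ := exists_grad hE φ
  have hcont : ContinuousAt (gam e x u) t := (contMDiff_gam F.isExp x u).continuous.continuousAt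
  have hNγ : ∀ᶠ s in 𝓝 t, pv N (gam e x u s) = (s - t + τ) • vel e x u s := by
    rw [hq] at hφ
    filter_upwards [hcont.eventually hφ.eventually_nhds, hτs] with s h1 h2
    have h3 := grad_eq F hB hN h1 (hvec s) (hdist s h2.1.le) (by
      rw [hdist s h2.1.le, hnv]
      exact h2.1)
    rw [h3, neg_neg]
  have heik := eik F hB hN hφ hqp
  have hNN := nab_N hcov hN heik
  rw [hq] at hNN
  -- the function through the radial field
  have hg : (fun s => ip (gam e x u s) (pv ξ (gam e x u s)) (vel e x u s)) =ᶠ[𝓝 t]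
      fun s => (s - t + τ)⁻¹ * gVF ξ N (gam e x u s) := by
    filter_upwards [hNγ, hτs] with s h1 h2
    rw [← ip_X, h1, ip_smul_right, ← mul_assoc, inv_mul_cancel₀ h2.2.ne', one_mul]
  refine HasDerivAt.congr_of_eventuallyEq ?_ hg
  have hNt : pv N (gam e x u t) = τ • vel e x u t := by
    have := hNγ.self_of_nhds
    rwa [show t - t + τ = τ by ring] at this
  have hd1 := hasDerivAt_gam (e := e) F.isExp (gVF ξ N) x u t
  have hd2 : HasDerivAt (fun s : ℝ => (s - t + τ)⁻¹) (-1 / (t - t + τ) ^ 2) t := by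
    have h := ((hasDerivAt_id t).sub_const t).add_const τ
    exact h.inv (by simpa using hτ0.ne')
  have hd := hd2.mul hd1
  refine hd.congr_deriv ?_
  -- the value
  have e1 : τ * dd (gVF ξ N) (gam e x u t) (vel e x u t) =
      τ ^ 2 * ip (gam e x u t) (cv cov ξ (gam e x u t) (vel e x u t)) (vel e x u t) +
        τ * ip (gam e x u t) (pv ξ (gam e x u t)) (vel e x u t) := by
    rw [← dd_smul, ← hNt, dd_X, metricVF hcov N ξ N, ← ip_X, ← ip_X, hNN, ← cv_X hcov, hNt,
      cv_smul, ip_smul_left, ip_smul_right, ip_smul_right]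
    ring
  have e2 : gVF ξ N (gam e x u t) =
      τ * ip (gam e x u t) (pv ξ (gam e x u t)) (vel e x u t) := by
    rw [← ip_X, hNt, ip_smul_right]
  rw [e2, show t - t + τ = τ by ring]
  have e3 : dd (gVF ξ N) (gam e x u t) (vel e x u t) =
      τ * ip (gam e x u t) (cv cov ξ (gam e x u t) (vel e x u t)) (vel e x u t) +
        ip (gam e x u t) (pv ξ (gam e x u t)) (vel e x u t) := by
    have h := hτ0.ne'
    apply mul_left_cancel₀ h
    rw [e1]; ring
  rw [e3]
  field_simp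
  ring

end

end Vale.Agent.P211.HK.Geod
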