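import Vale.Agent.P211.HK.KernelData
import Vale.Agent.P211.HK.AN6

/-! P211 / HK / LK3 (helper249): projections, weak eigenvectors, Hilbert-Schmidt norms for kernel
data. -/

namespace Vale.Agent.P211.HK

open Filter Topology MeasureTheory Set
open scoped RealInnerProductSpace ENNReal

noncomputable section

set_option linter.unusedSectionVars false

variable {M W : Type} [MeasurableSpace M] [NormedAddCommGroup W] [InnerProductSpace ℝ W]
  [FiniteDimensional ℝ W] {μ : Measure M} [IsFiniteMeasure μ]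

theorem coeFn_sum_Lp {ι : Type} (s : Finset ι) (f : ι → Lp W 2 μ) :
    ∀ᵐ x ∂μ, (∑ j ∈ s, f j : Lp W 2 μ) x = ∑ j ∈ s, f j x := by
  classical
  induction s using Finset.induction_on with
  | empty =>
    filter_upwards [Lp.coeFn_zero W 2 μ] with x hx
    rw [Finset.sum_empty, Finset.sum_empty]
    exact hx
  | insert a s ha ih =>
    rw [Finset.sum_insert ha]
    filter_upwards [Lp.coeFn_add (f a) (∑ j ∈ s, f j), ih] with x h1 h2
    rw [h1, Pi.add_apply, h2, Finset.sum_insert ha]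

/-- pointwise application of `A` on `L²` -/
def cop (μ : Measure M) (A : W →L[ℝ] W) : Lp W 2 μ →L[ℝ] Lp W 2 μ := A.compLpL 2 μ

theorem cop_ae (A : W →L[ℝ] W) (w : Lp W 2 μ) : ∀ᵐ x ∂μ, cop μ A w x = A (w x) :=
  A.coeFn_compLpL w

theorem BKer.comp {K : M → M → (W →L[ℝ] W)} (hK : BKer K) (A : W →L[ℝ] W) :
    BKer fun x y => A.comp (K x y) := by
  obtain ⟨C, hC⟩ := hK.bdd
  refine ⟨?_, ‖A‖ * C, fun x y => ?_⟩
  · exact (((ContinuousLinearMap.compL ℝ W W W) A).continuous.comp_stronglyMeasurable hK.meas :)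
  · exact (ContinuousLinearMap.opNorm_comp_le _ _).trans (by gcongr; exact hC x y)

theorem BKer.integrable {K : M → M → (W →L[ℝ] W)} (hK : BKer K) (w : Lp W 2 μ) (x : M) :
    Integrable (fun y => K x y (w y)) μ := by
  obtain ⟨C, hC⟩ := hK.bdd
  have hw : Integrable w μ := (Lp.memLp w).integrable one_le_two
  refine (hw.norm.const_mul C).mono' ?_ (ae_of_all _ fun y => ?_)
  · have h1 : AEStronglyMeasurable (fun y => K x y) μ :=
      (hK.meas.comp_measurable (measurable_const.prodMk measurable_id)).aestronglyMeasurable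
    exact (ContinuousLinearMap.apply ℝ W).isBoundedBilinearMap.continuous.comp_aestronglyMeasurable
      (hw.aestronglyMeasurable.prodMk h1)
  · exact ((K x y).le_opNorm _).trans (by gcongr; exact hC x y)

theorem cop_comp_kopB {K : M → M → (W →L[ℝ] W)} (hK : BKer K) (A : W →L[ℝ] W) :
    (cop μ A).comp (kopB μ K) = kopB μ fun x y => A.comp (K x y) := by
  ext1 w
  refine Lp.ext ?_
  rw [ContinuousLinearMap.comp_apply]
  filter_upwards [cop_ae A (kopB μ K w), kopB_ae μ hK w, kopB_ae μ (hK.comp A) w] with x h1 h2 h3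
  rw [h1, h2, h3, ← ContinuousLinearMap.integral_comp_comm _ (hK.integrable w x)]
  rfl

namespace KernelData

variable {S : Type} [AddCommGroup S] [Module ℝ S] (K : KernelData (W := W) (S := S) μ)

theorem weakEig_iff (b : Lp W 2 μ) (l : ℝ) :
    K.heat.WeakEig b l ↔ ∀ s, ⟪b, K.G s⟫ = l * ⟪b, K.T s⟫ := by
  constructor
  · intro h s
    have := h ⟨K.T s, LinearMap.mem_range_self K.T s⟩
    rwa [show K.heat.L ⟨K.T s, LinearMap.mem_range_self K.T s⟩ = K.G s from K.L_apply s] at this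
  · rintro h ⟨_, s, rfl⟩
    rw [show K.heat.L ⟨K.T s, LinearMap.mem_range_self K.T s⟩ = K.G s from K.L_apply s]
    exact h s

theorem inner_G (b : Lp W 2 μ) (s : S) : ⟪b, K.G s⟫ = ∫ x, ⟪b x, K.Lf s x⟫ ∂μ := by
  rw [L2.inner_def]
  refine integral_congr_ae ?_
  filter_upwards [K.G_ae s] with x hx
  rw [hx]

theorem inner_T (b : Lp W 2 μ) (s : S) : ⟪b, K.T s⟫ = ∫ x, ⟪b x, K.ev s x⟫ ∂μ := by
  rw [L2.inner_def]
  refine integral_congr_ae ?_
  filter_upwards [K.T_ae s] with x hx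
  rw [hx]

theorem weakEig_iff_integral (b : Lp W 2 μ) (l : ℝ) :
    K.heat.WeakEig b l ↔ ∀ s, ∫ x, ⟪b x, K.Lf s x⟫ ∂μ = l * ∫ x, ⟪b x, K.ev s x⟫ ∂μ := by
  rw [weakEig_iff]
  simp_rw [inner_G, inner_T]

theorem mem_Dm_iff (b : Lp W 2 μ) : b ∈ K.heat.Dm ↔ ∃ s, K.ev s =ᵐ[μ] b := by
  constructor
  · rintro ⟨s, hs⟩
    exact ⟨s, by rw [← hs]; exact (K.T_ae s).symm⟩
  · rintro ⟨s, hs⟩
    exact ⟨s, Lp.ext ((K.T_ae s).trans hs)⟩

/-- constant orthogonal projections preserving the sections and commuting with `L` -/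
structure Split (ι : Type) [Fintype ι] where
  pr : ι → W →L[ℝ] W
  symm : ∀ j x y, ⟪pr j x, y⟫ = ⟪x, pr j y⟫
  idem : ∀ j x, pr j (pr j x) = pr j x
  orth : ∀ i j, i ≠ j → ∀ x, pr i (pr j x) = 0
  sum : ∀ x, ∑ j, pr j x = x
  pres : ∀ j s, ∃ s', (∀ x, K.ev s' x = pr j (K.ev s x)) ∧ ∀ x, K.Lf s' x = pr j (K.Lf s x)

variable {K}

theorem Split.exists_T {ι : Type} [Fintype ι] (Q : K.Split ι) (j : ι) (s : S) :
    ∃ s', K.T s' = cop μ (Q.pr j) (K.T s) ∧ K.G s' = cop μ (Q.pr j) (K.G s) := by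
  obtain ⟨s', h1, h2⟩ := Q.pres j s
  refine ⟨s', Lp.ext ?_, Lp.ext ?_⟩
  · filter_upwards [K.T_ae s', K.T_ae s, cop_ae (Q.pr j) (K.T s)] with x e1 e2 e3
    rw [e1, e3, e2, h1]
  · filter_upwards [K.G_ae s', K.G_ae s, cop_ae (Q.pr j) (K.G s)] with x e1 e2 e3
    rw [e1, e3, e2, h2]

/-- the splitting of the heat data -/
def Split.heat {ι : Type} [Fintype ι] (Q : K.Split ι) : HeatSplit K.heat ι where
  pr := fun j => cop μ (Q.pr j)
  symm := fun j x y => by
    rw [L2.inner_def, L2.inner_def]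
    refine integral_congr_ae ?_
    filter_upwards [cop_ae (Q.pr j) x, cop_ae (Q.pr j) y] with p h1 h2
    rw [h1, h2, Q.symm]
  idem := fun j x => Lp.ext <| by
    filter_upwards [cop_ae (Q.pr j) x, cop_ae (Q.pr j) (cop μ (Q.pr j) x)] with p h1 h2
    rw [h2, h1, Q.idem]
  orth := fun i j hij x => Lp.ext <| by
    filter_upwards [cop_ae (Q.pr j) x, cop_ae (Q.pr i) (cop μ (Q.pr j) x),
      Lp.coeFn_zero W 2 μ] with p h1 h2 h3
    rw [h2, h1, Q.orth i j hij, h3]
    rfl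
  sum := fun x => Lp.ext <| by
    have h0 : ∀ j, ∀ᵐ p ∂μ, cop μ (Q.pr j) x p = Q.pr j (x p) := fun j => cop_ae _ x
    rw [← ae_all_iff] at h0
    filter_upwards [h0, coeFn_sum_Lp (μ := μ) Finset.univ fun j => cop μ (Q.pr j) x] with p h1 h2
    rw [h2]
    simp only [h1]
    exact Q.sum _
  mem := by
    rintro j ⟨_, s, rfl⟩
    obtain ⟨s', h1, -⟩ := Q.exists_T j s
    exact ⟨s', h1⟩
  comm := by
    rintro j ⟨_, s, rfl⟩
    obtain ⟨s', h1, h2⟩ := Q.exists_T j s
    have e1 : K.heat.L ⟨K.T s, LinearMap.mem_range_self K.T s⟩ = K.G s := K.L_apply s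
    rw [e1]
    exact (K.L_apply' _ h1).trans h2

/-- Hilbert-Schmidt norm of the adjoint of the parametrix followed by a constant map. -/
theorem hsSq_adj_cop_Z (K : KernelData (W := W) (S := S) μ) {t : ℝ} (ht : 0 < t)
    (A : W →L[ℝ] W) {κ : Type} (b : HilbertBasis κ ℝ (Lp W 2 μ)) :
    hsSq b (ContinuousLinearMap.adjoint ((cop μ A).comp (K.Z t))) =
      ENNReal.ofReal (∫ y, ∫ x, hsW (A.comp (K.z t x y)) ∂μ ∂μ) := by
  have hc : Countable κ := K.heat.countable b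
  rw [← hsSq_adjoint b b]
  rw [show (cop μ A).comp (K.Z t) = kopB μ fun x y => A.comp (K.z t x y) from
    cop_comp_kopB (K.bz ht) A, kopB_hsSq μ ((K.bz ht).comp A)]
  have h := KD.hs_int μ ((K.bz ht).comp A)
  exact congrArg ENNReal.ofReal
    (integral_integral_swap (f := fun x y => hsW (A.comp (K.z t x y))) h)

theorem hsSq_adj_Z (K : KernelData (W := W) (S := S) μ) {t : ℝ} (ht : 0 < t)
    {κ : Type} (b : HilbertBasis κ ℝ (Lp W 2 μ)) :
    hsSq b (ContinuousLinearMap.adjoint (K.heat.Z t)) =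
      ENNReal.ofReal (∫ y, ∫ x, hsW (K.z t x y) ∂μ ∂μ) := by
  have hc : Countable κ := K.heat.countable b
  rw [← hsSq_adjoint b b]
  rw [show K.heat.Z t = kopB μ (K.z t) from rfl, kopB_hsSq μ (K.bz ht)]
  have h := KD.hs_int μ (K.bz ht)
  exact congrArg ENNReal.ofReal (integral_integral_swap (f := fun x y => hsW (K.z t x y)) h)

/-- the trace form: for an orthogonal projection `A`, `|A z|² = tr (A z z*)` -/
theorem hsW_comp_eq (A B : W →L[ℝ] W) (hA : ∀ x y, ⟪A x, y⟫ = ⟪x, A y⟫) (hA2 : ∀ x, A (A x) = A x) :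
    hsW (A.comp B) = LinearMap.trace ℝ W
      ((A.comp (B.comp (ContinuousLinearMap.adjoint B)) : W →L[ℝ] W) : W →ₗ[ℝ] W) := by
  have hAa : ContinuousLinearMap.adjoint A = A := by
    symm
    rw [ContinuousLinearMap.eq_adjoint_iff]
    exact hA
  have hAA : A.comp A = A := by ext x; exact hA2 x
  rw [hsW_eq_trace', ContinuousLinearMap.adjoint_comp, hAa]
  have h1 : ((A.comp B).comp ((ContinuousLinearMap.adjoint B).comp A)) =
      (A.comp (B.comp (ContinuousLinearMap.adjoint B))).comp A := by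
    ext x; rfl
  rw [h1]
  have h2 : LinearMap.trace ℝ W ((((A.comp (B.comp (ContinuousLinearMap.adjoint B))).comp A :
      W →L[ℝ] W)) : W →ₗ[ℝ] W) = LinearMap.trace ℝ W ((A.comp ((A.comp (B.comp
        (ContinuousLinearMap.adjoint B)))) : W →L[ℝ] W) : W →ₗ[ℝ] W) :=
    LinearMap.trace_mul_comm ℝ _ _
  rw [h2]
  congr 2
  ext x
  exact hA2 _

end KernelData

end

end Vale.Agent.P211.HK
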