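import Vale.Agent.P211.HK.Patch
import Vale.Agent.P211.HK.SC0b

/-! P211 / HK, block LK5: the kernels `P.lift R k` of a patch: equivariance, norm, joint smoothness
(`SmK`), time derivative. helper251. -/

set_option maxSynthPendingDepth 3
set_option linter.unusedSectionVars false

namespace Vale.Agent.P211.HK

open scoped Manifold ContDiff Topology RealInnerProductSpace
open Bundle Filter VectorField MeasureTheory Set

noncomputable section

/-! ### isometries of a representation -/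

namespace PK

variable {W : Type} [NormedAddCommGroup W] [InnerProductSpace ℝ W] (R : Rep W)

theorem norm_rho {g : Mat4} (hg : IsSO g) (v : W) : ‖R.ρ g v‖ = ‖v‖ := by
  have h := R.inner g hg v v
  rw [real_inner_self_eq_norm_sq, real_inner_self_eq_norm_sq] at h
  exact (pow_left_inj₀ (norm_nonneg _) (norm_nonneg _) two_ne_zero).1 h

theorem mul_tr {g : Mat4} (hg : IsSO g) :
    (R.ρ g).comp (R.ρ (trM g)) = ContinuousLinearMap.id ℝ W := by
  rw [← R.mul g (trM g) hg hg.tr, hg.mul_tr, R.one]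

theorem tr_mul {g : Mat4} (hg : IsSO g) :
    (R.ρ (trM g)).comp (R.ρ g) = ContinuousLinearMap.id ℝ W := by
  rw [← R.mul (trM g) g hg.tr hg, hg.1, R.one]

theorem norm_comp_left {g : Mat4} (hg : IsSO g) {V : Type*} [NormedAddCommGroup V]
    [NormedSpace ℝ V] (A : V →L[ℝ] W) : ‖(R.ρ g).comp A‖ = ‖A‖ := by
  refine le_antisymm ?_ ?_
  · refine ContinuousLinearMap.opNorm_le_bound _ (norm_nonneg _) fun v => ?_
    rw [ContinuousLinearMap.comp_apply, norm_rho R hg]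
    exact A.le_opNorm v
  · refine ContinuousLinearMap.opNorm_le_bound _ (norm_nonneg _) fun v => ?_
    have := ((R.ρ g).comp A).le_opNorm v
    rwa [ContinuousLinearMap.comp_apply, norm_rho R hg] at this

theorem norm_comp_right {g : Mat4} (hg : IsSO g) {V : Type*} [NormedAddCommGroup V]
    [NormedSpace ℝ V] (A : W →L[ℝ] V) : ‖A.comp (R.ρ g)‖ = ‖A‖ := by
  have hle : ∀ {h : Mat4}, IsSO h → ∀ B : W →L[ℝ] V, ‖B.comp (R.ρ h)‖ ≤ ‖B‖ := by
    intro h hh B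
    refine ContinuousLinearMap.opNorm_le_bound _ (norm_nonneg _) fun v => ?_
    rw [ContinuousLinearMap.comp_apply]
    calc ‖B (R.ρ h v)‖ ≤ ‖B‖ * ‖R.ρ h v‖ := B.le_opNorm _
      _ = ‖B‖ * ‖v‖ := by rw [norm_rho R hh]
  refine le_antisymm (hle hg A) ?_
  have h1 : A = (A.comp (R.ρ g)).comp (R.ρ (trM g)) := by
    rw [ContinuousLinearMap.comp_assoc, mul_tr R hg]
    rfl
  conv_lhs => rw [h1]
  exact hle hg.tr _

theorem adjoint_rho [CompleteSpace W] {g : Mat4} (hg : IsSO g) :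
    ContinuousLinearMap.adjoint (R.ρ g) = R.ρ (trM g) := by
  rw [eq_comm, ContinuousLinearMap.eq_adjoint_iff]
  intro a b
  have h := R.inner g hg (R.ρ (trM g) a) b
  rw [← h, ← ContinuousLinearMap.comp_apply, mul_tr R hg]
  rfl

end PK

variable {E : Type} [NormedAddCommGroup E] [NormedSpace ℝ E] [FiniteDimensional ℝ E]
  {M : Type} [MetricSpace M] [ChartedSpace E M] [IsManifold 𝓘(ℝ, E) ∞ M]
  [RiemannianBundle fun p : M => TangentSpace 𝓘(ℝ, E) p]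
  [IsContMDiffRiemannianBundle 𝓘(ℝ, E) ∞ E fun p : M => TangentSpace 𝓘(ℝ, E) p]
  [MeasurableSpace M]
  {cov : CovariantDerivative 𝓘(ℝ, E) E (TangentSpace 𝓘(ℝ, E) : M → Type)}
  {om : Form4 E M} {μ : Measure M} {D : ℝ}

namespace Patch

variable (P : Patch cov om μ D)

theorem isOpen_dom : IsOpen P.dom := by
  have h := (continuousOn_extChartAt (I := 𝓘(ℝ, E)) P.q₀).isOpen_inter_preimage
    (isOpen_extChartAt_source P.q₀) P.O_open
  exact h

theorem ptc_co {q : M} (hq : q ∈ P.dom) : ptc P.q₀ (P.co q) = q :=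
  (extChartAt 𝓘(ℝ, E) P.q₀).left_inv hq.1

theorem co_mem {q : M} (hq : q ∈ P.dom) : P.co q ∈ P.O := hq.2

theorem ptc_mem {y : E} (hy : y ∈ P.O) : ptc P.q₀ y ∈ P.dom := by
  refine ⟨(extChartAt 𝓘(ℝ, E) P.q₀).map_target (P.O_sub hy), ?_⟩
  simp only [ptc, mem_preimage]
  rw [(extChartAt 𝓘(ℝ, E) P.q₀).right_inv (P.O_sub hy)]
  exact hy

theorem co_ptc {y : E} (hy : y ∈ P.O) : P.co (ptc P.q₀ y) = y :=
  (extChartAt 𝓘(ℝ, E) P.q₀).right_inv (P.O_sub hy)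

theorem contMDiffAt_co {q : M} (hq : q ∈ P.dom) : ContMDiffAt 𝓘(ℝ, E) 𝓘(ℝ, E) ∞ P.co q := by
  have h : q ∈ (chartAt E P.q₀).source := by
    have := hq.1
    rwa [extChartAt_source] at this
  exact contMDiffAt_extChartAt' h

variable {W : Type} [NormedAddCommGroup W] [InnerProductSpace ℝ W] [FiniteDimensional ℝ W]
  {R : Rep W}

theorem lift_of_not_pon (k : E × Eu4 → (W →L[ℝ] W)) {p : M}
    {f : Fin 4 → TangentSpace 𝓘(ℝ, E) p} {q : M} (hf : ¬ PON om p f) : P.lift R k p f q = 0 := by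
  unfold lift
  rw [if_neg (fun h => hf h.1)]

theorem lift_of_le (k : E × Eu4 → (W →L[ℝ] W)) {p : M}
    {f : Fin 4 → TangentSpace 𝓘(ℝ, E) p} {q : M} (hf : D ≤ dist q p) : P.lift R k p f q = 0 := by
  unfold lift
  rw [if_neg (fun h => absurd h.2.2 (not_lt.mpr hf))]

theorem lift_of_lt (k : E × Eu4 → (W →L[ℝ] W)) {p : M}
    {f : Fin 4 → TangentSpace 𝓘(ℝ, E) p} {q : M} (hq : q ∈ P.dom) (hf : PON om p f)
    (h : dist q p < D) :
    P.lift R k p f q = (R.ρ (P.rot (P.co q) p f)).comp (k (P.co q, P.lg (P.co q) p)) := by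
  unfold lift
  rw [if_pos ⟨hf, hq, h⟩]

theorem lift_apply (k : E × Eu4 → (W →L[ℝ] W)) {p : M}
    {f : Fin 4 → TangentSpace 𝓘(ℝ, E) p} {q : M} (hq : q ∈ P.dom) (w : W) :
    P.lift R k p f q w = P.locSec R (P.co q) (fun v => k (P.co q, v) w) p f := by
  unfold lift locSec
  rw [P.ptc_co hq]
  by_cases h : PON om p f ∧ dist q p < D
  · rw [if_pos ⟨h.1, hq, h.2⟩, if_pos h]
    rfl
  · rw [if_neg (fun h' => h ⟨h'.1, h'.2.2⟩), if_neg h]
    rfl

theorem rot_fact {y : E} {p : M} (f : Fin 4 → TangentSpace 𝓘(ℝ, E) p) (a : Mat4) :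
    P.rot y p (fact f a) = mulM (trM a) (P.rot y p f) := by
  funext i j
  simp only [rot, fact, sum_inner, real_inner_smul_left, mulM, trM]

theorem norm_lg {q p : M} (hq : q ∈ P.dom) (h : dist q p < D) :
    ‖P.lg (P.co q) p‖ = dist q p := by
  have := P.lg_norm (P.co q) (P.co_mem hq) p (by rw [P.ptc_co hq]; exact h)
  rwa [P.ptc_co hq] at this

section geo

variable (hG : Geo4 cov om)
include hG

theorem rot_so {y : E} (hy : y ∈ P.O) {p : M} (hp : dist (ptc P.q₀ y) p < D)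
    {f : Fin 4 → TangentSpace 𝓘(ℝ, E) p} (hf : PON om p f) : IsSO (P.rot y p f) :=
  (pon_matrix hG hf (P.pf_pon y hy p hp)).1

theorem rot_so' {q p : M} (hq : q ∈ P.dom) (h : dist q p < D)
    {f : Fin 4 → TangentSpace 𝓘(ℝ, E) p} (hf : PON om p f) : IsSO (P.rot (P.co q) p f) :=
  P.rot_so hG (P.co_mem hq) (by rw [P.ptc_co hq]; exact h) hf

/-- the frame `pf` in terms of a frame `f` -/
theorem pf_eq {y : E} (hy : y ∈ P.O) {p : M} (hp : dist (ptc P.q₀ y) p < D)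
    {f : Fin 4 → TangentSpace 𝓘(ℝ, E) p} (hf : PON om p f) :
    P.pf y p = fact f (P.rot y p f) :=
  (pon_matrix hG hf (P.pf_pon y hy p hp)).2

/-- equivariance -/
theorem lift_equiv (k : E × Eu4 → (W →L[ℝ] W)) {p : M}
    {f : Fin 4 → TangentSpace 𝓘(ℝ, E) p} {q : M} (hq : q ∈ P.dom) (hf : PON om p f) {a : Mat4}
    (ha : IsSO a) :
    P.lift R k p (fact f a) q = (R.ρ (trM a)).comp (P.lift R k p f q) := by
  by_cases h : dist q p < D
  · rw [P.lift_of_lt k hq hf h, P.lift_of_lt k hq (pon_fact hG hf ha) h, rot_fact,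
      R.mul (trM a) _ ha.tr (P.rot_so' hG hq h hf), ContinuousLinearMap.comp_assoc]
  · rw [P.lift_of_le k (not_lt.mp h), P.lift_of_le k (not_lt.mp h),
      ContinuousLinearMap.comp_zero]

theorem norm_lift (k : E × Eu4 → (W →L[ℝ] W)) {p : M}
    {f : Fin 4 → TangentSpace 𝓘(ℝ, E) p} {q : M} (hq : q ∈ P.dom) (hf : PON om p f)
    (h : dist q p < D) : ‖P.lift R k p f q‖ = ‖k (P.co q, P.lg (P.co q) p)‖ := by
  rw [P.lift_of_lt k hq hf h, PK.norm_comp_left R (P.rot_so' hG hq h hf)]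

/-- joint smoothness of the kernel, with time as a parameter -/
theorem contMDiffAt_lift {n : ℕ∞} {S : Set ℝ} (hS : IsOpen S)
    {k : ℝ → E × Eu4 → (W →L[ℝ] W)}
    (hk : ContDiffOn ℝ n (fun x : ℝ × E × Eu4 => k x.1 x.2) (S ×ˢ P.O ×ˢ Metric.ball 0 D))
    (hk0 : ∀ t ∈ S, ∀ y ∈ P.O, ∀ v : Eu4, D / 2 ≤ ‖v‖ → ‖v‖ < D → k t (y, v) = 0)
    {F : Fin 4 → VF E M} {t : ℝ} {p q : M} (ht : t ∈ S) (hq : q ∈ P.dom) (hF : PONnear om p F) :
    ContMDiffAt (𝓘(ℝ, ℝ).prod (𝓘(ℝ, E).prod 𝓘(ℝ, E))) 𝓘(ℝ, W →L[ℝ] W) n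
      (fun z : ℝ × M × M => P.lift R (k z.1) z.2.1 (fun i => F i z.2.1) z.2.2) (t, p, q) := by
  have hD := P.D_pos
  have e1 : ∀ᶠ z : ℝ × M × M in 𝓝 (t, p, q), z.1 ∈ S :=
    continuousAt_fst (hS.mem_nhds ht)
  have e2 : ∀ᶠ z : ℝ × M × M in 𝓝 (t, p, q), z.2.2 ∈ P.dom :=
    (continuous_snd.comp continuous_snd).continuousAt (P.isOpen_dom.mem_nhds hq)
  have e3 : ∀ᶠ z : ℝ × M × M in 𝓝 (t, p, q), PON om z.2.1 fun i => F i z.2.1 := by
    have hc : Tendsto (fun z : ℝ × M × M => z.2.1) (𝓝 (t, p, q)) (𝓝 p) :=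
      (continuous_fst.comp continuous_snd).continuousAt
    exact hc.eventually hF
  by_cases h : dist q p < D
  · -- near the diagonal: composition of smooth maps
    have e4 : ∀ᶠ z : ℝ × M × M in 𝓝 (t, p, q), dist z.2.2 z.2.1 < D := by
      have hc : Continuous fun z : ℝ × M × M => dist z.2.2 z.2.1 := by fun_prop
      exact hc.continuousAt.eventually (gt_mem_nhds h)
    have heq : (fun z : ℝ × M × M => P.lift R (k z.1) z.2.1 (fun i => F i z.2.1) z.2.2)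
        =ᶠ[𝓝 (t, p, q)] fun z => (R.ρ (P.rot (P.co z.2.2) z.2.1 fun i => F i z.2.1)).comp
          (k z.1 (P.co z.2.2, P.lg (P.co z.2.2) z.2.1)) := by
      filter_upwards [e2, e3, e4] with z h2 h3 h4
      exact P.lift_of_lt _ h2 h3 h4
    refine ContMDiffAt.congr_of_eventuallyEq ?_ heq
    have hy := P.co_mem hq
    have hyd : dist (ptc P.q₀ (P.co q)) p < D := by rw [P.ptc_co hq]; exact h
    have s0 : ContMDiffAt (𝓘(ℝ, ℝ).prod (𝓘(ℝ, E).prod 𝓘(ℝ, E))) 𝓘(ℝ, E) n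
        (fun z : ℝ × M × M => P.co z.2.2) (t, p, q) :=
      ((P.contMDiffAt_co hq).of_le (by exact_mod_cast le_top)).comp (t, p, q)
        (contMDiffAt_snd.comp (t, p, q) contMDiffAt_snd)
    have s1 : ContMDiffAt (𝓘(ℝ, ℝ).prod (𝓘(ℝ, E).prod 𝓘(ℝ, E))) (𝓘(ℝ, E).prod 𝓘(ℝ, E)) n
        (fun z : ℝ × M × M => (P.co z.2.2, z.2.1)) (t, p, q) := by
      have a2 : ContMDiffAt (𝓘(ℝ, ℝ).prod (𝓘(ℝ, E).prod 𝓘(ℝ, E))) 𝓘(ℝ, E) n
          (fun z : ℝ × M × M => z.2.1) (t, p, q) :=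
        contMDiffAt_fst.comp (t, p, q) contMDiffAt_snd
      exact s0.prodMk a2
    have r1 := (P.lg_smooth (P.co q) hy p hyd).of_le (m := n) (by exact_mod_cast le_top)
    have r2 := (P.pf_smooth F (P.co q) hy p hyd hF).of_le (m := n) (by exact_mod_cast le_top)
    have s2 : ContMDiffAt (𝓘(ℝ, ℝ).prod (𝓘(ℝ, E).prod 𝓘(ℝ, E))) 𝓘(ℝ, Eu4) n
        (fun z : ℝ × M × M => P.lg (P.co z.2.2) z.2.1) (t, p, q) :=
      ContMDiffAt.comp (t, p, q) (g := fun z : E × M => P.lg z.1 z.2)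
        (f := fun z : ℝ × M × M => (P.co z.2.2, z.2.1)) r1 s1
    have s3 : ContMDiffAt (𝓘(ℝ, ℝ).prod (𝓘(ℝ, E).prod 𝓘(ℝ, E))) 𝓘(ℝ, Mat4) n
        (fun z : ℝ × M × M => P.rot (P.co z.2.2) z.2.1 fun i => F i z.2.1) (t, p, q) :=
      ContMDiffAt.comp (t, p, q) (g := fun z : E × M => P.rot z.1 z.2 fun i => F i z.2)
        (f := fun z : ℝ × M × M => (P.co z.2.2, z.2.1)) r2 s1
    have s4 : ContMDiffAt (𝓘(ℝ, ℝ).prod (𝓘(ℝ, E).prod 𝓘(ℝ, E))) 𝓘(ℝ, W →L[ℝ] W) n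
        (fun z : ℝ × M × M => R.ρ (P.rot (P.co z.2.2) z.2.1 fun i => F i z.2.1)) (t, p, q) :=
      ((R.smooth.of_le (by exact_mod_cast le_top)).contDiffAt.contMDiffAt).comp (t, p, q) s3
    have s5 : ContMDiffAt (𝓘(ℝ, ℝ).prod (𝓘(ℝ, E).prod 𝓘(ℝ, E))) 𝓘(ℝ, ℝ × E × Eu4) n
        (fun z : ℝ × M × M => (z.1, P.co z.2.2, P.lg (P.co z.2.2) z.2.1)) (t, p, q) := by
      have a0 : ContMDiffAt (𝓘(ℝ, ℝ).prod (𝓘(ℝ, E).prod 𝓘(ℝ, E))) 𝓘(ℝ, ℝ) n
          (fun z : ℝ × M × M => z.1) (t, p, q) := contMDiffAt_fst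
      exact a0.prodMk_space (s0.prodMk_space s2)
    have hmem : (t, P.co q, P.lg (P.co q) p) ∈ S ×ˢ P.O ×ˢ Metric.ball (0 : Eu4) D := by
      refine ⟨ht, hy, ?_⟩
      rw [Metric.mem_ball, dist_zero_right, P.norm_lg hq h]
      exact h
    have hopen : IsOpen (S ×ˢ P.O ×ˢ Metric.ball (0 : Eu4) D) :=
      hS.prod (P.O_open.prod Metric.isOpen_ball)
    have s6 : ContMDiffAt (𝓘(ℝ, ℝ).prod (𝓘(ℝ, E).prod 𝓘(ℝ, E))) 𝓘(ℝ, W →L[ℝ] W) n
        (fun z : ℝ × M × M => k z.1 (P.co z.2.2, P.lg (P.co z.2.2) z.2.1)) (t, p, q) :=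
      ContMDiffAt.comp (t, p, q) (g := fun x : ℝ × E × Eu4 => k x.1 x.2)
        (hk.contDiffAt (hopen.mem_nhds hmem)).contMDiffAt s5
    exact s4.clm_comp s6
  · -- away from the diagonal: zero
    have e4 : ∀ᶠ z : ℝ × M × M in 𝓝 (t, p, q), D / 2 < dist z.2.2 z.2.1 := by
      have hc : Continuous fun z : ℝ × M × M => dist z.2.2 z.2.1 := by fun_prop
      refine hc.continuousAt.eventually (lt_mem_nhds ?_)
      have := not_lt.mp h
      linarith
    have heq : (fun z : ℝ × M × M => P.lift R (k z.1) z.2.1 (fun i => F i z.2.1) z.2.2)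
        =ᶠ[𝓝 (t, p, q)] fun z => 0 := by
      filter_upwards [e1, e2, e3, e4] with z h1 h2 h3 h4
      by_cases hz : dist z.2.2 z.2.1 < D
      · rw [P.lift_of_lt _ h2 h3 hz]
        have hn := P.norm_lg h2 hz
        rw [hk0 z.1 h1 _ (P.co_mem h2) _ (by rw [hn]; exact h4.le) (by rw [hn]; exact hz),
          ContinuousLinearMap.comp_zero]
      · exact P.lift_of_le _ (not_lt.mp hz)
    exact contMDiffAt_const.congr_of_eventuallyEq heq

/-- the kernel is a smooth one-sided kernel in the sense of LK2 -/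
theorem smK_lift {n : ℕ∞} {S : Set ℝ} (hS : IsOpen S) {k : ℝ → E × Eu4 → (W →L[ℝ] W)}
    (hk : ContDiffOn ℝ n (fun x : ℝ × E × Eu4 => k x.1 x.2) (S ×ˢ P.O ×ˢ Metric.ball 0 D))
    (hk0 : ∀ t ∈ S, ∀ y ∈ P.O, ∀ v : Eu4, D / 2 ≤ ‖v‖ → ‖v‖ < D → k t (y, v) = 0) :
    SmK om R n S P.dom fun t => P.lift R (k t) where
  zero _ _ _ _ _ _ hf := P.lift_of_not_pon _ hf
  equiv _ _ _ _ _ hq _ hf ha := P.lift_equiv hG _ hq hf ha
  smooth _ _ _ _ ht hq hF := P.contMDiffAt_lift hG hS hk hk0 ht hq hF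

end geo

/-- time derivative of a lifted kernel -/
theorem hasDerivAt_lift {k : ℝ → E × Eu4 → (W →L[ℝ] W)} {k' : E × Eu4 → (W →L[ℝ] W)} {t : ℝ}
    (hk : ∀ y ∈ P.O, ∀ v : Eu4, ‖v‖ < D → HasDerivAt (fun s => k s (y, v)) (k' (y, v)) t)
    (p : M) (f : Fin 4 → TangentSpace 𝓘(ℝ, E) p) (q : M) :
    HasDerivAt (fun s => P.lift R (k s) p f q) (P.lift R k' p f q) t := by
  by_cases h : PON om p f ∧ q ∈ P.dom ∧ dist q p < D
  · obtain ⟨hf, hq, hd⟩ := h
    have h1 : (fun s => P.lift R (k s) p f q) = fun s =>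
        (R.ρ (P.rot (P.co q) p f)).comp (k s (P.co q, P.lg (P.co q) p)) := by
      funext s; exact P.lift_of_lt _ hq hf hd
    rw [h1, P.lift_of_lt _ hq hf hd]
    have h2 := hk (P.co q) (P.co_mem hq) (P.lg (P.co q) p) (by rw [P.norm_lg hq hd]; exact hd)
    exact ((ContinuousLinearMap.compL ℝ W W W (R.ρ (P.rot (P.co q) p f))).hasFDerivAt.comp_hasDerivAt
      t h2 :)
  · have h1 : ∀ kk : E × Eu4 → (W →L[ℝ] W), P.lift R kk p f q = 0 := by
      intro kk; unfold lift; rw [if_neg h]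
    simp only [h1]
    exact hasDerivAt_const t _

/-- linearity of the lift -/
theorem lift_sub (k k' : E × Eu4 → (W →L[ℝ] W)) (p : M)
    (f : Fin 4 → TangentSpace 𝓘(ℝ, E) p) (q : M) :
    P.lift R (fun z => k z - k' z) p f q = P.lift R k p f q - P.lift R k' p f q := by
  unfold lift
  split_ifs
  · rw [ContinuousLinearMap.comp_sub]
  · simp

end Patch

end

end Vale.Agent.P211.HK
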