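import Vale.Agent.P211.HK.LKDefs
import Vale.Agent.P211.HK.KSplit
import Vale.Agent.P211.HK.PatchK

/-! P211 / HK: `HKMainStmt` from the blocks of LKDefs (helper287). -/

set_option maxSynthPendingDepth 3
set_option linter.unusedSectionVars false
set_option linter.unusedVariables false

namespace Vale.Agent.P211.HK

open scoped Manifold ContDiff Topology RealInnerProductSpace ENNReal
open Bundle Filter VectorField MeasureTheory Set

noncomputable section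

section abs

variable {M W S : Type} [MeasurableSpace M] [NormedAddCommGroup W] [InnerProductSpace ℝ W]
  [FiniteDimensional ℝ W] [AddCommGroup S] [Module ℝ S] {μ : Measure M} [IsFiniteMeasure μ]

/-- the double integral of a nonnegative bounded kernel -/
theorem lint_lint {f : M → M → ℝ} (h0 : ∀ x y, 0 ≤ f x y)
    (h : Integrable (fun p : M × M => f p.1 p.2) (μ.prod μ)) (C : ℝ) (hC : ∀ x y, f x y ≤ C)
    (hm : StronglyMeasurable fun p : M × M => f p.1 p.2) :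
    ENNReal.ofReal (∫ y, ∫ x, f x y ∂μ ∂μ) =
      ∫⁻ y, ∫⁻ x, ENNReal.ofReal (f x y) ∂μ ∂μ := by
  have hcol : ∀ y, Integrable (fun x => f x y) μ := fun y =>
    Integrable.of_bound (hm.comp_measurable
      (measurable_id.prodMk measurable_const)).aestronglyMeasurable C
      (ae_of_all _ fun x => by rw [Real.norm_of_nonneg (h0 _ _)]; exact hC _ _)
  rw [ofReal_integral_eq_lintegral_ofReal]
  · refine lintegral_congr fun y => ?_
    exact ofReal_integral_eq_lintegral_ofReal (hcol y) (ae_of_all _ fun x => h0 x y)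
  · exact h.integral_prod_right
  · exact ae_of_all _ fun y => integral_nonneg fun x => h0 x y

theorem hs_lint {k : M → M → (W →L[ℝ] W)} (hb : BKer k) :
    ENNReal.ofReal (∫ y, ∫ x, hsW (k x y) ∂μ ∂μ) =
      ∫⁻ y, ∫⁻ x, ENNReal.ofReal (hsW (k x y)) ∂μ ∂μ := by
  obtain ⟨C, -, hC⟩ := KD.hs_bdd hb
  exact lint_lint (fun x y => hsW_nonneg _) (KD.hs_int μ hb) C hC (KD.hs_meas hb)

theorem hs_formula (K : KernelData (W := W) (S := S) μ) {t : ℝ} (ht : 0 < t) (Pr : W →L[ℝ] W)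
    {κ : Type} (b : HilbertBasis κ ℝ (Lp W 2 μ)) :
    hsSq b (ContinuousLinearMap.adjoint ((Pr.compLpL 2 μ).comp (K.heat.Z t))) =
      ∫⁻ y, ∫⁻ x, ENNReal.ofReal (trW ((Pr.comp (K.z t x y)).comp
        (ContinuousLinearMap.adjoint (Pr.comp (K.z t x y))))) ∂μ ∂μ := by
  have e1 := K.hsSq_adj_cop_Z ht Pr b
  rw [hs_lint ((K.bz ht).comp Pr)] at e1
  simp only [hsW_eq_trace'] at e1
  exact e1

end abs

variable {E : Type} [NormedAddCommGroup E] [NormedSpace ℝ E] [FiniteDimensional ℝ E]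
  {M : Type} [MetricSpace M] [ChartedSpace E M] [IsManifold 𝓘(ℝ, E) ∞ M]
  [RiemannianBundle fun p : M => TangentSpace 𝓘(ℝ, E) p]
  [IsContMDiffRiemannianBundle 𝓘(ℝ, E) ∞ E fun p : M => TangentSpace 𝓘(ℝ, E) p]
  [MeasurableSpace M]
  {cov : CovariantDerivative 𝓘(ℝ, E) E (TangentSpace 𝓘(ℝ, E) : M → Type)}
  {om : Form4 E M} {μ : Measure M} {D : ℝ}

namespace MAtlas

variable (A : MAtlas cov om μ D)

theorem mem_dom (p : M) : p ∈ (A.P (A.idx p)).dom := A.sub _ (subset_closure (A.mem_idx p))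

theorem idx_eq {p : M} {a : Fin A.n} (h : p ∈ A.B a) : A.idx p = a := by
  by_contra hne
  exact (A.disj hne).ne_of_mem (A.mem_idx p) h rfl

theorem fr_eq {p : M} {a : Fin A.n} (h : p ∈ A.B a) : A.fr p = fun i => (A.P a).F i p := by
  unfold fr
  rw [A.idx_eq h]

theorem pon_near {a : Fin A.n} {p : M} (h : p ∈ (A.P a).dom) : PONnear om p (A.P a).F := by
  have := (A.P a).F_pon _ ((A.P a).co_mem h)
  rwa [(A.P a).ptc_co h] at this

theorem pon_fr (p : M) : PON om p (A.fr p) := (A.pon_near (A.mem_dom p)).self_of_nhds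

end MAtlas

section sec

variable {W : Type} [NormedAddCommGroup W] [InnerProductSpace ℝ W] [FiniteDimensional ℝ W]
  {R : Rep W} {fr : (p : M) → Fin 4 → TangentSpace 𝓘(ℝ, E) p} [IsFiniteMeasure μ]
  (K : KernelData (M := M) (W := W) (S := Sec (E := E) om R) μ)
  (hev : ∀ s p, K.ev s p = s.1 p (fr p)) (hLf : ∀ s p, K.Lf s p = lapS cov om s.1 p (fr p))

include hev in
theorem T_ev (s : Sec (E := E) om R) : K.T s =ᵐ[μ] fun p => s.1 p (fr p) :=
  (K.T_ae s).trans (ae_of_all _ fun p => hev s p)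

include hLf in
theorem G_ev (s : Sec (E := E) om R) : K.G s =ᵐ[μ] fun p => lapS cov om s.1 p (fr p) :=
  (K.G_ae s).trans (ae_of_all _ fun p => hLf s p)

include hev in
theorem mem_Dm_sec (φ : Lp W 2 μ) :
    φ ∈ K.heat.Dm ↔ ∃ u ∈ Sec om R, φ =ᵐ[μ] fun p => u p (fr p) := by
  rw [K.mem_Dm_iff]
  constructor
  · rintro ⟨s, hs⟩
    exact ⟨s.1, s.2, hs.symm.trans (ae_of_all _ fun p => hev s p)⟩
  · rintro ⟨u, hu, h⟩
    exact ⟨⟨u, hu⟩, EventuallyEq.symm (h.trans (ae_of_all _ fun p => (hev ⟨u, hu⟩ p).symm))⟩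

include hev hLf in
theorem L_sec (φ : K.heat.Dm) (u : PreS E M W) (hu : u ∈ Sec om R)
    (h : (φ : Lp W 2 μ) =ᵐ[μ] fun p => u p (fr p)) :
    K.heat.L φ =ᵐ[μ] fun p => lapS cov om u p (fr p) := by
  have h1 : K.T ⟨u, hu⟩ = (φ : Lp W 2 μ) := Lp.ext ((T_ev K hev ⟨u, hu⟩).trans h.symm)
  have h2 : K.heat.L φ = K.G ⟨u, hu⟩ := K.L_apply' φ.2 h1
  rw [h2]
  exact G_ev K hLf ⟨u, hu⟩

/-- the operator of `HKMain` from kernel data -/
def secHeat (hreg : ∀ (b : Lp W 2 μ) (l : ℝ),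
      (∀ u ∈ Sec (E := E) om R, ∫ x, ⟪b x, lapS cov om u x (fr x)⟫ ∂μ =
        l * ∫ x, ⟪b x, u x (fr x)⟫ ∂μ) →
      ∃ u ∈ Sec (E := E) om R, b =ᵐ[μ] fun x => u x (fr x)) : SecHeat cov om R μ fr where
  P := K.heat
  ex := fun u hu => ⟨K.T ⟨u, hu⟩, T_ev K hev ⟨u, hu⟩⟩
  mem_iff := mem_Dm_sec K hev
  L_ae := L_sec K hev hLf
  reg := by
    intro b l hb
    rw [K.weakEig_iff_integral] at hb
    rw [mem_Dm_sec K hev]
    refine hreg b l fun u hu => ?_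
    have := hb ⟨u, hu⟩
    simp only [hev, hLf] at this
    exact this

end sec

variable [CompactSpace M] [BorelSpace M] [IsRiemannianManifold 𝓘(ℝ, E) M] [ConnectedSpace M]

/-- HKMain from the blocks of `LKDefs`. -/
theorem hkMain_of [hfin : IsFiniteMeasure μ] (hpos : μ.IsOpenPosMeasure)
    (hdiv : DivThm cov om μ) (hP : PatchStmt cov om μ) (hA : LKAStmt cov om μ)
    (hK : ∀ (D : ℝ) (A : MAtlas cov om μ D) (χ : Eu4 → ℝ) (N : ℕ), LKKStmt A χ N)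
    (hI : ∀ (D : ℝ) (A : MAtlas cov om μ D) (χ : Eu4 → ℝ) (N : ℕ), LKIStmt A χ N)
    (hJ : ∀ (D : ℝ) (A : MAtlas cov om μ D) (χ : Eu4 → ℝ) (N : ℕ), LKJStmt A χ N)
    (hE : ∀ (D : ℝ) (A : MAtlas cov om μ D) (χ : Eu4 → ℝ) (N : ℕ), LKEStmt A χ N)
    (hR : REGStmt cov om μ) : HKMainStmt cov om μ := by
  intro hG
  obtain ⟨y₀⟩ : Nonempty M := inferInstance
  obtain ⟨D, A, hD, -⟩ := hA hG hP y₀
  obtain ⟨χ, hχ, -⟩ := EU5.exists_cut hD
  obtain ⟨hFr, -⟩ := hE D A χ 5 hG hfin hχ le_rfl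
  obtain ⟨hs, hJ'⟩ := hJ D A χ 5 hG hfin hχ (by norm_num)
  refine ⟨A.fr, A.pon_fr, A.sS χ 5, hs, ?_⟩
  intro W _ _ _ R
  obtain ⟨K, hev, hLf, hz, he, hlz⟩ := hK D A χ 5 hG hfin hpos hdiv hχ le_rfl W R
  refine ⟨secHeat K hev hLf (hR hG hP hfin hpos hdiv W R A.fr hFr), fun Pr h1 h2 h3 => ?_⟩
  obtain ⟨⟨C, hC⟩, hint, hlim⟩ := hJ' W R Pr h1 h2 h3
  have hI' := hI D A χ 5 hG hfin hχ W R Pr h1 h2 h3
  refine ⟨A.yS R Pr χ 5, ⟨C, fun t ht => ⟨(hI' t ht.1).1, hC t ht⟩⟩, ?_, hint, hlim⟩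
  intro t ht κ b
  rw [← (hI' t ht.1).2]
  refine (hs_formula K ht.1 Pr b).trans ?_
  rw [hz]

end

end Vale.Agent.P211.HK
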