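import Vale.Agent.P211.HK.EUDefs
import Vale.Agent.P211.HK.Gauss

/-! P211 / HK, block LK5 (Euclidean half): estimates of the parametrix in the ball, from `RadData`
and the smoothness of the transport coefficients (EU2). helper251. -/

namespace Vale.Agent.P211.HK

open Filter Topology MeasureTheory Set
open scoped ContDiff RealInnerProductSpace

noncomputable section

theorem gau_eq (t : ℝ) (v : Eu4) : gau t v = Gauss.G t v := by
  unfold gau Gauss.G
  congr 2
  rw [neg_div, div_eq_mul_inv, one_div]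
  ring

theorem gau_nonneg (t : ℝ) (v : Eu4) : 0 ≤ gau t v := by
  rw [gau_eq]; exact Gauss.G_nonneg t v

/-- a smooth function with parameter is bounded and Lipschitz at the centre, uniformly on compact
sets of parameters -/
theorem exists_bound_lip {P F : Type} [NormedAddCommGroup P] [NormedSpace ℝ P]
    [NormedAddCommGroup F] [NormedSpace ℝ F] {U : Set P} {D : ℝ} (hU : IsOpen U)
    (hD : 0 < D) {f : P × Eu4 → F} (hf : ContDiffOn ℝ ∞ f (U ×ˢ Metric.ball 0 D)) {K : Set P}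
    (hK : IsCompact K) (hKU : K ⊆ U) :
    ∃ C : ℝ, 0 ≤ C ∧ ∀ y ∈ K, ∀ v : Eu4, ‖v‖ ≤ D / 2 →
      ‖f (y, v)‖ ≤ C ∧ ‖f (y, v) - f (y, 0)‖ ≤ C * ‖v‖ := by
  have hO : IsOpen (U ×ˢ Metric.ball (0 : Eu4) D) := hU.prod Metric.isOpen_ball
  have hC : IsCompact (K ×ˢ Metric.closedBall (0 : Eu4) (D / 2)) :=
    hK.prod (isCompact_closedBall _ _)
  have hsub : K ×ˢ Metric.closedBall (0 : Eu4) (D / 2) ⊆ U ×ˢ Metric.ball (0 : Eu4) D := by
    rintro ⟨y, v⟩ ⟨hy, hv⟩
    refine ⟨hKU hy, ?_⟩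
    simp only [Metric.mem_closedBall, dist_zero_right, Metric.mem_ball] at hv ⊢
    linarith
  have hc : ContinuousOn f (K ×ˢ Metric.closedBall (0 : Eu4) (D / 2)) :=
    hf.continuousOn.mono hsub
  have hc' : ContinuousOn (fderiv ℝ f) (K ×ˢ Metric.closedBall (0 : Eu4) (D / 2)) :=
    (hf.continuousOn_fderiv_of_isOpen hO (by simp)).mono hsub
  obtain ⟨C1, h1⟩ := hC.exists_bound_of_continuousOn hc
  obtain ⟨C2, h2⟩ := hC.exists_bound_of_continuousOn hc'
  refine ⟨max (max C1 C2) 0, le_max_right _ _, fun y hy v hv => ?_⟩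
  have hmem : ∀ w ∈ Metric.closedBall (0 : Eu4) (D / 2),
      (y, w) ∈ K ×ˢ Metric.closedBall (0 : Eu4) (D / 2) := fun w hw => ⟨hy, hw⟩
  have hv' : v ∈ Metric.closedBall (0 : Eu4) (D / 2) := by simpa using hv
  refine ⟨(h1 _ (hmem v hv')).trans ((le_max_left _ _).trans (le_max_left _ _)), ?_⟩
  have hder : ∀ w ∈ Metric.closedBall (0 : Eu4) (D / 2),
      HasFDerivWithinAt (fun w => f (y, w))
        ((fderiv ℝ f (y, w)).comp (ContinuousLinearMap.inr ℝ P Eu4))
        (Metric.closedBall (0 : Eu4) (D / 2)) w := by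
    intro w hw
    have hd : HasFDerivAt f (fderiv ℝ f (y, w)) (y, w) :=
      ((hf.contDiffAt (hO.mem_nhds (hsub (hmem w hw)))).differentiableAt (by simp)).hasFDerivAt
    have hi : HasFDerivAt (fun w : Eu4 => (y, w)) (ContinuousLinearMap.inr ℝ P Eu4) w :=
      hasFDerivAt_prodMk_right y w
    exact (hd.comp w hi).hasFDerivWithinAt
  have hb : ∀ w ∈ Metric.closedBall (0 : Eu4) (D / 2),
      ‖(fderiv ℝ f (y, w)).comp (ContinuousLinearMap.inr ℝ P Eu4)‖ ≤ max (max C1 C2) 0 := by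
    intro w hw
    refine ((fderiv ℝ f (y, w)).opNorm_comp_le _).trans ?_
    have h3 : ‖ContinuousLinearMap.inr ℝ P Eu4‖ ≤ 1 := ContinuousLinearMap.norm_inr_le_one _ _ _
    have h4 := h2 _ (hmem w hw)
    calc ‖fderiv ℝ f (y, w)‖ * ‖ContinuousLinearMap.inr ℝ P Eu4‖
        ≤ ‖fderiv ℝ f (y, w)‖ * 1 := by gcongr
      _ ≤ C2 := by rw [mul_one]; exact h4
      _ ≤ _ := (le_max_right _ _).trans (le_max_left _ _)
  have := (convex_closedBall (0 : Eu4) (D / 2)).norm_image_sub_le_of_norm_hasFDerivWithin_le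
    hder hb (show (0 : Eu4) ∈ Metric.closedBall (0 : Eu4) (D / 2) by
      simp; linarith) hv'
  simpa using this

/-! ### Gaussian integrals -/

theorem integrable_gau {t : ℝ} (ht : 0 < t) : Integrable (fun v : Eu4 => gau t v) := by
  simp only [gau_eq]; exact Gauss.integrable_G ht

theorem integrable_norm_gau {t : ℝ} (ht : 0 < t) : Integrable (fun v : Eu4 => ‖v‖ * gau t v) := by
  have := Gauss.integrable_pow_G 1 ht
  simpa only [gau_eq, pow_one] using this

theorem integrable_gau_lin {t : ℝ} (ht : 0 < t) (a C : ℝ) :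
    Integrable (fun v : Eu4 => gau t v * (a + C * (t + ‖v‖))) := by
  have h1 := (integrable_gau ht).mul_const (a + C * t)
  have h2 := (integrable_norm_gau ht).mul_const C
  refine (h1.add h2).congr (Eventually.of_forall fun v => ?_)
  simp only [Pi.add_apply]; ring

/-- the constant in the Gaussian moment -/
def cG : ℝ := 4 * Gauss.Kp 1 * 2

theorem cG_pos : 0 < cG := by unfold cG; have := Gauss.Kp_pos 1; positivity

theorem integral_gau_lin_le {t : ℝ} (ht : 0 < t) {a C : ℝ} (hC : 0 ≤ C) :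
    ∫ v : Eu4, gau t v * (a + C * (t + ‖v‖)) ≤ a + C * (t + cG * Real.sqrt t) := by
  have h1 := (integrable_gau ht).mul_const (a + C * t)
  have h2 := (integrable_norm_gau ht).mul_const C
  have h3 : ∫ v : Eu4, gau t v * (a + C * (t + ‖v‖)) =
      (∫ v : Eu4, gau t v * (a + C * t)) + ∫ v : Eu4, ‖v‖ * gau t v * C := by
    rw [← integral_add h1 h2]
    refine integral_congr_ae (Eventually.of_forall fun v => ?_)
    simp only; ring
  have h4 : ∫ v : Eu4, gau t v = 1 := by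
    simp only [gau_eq]; exact Gauss.integral_G ht
  have h5 : ∫ v : Eu4, ‖v‖ * gau t v ≤ cG * Real.sqrt t := by
    have := Gauss.integral_pow_G_le 1 ht
    simp only [pow_one] at this
    simpa only [gau_eq, cG] using this
  rw [h3, integral_mul_const, integral_mul_const, h4]
  nlinarith

namespace RadData

variable {P W : Type} [NormedAddCommGroup P] [NormedSpace ℝ P] [NormedAddCommGroup W]
    [InnerProductSpace ℝ W] {U : Set P} {D : ℝ} (Q : RadData P W U D)

theorem par_eq (N : ℕ) (t : ℝ) (x : P × Eu4) :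
    Q.par N t x = (gau t x.2 * (Real.sqrt (Q.J x))⁻¹) • Q.XX N t x := by
  unfold par XX uu
  rw [mul_smul]
  congr 1
  rw [Finset.smul_sum]
  refine Finset.sum_congr rfl fun k _ => ?_
  rw [smul_comm]

theorem sqrtJ_smooth : ContDiffOn ℝ ∞ (fun x => Real.sqrt (Q.J x))
    (U ×ˢ Metric.ball (0 : Eu4) D) :=
  Q.J_smooth.sqrt fun x hx => (Q.J_pos x hx).ne'

theorem isqrtJ_smooth : ContDiffOn ℝ ∞ (fun x => (Real.sqrt (Q.J x))⁻¹)
    (U ×ˢ Metric.ball (0 : Eu4) D) :=
  Q.sqrtJ_smooth.inv fun x hx => (Real.sqrt_pos.mpr (Q.J_pos x hx)).ne'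

theorem XX_smooth (hcc : ∀ k, ContDiffOn ℝ ∞ (Q.cc k) (U ×ˢ Metric.ball 0 D)) (N : ℕ) (t : ℝ) :
    ContDiffOn ℝ ∞ (Q.XX N t) (U ×ˢ Metric.ball (0 : Eu4) D) := by
  unfold XX
  refine ContDiffOn.sum fun k _ => ?_
  exact (hcc k).const_smul (t ^ k)

/-- uniform bounds on compact sets of parameters -/
theorem exists_bounds (hcc : ∀ k, ContDiffOn ℝ ∞ (Q.cc k) (U ×ˢ Metric.ball 0 D)) (N : ℕ)
    {K : Set P} (hK : IsCompact K) (hKU : K ⊆ U) :
    ∃ C : ℝ, 0 ≤ C ∧ ∀ y ∈ K, ∀ v : Eu4, ‖v‖ ≤ D / 2 →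
      |Real.sqrt (Q.J (y, v)) - 1| ≤ C * ‖v‖ ∧ |(Real.sqrt (Q.J (y, v)))⁻¹ - 1| ≤ C * ‖v‖ ∧
      ∀ t ∈ Icc (0 : ℝ) 1, ‖Q.XX N t (y, v) - ContinuousLinearMap.id ℝ W‖ ≤ C * t := by
  obtain ⟨C1, h10, h1⟩ := exists_bound_lip Q.U_open Q.D_pos Q.sqrtJ_smooth hK hKU
  obtain ⟨C2, h20, h2⟩ := exists_bound_lip Q.U_open Q.D_pos Q.isqrtJ_smooth hK hKU
  choose C h0 h3 using fun k => exists_bound_lip Q.U_open Q.D_pos (hcc k) hK hKU
  refine ⟨C1 + C2 + ∑ k ∈ Finset.range N, C (k + 1), by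
    have := Finset.sum_nonneg fun k (_ : k ∈ Finset.range N) => h0 (k + 1)
    linarith, fun y hy v hv => ?_⟩
  have hS := Finset.sum_nonneg fun k (_ : k ∈ Finset.range N) => h0 (k + 1)
  have hn := norm_nonneg v
  have e1 := (h1 y hy v hv).2
  have e2 := (h2 y hy v hv).2
  rw [Q.J_zero y (hKU hy), Real.sqrt_one] at e1 e2
  rw [Real.norm_eq_abs] at e1 e2
  rw [inv_one] at e2
  refine ⟨e1.trans (by nlinarith), e2.trans (by nlinarith), fun t ht => ?_⟩
  have e3 : Q.XX N t (y, v) - ContinuousLinearMap.id ℝ W =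
      ∑ k ∈ Finset.range N, t ^ (k + 1) • Q.cc (k + 1) (y, v) := by
    unfold XX
    rw [Finset.sum_range_succ']
    simp [cc]
  rw [e3]
  calc ‖∑ k ∈ Finset.range N, t ^ (k + 1) • Q.cc (k + 1) (y, v)‖
      ≤ ∑ k ∈ Finset.range N, ‖t ^ (k + 1) • Q.cc (k + 1) (y, v)‖ := norm_sum_le _ _
    _ ≤ ∑ k ∈ Finset.range N, C (k + 1) * t := by
        refine Finset.sum_le_sum fun k _ => ?_
        rw [norm_smul, Real.norm_of_nonneg (pow_nonneg ht.1 _), mul_comm]
        have h5 : t ^ (k + 1) ≤ t := by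
          calc t ^ (k + 1) ≤ t ^ 1 := pow_le_pow_of_le_one ht.1 ht.2 (by omega)
            _ = t := pow_one t
        exact mul_le_mul ((h3 (k + 1) y hy v hv).1) h5 (pow_nonneg ht.1 _) (h0 _)
    _ = (∑ k ∈ Finset.range N, C (k + 1)) * t := by rw [Finset.sum_mul]
    _ ≤ _ := by
        refine mul_le_mul_of_nonneg_right ?_ ht.1
        linarith

/-- pointwise bounds of the parametrix -/
theorem exists_par_le (hcc : ∀ k, ContDiffOn ℝ ∞ (Q.cc k) (U ×ˢ Metric.ball 0 D)) (N : ℕ)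
    {K : Set P} (hK : IsCompact K) (hKU : K ⊆ U) :
    ∃ C : ℝ, 0 ≤ C ∧ ∀ t ∈ Icc (0 : ℝ) 1, ∀ y ∈ K, ∀ v : Eu4, ‖v‖ ≤ D / 2 →
      Q.J (y, v) ≤ 1 + C * (t + ‖v‖) ∧
      ‖Q.par N t (y, v)‖ ≤ gau t v * (1 + C * (t + ‖v‖)) ∧
      ‖Q.J (y, v) • Q.par N t (y, v)‖ ≤ gau t v * (1 + C * (t + ‖v‖)) ∧
      ‖Q.J (y, v) • Q.par N t (y, v) - gau t v • ContinuousLinearMap.id ℝ W‖ ≤
        gau t v * (C * (t + ‖v‖)) := by
  obtain ⟨C, hC0, hC⟩ := Q.exists_bounds hcc N hK hKU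
  have hD := Q.D_pos
  refine ⟨2 * C + C ^ 2 * (1 + D), by positivity, fun t ht y hy v hv => ?_⟩
  obtain ⟨h1, h2, h3⟩ := hC y hy v hv
  have h3 := h3 t ht
  have hn := norm_nonneg v
  have hmem : (y, v) ∈ U ×ˢ Metric.ball (0 : Eu4) D :=
    ⟨hKU hy, by simp only [Metric.mem_ball, dist_zero_right]; linarith⟩
  have hJ := Q.J_pos _ hmem
  set j := Real.sqrt (Q.J (y, v)) with hj
  have hj0 : 0 < j := Real.sqrt_pos.mpr hJ
  have hjj : Q.J (y, v) = j * j := (Real.mul_self_sqrt hJ.le).symm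
  have hj1 : j ≤ 1 + C * ‖v‖ := by have := (abs_le.mp h1).2; linarith
  have hi1 : j⁻¹ ≤ 1 + C * ‖v‖ := by have := (abs_le.mp h2).2; linarith
  have hX : ‖Q.XX N t (y, v)‖ ≤ 1 + C * t := by
    have h4 : ‖ContinuousLinearMap.id ℝ W‖ ≤ 1 := ContinuousLinearMap.norm_id_le
    calc ‖Q.XX N t (y, v)‖ = ‖ContinuousLinearMap.id ℝ W +
          (Q.XX N t (y, v) - ContinuousLinearMap.id ℝ W)‖ := by congr 1; abel
      _ ≤ _ := (norm_add_le _ _).trans (add_le_add h4 h3)
  have hg := gau_nonneg t v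
  have ht0 := ht.1
  have ht1 := ht.2
  have hCv : 0 ≤ C * ‖v‖ := mul_nonneg hC0 hn
  have hCt : 0 ≤ C * t := mul_nonneg hC0 ht0
  have hprod : (1 + C * ‖v‖) * (1 + C * t) ≤ 1 + (2 * C + C ^ 2 * (1 + D)) * (t + ‖v‖) := by
    nlinarith [mul_nonneg (mul_nonneg (sq_nonneg C) hn) (sub_nonneg.mpr ht1),
      mul_nonneg (mul_nonneg (sq_nonneg C) ht0) hD.le,
      mul_nonneg (mul_nonneg (sq_nonneg C) hn) hD.le, mul_nonneg (sq_nonneg C) ht0]
  have hsm : Q.J (y, v) • Q.par N t (y, v) = (gau t v * j) • Q.XX N t (y, v) := by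
    rw [par_eq, smul_smul, ← hj, hjj]
    congr 1
    field_simp
  refine ⟨?_, ?_, ?_, ?_⟩
  · rw [hjj]
    calc j * j ≤ (1 + C * ‖v‖) * (1 + C * ‖v‖) := mul_le_mul hj1 hj1 hj0.le (by positivity)
      _ ≤ _ := by
        nlinarith [mul_nonneg (mul_nonneg (sq_nonneg C) hn) (show 0 ≤ D - ‖v‖ by linarith),
          mul_nonneg (mul_nonneg (sq_nonneg C) ht0) hD.le, mul_nonneg (sq_nonneg C) ht0,
          mul_nonneg (sq_nonneg C) hn]
  · rw [par_eq, norm_smul, Real.norm_of_nonneg (mul_nonneg hg (inv_nonneg.mpr (Real.sqrt_nonneg _))),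
      mul_assoc]
    refine mul_le_mul_of_nonneg_left ?_ hg
    exact (mul_le_mul hi1 hX (norm_nonneg _) (by positivity)).trans hprod
  · rw [hsm, norm_smul, Real.norm_of_nonneg (mul_nonneg hg hj0.le), mul_assoc]
    refine mul_le_mul_of_nonneg_left ?_ hg
    exact (mul_le_mul hj1 hX (norm_nonneg _) (by positivity)).trans hprod
  · rw [hsm, mul_smul, ← smul_sub, norm_smul, Real.norm_of_nonneg hg]
    refine mul_le_mul_of_nonneg_left ?_ hg
    have h5 : j • Q.XX N t (y, v) - ContinuousLinearMap.id ℝ W =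
        j • (Q.XX N t (y, v) - ContinuousLinearMap.id ℝ W) +
          (j - 1) • ContinuousLinearMap.id ℝ W := by
      rw [smul_sub, sub_smul, one_smul]; abel
    rw [h5]
    have h4 : ‖ContinuousLinearMap.id ℝ W‖ ≤ 1 := ContinuousLinearMap.norm_id_le
    calc _ ≤ j * (C * t) + (C * ‖v‖) * 1 := by
          refine (norm_add_le _ _).trans (add_le_add ?_ ?_)
          · rw [norm_smul, Real.norm_of_nonneg hj0.le]
            exact mul_le_mul_of_nonneg_left h3 hj0.le
          · rw [norm_smul, Real.norm_eq_abs]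
            exact mul_le_mul h1 h4 (norm_nonneg _) hCv
      _ ≤ (1 + C * ‖v‖) * (C * t) + (C * ‖v‖) * 1 := by gcongr
      _ ≤ _ := by
        nlinarith [mul_nonneg (mul_nonneg (sq_nonneg C) hn) (sub_nonneg.mpr ht1),
          mul_nonneg (mul_nonneg (sq_nonneg C) ht0) hD.le,
          mul_nonneg (mul_nonneg (sq_nonneg C) hn) hD.le, mul_nonneg (sq_nonneg C) ht0]

/-- the Euclidean form of `Z_t^* φ → φ`, uniformly in the parameter -/
theorem adj_lim [FiniteDimensional ℝ W]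
    (hcc : ∀ k, ContDiffOn ℝ ∞ (Q.cc k) (U ×ˢ Metric.ball 0 D)) (N : ℕ)
    {K : Set P} (hK : IsCompact K) (hKU : K ⊆ U) {χ : Eu4 → ℝ} (hχm : Measurable χ)
    (hχ1 : ∀ v, |χ v| ≤ 1) (hχ2 : ∀ v, ‖v‖ ≤ D / 4 → χ v = 1) (hχ3 : ∀ v, D / 2 ≤ ‖v‖ → χ v = 0)
    (φ : P → Eu4 → W) (hφ : ∀ y ∈ K, ContinuousOn (φ y) (Metric.ball 0 D)) {B : ℝ}
    (hB : ∀ y ∈ K, ∀ v, ‖v‖ ≤ D / 2 → ‖φ y v‖ ≤ B)
    (heq : ∀ ε : ℝ, 0 < ε → ∃ δ : ℝ, 0 < δ ∧ ∀ y ∈ K, ∀ v, ‖v‖ < δ → ‖φ y v - φ y 0‖ ≤ ε) :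
    ∀ ε : ℝ, 0 < ε → ∃ t₀ : ℝ, 0 < t₀ ∧ ∀ t, 0 < t → t < t₀ → ∀ y ∈ K,
      ‖(∫ v, (χ v * Q.J (y, v)) • ContinuousLinearMap.adjoint (Q.par N t (y, v)) (φ y v)) -
        φ y 0‖ ≤ ε := by
  intro ε hε
  have hD := Q.D_pos
  obtain ⟨C, hC0, hC⟩ := Q.exists_par_le hcc N hK hKU
  by_cases hne : K.Nonempty
  swap
  · exact ⟨1, one_pos, fun t _ _ y hy => absurd ⟨y, hy⟩ hne⟩
  obtain ⟨y₀, hy₀⟩ := hne
  have hB0 : 0 ≤ B := (norm_nonneg _).trans (hB y₀ hy₀ 0 (by simp; linarith))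
  -- the family `χ φ`
  let f : K → Eu4 → W := fun y v => χ v • φ y v
  have hball : ∀ v : Eu4, ‖v‖ ≤ D / 2 → v ∈ Metric.ball (0 : Eu4) D := fun v hv => by
    simp only [Metric.mem_ball, dist_zero_right]; linarith
  have hsupp : ∀ (g : Eu4 → W) (v : Eu4), v ∉ Metric.ball (0 : Eu4) D → χ v • g v = 0 := by
    intro g v hv
    have : D / 2 ≤ ‖v‖ := by
      simp only [Metric.mem_ball, dist_zero_right, not_lt] at hv; linarith
    rw [hχ3 v this, zero_smul]
  have hmeas : ∀ g : Eu4 → W, ContinuousOn g (Metric.ball 0 D) →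
      AEStronglyMeasurable (fun v => χ v • g v) volume := by
    intro g hg
    have h1 : AEStronglyMeasurable (fun v => χ v • g v) (volume.restrict (Metric.ball 0 D)) :=
      (hχm.aestronglyMeasurable).smul (hg.aestronglyMeasurable Metric.isOpen_ball.measurableSet)
    have h2 : (fun v => χ v • g v) = (Metric.ball (0 : Eu4) D).indicator (fun v => χ v • g v) := by
      funext v
      by_cases hv : v ∈ Metric.ball (0 : Eu4) D
      · rw [indicator_of_mem hv]
      · rw [indicator_of_notMem hv, hsupp g v hv]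
    rw [h2]
    exact (aestronglyMeasurable_indicator_iff Metric.isOpen_ball.measurableSet).mpr h1
  have hf : ∀ y : K, AEStronglyMeasurable (f y) volume := fun y => hmeas _ (hφ y y.2)
  have hfB : ∀ (y : K) v, ‖f y v‖ ≤ B := by
    intro y v
    by_cases hv : ‖v‖ ≤ D / 2
    · simp only [f, norm_smul, Real.norm_eq_abs]
      calc |χ v| * ‖φ y v‖ ≤ 1 * B := mul_le_mul (hχ1 v) (hB y y.2 v hv) (norm_nonneg _) zero_le_one
        _ = B := one_mul B
    · simp only [f, hχ3 v (not_le.mp hv).le, zero_smul, norm_zero]; exact hB0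
  have hfc : ∀ ε : ℝ, 0 < ε → ∃ δ : ℝ, 0 < δ ∧ ∀ (y : K) v, ‖v‖ < δ → ‖f y v - f y 0‖ ≤ ε := by
    intro ε hε
    obtain ⟨δ, hδ, h⟩ := heq ε hε
    refine ⟨min δ (D / 4), lt_min hδ (by linarith), fun y v hv => ?_⟩
    have h1 : ‖v‖ ≤ D / 4 := (hv.trans_le (min_le_right _ _)).le
    simp only [f, hχ2 v h1, hχ2 0 (by simp; linarith), one_smul]
    exact h y y.2 v (hv.trans_le (min_le_left _ _))
  obtain ⟨t1, ht1, hlim⟩ := Gauss.approx_id_uniform hf hfB hfc (ε / 2) (half_pos hε)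
  -- choice of `t₀`
  have hcG := cG_pos
  obtain ⟨t2, ht2, ht2'⟩ : ∃ t2 : ℝ, 0 < t2 ∧ ∀ t, 0 < t → t < t2 →
      B * (C * (t + cG * Real.sqrt t)) ≤ ε / 2 := by
    have hcont : Tendsto (fun t : ℝ => B * (C * (t + cG * Real.sqrt t))) (𝓝 0) (𝓝 0) := by
      have : Continuous (fun t : ℝ => B * (C * (t + cG * Real.sqrt t))) := by fun_prop
      have h := this.tendsto 0
      simpa using h
    obtain ⟨δ, hδ, h⟩ := Metric.tendsto_nhds_nhds.mp hcont (ε / 2) (half_pos hε)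
    refine ⟨δ, hδ, fun t ht htd => ?_⟩
    have := h (x := t) (by rw [Real.dist_eq, sub_zero, abs_of_pos ht]; exact htd)
    rw [Real.dist_eq, sub_zero] at this
    exact (le_abs_self _).trans this.le
  refine ⟨min (min t1 t2) 1, lt_min (lt_min ht1 ht2) one_pos, fun t ht htt y hy => ?_⟩
  have htt1 : t < t1 := htt.trans_le ((min_le_left _ _).trans (min_le_left _ _))
  have htt2 : t < t2 := htt.trans_le ((min_le_left _ _).trans (min_le_right _ _))
  have htt3 : t ≤ 1 := (htt.trans_le (min_le_right _ _)).le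
  have hmain := hlim t ht htt1 ⟨y, hy⟩
  have h0 : f ⟨y, hy⟩ 0 = φ y 0 := by
    simp only [f, hχ2 0 (by simp; linarith), one_smul]
  rw [h0] at hmain
  -- the error term
  set T : Eu4 → W →L[ℝ] W := fun v => Q.J (y, v) • Q.par N t (y, v) with hT
  have hTa : ∀ v, (χ v * Q.J (y, v)) • ContinuousLinearMap.adjoint (Q.par N t (y, v)) (φ y v) =
      χ v • ContinuousLinearMap.adjoint (T v) (φ y v) := by
    intro v
    simp only [hT]
    rw [map_smulₛₗ]
    simp only [conj_trivial, smul_apply, mul_smul]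
  have hslice : ∀ {F : Type} [NormedAddCommGroup F] [NormedSpace ℝ F] {g : P × Eu4 → F},
      ContDiffOn ℝ ∞ g (U ×ˢ Metric.ball (0 : Eu4) D) →
      ContinuousOn (fun v => g (y, v)) (Metric.ball (0 : Eu4) D) := by
    intro F _ _ g hg
    exact hg.continuousOn.comp (by fun_prop) fun v hv => ⟨hKU hy, hv⟩
  have hTc : ContinuousOn T (Metric.ball 0 D) := by
    have h1 := hslice Q.J_smooth
    have h2 := hslice Q.isqrtJ_smooth
    have h3 := hslice (Q.XX_smooth hcc N t)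
    have h4 : Continuous (fun v : Eu4 => gau t v) := by
      simp only [gau_eq]; exact Gauss.continuous_G t
    simp only [hT, par_eq]
    exact h1.smul ((h4.continuousOn.mul h2).smul h3)
  have hTac : ContinuousOn (fun v => ContinuousLinearMap.adjoint (T v) (φ y v))
      (Metric.ball 0 D) := by
    have h1 : Continuous (fun A : W →L[ℝ] W => ContinuousLinearMap.adjoint A) :=
      (ContinuousLinearMap.adjoint (𝕜 := ℝ) (E := W) (F := W)).continuous
    exact (h1.comp_continuousOn hTc).clm_apply (hφ y hy)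
  have hbd : ∀ v, ‖χ v • ContinuousLinearMap.adjoint (T v) (φ y v) -
      gau t v • (χ v • φ y v)‖ ≤ B * (gau t v * (0 + C * (t + ‖v‖))) := by
    intro v
    have hg := gau_nonneg t v
    by_cases hv : ‖v‖ ≤ D / 2
    · have h1 : χ v • ContinuousLinearMap.adjoint (T v) (φ y v) - gau t v • (χ v • φ y v) =
          χ v • (ContinuousLinearMap.adjoint (T v - gau t v • ContinuousLinearMap.id ℝ W)
            (φ y v)) := by
        have h2 : ContinuousLinearMap.adjoint (gau t v • ContinuousLinearMap.id ℝ W) =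
            gau t v • ContinuousLinearMap.id ℝ W := by
          rw [eq_comm, ContinuousLinearMap.eq_adjoint_iff]
          intro a b
          simp [inner_smul_left, inner_smul_right]
        rw [map_sub, h2, sub_apply, smul_sub, smul_apply, ContinuousLinearMap.id_apply,
          smul_comm (χ v) (gau t v)]
      rw [h1, norm_smul, Real.norm_eq_abs]
      have h3 := (hC t ⟨ht.le, htt3⟩ y hy v hv).2.2.2
      have h4 : ‖ContinuousLinearMap.adjoint (T v - gau t v • ContinuousLinearMap.id ℝ W)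
          (φ y v)‖ ≤ gau t v * (C * (t + ‖v‖)) * B := by
        refine (ContinuousLinearMap.le_opNorm _ _).trans ?_
        rw [LinearIsometryEquiv.norm_map]
        exact mul_le_mul h3 (hB y hy v hv) (norm_nonneg _) (by positivity)
      calc |χ v| * _ ≤ 1 * (gau t v * (C * (t + ‖v‖)) * B) :=
            mul_le_mul (hχ1 v) h4 (norm_nonneg _) zero_le_one
        _ = _ := by ring
    · rw [hχ3 v (not_le.mp hv).le]
      simp only [zero_smul, smul_zero, sub_self, norm_zero]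
      positivity
  have hI1 : Integrable (fun v => gau t v • (χ v • φ y v)) := by
    simp only [gau_eq]
    exact Integrable.smul_of_top_left (Gauss.integrable_G ht)
      (memLp_top_of_bound (hf ⟨y, hy⟩) B (Eventually.of_forall (hfB ⟨y, hy⟩)))
  have hIe : Integrable (fun v => χ v • ContinuousLinearMap.adjoint (T v) (φ y v) -
      gau t v • (χ v • φ y v)) :=
    Integrable.mono' ((integrable_gau_lin ht 0 C).const_mul B)
      ((hmeas _ hTac).sub hI1.aestronglyMeasurable) (Eventually.of_forall hbd)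
  have hsplit : (∫ v, (χ v * Q.J (y, v)) • ContinuousLinearMap.adjoint (Q.par N t (y, v)) (φ y v)) -
      φ y 0 = (∫ v, (χ v • ContinuousLinearMap.adjoint (T v) (φ y v) -
      gau t v • (χ v • φ y v))) + ((∫ v, Gauss.G t v • f ⟨y, hy⟩ v) - φ y 0) := by
    have h1 : (∫ v, (χ v * Q.J (y, v)) • ContinuousLinearMap.adjoint (Q.par N t (y, v)) (φ y v)) =
        (∫ v, (χ v • ContinuousLinearMap.adjoint (T v) (φ y v) -
      gau t v • (χ v • φ y v))) + ∫ v, gau t v • (χ v • φ y v) := by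
      rw [← integral_add hIe hI1]
      refine integral_congr_ae (Eventually.of_forall fun v => ?_)
      simp only [hTa]; abel
    rw [h1]
    simp only [gau_eq, f]
    abel
  rw [hsplit]
  have he : ‖∫ v, (χ v • ContinuousLinearMap.adjoint (T v) (φ y v) -
      gau t v • (χ v • φ y v))‖ ≤ B * (C * (t + cG * Real.sqrt t)) := by
    calc _ ≤ ∫ v, B * (gau t v * (0 + C * (t + ‖v‖))) :=
          norm_integral_le_of_norm_le ((integrable_gau_lin ht 0 C).const_mul B)
            (Eventually.of_forall hbd)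
      _ = B * ∫ v, (gau t v * (0 + C * (t + ‖v‖))) := integral_const_mul _ _
      _ ≤ B * (0 + C * (t + cG * Real.sqrt t)) :=
          mul_le_mul_of_nonneg_left (integral_gau_lin_le ht hC0) hB0
      _ = _ := by rw [zero_add]
  calc _ ≤ ε / 2 + ε / 2 := (norm_add_le _ _).trans (add_le_add (he.trans (ht2' t ht htt2)) hmain)
    _ = ε := by ring

end RadData

end

end Vale.Agent.P211.HK
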