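import Vale.Agent.P211.HK.PatchK
import Vale.Agent.P211.HK.LK5a
import Vale.Agent.P211.HK.EU1
import Vale.Agent.P211.HK.EU2

/-! P211 / HK, block LK5: the kernels `zK`, `eK`, `lzK` of a patch: smoothness, heat equation,
pointwise bounds, integration in normal coordinates, Schur bounds, limit of the adjoint.
helper251. -/

set_option maxSynthPendingDepth 3
set_option linter.unusedSectionVars false

namespace Vale.Agent.P211.HK

open scoped Manifold ContDiff Topology RealInnerProductSpace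
open Bundle Filter VectorField MeasureTheory Set

noncomputable section

/-- the radial majorant of the parametrix -/
def bd (D C t r : ℝ) : ℝ :=
  if r ≤ D / 2 then ((4 * Real.pi * t) ^ 2)⁻¹ * Real.exp (-r ^ 2 / (4 * t)) * (1 + C * (t + r))
  else 0

theorem bd_nonneg {D C t r : ℝ} (hC : 0 ≤ C) (ht : 0 ≤ t) (hr : 0 ≤ r) : 0 ≤ bd D C t r := by
  unfold bd
  split_ifs
  · positivity
  · exact le_rfl

theorem measurable_bd (D C t : ℝ) : Measurable (bd D C t) := by
  unfold bd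
  refine Measurable.ite (measurableSet_le measurable_id measurable_const) ?_ measurable_const
  fun_prop

theorem bd_norm (D C t : ℝ) (v : Eu4) : bd D C t ‖v‖ =
    if ‖v‖ ≤ D / 2 then gau t v * (1 + C * (t + ‖v‖)) else 0 := rfl

theorem bd_mono {D C C' t r : ℝ} (h : C ≤ C') (ht : 0 ≤ t) (hr : 0 ≤ r) :
    bd D C t r ≤ bd D C' t r := by
  unfold bd
  split_ifs
  · gcongr
  · exact le_rfl

/-- change of variables with a density -/
theorem integral_map_density {X Y F : Type*} [MeasurableSpace X] [MeasurableSpace Y]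
    [NormedAddCommGroup F] [NormedSpace ℝ F] {ν : Measure Y} {lam : Measure X} {J : X → ℝ}
    {ex : X → Y} (hJ : AEMeasurable J lam) (hJ0 : ∀ᵐ v ∂lam, 0 ≤ J v)
    (hex : AEMeasurable ex (lam.withDensity fun v => ENNReal.ofReal (J v)))
    (h : ν = (lam.withDensity fun v => ENNReal.ofReal (J v)).map ex) {f : Y → F}
    (hf : AEStronglyMeasurable f ν) :
    ∫ p, f p ∂ν = ∫ v, J v • f (ex v) ∂lam := by
  subst h
  rw [integral_map hex hf, integral_withDensity_eq_integral_toReal_smul₀ hJ.ennreal_ofReal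
      (Eventually.of_forall fun v => ENNReal.ofReal_lt_top)]
  refine integral_congr_ae ?_
  filter_upwards [hJ0] with v hv
  rw [ENNReal.toReal_ofReal hv]

theorem integrable_map_density {X Y F : Type*} [MeasurableSpace X] [MeasurableSpace Y]
    [NormedAddCommGroup F] [NormedSpace ℝ F] {ν : Measure Y} {lam : Measure X} {J : X → ℝ}
    {ex : X → Y} (hJ : AEMeasurable J lam) (hJ0 : ∀ᵐ v ∂lam, 0 ≤ J v)
    (hex : AEMeasurable ex (lam.withDensity fun v => ENNReal.ofReal (J v)))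
    (h : ν = (lam.withDensity fun v => ENNReal.ofReal (J v)).map ex) {f : Y → F}
    (hf : AEStronglyMeasurable f ν) :
    Integrable f ν ↔ Integrable (fun v => J v • f (ex v)) lam := by
  subst h
  rw [integrable_map_measure hf hex, integrable_withDensity_iff_integrable_smul₀'
    hJ.ennreal_ofReal (Eventually.of_forall fun v => ENNReal.ofReal_lt_top)]
  refine integrable_congr ?_
  filter_upwards [hJ0] with v hv
  simp only [Function.comp]
  rw [ENNReal.toReal_ofReal hv]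

variable {E : Type} [NormedAddCommGroup E] [NormedSpace ℝ E] [FiniteDimensional ℝ E]
  {M : Type} [MetricSpace M] [ChartedSpace E M] [IsManifold 𝓘(ℝ, E) ∞ M]
  [RiemannianBundle fun p : M => TangentSpace 𝓘(ℝ, E) p]
  [IsContMDiffRiemannianBundle 𝓘(ℝ, E) ∞ E fun p : M => TangentSpace 𝓘(ℝ, E) p]
  [MeasurableSpace M]
  {cov : CovariantDerivative 𝓘(ℝ, E) E (TangentSpace 𝓘(ℝ, E) : M → Type)}
  {om : Form4 E M} {μ : Measure M} {D : ℝ}

namespace Patch

variable (P : Patch cov om μ D)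

variable {W : Type} [NormedAddCommGroup W] [InnerProductSpace ℝ W] [FiniteDimensional ℝ W]
  {R : Rep W}

theorem cc_smooth (R : Rep W) (k : ℕ) :
    ContDiffOn ℝ ∞ ((P.rad R).cc k) (P.O ×ˢ Metric.ball 0 D) :=
  (eu2 E W P.O D (P.rad R)).1 k

/-! ### smoothness of the three kernels -/

section smooth

variable (hG : Geo4 cov om) {χ : Eu4 → ℝ} (hχ : EU5.Cut D χ) (N : ℕ)

theorem contDiffOn_chi_par (R : Rep W) (hχ : EU5.Cut D χ) (N : ℕ) :
    ContDiffOn ℝ ∞ (fun x : ℝ × E × Eu4 => χ x.2.2 • (P.rad R).par N x.1 x.2)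
      (Ioi 0 ×ˢ P.O ×ˢ Metric.ball 0 D) := by
  refine EU5.cdo_smul ?_ ?_
  · exact hχ.smooth.comp_contDiffOn (by fun_prop)
  · exact (EU5.contDiffOn_par eu2 (P.rad R) N).mono fun x hx => ⟨hx.1, hx.2⟩

include hG hχ

theorem smK_zK : SmK om R ∞ (Ioi 0) P.dom (P.zK R χ N) :=
  P.smK_lift hG isOpen_Ioi (n := ⊤) (P.contDiffOn_chi_par R hχ N)
    fun _ _ _ _ v hv _ => by simp only; rw [hχ.zero v hv, zero_smul]

theorem smK_eK_pos : SmK om R ∞ (Ioi 0) P.dom (P.eK R χ N) := by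
  refine P.smK_lift hG isOpen_Ioi (n := ⊤) ?_
    fun t _ y hy v hv _ => RadData.err_eq_zero eu1 eu2 (P.rad R) hχ N t hy hv
  intro x hx
  exact (RadData.err_contDiffAt_pos eu1 eu2 (P.rad R) hχ N hx.1 hx.2).contDiffWithinAt

theorem smK_eK (m : ℕ) (hN : 2 * m + 3 ≤ N) :
    SmK om R ((m : ℕ∞) : WithTop ℕ∞) univ P.dom (P.eK R χ N) := by
  have h1 : ContDiffOn ℝ ((m : ℕ∞) : WithTop ℕ∞)
      (fun x : ℝ × E × Eu4 => (P.rad R).err χ N x.1 x.2) (univ ×ˢ P.O ×ˢ Metric.ball 0 D) :=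
    RadData.err_contDiffOn eu1 eu2 (P.rad R) hχ m N hN
  have h2 : ∀ t ∈ (univ : Set ℝ), ∀ y ∈ P.O, ∀ v : Eu4, D / 2 ≤ ‖v‖ → ‖v‖ < D →
      (P.rad R).err χ N t (y, v) = 0 :=
    fun t _ y hy v hv _ => RadData.err_eq_zero eu1 eu2 (P.rad R) hχ N t hy hv
  have h3 := P.smK_lift (R := R) hG isOpen_univ (k := fun t z => (P.rad R).err χ N t z) h1 h2
  exact h3

omit hG in
theorem lapE_eq_zero {t : ℝ} (ht : 0 < t) {y : E} (hy : y ∈ P.O) {v : Eu4} (hv : D / 2 ≤ ‖v‖)
    (hv' : ‖v‖ < D) :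
    (P.rad R).lapE y (fun v' => χ v' • (P.rad R).par N t (y, v')) v = 0 := by
  have h1 := RadData.hasDerivAt_chi_par eu2 (P.rad R) χ N ht hy (v := v)
    (by rwa [mem_ball_zero_iff])
  have h2 : (fun s => χ v • (P.rad R).par N s (y, v)) = fun _ => 0 := by
    funext s; rw [hχ.zero v hv, zero_smul]
  rw [h2] at h1
  have h3 := h1.unique (hasDerivAt_const t (0 : W →L[ℝ] W))
  rw [RadData.err_eq_zero eu1 eu2 (P.rad R) hχ N t hy hv, zero_sub, neg_eq_zero] at h3
  exact h3

theorem smK_lzK : SmK om R ∞ (Ioi 0) P.dom (P.lzK R χ N) := by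
  have hopen : IsOpen (Ioi (0 : ℝ) ×ˢ P.O ×ˢ Metric.ball (0 : Eu4) D) :=
    isOpen_Ioi.prod (P.O_open.prod Metric.isOpen_ball)
  have h1 := EU5.contDiffOn_lapE (P.rad R) hopen (fun x hx => hx.2)
    (f := fun x => χ x.2.2 • (P.rad R).par N x.1 x.2) (P.contDiffOn_chi_par R hχ N)
  exact P.smK_lift (R := R) hG isOpen_Ioi (n := ⊤)
    (k := fun t z => (P.rad R).lapE z.1 (fun v => χ v • (P.rad R).par N t (z.1, v)) z.2) h1
    fun t ht y hy v hv hv' => P.lapE_eq_zero hχ N ht hy hv hv'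

omit hG hχ in
/-- the heat equation -/
theorem hasDerivAt_zK (χ : Eu4 → ℝ) (N : ℕ) {t : ℝ} (ht : 0 < t) (p : M)
    (f : Fin 4 → TangentSpace 𝓘(ℝ, E) p) (q : M) :
    HasDerivAt (fun s => P.zK R χ N s p f q) (P.eK R χ N t p f q - P.lzK R χ N t p f q) t := by
  unfold zK eK lzK
  rw [← P.lift_sub]
  exact P.hasDerivAt_lift (fun y hy v hv => RadData.hasDerivAt_chi_par eu2 (P.rad R) χ N ht hy
    (by rwa [mem_ball_zero_iff])) p f q

end smooth

/-! ### pointwise bounds -/

section bounds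

variable (hG : Geo4 cov om) {χ : Eu4 → ℝ} (hχ : EU5.Cut D χ) (N : ℕ)

theorem isCompact_image_co {K : Set M} (hK : IsCompact K) (hKd : K ⊆ P.dom) :
    IsCompact (P.co '' K) :=
  hK.image_of_continuousOn fun _ hq =>
    (P.contMDiffAt_co (hKd hq)).continuousAt.continuousWithinAt

theorem image_co_sub {K : Set M} (hKd : K ⊆ P.dom) : P.co '' K ⊆ P.O := by
  rintro _ ⟨q, hq, rfl⟩; exact P.co_mem (hKd hq)

include hG hχ

/-- the parametrix is bounded by the radial majorant -/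
theorem exists_zK_le {K : Set M} (hK : IsCompact K) (hKd : K ⊆ P.dom) :
    ∃ C : ℝ, 0 ≤ C ∧ ∀ t ∈ Icc (0 : ℝ) 1, ∀ q ∈ K, ∀ p (f : Fin 4 → TangentSpace 𝓘(ℝ, E) p),
      ‖P.zK R χ N t p f q‖ ≤ bd D C t (dist q p) := by
  obtain ⟨C, hC0, hC⟩ := (P.rad R).exists_par_le (P.cc_smooth R) N (P.isCompact_image_co hK hKd)
    (P.image_co_sub hKd)
  refine ⟨C, hC0, fun t ht q hq p f => ?_⟩
  have hb := bd_nonneg (D := D) hC0 ht.1 (dist_nonneg (x := q) (y := p))
  by_cases h : PON om p f ∧ dist q p < D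
  · obtain ⟨hf, hd⟩ := h
    unfold zK
    rw [P.norm_lift hG _ (hKd hq) hf hd]
    have hn := P.norm_lg (hKd hq) hd
    simp only
    by_cases h2 : dist q p ≤ D / 2
    · have h3 := (hC t ht (P.co q) ⟨q, hq, rfl⟩ (P.lg (P.co q) p) (by rw [hn]; exact h2)).2.1
      rw [norm_smul, Real.norm_eq_abs, ← hn, bd_norm, if_pos (by rw [hn]; exact h2)]
      calc |χ (P.lg (P.co q) p)| * ‖(P.rad R).par N t (P.co q, P.lg (P.co q) p)‖
          ≤ 1 * ‖(P.rad R).par N t (P.co q, P.lg (P.co q) p)‖ := by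
            gcongr; exact hχ.abs_le _
        _ ≤ _ := by rw [one_mul]; exact h3
    · rw [hχ.zero _ (by rw [hn]; exact (not_le.mp h2).le), zero_smul, norm_zero]
      exact hb
  · have h0 : P.zK R χ N t p f q = 0 := by
      unfold zK lift; rw [if_neg (fun h' => h ⟨h'.1, h'.2.2⟩)]
    rw [h0, norm_zero]; exact hb

/-- the error is `O(t)` -/
theorem exists_eK_le (hN : 5 ≤ N) {K : Set M} (hK : IsCompact K) (hKd : K ⊆ P.dom) :
    ∃ C : ℝ, 0 ≤ C ∧ ∀ t ∈ Icc (0 : ℝ) 1, ∀ q ∈ K, ∀ p (f : Fin 4 → TangentSpace 𝓘(ℝ, E) p),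
      ‖P.eK R χ N t p f q‖ ≤ C * t := by
  obtain ⟨C, hC0, hC⟩ := RadData.err_le eu1 eu2 (P.rad R) hχ N hN (P.isCompact_image_co hK hKd)
    (P.image_co_sub hKd)
  refine ⟨C, hC0, fun t ht q hq p f => ?_⟩
  have hb : 0 ≤ C * t := mul_nonneg hC0 ht.1
  by_cases h : PON om p f ∧ dist q p < D
  · obtain ⟨hf, hd⟩ := h
    unfold eK
    rw [P.norm_lift hG _ (hKd hq) hf hd]
    exact hC t ht (P.co q) ⟨q, hq, rfl⟩ _
  · have h0 : P.eK R χ N t p f q = 0 := by
      unfold eK lift; rw [if_neg (fun h' => h ⟨h'.1, h'.2.2⟩)]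
    rw [h0, norm_zero]; exact hb

end bounds

/-! ### integration in normal coordinates -/

section int

variable [BorelSpace M]

theorem continuousOn_ex {y : E} (hy : y ∈ P.O) :
    ContinuousOn (fun v : Eu4 => P.ex (y, v)) (Metric.ball 0 D) :=
  P.ex_smooth.continuousOn.comp (by fun_prop) fun _ hv => ⟨hy, hv⟩

theorem continuousOn_J {y : E} (hy : y ∈ P.O) :
    ContinuousOn (fun v : Eu4 => P.J (y, v)) (Metric.ball 0 D) :=
  P.J_smooth.continuousOn.comp (by fun_prop) fun _ hv => ⟨hy, hv⟩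

theorem aemeasurable_J {y : E} (hy : y ∈ P.O) :
    AEMeasurable (fun v => P.J (y, v)) (volume.restrict (Metric.ball (0 : Eu4) D)) :=
  (P.continuousOn_J hy).aemeasurable Metric.isOpen_ball.measurableSet

theorem aemeasurable_ex {y : E} (hy : y ∈ P.O) :
    AEMeasurable (fun v => P.ex (y, v)) ((volume.restrict (Metric.ball (0 : Eu4) D)).withDensity
      fun v => ENNReal.ofReal (P.J (y, v))) :=
  ((P.continuousOn_ex hy).aemeasurable Metric.isOpen_ball.measurableSet).mono_ac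
    (withDensity_absolutelyContinuous _ _)

theorem ae_J_nonneg {y : E} (hy : y ∈ P.O) :
    ∀ᵐ v ∂(volume.restrict (Metric.ball (0 : Eu4) D)), 0 ≤ P.J (y, v) := by
  filter_upwards [ae_restrict_mem Metric.isOpen_ball.measurableSet] with v hv
  have h : ((y, v) : E × Eu4) ∈ P.O ×ˢ Metric.ball (0 : Eu4) D := ⟨hy, hv⟩
  exact (P.J_pos (y, v) h).le

theorem integral_ball {F : Type*} [NormedAddCommGroup F] [NormedSpace ℝ F] {y : E}
    (hy : y ∈ P.O) {f : M → F}
    (hf : AEStronglyMeasurable f (μ.restrict (Metric.ball (ptc P.q₀ y) D))) :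
    ∫ p in Metric.ball (ptc P.q₀ y) D, f p ∂μ =
      ∫ v in Metric.ball (0 : Eu4) D, P.J (y, v) • f (P.ex (y, v)) :=
  integral_map_density (P.aemeasurable_J hy) (P.ae_J_nonneg hy) (P.aemeasurable_ex hy)
    (P.vol y hy) hf

theorem integrableOn_ball {F : Type*} [NormedAddCommGroup F] [NormedSpace ℝ F] {y : E}
    (hy : y ∈ P.O) {f : M → F}
    (hf : AEStronglyMeasurable f (μ.restrict (Metric.ball (ptc P.q₀ y) D))) :
    IntegrableOn f (Metric.ball (ptc P.q₀ y) D) μ ↔
      IntegrableOn (fun v => P.J (y, v) • f (P.ex (y, v))) (Metric.ball (0 : Eu4) D) :=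
  integrable_map_density (P.aemeasurable_J hy) (P.ae_J_nonneg hy) (P.aemeasurable_ex hy)
    (P.vol y hy) hf

/-- the integral of the radial majorant, uniformly for centres in a compact set -/
theorem exists_integral_bd_le {K : Set M} (hK : IsCompact K) (hKd : K ⊆ P.dom) {C : ℝ}
    (hC : 0 ≤ C) :
    ∃ C' : ℝ, 0 ≤ C' ∧ ∀ t ∈ Ioc (0 : ℝ) 1, ∀ q ∈ K,
      Integrable (fun p => bd D C t (dist q p)) μ ∧
      ∫ p, bd D C t (dist q p) ∂μ ≤ 1 + C' * (t + cG * Real.sqrt t) := by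
  have hD := P.D_pos
  let R₀ : Rep ℝ := ⟨fun _ => ContinuousLinearMap.id ℝ ℝ, contDiff_const, rfl,
    fun _ _ _ _ => rfl, fun _ _ _ _ => rfl⟩
  obtain ⟨C1, hC1, h1⟩ := (P.rad R₀).exists_par_le (P.cc_smooth R₀) 0
    (P.isCompact_image_co hK hKd) (P.image_co_sub hKd)
  refine ⟨C + C1 + C * C1 * (1 + D), by positivity, fun t ht q hq => ?_⟩
  have hy := P.co_mem (hKd hq)
  have hqy := P.ptc_co (hKd hq)
  have ht0 : 0 < t := ht.1
  -- the integrand vanishes outside of the ball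
  have hsupp : ∀ p, p ∉ Metric.ball (ptc P.q₀ (P.co q)) D → bd D C t (dist q p) = 0 := by
    intro p hp
    rw [hqy] at hp
    have : ¬ dist q p ≤ D / 2 := fun h => hp (by
      rw [Metric.mem_ball, dist_comm]; linarith)
    unfold bd
    rw [if_neg this]
  have hm : Measurable fun p : M => bd D C t (dist q p) :=
    (measurable_bd D C t).comp (by fun_prop)
  have hsm : AEStronglyMeasurable (fun p : M => bd D C t (dist q p))
      (μ.restrict (Metric.ball (ptc P.q₀ (P.co q)) D)) := hm.aestronglyMeasurable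
  -- in coordinates
  have hco : ∀ v ∈ Metric.ball (0 : Eu4) D,
      P.J (P.co q, v) • bd D C t (dist q (P.ex (P.co q, v))) =
        P.J (P.co q, v) * bd D C t ‖v‖ := by
    intro v hv
    have h2 := P.dist_ex (P.co q) hy v (by rwa [mem_ball_zero_iff] at hv)
    rw [hqy] at h2
    rw [h2, smul_eq_mul]
  have hle : ∀ v ∈ Metric.ball (0 : Eu4) D, ‖P.J (P.co q, v) * bd D C t ‖v‖‖ ≤
      gau t v * (1 + (C + C1 + C * C1 * (1 + D)) * (t + ‖v‖)) := by
    intro v hv
    have hn := norm_nonneg v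
    have hg := gau_nonneg t v
    have hJ := P.J_pos (P.co q, v) ⟨hy, hv⟩
    rw [bd_norm]
    by_cases hv2 : ‖v‖ ≤ D / 2
    · rw [if_pos hv2]
      have h2 : P.J (P.co q, v) ≤ 1 + C1 * (t + ‖v‖) :=
        (h1 t ⟨ht.1.le, ht.2⟩ (P.co q) ⟨q, hq, rfl⟩ v hv2).1
      rw [Real.norm_of_nonneg (by positivity)]
      calc P.J (P.co q, v) * (gau t v * (1 + C * (t + ‖v‖)))
          ≤ (1 + C1 * (t + ‖v‖)) * (gau t v * (1 + C * (t + ‖v‖))) := by gcongr
        _ = gau t v * ((1 + C1 * (t + ‖v‖)) * (1 + C * (t + ‖v‖))) := by ring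
        _ ≤ _ := by
          refine mul_le_mul_of_nonneg_left ?_ hg
          have h3 : (t + ‖v‖) * (t + ‖v‖) ≤ (1 + D) * (t + ‖v‖) := by
            refine mul_le_mul_of_nonneg_right ?_ (by positivity)
            linarith [ht.2]
          nlinarith [mul_le_mul_of_nonneg_left h3 (mul_nonneg hC hC1)]
    · rw [if_neg hv2, mul_zero, norm_zero]
      positivity
  have hI := integrable_gau_lin ht0 1 (C + C1 + C * C1 * (1 + D))
  have hIc : IntegrableOn (fun v => P.J (P.co q, v) • bd D C t (dist q (P.ex (P.co q, v))))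
      (Metric.ball (0 : Eu4) D) := by
    have hms : AEStronglyMeasurable
        (fun v => P.J (P.co q, v) * bd D C t ‖v‖) (volume.restrict (Metric.ball (0 : Eu4) D)) :=
      ((P.continuousOn_J hy).aestronglyMeasurable Metric.isOpen_ball.measurableSet).mul
        ((measurable_bd D C t).comp measurable_norm).aestronglyMeasurable
    have h3 : IntegrableOn (fun v => P.J (P.co q, v) * bd D C t ‖v‖)
        (Metric.ball (0 : Eu4) D) := by
      refine Integrable.mono' hI.integrableOn hms ?_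
      filter_upwards [ae_restrict_mem Metric.isOpen_ball.measurableSet] with v hv using hle v hv
    exact h3.congr_fun (fun v hv => (hco v hv).symm) Metric.isOpen_ball.measurableSet
  have hInt : IntegrableOn (fun p => bd D C t (dist q p)) (Metric.ball (ptc P.q₀ (P.co q)) D)
      μ := (P.integrableOn_ball hy hsm).mpr hIc
  refine ⟨?_, ?_⟩
  · exact (integrableOn_iff_integrable_of_support_subset fun p hp => by
      by_contra hp'
      exact hp (hsupp p hp')).mp hInt
  · rw [← setIntegral_eq_integral_of_forall_compl_eq_zero hsupp, P.integral_ball hy hsm,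
      setIntegral_congr_fun Metric.isOpen_ball.measurableSet hco]
    calc ∫ v in Metric.ball (0 : Eu4) D, P.J (P.co q, v) * bd D C t ‖v‖
        ≤ ∫ v in Metric.ball (0 : Eu4) D,
            gau t v * (1 + (C + C1 + C * C1 * (1 + D)) * (t + ‖v‖)) := by
          refine setIntegral_mono_on ?_ hI.integrableOn Metric.isOpen_ball.measurableSet
            fun v hv => (le_abs_self _).trans (hle v hv)
          exact hIc.congr_fun hco Metric.isOpen_ball.measurableSet
      _ ≤ ∫ v : Eu4, gau t v * (1 + (C + C1 + C * C1 * (1 + D)) * (t + ‖v‖)) := by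
          refine setIntegral_le_integral hI (Eventually.of_forall fun v => ?_)
          have := gau_nonneg t v
          simp only [Pi.zero_apply]
          positivity
      _ ≤ _ := integral_gau_lin_le ht0 (by positivity)

end int

/-! ### sections in normal coordinates and radial gauge -/

section pull

variable (hG : Geo4 cov om)
include hG

theorem contMDiffAt_pf {u : PreS E M W} (hu : u ∈ Sec om R) {y : E} (hy : y ∈ P.O) {x : M}
    (hx : dist (ptc P.q₀ y) x < D) :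
    ContMDiffAt (𝓘(ℝ, E).prod 𝓘(ℝ, E)) 𝓘(ℝ, W) ∞
      (fun z : E × M => u z.2 (P.pf z.1 z.2)) (y, x) := by
  obtain ⟨F, hF, -⟩ := exists_ponnear hG (P.pf_pon y hy x hx)
  have e1 : ∀ᶠ z : E × M in 𝓝 (y, x), z.1 ∈ P.O :=
    continuousAt_fst (P.O_open.mem_nhds hy)
  have e2 : ∀ᶠ z : E × M in 𝓝 (y, x), PON om z.2 fun i => F i z.2 := by
    have hc : Tendsto (fun z : E × M => z.2) (𝓝 (y, x)) (𝓝 x) := continuousAt_snd
    exact hc.eventually hF
  have e3 : ∀ᶠ z : E × M in 𝓝 (y, x), dist (ptc P.q₀ z.1) z.2 < D := by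
    have h1 : ContinuousAt (ptc P.q₀ : E → M) y :=
      (continuousOn_extChartAt_symm (I := 𝓘(ℝ, E)) P.q₀).continuousAt
        ((isOpen_extChartAt_target P.q₀).mem_nhds (P.O_sub hy))
    have h2 : Tendsto (fun z : E × M => ptc P.q₀ z.1) (𝓝 (y, x)) (𝓝 (ptc P.q₀ y)) :=
      ContinuousAt.comp (x := (y, x)) (f := fun z : E × M => z.1) (g := (ptc P.q₀ : E → M)) h1
        continuousAt_fst
    have h3 : Tendsto (fun z : E × M => z.2) (𝓝 (y, x)) (𝓝 x) := continuousAt_snd
    exact (h2.dist h3).eventually (gt_mem_nhds hx)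
  have heq : (fun z : E × M => u z.2 (P.pf z.1 z.2)) =ᶠ[𝓝 (y, x)]
      fun z => R.ρ (trM (P.rot z.1 z.2 fun i => F i z.2)) (u z.2 fun i => F i z.2) := by
    filter_upwards [e1, e2, e3] with z h1 h2 h3
    rw [P.pf_eq hG h1 h3 h2]
    exact hu.2.1 _ _ _ h2 (P.rot_so hG h1 h3 h2)
  refine ContMDiffAt.congr_of_eventuallyEq ?_ heq
  have s1 := P.pf_smooth F y hy x hx hF
  have htr : ContDiff ℝ ∞ (trM : Mat4 → Mat4) := by
    rw [contDiff_pi]; intro i
    rw [contDiff_pi]; intro j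
    unfold trM; fun_prop
  have s2 : ContMDiffAt (𝓘(ℝ, E).prod 𝓘(ℝ, E)) 𝓘(ℝ, W →L[ℝ] W) ∞
      (fun z : E × M => R.ρ (trM (P.rot z.1 z.2 fun i => F i z.2))) (y, x) :=
    ((R.smooth.comp htr).contDiffAt.contMDiffAt).comp (y, x) s1
  have s3 : ContMDiffAt (𝓘(ℝ, E).prod 𝓘(ℝ, E)) 𝓘(ℝ, W) ∞
      (fun z : E × M => u z.2 fun i => F i z.2) (y, x) :=
    (hu.2.2 F x hF).comp (y, x) contMDiffAt_snd
  exact s2.clm_apply s3

/-- a section in normal coordinates and radial gauge -/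
def pullS (u : PreS E M W) (x : E × Eu4) : W := u (P.ex x) (P.pf x.1 (P.ex x))

theorem contDiffOn_pullS {u : PreS E M W} (hu : u ∈ Sec om R) :
    ContDiffOn ℝ ∞ (P.pullS u) (P.O ×ˢ Metric.ball 0 D) := by
  have hopen : IsOpen (P.O ×ˢ Metric.ball (0 : Eu4) D) := P.O_open.prod Metric.isOpen_ball
  rintro ⟨y, v⟩ ⟨hy, hv⟩
  have hv' : ‖v‖ < D := by rwa [mem_ball_zero_iff] at hv
  have h1 : ContMDiffAt 𝓘(ℝ, E × Eu4) 𝓘(ℝ, E) ∞ P.ex (y, v) :=
    P.ex_smooth.contMDiffAt (hopen.mem_nhds ⟨hy, hv⟩)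
  have h2 : ContMDiffAt 𝓘(ℝ, E × Eu4) 𝓘(ℝ, E) ∞ (fun z : E × Eu4 => z.1) (y, v) :=
    contDiff_fst.contDiffAt.contMDiffAt
  have h3 : ContMDiffAt 𝓘(ℝ, E × Eu4) (𝓘(ℝ, E).prod 𝓘(ℝ, E)) ∞
      (fun z : E × Eu4 => (z.1, P.ex z)) (y, v) := h2.prodMk h1
  have h4 := P.contMDiffAt_pf hG hu hy (x := P.ex (y, v)) (by rw [P.dist_ex y hy v hv']; exact hv')
  have h5 : ContMDiffAt 𝓘(ℝ, E × Eu4) 𝓘(ℝ, W) ∞ (P.pullS u) (y, v) :=
    ContMDiffAt.comp (y, v) (g := fun z : E × M => u z.2 (P.pf z.1 z.2))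
      (f := fun z : E × Eu4 => (z.1, P.ex z)) h4 h3
  exact h5.contDiffAt.contDiffWithinAt

omit hG in
theorem ex_zero {y : E} (hy : y ∈ P.O) : P.ex (y, 0) = ptc P.q₀ y := by
  have h := P.dist_ex y hy 0 (by rw [norm_zero]; exact P.D_pos)
  rw [norm_zero] at h
  exact (dist_eq_zero.mp h).symm

omit hG in
theorem pullS_zero (u : PreS E M W) {y : E} (hy : y ∈ P.O) :
    P.pullS u (y, 0) = u (ptc P.q₀ y) fun i => P.F i (ptc P.q₀ y) := by
  have h := P.ex_zero hy
  unfold pullS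
  simp only
  rw [h]
  congr 1
  funext i
  exact P.pf_zero y hy i

/-- the adjoint of the lifted kernel applied to a section -/
theorem adjoint_lift (k : E × Eu4 → (W →L[ℝ] W)) {u : PreS E M W} (hu : u ∈ Sec om R) {q : M}
    (hq : q ∈ P.dom) {p : M} (hp : dist q p < D) {f : Fin 4 → TangentSpace 𝓘(ℝ, E) p}
    (hf : PON om p f) :
    ContinuousLinearMap.adjoint (P.lift R k p f q) (u p f) =
      ContinuousLinearMap.adjoint (k (P.co q, P.lg (P.co q) p)) (u p (P.pf (P.co q) p)) := by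
  have hso := P.rot_so' hG hq hp hf
  rw [P.lift_of_lt k hq hf hp, ContinuousLinearMap.adjoint_comp, ContinuousLinearMap.comp_apply,
    PK.adjoint_rho R hso, ← hu.2.1 p f _ hf hso,
    ← P.pf_eq hG (P.co_mem hq) (by rw [P.ptc_co hq]; exact hp) hf]

variable [BorelSpace M]

/-- integral of the adjoint kernel against a section, in normal coordinates -/
theorem integral_adjoint_lift {k : E × Eu4 → (W →L[ℝ] W)}
    (hk : ContinuousOn k (P.O ×ˢ Metric.ball 0 D)) {u : PreS E M W} (hu : u ∈ Sec om R) {q : M}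
    (hq : q ∈ P.dom) {fr : (p : M) → Fin 4 → TangentSpace 𝓘(ℝ, E) p}
    (hfr : ∀ p, PON om p (fr p)) :
    ∫ p, ContinuousLinearMap.adjoint (P.lift R k p (fr p) q) (u p (fr p)) ∂μ =
      ∫ v in Metric.ball (0 : Eu4) D, P.J (P.co q, v) •
        ContinuousLinearMap.adjoint (k (P.co q, v)) (P.pullS u (P.co q, v)) := by
  have hy := P.co_mem hq
  have hqy := P.ptc_co hq
  have h0 : ∀ p, p ∉ Metric.ball (ptc P.q₀ (P.co q)) D →
      ContinuousLinearMap.adjoint (P.lift R k p (fr p) q) (u p (fr p)) = 0 := by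
    intro p hp
    rw [hqy, Metric.mem_ball, dist_comm, not_lt] at hp
    rw [P.lift_of_le k hp, map_zero, zero_apply]
  rw [← setIntegral_eq_integral_of_forall_compl_eq_zero h0]
  set g : M → W := fun p => ContinuousLinearMap.adjoint (k (P.co q, P.lg (P.co q) p))
    (u p (P.pf (P.co q) p)) with hg
  have h1 : ∫ p in Metric.ball (ptc P.q₀ (P.co q)) D,
      ContinuousLinearMap.adjoint (P.lift R k p (fr p) q) (u p (fr p)) ∂μ =
      ∫ p in Metric.ball (ptc P.q₀ (P.co q)) D, g p ∂μ := by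
    refine setIntegral_congr_fun Metric.isOpen_ball.measurableSet fun p hp => ?_
    rw [hqy, Metric.mem_ball, dist_comm] at hp
    exact P.adjoint_lift hG k hu hq hp (hfr p)
  have hgc : ContinuousOn g (Metric.ball (ptc P.q₀ (P.co q)) D) := by
    intro p hp
    rw [Metric.mem_ball, dist_comm] at hp
    have c1 : ContinuousAt (fun p : M => P.lg (P.co q) p) p :=
      ContinuousAt.comp (f := fun p : M => (P.co q, p)) (g := fun z : E × M => P.lg z.1 z.2)
        (P.lg_smooth (P.co q) hy p hp).continuousAt (by fun_prop)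
    have c2 : ContinuousAt (fun p : M => u p (P.pf (P.co q) p)) p :=
      ContinuousAt.comp (f := fun p : M => (P.co q, p))
        (g := fun z : E × M => u z.2 (P.pf z.1 z.2))
        (P.contMDiffAt_pf hG hu hy hp).continuousAt (by fun_prop)
    have hmem : (P.co q, P.lg (P.co q) p) ∈ P.O ×ˢ Metric.ball (0 : Eu4) D := by
      refine ⟨hy, ?_⟩
      rw [mem_ball_zero_iff, P.lg_norm _ hy p hp]
      exact hp
    have c3 : ContinuousAt (fun p : M => k (P.co q, P.lg (P.co q) p)) p :=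
      ContinuousAt.comp (f := fun p : M => (P.co q, P.lg (P.co q) p)) (g := k)
        (hk.continuousAt ((P.O_open.prod Metric.isOpen_ball).mem_nhds hmem))
        (continuousAt_const.prodMk c1)
    have c4 : Continuous (fun A : W →L[ℝ] W => ContinuousLinearMap.adjoint A) :=
      (ContinuousLinearMap.adjoint (𝕜 := ℝ) (E := W) (F := W)).continuous
    exact ((c4.continuousAt.comp c3).clm_apply c2).continuousWithinAt
  rw [h1, P.integral_ball hy (hgc.aestronglyMeasurable Metric.isOpen_ball.measurableSet)]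
  refine setIntegral_congr_fun Metric.isOpen_ball.measurableSet fun v hv => ?_
  have hv' : ‖v‖ < D := by rwa [mem_ball_zero_iff] at hv
  simp only [hg, pullS]
  rw [P.lg_ex _ hy v hv']

/-- `Z_t^* u → u` at the centres, uniformly on compact sets -/
theorem adj_lim {χ : Eu4 → ℝ} (hχ : EU5.Cut D χ) (N : ℕ) {K : Set M} (hK : IsCompact K)
    (hKd : K ⊆ P.dom) {u : PreS E M W} (hu : u ∈ Sec om R)
    {fr : (p : M) → Fin 4 → TangentSpace 𝓘(ℝ, E) p} (hfr : ∀ p, PON om p (fr p)) :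
    ∀ ε : ℝ, 0 < ε → ∃ t₀ : ℝ, 0 < t₀ ∧ ∀ t, 0 < t → t < t₀ → ∀ q ∈ K,
      ‖(∫ p, ContinuousLinearMap.adjoint (P.zK R χ N t p (fr p) q) (u p (fr p)) ∂μ) -
        u q fun i => P.F i q‖ ≤ ε := by
  intro ε hε
  have hD := P.D_pos
  obtain ⟨B, hB0, hB⟩ := exists_bound_lip P.O_open P.D_pos (P.contDiffOn_pullS hG hu)
    (P.isCompact_image_co hK hKd) (P.image_co_sub hKd)
  have hmain := (P.rad R).adj_lim (P.cc_smooth R) N (P.isCompact_image_co hK hKd)
    (P.image_co_sub hKd) (χ := χ) hχ.smooth.continuous.measurable hχ.abs_le hχ.one hχ.zero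
    (fun y v => P.pullS u (y, v))
    (fun y hy => (P.contDiffOn_pullS hG hu).continuousOn.comp (by fun_prop)
      fun v hv => ⟨P.image_co_sub hKd hy, hv⟩) (B := B) (fun y hy v hv => (hB y hy v hv).1)
    (fun ε hε => ⟨min (ε / (B + 1)) (D / 2), lt_min (by positivity) (by linarith),
      fun y hy v hv => by
        have hv1 : ‖v‖ < ε / (B + 1) := hv.trans_le (min_le_left _ _)
        have hv2 : ‖v‖ ≤ D / 2 := (hv.trans_le (min_le_right _ _)).le
        refine (hB y hy v hv2).2.trans ?_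
        rw [lt_div_iff₀ (by positivity)] at hv1
        nlinarith [norm_nonneg v]⟩) ε hε
  obtain ⟨t₀, ht₀, h⟩ := hmain
  refine ⟨t₀, ht₀, fun t ht htt q hq => ?_⟩
  have h1 := h t ht htt (P.co q) ⟨q, hq, rfl⟩
  have hq' := hKd hq
  have hk : ContinuousOn (fun z : E × Eu4 => χ z.2 • (P.rad R).par N t z)
      (P.O ×ˢ Metric.ball 0 D) :=
    (P.contDiffOn_chi_par R hχ N).continuousOn.comp (f := fun z : E × Eu4 => (t, z))
      (by fun_prop) fun z hz => ⟨ht, hz⟩
  have h2 := P.integral_adjoint_lift hG hk hu hq' hfr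
  have h3 : P.pullS u (P.co q, 0) = u q fun i => P.F i q := by
    rw [P.pullS_zero u (P.co_mem hq'), P.ptc_co hq']
  rw [h3] at h1
  unfold zK
  rw [h2]
  have h4 : ∫ v in Metric.ball (0 : Eu4) D, P.J (P.co q, v) •
        ContinuousLinearMap.adjoint (χ v • (P.rad R).par N t (P.co q, v))
          (P.pullS u (P.co q, v)) =
      ∫ v, (χ v * P.J (P.co q, v)) •
        ContinuousLinearMap.adjoint ((P.rad R).par N t (P.co q, v)) (P.pullS u (P.co q, v)) := by
    have h5 : ∀ v, v ∉ Metric.ball (0 : Eu4) D → (χ v * P.J (P.co q, v)) •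
        ContinuousLinearMap.adjoint ((P.rad R).par N t (P.co q, v))
          (P.pullS u (P.co q, v)) = 0 := by
      intro v hv
      rw [mem_ball_zero_iff, not_lt] at hv
      rw [hχ.zero v (by linarith), zero_mul, zero_smul]
    refine (setIntegral_congr_fun Metric.isOpen_ball.measurableSet fun v _ => ?_).trans
      (setIntegral_eq_integral_of_forall_compl_eq_zero h5)
    rw [map_smulₛₗ, conj_trivial, smul_apply, smul_smul, mul_comm]
  simp only at h4 ⊢
  rw [h4]
  exact h1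

end pull

end Patch

end

end Vale.Agent.P211.HK
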