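import Vale.Agent.P211.HK.LKDefs
import Vale.Agent.P211.HK.HKInst
import Vale.Agent.P211.HK.PatchZ
import Vale.Agent.P211.HK.Vol

/-! P211 / HK: block LKE, measurability, bounds and heat equation of the global kernels
(helper287). -/

set_option maxSynthPendingDepth 3
set_option linter.unusedSectionVars false
set_option linter.unusedVariables false

namespace Vale.Agent.P211.HK

open scoped Manifold ContDiff Topology RealInnerProductSpace ENNReal
open Bundle Filter VectorField MeasureTheory Set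

noncomputable section

variable {E : Type} [NormedAddCommGroup E] [NormedSpace ℝ E] [FiniteDimensional ℝ E]
  {M : Type} [MetricSpace M] [ChartedSpace E M] [IsManifold 𝓘(ℝ, E) ∞ M]
  [RiemannianBundle fun p : M => TangentSpace 𝓘(ℝ, E) p]
  [IsContMDiffRiemannianBundle 𝓘(ℝ, E) ∞ E fun p : M => TangentSpace 𝓘(ℝ, E) p]
  [MeasurableSpace M]
  {cov : CovariantDerivative 𝓘(ℝ, E) E (TangentSpace 𝓘(ℝ, E) : M → Type)}
  {om : Form4 E M} {μ : Measure M} {D : ℝ}

namespace MAtlas

variable (A : MAtlas cov om μ D)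

/-- the frame selection of the atlas -/
def frSel : FrSel om A.fr where
  N := A.n
  S := A.B
  F := fun a => (A.P a).F
  meas := A.meas
  disj := A.disj
  cover := A.cover
  pon := fun a p hp => A.pon_near (A.sub a hp)
  eq := fun a p hp => A.fr_eq hp

variable {W : Type} [NormedAddCommGroup W] [InnerProductSpace ℝ W] [FiniteDimensional ℝ W]

theorem glue_eq_sum (k : Fin A.n → PreK E M W W) (p : M × M) :
    A.glue k p.1 p.2 = ∑ a, indicator (univ ×ˢ A.B a)
      (fun z : M × M => k a z.1 (A.fr z.1) z.2) p := by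
  rw [Finset.sum_eq_single (A.idx p.2)]
  · have hm : p ∈ (univ : Set M) ×ˢ A.B (A.idx p.2) := ⟨mem_univ _, A.mem_idx p.2⟩
    rw [indicator_of_mem hm]
    rfl
  · intro a _ ha
    have hm : p ∉ (univ : Set M) ×ˢ A.B a := fun h => ha (A.idx_eq h.2).symm
    exact indicator_of_notMem hm _
  · intro h
    exact absurd (Finset.mem_univ _) h

theorem glue_meas (k : Fin A.n → PreK E M W W)
    (h : ∀ a, StronglyMeasurable
      (indicator (univ ×ˢ A.B a) fun z : M × M => k a z.1 (A.fr z.1) z.2)) :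
    StronglyMeasurable fun p : M × M => A.glue k p.1 p.2 := by
  have e : (fun p : M × M => A.glue k p.1 p.2) = fun p => ∑ a, indicator (univ ×ˢ A.B a)
      (fun z : M × M => k a z.1 (A.fr z.1) z.2) p := funext fun p => A.glue_eq_sum k p
  rw [e]
  exact Finset.stronglyMeasurable_fun_sum _ fun a _ => h a

theorem glue_bdd (k : ℝ → Fin A.n → PreK E M W W) (T : Set ℝ)
    (h : ∀ a, ∃ C : ℝ, ∀ t ∈ T, ∀ p f, ∀ q ∈ closure (A.B a), ‖k t a p f q‖ ≤ C) :
    ∃ C : ℝ, ∀ t ∈ T, ∀ x y, ‖A.glue (k t) x y‖ ≤ C := by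
  choose C hC using h
  refine ⟨∑ a, |C a|, fun t ht x y => ?_⟩
  refine (hC (A.idx y) t ht x (A.fr x) y (subset_closure (A.mem_idx y))).trans ?_
  exact (le_abs_self _).trans
    (Finset.single_le_sum (f := fun a => |C a|) (fun a _ => abs_nonneg _) (Finset.mem_univ _))

end MAtlas

variable [CompactSpace M] [BorelSpace M]

/-- LKE. -/
theorem lke (A : MAtlas cov om μ D) (χ : Eu4 → ℝ) (N : ℕ) : LKEStmt A χ N := by
  intro hG hμ hχ hN
  refine ⟨⟨A.frSel⟩, ?_⟩
  intro W _ _ _ R
  have hd := @lk2d E _ _ _ M _ _ _ _ _ _ cov om _ _ _ hG W W _ _ _ _ _ _ R A.fr ⟨A.frSel⟩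
  have hz := fun a => hd ⊤ (Ioi 0) (A.P a).dom (A.B a) ((A.P a).zK R χ N) isOpen_Ioi
    (A.P a).isOpen_dom (A.meas a) (A.sub a) ((A.P a).smK_zK hG hχ N)
  have hl := fun a => hd ⊤ (Ioi 0) (A.P a).dom (A.B a) ((A.P a).lzK R χ N) isOpen_Ioi
    (A.P a).isOpen_dom (A.meas a) (A.sub a) ((A.P a).smK_lzK hG hχ N)
  have he := fun a => hd 0 univ (A.P a).dom (A.B a) ((A.P a).eK R χ N) isOpen_univ
    (A.P a).isOpen_dom (A.meas a) (A.sub a) ((A.P a).smK_eK hG hχ N 0 (by omega))
  refine ⟨fun t ht => A.glue_meas _ fun a => (hz a).2.1 t ht,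
    fun t _ => A.glue_meas _ fun a => (he a).2.1 t (mem_univ t),
    fun t ht => A.glue_meas _ fun a => (hl a).2.1 t ht, ?_, ?_, ?_, ?_⟩
  · intro a b ha
    have hsub : Icc a b ⊆ Ioi 0 := fun t ht => lt_of_lt_of_le ha ht.1
    obtain ⟨C1, h1⟩ := A.glue_bdd (fun t c => (A.P c).zK R χ N t) (Icc a b)
      fun c => (hz c).1 _ isCompact_Icc hsub
    obtain ⟨C2, h2⟩ := A.glue_bdd (fun t c => (A.P c).eK R χ N t) (Icc a b)
      fun c => (he c).1 _ isCompact_Icc (subset_univ _)
    obtain ⟨C3, h3⟩ := A.glue_bdd (fun t c => (A.P c).lzK R χ N t) (Icc a b)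
      fun c => (hl c).1 _ isCompact_Icc hsub
    refine ⟨max C1 (max C2 C3), fun t ht x y => ⟨?_, ?_, ?_⟩⟩
    · exact (h1 t ht x y).trans (le_max_left _ _)
    · exact (h2 t ht x y).trans ((le_max_left _ _).trans (le_max_right _ _))
    · exact (h3 t ht x y).trans ((le_max_right _ _).trans (le_max_right _ _))
  · intro x y t _
    have h1 := ((A.P (A.idx y)).smK_eK (R := R) hG hχ N 0 (by omega)).smooth
      (A.P (A.idx x)).F t x y (mem_univ t) (A.mem_dom y) (A.pon_near (A.mem_dom x))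
    have h2 := h1.continuousAt
    have h3 : ContinuousAt (fun s : ℝ => ((s, x, y) : ℝ × M × M)) t := by fun_prop
    have h4 := ContinuousAt.comp (x := t) (f := fun s : ℝ => ((s, x, y) : ℝ × M × M)) h2 h3
    exact h4.continuousWithinAt
  · choose C hC0 hC using fun a => (A.P a).exists_eK_le (R := R) hG hχ N hN
      (isClosed_closure (s := A.B a)).isCompact (A.sub a)
    refine ⟨∑ a, C a, fun t ht x y => ?_⟩
    refine (hC (A.idx y) t ht y (subset_closure (A.mem_idx y)) x (A.fr x)).trans ?_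
    exact mul_le_mul_of_nonneg_right
      (Finset.single_le_sum (fun a _ => hC0 a) (Finset.mem_univ _)) ht.1
  · intro t ht x y
    exact (A.P (A.idx y)).hasDerivAt_zK χ N ht x (A.fr x) y

end

end Vale.Agent.P211.HK
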