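import Vale.Agent.P211.HK.HKMain

/-! P211 / HK: the index formula for section-level operators (helper456): `HKMainStmt` and AN7. -/

set_option maxSynthPendingDepth 3
set_option linter.unusedSectionVars false

namespace Vale.Agent.P211.HK

open scoped Manifold ContDiff Topology RealInnerProductSpace
open Bundle Filter VectorField MeasureTheory Set

noncomputable section

variable {E : Type} [NormedAddCommGroup E] [NormedSpace ℝ E] [FiniteDimensional ℝ E]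
  {M : Type} [TopologicalSpace M] [ChartedSpace E M] [IsManifold 𝓘(ℝ, E) ∞ M] [T2Space M]
  [RiemannianBundle fun p : M => TangentSpace 𝓘(ℝ, E) p]
  [IsContMDiffRiemannianBundle 𝓘(ℝ, E) ∞ E fun p : M => TangentSpace 𝓘(ℝ, E) p]
  [MeasurableSpace M]
  {cov : CovariantDerivative 𝓘(ℝ, E) E (TangentSpace 𝓘(ℝ, E) : M → Type)}
  {om : Form4 E M}
  {W : Type} [NormedAddCommGroup W] [InnerProductSpace ℝ W] [FiniteDimensional ℝ W]
  {R : Rep W} {μ : Measure M} {fr : (p : M) → Fin 4 → TangentSpace 𝓘(ℝ, E) p}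

/-- sections which agree almost everywhere are equal -/
theorem sec_eq_of_ae [OpensMeasurableSpace M] [μ.IsOpenPosMeasure] (hG : Geo4 cov om)
    (hfr : ∀ p, PON om p (fr p)) {u v : PreS E M W} (hu : u ∈ Sec om R) (hv : v ∈ Sec om R)
    (h : (fun p => u p (fr p)) =ᵐ[μ] fun p => v p (fr p)) : u = v := by
  have hw : u - v ∈ Sec om R := (Sec om R).sub_mem hu hv
  obtain ⟨φ, hφ, -⟩ := SC4.exists_inner (cov := cov) hG hw hw
  have h1 : (fun p => φ p) =ᵐ[μ] fun _ => (0 : ℝ) := by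
    filter_upwards [h] with p hp
    rw [hφ p (fr p) (hfr p)]
    have : (u - v) p (fr p) = 0 := by
      change u p (fr p) - v p (fr p) = 0
      rw [hp, sub_self]
    rw [this, inner_zero_left]
  have h2 : (fun p => φ p) = fun _ => (0 : ℝ) :=
    (Continuous.ae_eq_iff_eq μ φ.contMDiff.continuous continuous_const).1 h1
  funext p f
  by_cases hf : PON om p f
  · have h3 := hφ p f hf
    have h4 : φ p = 0 := congrFun h2 p
    rw [h4] at h3
    have h5 : (u - v) p f = 0 := inner_self_eq_zero.1 h3.symm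
    exact sub_eq_zero.1 h5
  · rw [hu.1 p f hf, hv.1 p f hf]

namespace SecHeat

section cls

variable (H : SecHeat cov om R μ fr)

/-- the `L²` class of a section -/
def cls (u : Sec (E := E) om R) : Lp W 2 μ := (H.ex u u.2).choose

theorem cls_ae (u : Sec (E := E) om R) :
    H.cls u =ᵐ[μ] fun p => (u : PreS E M W) p (fr p) := (H.ex u u.2).choose_spec

theorem cls_mem (u : Sec (E := E) om R) : H.cls u ∈ H.P.Dm :=
  (H.mem_iff _).2 ⟨u, u.2, H.cls_ae u⟩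

theorem cls_add (u v : Sec (E := E) om R) : H.cls (u + v) = H.cls u + H.cls v := by
  refine Lp.ext ?_
  filter_upwards [H.cls_ae (u + v), H.cls_ae u, H.cls_ae v, Lp.coeFn_add (H.cls u) (H.cls v)]
    with p h1 h2 h3 h4
  rw [h1, h4, Pi.add_apply, h2, h3]
  rfl

theorem cls_smul (c : ℝ) (u : Sec (E := E) om R) : H.cls (c • u) = c • H.cls u := by
  refine Lp.ext ?_
  filter_upwards [H.cls_ae (c • u), H.cls_ae u, Lp.coeFn_smul c (H.cls u)] with p h1 h2 h4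
  rw [h1, h4, Pi.smul_apply, h2]
  rfl

/-- the class as a linear map into the domain -/
def clsL : Sec (E := E) om R →ₗ[ℝ] H.P.Dm where
  toFun u := ⟨H.cls u, H.cls_mem u⟩
  map_add' u v := Subtype.ext (H.cls_add u v)
  map_smul' c u := Subtype.ext (H.cls_smul c u)

@[simp] theorem clsL_coe (u : Sec (E := E) om R) : (H.clsL u : Lp W 2 μ) = H.cls u := rfl

theorem L_clsL (u : Sec (E := E) om R) :
    H.P.L (H.clsL u) =ᵐ[μ] fun p => lapS cov om (u : PreS E M W) p (fr p) :=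
  H.L_ae (H.clsL u) u u.2 (H.cls_ae u)

theorem clsL_surj : Function.Surjective H.clsL := by
  rintro ⟨φ, hφ⟩
  obtain ⟨u, hu, h⟩ := (H.mem_iff φ).1 hφ
  refine ⟨⟨u, hu⟩, Subtype.ext (Lp.ext ?_)⟩
  filter_upwards [H.cls_ae ⟨u, hu⟩, h] with p h1 h2
  rw [clsL_coe, h1, h2]

theorem clsL_inj [OpensMeasurableSpace M] [μ.IsOpenPosMeasure] (hG : Geo4 cov om)
    (hfr : ∀ p, PON om p (fr p)) : Function.Injective H.clsL := by
  intro u v huv
  have h : H.cls u = H.cls v := congrArg Subtype.val huv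
  refine Subtype.ext (sec_eq_of_ae (cov := cov) (μ := μ) hG hfr u.2 v.2 ?_)
  filter_upwards [H.cls_ae u, H.cls_ae v] with p h1 h2
  rw [← h1, ← h2, h]

/-- the domain is the space of sections -/
def clsE [OpensMeasurableSpace M] [μ.IsOpenPosMeasure] (hG : Geo4 cov om)
    (hfr : ∀ p, PON om p (fr p)) : Sec (E := E) om R ≃ₗ[ℝ] H.P.Dm :=
  LinearEquiv.ofBijective H.clsL ⟨H.clsL_inj hG hfr, H.clsL_surj⟩

theorem clsE_apply [OpensMeasurableSpace M] [μ.IsOpenPosMeasure] (hG : Geo4 cov om)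
    (hfr : ∀ p, PON om p (fr p)) (u : Sec (E := E) om R) : H.clsE hG hfr u = H.clsL u := rfl

theorem inner_cls (u v : Sec (E := E) om R) : (⟪H.cls u, H.cls v⟫ : ℝ) =
    ∫ p, ⟪(u : PreS E M W) p (fr p), (v : PreS E M W) p (fr p)⟫ ∂μ := by
  rw [L2.inner_def]
  refine integral_congr_ae ?_
  filter_upwards [H.cls_ae u, H.cls_ae v] with p h1 h2
  rw [h1, h2]

end cls

section split

variable {ι : Type} [Fintype ι] {pr : ι → W →L[ℝ] W}

/-- the splitting of the heat data given by a system of projections of the fibre -/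
def split (H : SecHeat cov om R μ fr) (hG : Geo4 cov om) (hp : ProjSys R pr) :
    HeatSplit H.P ι where
  pr j := (pr j).compLpL 2 μ
  symm j x y := by
    rw [L2.inner_def, L2.inner_def]
    refine integral_congr_ae ?_
    filter_upwards [ContinuousLinearMap.coeFn_compLpL (pr j) x,
      ContinuousLinearMap.coeFn_compLpL (pr j) y] with p h1 h2
    rw [h1, h2, hp.symm]
  idem j x := by
    refine Lp.ext ?_
    filter_upwards [ContinuousLinearMap.coeFn_compLpL (pr j) ((pr j).compLpL 2 μ x),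
      ContinuousLinearMap.coeFn_compLpL (pr j) x] with p h1 h2
    rw [h1, h2]
    exact DFunLike.congr_fun (hp.idem j) (x p)
  orth i j hij x := by
    refine Lp.ext ?_
    filter_upwards [ContinuousLinearMap.coeFn_compLpL (pr i) ((pr j).compLpL 2 μ x),
      ContinuousLinearMap.coeFn_compLpL (pr j) x, Lp.coeFn_zero W 2 μ] with p h1 h2 h3
    rw [h1, h2, h3]
    exact DFunLike.congr_fun (hp.orth i j hij) (x p)
  sum x := by
    have h0 : ∀ j, (pr j).compLpL 2 μ x =ᵐ[μ] fun p => pr j (x p) := fun j =>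
      ContinuousLinearMap.coeFn_compLpL (pr j) x
    refine Lp.ext ?_
    have h1 : ∀ᵐ p ∂μ, ∀ j, ((pr j).compLpL 2 μ x) p = pr j (x p) := ae_all_iff.2 h0
    have h2 : (⇑(∑ j, (pr j).compLpL 2 μ x : Lp W 2 μ)) =ᵐ[μ]
        ∑ j, ⇑((pr j).compLpL 2 μ x) := Lp.coeFn_finsetSum _ _
    filter_upwards [h1, h2] with p h1 h2
    rw [h2, Finset.sum_apply]
    simp_rw [h1]
    rw [← sum_apply, hp.sum]
    rfl
  mem j φ := by
    obtain ⟨u, hu, h⟩ := (H.mem_iff φ).1 φ.2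
    refine (H.mem_iff _).2 ⟨mapS (pr j) u, SC3.mapS_mem (hp.comm j) hu, ?_⟩
    filter_upwards [ContinuousLinearMap.coeFn_compLpL (pr j) (φ : Lp W 2 μ), h] with p h1 h2
    rw [h1, h2]
    rfl
  comm j φ := by
    obtain ⟨u, hu, h⟩ := (H.mem_iff φ).1 φ.2
    have hm : (pr j).compLpL 2 μ (φ : Lp W 2 μ) =ᵐ[μ] fun p => mapS (pr j) u p (fr p) := by
      filter_upwards [ContinuousLinearMap.coeFn_compLpL (pr j) (φ : Lp W 2 μ), h] with p h1 h2
      rw [h1, h2]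
      rfl
    have hs := sc3_of cov om (sc1 cov om) hG W W R R (pr j) (hp.comm j) u hu
    refine Lp.ext ?_
    filter_upwards [H.L_ae ⟨_, (H.mem_iff _).2 ⟨mapS (pr j) u, hs.1, hm⟩⟩ _ hs.1 hm,
      ContinuousLinearMap.coeFn_compLpL (pr j) (H.P.L φ), H.L_ae φ u hu h] with p h1 h2 h3
    rw [h1, h2, h3, hs.2.2]
    rfl

theorem split_pr (H : SecHeat cov om R μ fr) (hG : Geo4 cov om) (hp : ProjSys R pr) (j : ι) :
    (H.split hG hp).pr j = (pr j).compLpL 2 μ := rfl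

end split

section op

variable {W₀ W₁ : Type} [NormedAddCommGroup W₀] [InnerProductSpace ℝ W₀] [FiniteDimensional ℝ W₀]
  [NormedAddCommGroup W₁] [InnerProductSpace ℝ W₁] [FiniteDimensional ℝ W₁]
  {R₀ : Rep W₀} {R₁ : Rep W₁} [OpensMeasurableSpace M] [μ.IsOpenPosMeasure]

/-- a section-level operator as a map between the domains -/
def op (H₀ : SecHeat cov om R₀ μ fr) (H₁ : SecHeat cov om R₁ μ fr) (hG : Geo4 cov om)
    (hfr : ∀ p, PON om p (fr p)) (T : Sec (E := E) om R₀ →ₗ[ℝ] Sec (E := E) om R₁) :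
    H₀.P.Dm →ₗ[ℝ] H₁.P.Dm :=
  H₁.clsL ∘ₗ T ∘ₗ ((H₀.clsE hG hfr).symm : H₀.P.Dm →ₗ[ℝ] Sec (E := E) om R₀)

theorem op_clsL (H₀ : SecHeat cov om R₀ μ fr) (H₁ : SecHeat cov om R₁ μ fr) (hG : Geo4 cov om)
    (hfr : ∀ p, PON om p (fr p)) (T : Sec (E := E) om R₀ →ₗ[ℝ] Sec (E := E) om R₁)
    (u : Sec (E := E) om R₀) : op H₀ H₁ hG hfr T (H₀.clsL u) = H₁.clsL (T u) := by
  unfold op
  rw [LinearMap.comp_apply, LinearMap.comp_apply, ← H₀.clsE_apply hG hfr u]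
  congr 2
  exact (H₀.clsE hG hfr).symm_apply_apply u

theorem ker_op (H₀ : SecHeat cov om R₀ μ fr) (H₁ : SecHeat cov om R₁ μ fr) (hG : Geo4 cov om)
    (hfr : ∀ p, PON om p (fr p)) (T : Sec (E := E) om R₀ →ₗ[ℝ] Sec (E := E) om R₁) :
    LinearMap.ker (op H₀ H₁ hG hfr T) =
      (LinearMap.ker T).map (H₀.clsE hG hfr : Sec (E := E) om R₀ →ₗ[ℝ] H₀.P.Dm) := by
  ext φ
  obtain ⟨u, rfl⟩ := (H₀.clsE hG hfr).surjective φ
  have h1 : op H₀ H₁ hG hfr T ((H₀.clsE hG hfr) u) = H₁.clsL (T u) := op_clsL H₀ H₁ hG hfr T u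
  rw [LinearMap.mem_ker, h1, Submodule.mem_map]
  constructor
  · intro h
    refine ⟨u, ?_, rfl⟩
    rw [LinearMap.mem_ker]
    exact H₁.clsL_inj hG hfr (h.trans (map_zero _).symm)
  · rintro ⟨v, hv, hvu⟩
    have : v = u := (H₀.clsE hG hfr).injective hvu
    rw [← this, LinearMap.mem_ker.1 hv, map_zero]

end op

end SecHeat

/-- the identity on the fibre has the trace of the sum -/
theorem sum_curvTr {R : Rep W} {ι : Type} [Fintype ι] {pr : ι → W →L[ℝ] W} (hp : ProjSys R pr)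
    (p : M) (f : Fin 4 → TangentSpace 𝓘(ℝ, E) p) :
    ∑ j, curvTr cov R (pr j) p f = curvTr cov R (ContinuousLinearMap.id ℝ W) p f := by
  unfold curvTr
  rw [Finset.sum_comm]
  refine Finset.sum_congr rfl fun k _ => ?_
  rw [Finset.sum_comm]
  refine Finset.sum_congr rfl fun l _ => ?_
  rw [← trW_sum, ← hp.sum]
  congr 1
  ext w
  simp only [sum_apply, ContinuousLinearMap.comp_apply]

/-- **Index formula.** There is a choice `fr` of positive frames such that for all operators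
`D : Sec om R₀ → Sec om R₁`, `D'` formally adjoint, with `D'D = lapS + ∑ r₀ j Π_j`,
`DD' = lapS + ∑ r₁ j Π_j` and equal ranks and equal traces of the zero order terms
`dim ker D' - dim ker D` is given by local terms. -/
theorem hk_index [OpensMeasurableSpace M] [μ.IsOpenPosMeasure] (HK : HKMainStmt cov om μ)
    (hG : Geo4 cov om) :
    ∃ fr : (p : M) → Fin 4 → TangentSpace 𝓘(ℝ, E) p, (∀ p, PON om p (fr p)) ∧
    ∀ (W₀ W₁ : Type) [NormedAddCommGroup W₀] [InnerProductSpace ℝ W₀] [FiniteDimensional ℝ W₀]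
      [NormedAddCommGroup W₁] [InnerProductSpace ℝ W₁] [FiniteDimensional ℝ W₁]
      (R₀ : Rep W₀) (R₁ : Rep W₁) (ι₀ ι₁ : Type) [Fintype ι₀] [Fintype ι₁]
      (pr₀ : ι₀ → W₀ →L[ℝ] W₀) (pr₁ : ι₁ → W₁ →L[ℝ] W₁), ProjSys R₀ pr₀ → ProjSys R₁ pr₁ →
    ∀ (r₀ : ι₀ → ℝ) (r₁ : ι₁ → ℝ) (D : Sec (E := E) om R₀ →ₗ[ℝ] Sec (E := E) om R₁)
      (D' : Sec (E := E) om R₁ →ₗ[ℝ] Sec (E := E) om R₀),
      (∀ (u : Sec (E := E) om R₀) (v : Sec (E := E) om R₁),
        ∫ p, ⟪(D u : PreS E M W₁) p (fr p), (v : PreS E M W₁) p (fr p)⟫ ∂μ =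
          ∫ p, ⟪(u : PreS E M W₀) p (fr p), (D' v : PreS E M W₀) p (fr p)⟫ ∂μ) →
      (∀ (u : Sec (E := E) om R₀) p f, PON om p f → (D' (D u) : PreS E M W₀) p f =
        lapS cov om (u : PreS E M W₀) p f + ∑ j, r₀ j • pr₀ j ((u : PreS E M W₀) p f)) →
      (∀ (v : Sec (E := E) om R₁) p f, PON om p f → (D (D' v) : PreS E M W₁) p f =
        lapS cov om (v : PreS E M W₁) p f + ∑ j, r₁ j • pr₁ j ((v : PreS E M W₁) p f)) →
      Module.finrank ℝ W₁ = Module.finrank ℝ W₀ →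
      ∑ j, trW (pr₁ j) * r₁ j = ∑ j, trW (pr₀ j) * r₀ j →
      FiniteDimensional ℝ (LinearMap.ker D) ∧ FiniteDimensional ℝ (LinearMap.ker D') ∧
      Integrable (fun p => curvTr cov R₀ (ContinuousLinearMap.id ℝ W₀) p (fr p)) μ ∧
      Integrable (fun p => curvTr cov R₁ (ContinuousLinearMap.id ℝ W₁) p (fr p)) μ ∧
      (Module.finrank ℝ (LinearMap.ker D') : ℝ) - Module.finrank ℝ (LinearMap.ker D) =
        (32 * Real.pi ^ 2)⁻¹ * μ.real univ *
            ((∑ j, trW (pr₁ j) * r₁ j ^ 2) - ∑ j, trW (pr₀ j) * r₀ j ^ 2) +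
          (192 * Real.pi ^ 2)⁻¹ * ∫ p, (curvTr cov R₁ (ContinuousLinearMap.id ℝ W₁) p (fr p) -
            curvTr cov R₀ (ContinuousLinearMap.id ℝ W₀) p (fr p)) ∂μ := by
  obtain ⟨fr, hfr, s, hs, hW⟩ := HK hG
  refine ⟨fr, hfr, ?_⟩
  intro W₀ W₁ _ _ _ _ _ _ R₀ R₁ ι₀ ι₁ _ _ pr₀ pr₁ hp₀ hp₁ r₀ r₁ D D' hadj hD0 hD1 hdim htr
  obtain ⟨H₀, hy0⟩ := hW W₀ R₀
  obtain ⟨H₁, hy1⟩ := hW W₁ R₁
  choose y₀ hb0 hh0 hi0 hl0 using fun j => hy0 (pr₀ j) (hp₀.symm j) (hp₀.idem j) (hp₀.comm j)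
  choose y₁ hb1 hh1 hi1 hl1 using fun j => hy1 (pr₁ j) (hp₁.symm j) (hp₁.idem j) (hp₁.comm j)
  choose C0 hC0 using hb0
  choose C1 hC1 using hb1
  have hI0 : Integrable (fun p => curvTr cov R₀ (ContinuousLinearMap.id ℝ W₀) p (fr p)) μ := by
    have := integrable_finsetSum Finset.univ fun j _ => hi0 j
    simpa only [sum_curvTr hp₀] using this
  have hI1 : Integrable (fun p => curvTr cov R₁ (ContinuousLinearMap.id ℝ W₁) p (fr p)) μ := by
    have := integrable_finsetSum Finset.univ fun j _ => hi1 j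
    simpa only [sum_curvTr hp₁] using this
  have key := an7 H₀.P H₁.P (H₀.split hG hp₀) (H₁.split hG hp₁) r₀ r₁
    (SecHeat.op H₀ H₁ hG hfr D) (SecHeat.op H₁ H₀ hG hfr D')
    (by
      intro φ ψ
      obtain ⟨u, rfl⟩ := H₀.clsL_surj φ
      obtain ⟨v, rfl⟩ := H₁.clsL_surj ψ
      rw [SecHeat.op_clsL, SecHeat.op_clsL]
      simp only [SecHeat.clsL_coe]
      rw [H₁.inner_cls, H₀.inner_cls]
      exact hadj u v)
    (by
      intro φ
      obtain ⟨u, rfl⟩ := H₀.clsL_surj φ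
      rw [SecHeat.op_clsL, SecHeat.op_clsL, SecHeat.clsL_coe]
      refine Lp.ext ?_
      have e1 : (⇑(∑ j, r₀ j • (H₀.split hG hp₀).pr j (H₀.clsL u : Lp W₀ 2 μ) : Lp W₀ 2 μ)) =ᵐ[μ]
        ∑ j, ⇑(r₀ j • (H₀.split hG hp₀).pr j (H₀.clsL u : Lp W₀ 2 μ) : Lp W₀ 2 μ) :=
          Lp.coeFn_finsetSum _ _
      have e2 : ∀ᵐ p ∂μ, ∀ j, (r₀ j • (H₀.split hG hp₀).pr j (H₀.clsL u : Lp W₀ 2 μ) : Lp W₀ 2 μ) p
          = r₀ j • pr₀ j ((u : PreS E M W₀) p (fr p)) := by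
        refine ae_all_iff.2 fun j => ?_
        filter_upwards [Lp.coeFn_smul (r₀ j) ((pr₀ j).compLpL 2 μ (H₀.cls u)),
          ContinuousLinearMap.coeFn_compLpL (pr₀ j) (H₀.cls u), H₀.cls_ae u] with p q1 q2 q3
        rw [SecHeat.split_pr, SecHeat.clsL_coe, q1, Pi.smul_apply, q2, q3]
      filter_upwards [H₀.cls_ae (D' (D u)), H₀.L_clsL u, e1, e2,
        Lp.coeFn_add (H₀.P.L (H₀.clsL u)) (∑ j, r₀ j • (H₀.split hG hp₀).pr j
          (H₀.clsL u : Lp W₀ 2 μ))] with p q1 q2 q3 q4 q5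
      rw [q1, q5, Pi.add_apply, q2, q3, Finset.sum_apply, hD0 u p (fr p) (hfr p)]
      simp_rw [q4])
    (by
      intro φ
      obtain ⟨u, rfl⟩ := H₁.clsL_surj φ
      rw [SecHeat.op_clsL, SecHeat.op_clsL, SecHeat.clsL_coe]
      refine Lp.ext ?_
      have e1 : (⇑(∑ j, r₁ j • (H₁.split hG hp₁).pr j (H₁.clsL u : Lp W₁ 2 μ) : Lp W₁ 2 μ)) =ᵐ[μ]
        ∑ j, ⇑(r₁ j • (H₁.split hG hp₁).pr j (H₁.clsL u : Lp W₁ 2 μ) : Lp W₁ 2 μ) :=
          Lp.coeFn_finsetSum _ _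
      have e2 : ∀ᵐ p ∂μ, ∀ j, (r₁ j • (H₁.split hG hp₁).pr j (H₁.clsL u : Lp W₁ 2 μ) : Lp W₁ 2 μ) p
          = r₁ j • pr₁ j ((u : PreS E M W₁) p (fr p)) := by
        refine ae_all_iff.2 fun j => ?_
        filter_upwards [Lp.coeFn_smul (r₁ j) ((pr₁ j).compLpL 2 μ (H₁.cls u)),
          ContinuousLinearMap.coeFn_compLpL (pr₁ j) (H₁.cls u), H₁.cls_ae u] with p q1 q2 q3
        rw [SecHeat.split_pr, SecHeat.clsL_coe, q1, Pi.smul_apply, q2, q3]
      filter_upwards [H₁.cls_ae (D (D' u)), H₁.L_clsL u, e1, e2,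
        Lp.coeFn_add (H₁.P.L (H₁.clsL u)) (∑ j, r₁ j • (H₁.split hG hp₁).pr j
          (H₁.clsL u : Lp W₁ 2 μ))] with p q1 q2 q3 q4 q5
      rw [q1, q5, Pi.add_apply, q2, q3, Finset.sum_apply, hD1 u p (fr p) (hfr p)]
      simp_rw [q4])
    H₀.reg H₁.reg s y₀ y₁ (fun j => trW (pr₀ j))
    (fun j => (192 * Real.pi ^ 2)⁻¹ * ∫ p, curvTr cov R₀ (pr₀ j) p (fr p) ∂μ)
    (fun j => trW (pr₁ j))
    (fun j => (192 * Real.pi ^ 2)⁻¹ * ∫ p, curvTr cov R₁ (pr₁ j) p (fr p) ∂μ)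
    ((64 * Real.pi ^ 2)⁻¹ * μ.real univ) ((∑ j, |C0 j|) + ∑ j, |C1 j|) hs
    (fun j t ht => (hC0 j t ht).1) (fun j t ht => (hC1 j t ht).1)
    (fun j t ht => by
      have h1 := (hC0 j t ht).2
      have h2 : |C0 j| ≤ ∑ j, |C0 j| :=
        Finset.single_le_sum (f := fun j => |C0 j|) (fun i _ => abs_nonneg _) (Finset.mem_univ j)
      have h3 : 0 ≤ ∑ j, |C1 j| := Finset.sum_nonneg fun i _ => abs_nonneg _
      linarith [le_abs_self (C0 j)])
    (fun j t ht => by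
      have h1 := (hC1 j t ht).2
      have h2 : |C1 j| ≤ ∑ j, |C1 j| :=
        Finset.single_le_sum (f := fun j => |C1 j|) (fun i _ => abs_nonneg _) (Finset.mem_univ j)
      have h3 : 0 ≤ ∑ j, |C0 j| := Finset.sum_nonneg fun i _ => abs_nonneg _
      linarith [le_abs_self (C1 j)])
    hh0 hh1 hl0 hl1 (by rw [hp₁.sum_trW, hp₀.sum_trW, hdim]) htr
  obtain ⟨f0, f1, hind⟩ := key
  rw [SecHeat.ker_op] at f0 f1 hind
  rw [SecHeat.ker_op] at hind
  refine ⟨?_, ?_, hI0, hI1, ?_⟩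
  · exact Module.Finite.equiv ((H₀.clsE hG hfr).submoduleMap (LinearMap.ker D)).symm
  · exact Module.Finite.equiv ((H₁.clsE hG hfr).submoduleMap (LinearMap.ker D')).symm
  · rw [LinearEquiv.finrank_map_eq, LinearEquiv.finrank_map_eq] at hind
    rw [hind, integral_sub hI1 hI0, ← Finset.mul_sum, ← Finset.mul_sum,
      ← integral_finsetSum _ fun j _ => hi1 j, ← integral_finsetSum _ fun j _ => hi0 j]
    simp_rw [sum_curvTr hp₀, sum_curvTr hp₁]
    have hpi : Real.pi ≠ 0 := Real.pi_ne_zero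
    field_simp
    ring

end

end Vale.Agent.P211.HK
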