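import Vale.Agent.P211.HK.LKDefs

/-! P211 / HK, block LKP4: change of variables on a patch, for all functions. helper679. -/

set_option maxSynthPendingDepth 3
set_option linter.unusedSectionVars false
set_option linter.unusedVariables false

namespace Vale.Agent.P211.HK

open scoped Manifold ContDiff Topology RealInnerProductSpace
open Bundle Filter VectorField MeasureTheory Set

noncomputable section

namespace LKP4

variable {V : Type*} [TopologicalSpace V] [MeasurableSpace V] [BorelSpace V]
  {M : Type*} [TopologicalSpace M] [MeasurableSpace M] [BorelSpace M]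
  {B : Set V} {S : Set M} {g : V → M} {l : M → V}

theorem embed (hB : MeasurableSet B) (hS : MeasurableSet S) (hg : ContinuousOn g B)
    (hl : ContinuousOn l S) (hgS : ∀ v ∈ B, g v ∈ S) (hlg : ∀ v ∈ B, l (g v) = v)
    (hgl : ∀ x ∈ S, g (l x) = x) :
    MeasurableEmbedding (fun v : B => g v) where
  injective := by
    intro a b hab
    have h1 := congrArg l hab
    simp only [hlg _ a.2, hlg _ b.2] at h1
    exact Subtype.ext h1
  measurable := (continuousOn_iff_continuous_domRestrict.1 hg).measurable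
  measurableSet_image' := by
    intro A hA
    have h1 : MeasurableSet ((S.domRestrict l) ⁻¹' (Subtype.val '' A)) :=
      (continuousOn_iff_continuous_domRestrict.1 hl).measurable (hB.subtype_image hA)
    have h2 : (fun v : B => g v) '' A = Subtype.val '' ((S.domRestrict l) ⁻¹' (Subtype.val '' A)) := by
      ext x
      constructor
      · rintro ⟨v, hv, rfl⟩
        refine ⟨⟨g v, hgS v v.2⟩, ⟨v, hv, ?_⟩, rfl⟩
        exact (hlg v v.2).symm
      · rintro ⟨⟨x, hx⟩, ⟨v, hv, hvx⟩, rfl⟩
        refine ⟨v, hv, ?_⟩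
        change g (v : V) = x
        have h3 : (v : V) = l x := hvx
        rw [h3, hgl x hx]
    rw [h2]
    exact hS.subtype_image h1

section

variable {V : Type*} [TopologicalSpace V] [MeasurableSpace V] [BorelSpace V]
  {M : Type*} [TopologicalSpace M] [TopologicalSpace.PseudoMetrizableSpace M]
  [MeasurableSpace M] [BorelSpace M]
  {B : Set V} {S : Set M} {g : V → M} {l : M → V} {lam : Measure V} {μ : Measure M}
  {ρ : V → ENNReal}

theorem map_eq (hB : MeasurableSet B) (hS : MeasurableSet S) (hg : ContinuousOn g B)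
    (hμ : μ.restrict S = ((lam.restrict B).withDensity ρ).map g) :
    μ.restrict S = (((lam.restrict B).withDensity ρ).comap (Subtype.val : B → V)).map
      (fun v : B => g v) := by
  have h1 : (((lam.restrict B).withDensity ρ).comap (Subtype.val : B → V)).map Subtype.val =
      (lam.restrict B).withDensity ρ := by
    rw [map_comap_subtype_coe hB, restrict_withDensity hB, Measure.restrict_restrict_of_subset le_rfl]
  have hga : AEMeasurable g (lam.restrict B) := hg.aemeasurable hB
  have hgb : AEMeasurable g ((lam.restrict B).withDensity ρ) :=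
    hga.mono_ac (withDensity_absolutelyContinuous _ _)
  have h2 : ((((lam.restrict B).withDensity ρ).comap (Subtype.val : B → V)).map Subtype.val).map g =
      (((lam.restrict B).withDensity ρ).comap (Subtype.val : B → V)).map (g ∘ Subtype.val) := by
    refine AEMeasurable.map_map_of_aemeasurable ?_ measurable_subtype_coe.aemeasurable
    rw [h1]
    exact hgb
  rw [hμ]
  conv_lhs => rw [← h1]
  rw [h2]
  rfl

theorem lint (hB : MeasurableSet B) (hS : MeasurableSet S) (hg : ContinuousOn g B)
    (hl : ContinuousOn l S) (hgS : ∀ v ∈ B, g v ∈ S) (hlg : ∀ v ∈ B, l (g v) = v)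
    (hgl : ∀ x ∈ S, g (l x) = x) (hρ : AEMeasurable ρ (lam.restrict B)) (hρt : ∀ v, ρ v < ⊤)
    (hμ : μ.restrict S = ((lam.restrict B).withDensity ρ).map g) (f : M → ENNReal)
    (hf : ∀ x, x ∉ S → f x = 0) :
    ∫⁻ x, f x ∂μ = ∫⁻ v in B, ρ v * f (g v) ∂lam := by
  have h0 : ∫⁻ x, f x ∂μ = ∫⁻ x in S, f x ∂μ := by
    rw [← lintegral_indicator hS]
    refine lintegral_congr fun x => ?_
    by_cases hx : x ∈ S
    · rw [indicator_of_mem hx]
    · rw [indicator_of_notMem hx, hf x hx]
  rw [h0, map_eq hB hS hg hμ, (embed hB hS hg hl hgS hlg hgl).lintegral_map,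
    ← (MeasurableEmbedding.subtype_coe hB).lintegral_map (fun v => f (g v)),
    map_comap_subtype_coe hB, restrict_withDensity hB, Measure.restrict_restrict_of_subset le_rfl,
    lintegral_withDensity_eq_lintegral_mul_non_measurable₀ _ hρ
      (Eventually.of_forall hρt)]
  rfl

theorem bint {G : Type*} [NormedAddCommGroup G] [NormedSpace ℝ G]
    (hB : MeasurableSet B) (hS : MeasurableSet S) (hg : ContinuousOn g B)
    (hl : ContinuousOn l S) (hgS : ∀ v ∈ B, g v ∈ S) (hlg : ∀ v ∈ B, l (g v) = v)
    (hgl : ∀ x ∈ S, g (l x) = x) (hρ : AEMeasurable ρ (lam.restrict B)) (hρt : ∀ v, ρ v < ⊤)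
    (hμ : μ.restrict S = ((lam.restrict B).withDensity ρ).map g) (f : M → G)
    (hf : ∀ x, x ∉ S → f x = 0) :
    ∫ x, f x ∂μ = ∫ v in B, (ρ v).toReal • f (g v) ∂lam := by
  have h0 : ∫ x, f x ∂μ = ∫ x in S, f x ∂μ :=
    (setIntegral_eq_integral_of_forall_compl_eq_zero hf).symm
  rw [h0, map_eq hB hS hg hμ, (embed hB hS hg hl hgS hlg hgl).integral_map,
    ← (MeasurableEmbedding.subtype_coe hB).integral_map (fun v => f (g v)),
    map_comap_subtype_coe hB, restrict_withDensity hB, Measure.restrict_restrict_of_subset le_rfl,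
    integral_withDensity_eq_integral_toReal_smul₀ hρ (Eventually.of_forall hρt)]

end

end LKP4

variable {E : Type} [NormedAddCommGroup E] [NormedSpace ℝ E] [FiniteDimensional ℝ E]
  {M : Type} [MetricSpace M] [ChartedSpace E M] [IsManifold 𝓘(ℝ, E) ∞ M]
  [RiemannianBundle fun p : M => TangentSpace 𝓘(ℝ, E) p]
  [IsContMDiffRiemannianBundle 𝓘(ℝ, E) ∞ E fun p : M => TangentSpace 𝓘(ℝ, E) p]
  [MeasurableSpace M] [BorelSpace M]
  {cov : CovariantDerivative 𝓘(ℝ, E) E (TangentSpace 𝓘(ℝ, E) : M → Type)}
  {om : Form4 E M} {μ : Measure M} {D : ℝ}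

/-- LKP4 -/
theorem lkp4 (P : Patch cov om μ D) : LKP4Stmt P := by
  intro _ q hq
  have hy : P.co q ∈ P.O := hq.2
  have hpt : ptc P.q₀ (P.co q) = q := (extChartAt 𝓘(ℝ, E) P.q₀).left_inv hq.1
  set y := P.co q with hydef
  have hB : MeasurableSet (Metric.ball (0 : Eu4) D) := Metric.isOpen_ball.measurableSet
  have hS : MeasurableSet (Metric.ball q D) := Metric.isOpen_ball.measurableSet
  have hg : ContinuousOn (fun v : Eu4 => P.ex (y, v)) (Metric.ball 0 D) :=
    P.ex_smooth.continuousOn.comp (by fun_prop) fun v hv => ⟨hy, hv⟩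
  have hS' : ∀ x ∈ Metric.ball q D, dist (ptc P.q₀ y) x < D := by
    intro x hx
    rw [hpt, dist_comm]
    exact hx
  have hl : ContinuousOn (P.lg y) (Metric.ball q D) := by
    intro x hx
    have h1 := (P.lg_smooth y hy x (hS' x hx)).continuousAt
    have h2 : ContinuousAt (fun x : M => ((y, x) : E × M)) x := by fun_prop
    exact (ContinuousAt.comp (g := fun z : E × M => P.lg z.1 z.2) h1 h2).continuousWithinAt
  have hgS : ∀ v ∈ Metric.ball (0 : Eu4) D, P.ex (y, v) ∈ Metric.ball q D := by
    intro v hv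
    rw [mem_ball_zero_iff] at hv
    have h1 := P.dist_ex y hy v hv
    rw [hpt] at h1
    rw [Metric.mem_ball, dist_comm, h1]
    exact hv
  have hlg : ∀ v ∈ Metric.ball (0 : Eu4) D, P.lg y (P.ex (y, v)) = v := fun v hv =>
    P.lg_ex y hy v (mem_ball_zero_iff.1 hv)
  have hgl : ∀ x ∈ Metric.ball q D, P.ex (y, P.lg y x) = x := fun x hx =>
    P.ex_lg y hy x (hS' x hx)
  have hJ : ContinuousOn (fun v : Eu4 => P.J (y, v)) (Metric.ball 0 D) :=
    P.J_smooth.continuousOn.comp (by fun_prop) fun v hv => ⟨hy, hv⟩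
  have hρ : AEMeasurable (fun v : Eu4 => ENNReal.ofReal (P.J (y, v)))
      (volume.restrict (Metric.ball (0 : Eu4) D)) := (hJ.aemeasurable hB).ennreal_ofReal
  have hμ := P.vol y hy
  rw [hpt] at hμ
  refine ⟨?_, ?_⟩
  · intro G _ _ _ f hf
    rw [LKP4.bint hB hS hg hl hgS hlg hgl hρ (fun _ => ENNReal.ofReal_lt_top) hμ f
      (fun x hx => hf x (by rw [Metric.mem_ball, not_lt, dist_comm] at hx; exact hx))]
    refine setIntegral_congr_fun hB fun v hv => ?_
    have h1 : 0 < P.J (y, v) := P.J_pos (y, v) ⟨hy, hv⟩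
    rw [ENNReal.toReal_ofReal h1.le]
  · intro f hf
    exact LKP4.lint hB hS hg hl hgS hlg hgl hρ (fun _ => ENNReal.ofReal_lt_top) hμ f
      (fun x hx => hf x (by rw [Metric.mem_ball, not_lt, dist_comm] at hx; exact hx))

end

end Vale.Agent.P211.HK
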