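import Vale.Agent.P211.HK.LKJ
import Vale.Agent.P211.HK.PatchK
import Vale.Agent.P211.HK.PatchInt
import Vale.Agent.P211.HK.LK5a

/-! P211 / HK: LKI, the Hilbert-Schmidt norm of the kernel of `Pr ∘ Z t`. helper501. -/

set_option maxSynthPendingDepth 3
set_option linter.unusedSectionVars false
set_option linter.unusedVariables false

namespace Vale.Agent.P211.HK

open scoped Manifold ContDiff Topology RealInnerProductSpace
open Bundle Filter VectorField MeasureTheory Set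

noncomputable section

namespace LKI

section alg

variable {W : Type} [NormedAddCommGroup W] [InnerProductSpace ℝ W] [FiniteDimensional ℝ W]

/-- the trace of `B B*` is nonnegative -/
theorem tr_self_nonneg (B : W →L[ℝ] W) :
    0 ≤ EU4e.trA (B.comp (ContinuousLinearMap.adjoint B)) := by
  unfold EU4e.trA
  rw [LinearMap.trace_eq_sum_inner _ (stdOrthonormalBasis ℝ W)]
  refine Finset.sum_nonneg fun i _ => ?_
  change 0 ≤ ⟪(stdOrthonormalBasis ℝ W) i,
    B (ContinuousLinearMap.adjoint B ((stdOrthonormalBasis ℝ W) i))⟫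
  rw [← ContinuousLinearMap.adjoint_inner_left]
  exact real_inner_self_nonneg

/-- symmetric idempotent -/
theorem tr_proj {Pr : W →L[ℝ] W} (hP : ∀ a b, ⟪Pr a, b⟫ = ⟪a, Pr b⟫) (hP2 : Pr.comp Pr = Pr)
    (A : W →L[ℝ] W) :
    EU4e.trA ((Pr.comp A).comp (ContinuousLinearMap.adjoint (Pr.comp A))) =
      EU4e.trA (Pr.comp (A.comp (ContinuousLinearMap.adjoint A))) := by
  have h1 : ContinuousLinearMap.adjoint Pr = Pr := by
    rw [eq_comm, ContinuousLinearMap.eq_adjoint_iff]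
    exact hP
  rw [ContinuousLinearMap.adjoint_comp, h1, ← ContinuousLinearMap.comp_assoc, EU4e.trA_comm,
    ContinuousLinearMap.comp_assoc, ← ContinuousLinearMap.comp_assoc, hP2]

/-- rotation invariance -/
theorem tr_rot (R : Rep W) {Pr : W →L[ℝ] W} (hR : Intertwines R R Pr) {g : Mat4} (hg : IsSO g)
    (k : W →L[ℝ] W) :
    EU4e.trA ((Pr.comp ((R.ρ g).comp k)).comp
      (ContinuousLinearMap.adjoint (Pr.comp ((R.ρ g).comp k)))) =
      EU4e.trA ((Pr.comp k).comp (ContinuousLinearMap.adjoint (Pr.comp k))) := by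
  have h1 : Pr.comp ((R.ρ g).comp k) = (R.ρ g).comp (Pr.comp k) := by
    ext w
    exact hR g hg (k w)
  rw [h1, ContinuousLinearMap.adjoint_comp, PK.adjoint_rho R hg, ContinuousLinearMap.comp_assoc,
    EU4e.trA_comm]
  congr 1
  ext w
  have h2 := DFunLike.congr_fun (PK.tr_mul R hg) w
  simp only [ContinuousLinearMap.comp_apply, ContinuousLinearMap.id_apply] at h2 ⊢
  rw [h2]

/-- scalars -/
theorem tr_smul (Pr X : W →L[ℝ] W) (c : ℝ) :
    EU4e.trA (Pr.comp ((c • X).comp (ContinuousLinearMap.adjoint (c • X)))) =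
      c ^ 2 * EU4e.trA (Pr.comp (X.comp (ContinuousLinearMap.adjoint X))) := by
  have h1 : ContinuousLinearMap.adjoint (c • X) = c • ContinuousLinearMap.adjoint X := by
    rw [map_smulₛₗ]
    rfl
  rw [h1, ContinuousLinearMap.smul_comp, ContinuousLinearMap.comp_smul,
    ContinuousLinearMap.comp_smul, ContinuousLinearMap.comp_smul, EU4e.trA_smul, EU4e.trA_smul]
  ring

end alg

variable {E : Type} [NormedAddCommGroup E] [NormedSpace ℝ E] [FiniteDimensional ℝ E]
  {M : Type} [MetricSpace M] [ChartedSpace E M] [IsManifold 𝓘(ℝ, E) ∞ M]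
  [RiemannianBundle fun p : M => TangentSpace 𝓘(ℝ, E) p]
  [IsContMDiffRiemannianBundle 𝓘(ℝ, E) ∞ E fun p : M => TangentSpace 𝓘(ℝ, E) p]
  [MeasurableSpace M]
  {cov : CovariantDerivative 𝓘(ℝ, E) E (TangentSpace 𝓘(ℝ, E) : M → Type)}
  {om : Form4 E M} {μ : Measure M} {D : ℝ}
  {W : Type} [NormedAddCommGroup W] [InnerProductSpace ℝ W] [FiniteDimensional ℝ W]
  [CompactSpace M] [BorelSpace M] (A : MAtlas cov om μ D)

/-- the integrand is nonnegative -/
theorem hsI_nonneg (R : Rep W) {Pr : W →L[ℝ] W} (hP : ∀ a b, ⟪Pr a, b⟫ = ⟪a, Pr b⟫)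
    (hP2 : Pr.comp Pr = Pr) (a : Fin A.n) (N : ℕ) (t : ℝ) (x : M × Eu4) :
    0 ≤ HSLim.hsI (LKJ.piece A R a) Pr N t x := by
  unfold HSLim.hsI
  rw [← tr_proj hP hP2]
  exact tr_self_nonneg _

/-- a bound for the integrand at a fixed time -/
theorem exists_bound (h2 : EU2Stmt) (R : Rep W) (Pr : W →L[ℝ] W) (a : Fin A.n) (N : ℕ) (t : ℝ) :
    ∃ C : ℝ, ∀ x ∈ HSLim.dom (LKJ.piece A R a), |HSLim.hsI (LKJ.piece A R a) Pr N t x| ≤ C := by
  set Q := LKJ.piece A R a with hQ
  have hc : ContinuousOn (fun x => EU4e.bet Pr (Q.Q.XX N t x) (Q.Q.XX N t x))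
      (Q.U ×ˢ Metric.ball (0 : Eu4) D) :=
    HSLim.cont_bet Pr (HSLim.cont_XX Q h2 t) (HSLim.cont_XX Q h2 t)
  have hK : IsCompact (Q.K ×ˢ Metric.closedBall (0 : Eu4) (D / 2)) :=
    Q.K_comp.prod (isCompact_closedBall _ _)
  obtain ⟨C, hC⟩ := hK.exists_bound_of_continuousOn (hc.mono (by
    rintro x ⟨hx1, hx2⟩
    exact Tay.mem_dom Q.K_sub Q.Q.D_pos hx1 (by simpa using hx2)))
  exact ⟨C, fun x hx => hC (Q.κ x.1, x.2) ⟨Q.κ_mem x.1 hx.1, hx.2⟩⟩

/-- the Hilbert-Schmidt density of the kernel in normal coordinates -/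
theorem dens_eq (hG : Geo4 cov om) (R : Rep W) {Pr : W →L[ℝ] W}
    (hP : ∀ a b, ⟪Pr a, b⟫ = ⟪a, Pr b⟫) (hP2 : Pr.comp Pr = Pr) (hR : Intertwines R R Pr)
    (χ : Eu4 → ℝ) (N : ℕ) (t : ℝ) {a : Fin A.n} {y : M} (hy : y ∈ A.B a) {v : Eu4}
    (hv : ‖v‖ < D) :
    (A.P a).J ((A.P a).co y, v) * EU4e.trA ((Pr.comp (A.z R χ N t
        ((A.P a).ex ((A.P a).co y, v)) y)).comp
      (ContinuousLinearMap.adjoint (Pr.comp (A.z R χ N t ((A.P a).ex ((A.P a).co y, v)) y)))) =
      χ v ^ 2 * Gauss.G t v ^ 2 * HSLim.hsI (LKJ.piece A R a) Pr N t (y, v) := by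
  have hyd : y ∈ (A.P a).dom := A.sub a (subset_closure hy)
  have hyO := (A.P a).co_mem hyd
  set p : M := (A.P a).ex ((A.P a).co y, v) with hp
  have hdist : dist y p < D := by
    have h := (A.P a).dist_ex _ hyO v hv
    rw [(A.P a).ptc_co hyd] at h
    rw [h]
    exact hv
  have hpon : PON om p (A.fr p) := by
    have hpd : p ∈ (A.P (A.idx p)).dom := A.sub _ (subset_closure (A.mem_idx p))
    have h := (A.P (A.idx p)).F_pon _ ((A.P (A.idx p)).co_mem hpd)
    rw [(A.P (A.idx p)).ptc_co hpd] at h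
    exact h.self_of_nhds
  have hz : A.z R χ N t p y = (A.P a).zK R χ N t p (A.fr p) y := by
    unfold MAtlas.z MAtlas.glue
    rw [LKJ.idx_eq A hy]
  have hlg : (A.P a).lg ((A.P a).co y) p = v := (A.P a).lg_ex _ hyO v hv
  have hmem : ((A.P a).co y, v) ∈ (A.P a).O ×ˢ Metric.ball (0 : Eu4) D :=
    ⟨hyO, by simpa using hv⟩
  have hJ := (A.P a).J_pos _ hmem
  rw [hz]
  unfold Patch.zK
  rw [(A.P a).lift_of_lt _ hyd hpon hdist, tr_rot R hR ((A.P a).rot_so' hG hyd hdist hpon),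
    tr_proj hP hP2, hlg, RadData.par_eq, smul_smul, tr_smul]
  have hs : Real.sqrt (((A.P a).rad R).J ((A.P a).co y, v)) ^ 2 = (A.P a).J ((A.P a).co y, v) :=
    Real.sq_sqrt hJ.le
  have hs0 : 0 < Real.sqrt (((A.P a).rad R).J ((A.P a).co y, v)) := Real.sqrt_pos.mpr hJ
  rw [gau_eqG]
  have e1 : (A.P a).J ((A.P a).co y, v) *
      (χ v * (Gauss.G t v * (Real.sqrt (((A.P a).rad R).J ((A.P a).co y, v)))⁻¹)) ^ 2 =
      χ v ^ 2 * Gauss.G t v ^ 2 := by
    rw [← hs]
    field_simp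
  change (A.P a).J ((A.P a).co y, v) *
      ((χ v * (Gauss.G t v * (Real.sqrt (((A.P a).rad R).J ((A.P a).co y, v)))⁻¹)) ^ 2 *
        HSLim.hsI (LKJ.piece A R a) Pr N t (y, v)) = _
  rw [← mul_assoc, e1]

end LKI

open LKI LKJ

variable {E : Type} [NormedAddCommGroup E] [NormedSpace ℝ E] [FiniteDimensional ℝ E]
  {M : Type} [MetricSpace M] [ChartedSpace E M] [IsManifold 𝓘(ℝ, E) ∞ M]
  [RiemannianBundle fun p : M => TangentSpace 𝓘(ℝ, E) p]
  [IsContMDiffRiemannianBundle 𝓘(ℝ, E) ∞ E fun p : M => TangentSpace 𝓘(ℝ, E) p]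
  [MeasurableSpace M]
  {cov : CovariantDerivative 𝓘(ℝ, E) E (TangentSpace 𝓘(ℝ, E) : M → Type)}
  {om : Form4 E M} {μ : Measure M} {D : ℝ} [CompactSpace M] [BorelSpace M]

/-- LKI: the Hilbert-Schmidt norm of the kernel of `Pr ∘ Z t`. -/
theorem lki (h2 : EU2Stmt) (A : MAtlas cov om μ D) (χ : Eu4 → ℝ) (N : ℕ) : LKIStmt A χ N := by
  classical
  intro hG hfin hχ W _ _ _ R Pr hP hP2 hR t ht
  have hcut : HSLim.CutOK χ D :=
    ⟨hχ.smooth.continuous.measurable, hχ.abs_le, hχ.one, hχ.zero⟩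
  -- the integrand on a piece
  set g : Fin A.n → M × Eu4 → ℝ := fun a x => χ x.2 ^ 2 * Gauss.G t x.2 ^ 2 *
    (HSLim.dom (piece A R a)).piecewise (HSLim.hsI (piece A R a) Pr N t) (fun _ => 0) x with hg
  have hg0 : ∀ a x, 0 ≤ g a x := by
    intro a x
    have h1 : 0 ≤ (HSLim.dom (piece A R a)).piecewise (HSLim.hsI (piece A R a) Pr N t)
        (fun _ => 0) x := by
      by_cases hx : x ∈ HSLim.dom (piece A R a)
      · rw [piecewise_eq_of_mem _ _ _ hx]
        exact hsI_nonneg A R hP hP2 a N t x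
      · rw [piecewise_eq_of_notMem _ _ _ hx]
    exact mul_nonneg (by positivity) h1
  have hint : ∀ a, Integrable (g a) ((μ.restrict (A.B a)).prod volume) := by
    intro a
    obtain ⟨C, hC⟩ := exists_bound A h2 R Pr a N t
    exact HSLim.prod_int (ν := μ) (piece A R a) hcut
      (HSLim.meas_of_cont (piece A R a)
        (f := fun x => EU4e.bet Pr (((A.P a).rad R).XX N t x) (((A.P a).rad R).XX N t x))
        (HSLim.cont_bet Pr (HSLim.cont_XX (piece A R a) h2 t)
          (HSLim.cont_XX (piece A R a) h2 t)) 0) hC ht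
  have hz : ∀ a, HSLim.zP (piece A R a) μ χ Pr N t =
      ∫ x, g a x ∂((μ.restrict (A.B a)).prod volume) := by
    intro a
    rw [integral_prod _ (hint a)]
    unfold HSLim.zP
    rw [HSLim.outer_piecewise (ν := μ) (piece A R a) hcut (c := 0) t]
    simp only [gau_eqG]
    rfl
  have hz0 : ∀ a, 0 ≤ HSLim.zP (piece A R a) μ χ Pr N t := fun a => by
    rw [hz a]
    exact integral_nonneg (hg0 a)
  have hyS : A.yS R Pr χ N t = ∑ a, HSLim.zP (piece A R a) μ χ Pr N t := rfl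
  refine ⟨by rw [hyS]; exact Finset.sum_nonneg fun a _ => hz0 a, ?_⟩
  -- the inner integral
  have hinner : ∀ a, ∀ y ∈ A.B a,
      (∫⁻ x, ENNReal.ofReal (trW ((Pr.comp (A.z R χ N t x y)).comp
        (ContinuousLinearMap.adjoint (Pr.comp (A.z R χ N t x y))))) ∂μ) =
      ∫⁻ v : Eu4, ENNReal.ofReal (g a (y, v)) := by
    intro a y hy
    have hyd : y ∈ (A.P a).dom := A.sub a (subset_closure hy)
    have h1 := ((lkp4 (A.P a)) hG y hyd).2
      (fun x => ENNReal.ofReal (trW ((Pr.comp (A.z R χ N t x y)).comp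
        (ContinuousLinearMap.adjoint (Pr.comp (A.z R χ N t x y)))))) (fun x hx => by
        have hzz : A.z R χ N t x y = 0 := by
          have h3 : A.z R χ N t x y = (A.P a).zK R χ N t x (A.fr x) y := by
            unfold MAtlas.z MAtlas.glue
            rw [LKJ.idx_eq A hy]
          rw [h3]
          exact (A.P a).lift_of_le _ hx
        simp only [hzz, ContinuousLinearMap.comp_zero, map_zero]
        simp [trW])
    rw [h1]
    have h4 : ∀ v ∉ Metric.ball (0 : Eu4) D, ENNReal.ofReal (g a (y, v)) = 0 := by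
      intro v hv
      have hv' : D / 2 ≤ ‖v‖ := by
        rw [mem_ball_zero_iff, not_lt] at hv
        have := (A.P a).D_pos
        linarith
      simp only [hg, hχ.zero v hv']
      simp
    have h5 : (∫⁻ v : Eu4, ENNReal.ofReal (g a (y, v))) =
        ∫⁻ v in Metric.ball (0 : Eu4) D, ENNReal.ofReal (g a (y, v)) := by
      rw [← lintegral_indicator Metric.isOpen_ball.measurableSet]
      refine lintegral_congr fun v => ?_
      by_cases hv : v ∈ Metric.ball (0 : Eu4) D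
      · rw [indicator_of_mem hv]
      · rw [indicator_of_notMem hv, h4 v hv]
    rw [h5]
    refine setLIntegral_congr_fun Metric.isOpen_ball.measurableSet fun v hv => ?_
    have hv' : ‖v‖ < D := by simpa using hv
    have hyO := (A.P a).co_mem hyd
    have hJ := (A.P a).J_pos ((A.P a).co y, v) ⟨hyO, hv⟩
    rw [← ENNReal.ofReal_mul hJ.le]
    congr 1
    refine (dens_eq A hG R hP hP2 hR χ N t hy hv').trans ?_
    simp only [hg]
    by_cases hvv : ‖v‖ ≤ D / 2
    · rw [piecewise_eq_of_mem _ _ _ (show (y, v) ∈ HSLim.dom (piece A R a) from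
        ⟨hy, by simpa using hvv⟩)]
    · rw [hχ.zero v (not_le.mp hvv).le]
      simp
  -- sum over the pieces
  have hpiece : ∀ a, (∫⁻ y in A.B a, ∫⁻ x, ENNReal.ofReal (trW ((Pr.comp (A.z R χ N t x y)).comp
        (ContinuousLinearMap.adjoint (Pr.comp (A.z R χ N t x y))))) ∂μ ∂μ) =
      ENNReal.ofReal (HSLim.zP (piece A R a) μ χ Pr N t) := by
    intro a
    rw [setLIntegral_congr_fun (A.meas a) (hinner a), hz a,
      ofReal_integral_eq_lintegral_ofReal (hint a) (Eventually.of_forall (hg0 a)),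
      lintegral_prod _ (hint a).aemeasurable.ennreal_ofReal]
  rw [← setLIntegral_univ, ← A.cover, lintegral_iUnion A.meas A.disj, tsum_fintype, hyS,
    ENNReal.ofReal_sum_of_nonneg fun a _ => hz0 a]
  exact Finset.sum_congr rfl fun a _ => hpiece a

end

end Vale.Agent.P211.HK
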