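import Vale.Agent.P211.HK.EU3
import Vale.Agent.P211.HK.EU4e

/-! P211 / HK: the Hilbert-Schmidt limits on a finite Borel partition (manifold free). helper501.

On the piece `B ⊆ Y` the centre has the coordinates `κ y ∈ K`, `K` compact in `U`. -/

set_option linter.unusedSectionVars false

namespace Vale.Agent.P211.HK.HSLim

open Filter Topology MeasureTheory Set
open scoped ContDiff RealInnerProductSpace
open Vale.Agent.P211.HK.EU4e

noncomputable section

variable {P W : Type} [NormedAddCommGroup P] [NormedSpace ℝ P] [FiniteDimensional ℝ P]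
  [NormedAddCommGroup W] [InnerProductSpace ℝ W] [FiniteDimensional ℝ W]

/-- the data on one piece of the partition -/
structure Piece (P W : Type) [NormedAddCommGroup P] [NormedSpace ℝ P] [FiniteDimensional ℝ P]
    [NormedAddCommGroup W] [InnerProductSpace ℝ W] [FiniteDimensional ℝ W]
    {Y : Type} [TopologicalSpace Y] [MeasurableSpace Y] (D : ℝ) where
  U : Set P
  Q : RadData P W U D
  K : Set P
  B : Set Y
  κ : Y → P
  K_comp : IsCompact K
  K_sub : K ⊆ U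
  B_meas : MeasurableSet B
  κ_cont : ContinuousOn κ B
  κ_mem : ∀ y ∈ B, κ y ∈ K

variable {Y : Type} [TopologicalSpace Y] [SecondCountableTopology Y] [MeasurableSpace Y]
  [BorelSpace Y] {ν : Measure Y} [IsFiniteMeasure ν] {D : ℝ}

/-- the integrand of the Hilbert-Schmidt norm -/
def hsI (Q : Piece P W (Y := Y) D) (Pr : W →L[ℝ] W) (N : ℕ) (t : ℝ) (x : Y × Eu4) : ℝ :=
  trA (Pr.comp ((Q.Q.XX N t (Q.κ x.1, x.2)).comp
    (ContinuousLinearMap.adjoint (Q.Q.XX N t (Q.κ x.1, x.2)))))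

/-- the scalar integrand -/
def scI (Q : Piece P W (Y := Y) D) (N : ℕ) (t : ℝ) (x : Y × Eu4) : ℝ :=
  Q.Q.scal.XX N t (Q.κ x.1, x.2) 1

/-- the curvature term -/
def cuI (Q : Piece P W (Y := Y) D) (Pr : W →L[ℝ] W) (i k : Fin 4) (y : Y) : ℝ :=
  ∑ j, trA (Pr.comp ((Q.Q.Omg (Q.κ y) i j).comp (Q.Q.Omg (Q.κ y) k j)))

/-- the squared Hilbert-Schmidt norm contributed by the piece -/
def zP (Q : Piece P W (Y := Y) D) (ν : Measure Y) (χ : Eu4 → ℝ) (Pr : W →L[ℝ] W) (N : ℕ)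
    (t : ℝ) : ℝ :=
  ∫ y in Q.B, (∫ v : Eu4, χ v ^ 2 * gau t v ^ 2 * hsI Q Pr N t (y, v)) ∂ν

/-- the scalar version -/
def sP (Q : Piece P W (Y := Y) D) (ν : Measure Y) (χ : Eu4 → ℝ) (N : ℕ) (t : ℝ) : ℝ :=
  ∫ y in Q.B, (∫ v : Eu4, χ v ^ 2 * gau t v ^ 2 * scI Q N t (y, v) ^ 2) ∂ν

/-- the curvature integral of the piece -/
def cP (Q : Piece P W (Y := Y) D) (ν : Measure Y) (Pr : W →L[ℝ] W) : ℝ :=
  ∫ y in Q.B, (∑ i, cuI Q Pr i i y) ∂ν

/-- cut-off conditions -/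
structure CutOK (χ : Eu4 → ℝ) (D : ℝ) : Prop where
  meas : Measurable χ
  abs_le : ∀ v, |χ v| ≤ 1
  one : ∀ v, ‖v‖ ≤ D / 4 → χ v = 1
  zero : ∀ v, D / 2 ≤ ‖v‖ → χ v = 0

section single

variable (Q : Piece P W (Y := Y) D) {χ : Eu4 → ℝ} (hχ : CutOK χ D) {Pr : W →L[ℝ] W} {N : ℕ}

/-- the domain of the integrands -/
def dom : Set (Y × Eu4) := Q.B ×ˢ Metric.closedBall (0 : Eu4) (D / 2)

theorem dom_meas : MeasurableSet (dom Q) := Q.B_meas.prod Metric.isClosed_closedBall.measurableSet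

theorem mem_dom' {x : Y × Eu4} (hx : x ∈ dom Q) :
    (Q.κ x.1, x.2) ∈ Q.U ×ˢ Metric.ball (0 : Eu4) D :=
  Tay.mem_dom Q.K_sub Q.Q.D_pos (Q.κ_mem x.1 hx.1) (by simpa using hx.2)

theorem contOn_coord : ContinuousOn (fun x : Y × Eu4 => ((Q.κ x.1, x.2) : P × Eu4)) (dom Q) :=
  (Q.κ_cont.comp continuousOn_fst fun _ hx => hx.1).prodMk continuousOn_snd

open Classical in
/-- a function which is continuous in coordinates is measurable on the domain -/
theorem meas_of_cont {f : P × Eu4 → ℝ} (hf : ContinuousOn f (Q.U ×ˢ Metric.ball (0 : Eu4) D))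
    (c : ℝ) :
    Measurable ((dom Q).piecewise (fun x : Y × Eu4 => f (Q.κ x.1, x.2)) fun _ => c) := by
  refine ContinuousOn.measurable_piecewise ?_ continuousOn_const (dom_meas Q)
  exact hf.comp (contOn_coord Q) fun x hx => mem_dom' Q hx

theorem meas_of_cont_base {f : P → ℝ} (hf : ContinuousOn f Q.U) :
    Measurable (Q.B.indicator fun y : Y => f (Q.κ y)) := by
  classical
  rw [← piecewise_eq_indicator]
  refine ContinuousOn.measurable_piecewise ?_ continuousOn_const Q.B_meas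
  exact hf.comp Q.κ_cont fun y hy => Q.K_sub (Q.κ_mem y hy)

theorem cont_XX (h2 : EU2Stmt) (t : ℝ) :
    ContinuousOn (Q.Q.XX N t) (Q.U ×ˢ Metric.ball (0 : Eu4) D) := by
  have h : ContinuousOn (fun x => ∑ k ∈ Finset.range (N + 1), t ^ k • Q.Q.cc k x)
      (Q.U ×ˢ Metric.ball (0 : Eu4) D) :=
    continuousOn_finsetSum _ fun k _ =>
      (continuousOn_const (c := t ^ k)).fun_smul ((h2 P W Q.U D Q.Q).1 k).continuousOn
  exact h

theorem cont_sXX (h2 : EU2Stmt) (t : ℝ) :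
    ContinuousOn (fun x => Q.Q.scal.XX N t x 1) (Q.U ×ˢ Metric.ball (0 : Eu4) D) := by
  have h : ContinuousOn (fun x => ∑ k ∈ Finset.range (N + 1), t ^ k • Q.Q.scal.cc k x)
      (Q.U ×ˢ Metric.ball (0 : Eu4) D) :=
    continuousOn_finsetSum _ fun k _ =>
      (continuousOn_const (c := t ^ k)).fun_smul ((h2 P ℝ Q.U D Q.Q.scal).1 k).continuousOn
  exact h.clm_apply continuousOn_const

theorem cont_bet {X : Type*} [TopologicalSpace X] (Pr : W →L[ℝ] W) {f g : X → W →L[ℝ] W}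
    {S : Set X} (hf : ContinuousOn f S) (hg : ContinuousOn g S) :
    ContinuousOn (fun x => bet Pr (f x) (g x)) S := by
  have h1 : ContinuousOn (fun x => ContinuousLinearMap.adjoint (g x)) S :=
    (ContinuousLinearMap.adjoint : (W →L[ℝ] W) ≃ₗᵢ⋆[ℝ] (W →L[ℝ] W)).continuous.comp_continuousOn hg
  have h2 : ContinuousOn (fun x => Pr.comp ((f x).comp (ContinuousLinearMap.adjoint (g x)))) S :=
    continuousOn_const.clm_comp (hf.clm_comp h1)
  exact (trL : (W →L[ℝ] W) →L[ℝ] ℝ).continuous.comp_continuousOn h2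

theorem cont_Omg (i j : Fin 4) : ContinuousOn (fun y => Q.Q.Omg y i j) Q.U := by
  have hB : ContDiffOn ℝ ∞ (fun x => Q.Q.B x j) (Q.U ×ˢ Metric.ball (0 : Eu4) D) :=
    contDiffOn_pi.1 Q.Q.B_smooth j
  have h1 := (Tay.contDiffOn_vD (Tay.isOpen_dom Q.Q.U_open) hB).continuousOn
  have h2 : ContinuousOn (fun y : P => Tay.vD (fun x => Q.Q.B x j) (y, 0)) Q.U :=
    h1.comp (continuousOn_id.prodMk continuousOn_const) fun y hy =>
      ⟨hy, Metric.mem_ball_self Q.Q.D_pos⟩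
  exact ((h2.clm_apply continuousOn_const).const_smul (2 : ℝ)).congr fun y _ => rfl

theorem cont_cu (Pr : W →L[ℝ] W) (i k : Fin 4) : ContinuousOn (fun y : P =>
    ∑ j, trA (Pr.comp ((Q.Q.Omg y i j).comp (Q.Q.Omg y k j)))) Q.U := by
  refine continuousOn_finsetSum _ fun j _ => ?_
  exact (trL : (W →L[ℝ] W) →L[ℝ] ℝ).continuous.comp_continuousOn
    (continuousOn_const.clm_comp ((cont_Omg Q i j).clm_comp (cont_Omg Q k j)))

theorem cu_bound (Pr : W →L[ℝ] W) (i k : Fin 4) : ∃ C : ℝ, 0 ≤ C ∧ ∀ y ∈ Q.B,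
    |cuI Q Pr i k y| ≤ C := by
  obtain ⟨C, hC⟩ := Q.K_comp.exists_bound_of_continuousOn ((cont_cu Q Pr i k).mono Q.K_sub)
  exact ⟨|C|, abs_nonneg C, fun y hy => (hC (Q.κ y) (Q.κ_mem y hy)).trans (le_abs_self C)⟩

theorem cu_integrable (Pr : W →L[ℝ] W) (i k : Fin 4) :
    IntegrableOn (cuI Q Pr i k) Q.B ν := by
  obtain ⟨C, _, hC⟩ := cu_bound Q Pr i k
  have h1 : Integrable (Q.B.indicator (cuI Q Pr i k)) ν := by
    refine Integrable.of_bound (meas_of_cont_base Q (cont_cu Q Pr i k)).aestronglyMeasurable C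
      (Eventually.of_forall fun y => ?_)
    by_cases hy : y ∈ Q.B
    · rw [indicator_of_mem hy]
      exact hC y hy
    · rw [indicator_of_notMem hy, norm_zero]
      exact (norm_nonneg _).trans (show ‖(0 : ℝ)‖ ≤ C by simpa using ‹0 ≤ C›)
  rwa [integrable_indicator_iff Q.B_meas] at h1

include hχ in
theorem inner_congr {f g : Y × Eu4 → ℝ} {y : Y} (hy : y ∈ Q.B)
    (h : ∀ x ∈ dom Q, f x = g x) (t : ℝ) :
    ∫ v : Eu4, χ v ^ 2 * gau t v ^ 2 * f (y, v) = ∫ v : Eu4, χ v ^ 2 * gau t v ^ 2 * g (y, v) := by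
  refine integral_congr_ae (Eventually.of_forall fun v => ?_)
  simp only
  by_cases hv : ‖v‖ ≤ D / 2
  · rw [h (y, v) ⟨hy, by simpa using hv⟩]
  · rw [hχ.zero v (not_le.mp hv).le]
    simp

include hχ in
theorem outer_congr {f g : Y × Eu4 → ℝ} (h : ∀ x ∈ dom Q, f x = g x) (t : ℝ) :
    ∫ y in Q.B, (∫ v : Eu4, χ v ^ 2 * gau t v ^ 2 * f (y, v)) ∂ν =
      ∫ y in Q.B, (∫ v : Eu4, χ v ^ 2 * gau t v ^ 2 * g (y, v)) ∂ν :=
  setIntegral_congr_fun Q.B_meas fun _ hy => inner_congr Q hχ hy h t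

include Q hχ in
theorem cut : Gauss.Cut χ (D / 4) (D / 2) :=
  ⟨by have := Q.Q.D_pos; positivity, hχ.meas, hχ.abs_le, hχ.one, hχ.zero⟩

/-- bounds for the integrands -/
theorem exists_bounds (h2 : EU2Stmt) (Pr : W →L[ℝ] W) (N : ℕ) : ∃ C : ℝ, 0 ≤ C ∧
    ∀ t ∈ Icc (0 : ℝ) 1, ∀ x ∈ dom Q, |hsI Q Pr N t x| ≤ C ∧ |scI Q N t x ^ 2| ≤ C := by
  have hsm := (h2 P W Q.U D Q.Q).1
  have hss := (h2 P ℝ Q.U D Q.Q.scal).1
  choose Cc hCc0 hCc using fun k => Tay.bound Q.Q.U_open Q.Q.D_pos (hsm k) Q.K_sub Q.K_comp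
  choose Cs hCs0 hCs using fun k => Tay.bound Q.Q.U_open Q.Q.D_pos (hss k) Q.K_sub Q.K_comp
  set A : ℝ := ∑ k ∈ Finset.range (N + 1), Cc k with hA
  set S : ℝ := ∑ k ∈ Finset.range (N + 1), Cs k with hS
  have hA0 : 0 ≤ A := Finset.sum_nonneg fun k _ => hCc0 k
  have hS0 : 0 ≤ S := Finset.sum_nonneg fun k _ => hCs0 k
  set κ₀ : ℝ := ‖(trL : (W →L[ℝ] W) →L[ℝ] ℝ)‖ * ‖Pr‖ with hκ
  refine ⟨κ₀ * A * A + S ^ 2, by positivity, fun t ht x hx => ?_⟩
  have hv : ‖x.2‖ ≤ D / 2 := by simpa using hx.2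
  have hy := Q.κ_mem x.1 hx.1
  have hX : ‖Q.Q.XX N t (Q.κ x.1, x.2)‖ ≤ A := by
    unfold RadData.XX
    refine (norm_sum_le _ _).trans (Finset.sum_le_sum fun k _ => ?_)
    rw [norm_smul, Real.norm_of_nonneg (by have := ht.1; positivity)]
    calc t ^ k * ‖Q.Q.cc k (Q.κ x.1, x.2)‖ ≤ 1 * Cc k :=
          mul_le_mul (pow_le_one₀ ht.1 ht.2) (hCc k _ hy _ hv) (norm_nonneg _) (by norm_num)
      _ = _ := one_mul _
  have hx' : ‖Q.Q.scal.XX N t (Q.κ x.1, x.2)‖ ≤ S := by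
    unfold RadData.XX
    refine (norm_sum_le _ _).trans (Finset.sum_le_sum fun k _ => ?_)
    rw [norm_smul, Real.norm_of_nonneg (by have := ht.1; positivity)]
    calc t ^ k * ‖Q.Q.scal.cc k (Q.κ x.1, x.2)‖ ≤ 1 * Cs k :=
          mul_le_mul (pow_le_one₀ ht.1 ht.2) (hCs k _ hy _ hv) (norm_nonneg _) (by norm_num)
      _ = _ := one_mul _
  constructor
  · have h1 := bet_bound Pr (Q.Q.XX N t (Q.κ x.1, x.2)) (Q.Q.XX N t (Q.κ x.1, x.2))
    have h3 : |hsI Q Pr N t x| ≤ κ₀ * A * A := by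
      refine h1.trans ?_
      have : 0 ≤ κ₀ := by positivity
      gcongr
    have : 0 ≤ S ^ 2 := by positivity
    linarith
  · have h1 : |scI Q N t x| ≤ S := by
      unfold scI
      rw [← Real.norm_eq_abs]
      refine (ContinuousLinearMap.le_opNorm (Q.Q.scal.XX N t (Q.κ x.1, x.2)) (1 : ℝ)).trans ?_
      simpa using hx'
    rw [abs_of_nonneg (sq_nonneg _), ← sq_abs]
    have h3 : |scI Q N t x| ^ 2 ≤ S ^ 2 := pow_le_pow_left₀ (abs_nonneg _) h1 2
    have : 0 ≤ κ₀ * A * A := by positivity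
    linarith

open Classical in
/-- product integrability of the cut off integrand -/
theorem prod_int (hχ : CutOK χ D) {f : Y × Eu4 → ℝ} {c : ℝ}
    (hf : Measurable ((dom Q).piecewise f fun _ => c)) {C : ℝ}
    (hC : ∀ x ∈ dom Q, |f x| ≤ C) {t : ℝ} (ht : 0 < t) :
    Integrable (fun x : Y × Eu4 => χ x.2 ^ 2 * Gauss.G t x.2 ^ 2 *
      (dom Q).piecewise f (fun _ => c) x) ((ν.restrict Q.B).prod volume) := by
  have hm : Measurable fun x : Y × Eu4 => χ x.2 ^ 2 := (hχ.meas.comp measurable_snd).pow_const 2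
  exact Gauss.integrable_prod_cut (ν := ν.restrict Q.B) (cut Q hχ)
    (f := fun y v => (dom Q).piecewise f (fun _ => c) (y, v))
    (hm.mul hf).aestronglyMeasurable (C := max C |c|) (fun y v hv => by
      by_cases hx : (y, v) ∈ dom Q
      · rw [piecewise_eq_of_mem _ _ _ hx]
        exact (hC _ hx).trans (le_max_left _ _)
      · rw [piecewise_eq_of_notMem _ _ _ hx]
        exact le_max_right _ _) ht

open Classical in
theorem outer_piecewise (hχ : CutOK χ D) {f : Y × Eu4 → ℝ} {c : ℝ} (t : ℝ) :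
    ∫ y in Q.B, (∫ v : Eu4, χ v ^ 2 * gau t v ^ 2 * f (y, v)) ∂ν =
      ∫ y in Q.B, (∫ v : Eu4, χ v ^ 2 * gau t v ^ 2 *
        (dom Q).piecewise f (fun _ => c) (y, v)) ∂ν :=
  outer_congr Q hχ (fun x hx => (piecewise_eq_of_mem _ _ _ hx).symm) t

open Classical in
/-- linearity of the double integral -/
theorem outer_sub (hχ : CutOK χ D) {f g : Y × Eu4 → ℝ} {a b : ℝ}
    (hf : Measurable ((dom Q).piecewise f fun _ => a))
    (hg : Measurable ((dom Q).piecewise g fun _ => b)) {C : ℝ}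
    (hfC : ∀ x ∈ dom Q, |f x| ≤ C) (hgC : ∀ x ∈ dom Q, |g x| ≤ C) {t : ℝ} (ht : 0 < t) (c : ℝ) :
    ∫ y in Q.B, (∫ v : Eu4, χ v ^ 2 * gau t v ^ 2 * (f (y, v) - c * g (y, v))) ∂ν =
      (∫ y in Q.B, (∫ v : Eu4, χ v ^ 2 * gau t v ^ 2 * f (y, v)) ∂ν) -
        c * ∫ y in Q.B, (∫ v : Eu4, χ v ^ 2 * gau t v ^ 2 * g (y, v)) ∂ν := by
  have I1 := prod_int (ν := ν) Q hχ hf hfC ht
  have I2 := prod_int (ν := ν) Q hχ hg hgC ht
  rw [outer_piecewise (ν := ν) Q hχ (f := f) (c := a) t,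
    outer_piecewise (ν := ν) Q hχ (f := g) (c := b) t,
    outer_congr (ν := ν) Q hχ (f := fun x => f x - c * g x)
      (g := fun x => (dom Q).piecewise f (fun _ => a) x - c * (dom Q).piecewise g (fun _ => b) x)
      (fun x hx => by
        rw [piecewise_eq_of_mem _ _ _ hx, piecewise_eq_of_mem _ _ _ hx]) t]
  simp only [gau_eqG]
  rw [← integral_const_mul, ← integral_sub I1.integral_prod_left
    (I2.integral_prod_left.const_mul c)]
  refine integral_congr_ae ?_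
  filter_upwards [I1.prod_right_ae, I2.prod_right_ae] with y hy1 hy2
  rw [← integral_const_mul, ← integral_sub hy1 (hy2.const_mul c)]
  refine integral_congr_ae (Eventually.of_forall fun v => ?_)
  simp only
  ring

/-- leading term of a piece -/
theorem lim_s (h2 : EU2Stmt) (h4 : EU4Stmt) (hN : 2 ≤ N) (hχ : CutOK χ D) :
    Tendsto (fun t => t ^ 2 * sP Q ν χ N t) (𝓝[>] 0)
      (𝓝 ((64 * Real.pi ^ 2)⁻¹ * ν.real Q.B)) := by
  classical
  have hD := Q.Q.D_pos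
  obtain ⟨C, hC⟩ := h4 P W Q.U D Q.Q (0 : W →L[ℝ] W) (by simp) (by simp) (by simp) N hN Q.K
    Q.K_comp Q.K_sub
  have hC0 : 0 ≤ C ∨ Q.K = ∅ := by
    rcases Q.K.eq_empty_or_nonempty with h | ⟨y, hy⟩
    · exact Or.inr h
    · refine Or.inl ?_
      have := (hC 1 (by simp) y hy 0 (by simpa using (half_pos hD).le)).2
      have h3 := (abs_nonneg _).trans this
      simpa using h3
  have h := ((eu3 Y (ν.restrict Q.B) D χ hD hχ.meas hχ.abs_le hχ.one hχ.zero).2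
    (fun t => (dom Q).piecewise (scI Q N t) fun _ => 1) |C|
    (fun t => meas_of_cont Q (cont_sXX Q h2 t) 1)
    (fun t ht y v hv => by
      by_cases hx : (y, v) ∈ dom Q
      · rw [piecewise_eq_of_mem _ _ _ hx]
        refine ((hC t ⟨ht.1.le, ht.2⟩ (Q.κ y) (Q.κ_mem y hx.1) v hv).2).trans ?_
        exact mul_le_mul_of_nonneg_right (le_abs_self C)
          (by have := norm_nonneg v; have := ht.1; positivity)
      · rw [piecewise_eq_of_notMem _ _ _ hx]
        simp only [sub_self, abs_zero]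
        have := norm_nonneg v
        have := ht.1
        positivity))
  have e1 : (ν.restrict Q.B).real univ = ν.real Q.B := by
    simp [Measure.real]
  rw [e1] at h
  refine h.congr fun t => ?_
  congr 1
  unfold sP
  refine outer_congr (ν := ν) Q hχ
    (f := fun x => (dom Q).piecewise (scI Q N t) (fun _ => 1) x ^ 2)
    (g := fun x => scI Q N t x ^ 2) (fun x hx => ?_) t
  rw [piecewise_eq_of_mem _ _ _ hx]

/-- crude bound -/
theorem z_bound (h2 : EU2Stmt) (hχ : CutOK χ D) (Pr : W →L[ℝ] W) (N : ℕ) :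
    ∃ C : ℝ, ∀ t ∈ Ioo (0 : ℝ) 1, t ^ 2 * zP Q ν χ Pr N t ≤ C := by
  classical
  obtain ⟨C, hC0, hC⟩ := exists_bounds Q h2 Pr N
  refine ⟨ν.real Q.B * (C * (64 * Real.pi ^ 2)⁻¹), fun t ht => ?_⟩
  have ht0 := ht.1
  have h1 := Gauss.error_le (ν := ν.restrict Q.B) (cut Q hχ)
    (f := fun y v => (dom Q).piecewise (hsI Q Pr N t) (fun _ => 0) (y, v))
    (e := fun _ => C) (t := t) (fun _ => hC0) ((Gauss.integrable_G_sq ht0).const_mul C)
    (fun y v hv => by
      by_cases hx : (y, v) ∈ dom Q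
      · rw [piecewise_eq_of_mem _ _ _ hx]
        exact (hC t ⟨ht.1.le, ht.2.le⟩ _ hx).1
      · rw [piecewise_eq_of_notMem _ _ _ hx]
        simpa using hC0)
  have e1 : (ν.restrict Q.B).real univ = ν.real Q.B := by
    simp [Measure.real]
  rw [e1, integral_const_mul, Gauss.integral_G_sq ht0] at h1
  have e2 : zP Q ν χ Pr N t = ∫ y in Q.B, (∫ v : Eu4, χ v ^ 2 * Gauss.G t v ^ 2 *
      (dom Q).piecewise (hsI Q Pr N t) (fun _ => 0) (y, v)) ∂ν := by
    unfold zP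
    rw [outer_piecewise (ν := ν) Q hχ (c := 0) t]
    simp only [gau_eqG]
  have h3 : zP Q ν χ Pr N t ≤ ν.real Q.B * (C * (64 * Real.pi ^ 2 * t ^ 2)⁻¹) := by
    rw [e2]
    exact (le_abs_self _).trans h1
  calc t ^ 2 * zP Q ν χ Pr N t ≤ t ^ 2 * (ν.real Q.B * (C * (64 * Real.pi ^ 2 * t ^ 2)⁻¹)) :=
        mul_le_mul_of_nonneg_left h3 (by positivity)
    _ = _ := by
      have hpi := Real.pi_pos
      field_simp

/-- curvature term of a piece -/
theorem lim_z (h2 : EU2Stmt) (h4 : EU4Stmt) (hN : 2 ≤ N) (hχ : CutOK χ D)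
    (hP : ∀ a b, ⟪Pr a, b⟫ = ⟪a, Pr b⟫) (hP2 : Pr.comp Pr = Pr)
    (hPB : ∀ x ∈ Q.U ×ˢ Metric.ball (0 : Eu4) D, ∀ i, Pr.comp (Q.Q.B x i) = (Q.Q.B x i).comp Pr) :
    Tendsto (fun t => zP Q ν χ Pr N t - trA Pr * sP Q ν χ N t) (𝓝[>] 0)
      (𝓝 ((192 * Real.pi ^ 2)⁻¹ * cP Q ν Pr)) := by
  classical
  have hD := Q.Q.D_pos
  obtain ⟨C, hC⟩ := h4 P W Q.U D Q.Q Pr hP hP2 hPB N hN Q.K Q.K_comp Q.K_sub
  obtain ⟨C1, hC10, hC1⟩ := exists_bounds Q h2 Pr N
  choose Cu hCu0 hCu using fun ik : Fin 4 × Fin 4 => cu_bound Q Pr ik.1 ik.2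
  set S : ℝ := ∑ ik : Fin 4 × Fin 4, Cu ik with hS
  have hS0 : 0 ≤ S := Finset.sum_nonneg fun ik _ => hCu0 ik
  have hSb : ∀ i k, ∀ y ∈ Q.B, |cuI Q Pr i k y| ≤ S := fun i k y hy =>
    (hCu (i, k) y hy).trans (Finset.single_le_sum (f := Cu) (fun ik _ => hCu0 ik)
      (Finset.mem_univ (i, k)))
  have hmz : ∀ t, Measurable ((dom Q).piecewise (hsI Q Pr N t) fun _ => 0) := fun t =>
    meas_of_cont Q (f := fun x => bet Pr (Q.Q.XX N t x) (Q.Q.XX N t x))
      (cont_bet Pr (cont_XX Q h2 t) (cont_XX Q h2 t)) 0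
  have hms : ∀ t, Measurable ((dom Q).piecewise (fun x => scI Q N t x ^ 2) fun _ => 0) := fun t =>
    meas_of_cont Q (f := fun x => (Q.Q.scal.XX N t x 1) ^ 2) ((cont_sXX Q h2 t).pow 2) 0
  have hmq : ∀ t, Measurable ((dom Q).piecewise
      (fun x => hsI Q Pr N t x - trA Pr * scI Q N t x ^ 2) fun _ => 0) := fun t =>
    meas_of_cont Q (f := fun x => bet Pr (Q.Q.XX N t x) (Q.Q.XX N t x) -
      trA Pr * (Q.Q.scal.XX N t x 1) ^ 2)
      ((cont_bet Pr (cont_XX Q h2 t) (cont_XX Q h2 t)).sub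
        (continuousOn_const.mul ((cont_sXX Q h2 t).pow 2))) 0
  have hmA : ∀ i k, Measurable (Q.B.indicator fun y => (1 / 6 : ℝ) * cuI Q Pr i k y) :=
    fun i k => meas_of_cont_base Q (continuousOn_const.mul (cont_cu Q Pr i k))
  have hmb : Measurable (Q.B.indicator fun y => (1 / 6 : ℝ) * ∑ i, cuI Q Pr i i y) :=
    meas_of_cont_base Q (continuousOn_const.mul (continuousOn_finsetSum _ fun i _ =>
      cont_cu Q Pr i i))
  have h := ((eu3 Y (ν.restrict Q.B) D χ hD hχ.meas hχ.abs_le hχ.one hχ.zero).1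
    (fun t => (dom Q).piecewise (fun x => hsI Q Pr N t x - trA Pr * scI Q N t x ^ 2) fun _ => 0)
    (fun y i k => Q.B.indicator (fun y => (1 / 6 : ℝ) * cuI Q Pr i k y) y)
    (Q.B.indicator fun y => (1 / 6 : ℝ) * ∑ i, cuI Q Pr i i y) (|C| + S) hmq hmA hmb
    (fun y i k => by
      have : 0 ≤ |C| := abs_nonneg C
      by_cases hy : y ∈ Q.B
      · rw [indicator_of_mem hy, abs_mul, abs_of_pos (by norm_num : (0 : ℝ) < 1 / 6)]
        have := hSb i k y hy
        have := abs_nonneg (cuI Q Pr i k y)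
        linarith
      · rw [indicator_of_notMem hy, abs_zero]
        linarith)
    (fun y => by
      have : 0 ≤ |C| := abs_nonneg C
      by_cases hy : y ∈ Q.B
      · rw [indicator_of_mem hy, abs_mul, abs_of_pos (by norm_num : (0 : ℝ) < 1 / 6)]
        have h5 : |∑ i, cuI Q Pr i i y| ≤ 4 * S := by
          refine (Finset.abs_sum_le_sum_abs _ _).trans ?_
          refine (Finset.sum_le_sum fun i _ => hSb i i y hy).trans (le_of_eq ?_)
          simp
        linarith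
      · rw [indicator_of_notMem hy, abs_zero]
        linarith)
    (fun t ht y v hv => by
      have ht0 := ht.1
      have hn := norm_nonneg v
      by_cases hy : y ∈ Q.B
      · have hx : (y, v) ∈ dom Q := ⟨hy, by simpa using hv⟩
        have h5 := (hC t ⟨ht.1.le, ht.2⟩ (Q.κ y) (Q.κ_mem y hy) v hv).1
        rw [piecewise_eq_of_mem _ _ _ hx]
        simp only [indicator_of_mem hy]
        have h6 : C * (t * ‖v‖ ^ 3 + t ^ 2 * ‖v‖ + t ^ 3) ≤
            (|C| + S) * (t * ‖v‖ ^ 3 + t ^ 2 * ‖v‖ + t ^ 3) :=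
          mul_le_mul_of_nonneg_right (by linarith [le_abs_self C]) (by positivity)
        refine le_trans (le_of_eq ?_) (h5.trans h6)
        congr 1
        have e3 : (∑ i, ∑ j, (1 / 6 : ℝ) * cuI Q Pr i j y * v i * v j) =
            (1 / 6) * ∑ i, ∑ j, ∑ k, v i * v k * trA (Pr.comp ((Q.Q.Omg (Q.κ y) i j).comp
              (Q.Q.Omg (Q.κ y) k j))) := by
          rw [Finset.mul_sum]
          refine Finset.sum_congr rfl fun i _ => ?_
          rw [Finset.sum_comm, Finset.mul_sum]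
          refine Finset.sum_congr rfl fun k _ => ?_
          unfold cuI
          rw [Finset.mul_sum, Finset.mul_sum, Finset.sum_mul, Finset.sum_mul]
          refine Finset.sum_congr rfl fun j _ => ?_
          ring
        rw [e3]
        rfl
      · have hx : (y, v) ∉ dom Q := fun hx => hy hx.1
        rw [piecewise_eq_of_notMem _ _ _ hx]
        simp only [indicator_of_notMem hy]
        simp only [zero_mul, Finset.sum_const_zero, mul_zero, sub_self, abs_zero]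
        have : 0 ≤ |C| := abs_nonneg C
        positivity))
  have hlim : (64 * Real.pi ^ 2)⁻¹ * ∫ y in Q.B,
      ((∑ i, Q.B.indicator (fun y => (1 / 6 : ℝ) * cuI Q Pr i i y) y) +
        Q.B.indicator (fun y => (1 / 6 : ℝ) * ∑ i, cuI Q Pr i i y) y) ∂ν =
      (192 * Real.pi ^ 2)⁻¹ * cP Q ν Pr := by
    have e4 : ∫ y in Q.B,
      ((∑ i, Q.B.indicator (fun y => (1 / 6 : ℝ) * cuI Q Pr i i y) y) +
        Q.B.indicator (fun y => (1 / 6 : ℝ) * ∑ i, cuI Q Pr i i y) y) ∂ν =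
        ∫ y in Q.B, (1 / 3 : ℝ) * (∑ i, cuI Q Pr i i y) ∂ν := by
      refine setIntegral_congr_fun Q.B_meas fun y hy => ?_
      simp only [indicator_of_mem hy]
      rw [← Finset.mul_sum]
      ring
    rw [e4, integral_const_mul]
    unfold cP
    have hpi := Real.pi_pos
    field_simp
    ring
  rw [hlim] at h
  refine h.congr' ?_
  filter_upwards [self_mem_nhdsWithin, Ioo_mem_nhdsGT (zero_lt_one' ℝ)] with t ht ht1
  rw [mem_Ioi] at ht
  rw [← outer_piecewise (ν := ν) Q hχ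
    (f := fun x => hsI Q Pr N t x - trA Pr * scI Q N t x ^ 2) (c := 0) t]
  exact outer_sub (ν := ν) Q hχ (hmz t) (hms t)
    (fun x hx => (hC1 t ⟨ht.le, ht1.2.le⟩ x hx).1) (fun x hx => (hC1 t ⟨ht.le, ht1.2.le⟩ x hx).2)
    ht (trA Pr)

end single

end

end Vale.Agent.P211.HK.HSLim
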