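import Vale.Agent.P211.HK.LKDefs
import Vale.Agent.P211.HK.HSLim

/-! P211 / HK: LKJ, the limits of the Hilbert-Schmidt norms. helper501. -/

set_option maxSynthPendingDepth 3
set_option linter.unusedSectionVars false
set_option linter.unusedVariables false

namespace Vale.Agent.P211.HK

open scoped Manifold ContDiff Topology RealInnerProductSpace
open Bundle Filter VectorField MeasureTheory Set

noncomputable section

variable {E : Type} [NormedAddCommGroup E] [NormedSpace ℝ E] [FiniteDimensional ℝ E]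
  {M : Type} [MetricSpace M] [ChartedSpace E M] [IsManifold 𝓘(ℝ, E) ∞ M]
  [RiemannianBundle fun p : M => TangentSpace 𝓘(ℝ, E) p]
  [IsContMDiffRiemannianBundle 𝓘(ℝ, E) ∞ E fun p : M => TangentSpace 𝓘(ℝ, E) p]
  [MeasurableSpace M]
  {cov : CovariantDerivative 𝓘(ℝ, E) E (TangentSpace 𝓘(ℝ, E) : M → Type)}
  {om : Form4 E M} {μ : Measure M} {D : ℝ}

namespace LKJ

variable {W : Type} [NormedAddCommGroup W] [InnerProductSpace ℝ W] [FiniteDimensional ℝ W]

theorem ptc_co (P : Patch cov om μ D) {p : M} (hp : p ∈ P.dom) : ptc P.q₀ (P.co p) = p :=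
  (extChartAt 𝓘(ℝ, E) P.q₀).left_inv hp.1

theorem co_mem (P : Patch cov om μ D) {p : M} (hp : p ∈ P.dom) : P.co p ∈ P.O := hp.2

theorem co_cont (P : Patch cov om μ D) : ContinuousOn P.co P.dom :=
  (continuousOn_extChartAt P.q₀).mono inter_subset_left

/-- the curvature operators of the patch in a representation -/
theorem omg_eq (P : Patch cov om μ D) (R : Rep W) {p : M} (hp : p ∈ P.dom) (j i : Fin 4) :
    (P.rad R).Omg (P.co p) j i = R.d (Om cov p (fun m => P.F m p) j i) := by
  have hy := co_mem P hp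
  have h1 := P.curv (P.co p) hy j i
  have h2 : ∀ p' : M, p' = p → Om cov p' (fun m => P.F m p') j i =
      Om cov p (fun m => P.F m p) j i := by
    rintro p' rfl
    rfl
  rw [h2 _ (ptc_co P hp)] at h1
  have hd : DifferentiableAt ℝ (fun v => P.a (P.co p, v) i) (0 : Eu4) := by
    have h3 : ContDiffOn ℝ ∞ (fun x => P.a x i) (P.O ×ˢ Metric.ball (0 : Eu4) D) :=
      contDiffOn_pi.1 P.a_smooth i
    have h4 : (P.co p, (0 : Eu4)) ∈ P.O ×ˢ Metric.ball (0 : Eu4) D :=
      ⟨hy, Metric.mem_ball_self P.D_pos⟩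
    exact Tay.differentiableAt_slice (x := (P.co p, (0 : Eu4)))
      ((h3.contDiffAt ((P.O_open.prod Metric.isOpen_ball).mem_nhds h4)).differentiableAt (by simp))
  have h5 : HasFDerivAt (fun v => R.d (P.a (P.co p, v) i))
      ((fderiv ℝ R.ρ idM).comp (fderiv ℝ (fun v => P.a (P.co p, v) i) 0)) (0 : Eu4) :=
    (fderiv ℝ R.ρ idM).hasFDerivAt.comp (0 : Eu4) hd.hasFDerivAt
  unfold RadData.Omg
  change (2 : ℝ) • fderiv ℝ (fun v => R.d (P.a (P.co p, v) i)) 0 (ev4 j) = _
  rw [h5.fderiv, ContinuousLinearMap.comp_apply, ← map_smul, h1]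
  rfl

variable [CompactSpace M] [BorelSpace M] (A : MAtlas cov om μ D)

/-- the piece `a` of the atlas -/
def piece (R : Rep W) (a : Fin A.n) : HSLim.Piece E W (Y := M) D where
  U := (A.P a).O
  Q := (A.P a).rad R
  K := (A.P a).co '' closure (A.B a)
  B := A.B a
  κ := (A.P a).co
  K_comp := isClosed_closure.isCompact.image_of_continuousOn
    ((co_cont (A.P a)).mono (A.sub a))
  K_sub := by
    rintro _ ⟨p, hp, rfl⟩
    exact co_mem (A.P a) (A.sub a hp)
  B_meas := A.meas a
  κ_cont := (co_cont (A.P a)).mono (subset_closure.trans (A.sub a))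
  κ_mem := fun y hy => mem_image_of_mem _ (subset_closure hy)

theorem idx_eq {a : Fin A.n} {p : M} (hp : p ∈ A.B a) : A.idx p = a := by
  by_contra h
  exact (disjoint_left.1 (A.disj h) (A.mem_idx p)) hp

theorem fr_eq {a : Fin A.n} {p : M} (hp : p ∈ A.B a) : A.fr p = fun i => (A.P a).F i p := by
  unfold MAtlas.fr
  rw [idx_eq A hp]

theorem curvTr_eq (R : Rep W) (Pr : W →L[ℝ] W) {a : Fin A.n} {p : M} (hp : p ∈ A.B a) :
    curvTr cov R Pr p (A.fr p) = ∑ i, HSLim.cuI (piece A R a) Pr i i p := by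
  unfold curvTr HSLim.cuI
  rw [fr_eq A hp]
  refine Finset.sum_congr rfl fun k _ => Finset.sum_congr rfl fun l _ => ?_
  have h := omg_eq (A.P a) R (A.sub a (subset_closure hp)) k l
  change trW (Pr.comp ((R.d (Om cov p (fun i => (A.P a).F i p) k l)).comp
    (R.d (Om cov p (fun i => (A.P a).F i p) k l)))) = trW (Pr.comp
      ((((A.P a).rad R).Omg ((A.P a).co p) k l).comp (((A.P a).rad R).Omg ((A.P a).co p) k l)))
  rw [h]

end LKJ

open LKJ

variable [CompactSpace M] [BorelSpace M]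

/-- LKJ: the limits of the Hilbert-Schmidt norms. -/
theorem lkj (h2 : EU2Stmt) (h4 : EU4Stmt) (A : MAtlas cov om μ D) (χ : Eu4 → ℝ) (N : ℕ) :
    LKJStmt A χ N := by
  intro hG hfin hχ hN
  have hcut : HSLim.CutOK χ D :=
    ⟨hχ.smooth.continuous.measurable, hχ.abs_le, hχ.one, hχ.zero⟩
  have hsum : ∑ a, μ.real (A.B a) = μ.real univ := by
    rw [← A.cover, measureReal_iUnion_fintype A.disj A.meas]
  refine ⟨?_, fun W _ _ _ R Pr hPs hPi hPR => ?_⟩
  · have h : Tendsto (fun t => ∑ a, t ^ 2 * HSLim.sP (piece A Rep.triv a) μ χ N t) (𝓝[>] 0)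
        (𝓝 (∑ a, (64 * Real.pi ^ 2)⁻¹ * μ.real (A.B a))) :=
      tendsto_finsetSum _ fun a _ => HSLim.lim_s (piece A Rep.triv a) h2 h4 hN hcut
    rw [← Finset.mul_sum, hsum] at h
    refine h.congr fun t => ?_
    rw [← Finset.mul_sum]
    rfl
  · have hcomm : ∀ a : Fin A.n, ∀ x ∈ (A.P a).O ×ˢ Metric.ball (0 : Eu4) D, ∀ i,
        Pr.comp (((A.P a).rad R).B x i) = (((A.P a).rad R).B x i).comp Pr := by
      intro a x hx i
      ext w
      exact hPR.d ((A.P a).a_skew x hx i) w
    refine ⟨?_, ?_, ?_⟩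
    · choose C hC using fun a => HSLim.z_bound (ν := μ) (piece A R a) h2 hcut Pr N
      refine ⟨∑ a, C a, fun t ht => ?_⟩
      have h : t ^ 2 * A.yS R Pr χ N t = ∑ a, t ^ 2 * HSLim.zP (piece A R a) μ χ Pr N t := by
        rw [← Finset.mul_sum]
        rfl
      rw [h]
      exact Finset.sum_le_sum fun a _ => hC a t ht
    · have h1 : ∀ a, IntegrableOn (fun p => curvTr cov R Pr p (A.fr p)) (A.B a) μ := fun a => by
        have h3 : IntegrableOn (fun p => ∑ i, HSLim.cuI (piece A R a) Pr i i p) (A.B a) μ :=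
          integrable_finsetSum _ fun i _ => HSLim.cu_integrable (ν := μ) (piece A R a) Pr i i
        exact h3.congr_fun (fun p hp => (curvTr_eq A R Pr hp).symm) (A.meas a)
      have h2' : IntegrableOn (fun p => curvTr cov R Pr p (A.fr p)) (⋃ a, A.B a) μ :=
        integrableOn_finite_iUnion.2 h1
      rw [A.cover] at h2'
      exact integrableOn_univ.1 h2'
    · have h : Tendsto (fun t => ∑ a, (HSLim.zP (piece A R a) μ χ Pr N t -
          EU4e.trA Pr * HSLim.sP (piece A R a) μ χ N t)) (𝓝[>] 0)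
          (𝓝 (∑ a, (192 * Real.pi ^ 2)⁻¹ * HSLim.cP (piece A R a) μ Pr)) :=
        tendsto_finsetSum _ fun a _ => HSLim.lim_z (piece A R a) h2 h4 hN hcut hPs hPi (hcomm a)
      have e1 : ∑ a, (192 * Real.pi ^ 2)⁻¹ * HSLim.cP (piece A R a) μ Pr =
          (192 * Real.pi ^ 2)⁻¹ * ∫ p, curvTr cov R Pr p (A.fr p) ∂μ := by
        rw [← Finset.mul_sum]
        congr 1
        have h1 : ∀ a, IntegrableOn (fun p => curvTr cov R Pr p (A.fr p)) (A.B a) μ := fun a => by
          have h3 : IntegrableOn (fun p => ∑ i, HSLim.cuI (piece A R a) Pr i i p) (A.B a) μ :=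
            integrable_finsetSum _ fun i _ => HSLim.cu_integrable (ν := μ) (piece A R a) Pr i i
          exact h3.congr_fun (fun p hp => (curvTr_eq A R Pr hp).symm) (A.meas a)
        rw [← setIntegral_univ (f := fun p => curvTr cov R Pr p (A.fr p)), ← A.cover,
          integral_iUnion_fintype A.meas A.disj h1]
        refine Finset.sum_congr rfl fun a _ => ?_
        exact setIntegral_congr_fun (A.meas a) fun p hp => (curvTr_eq A R Pr hp).symm
      rw [e1] at h
      refine h.congr fun t => ?_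
      rw [Finset.sum_sub_distrib, ← Finset.mul_sum]
      rfl

end

end Vale.Agent.P211.HK
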