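import Vale.Agent.P211.HK.ANDefs

/-! P211 / HK / LK3: kernel data on a finite measure space (no manifold), helper249.

`KernelData μ`: a symmetric operator given on a space `S` of smooth sections through the
functions `ev s`, `Lf s : M → W` (components in a chosen measurable frame), kernels `z`, `e`, `lz` of
the parametrix, of its error and of `L` applied to it. File `KernelData.lean`: `KernelData.heat`
is a `HeatData (Lp W 2 μ)`. -/

namespace Vale.Agent.P211.HK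

open Filter Topology MeasureTheory Set
open scoped RealInnerProductSpace

noncomputable section

/-- Kernel data. -/
structure KernelData {M W S : Type} [MeasurableSpace M] [NormedAddCommGroup W]
    [InnerProductSpace ℝ W] [FiniteDimensional ℝ W] [AddCommGroup S] [Module ℝ S]
    (μ : Measure M) where
  /-- components of the section `s` in the chosen frame -/
  ev : S →ₗ[ℝ] (M → W)
  /-- components of `L s` in the chosen frame -/
  Lf : S →ₗ[ℝ] (M → W)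
  ev_meas : ∀ s, StronglyMeasurable (ev s)
  ev_bdd : ∀ s, ∃ C : ℝ, ∀ x, ‖ev s x‖ ≤ C
  Lf_meas : ∀ s, StronglyMeasurable (Lf s)
  Lf_bdd : ∀ s, ∃ C : ℝ, ∀ x, ‖Lf s x‖ ≤ C
  symm : ∀ s r, ∫ x, ⟪Lf s x, ev r x⟫ ∂μ = ∫ x, ⟪ev s x, Lf r x⟫ ∂μ
  lower : ∃ c : ℝ, ∀ s, -c * ∫ x, ‖ev s x‖ ^ 2 ∂μ ≤ ∫ x, ⟪Lf s x, ev s x⟫ ∂μ
  /-- the kernels: parametrix, error, `L` applied to the parametrix in the variable `x` -/
  z : ℝ → M → M → (W →L[ℝ] W)
  e : ℝ → M → M → (W →L[ℝ] W)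
  lz : ℝ → M → M → (W →L[ℝ] W)
  z_meas : ∀ t, 0 < t → StronglyMeasurable fun p : M × M => z t p.1 p.2
  e_meas : ∀ t, 0 ≤ t → StronglyMeasurable fun p : M × M => e t p.1 p.2
  lz_meas : ∀ t, 0 < t → StronglyMeasurable fun p : M × M => lz t p.1 p.2
  /-- local bounds on `(0, ∞)` -/
  bdd : ∀ a b : ℝ, 0 < a → ∃ C : ℝ, ∀ t ∈ Icc a b, ∀ x y,
    ‖z t x y‖ ≤ C ∧ ‖e t x y‖ ≤ C ∧ ‖lz t x y‖ ≤ C
  /-- the error is continuous on `[0, 1]` and `O(t)` -/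
  e_cont : ∀ x y, ContinuousOn (fun t => e t x y) (Icc 0 1)
  e_small : ∃ C : ℝ, ∀ t ∈ Icc (0 : ℝ) 1, ∀ x y, ‖e t x y‖ ≤ C * t
  /-- the heat equation, pointwise -/
  z_deriv : ∀ t, 0 < t → ∀ x y, HasDerivAt (fun s => z s x y) (e t x y - lz t x y) t
  /-- the operator with kernel `z t` maps into `S`, and `L` is applied under the integral -/
  z_mem : ∀ t, 0 < t → ∀ w : Lp W 2 μ, ∃ s : S,
    (∀ᵐ x ∂μ, ev s x = ∫ y, z t x y (w y) ∂μ) ∧ ∀ᵐ x ∂μ, Lf s x = ∫ y, lz t x y (w y) ∂μ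
  /-- Schur bounds with constants tending to one -/
  schur : ∀ δ : ℝ, 0 < δ → ∀ᶠ t in 𝓝[>] (0 : ℝ),
    (∀ y, ∫ x, ‖z t x y‖ ∂μ ≤ 1 + δ) ∧ ∀ x, ∫ y, ‖z t x y‖ ∂μ ≤ 1 + δ
  /-- test functions -/
  D : Set (M → W)
  D_meas : ∀ φ ∈ D, StronglyMeasurable φ
  D_bdd : ∀ φ ∈ D, ∃ C : ℝ, ∀ x, ‖φ x‖ ≤ C
  D_dense : (Submodule.span ℝ {f : Lp W 2 μ | ∃ φ ∈ D, f =ᵐ[μ] φ}).topologicalClosure = ⊤
  /-- the adjoint of `z t` converges to the identity on test functions, pointwise almost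
  everywhere -/
  lim : ∀ φ ∈ D, ∀ᵐ y ∂μ, Tendsto (fun t => ∫ x, (ContinuousLinearMap.adjoint (z t x y)) (φ x) ∂μ)
    (𝓝[>] 0) (𝓝 (φ y))

end

end Vale.Agent.P211.HK
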