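import Vale.Agent.P211.HK.Patch
import Vale.Agent.P211.HK.KernelDefs
import Vale.Agent.P211.HK.HKMain

/-! P211 / HK: FROZEN interface of the kernel part LK: finite atlas of patches, kernels on `M`,
statements of the blocks. deputy helper287. -/

set_option maxSynthPendingDepth 3
set_option linter.unusedSectionVars false
set_option linter.unusedVariables false

namespace Vale.Agent.P211.HK

open scoped Manifold ContDiff Topology RealInnerProductSpace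
open Bundle Filter VectorField MeasureTheory Set

noncomputable section

variable {E : Type} [NormedAddCommGroup E] [NormedSpace ℝ E] [FiniteDimensional ℝ E]
  {M : Type} [MetricSpace M] [ChartedSpace E M] [IsManifold 𝓘(ℝ, E) ∞ M]
  [RiemannianBundle fun p : M => TangentSpace 𝓘(ℝ, E) p]
  [IsContMDiffRiemannianBundle 𝓘(ℝ, E) ∞ E fun p : M => TangentSpace 𝓘(ℝ, E) p]

/-- a finite atlas of patches of the same radius, with a Borel partition -/
structure MAtlas [MeasurableSpace M]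
    (cov : CovariantDerivative 𝓘(ℝ, E) E (TangentSpace 𝓘(ℝ, E) : M → Type))
    (om : Form4 E M) (μ : Measure M) (D : ℝ) where
  n : ℕ
  P : Fin n → Patch cov om μ D
  B : Fin n → Set M
  meas : ∀ a, MeasurableSet (B a)
  disj : Pairwise fun a b => Disjoint (B a) (B b)
  cover : (⋃ a, B a) = univ
  sub : ∀ a, closure (B a) ⊆ (P a).dom

variable [MeasurableSpace M]
  {cov : CovariantDerivative 𝓘(ℝ, E) E (TangentSpace 𝓘(ℝ, E) : M → Type)}
  {om : Form4 E M} {μ : Measure M} {D : ℝ}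

namespace MAtlas

variable (A : MAtlas cov om μ D)

/-- the index of the piece containing `p` -/
def idx (p : M) : Fin A.n := Classical.choose (mem_iUnion.1 (A.cover.symm ▸ mem_univ p))

theorem mem_idx (p : M) : p ∈ A.B (A.idx p) :=
  Classical.choose_spec (mem_iUnion.1 (A.cover.symm ▸ mem_univ p))

/-- the chosen frames -/
def fr (p : M) : Fin 4 → TangentSpace 𝓘(ℝ, E) p := fun i => (A.P (A.idx p)).F i p

variable {W : Type} [NormedAddCommGroup W] [InnerProductSpace ℝ W] [FiniteDimensional ℝ W]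

/-- a global kernel from one-sided kernels on the pieces -/
def glue (k : Fin A.n → PreK E M W W) (x y : M) : W →L[ℝ] W := k (A.idx y) x (A.fr x) y

/-- parametrix -/
def z (R : Rep W) (χ : Eu4 → ℝ) (N : ℕ) (t : ℝ) : M → M → (W →L[ℝ] W) :=
  A.glue fun a => (A.P a).zK R χ N t

/-- error -/
def e (R : Rep W) (χ : Eu4 → ℝ) (N : ℕ) (t : ℝ) : M → M → (W →L[ℝ] W) :=
  A.glue fun a => (A.P a).eK R χ N t

/-- `H` applied to the parametrix -/
def lz (R : Rep W) (χ : Eu4 → ℝ) (N : ℕ) (t : ℝ) : M → M → (W →L[ℝ] W) :=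
  A.glue fun a => (A.P a).lzK R χ N t

/-- the scalar coefficient of the patch -/
def sX (N : ℕ) (a : Fin A.n) (t : ℝ) (y : M) (v : Eu4) : ℝ :=
  ((A.P a).rad Rep.triv).scal.XX N t ((A.P a).co y, v) 1

/-- the squared Hilbert-Schmidt norm of the scalar parametrix -/
def sS (χ : Eu4 → ℝ) (N : ℕ) (t : ℝ) : ℝ :=
  ∑ a, ∫ y in A.B a, (∫ v : Eu4, χ v ^ 2 * gau t v ^ 2 * A.sX N a t y v ^ 2) ∂μ

/-- the squared Hilbert-Schmidt norm of `Pr ∘ Z t` -/
def yS (R : Rep W) (Pr : W →L[ℝ] W) (χ : Eu4 → ℝ) (N : ℕ) (t : ℝ) : ℝ :=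
  ∑ a, ∫ y in A.B a, (∫ v : Eu4, χ v ^ 2 * gau t v ^ 2 *
    trW (Pr.comp ((((A.P a).rad R).XX N t ((A.P a).co y, v)).comp
      (ContinuousLinearMap.adjoint (((A.P a).rad R).XX N t ((A.P a).co y, v)))))) ∂μ

end MAtlas

/-! ### blocks on one patch (no compactness) -/

/-- LKP1 (PatchSec.lean): sections supported near a centre. -/
def LKP1Stmt (P : Patch cov om μ D) : Prop :=
  Geo4 cov om → ∀ (W : Type) [NormedAddCommGroup W] [InnerProductSpace ℝ W] [FiniteDimensional ℝ W]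
    (R : Rep W), ∀ y ∈ P.O, ∀ w : Eu4 → W, ContDiffOn ℝ ∞ w (Metric.ball 0 D) →
    (∀ v, D / 2 ≤ ‖v‖ → w v = 0) →
    P.locSec R y w ∈ Sec om R ∧
    (∀ v, ‖v‖ < D → P.locSec R y w (P.ex (y, v)) (P.pf y (P.ex (y, v))) = w v) ∧
    lapS cov om (P.locSec R y w) = P.locSec R y ((P.rad R).lapW y w)

/-- LKP2 (PatchK.lean): kernels from functions of the normal coordinates. -/
def LKP2Stmt (P : Patch cov om μ D) : Prop :=
  Geo4 cov om → ∀ (W : Type) [NormedAddCommGroup W] [InnerProductSpace ℝ W] [FiniteDimensional ℝ W]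
    (R : Rep W) (n : ℕ∞) (T : Set ℝ) (k : ℝ → E × Eu4 → W →L[ℝ] W), IsOpen T →
    ContDiffOn ℝ n (fun x : ℝ × E × Eu4 => k x.1 x.2) (T ×ˢ P.O ×ˢ Metric.ball 0 D) →
    (∀ t ∈ T, ∀ y ∈ P.O, ∀ v : Eu4, D / 2 ≤ ‖v‖ → k t (y, v) = 0) →
    SmK om R n T P.dom fun t => P.lift R (k t)

/-- LKP3 (PatchK.lean): `H` and time derivative of lifted kernels. -/
def LKP3Stmt (P : Patch cov om μ D) : Prop :=
  Geo4 cov om → ∀ (W : Type) [NormedAddCommGroup W] [InnerProductSpace ℝ W] [FiniteDimensional ℝ W]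
    (R : Rep W) (k : E × Eu4 → W →L[ℝ] W),
    ContDiffOn ℝ ∞ k (P.O ×ˢ Metric.ball 0 D) →
    (∀ y ∈ P.O, ∀ v : Eu4, D / 2 ≤ ‖v‖ → k (y, v) = 0) →
    ∀ q ∈ P.dom, ∀ x h, lapK cov om (P.lift R k) x h q =
      P.lift R (fun z => (P.rad R).lapE z.1 (fun v => k (z.1, v)) z.2) x h q

/-- LKP4 (PatchInt.lean): change of variables for lifted kernels. `q` is the source point. -/
def LKP4Stmt [BorelSpace M] (P : Patch cov om μ D) : Prop :=
  Geo4 cov om → ∀ q ∈ P.dom,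
    (∀ (G : Type) [NormedAddCommGroup G] [NormedSpace ℝ G] [FiniteDimensional ℝ G] (f : M → G),
      (∀ x, D ≤ dist q x → f x = 0) →
      ∫ x, f x ∂μ = ∫ v in Metric.ball (0 : Eu4) D, P.J (P.co q, v) • f (P.ex (P.co q, v))) ∧
    ∀ f : M → ENNReal, (∀ x, D ≤ dist q x → f x = 0) →
      ∫⁻ x, f x ∂μ = ∫⁻ v in Metric.ball (0 : Eu4) D,
        ENNReal.ofReal (P.J (P.co q, v)) * f (P.ex (P.co q, v))

/-! ### global blocks -/

section global

variable [CompactSpace M] [BorelSpace M]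
variable (cov om μ)

/-- LKA (Atlas.lean): existence of the atlas, from `PatchStmt`; `y₀` may be prescribed to be an
interior point of a piece. -/
def LKAStmt [IsRiemannianManifold 𝓘(ℝ, E) M] [ConnectedSpace M] : Prop :=
  Geo4 cov om → PatchStmt cov om μ → ∀ y₀ : M, ∃ (D : ℝ) (A : MAtlas cov om μ D),
    0 < D ∧ ∃ a, A.B a ∈ 𝓝 y₀

/-- LKD (Dense.lean): classes of smooth sections are dense. -/
def LKDStmt : Prop :=
  Geo4 cov om → IsFiniteMeasure μ → ∀ (W : Type) [NormedAddCommGroup W] [InnerProductSpace ℝ W]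
    [FiniteDimensional ℝ W] (R : Rep W) (fr : (p : M) → Fin 4 → TangentSpace 𝓘(ℝ, E) p),
    Nonempty (FrSel om fr) →
    (Submodule.span ℝ {f : Lp W 2 μ | ∃ u ∈ Sec (E := E) om R, f =ᵐ[μ] fun p => u p (fr p)}
      ).topologicalClosure = ⊤

variable {cov om μ} (A : MAtlas cov om μ D) (χ : Eu4 → ℝ) (N : ℕ)

/-- LKE (Glue.lean): measurability, bounds, heat equation of the global kernels. -/
def LKEStmt : Prop :=
  Geo4 cov om → IsFiniteMeasure μ → EU5.Cut D χ → 5 ≤ N →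
  Nonempty (FrSel om A.fr) ∧
  ∀ (W : Type) [NormedAddCommGroup W] [InnerProductSpace ℝ W] [FiniteDimensional ℝ W] (R : Rep W),
    (∀ t, 0 < t → StronglyMeasurable fun p : M × M => A.z R χ N t p.1 p.2) ∧
    (∀ t, 0 ≤ t → StronglyMeasurable fun p : M × M => A.e R χ N t p.1 p.2) ∧
    (∀ t, 0 < t → StronglyMeasurable fun p : M × M => A.lz R χ N t p.1 p.2) ∧
    (∀ a b : ℝ, 0 < a → ∃ C : ℝ, ∀ t ∈ Icc a b, ∀ x y,
      ‖A.z R χ N t x y‖ ≤ C ∧ ‖A.e R χ N t x y‖ ≤ C ∧ ‖A.lz R χ N t x y‖ ≤ C) ∧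
    (∀ x y, ContinuousOn (fun t => A.e R χ N t x y) (Icc 0 1)) ∧
    (∃ C : ℝ, ∀ t ∈ Icc (0 : ℝ) 1, ∀ x y, ‖A.e R χ N t x y‖ ≤ C * t) ∧
    ∀ t, 0 < t → ∀ x y, HasDerivAt (fun s => A.z R χ N s x y)
      (A.e R χ N t x y - A.lz R χ N t x y) t

/-- LKF (Mem.lean): `Z t` maps into smooth sections, `H` is applied under the integral. -/
def LKFStmt : Prop :=
  Geo4 cov om → IsFiniteMeasure μ → EU5.Cut D χ →
  ∀ (W : Type) [NormedAddCommGroup W] [InnerProductSpace ℝ W] [FiniteDimensional ℝ W] (R : Rep W)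
    (t : ℝ), 0 < t → ∀ w : M → W, Integrable w μ → ∃ u ∈ Sec (E := E) om R,
      (∀ x, u x (A.fr x) = ∫ y, A.z R χ N t x y (w y) ∂μ) ∧
      ∀ x, lapS cov om u x (A.fr x) = ∫ y, A.lz R χ N t x y (w y) ∂μ

/-- LKG (Schur.lean): Schur bounds. -/
def LKGStmt : Prop :=
  Geo4 cov om → IsFiniteMeasure μ → EU5.Cut D χ →
  ∀ (W : Type) [NormedAddCommGroup W] [InnerProductSpace ℝ W] [FiniteDimensional ℝ W] (R : Rep W)
    (δ : ℝ), 0 < δ → ∀ᶠ t in 𝓝[>] (0 : ℝ),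
      (∀ y, ∫ x, ‖A.z R χ N t x y‖ ∂μ ≤ 1 + δ) ∧ ∀ x, ∫ y, ‖A.z R χ N t x y‖ ∂μ ≤ 1 + δ

/-- LKH (AdjLim.lean): the adjoint converges to the identity on smooth sections. -/
def LKHStmt : Prop :=
  Geo4 cov om → IsFiniteMeasure μ → EU5.Cut D χ →
  ∀ (W : Type) [NormedAddCommGroup W] [InnerProductSpace ℝ W] [FiniteDimensional ℝ W] (R : Rep W),
    ∀ u ∈ Sec (E := E) om R, ∀ y, Tendsto
      (fun t => ∫ x, (ContinuousLinearMap.adjoint (A.z R χ N t x y)) (u x (A.fr x)) ∂μ)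
      (𝓝[>] 0) (𝓝 (u y (A.fr y)))

/-- LKI (HSForm.lean): the Hilbert-Schmidt norm of the kernel of `Pr ∘ Z t`. -/
def LKIStmt : Prop :=
  Geo4 cov om → IsFiniteMeasure μ → EU5.Cut D χ →
  ∀ (W : Type) [NormedAddCommGroup W] [InnerProductSpace ℝ W] [FiniteDimensional ℝ W] (R : Rep W)
    (Pr : W →L[ℝ] W), (∀ a b, ⟪Pr a, b⟫ = ⟪a, Pr b⟫) → Pr.comp Pr = Pr → Intertwines R R Pr →
    ∀ t, 0 < t → 0 ≤ A.yS R Pr χ N t ∧
      (∫⁻ y, ∫⁻ x, ENNReal.ofReal (trW ((Pr.comp (A.z R χ N t x y)).comp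
        (ContinuousLinearMap.adjoint (Pr.comp (A.z R χ N t x y))))) ∂μ ∂μ) =
        ENNReal.ofReal (A.yS R Pr χ N t)

/-- LKJ (Lim.lean): the limits. -/
def LKJStmt : Prop :=
  Geo4 cov om → IsFiniteMeasure μ → EU5.Cut D χ → 2 ≤ N →
  Tendsto (fun t => t ^ 2 * A.sS χ N t) (𝓝[>] 0) (𝓝 ((64 * Real.pi ^ 2)⁻¹ * μ.real univ)) ∧
  ∀ (W : Type) [NormedAddCommGroup W] [InnerProductSpace ℝ W] [FiniteDimensional ℝ W] (R : Rep W)
    (Pr : W →L[ℝ] W), (∀ a b, ⟪Pr a, b⟫ = ⟪a, Pr b⟫) → Pr.comp Pr = Pr → Intertwines R R Pr →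
    (∃ C : ℝ, ∀ t ∈ Ioo (0 : ℝ) 1, t ^ 2 * A.yS R Pr χ N t ≤ C) ∧
    Integrable (fun p => curvTr cov R Pr p (A.fr p)) μ ∧
    Tendsto (fun t => A.yS R Pr χ N t - trW Pr * A.sS χ N t) (𝓝[>] 0)
      (𝓝 ((192 * Real.pi ^ 2)⁻¹ * ∫ p, curvTr cov R Pr p (A.fr p) ∂μ))

variable (cov om μ) in
/-- the divergence theorem -/
def DivThm : Prop := ∀ (X : VF E M) (d : M → ℝ), (∀ p f, PON om p f →
  d p = ∑ i, inner ℝ (cov X p (f i)) (f i)) → ∫ p, d p ∂μ = 0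

/-- LKK (KData.lean): the kernel data of a representation. -/
def LKKStmt : Prop :=
  Geo4 cov om → IsFiniteMeasure μ → μ.IsOpenPosMeasure → DivThm cov om μ → EU5.Cut D χ → 5 ≤ N →
  ∀ (W : Type) [NormedAddCommGroup W] [InnerProductSpace ℝ W] [FiniteDimensional ℝ W] (R : Rep W),
    ∃ K : KernelData (M := M) (W := W) (S := Sec (E := E) om R) μ,
      (∀ s p, K.ev s p = s.1 p (A.fr p)) ∧ (∀ s p, K.Lf s p = lapS cov om s.1 p (A.fr p)) ∧
      K.z = A.z R χ N ∧ K.e = A.e R χ N ∧ K.lz = A.lz R χ N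

variable (cov om μ) in
/-- REG (Reg.lean): weak eigenvectors of `H` are smooth sections. `fr` is any frame selection. -/
def REGStmt [IsRiemannianManifold 𝓘(ℝ, E) M] [ConnectedSpace M] : Prop :=
  Geo4 cov om → PatchStmt cov om μ → IsFiniteMeasure μ → μ.IsOpenPosMeasure → DivThm cov om μ →
  ∀ (W : Type) [NormedAddCommGroup W] [InnerProductSpace ℝ W] [FiniteDimensional ℝ W] (R : Rep W)
    (fr : (p : M) → Fin 4 → TangentSpace 𝓘(ℝ, E) p), Nonempty (FrSel om fr) →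
    ∀ (b : Lp W 2 μ) (l : ℝ),
      (∀ u ∈ Sec (E := E) om R, ∫ x, ⟪b x, lapS cov om u x (fr x)⟫ ∂μ =
        l * ∫ x, ⟪b x, u x (fr x)⟫ ∂μ) →
      ∃ u ∈ Sec (E := E) om R, b =ᵐ[μ] fun x => u x (fr x)

end global

end

end Vale.Agent.P211.HK
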