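import Vale.Agent.P211.HK.LKDefs
import Vale.Agent.P211.HK.PatchZ

/-! P211 / HK: LKP2 (lifted kernels), LKG (Schur bounds), LKH (limit of the adjoint). helper251. -/

set_option maxSynthPendingDepth 3
set_option linter.unusedSectionVars false

namespace Vale.Agent.P211.HK

open scoped Manifold ContDiff Topology RealInnerProductSpace
open Bundle Filter VectorField MeasureTheory Set

noncomputable section

variable {E : Type} [NormedAddCommGroup E] [NormedSpace ℝ E] [FiniteDimensional ℝ E]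
  {M : Type} [MetricSpace M] [ChartedSpace E M] [IsManifold 𝓘(ℝ, E) ∞ M]
  [RiemannianBundle fun p : M => TangentSpace 𝓘(ℝ, E) p]
  [IsContMDiffRiemannianBundle 𝓘(ℝ, E) ∞ E fun p : M => TangentSpace 𝓘(ℝ, E) p]
  [MeasurableSpace M]
  {cov : CovariantDerivative 𝓘(ℝ, E) E (TangentSpace 𝓘(ℝ, E) : M → Type)}
  {om : Form4 E M} {μ : Measure M} {D : ℝ}

theorem lkp2 (P : Patch cov om μ D) : LKP2Stmt P := by
  intro hG W _ _ _ R n T k hT hk hk0
  exact P.smK_lift hG hT hk fun t ht y hy v hv _ => hk0 t ht y hy v hv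

namespace SchurP

variable (A : MAtlas cov om μ D)

theorem mem_dom (p : M) : p ∈ (A.P (A.idx p)).dom := A.sub _ (subset_closure (A.mem_idx p))

theorem pon_fr (p : M) : PON om p (A.fr p) := by
  have h1 := mem_dom A p
  have h2 := (A.P (A.idx p)).F_pon _ ((A.P (A.idx p)).co_mem h1)
  rw [(A.P (A.idx p)).ptc_co h1] at h2
  exact h2.pon

end SchurP

section global

variable [CompactSpace M] [BorelSpace M] (A : MAtlas cov om μ D) (χ : Eu4 → ℝ) (N : ℕ)

theorem lkg : LKGStmt A χ N := by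
  intro hG hμ hχ W _ _ _ R δ hδ
  have hK : ∀ a, IsCompact (closure (A.B a)) := fun a => isClosed_closure.isCompact
  choose C hC0 hC using fun a => (A.P a).exists_zK_le hG (R := R) hχ N (hK a) (A.sub a)
  have hS0 : 0 ≤ ∑ a, C a := Finset.sum_nonneg fun a _ => hC0 a
  choose C' hC0' hC' using fun a => (A.P a).exists_integral_bd_le (hK a) (A.sub a) hS0
  have hS0' : 0 ≤ ∑ a, C' a := Finset.sum_nonneg fun a _ => hC0' a
  have hlim : Tendsto (fun t : ℝ => (∑ a, C' a) * (t + cG * Real.sqrt t)) (𝓝[>] 0) (𝓝 0) := by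
    have hc : Continuous (fun t : ℝ => (∑ a, C' a) * (t + cG * Real.sqrt t)) := by fun_prop
    have h := hc.tendsto 0
    simp only [Real.sqrt_zero, mul_zero, add_zero] at h
    exact h.mono_left nhdsWithin_le_nhds
  have h1 : ∀ᶠ t : ℝ in 𝓝[>] 0, t ∈ Ioc (0 : ℝ) 1 := Ioc_mem_nhdsGT one_pos
  filter_upwards [h1, hlim.eventually (gt_mem_nhds hδ)] with t ht htδ
  have key : ∀ q : M, Integrable (fun p => bd D (∑ a, C a) t (dist q p)) μ ∧
      ∫ p, bd D (∑ a, C a) t (dist q p) ∂μ ≤ 1 + δ := by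
    intro q
    obtain ⟨k1, k2⟩ := hC' (A.idx q) t ht q (subset_closure (A.mem_idx q))
    refine ⟨k1, k2.trans ?_⟩
    have h2 : C' (A.idx q) ≤ ∑ a, C' a :=
      Finset.single_le_sum (fun a _ => hC0' a) (Finset.mem_univ _)
    have h3 : 0 ≤ t + cG * Real.sqrt t := by
      have := cG_pos
      have := ht.1
      positivity
    nlinarith [mul_le_mul_of_nonneg_right h2 h3]
  have hle : ∀ x y, ‖A.z R χ N t x y‖ ≤ bd D (∑ a, C a) t (dist y x) := by
    intro x y
    refine (hC (A.idx y) t ⟨ht.1.le, ht.2⟩ y (subset_closure (A.mem_idx y)) x (A.fr x)).trans ?_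
    exact bd_mono (Finset.single_le_sum (fun a _ => hC0 a) (Finset.mem_univ _)) ht.1.le
      dist_nonneg
  refine ⟨fun y => ?_, fun x => ?_⟩
  · exact (integral_mono_of_nonneg (Eventually.of_forall fun x => norm_nonneg _) (key y).1
      (Eventually.of_forall fun x => hle x y)).trans (key y).2
  · refine (integral_mono_of_nonneg (Eventually.of_forall fun y => norm_nonneg _) (key x).1
      (Eventually.of_forall fun y => ?_)).trans (key x).2
    have := hle x y
    rwa [dist_comm] at this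

theorem lkh : LKHStmt A χ N := by
  intro hG hμ hχ W _ _ _ R u hu y
  rw [Metric.tendsto_nhdsWithin_nhds]
  intro ε hε
  obtain ⟨t₀, ht₀, h⟩ := (A.P (A.idx y)).adj_lim hG hχ N (K := {y}) isCompact_singleton
    (singleton_subset_iff.2 (SchurP.mem_dom A y)) hu (fr := A.fr) (SchurP.pon_fr A) (ε / 2)
    (half_pos hε)
  refine ⟨t₀, ht₀, fun {t} ht htd => ?_⟩
  have ht' : 0 < t := ht
  have h1 := h t ht' (by rwa [Real.dist_eq, sub_zero, abs_of_pos ht'] at htd) y (mem_singleton y)
  rw [dist_eq_norm]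
  exact lt_of_le_of_lt h1 (half_lt_self hε)

end global

end

end Vale.Agent.P211.HK
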