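import Vale.Agent.P211.HK.PatchSec
import Vale.Agent.P211.HK.PatchZ
import Vale.Agent.P211.HK.Schur
import Vale.Agent.P211.HK.LK2
import Vale.Agent.P211.HK.KSec
import Vale.Agent.P211.HK.LKDefs

/-! P211 / HK (helper249): LKP3 (`H` of a lifted kernel) and LKF (`Z t` maps into smooth
sections). -/

set_option maxSynthPendingDepth 3
set_option linter.unusedSectionVars false

namespace Vale.Agent.P211.HK

open scoped Manifold ContDiff Topology RealInnerProductSpace
open Bundle Filter VectorField MeasureTheory Set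

noncomputable section

namespace MEM

section rad

variable {P W : Type} [NormedAddCommGroup P] [NormedSpace ℝ P] [NormedAddCommGroup W]
    [InnerProductSpace ℝ W] {U : Set P} {D : ℝ} (Q : RadData P W U D)

theorem fderiv_apply {f : Eu4 → W →L[ℝ] W} {v : Eu4} (hf : DifferentiableAt ℝ f v) (w : W)
    (h : Eu4) : fderiv ℝ (fun v' => f v' w) v h = fderiv ℝ f v h w := by
  have h1 : HasFDerivAt (fun v' => f v' w)
      ((ContinuousLinearMap.apply ℝ W w).comp (fderiv ℝ f v)) v :=
    (ContinuousLinearMap.apply ℝ W w).hasFDerivAt.comp v hf.hasFDerivAt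
  rw [h1.fderiv]; rfl

theorem dE_apply (y : P) {f : Eu4 → W →L[ℝ] W} {v : Eu4} (hf : DifferentiableAt ℝ f v) (w : W)
    (i : Fin 4) : Q.dE y f i v w = Q.dW y (fun v' => f v' w) i v := by
  unfold RadData.dE RadData.dW
  rw [fderiv_apply hf]
  rfl

theorem slice {G : Type*} [NormedAddCommGroup G] [NormedSpace ℝ G] {g : P × Eu4 → G}
    (hU : IsOpen U) (hg : ContDiffOn ℝ ∞ g (U ×ˢ Metric.ball 0 D)) {y : P} (hy : y ∈ U) {v : Eu4}
    (hv : v ∈ Metric.ball (0 : Eu4) D) : ContDiffAt ℝ ∞ (fun v' => g (y, v')) v := by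
  have h1 : ContDiffAt ℝ ∞ g (y, v) :=
    hg.contDiffAt ((hU.prod Metric.isOpen_ball).mem_nhds ⟨hy, hv⟩)
  exact h1.comp v (contDiffAt_const.prodMk contDiffAt_id)

theorem lapE_apply {y : P} (hy : y ∈ U) {f : Eu4 → W →L[ℝ] W} {v : Eu4}
    (hv : v ∈ Metric.ball (0 : Eu4) D) (hf : ContDiffAt ℝ ∞ f v) (w : W) :
    Q.lapE y f v w = Q.lapW y (fun v' => f v' w) v := by
  have hne : ∀ᶠ v' in 𝓝 v, DifferentiableAt ℝ f v' := by
    have h1 : ContDiffAt ℝ 1 f v := hf.of_le (by exact_mod_cast le_top)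
    filter_upwards [h1.eventually (by simp)] with v' hv'
    exact hv'.differentiableAt (by simp)
  have hdE : ∀ j, ContDiffAt ℝ 1 (fun v' => Q.dE y f j v') v := by
    intro j
    unfold RadData.dE
    have h1 : ContDiffAt ℝ 1 (fun v' => fderiv ℝ f v' (ev4 j)) v :=
      (hf.fderiv_right (m := 1) (by norm_cast)).clm_apply contDiffAt_const
    have h2 : ContDiffAt ℝ 1 (fun v' => Q.B (y, v') j) v := by
      have := slice Q.U_open Q.B_smooth hy hv
      exact (contDiffAt_pi.1 this j).of_le (by exact_mod_cast le_top)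
    exact h1.add (h2.clm_comp (hf.of_le (by exact_mod_cast le_top)))
  have hJ : ContDiffAt ℝ 1 (fun v' => Q.J (y, v')) v :=
    (slice Q.U_open Q.J_smooth hy hv).of_le (by exact_mod_cast le_top)
  have hgi : ∀ i j, ContDiffAt ℝ 1 (fun v' => Q.gi (y, v') i j) v := fun i j =>
    (contDiffAt_pi.1 (contDiffAt_pi.1 (slice Q.U_open Q.gi_smooth hy hv) i) j).of_le
      (by exact_mod_cast le_top)
  have hfl : ∀ i, DifferentiableAt ℝ
      (fun v' => ∑ j, (Q.J (y, v') * Q.gi (y, v') i j) • Q.dE y f j v') v := by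
    intro i
    refine DifferentiableAt.fun_sum fun j _ => ?_
    exact ((hJ.mul (hgi i j)).smul (hdE j)).differentiableAt (by simp)
  unfold RadData.lapE RadData.lapW
  rw [smul_apply, sum_apply]
  congr 1
  refine Finset.sum_congr rfl fun i _ => ?_
  rw [dE_apply Q y (hfl i)]
  refine PatchSec.dW_congr Q y ?_ i
  filter_upwards [hne] with v' hv'
  rw [sum_apply]
  refine Finset.sum_congr rfl fun j _ => ?_
  rw [smul_apply, dE_apply Q y hv']

end rad

end MEM

variable {E : Type} [NormedAddCommGroup E] [NormedSpace ℝ E] [FiniteDimensional ℝ E]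
  {M : Type} [MetricSpace M] [ChartedSpace E M] [IsManifold 𝓘(ℝ, E) ∞ M]
  [RiemannianBundle fun p : M => TangentSpace 𝓘(ℝ, E) p]
  [IsContMDiffRiemannianBundle 𝓘(ℝ, E) ∞ E fun p : M => TangentSpace 𝓘(ℝ, E) p]
  [MeasurableSpace M]
  {cov : CovariantDerivative 𝓘(ℝ, E) E (TangentSpace 𝓘(ℝ, E) : M → Type)}
  {om : Form4 E M} {μ : Measure M} {D : ℝ}

/-- LKP3: `H` of a lifted kernel. -/
theorem lkp3 (P : Patch cov om μ D) : LKP3Stmt P := by
  intro hG W _ _ _ R k hk hk0 q hq x h
  have hy := P.co_mem hq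
  have hSm : SmK om R ∞ univ P.dom (fun _ : ℝ => P.lift R k) := by
    refine lkp2 P hG W R ⊤ univ (fun _ => k) isOpen_univ ?_ (fun t _ => hk0)
    exact hk.comp contDiff_snd.contDiffOn fun z hz => hz.2
  have h2 := ((lk2b cov om hG W W R R.tn R.tens_tn univ P.dom _ isOpen_univ P.isOpen_dom hSm).2.2).2
    0 (mem_univ _) q hq x h
  have hkv : ∀ v ∈ Metric.ball (0 : Eu4) D, ContDiffAt ℝ ∞ (fun v' => k (P.co q, v')) v :=
    fun v hv => MEM.slice P.O_open hk hy hv
  ext w
  rw [h2 w]
  have e1 : (fun p' f' => P.lift R k p' f' q w) =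
      P.locSec R (P.co q) (fun v => k (P.co q, v) w) := by
    funext p' f'
    exact P.lift_apply k hq w
  rw [e1, P.lapS_locSec hG R hy (r := D / 2) ?_ (by linarith [P.D_pos]) ?_, P.lift_apply _ hq]
  · by_cases hx : PON om x h ∧ dist q x < D
    · have hx2 : dist (ptc P.q₀ (P.co q)) x < D := by rw [P.ptc_co hq]; exact hx.2
      rw [P.locSec_of_pon hx2 hx.1, P.locSec_of_pon hx2 hx.1]
      congr 1
      have hlg : P.lg (P.co q) x ∈ Metric.ball (0 : Eu4) D := by
        rw [mem_ball_zero_iff, P.norm_lg hq hx.2]; exact hx.2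
      exact (MEM.lapE_apply (P.rad R) hy hlg (hkv _ hlg) w).symm
    · rw [not_and_or] at hx
      rcases hx with hx | hx
      · rw [P.locSec_not_pon hx, P.locSec_not_pon hx]
      · have hx2 : ¬ dist (ptc P.q₀ (P.co q)) x < D := by rw [P.ptc_co hq]; exact hx
        rw [P.locSec_far hx2, P.locSec_far hx2]
  · intro v hv
    exact ((hkv v hv).clm_apply contDiffAt_const).contDiffWithinAt
  · intro v hv
    rw [hk0 _ hy v hv]; rfl

variable [CompactSpace M] [BorelSpace M]

/-- LKF: `Z t` maps into smooth sections and `H` is applied under the integral sign. -/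
theorem lkf (A : MAtlas cov om μ D) (χ : Eu4 → ℝ) (N : ℕ) : LKFStmt A χ N := by
  intro hG hμ hχ W _ _ _ R t ht w hw
  have hdom : ∀ a, ∀ y ∈ A.B a, y ∈ (A.P a).dom := fun a y hy => A.sub a (subset_closure hy)
  have hz : ∀ a, SmK om R ∞ (Ioi 0) (A.P a).dom ((A.P a).zK R χ N) := fun a =>
    (A.P a).smK_zK hG hχ N
  have hidx : ∀ a, ∀ y ∈ A.B a, A.idx y = a := by
    intro a y hy
    by_contra h
    exact (Set.disjoint_left.1 (A.disj h) (A.mem_idx y)) hy
  -- the sections on the pieces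
  set u : Fin A.n → PreS E M W := fun a => appK μ (A.B a) ((A.P a).zK R χ N t) w with hu
  have hsec : ∀ a, u a ∈ Sec om R := fun a =>
    ((lk2a cov om μ) hG hμ W W R ⊤ (Ioi 0) (A.P a).dom (A.B a) ((A.P a).zK R χ N) isOpen_Ioi
      (A.P a).isOpen_dom (A.meas a) (A.sub a) (hz a) w hw.integrableOn).1 t ht
  have hlap : ∀ a, lapS cov om (u a) = appK μ (A.B a) ((A.P a).lzK R χ N t) w := by
    intro a
    have h1 := ((lk2c cov om μ) hG hμ W W R R.tn R.tens_tn (Ioi 0) (A.P a).dom (A.B a)
      ((A.P a).zK R χ N) isOpen_Ioi (A.P a).isOpen_dom (A.meas a) (A.sub a) (hz a) w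
      hw.integrableOn t ht).2.1
    rw [h1]
    funext p f
    unfold appK
    refine setIntegral_congr_fun (A.meas a) fun q hq => ?_
    have hk : ContDiffOn ℝ ∞ (fun z : E × Eu4 => χ z.2 • ((A.P a).rad R).par N t z)
        ((A.P a).O ×ˢ Metric.ball 0 D) := by
      have h2 := (A.P a).contDiffOn_chi_par R hχ N
      exact h2.comp (contDiff_const.prodMk contDiff_id).contDiffOn fun z hz => ⟨ht, hz⟩
    have h3 := lkp3 (A.P a) hG W R _ hk (fun y _ v hv => by
      simp only [hχ.zero v hv, zero_smul]) q (hdom a q hq) p f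
    exact congrArg (fun T : W →L[ℝ] W => T (w q)) h3
  -- integrals over `M` split
  have key : ∀ (k : Fin A.n → ℝ → PreK E M W W),
      (∀ a, SmK om R ∞ (Ioi 0) (A.P a).dom (k a)) → ∀ x f,
      ∫ y, k (A.idx y) t x f y (w y) ∂μ = ∑ a, appK μ (A.B a) (k a t) w x f := by
    intro k hk x f
    have h1 : ∀ a, IntegrableOn (fun y => k a t x f y (w y)) (A.B a) μ := fun a =>
      LK2.integrableOn_app sc0 hG (hk a) (A.P a).isOpen_dom (A.meas a) (A.sub a)
        hw.integrableOn ht x f
    have h2 : ∀ a, EqOn (fun y => k (A.idx y) t x f y (w y)) (fun y => k a t x f y (w y))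
        (A.B a) := by
      intro a y hy
      simp only [hidx a y hy]
    have h3 : ∀ a, IntegrableOn (fun y => k (A.idx y) t x f y (w y)) (A.B a) μ := fun a =>
      (h1 a).congr_fun (h2 a).symm (A.meas a)
    rw [← setIntegral_univ, ← A.cover, integral_iUnion_fintype A.meas A.disj h3]
    refine Finset.sum_congr rfl fun a _ => ?_
    exact setIntegral_congr_fun (A.meas a) (h2 a)
  have hmem : (∑ a, u a) ∈ Sec om R := Submodule.sum_mem _ fun a _ => hsec a
  have hlapsum : ∀ s : Finset (Fin A.n),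
      lapS cov om (∑ a ∈ s, u a) = ∑ a ∈ s, lapS cov om (u a) := by
    classical
    intro s
    induction s using Finset.induction_on with
    | empty =>
      rw [Finset.sum_empty, Finset.sum_empty]
      have h0 := KSec.lapS_smul (cov := cov) hG (0 : ℝ) (Submodule.zero_mem (Sec (E := E) om R))
      rw [zero_smul, zero_smul] at h0
      exact h0
    | insert a s ha ih =>
      rw [Finset.sum_insert ha, Finset.sum_insert ha,
        KSec.lapS_add hG (hsec a) (Submodule.sum_mem _ fun b _ => hsec b), ih]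
  refine ⟨∑ a, u a, hmem, fun x => ?_, fun x => ?_⟩
  · have h1 := key (fun a => (A.P a).zK R χ N) hz x (A.fr x)
    rw [Finset.sum_apply, Finset.sum_apply]
    exact h1.symm
  · have h1 := key (fun a => (A.P a).lzK R χ N) (fun a => (A.P a).smK_lzK hG hχ N) x (A.fr x)
    rw [hlapsum, Finset.sum_apply, Finset.sum_apply]
    simp only [hlap]
    exact h1.symm

end

end Vale.Agent.P211.HK
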