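import Vale.Agent.P211.HK.Reps

/-! P211 / HK / SC7(a): the representation of the Lie algebra (helper884). -/

set_option maxSynthPendingDepth 3
set_option linter.unusedSectionVars false

namespace Vale.Agent.P211.HK

open scoped ContDiff RealInnerProductSpace Topology

noncomputable section

variable {W W' : Type} [NormedAddCommGroup W] [InnerProductSpace ℝ W]
  [NormedAddCommGroup W'] [InnerProductSpace ℝ W']

/-! ### paths in `SO(4)` -/

theorem mulM_add (g h k : Mat4) : mulM g (h + k) = mulM g h + mulM g k := by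
  funext i j; simp [mulM, mul_add, Finset.sum_add_distrib]

theorem add_mulM (g h k : Mat4) : mulM (g + h) k = mulM g k + mulM h k := by
  funext i j; simp [mulM, add_mul, Finset.sum_add_distrib]

theorem mulM_smul (c : ℝ) (g h : Mat4) : mulM g (c • h) = c • mulM g h := by
  funext i j
  simp only [mulM, Pi.smul_apply, smul_eq_mul, Finset.mul_sum]
  exact Finset.sum_congr rfl fun _ _ => by ring

theorem smul_mulM (c : ℝ) (g h : Mat4) : mulM (c • g) h = c • mulM g h := by
  funext i j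
  simp only [mulM, Pi.smul_apply, smul_eq_mul, Finset.mul_sum]
  exact Finset.sum_congr rfl fun _ _ => by ring

theorem neg_mulM (g h : Mat4) : mulM (-g) h = - mulM g h := by
  funext i j; simp [mulM, Finset.sum_neg_distrib]

theorem mulM_neg (g h : Mat4) : mulM g (-h) = - mulM g h := by
  funext i j; simp [mulM, Finset.sum_neg_distrib]

theorem hasDerivAt_entry {g : ℝ → Mat4} {A : Mat4} {t : ℝ} (h : HasDerivAt g A t) (i j : Fin 4) :
    HasDerivAt (fun s => g s i j) (A i j) t :=
  hasDerivAt_pi.1 (hasDerivAt_pi.1 h i) j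

theorem hasDerivAt_mat {g : ℝ → Mat4} {A : Mat4} {t : ℝ}
    (h : ∀ i j, HasDerivAt (fun s => g s i j) (A i j) t) : HasDerivAt g A t :=
  hasDerivAt_pi.2 fun i => hasDerivAt_pi.2 fun j => h i j

theorem hasDerivAt_mulM {g h : ℝ → Mat4} {A B : Mat4} {t : ℝ} (hg : HasDerivAt g A t)
    (hh : HasDerivAt h B t) :
    HasDerivAt (fun s => mulM (g s) (h s)) (mulM A (h t) + mulM (g t) B) t := by
  refine hasDerivAt_mat fun i j => ?_
  have : (mulM A (h t) + mulM (g t) B) i j = ∑ k, (A i k * h t k j + g t i k * B k j) := by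
    simp [mulM, Finset.sum_add_distrib]
  rw [this]
  exact HasDerivAt.fun_sum fun k _ => (hasDerivAt_entry hg i k).mul (hasDerivAt_entry hh k j)

theorem hasDerivAt_trM {g : ℝ → Mat4} {A : Mat4} {t : ℝ} (hg : HasDerivAt g A t) :
    HasDerivAt (fun s => trM (g s)) (trM A) t :=
  hasDerivAt_mat fun i j => hasDerivAt_entry hg j i

/-- `A` is the velocity at `idM` of a path in `SO(4)` -/
def Pth (A : Mat4) : Prop :=
  ∃ g : ℝ → Mat4, g 0 = idM ∧ (∀ t, IsSO (g t)) ∧ HasDerivAt g A 0

theorem Pth.add {A B : Mat4} (hA : Pth A) (hB : Pth B) : Pth (A + B) := by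
  obtain ⟨g, g0, gs, gd⟩ := hA
  obtain ⟨h, h0, hs, hd⟩ := hB
  refine ⟨fun t => mulM (g t) (h t), ?_, fun t => (gs t).mul (hs t), ?_⟩
  · simp [g0, h0, mulM_one]
  · have := hasDerivAt_mulM gd hd
    rwa [g0, h0, mulM_one, one_mulM] at this

theorem Pth.smul {A : Mat4} (hA : Pth A) (c : ℝ) : Pth (c • A) := by
  obtain ⟨g, g0, gs, gd⟩ := hA
  refine ⟨fun t => g (c * t), ?_, fun t => gs _, ?_⟩
  · simp [g0]
  · have h1 : HasDerivAt (fun t : ℝ => c * t) c 0 := by simpa using (hasDerivAt_id (0 : ℝ)).const_mul c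
    have h2 : HasDerivAt g A (c * 0) := by simpa using gd
    exact h2.scomp (0 : ℝ) h1

theorem Pth.zero : Pth 0 :=
  ⟨fun _ => idM, rfl, fun _ => IsSO.one, hasDerivAt_const _ _⟩

theorem Pth.sum {ι : Type*} (s : Finset ι) (A : ι → Mat4) (h : ∀ i ∈ s, Pth (A i)) :
    Pth (∑ i ∈ s, A i) := by
  classical
  induction s using Finset.induction_on with
  | empty => simpa using Pth.zero
  | insert a s ha ih =>
    rw [Finset.sum_insert ha]
    exact (h a (Finset.mem_insert_self _ _)).add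
      (ih fun i hi => h i (Finset.mem_insert_of_mem hi))

/-- elementary skew matrices -/
def eM (i j : Fin 4) : Mat4 := fun a b =>
  (if a = i ∧ b = j then 1 else 0) - (if a = j ∧ b = i then 1 else 0)

/-- rotation in the plane `i, j` -/
def rot (i j : Fin 4) (t : ℝ) : Mat4 := fun a b =>
  if a = b then (if a = i ∨ a = j then Real.cos t else 1) else
    if a = i ∧ b = j then Real.sin t else if a = j ∧ b = i then - Real.sin t else 0

theorem rot_zero (i j : Fin 4) : rot i j 0 = idM := by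
  funext a b
  simp only [rot, idM, Real.cos_zero, Real.sin_zero, neg_zero, ite_self]

theorem isSO_rot {i j : Fin 4} (h : i ≠ j) (t : ℝ) : IsSO (rot i j t) := by
  have hc := Real.cos_sq_add_sin_sq t
  refine ⟨?_, ?_⟩
  · funext a b
    fin_cases i <;> fin_cases j <;> first | exact absurd rfl h | skip
    all_goals
      fin_cases a <;> fin_cases b <;>
        simp [mulM, trM, rot, idM, Fin.sum_univ_four] <;> first | done | nlinarith [hc]
  · rw [det4]
    fin_cases i <;> fin_cases j <;> first | exact absurd rfl h | skip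
    all_goals
      simp [rot]
      nlinarith [hc]

theorem hasDerivAt_rot {i j : Fin 4} (h : i ≠ j) : HasDerivAt (rot i j) (eM i j) 0 := by
  refine hasDerivAt_mat fun a b => ?_
  by_cases hab : a = b
  · subst hab
    have e : eM i j a a = 0 := by
      unfold eM
      by_cases h1 : a = i <;> by_cases h2 : a = j <;> simp [h1, h2]
    rw [e]
    by_cases h1 : a = i ∨ a = j
    · have : (fun s => rot i j s a a) = fun s => Real.cos s := by
        funext s; simp [rot, h1]
      rw [this]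
      simpa using Real.hasDerivAt_cos 0
    · have : (fun s => rot i j s a a) = fun _ => 1 := by
        funext s; simp [rot, h1]
      rw [this]
      exact hasDerivAt_const _ _
  · by_cases h1 : a = i ∧ b = j
    · have h2 : ¬ (a = j ∧ b = i) := fun h2 => h (h1.1.symm.trans h2.1)
      have : (fun s => rot i j s a b) = fun s => Real.sin s := by
        funext s; simp [rot, h1, h]
      rw [this]
      have e : eM i j a b = 1 := by simp [eM, h1, h]
      rw [e]
      simpa using Real.hasDerivAt_sin 0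
    · by_cases h2 : a = j ∧ b = i
      · have : (fun s => rot i j s a b) = fun s => - Real.sin s := by
          funext s; simp [rot, h2, h, h.symm]
        rw [this]
        have e : eM i j a b = -1 := by simp [eM, h2, h, h.symm]
        rw [e]
        simpa using (Real.hasDerivAt_sin 0).fun_neg
      · have : (fun s => rot i j s a b) = fun _ => 0 := by
          funext s; simp [rot, hab, h1, h2]
        rw [this]
        have e : eM i j a b = 0 := by simp [eM, h1, h2]
        rw [e]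
        exact hasDerivAt_const _ _

theorem Pth.eM (i j : Fin 4) : Pth (eM i j) := by
  by_cases h : i = j
  · subst h
    have : HK.eM i i = 0 := by funext a b; simp [HK.eM]
    rw [this]
    exact Pth.zero
  · exact ⟨rot i j, rot_zero i j, isSO_rot h, hasDerivAt_rot h⟩

theorem IsSkew.eq_sum {A : Mat4} (hA : IsSkew A) : A = ∑ i, ∑ j, ((1 / 2) * A i j) • eM i j := by
  funext a b
  simp only [Finset.sum_apply, Pi.smul_apply, smul_eq_mul, eM, mul_sub, mul_ite, mul_one, mul_zero,
    Finset.sum_sub_distrib]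
  have h1 : ∀ a b : Fin 4, (∑ x : Fin 4, ∑ y : Fin 4, if a = x ∧ b = y then 1 / 2 * A x y else 0)
      = 1 / 2 * A a b := by
    intro a b
    simp [ite_and]
  have h2 : (∑ x : Fin 4, ∑ y : Fin 4, if a = y ∧ b = x then 1 / 2 * A x y else 0)
      = 1 / 2 * A b a := by
    have := h1 b a
    rw [← this]
    exact Finset.sum_congr rfl fun x _ => Finset.sum_congr rfl fun y _ => by simp [and_comm]
  rw [h1, h2, hA b a]
  ring

/-- every skew matrix is the velocity of a path in `SO(4)` -/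
theorem IsSkew.pth {A : Mat4} (hA : IsSkew A) : Pth A := by
  rw [hA.eq_sum]
  exact Pth.sum _ _ fun i _ => Pth.sum _ _ fun j _ => (Pth.eM i j).smul _

theorem Pth.skew {A : Mat4} (hA : Pth A) : IsSkew A := by
  obtain ⟨g, g0, gs, gd⟩ := hA
  have h1 := hasDerivAt_mulM (hasDerivAt_trM gd) gd
  have h2 : (fun s => mulM (trM (g s)) (g s)) = fun _ => idM := by
    funext s; exact (gs s).1
  rw [h2, g0, trM_idM, mulM_one, one_mulM] at h1
  have h3 := h1.unique (hasDerivAt_const (0 : ℝ) idM)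
  intro i j
  have := congrFun (congrFun h3 i) j
  simp [trM] at this
  linarith

/-- the velocity of a path in `SO(4)` through `g t` is `g t` times a skew matrix -/
theorem skew_of_path {g : ℝ → Mat4} {B : Mat4} {t : ℝ} (gs : ∀ᶠ s in 𝓝 t, IsSO (g s))
    (gd : HasDerivAt g B t) : IsSkew (mulM (trM (g t)) B) := by
  have h1 := hasDerivAt_mulM (hasDerivAt_trM gd) gd
  have h2 : (fun s => mulM (trM (g s)) (g s)) =ᶠ[𝓝 t] fun _ => idM := by
    filter_upwards [gs] with s hs using hs.1
  have h3 := (h1.congr_of_eventuallyEq h2.symm).unique (hasDerivAt_const t idM)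
  intro i j
  have := congrFun (congrFun h3 i) j
  have e : mulM (trM (g t)) B j i = mulM (trM B) (g t) i j := by
    simp only [mulM, trM]
    exact Finset.sum_congr rfl fun _ _ => mul_comm _ _
  rw [e]
  simp at this
  linarith

/-! ### the representation of the Lie algebra -/

/-- the commutator -/
def brM (A B : Mat4) : Mat4 := mulM A B - mulM B A

theorem IsSkew.add {A B : Mat4} (hA : IsSkew A) (hB : IsSkew B) : IsSkew (A + B) := by
  intro i j
  have h1 := hA i j
  have h2 := hB i j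
  simp only [Pi.add_apply]
  linarith

theorem IsSkew.neg {A : Mat4} (hA : IsSkew A) : IsSkew (-A) := by
  intro i j
  have h1 := hA i j
  simp only [Pi.neg_apply]
  linarith

theorem IsSkew.sub {A B : Mat4} (hA : IsSkew A) (hB : IsSkew B) : IsSkew (A - B) := by
  rw [sub_eq_add_neg]; exact hA.add hB.neg

theorem IsSkew.smul {A : Mat4} (hA : IsSkew A) (c : ℝ) : IsSkew (c • A) := by
  intro i j
  have h1 := hA i j
  simp only [Pi.smul_apply, smul_eq_mul, h1]
  ring

theorem IsSkew.zero : IsSkew 0 := fun i j => by simp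

theorem IsSkew.trM {A : Mat4} (hA : IsSkew A) : HK.trM A = -A := by
  funext i j
  exact hA j i

theorem isSkew_iff {A : Mat4} : IsSkew A ↔ HK.trM A = -A :=
  ⟨fun h => h.trM, fun h i j => by
    have := congrFun (congrFun h j) i
    simpa [HK.trM] using this⟩

theorem IsSkew.brM {A B : Mat4} (hA : IsSkew A) (hB : IsSkew B) : IsSkew (brM A B) := by
  rw [isSkew_iff]
  have h1 : HK.trM (HK.brM A B) = HK.trM (mulM A B) - HK.trM (mulM B A) := rfl
  rw [h1, trM_mulM, trM_mulM, hA.trM, hB.trM, neg_mulM, neg_mulM, mulM_neg, mulM_neg, neg_neg,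
    neg_neg]
  unfold HK.brM
  abel

theorem IsSkew.adM {A : Mat4} (hA : IsSkew A) (g : Mat4) : IsSkew (adM g A) := by
  rw [isSkew_iff, trM_adM, hA.trM, adM_neg]

theorem isSkew_Rq (a : Fin 3) : IsSkew (Rq a) := isSkew_iff.2 (trM_Rq a)

theorem Rep.hasFDerivAt (R : Rep W) (g : Mat4) : HasFDerivAt R.ρ (fderiv ℝ R.ρ g) g :=
  (R.smooth.differentiable (by simp) g).hasFDerivAt

/-- derivative of `ρ` along a path through `idM` -/
theorem Rep.hasDerivAt_path (R : Rep W) {g : ℝ → Mat4} {A : Mat4} {t : ℝ} (g0 : g t = idM)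
    (gd : HasDerivAt g A t) : HasDerivAt (fun s => R.ρ (g s)) (R.d A) t := by
  have := (R.hasFDerivAt (g t)).comp_hasDerivAt t gd
  rw [g0] at this
  exact this

theorem Rep.d_add (R : Rep W) (A B : Mat4) : R.d (A + B) = R.d A + R.d B := map_add _ _ _
theorem Rep.d_smul (R : Rep W) (c : ℝ) (A : Mat4) : R.d (c • A) = c • R.d A := map_smul _ _ _
theorem Rep.d_neg (R : Rep W) (A : Mat4) : R.d (-A) = - R.d A := map_neg _ _
theorem Rep.d_sub (R : Rep W) (A B : Mat4) : R.d (A - B) = R.d A - R.d B := map_sub _ _ _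
theorem Rep.d_zero (R : Rep W) : R.d 0 = 0 := map_zero _
theorem Rep.d_sum (R : Rep W) {ι : Type*} (s : Finset ι) (A : ι → Mat4) :
    R.d (∑ i ∈ s, A i) = ∑ i ∈ s, R.d (A i) := map_sum _ _ _

/-- `R.d` as a continuous linear map -/
def Rep.dL (R : Rep W) : Mat4 →L[ℝ] W →L[ℝ] W := fderiv ℝ R.ρ idM

@[simp] theorem Rep.dL_apply (R : Rep W) (A : Mat4) : R.dL A = R.d A := rfl

/-- the operators `R.d A` are skew -/
theorem Rep.d_skew (R : Rep W) {A : Mat4} (hA : IsSkew A) (v w : W) :
    ⟪R.d A v, w⟫ = - ⟪v, R.d A w⟫ := by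
  obtain ⟨g, g0, gs, gd⟩ := hA.pth
  have h := R.hasDerivAt_path g0 gd
  have h1 : HasDerivAt (fun s => R.ρ (g s) v) (R.d A v) 0 := by
    simpa using h.clm_apply (hasDerivAt_const (0 : ℝ) v)
  have h2 : HasDerivAt (fun s => R.ρ (g s) w) (R.d A w) 0 := by
    simpa using h.clm_apply (hasDerivAt_const (0 : ℝ) w)
  have h3 := h1.inner ℝ h2
  have h4 : (fun s => ⟪R.ρ (g s) v, R.ρ (g s) w⟫) = fun _ => ⟪v, w⟫ := by
    funext s; exact R.inner _ (gs s) v w
  rw [h4] at h3
  have h5 := h3.unique (hasDerivAt_const (0 : ℝ) ⟪v, w⟫)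
  rw [g0, R.one] at h5
  simp only [ContinuousLinearMap.id_apply] at h5
  linarith

theorem Rep.d_skew_self (R : Rep W) {A : Mat4} (hA : IsSkew A) (v : W) : ⟪R.d A v, v⟫ = 0 := by
  have := R.d_skew hA v v
  rw [real_inner_comm v (R.d A v)] at this
  linarith [real_inner_comm v (R.d A v)]

/-- the trace of `R.d A` vanishes -/
theorem Rep.d_trace [FiniteDimensional ℝ W] (R : Rep W) {A : Mat4} (hA : IsSkew A) :
    LinearMap.trace ℝ W (R.d A : W →ₗ[ℝ] W) = 0 := by
  rw [LinearMap.trace_eq_matrix_trace ℝ (stdOrthonormalBasis ℝ W).toBasis, Matrix.trace]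
  refine Finset.sum_eq_zero fun i _ => ?_
  rw [Matrix.diag_apply, LinearMap.toMatrix_apply]
  simp only [OrthonormalBasis.coe_toBasis, OrthonormalBasis.coe_toBasis_repr_apply,
    OrthonormalBasis.repr_apply_apply, ContinuousLinearMap.coe_coe]
  rw [real_inner_comm]
  exact R.d_skew_self hA _

/-- `Ad`-equivariance -/
theorem Rep.d_adM (R : Rep W) {g A : Mat4} (hg : IsSO g) (hA : IsSkew A) :
    R.d (adM g A) = (R.ρ g).comp ((R.d A).comp (R.ρ (trM g))) := by
  obtain ⟨h, h0, hs, hd⟩ := hA.pth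
  have h1 : HasDerivAt (fun s => adM g (h s)) (adM g A) 0 := by
    have a1 := hasDerivAt_mulM (hasDerivAt_const (0 : ℝ) g) hd
    have a2 := hasDerivAt_mulM a1 (hasDerivAt_const (0 : ℝ) (trM g))
    have z1 : ∀ B : Mat4, mulM 0 B = 0 := fun B => by funext i j; simp [mulM]
    have z2 : ∀ B : Mat4, mulM B 0 = 0 := fun B => by funext i j; simp [mulM]
    simpa [z1, z2, adM] using a2
  have e0 : adM g (h 0) = idM := by rw [h0]; unfold adM; rw [mulM_one, hg.right]
  have h2 := R.hasDerivAt_path e0 h1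
  have h3 := R.hasDerivAt_path h0 hd
  have h4 : HasDerivAt (fun s => (R.ρ g).comp ((R.ρ (h s)).comp (R.ρ (trM g))))
      ((R.ρ g).comp ((R.d A).comp (R.ρ (trM g)))) 0 := by
    have b1 := h3.clm_comp (hasDerivAt_const (0 : ℝ) (R.ρ (trM g)))
    have b2 := (hasDerivAt_const (0 : ℝ) (R.ρ g)).clm_comp b1
    simpa using b2
  refine h2.unique ?_
  refine h4.congr_of_eventuallyEq (Filter.Eventually.of_forall fun s => ?_)
  show R.ρ (adM g (h s)) = _
  unfold adM
  rw [R.mul _ _ (hg.mul (hs s)) hg.tr, R.mul _ _ hg (hs s), ContinuousLinearMap.comp_assoc]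

/-- brackets -/
theorem Rep.d_brM (R : Rep W) {A B : Mat4} (hA : IsSkew A) (hB : IsSkew B) :
    R.d (brM A B) = (R.d A).comp (R.d B) - (R.d B).comp (R.d A) := by
  obtain ⟨g, g0, gs, gd⟩ := hA.pth
  have h1 : HasDerivAt (fun s => adM (g s) B) (brM A B) 0 := by
    have a1 := hasDerivAt_mulM gd (hasDerivAt_const (0 : ℝ) B)
    have a2 := hasDerivAt_mulM a1 (hasDerivAt_trM gd)
    have z2 : ∀ B : Mat4, mulM B 0 = 0 := fun B => by funext i j; simp [mulM]
    have e : brM A B = mulM (mulM A B + mulM (g 0) 0) (trM (g 0)) +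
        mulM (mulM (g 0) B) (trM A) := by
      rw [g0, z2, trM_idM, mulM_one, one_mulM, hA.trM, mulM_neg, add_zero]
      unfold brM
      abel
    rw [e]
    exact a2
  have h2 : HasDerivAt (fun s => R.d (adM (g s) B)) (R.d (brM A B)) 0 :=
    (R.dL.hasFDerivAt).comp_hasDerivAt (0 : ℝ) h1
  have h3 := R.hasDerivAt_path g0 gd
  have h4 := R.hasDerivAt_path (g := fun s => trM (g s)) (t := 0)
    (by rw [g0, trM_idM]) (hasDerivAt_trM gd)
  have h5 := h3.clm_comp ((hasDerivAt_const (0 : ℝ) (R.d B)).clm_comp h4)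
  have h6 : (fun s => R.d (adM (g s) B)) =
      fun s => (R.ρ (g s)).comp ((R.d B).comp (R.ρ (trM (g s)))) := by
    funext s; exact R.d_adM (gs s) hB
  rw [h6] at h2
  have h7 := h2.unique h5
  rw [h7, g0, trM_idM, hA.trM, R.d_neg, R.one]
  ext v
  simp [sub_eq_add_neg]

/-- derivative of `ρ` at a point of `SO(4)`, left form -/
theorem Rep.fderiv_left (R : Rep W) {g A : Mat4} (hg : IsSO g) (hA : IsSkew A) :
    fderiv ℝ R.ρ g (mulM g A) = (R.ρ g).comp (R.d A) := by
  obtain ⟨h, h0, hs, hd⟩ := hA.pth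
  have h1 : HasDerivAt (fun s => mulM g (h s)) (mulM g A) 0 := by
    have a1 := hasDerivAt_mulM (hasDerivAt_const (0 : ℝ) g) hd
    have z1 : ∀ B : Mat4, mulM 0 B = 0 := fun B => by funext i j; simp [mulM]
    simpa [z1] using a1
  have h2 : HasDerivAt (fun s => R.ρ (mulM g (h s))) (fderiv ℝ R.ρ g (mulM g A)) 0 := by
    have := (R.hasFDerivAt (mulM g (h 0))).comp_hasDerivAt (0 : ℝ) h1
    rw [h0, mulM_one] at this
    exact this
  have h3 : HasDerivAt (fun s => (R.ρ g).comp (R.ρ (h s))) ((R.ρ g).comp (R.d A)) 0 := by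
    simpa using (hasDerivAt_const (0 : ℝ) (R.ρ g)).clm_comp (R.hasDerivAt_path h0 hd)
  refine h2.unique (h3.congr_of_eventuallyEq (Filter.Eventually.of_forall fun s => ?_))
  exact R.mul _ _ hg (hs s)

/-- derivative of `ρ` at a point of `SO(4)`, right form -/
theorem Rep.fderiv_right (R : Rep W) {g A : Mat4} (hg : IsSO g) (hA : IsSkew A) :
    fderiv ℝ R.ρ g (mulM A g) = (R.d A).comp (R.ρ g) := by
  obtain ⟨h, h0, hs, hd⟩ := hA.pth
  have h1 : HasDerivAt (fun s => mulM (h s) g) (mulM A g) 0 := by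
    have a1 := hasDerivAt_mulM hd (hasDerivAt_const (0 : ℝ) g)
    have z1 : ∀ B : Mat4, mulM B 0 = 0 := fun B => by funext i j; simp [mulM]
    simpa [z1] using a1
  have h2 : HasDerivAt (fun s => R.ρ (mulM (h s) g)) (fderiv ℝ R.ρ g (mulM A g)) 0 := by
    have := (R.hasFDerivAt (mulM (h 0) g)).comp_hasDerivAt (0 : ℝ) h1
    rw [h0, one_mulM] at this
    exact this
  have h3 : HasDerivAt (fun s => (R.ρ (h s)).comp (R.ρ g)) ((R.d A).comp (R.ρ g)) 0 := by
    simpa using (R.hasDerivAt_path h0 hd).clm_comp (hasDerivAt_const (0 : ℝ) (R.ρ g))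
  refine h2.unique (h3.congr_of_eventuallyEq (Filter.Eventually.of_forall fun s => ?_))
  exact R.mul _ _ (hs s) hg

/-- derivative of `ρ` along a path in `SO(4)` -/
theorem Rep.hasDerivAt_path' (R : Rep W) {g : ℝ → Mat4} {B : Mat4} {t : ℝ}
    (gs : ∀ᶠ s in 𝓝 t, IsSO (g s)) (gd : HasDerivAt g B t) :
    HasDerivAt (fun s => R.ρ (g s)) ((R.ρ (g t)).comp (R.d (mulM (trM (g t)) B))) t := by
  have h1 := (R.hasFDerivAt (g t)).comp_hasDerivAt t gd
  have hg : IsSO (g t) := gs.self_of_nhds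
  have h2 := R.fderiv_left hg (skew_of_path gs gd)
  rw [← mulM_assoc, hg.right, one_mulM] at h2
  rw [← h2]
  exact h1

/-- intertwiners commute with the Lie algebra -/
theorem Intertwines.d {R : Rep W} {R' : Rep W'} {C : W →L[ℝ] W'} (h : Intertwines R R' C)
    {A : Mat4} (hA : IsSkew A) (w : W) : C (R.d A w) = R'.d A (C w) := by
  obtain ⟨g, g0, gs, gd⟩ := hA.pth
  have h1 : HasDerivAt (fun s => C (R.ρ (g s) w)) (C (R.d A w)) 0 := by
    have := (R.hasDerivAt_path g0 gd).clm_apply (hasDerivAt_const (0 : ℝ) w)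
    have := (C.hasFDerivAt).comp_hasDerivAt (0 : ℝ) this
    simpa [Function.comp_def] using this
  have h2 : HasDerivAt (fun s => R'.ρ (g s) (C w)) (R'.d A (C w)) 0 := by
    simpa using (R'.hasDerivAt_path g0 gd).clm_apply (hasDerivAt_const (0 : ℝ) (C w))
  have h3 : (fun s => C (R.ρ (g s) w)) = fun s => R'.ρ (g s) (C w) := by
    funext s; exact h _ (gs s) w
  rw [h3] at h1
  exact h1.unique h2

/-- representations which agree on `SO(4)` have the same Lie algebra representation -/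
theorem Rep.d_congr {R R' : Rep W} (h : ∀ g, IsSO g → R.ρ g = R'.ρ g) {A : Mat4}
    (hA : IsSkew A) : R.d A = R'.d A := by
  ext w
  have : Intertwines R R' (ContinuousLinearMap.id ℝ W) := fun g hg w => by
    simp [h g hg]
  exact this.d hA w

theorem hasDerivAt_tnMap {m : ℝ → Mat4} {a : ℝ → W →L[ℝ] W} {m' : Mat4} {a' : W →L[ℝ] W} {t : ℝ}
    (hm : HasDerivAt m m' t) (ha : HasDerivAt a a' t) (w : Tn W) (k : Fin 4) :
    HasDerivAt (fun s => tnMap (m s) (a s) w k)
      (∑ l, (m' k l • a t (w l) + m t k l • a' (w l))) t := by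
  have : (fun s => tnMap (m s) (a s) w k) = fun s => ∑ l, m s k l • a s (w l) := by
    funext s; exact tnMap_apply _ _ _ _
  rw [this]
  refine HasDerivAt.fun_sum fun l _ => ?_
  have h1 : HasDerivAt (fun s => a s (w l)) (a' (w l)) t := by
    simpa using ha.clm_apply (hasDerivAt_const t (w l))
  have h2 := (hasDerivAt_entry hm k l).smul h1
  rw [add_comm]
  exact h2

/-- the Lie algebra representation of a twist -/
theorem Twist.d {m : Mat4 → Mat4} (hm : MRep m) {R : Rep W} {R' : Rep (Tn W)} (h : Twist m R R')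
    {A : Mat4} (hA : IsSkew A) (w : Tn W) (k : Fin 4) :
    R'.d A w k = ∑ l, fderiv ℝ m idM A k l • w l + R.d A (w k) := by
  obtain ⟨g, g0, gs, gd⟩ := hA.pth
  have h1 : HasDerivAt (fun s => R'.ρ (g s) w k) (R'.d A w k) 0 := by
    have h2 := (R'.hasDerivAt_path g0 gd).clm_apply (hasDerivAt_const (0 : ℝ) w)
    have h3 := ((PiLp.proj 2 (fun _ : Fin 4 => W) k : Tn W →L[ℝ] W).hasFDerivAt).comp_hasDerivAt
      (0 : ℝ) h2
    simpa [Function.comp_def] using h3
  have h4 : HasDerivAt (fun s => m (g s)) (fderiv ℝ m idM A) 0 := by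
    have h5 := ((hm.smooth.differentiable (by simp) (g 0)).hasFDerivAt).comp_hasDerivAt (0 : ℝ) gd
    rw [g0] at h5
    exact h5
  have h6 := hasDerivAt_tnMap h4 (R.hasDerivAt_path g0 gd) w k
  have h7 : (fun s => R'.ρ (g s) w k) = fun s => tnMap (m (g s)) (R.ρ (g s)) w k := by
    funext s; rw [h (g s) (gs s)]
  rw [h7] at h1
  rw [h1.unique h6, g0, hm.one, R.one, Finset.sum_add_distrib]
  simp [idM]

/-- the Lie algebra representation of `T ⊗ W` -/
theorem Tens.d {R : Rep W} {R' : Rep (Tn W)} (h : Tens R R') {A : Mat4} (hA : IsSkew A)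
    (w : Tn W) (k : Fin 4) : R'.d A w k = ∑ l, A k l • w l + R.d A (w k) := by
  have h1 : Twist (fun g => g) R R' := h
  rw [Twist.d MRep.id h1 hA w k]
  simp

/-! ### the explicit Lie algebra actions -/

@[simp] theorem Rep.triv_d (A : Mat4) : Rep.triv.d A = 0 := by
  unfold Rep.d
  have : Rep.triv.ρ = fun _ => ContinuousLinearMap.id ℝ ℝ := rfl
  rw [this]
  simp

/-- the matrix of the action of `A` on `L-` -/
def lamD (A : Mat4) : Fin 3 → Fin 3 → ℝ := fun a b => dotM (Rq a) (brM A (Rq b))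

theorem hasDerivAt_dotM (X : Mat4) {g : ℝ → Mat4} {A : Mat4} {t : ℝ} (gd : HasDerivAt g A t) :
    HasDerivAt (fun s => dotM X (g s)) (dotM X A) t := by
  unfold dotM
  refine HasDerivAt.const_mul _ (HasDerivAt.fun_sum fun i _ => HasDerivAt.fun_sum fun j _ => ?_)
  exact (hasDerivAt_entry gd i j).const_mul _

theorem hasDerivAt_lamM {A : Mat4} (hA : IsSkew A) {g : ℝ → Mat4} (g0 : g 0 = idM)
    (gd : HasDerivAt g A 0) (a b : Fin 3) :
    HasDerivAt (fun s => lamM (g s) a b) (lamD A a b) 0 := by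
  refine hasDerivAt_dotM _ ?_
  have a1 := hasDerivAt_mulM gd (hasDerivAt_const (0 : ℝ) (Rq b))
  have a2 := hasDerivAt_mulM a1 (hasDerivAt_trM gd)
  have z2 : ∀ B : Mat4, mulM B 0 = 0 := fun B => by funext i j; simp [mulM]
  have e : brM A (Rq b) = mulM (mulM A (Rq b) + mulM (g 0) 0) (trM (g 0)) +
      mulM (mulM (g 0) (Rq b)) (trM A) := by
    rw [g0, z2, trM_idM, mulM_one, one_mulM, hA.trM, mulM_neg, add_zero]
    unfold brM
    abel
  rw [e]
  exact a2

theorem fderiv_lamM {A : Mat4} (hA : IsSkew A) (a b : Fin 3) :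
    fderiv ℝ (fun g => lamM g a b) idM A = lamD A a b := by
  obtain ⟨g, g0, gs, gd⟩ := hA.pth
  have h1 := (((contDiff_lamM a b).differentiable (by simp) (g 0)).hasFDerivAt).comp_hasDerivAt
    (0 : ℝ) gd
  rw [g0] at h1
  exact h1.unique (hasDerivAt_lamM hA g0 gd a b)

theorem Rep.lam_d {A : Mat4} (hA : IsSkew A) (v : EuclideanSpace ℝ (Fin 3)) (a : Fin 3) :
    Rep.lam.d A v a = ∑ b, lamD A a b * v b := by
  obtain ⟨g, g0, gs, gd⟩ := hA.pth
  have h2 := (Rep.lam.hasDerivAt_path g0 gd).clm_apply (hasDerivAt_const (0 : ℝ) v)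
  have h3 := ((EuclideanSpace.proj a : EuclideanSpace ℝ (Fin 3) →L[ℝ] ℝ).hasFDerivAt).comp_hasDerivAt
      (0 : ℝ) h2
  have h4 : HasDerivAt (fun s => ∑ b, lamM (g s) a b * v b) (∑ b, lamD A a b * v b) 0 :=
    HasDerivAt.fun_sum fun b _ => (hasDerivAt_lamM hA g0 gd a b).mul_const _
  have h5 : ((EuclideanSpace.proj a : EuclideanSpace ℝ (Fin 3) →L[ℝ] ℝ) ∘ fun s =>
      (Rep.lam.ρ (g s)) v) = fun s => ∑ b, lamM (g s) a b * v b := by
    funext s
    exact op3_apply _ _ _
  rw [h5] at h3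
  have h6 := h3.unique h4
  rw [← h6]
  simp

/-- the derivative of `mH`: `0 ⊕ lamD A` -/
def mHd (A : Mat4) : Mat4 := fun i j =>
  Fin.cases 0 (fun a => Fin.cases 0 (fun b => lamD A a b) j) i

@[simp] theorem mHd_zero_left (A : Mat4) (j : Fin 4) : mHd A 0 j = 0 := rfl
@[simp] theorem mHd_succ_zero (A : Mat4) (a : Fin 3) : mHd A a.succ 0 = 0 := rfl
@[simp] theorem mHd_succ_succ (A : Mat4) (a b : Fin 3) : mHd A a.succ b.succ = lamD A a b := rfl

theorem fderiv_mH {A : Mat4} (hA : IsSkew A) : fderiv ℝ mH idM A = mHd A := by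
  obtain ⟨g, g0, gs, gd⟩ := hA.pth
  have h1 := ((mrep_mH.smooth.differentiable (by simp) (g 0)).hasFDerivAt).comp_hasDerivAt
    (0 : ℝ) gd
  rw [g0] at h1
  refine h1.unique (hasDerivAt_mat fun i j => ?_)
  refine Fin.cases ?_ (fun a => ?_) i <;> refine Fin.cases ?_ (fun b => ?_) j
  · exact hasDerivAt_const _ _
  · exact hasDerivAt_const _ _
  · exact hasDerivAt_const _ _
  · exact hasDerivAt_lamM hA g0 gd a b

/-- the Lie algebra action on `(ℝ ⊕ L-) ⊗ W` -/
theorem Rep.hq_d (R : Rep W) {A : Mat4} (hA : IsSkew A) (w : Tn W) (k : Fin 4) :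
    R.hq.d A w k = ∑ l, mHd A k l • w l + R.d A (w k) := by
  rw [Twist.d mrep_mH R.twist_hq hA w k, fderiv_mH hA]

/-- the Lie algebra action on `T ⊗ W` -/
theorem Rep.tn_d (R : Rep W) {A : Mat4} (hA : IsSkew A) (w : Tn W) (k : Fin 4) :
    R.tn.d A w k = ∑ l, A k l • w l + R.d A (w k) :=
  Tens.d R.tens_tn hA w k

end

end Vale.Agent.P211.HK
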