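import Vale.Agent.P211.HK.SecStmt
import Vale.Agent.P211.HK.SC0b

/-! P211 / HK, block SC1 (helper69): the covariant derivative of a section in an arbitrary smooth
orthonormal frame. -/

set_option maxSynthPendingDepth 3
set_option linter.unusedSectionVars false

namespace Vale.Agent.P211.HK

open scoped Manifold ContDiff Topology RealInnerProductSpace
open Bundle Filter VectorField

noncomputable section

section chart

variable {E : Type} [NormedAddCommGroup E] [NormedSpace ℝ E]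
  {M : Type} [TopologicalSpace M] [ChartedSpace E M]
  {V V' : Type*} [NormedAddCommGroup V] [NormedSpace ℝ V] [NormedAddCommGroup V']
  [NormedSpace ℝ V']

/-- the derivative of a vector valued function, as a linear map on the model space -/
def mfd (φ : M → V) (p : M) : E →L[ℝ] V := mfderiv 𝓘(ℝ, E) 𝓘(ℝ, V) φ p

/-- derivative of a vector valued function in a chart -/
theorem chart_of_mdiff {φ : M → V} {p : M} (h : MDifferentiableAt 𝓘(ℝ, E) 𝓘(ℝ, V) φ p) :
    HasFDerivAt (φ ∘ (extChartAt 𝓘(ℝ, E) p).symm) (mfd φ p : E →L[ℝ] V)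
      (extChartAt 𝓘(ℝ, E) p p) := by
  have h1 : HasFDerivWithinAt (φ ∘ (extChartAt 𝓘(ℝ, E) p).symm)
      (mfd φ p : E →L[ℝ] V) (Set.range 𝓘(ℝ, E))
      (extChartAt 𝓘(ℝ, E) p p) := h.hasMFDerivAt.2
  have h2 : Set.range 𝓘(ℝ, E) = Set.univ := by simp
  rw [h2] at h1
  exact hasFDerivWithinAt_univ.1 h1

/-- derivative of `A q (w q)` -/
theorem mfderiv_clm {A : M → V →L[ℝ] V'} {w : M → V} {p : M}
    (hA : MDifferentiableAt 𝓘(ℝ, E) 𝓘(ℝ, V →L[ℝ] V') A p)
    (hw : MDifferentiableAt 𝓘(ℝ, E) 𝓘(ℝ, V) w p) (v : E) :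
    (mfd (fun q => A q (w q)) p : E →L[ℝ] V') v =
      (mfd A p : E →L[ℝ] (V →L[ℝ] V')) v (w p) + A p ((mfd w p : E →L[ℝ] V) v) := by
  have h0 : (extChartAt 𝓘(ℝ, E) p).symm (extChartAt 𝓘(ℝ, E) p p) = p :=
    extChartAt_to_inv p
  have hAw : MDifferentiableAt 𝓘(ℝ, E) 𝓘(ℝ, V') (fun q => A q (w q)) p := hA.clm_apply hw
  have h1 := chart_of_mdiff hAw
  have h2 := (chart_of_mdiff hA).clm_apply (chart_of_mdiff hw)
  have h3 := h1.unique h2
  rw [h3]
  simp only [Function.comp_apply, h0, add_apply,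
    ContinuousLinearMap.comp_apply, ContinuousLinearMap.flip_apply]
  exact add_comm _ _

/-- derivative of a composition with a function between vector spaces -/
theorem mfd_comp {ρ : V → V'} {w : M → V} {p : M} (hρ : DifferentiableAt ℝ ρ (w p))
    (hw : MDifferentiableAt 𝓘(ℝ, E) 𝓘(ℝ, V) w p) (v : E) :
    (mfd (fun q => ρ (w q)) p : E →L[ℝ] V') v =
      fderiv ℝ ρ (w p) ((mfd w p : E →L[ℝ] V) v) := by
  have h0 : (extChartAt 𝓘(ℝ, E) p).symm (extChartAt 𝓘(ℝ, E) p p) = p :=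
    extChartAt_to_inv p
  have hρ' : MDifferentiableAt 𝓘(ℝ, V) 𝓘(ℝ, V') ρ (w p) := hρ.mdifferentiableAt
  have h1 := chart_of_mdiff (E := E) (hρ'.comp p hw)
  have h2 : HasFDerivAt ρ (fderiv ℝ ρ (w p))
      ((w ∘ (extChartAt 𝓘(ℝ, E) p).symm) (extChartAt 𝓘(ℝ, E) p p)) := by
    simp only [Function.comp_apply, h0]
    exact hρ.hasFDerivAt
  have h3 := h1.unique (h2.comp _ (chart_of_mdiff hw))
  exact congrArg (fun L : E →L[ℝ] V' => L v) h3

/-- derivative of a component -/
theorem mfd_apply {ι : Type*} [Fintype ι] {V'' : ι → Type*} [∀ i, NormedAddCommGroup (V'' i)]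
    [∀ i, NormedSpace ℝ (V'' i)] {w : M → ∀ i, V'' i} {p : M}
    (hw : MDifferentiableAt 𝓘(ℝ, E) 𝓘(ℝ, ∀ i, V'' i) w p) (v : E) (i : ι) :
    (mfd w p : E →L[ℝ] ∀ i, V'' i) v i = (mfd (fun q => w q i) p : E →L[ℝ] V'' i) v := by
  have h := mfd_comp (E := E) (ρ := fun x : ∀ i, V'' i => x i) (w := w) (p := p)
    (differentiableAt_apply i _) hw v
  rw [h]
  have h2 : fderiv ℝ (fun x : ∀ i, V'' i => x i) (w p) = ContinuousLinearMap.proj i :=
    (ContinuousLinearMap.proj (R := ℝ) (φ := V'') i).fderiv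
  rw [h2]
  rfl

end chart

variable {E : Type} [NormedAddCommGroup E] [NormedSpace ℝ E] [FiniteDimensional ℝ E]
  {M : Type} [TopologicalSpace M] [ChartedSpace E M] [IsManifold 𝓘(ℝ, E) ∞ M] [T2Space M]
  [RiemannianBundle fun p : M => TangentSpace 𝓘(ℝ, E) p]
  [IsContMDiffRiemannianBundle 𝓘(ℝ, E) ∞ E fun p : M => TangentSpace 𝓘(ℝ, E) p]

/-- the transition matrices between two frames, transposed -/
def trF (F S : Fin 4 → VF E M) (q : M) : Mat4 := fun i j => inner ℝ (F j q) (S i q)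

theorem trF_mdiff (F S : Fin 4 → VF E M) (p : M) :
    MDifferentiableAt 𝓘(ℝ, E) 𝓘(ℝ, Mat4) (trF F S) p := by
  have h : ContMDiffAt 𝓘(ℝ, E) 𝓘(ℝ, Mat4) ∞ (trF F S) p := by
    rw [contMDiffAt_pi_space]
    intro i
    rw [contMDiffAt_pi_space]
    intro j
    exact (gVF (F j) (S i)).contMDiff p
  exact h.mdifferentiableAt (by simp)

theorem sc1_of {cov : CovariantDerivative 𝓘(ℝ, E) E (TangentSpace 𝓘(ℝ, E) : M → Type)}
    {om : Form4 E M} (h0 : SC0Stmt cov om) : SC1Stmt cov om := by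
  intro hG W _ _ _ R u hu p F hF k
  obtain ⟨hsync, -, -, hch, -⟩ := h0 hG
  have hp : PON om p (fun i => F i p) := hF.self_of_nhds
  have hex := hsync p _ hp
  have hc : PON om p (fun i => F i p) ∧ ∃ S : Fin 4 → VF E M,
      SyncExt cov om p (fun i => F i p) S := ⟨hp, hex⟩
  unfold nabS
  rw [dif_pos hc]
  have hs := hc.2.choose_spec
  set S := hc.2.choose with hS
  obtain ⟨hS1, hS2, hS3⟩ := hs
  have hev : (fun q => u q fun i => S i q) =ᶠ[𝓝 p]
      fun q => R.ρ (trF F S q) (u q fun i => F i q) := by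
    filter_upwards [hF, hS1] with q hq1 hq2
    obtain ⟨g', hg', e⟩ := hch q _ _ hq1 hq2
    have h1 : trM g' = trF F S q := by
      ext i j
      have := inner_fact hq1.1 g' j i
      rw [← e] at this
      exact this.symm
    rw [e, hu.2.1 q _ g' hq1 hg', h1]
  have hone : trF F S p = idM := by
    ext i j
    unfold trF idM
    rw [hS2 i, orthonormal_iff_ite.1 hp.1 j i]
    simp [eq_comm]
  have hU : MDifferentiableAt 𝓘(ℝ, E) 𝓘(ℝ, W) (fun q => u q fun i => F i q) p :=
    (hu.2.2 F p hF).mdifferentiableAt (by simp)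
  have hT := trF_mdiff F S p
  have hR : MDifferentiableAt 𝓘(ℝ, E) 𝓘(ℝ, W →L[ℝ] W) (fun q => R.ρ (trF F S q)) p := by
    have h1 : MDifferentiableAt 𝓘(ℝ, Mat4) 𝓘(ℝ, W →L[ℝ] W) R.ρ (trF F S p) :=
      (R.smooth.differentiable (by simp)).differentiableAt.mdifferentiableAt
    exact h1.comp p hT
  show (dirW (fun q => u q fun i => S i q) p (F k p) : W) = _
  unfold dirW
  rw [hev.mfderiv_eq]
  have h2 := mfderiv_clm hR hU (F k p)
  refine h2.trans ?_
  have h3 : (mfd (trF F S) p : E →L[ℝ] Mat4) (F k p) = GaF cov F p k := by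
    funext i j
    have e1 := mfd_apply (E := E) (w := trF F S) (p := p) hT (F k p) i
    have hT' : MDifferentiableAt 𝓘(ℝ, E) 𝓘(ℝ, Fin 4 → ℝ) (fun q => trF F S q i) p := by
      have : ContMDiffAt 𝓘(ℝ, E) 𝓘(ℝ, Fin 4 → ℝ) ∞ (fun q => trF F S q i) p := by
        rw [contMDiffAt_pi_space]
        intro j
        exact (gVF (F j) (S i)).contMDiff p
      exact this.mdifferentiableAt (by simp)
    have e2 := mfd_apply (E := E) (w := fun q => trF F S q i) (p := p) hT' (F k p) j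
    rw [e1, e2]
    have e3 := hG.lc.metric (F k) (F j) (S i) p
    rw [hS3 i (F k p), inner_zero_right, add_zero, hS2 i] at e3
    exact e3
  have h4 := mfd_comp (E := E) (ρ := R.ρ) (w := trF F S) (p := p)
    (R.smooth.differentiable (by simp)).differentiableAt hT (F k p)
  rw [h4, h3, hone, R.one, add_comm]
  rfl

theorem sc1_formula {cov : CovariantDerivative 𝓘(ℝ, E) E (TangentSpace 𝓘(ℝ, E) : M → Type)}
    {om : Form4 E M} (h0 : SC0Stmt cov om) (hG : Geo4 cov om) {W : Type} [NormedAddCommGroup W]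
    [InnerProductSpace ℝ W] [FiniteDimensional ℝ W] (R : Rep W) {u : PreS E M W}
    (hu : u ∈ Sec om R) {p : M} {F : Fin 4 → VF E M} (hF : PONnear om p F) :
    (nabS cov om u p fun i => F i p) =
      mkT fun k => dirW (fun q => u q fun i => F i q) p (F k p) +
          R.d (GaF cov F p k) (u p fun i => F i p) := by
  ext k
  exact sc1_of h0 hG W R u hu p F hF k

/-- SC1 -/
theorem sc1 (cov : CovariantDerivative 𝓘(ℝ, E) E (TangentSpace 𝓘(ℝ, E) : M → Type))
    (om : Form4 E M) : SC1Stmt cov om := sc1_of sc0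

/-- the covariant derivative in any frame, componentwise -/
theorem nabS_eq {cov : CovariantDerivative 𝓘(ℝ, E) E (TangentSpace 𝓘(ℝ, E) : M → Type)}
    {om : Form4 E M} (hG : Geo4 cov om) {W : Type} [NormedAddCommGroup W]
    [InnerProductSpace ℝ W] [FiniteDimensional ℝ W] (R : Rep W) {u : PreS E M W}
    (hu : u ∈ Sec om R) {p : M} {F : Fin 4 → VF E M} (hF : PONnear om p F) (k : Fin 4) :
    (nabS cov om u p fun i => F i p) k = dirW (fun q => u q fun i => F i q) p (F k p) +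
      R.d (GaF cov F p k) (u p fun i => F i p) := sc1 cov om hG W R u hu p F hF k

end

end Vale.Agent.P211.HK
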