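import Vale.Agent.P211.HK.RG1
import Vale.Agent.P211.HK.SC1
import Vale.Agent.P211.HK.SC2
import Vale.Agent.P211.HK.RepD

/-! P211 / HK: block RG4, covariant derivatives in normal coordinates and radial gauge
(helper702, version c). -/

set_option maxSynthPendingDepth 3
set_option linter.unusedSectionVars false

namespace Vale.Agent.P211.HK

open scoped Manifold ContDiff Topology RealInnerProductSpace
open Bundle Filter VectorField MeasureTheory Set
open Vale.Agent.P234 Vale.Agent.P231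

noncomputable section

variable {E : Type} [NormedAddCommGroup E] [NormedSpace ℝ E] [FiniteDimensional ℝ E]
  {M : Type} [MetricSpace M] [ChartedSpace E M] [IsManifold 𝓘(ℝ, E) ∞ M]
  [RiemannianBundle fun p : M => TangentSpace 𝓘(ℝ, E) p]
  [IsContMDiffRiemannianBundle 𝓘(ℝ, E) ∞ E fun p : M => TangentSpace 𝓘(ℝ, E) p]

variable {e : ∀ x : M, TangentSpace 𝓘(ℝ, E) x → M}
  {cov : CovariantDerivative 𝓘(ℝ, E) E (TangentSpace 𝓘(ℝ, E) : M → Type)} {om : Form4 E M}

namespace RG4c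

variable {W : Type} [NormedAddCommGroup W] [InnerProductSpace ℝ W]

/-- components of a section in the frame of the chart -/
def uF {D : ℝ} (L : LocD om D) (u : PreS E M W) (p : M) : W := u p fun i => L.Fr i p

variable {D : ℝ} (L : LocD om D)

theorem pull_eq (h : InjGE e D) (T : L.Rot e cov) (R : Rep W) {u : PreS E M W}
    (hu : u ∈ Sec om R) {x : E × Eu4} (hx : x ∈ L.UB) :
    T.pull u x = R.ρ (trM (T.a x)) (uF L u (L.ex e x)) :=
  hu.2.1 (L.ex e x) (fun i => L.Fr i (L.ex e x)) (T.a x) (L.pon _ (L.ex_mem h hx)) (T.so x hx)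

theorem uF_smooth (R : Rep W) {u : PreS E M W} (hu : u ∈ Sec om R) {p : M} (hp : p ∈ L.O') :
    ContMDiffAt 𝓘(ℝ, E) 𝓘(ℝ, W) ∞ (uF L u) p := hu.2.2 L.Fr p (L.ponnear hp)

theorem uF_ex (h : InjGE e D) (he : IsExp e) (R : Rep W) {u : PreS E M W} (hu : u ∈ Sec om R) :
    ContDiffOn ℝ ∞ (fun x => uF L u (L.ex e x)) L.UB := by
  rw [← contMDiffOn_iff_contDiffOn]
  intro x hx
  exact (uF_smooth L R hu (L.ex_mem h hx)).comp_contMDiffWithinAt x
    (((L.contMDiffOn_ex' he).mono L.UB_sub) x hx)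

theorem contDiffOn_trM {F : Type*} [NormedAddCommGroup F] [NormedSpace ℝ F] {n : WithTop ℕ∞}
    {A : F → Mat4} {s : Set F} (h : ContDiffOn ℝ n A s) :
    ContDiffOn ℝ n (fun x => trM (A x)) s :=
  contDiffOn_mat4 fun i j => contDiffOn_mat4_apply h j i

theorem pull_smooth (h : InjGE e D) (he : IsExp e) (T : L.Rot e cov) (R : Rep W)
    {u : PreS E M W} (hu : u ∈ Sec om R) : ContDiffOn ℝ ∞ (T.pull u) L.UB := by
  have h1 : ContDiffOn ℝ ∞ (fun x => R.ρ (trM (T.a x)) (uF L u (L.ex e x))) L.UB :=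
    (R.smooth.comp_contDiffOn (contDiffOn_trM T.smooth)).clm_apply (uF_ex L h he R hu)
  exact h1.congr fun x hx => pull_eq L h T R hu hx

/-- the derivative of the components in the frame of the chart -/
theorem uF_deriv (h : InjGE e D) (he : IsExp e) (R : Rep W) {u : PreS E M W}
    (hu : u ∈ Sec om R) {x : E × Eu4} (hx : x ∈ L.UB) (k : Fin 4) :
    HasDerivAt (fun t : ℝ => uF L u (L.ex e (x.1, x.2 + t • ev4 k)))
      (dirW (uF L u) (L.ex e x) (L.dk e x k)) 0 := by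
  have h1 : MDifferentiableAt 𝓘(ℝ, E) 𝓘(ℝ, W) (uF L u) (L.ex e x) :=
    (uF_smooth L R hu (L.ex_mem h hx)).mdifferentiableAt (by simp)
  have h2 : MDifferentiableAt 𝓘(ℝ, E × Eu4) 𝓘(ℝ, E) (L.ex e) x :=
    ((L.contMDiffOn_ex' he).contMDiffAt (L.isOpen_UE.mem_nhds (L.UB_sub hx))).mdifferentiableAt
      (by simp)
  have hf : HasFDerivAt (fun v : Eu4 => ((x.1, v) : E × Eu4))
      (ContinuousLinearMap.inr ℝ E Eu4) x.2 := hasFDerivAt_prodMk_right x.1 x.2
  have h3 : MDifferentiableAt 𝓘(ℝ, Eu4) 𝓘(ℝ, E) (fun v : Eu4 => L.ex e (x.1, v)) x.2 :=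
    MDifferentiableAt.comp x.2 h2 hf.differentiableAt.mdifferentiableAt
  have h4 : HasMFDerivAt 𝓘(ℝ, Eu4) 𝓘(ℝ, W) (fun v : Eu4 => uF L u (L.ex e (x.1, v))) x.2
      ((mfderiv 𝓘(ℝ, E) 𝓘(ℝ, W) (uF L u) (L.ex e x)).comp
        (mfderiv 𝓘(ℝ, Eu4) 𝓘(ℝ, E) (fun v : Eu4 => L.ex e (x.1, v)) x.2)) :=
    HasMFDerivAt.comp x.2 h1.hasMFDerivAt h3.hasMFDerivAt
  have h5 := hasMFDerivAt_iff_hasFDerivAt.1 h4
  have h6 : HasDerivAt (fun t : ℝ => x.2 + t • (ev4 k : Eu4)) (ev4 k) 0 := by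
    simpa using ((hasDerivAt_id (0 : ℝ)).smul_const (ev4 k : Eu4)).const_add x.2
  have h7 : HasFDerivAt (fun v : Eu4 => uF L u (L.ex e (x.1, v)))
      ((mfderiv 𝓘(ℝ, E) 𝓘(ℝ, W) (uF L u) (L.ex e x)).comp
        (mfderiv 𝓘(ℝ, Eu4) 𝓘(ℝ, E) (fun v : Eu4 => L.ex e (x.1, v)) x.2))
      (x.2 + (0 : ℝ) • (ev4 k : Eu4)) := by
    rw [zero_smul, add_zero]; exact h5
  exact h7.comp_hasDerivAt (0 : ℝ) h6

theorem dk_expand (hg : Geo4 cov om) (h : InjGE e D) {x : E × Eu4} (hx : x ∈ L.UB) (k : Fin 4) :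
    L.dk e x k = ∑ l, L.th e x k l • L.Fr l (L.ex e x) := by
  have h1 := pon_expand hg (L.pon _ (L.ex_mem h hx)).1 (L.dk e x k)
  refine h1.trans (Finset.sum_congr rfl fun l _ => ?_)
  rw [real_inner_comm]
  rfl

/-- derivative of the rotation -/
theorem a_deriv (T : L.Rot e cov) {x : E × Eu4} (hx : x ∈ L.UB) (k : Fin 4) :
    HasDerivAt (fun t : ℝ => T.a (x.1, x.2 + t • ev4 k))
      (fderiv ℝ (fun v => T.a (x.1, v)) x.2 (ev4 k)) 0 := by
  have h2 : ContDiffAt ℝ ∞ T.a (x.1, x.2) := T.smooth.contDiffAt (L.isOpen_UB.mem_nhds hx)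
  have h3 : ContDiffAt ℝ ∞ (fun v : Eu4 => ((x.1, v) : E × Eu4)) x.2 :=
    contDiffAt_const.prodMk contDiffAt_id
  have h4 : DifferentiableAt ℝ (fun v => T.a (x.1, v)) x.2 :=
    (h2.comp x.2 h3).differentiableAt (by simp)
  have h6 : HasDerivAt (fun t : ℝ => x.2 + t • (ev4 k : Eu4)) (ev4 k) 0 := by
    simpa using ((hasDerivAt_id (0 : ℝ)).smul_const (ev4 k : Eu4)).const_add x.2
  have h7 : HasFDerivAt (fun v => T.a (x.1, v)) (fderiv ℝ (fun v => T.a (x.1, v)) x.2)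
      (x.2 + (0 : ℝ) • (ev4 k : Eu4)) := by
    rw [zero_smul, add_zero]; exact h4.hasFDerivAt
  exact h7.comp_hasDerivAt (0 : ℝ) h6

theorem mem_line {x : E × Eu4} (hx : x ∈ L.UB) (k : Fin 4) :
    ∀ᶠ t : ℝ in 𝓝 0, ((x.1, x.2 + t • ev4 k) : E × Eu4) ∈ L.UB := by
  have h1 : Continuous fun t : ℝ => ((x.1, x.2 + t • (ev4 k : Eu4)) : E × Eu4) := by fun_prop
  have h2 : L.UB ∈ 𝓝 ((x.1, x.2 + (0 : ℝ) • (ev4 k : Eu4)) : E × Eu4) := by
    rw [zero_smul, add_zero]; exact L.isOpen_UB.mem_nhds hx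
  exact h1.continuousAt.preimage_mem_nhds h2

theorem pull_deriv (h : InjGE e D) (he : IsExp e) (T : L.Rot e cov)
    (R : Rep W) {u : PreS E M W} (hu : u ∈ Sec om R) {x : E × Eu4} (hx : x ∈ L.UB) (k : Fin 4) :
    fderiv ℝ (fun v => T.pull u (x.1, v)) x.2 (ev4 k) =
      R.ρ (trM (T.a x)) (dirW (uF L u) (L.ex e x) (L.dk e x k) +
        R.d (mulM (T.a x) (trM (fderiv ℝ (fun v => T.a (x.1, v)) x.2 (ev4 k))))
          (uF L u (L.ex e x))) := by
  have h0 : x.2 + (0 : ℝ) • (ev4 k : Eu4) = x.2 := by rw [zero_smul, add_zero]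
  have hd : DifferentiableAt ℝ (fun v => T.pull u (x.1, v)) x.2 := by
    have h2 : ContDiffAt ℝ ∞ (T.pull u) (x.1, x.2) :=
      (pull_smooth L h he T R hu).contDiffAt (L.isOpen_UB.mem_nhds hx)
    have h3 : ContDiffAt ℝ ∞ (fun v : Eu4 => ((x.1, v) : E × Eu4)) x.2 :=
      contDiffAt_const.prodMk contDiffAt_id
    exact (h2.comp x.2 h3).differentiableAt (by simp)
  have h6 : HasDerivAt (fun t : ℝ => x.2 + t • (ev4 k : Eu4)) (ev4 k) 0 := by
    simpa using ((hasDerivAt_id (0 : ℝ)).smul_const (ev4 k : Eu4)).const_add x.2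
  have h7 : HasDerivAt (fun t : ℝ => T.pull u (x.1, x.2 + t • ev4 k))
      (fderiv ℝ (fun v => T.pull u (x.1, v)) x.2 (ev4 k)) 0 := by
    have h8 : HasFDerivAt (fun v => T.pull u (x.1, v)) (fderiv ℝ (fun v => T.pull u (x.1, v)) x.2)
        (x.2 + (0 : ℝ) • (ev4 k : Eu4)) := by
      rw [h0]; exact hd.hasFDerivAt
    exact h8.comp_hasDerivAt (0 : ℝ) h6
  have hso : ∀ᶠ t : ℝ in 𝓝 0, IsSO (trM (T.a (x.1, x.2 + t • ev4 k))) := by
    filter_upwards [mem_line L hx k] with t ht using (T.so _ ht).tr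
  have h9 := R.hasDerivAt_path' hso (hasDerivAt_trM (a_deriv L T hx k))
  have h10 := h9.clm_apply (uF_deriv L h he R hu hx k)
  have h11 : (fun t : ℝ => T.pull u (x.1, x.2 + t • ev4 k)) =ᶠ[𝓝 0] fun t =>
      R.ρ (trM (T.a (x.1, x.2 + t • ev4 k))) (uF L u (L.ex e (x.1, x.2 + t • ev4 k))) := by
    filter_upwards [mem_line L hx k] with t ht using pull_eq L h T R hu ht
  have h12 := h7.unique (h10.congr_of_eventuallyEq h11)
  rw [h12, h0, trM_trM, map_add, add_comm]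
  rfl

theorem trM_add (A B : Mat4) : trM (A + B) = trM A + trM B := rfl

theorem rg4 (e : ∀ x : M, TangentSpace 𝓘(ℝ, E) x → M)
    (cov : CovariantDerivative 𝓘(ℝ, E) E (TangentSpace 𝓘(ℝ, E) : M → Type)) (om : Form4 E M) :
    RG4Stmt e cov om := by
  intro D H L T W _ _ _ R Q hQ u hu
  have he := H.facts.isExp
  refine ⟨pull_smooth L H.inj he T R hu, fun x hx k => ?_⟩
  set a := T.a x with ha
  set a' := fderiv ℝ (fun v => T.a (x.1, v)) x.2 (ev4 k) with ha'
  have hso : IsSO a := T.so x hx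
  have hpon := L.ponnear (L.ex_mem H.inj hx)
  have hGs : IsSkew (L.Gk e cov x k) := by
    intro i j
    unfold LocD.Gk
    rw [← Finset.sum_neg_distrib]
    refine Finset.sum_congr rfl fun l _ => ?_
    rw [GaF_skew H.geo hpon l i j]
    ring
  -- the derivative of the rotation
  have hsk : IsSkew (mulM a (trM a')) := by
    have h1 : ∀ᶠ t : ℝ in 𝓝 0, IsSO (trM (T.a (x.1, x.2 + t • ev4 k))) := by
      filter_upwards [mem_line L hx k] with t ht using (T.so _ ht).tr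
    have h2 := skew_of_path h1 (hasDerivAt_trM (a_deriv L T hx k))
    rw [zero_smul, add_zero, trM_trM] at h2
    exact h2
  have hsk2 : mulM a' (trM a) = - mulM a (trM a') := by
    have h1 := isSkew_iff.1 hsk
    rw [trM_mulM, trM_trM] at h1
    exact h1
  have hsk3 : IsSkew (L.Gk e cov x k + mulM a' (trM a)) := by
    rw [hsk2]; exact hGs.add hsk.neg
  -- the connection matrix
  have hA : T.A x k = adM (trM a) (L.Gk e cov x k + mulM a' (trM a)) := by
    unfold LocD.Rot.A adM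
    rw [trM_trM, mulM_add, add_mulM, mulM_assoc (trM a) (L.Gk e cov x k) a]
    congr 1
    rw [mulM_assoc, mulM_assoc a' (trM a) a, hso.1, mulM_one]
  unfold RadData.dW
  rw [hQ.B x hx k, hA, R.d_adM hso.tr hsk3, trM_trM, pull_deriv L H.inj he T R hu hx k]
  change _ + (R.ρ (trM a)) ((R.d _) ((R.ρ a) (T.pull u x))) = _
  rw [pull_eq L H.inj T R hu hx]
  have hone : (R.ρ a) ((R.ρ (trM a)) (uF L u (L.ex e x))) = uF L u (L.ex e x) := by
    have h1 := R.mul a (trM a) hso hso.tr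
    rw [hso.right, R.one] at h1
    exact (DFunLike.congr_fun h1 (uF L u (L.ex e x))).symm
  rw [← ha, hone, ← map_add, R.d_add, hsk2, R.d_neg, ← ha']
  -- the right hand side
  have sc2 : SC2Stmt cov om := sc2_of cov om sc0 (sc1 cov om)
  have hn := sc2 H.geo W R R.tn R.tens_tn u hu
  have h3 : nabS cov om u (L.ex e x) (T.eh x) =
      R.tn.ρ (trM a) (nabS cov om u (L.ex e x) fun i => L.Fr i (L.ex e x)) :=
    hn.2.1 (L.ex e x) (fun i => L.Fr i (L.ex e x)) a hpon.pon hso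
  rw [h3, R.tens_tn _ hso.tr]
  have h4 : ∀ l, (tnMap (trM a) (R.ρ (trM a)) (nabS cov om u (L.ex e x) fun i =>
      L.Fr i (L.ex e x))) l = ∑ m, a m l • R.ρ (trM a)
        ((nabS cov om u (L.ex e x) fun i => L.Fr i (L.ex e x)) m) := fun l =>
    tnMap_apply _ _ _ l
  have h5 : ∀ X : Fin 4 → W, ∑ l, mulM (L.th e x) a k l • ∑ m, a m l • X m =
      ∑ m, L.th e x k m • X m := by
    intro X
    have h6 : mulM (mulM (L.th e x) a) (trM a) = L.th e x := by
      rw [mulM_assoc, hso.right, mulM_one]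
    conv_rhs => rw [← h6]
    simp only [Finset.smul_sum, smul_smul]
    rw [Finset.sum_comm]
    refine Finset.sum_congr rfl fun m _ => ?_
    rw [← Finset.sum_smul]
    rfl
  simp only [h4]
  rw [h5]
  simp only [sc1 cov om H.geo W R u hu (L.ex e x) L.Fr hpon]
  have h7 : ∑ m, L.th e x k m • R.ρ (trM a) (dirW (fun q => u q fun i => L.Fr i q) (L.ex e x)
      (L.Fr m (L.ex e x)) + R.d (GaF cov L.Fr (L.ex e x) m) (u (L.ex e x) fun i =>
        L.Fr i (L.ex e x))) = R.ρ (trM a) (dirW (uF L u) (L.ex e x) (L.dk e x k) +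
        R.d (L.Gk e cov x k) (uF L u (L.ex e x))) := by
    have h8 : L.Gk e cov x k = ∑ m, L.th e x k m • GaF cov L.Fr (L.ex e x) m := by
      ext i j
      simp only [LocD.Gk, Finset.sum_apply, Pi.smul_apply, smul_eq_mul]
    have h9 : dirW (uF L u) (L.ex e x) (L.dk e x k) = ∑ m, L.th e x k m •
        dirW (uF L u) (L.ex e x) (L.Fr m (L.ex e x)) := by
      rw [dk_expand L H.geo H.inj hx k]
      unfold dirW
      rw [map_sum]
      exact Finset.sum_congr rfl fun m _ => map_smul _ _ _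
    rw [h8, h9, R.d_sum]
    simp only [R.d_smul, sum_apply, smul_apply, map_add, map_sum, map_smul,
      smul_add, Finset.sum_add_distrib]
    rfl
  rw [h7]
  congr 1
  simp only [neg_apply, add_apply]
  abel

end RG4c

/-- RG4, name used by RGPatch -/
theorem rg4c (e : ∀ x : M, TangentSpace 𝓘(ℝ, E) x → M)
    (cov : CovariantDerivative 𝓘(ℝ, E) E (TangentSpace 𝓘(ℝ, E) : M → Type)) (om : Form4 E M) :
    RG4Stmt e cov om := RG4c.rg4 e cov om

end

end Vale.Agent.P211.HK
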