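import Vale.Agent.P211.HK.SC1
import Vale.Agent.P211.HK.SC2

/-! P211 / HK: `∇*∇` of a section is a section (helper972). -/

set_option maxSynthPendingDepth 3
set_option linter.unusedSectionVars false

namespace Vale.Agent.P211.HK

open scoped Manifold ContDiff Topology RealInnerProductSpace
open Bundle Filter VectorField MeasureTheory

noncomputable section

variable {W : Type} [NormedAddCommGroup W] [InnerProductSpace ℝ W]
  {E : Type} [NormedAddCommGroup E] [NormedSpace ℝ E] [FiniteDimensional ℝ E]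
  {M : Type} [TopologicalSpace M] [ChartedSpace E M] [IsManifold 𝓘(ℝ, E) ∞ M] [T2Space M]
  [RiemannianBundle fun p : M => TangentSpace 𝓘(ℝ, E) p]
  [IsContMDiffRiemannianBundle 𝓘(ℝ, E) ∞ E fun p : M => TangentSpace 𝓘(ℝ, E) p]
  {cov : CovariantDerivative 𝓘(ℝ, E) E (TangentSpace 𝓘(ℝ, E) : M → Type)}
  {om : Form4 E M}

theorem nabS_of_not_pon {u : PreS E M W} {p : M} {f : Fin 4 → TangentSpace 𝓘(ℝ, E) p}
    (h : ¬ PON om p f) : nabS cov om u p f = 0 := by
  unfold nabS
  rw [dif_neg fun h' => h h'.1]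

/-- locality: if `u` vanishes near `p` on all frames then so does its derivative -/
theorem nabS_of_zero {u : PreS E M W} {p : M} (h : ∀ᶠ q in 𝓝 p, ∀ f, u q f = 0)
    (f : Fin 4 → TangentSpace 𝓘(ℝ, E) p) : nabS cov om u p f = 0 := by
  unfold nabS
  split_ifs with h'
  · have h1 : ∀ F : Fin 4 → VF E M, ∀ k, dirW (fun q => u q fun i => F i q) p (f k) = 0 := by
      intro F k
      have h2 : ∀ᶠ q in 𝓝 p, (fun q => u q fun i => F i q) q = (fun _ => (0 : W)) q := by
        filter_upwards [h] with q hq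
        exact hq _
      rw [SC2.dirW_congr h2]
      unfold dirW
      rw [mfderiv_const]
      rfl
    simp only [h1]
    rfl
  · rfl

theorem lapS_of_zero {u : PreS E M W} {p : M} (h : ∀ᶠ q in 𝓝 p, ∀ f, u q f = 0)
    (f : Fin 4 → TangentSpace 𝓘(ℝ, E) p) : lapS cov om u p f = 0 := by
  have h1 : ∀ᶠ q in 𝓝 p, ∀ f, nabS cov om u q f = 0 := by
    filter_upwards [h.eventually_nhds] with q hq f
    exact nabS_of_zero hq f
  unfold lapS
  simp [nabS_of_zero h1]

theorem lapS_of_not_pon {u : PreS E M W} {p : M} {f : Fin 4 → TangentSpace 𝓘(ℝ, E) p}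
    (h : ¬ PON om p f) : lapS cov om u p f = 0 := by
  unfold lapS
  simp [nabS_of_not_pon (cov := cov) h]

/-- `∇*∇` of a section is a section -/
theorem lapS_mem_of (hG : Geo4 cov om) [FiniteDimensional ℝ W] {R : Rep W} {R' : Rep (Tn W)}
    {R'' : Rep (Tn (Tn W))} (h1 : Tens R R') (h2 : Tens R' R'') {u : PreS E M W}
    (hu : u ∈ Sec om R) : lapS cov om u ∈ Sec om R := by
  have sc2 : SC2Stmt cov om := sc2_of cov om sc0 (sc1 cov om)
  have hu1 := sc2 hG W R R' h1 u hu
  have hu2 := sc2 hG (Tn W) R' R'' h2 _ hu1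
  refine ⟨fun p f hf => lapS_of_not_pon hf, fun p f g hf hg => ?_, fun F p hF => ?_⟩
  · have e := hu2.2.1 p f g hf hg
    unfold lapS
    rw [e, h2 _ (SC2.isSO_trM hg), map_neg, map_sum]
    congr 1
    have e2 : ∀ k : Fin 4, (tnMap (trM g) (R'.ρ (trM g))
        (nabS cov om (nabS cov om u) p f)) k k = ∑ l, ∑ j, (g l k * g j k) •
          R.ρ (trM g) (nabS cov om (nabS cov om u) p f l j) := by
      intro k
      rw [SC2.tnMap_apply, WithLp.ofLp_sum, Finset.sum_apply]
      refine Finset.sum_congr rfl fun l _ => ?_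
      rw [h1 _ (SC2.isSO_trM hg), WithLp.ofLp_smul, Pi.smul_apply, SC2.tnMap_apply,
        Finset.smul_sum]
      refine Finset.sum_congr rfl fun j _ => ?_
      rw [smul_smul]
      rfl
    simp only [e2]
    rw [Finset.sum_comm]
    refine Finset.sum_congr rfl fun l _ => ?_
    rw [Finset.sum_comm]
    have e3 : ∀ j, ∑ k, (g l k * g j k) = if l = j then 1 else 0 := by
      intro j
      have := congrFun (congrFun (IsSO.mul_tr hg) l) j
      exact this
    have e4 : ∀ j, ∑ k, (g l k * g j k) • R.ρ (trM g) (nabS cov om (nabS cov om u) p f l j) =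
        if l = j then R.ρ (trM g) (nabS cov om (nabS cov om u) p f l j) else 0 := by
      intro j
      rw [← Finset.sum_smul, e3 j]
      split_ifs
      · rw [one_smul]
      · rw [zero_smul]
    simp only [e4]
    simp
  · have e := hu2.2.2 F p hF
    have e1 : ∀ k : Fin 4, ContMDiffAt 𝓘(ℝ, E) 𝓘(ℝ, W) ∞
        (fun q => (nabS cov om (nabS cov om u) q fun i => F i q) k k) p := by
      intro k
      have c1 : ContDiff ℝ ∞ (fun w : Tn (Tn W) => w k k) :=
        (((PiLp.proj 2 (fun _ : Fin 4 => W) k : Tn W →L[ℝ] W).comp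
          (PiLp.proj 2 (fun _ : Fin 4 => Tn W) k : Tn (Tn W) →L[ℝ] Tn W)).contDiff :)
      exact (c1.contMDiff.contMDiffAt.comp p e :)
    have e2 := ContMDiffAt.sum (t := Finset.univ) fun k _ => e1 k
    exact (contDiff_neg.contMDiff.contMDiffAt.comp p e2 :)

end

end Vale.Agent.P211.HK
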