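import Vale.Agent.P211.HK.RegK
import Vale.Agent.P211.HK.LKDefs
import Vale.Agent.P211.HK.LapMem
import Vale.Agent.P211.HK.EU1
import Vale.Agent.P211.HK.EU2

/-! P211 / HK / REG (helper674): `REGStmt` from the atlas (LKA), the kernel data (LKK) and the
smoothness of lifted kernels (LKP2). -/

set_option maxSynthPendingDepth 3
set_option linter.unusedSectionVars false

namespace Vale.Agent.P211.HK

open scoped Manifold ContDiff Topology RealInnerProductSpace
open Bundle Filter VectorField MeasureTheory Set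

noncomputable section

namespace Reg

variable {W : Type} [NormedAddCommGroup W] [InnerProductSpace ℝ W] [FiniteDimensional ℝ W]

variable {E : Type} [NormedAddCommGroup E] [NormedSpace ℝ E] [FiniteDimensional ℝ E]
  {M : Type} [TopologicalSpace M] [ChartedSpace E M] [IsManifold 𝓘(ℝ, E) ∞ M] [T2Space M]
  [RiemannianBundle fun p : M => TangentSpace 𝓘(ℝ, E) p]
  [IsContMDiffRiemannianBundle 𝓘(ℝ, E) ∞ E fun p : M => TangentSpace 𝓘(ℝ, E) p]
  {cov : CovariantDerivative 𝓘(ℝ, E) E (TangentSpace 𝓘(ℝ, E) : M → Type)}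
  {om : Form4 E M}

/-- values of a section in two frames -/
theorem sec_frame (h : Geo4 cov om) {R : Rep W} {u : PreS E M W} (hu : u ∈ Sec om R) {p : M}
    {f f' : Fin 4 → TangentSpace 𝓘(ℝ, E) p} (hf : PON om p f) (hf' : PON om p f') :
    u p f' = R.ρ (trM (matF f f')) (u p f) := by
  obtain ⟨h1, h2⟩ := matF_spec h hf hf'
  have := hu.2.1 p f (matF f f') hf h1
  rw [← h2] at this
  exact this

variable [CompactSpace M] [MeasurableSpace M] [BorelSpace M] {μ : Measure M}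

theorem sm_matF_left {fr' : (p : M) → Fin 4 → TangentSpace 𝓘(ℝ, E) p}
    (S' : FrSel om fr') (F : Fin 4 → VF E M) :
    StronglyMeasurable fun x => matF (fun i => F i x) (fr' x) := by
  have h := VOL.sm_pieces (Z := Mat4) S'.meas S'.disj S'.cover
    (g := fun x => matF (fun i => F i x) (fr' x)) (G := fun j x => gFF F (S'.F j) x)
    (fun i x hx => by
      rw [S'.eq i x hx]
      rfl)
    (fun i => (gFF_smooth F (S'.F i)).continuous.continuousOn)
  rwa [indicator_univ] at h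

theorem sm_matF {fr fr' : (p : M) → Fin 4 → TangentSpace 𝓘(ℝ, E) p}
    (S : FrSel om fr) (S' : FrSel om fr') :
    StronglyMeasurable fun x => matF (fr x) (fr' x) := by
  have h1 : (fun x => matF (fr x) (fr' x)) = ∑ i, (S.S i).indicator
      (fun x => matF (fun j => S.F i j x) (fr' x)) := by
    funext x
    rw [Finset.sum_apply]
    obtain ⟨i, hi⟩ := mem_iUnion.1 (S.cover.symm ▸ mem_univ x : x ∈ ⋃ i, S.S i)
    rw [Finset.sum_eq_single i]
    · rw [indicator_of_mem hi, S.eq i x hi]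
    · intro j _ hj
      refine indicator_of_notMem (fun hxj => ?_) _
      exact (Set.disjoint_left.1 (S.disj hj)) hxj hi
    · intro h; exact absurd (Finset.mem_univ i) h
  rw [h1]
  exact Finset.stronglyMeasurable_sum _ fun i _ => (sm_matF_left S' (S.F i)).indicator (S.meas i)

theorem continuous_trM : Continuous trM := by
  refine continuous_pi fun i => continuous_pi fun j => ?_
  exact (continuous_apply i).comp (continuous_apply j)

/-- an `L²` section in another frame selection -/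
theorem exists_transport (h : Geo4 cov om) (R : Rep W)
    {fr fr' : (p : M) → Fin 4 → TangentSpace 𝓘(ℝ, E) p}
    (S : FrSel om fr) (S' : FrSel om fr') (b : Lp W 2 μ) :
    ∃ b' : Lp W 2 μ, ∀ᵐ x ∂μ, b' x = R.ρ (trM (matF (fr x) (fr' x))) (b x) := by
  have hm : StronglyMeasurable fun x => R.ρ (trM (matF (fr x) (fr' x))) (b x) := by
    have h1 : StronglyMeasurable fun x => R.ρ (trM (matF (fr x) (fr' x))) :=
      (R.smooth.continuous.comp continuous_trM).comp_stronglyMeasurable (sm_matF S S')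
    have h2 : Continuous fun z : (W →L[ℝ] W) × W => z.1 z.2 := by fun_prop
    exact h2.comp_stronglyMeasurable (h1.prodMk (Lp.stronglyMeasurable b))
  have hL : MemLp (fun x => R.ρ (trM (matF (fr x) (fr' x))) (b x)) 2 μ := by
    refine (Lp.memLp b).congr_norm hm.aestronglyMeasurable
      (Filter.Eventually.of_forall fun x => ?_)
    have h1 := (matF_spec h (S.ponfr x) (S'.ponfr x)).1.tr
    have h2 := R.inner _ h1 (b x) (b x)
    rw [real_inner_self_eq_norm_sq, real_inner_self_eq_norm_sq] at h2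
    exact ((sq_eq_sq₀ (norm_nonneg _) (norm_nonneg _)).1 h2).symm
  exact ⟨hL.toLp _, hL.coeFn_toLp⟩

end Reg

open Reg

variable {E : Type} [NormedAddCommGroup E] [NormedSpace ℝ E] [FiniteDimensional ℝ E]
  {M : Type} [MetricSpace M] [ChartedSpace E M] [IsManifold 𝓘(ℝ, E) ∞ M]
  [RiemannianBundle fun p : M => TangentSpace 𝓘(ℝ, E) p]
  [IsContMDiffRiemannianBundle 𝓘(ℝ, E) ∞ E fun p : M => TangentSpace 𝓘(ℝ, E) p]
  [CompactSpace M] [MeasurableSpace M] [BorelSpace M]
  {cov : CovariantDerivative 𝓘(ℝ, E) E (TangentSpace 𝓘(ℝ, E) : M → Type)}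
  {om : Form4 E M} {μ : Measure M} {D : ℝ}

namespace Reg

theorem idx_eq (A : MAtlas cov om μ D) {a : Fin A.n} {y : M} (hy : y ∈ A.B a) : A.idx y = a := by
  by_contra hne
  exact (Set.disjoint_left.1 (A.disj hne)) (A.mem_idx y) hy

theorem ptc_co (P : Patch cov om μ D) {y : M} (hy : y ∈ P.dom) : ptc P.q₀ (P.co y) = y :=
  (extChartAt 𝓘(ℝ, E) P.q₀).left_inv hy.1

theorem co_mem (P : Patch cov om μ D) {y : M} (hy : y ∈ P.dom) : P.co y ∈ P.O := hy.2

theorem pon_dom (P : Patch cov om μ D) {y : M} (hy : y ∈ P.dom) : PONnear om y P.F := by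
  have := P.F_pon _ (co_mem P hy)
  rwa [ptc_co P hy] at this

variable {W : Type} [NormedAddCommGroup W] [InnerProductSpace ℝ W] [FiniteDimensional ℝ W]

/-- the kernels of the parametrix and of the error are smooth -/
theorem smK_z (h : Geo4 cov om) (P : Patch cov om μ D) (hP : LKP2Stmt P) (R : Rep W)
    {χ : Eu4 → ℝ} (hχ : EU5.Cut D χ) (N n : ℕ) :
    SmK om R n (Ioi 0) P.dom (P.zK R χ N) := by
  have hsm : ContDiffOn ℝ (n : ℕ∞) (fun x : ℝ × E × Eu4 =>
      (fun (t : ℝ) (z : E × Eu4) => χ z.2 • (P.rad R).par N t z) x.1 x.2)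
      (Ioi 0 ×ˢ P.O ×ˢ Metric.ball 0 D) := by
    have h1 : ContDiffOn ℝ ∞ (fun x : ℝ × E × Eu4 => (P.rad R).par N x.1 x.2)
        (Ioi 0 ×ˢ P.O ×ˢ Metric.ball 0 D) :=
      (EU5.contDiffOn_par eu2 (P.rad R) N).mono (by rintro x ⟨h1, h2⟩; exact ⟨h1, h2⟩)
    have h2 : ContDiffOn ℝ ∞ (fun x : ℝ × E × Eu4 => χ x.2.2) (Ioi 0 ×ˢ P.O ×ˢ Metric.ball 0 D) :=
      hχ.smooth.comp_contDiffOn (by fun_prop)
    exact (EU5.cdo_smul h2 h1).of_le (by exact_mod_cast le_top)
  exact hP h W R (n : ℕ∞) (Ioi 0) _ isOpen_Ioi hsm fun t _ _ _ v hv => by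
    simp only
    rw [hχ.zero v hv, zero_smul]

theorem smK_e (h : Geo4 cov om) (P : Patch cov om μ D) (hP : LKP2Stmt P) (R : Rep W)
    {χ : Eu4 → ℝ} (hχ : EU5.Cut D χ) (N n : ℕ) (hN : 2 * n + 3 ≤ N) :
    SmK om R n univ P.dom (P.eK R χ N) :=
  hP h W R (n : ℕ∞) univ (fun t z => (P.rad R).err χ N t z) isOpen_univ
    ((P.rad R).err_contDiffOn eu1 eu2 hχ n N hN) fun t _ _ hy _ hv =>
      (P.rad R).err_eq_zero eu1 eu2 hχ N t hy hv

/-- local regularity at one point, to one order -/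
theorem local_reg [IsFiniteMeasure μ] [hpos : μ.IsOpenPosMeasure] (h : Geo4 cov om)
    (hdiv : DivThm cov om μ)
    (A : MAtlas cov om μ D) {a : Fin A.n} {p₀ : M} (ha : A.B a ∈ 𝓝 p₀) {χ : Eu4 → ℝ}
    (hχ : EU5.Cut D χ) (n : ℕ)
    (hE : Nonempty (FrSel om A.fr)) (hK : LKKStmt A χ (2 * n + 5)) (hP : LKP2Stmt (A.P a))
    (R : Rep W) {fr : (p : M) → Fin 4 → TangentSpace 𝓘(ℝ, E) p} (hfr : Nonempty (FrSel om fr))
    (b : Lp W 2 μ) (l : ℝ)
    (hb : ∀ u ∈ Sec (E := E) (M := M) om R, ∫ x, ⟪b x, lapS cov om u x (fr x)⟫ ∂μ =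
      l * ∫ x, ⟪b x, u x (fr x)⟫ ∂μ) :
    ∃ (V : Set M) (F : Fin 4 → VF E M) (g : M → W), IsOpen V ∧ p₀ ∈ V ∧
      (∀ p ∈ V, PONnear om p F) ∧ ContMDiffOn 𝓘(ℝ, E) 𝓘(ℝ, W) (n : WithTop ℕ∞) g V ∧
      ∀ᵐ y ∂μ, y ∈ V → g y = R.ρ (trM (matF (fr y) fun i => F i y)) (b y) := by
  obtain ⟨S⟩ := hfr
  obtain ⟨S'⟩ := hE
  obtain ⟨b', hb'⟩ := exists_transport h R S S' b
  -- the weak equation in the frames of the atlas
  have hweak : ∀ u ∈ Sec (E := E) (M := M) om R,
      ∫ x, ⟪b' x, lapS cov om u x (A.fr x)⟫ ∂μ = l * ∫ x, ⟪b' x, u x (A.fr x)⟫ ∂μ := by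
    intro u hu
    have hpair : ∀ v ∈ Sec (E := E) (M := M) om R,
        ∫ x, ⟪b' x, v x (A.fr x)⟫ ∂μ = ∫ x, ⟪b x, v x (fr x)⟫ ∂μ := by
      intro v hv
      refine integral_congr_ae ?_
      filter_upwards [hb'] with x hx
      rw [hx, sec_frame h hv (S.ponfr x) (S'.ponfr x)]
      exact R.inner _ (matF_spec h (S.ponfr x) (S'.ponfr x)).1.tr _ _
    rw [hpair u hu, hpair _ (lapS_mem_of h R.tens_tn R.tn.tens_tn hu)]
    exact hb u hu
  obtain ⟨K, hev, hLf, hKz, hKe, -⟩ :=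
    hK h inferInstance inferInstance hdiv hχ (by omega) W R
  have hfa : ∀ y ∈ A.B a, A.fr y = fun i => (A.P a).F i y := by
    intro y hy
    unfold MAtlas.fr
    rw [idx_eq A hy]
  have hVB : interior (A.B a) ⊆ A.B a := interior_subset
  have hVd : interior (A.B a) ⊆ (A.P a).dom := fun y hy => A.sub a (subset_closure (hVB hy))
  have hid : ∀ y ∈ A.B a, R.ρ (trM (matF (A.fr y) fun i => (A.P a).F i y)) =
      ContinuousLinearMap.id ℝ W := by
    intro y hy
    rw [← hfa y hy, matF_self (S'.ponfr y).1, trM_idM, R.one]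
  have hsub : ∀ {T : Set ℝ} {K : ℝ → PreK E M W W}, SmK om R n T (A.P a).dom K →
      SmK om R n T (interior (A.B a)) K := fun hK' =>
    ⟨fun t ht p f q hq => hK'.zero t ht p f q (hVd hq),
      fun t ht p f q hq => hK'.equiv t ht p f q (hVd hq),
      fun F t p q ht hq => hK'.smooth F t p q ht (hVd hq)⟩
  have Q : LocSmooth cov om R A.fr K p₀ n :=
    { ev_eq := fun u x => hev u x
      Lf_eq := fun u x => hLf u x
      V := interior (A.B a)
      V_open := isOpen_interior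
      mem := mem_interior_iff_mem_nhds.2 ha
      F := (A.P a).F
      pon := fun p hp => pon_dom (A.P a) (hVd hp)
      O₂ := univ
      O₂_open := isOpen_univ
      Icc_sub := subset_univ _
      Kz := (A.P a).zK R χ (2 * n + 5)
      Ke := (A.P a).eK R χ (2 * n + 5)
      smz := hsub (smK_z h (A.P a) hP R hχ _ n)
      sme := hsub (smK_e h (A.P a) hP R hχ _ n (by omega))
      z_eq := fun x y hy => by
        rw [hid y (hVB hy), ContinuousLinearMap.comp_id, hKz]
        unfold MAtlas.z MAtlas.glue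
        rw [idx_eq A (hVB hy)]
      e_eq := fun s _ x y hy => by
        rw [hid y (hVB hy), ContinuousLinearMap.comp_id, hKe]
        unfold MAtlas.e MAtlas.glue
        rw [idx_eq A (hVB hy)] }
  obtain ⟨q⟩ := Q.locDuh hweak
  obtain ⟨V, F, g, h1, h2, h3, h4, h5⟩ := q.local_rep h (lk2e cov om μ) ⟨S'⟩ S'.ponfr
  refine ⟨V, F, g, h1, h2, h3, h4, ?_⟩
  filter_upwards [h5, hb'] with y hy hy' hyV
  rw [hy hyV, hy']
  exact rho_matF h R (S.ponfr y) (S'.ponfr y) (h3 y hyV).pon (b y)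

end Reg

/-- REG, from LKA, LKE (frame selection), LKK, LKP2. -/
theorem reg_of [IsRiemannianManifold 𝓘(ℝ, E) M] [ConnectedSpace M]
    (hA : LKAStmt cov om μ)
    (hE : ∀ (D : ℝ) (A : MAtlas cov om μ D) (χ : Eu4 → ℝ) (N : ℕ), LKEStmt A χ N)
    (hK : ∀ (D : ℝ) (A : MAtlas cov om μ D) (χ : Eu4 → ℝ) (N : ℕ), LKKStmt A χ N)
    (hP : ∀ (D : ℝ) (P : Patch cov om μ D), LKP2Stmt P) : REGStmt cov om μ := by
  intro h hPS hfin hpos hdiv W _ _ _ R fr hfr b l hb
  have hpon : ∀ p, PON om p (fr p) := fun p => hfr.some.ponfr p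
  have hn : ∀ n : ℕ, ∃ u ∈ SecN (E := E) om R (n : WithTop ℕ∞), ∀ᵐ y ∂μ, u y (fr y) = b y :=
    fun n => glueN h R (by exact_mod_cast le_top) fr hpon b fun p₀ => by
      obtain ⟨D, A, hD, a, ha⟩ := hA h hPS p₀
      obtain ⟨χ, hχ, -⟩ := EU5.exists_cut hD
      exact Reg.local_reg h hdiv A ha hχ n (hE D A χ 5 h hfin hχ le_rfl).1 (hK D A χ _)
        (hP D (A.P a)) R hfr b l hb
  choose u hu hub using hn
  obtain ⟨-, hf2, hf3⟩ := lk2f μ h hpos W R fr hfr
  have hle : ∀ n : ℕ, SecN (E := E) om R (n : WithTop ℕ∞) ⊆ SecN (E := E) om R 0 := by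
    rintro n v ⟨hv1, hv2, hv3⟩
    exact ⟨hv1, hv2, fun F p hF => (hv3 F p hF).of_le (by exact_mod_cast Nat.zero_le n)⟩
  have heq : ∀ n, u n = u 0 := by
    intro n
    refine hf2 (u n) (hle n (hu n)) (u 0) (hle 0 (hu 0)) ?_
    filter_upwards [hub n, hub 0] with y h1 h2
    rw [h1, h2]
  refine ⟨u 0, (hf3 (u 0)).2 fun n => ?_, ?_⟩
  · rw [← heq n]
    exact hu n
  · filter_upwards [hub 0] with y hy
    exact hy.symm

end

end Vale.Agent.P211.HK
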