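import Vale.Agent.P211.HK.HKInst
import Vale.Agent.P211.HK.Dense
import Vale.Agent.P211.HK.LKJ
import Vale.Agent.P211.HK.LKI
import Vale.Agent.P211.HK.EU4
import Vale.Agent.P211.HK.EU2
import Vale.Agent.P211.HK.VolGlue
import Vale.Agent.P211.HK.Atlas
import Vale.Agent.P211.HK.Schur
import Vale.Agent.P211.HK.Mem
import Vale.Agent.P211.HK.Glue
import Vale.Agent.P211.HK.RegFin
import Vale.Agent.P211.HK.RGPatch

/-! P211 / HK: `HKMainStmt` for the Riemannian volume, unconditional (helper287). -/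

set_option maxSynthPendingDepth 3
set_option linter.unusedSectionVars false
set_option linter.unusedVariables false

namespace Vale.Agent.P211.HK

open scoped Manifold ContDiff Topology RealInnerProductSpace ENNReal
open Bundle Filter VectorField MeasureTheory Set
open Vale.Agent.P234 Vale.Agent.P231

noncomputable section

variable {E : Type} [NormedAddCommGroup E] [NormedSpace ℝ E] [FiniteDimensional ℝ E]
  {M : Type} [MetricSpace M] [ChartedSpace E M] [IsManifold 𝓘(ℝ, E) ∞ M]
  [RiemannianBundle fun p : M => TangentSpace 𝓘(ℝ, E) p]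
  [IsContMDiffRiemannianBundle 𝓘(ℝ, E) ∞ E fun p : M => TangentSpace 𝓘(ℝ, E) p]
  [IsRiemannianManifold 𝓘(ℝ, E) M] [CompactSpace M] [ConnectedSpace M]
  [MeasurableSpace M] [BorelSpace M]
  (cov : CovariantDerivative 𝓘(ℝ, E) E (TangentSpace 𝓘(ℝ, E) : M → Type))
  (om : Form4 E M)

/-- HKMain for the Riemannian volume. -/
theorem hkMain : HKMainStmt cov om (riemVol 4 M) := by
  intro hG
  have := finite_riemVol (M := M) hG.dim
  have hpos : (riemVol 4 M).IsOpenPosMeasure :=
    ⟨fun U hU hne => (riemVol_open_pos hG.dim U hU hne).ne'⟩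
  have hA : LKAStmt cov om (riemVol 4 M) := lka cov om (riemVol 4 M)
  have hE : ∀ (D : ℝ) (A : MAtlas cov om (riemVol 4 M) D) (χ : Eu4 → ℝ) (N : ℕ),
      LKEStmt A χ N := fun D A χ N => lke A χ N
  have hK : ∀ (D : ℝ) (A : MAtlas cov om (riemVol 4 M) D) (χ : Eu4 → ℝ) (N : ℕ),
      LKKStmt A χ N := fun D A χ N =>
    lkk_of A χ N (hE D A χ N) (lkf A χ N) (lkg A χ N) (lkh A χ N)
  exact hkMain_of hpos (divZero_riemVol hG) (patchStmt cov om) hA hK
    (fun D A χ N => lki eu2 A χ N) (fun D A χ N => lkj eu2 (eu4 eu2) A χ N) hE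
    (reg_of hA hE hK fun D P => lkp2 P) hG

end

end Vale.Agent.P211.HK
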