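import Vale.Agent.P211.HK.SecStmt
import Vale.Agent.P231.MathlibUsed
import Mathlib.AlgebraicTopology.FundamentalGroupoid.SimplyConnected
import Mathlib.Geometry.Manifold.VectorBundle.CovariantDerivative.Torsion
import Mathlib.Geometry.Manifold.VectorBundle.CovariantDerivative.Metric

/-! P211 / HK: final statement (helper153). The three model spaces as explicit metric spaces, and the
classification for closed manifolds with `Ric = lam g`, `lam > 0`, `K ≥ 0`. -/

set_option maxSynthPendingDepth 3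
set_option linter.unusedSectionVars false

namespace Vale.Agent.P211.HK

open scoped Manifold ContDiff Topology
open Bundle Filter VectorField

noncomputable section

section models

variable (M : Type) [MetricSpace M]

/-- `M` is isometric to the round sphere `S⁴(r) ⊆ ℝ⁵` of radius `r`, with its intrinsic distance
`r * angle`: `Z` is the isometry, followed by division by `r`. -/
def IsRoundS4 (r : ℝ) : Prop :=
  ∃ Z : M → EuclideanSpace ℝ (Fin 5), (∀ x, ‖Z x‖ = 1) ∧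
    (∀ x y, dist x y = r * Real.arccos (inner ℝ (Z x) (Z y))) ∧
    ∀ z : EuclideanSpace ℝ (Fin 5), ‖z‖ = 1 → ∃ x, Z x = z

/-- `M` is isometric to the complex projective plane `ℂP²` with the Fubini-Study distance
`d([z], [w]) = c * arccos |⟨z, w⟩|` (`z`, `w` unit vectors of `ℂ³`): `x ↦ [Z x]` is the isometry
(`z`, `w` span the same line if and only if `|⟨z, w⟩| = 1`). -/
def IsFubiniStudyCP2 (c : ℝ) : Prop :=
  ∃ Z : M → Fin 3 → ℂ, (∀ x, ∑ i, ‖Z x i‖ ^ 2 = 1) ∧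
    (∀ x y, dist x y = c * Real.arccos ‖∑ i, starRingEnd ℂ (Z x i) * Z y i‖) ∧
    ∀ z : Fin 3 → ℂ, ∑ i, ‖z i‖ ^ 2 = 1 → ∃ x, ‖∑ i, starRingEnd ℂ (Z x i) * z i‖ = 1

/-- `M` is isometric to the Riemannian product `S²(r) × S²(r)` of two round spheres of radius `r`:
`(Z₁, Z₂)` is the isometry, followed by division by `r`; the distance of the product is
`√(d₁² + d₂²)`. -/
def IsRoundS2S2 (r : ℝ) : Prop :=
  ∃ Z₁ Z₂ : M → EuclideanSpace ℝ (Fin 3), (∀ x, ‖Z₁ x‖ = 1) ∧ (∀ x, ‖Z₂ x‖ = 1) ∧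
    (∀ x y, dist x y = √((r * Real.arccos (inner ℝ (Z₁ x) (Z₁ y))) ^ 2 +
      (r * Real.arccos (inner ℝ (Z₂ x) (Z₂ y))) ^ 2)) ∧
    ∀ a b : EuclideanSpace ℝ (Fin 3), ‖a‖ = 1 → ‖b‖ = 1 → ∃ x, Z₁ x = a ∧ Z₂ x = b

end models

variable {E : Type} [NormedAddCommGroup E] [NormedSpace ℝ E] [FiniteDimensional ℝ E]
  {M : Type} [MetricSpace M] [ChartedSpace E M] [IsManifold 𝓘(ℝ, E) ∞ M]
  [RiemannianBundle fun p : M => TangentSpace 𝓘(ℝ, E) p]
  [IsContMDiffRiemannianBundle 𝓘(ℝ, E) ∞ E fun p : M => TangentSpace 𝓘(ℝ, E) p]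
  [IsRiemannianManifold 𝓘(ℝ, E) M] [CompactSpace M] [ConnectedSpace M]

/-- the sectional curvature of all planes at `p` is positive -/
def SecPosAt (cov : CovariantDerivative 𝓘(ℝ, E) E (TangentSpace 𝓘(ℝ, E) : M → Type)) (p : M) :
    Prop :=
  ∀ X Y : NN.SmoothField E M, LinearIndependent ℝ ![X p, Y p] → 0 < NN.Rm cov X Y Y X p

/-- The conclusion of the final theorem. -/
def FinConcl (cov : CovariantDerivative 𝓘(ℝ, E) E (TangentSpace 𝓘(ℝ, E) : M → Type)) (lam : ℝ) :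
    Prop :=
  (∀ om : Form4 E M, NN.IsOrientation om →
    IsRoundS4 M √(3 / lam) ∨ IsFubiniStudyCP2 M √(6 / lam) ∨ NN.LocallyProduct cov lam) ∧
  (SimplyConnectedSpace M →
    IsRoundS4 M √(3 / lam) ∨ IsFubiniStudyCP2 M √(6 / lam) ∨ IsRoundS2S2 M √(1 / lam)) ∧
  ((∃ p : M, SecPosAt cov p) →
    ((∃ om : Form4 E M, NN.IsOrientation om) ∨ SimplyConnectedSpace M) →
    IsRoundS4 M √(3 / lam) ∨ IsFubiniStudyCP2 M √(6 / lam))

/-- The final theorem for the Einstein constant `lam`. -/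
def FinStmt (lam : ℝ) : Prop :=
  ∀ (E : Type) [NormedAddCommGroup E] [NormedSpace ℝ E] [FiniteDimensional ℝ E],
    Module.finrank ℝ E = 4 →
  ∀ (M : Type) [MetricSpace M] [ChartedSpace E M] [IsManifold 𝓘(ℝ, E) ∞ M]
    [RiemannianBundle fun p : M => TangentSpace 𝓘(ℝ, E) p]
    [IsContMDiffRiemannianBundle 𝓘(ℝ, E) ∞ E fun p : M => TangentSpace 𝓘(ℝ, E) p]
    [IsRiemannianManifold 𝓘(ℝ, E) M] [CompactSpace M] [ConnectedSpace M]
    (cov : CovariantDerivative 𝓘(ℝ, E) E (TangentSpace 𝓘(ℝ, E) : M → Type)),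
    cov.ContMDiffCovariantDerivative ∞ → cov.torsion = 0 →
    CovariantDerivative.IsMetricCompatible (V := (TangentSpace 𝓘(ℝ, E) : M → Type)) cov →
    NN.SecNonneg cov → NN.RicciEq cov (fun _ => lam) → FinConcl cov lam

end

end Vale.Agent.P211.HK
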