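import Vale.Agent.P211.HK.IX1b

/-! P211 / HK: block IX1 in the form used by IX3 (helper485). -/

set_option linter.all false
set_option maxSynthPendingDepth 3

namespace Vale.Agent.P211.HK

open scoped Manifold ContDiff Topology RealInnerProductSpace
open Bundle Filter VectorField MeasureTheory

variable {E : Type} [NormedAddCommGroup E] [NormedSpace ℝ E] [FiniteDimensional ℝ E]
  {M : Type} [TopologicalSpace M] [ChartedSpace E M] [IsManifold 𝓘(ℝ, E) ∞ M] [T2Space M]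
  [RiemannianBundle fun p : M => TangentSpace 𝓘(ℝ, E) p]
  [IsContMDiffRiemannianBundle 𝓘(ℝ, E) ∞ E fun p : M => TangentSpace 𝓘(ℝ, E) p]
  {cov : CovariantDerivative 𝓘(ℝ, E) E (TangentSpace 𝓘(ℝ, E) : M → Type)}
  {om : Form4 E M}

theorem ix1_const (hG : Geo4 cov om) {kap : ℝ} (h : ConstCurv cov kap) {p : M}
    {f : Fin 4 → TangentSpace 𝓘(ℝ, E) p} (hf : PON om p f) :
    ∑ k, ∑ l, ∑ i, ∑ j, (Om cov p f k l i j) ^ 2 = 24 * kap ^ 2 := by
  have h1 := IX1.omSq_const hG h hf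
  unfold IX1.omSq at h1
  rw [h1]; ring

theorem ix1_cp2 (hG : Geo4 cov om) {lam : ℝ} (h : CP2Type cov om lam) {p : M}
    {f : Fin 4 → TangentSpace 𝓘(ℝ, E) p} (hf : PON om p f) :
    ∑ k, ∑ l, ∑ i, ∑ j, (Om cov p f k l i j) ^ 2 = 48 * (lam / 3) ^ 2 := by
  have h1 := IX1.omSq_cp2 hG h hf
  unfold IX1.omSq at h1
  rw [h1]; ring

theorem ix1_sec (hG : Geo4 cov om) (h : NN.SecNonneg cov) {p : M}
    {f : Fin 4 → TangentSpace 𝓘(ℝ, E) p} (hf : PON om p f) (v : Fin 3 → ℝ) :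
    0 ≤ ∑ a, ∑ b, v a * v b * Om cov p f 0 a.succ 0 b.succ := IX1.sec_nonneg hG h hf v

end Vale.Agent.P211.HK
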