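import Vale.Agent.P211.HK.SC1

set_option maxSynthPendingDepth 3
set_option linter.unusedSectionVars false

namespace Vale.Agent.P211.HK.C5

open scoped Manifold ContDiff Topology RealInnerProductSpace
open Bundle Filter VectorField

noncomputable section

variable {W W' : Type} [NormedAddCommGroup W] [InnerProductSpace ℝ W]
  [NormedAddCommGroup W'] [InnerProductSpace ℝ W']

variable {E : Type} [NormedAddCommGroup E] [NormedSpace ℝ E] [FiniteDimensional ℝ E]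
  {M : Type} [TopologicalSpace M] [ChartedSpace E M] [IsManifold 𝓘(ℝ, E) ∞ M] [T2Space M]
  [RiemannianBundle fun p : M => TangentSpace 𝓘(ℝ, E) p]
  [IsContMDiffRiemannianBundle 𝓘(ℝ, E) ∞ E fun p : M => TangentSpace 𝓘(ℝ, E) p]

theorem dirW_congr {u v : M → W} {p : M} (h : ∀ᶠ q in 𝓝 p, u q = v q)
    (x : TangentSpace 𝓘(ℝ, E) p) : dirW u p x = dirW v p x := by
  unfold dirW
  have := Filter.EventuallyEq.mfderiv_eq (I := 𝓘(ℝ, E)) (I' := 𝓘(ℝ, W)) h
  rw [this]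
  rfl

theorem dirW_of {V : M → W} {p : M} {L : TangentSpace 𝓘(ℝ, E) p →L[ℝ] W}
    (h : HasMFDerivAt 𝓘(ℝ, E) 𝓘(ℝ, W) V p L) (x : TangentSpace 𝓘(ℝ, E) p) :
    dirW V p x = L x := by
  unfold dirW
  rw [h.mfderiv]
  rfl

theorem sum_clm {ι : Type} [Fintype ι] {p : M} (L : ι → TangentSpace 𝓘(ℝ, E) p →L[ℝ] W)
    (x : TangentSpace 𝓘(ℝ, E) p) : (∑ i, L i) x = ∑ i, L i x :=
  _root_.sum_apply _ _ _

theorem hasMFDerivAt_one (φ : SF E M) (e : W) (p : M) :
    HasMFDerivAt 𝓘(ℝ, E) 𝓘(ℝ, W) (fun q => φ q • e) p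
      ((mvfderiv 𝓘(ℝ, E) φ p).smulRight e) := by
  have h1 : HasMFDerivAt 𝓘(ℝ, E) 𝓘(ℝ, ℝ) φ p (mfderiv 𝓘(ℝ, E) 𝓘(ℝ, ℝ) φ p) :=
    (φ.mdiff p).hasMFDerivAt
  have h2 : HasMFDerivAt 𝓘(ℝ, ℝ) 𝓘(ℝ, W) (fun t : ℝ => t • e) (φ p)
      ((ContinuousLinearMap.id ℝ ℝ).smulRight e) :=
    ((ContinuousLinearMap.id ℝ ℝ).smulRight e).hasMFDerivAt
  exact HasMFDerivAt.comp p h2 h1

theorem hasMFDerivAt_comb {ι : Type} [Fintype ι] (φ : ι → SF E M) (e : ι → W) (p : M) :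
    HasMFDerivAt 𝓘(ℝ, E) 𝓘(ℝ, W) (fun q => ∑ a, φ a q • e a) p
      (∑ a, (mvfderiv 𝓘(ℝ, E) (φ a) p).smulRight (e a)) := by
  have h := HasMFDerivAt.sum (t := Finset.univ) (f := fun a q => φ a q • e a)
    (f' := fun a => (mvfderiv 𝓘(ℝ, E) (φ a) p).smulRight (e a))
    (fun a _ => hasMFDerivAt_one (φ a) (e a) p)
  have h2 : (∑ a, (fun a (q : M) => φ a q • e a) a) = fun q => ∑ a, φ a q • e a := by
    ext q; rw [Finset.sum_apply]
  rw [h2] at h
  exact h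

theorem dirW_comb {ι : Type} [Fintype ι] (φ : ι → SF E M) (e : ι → W) (p : M)
    (x : TangentSpace 𝓘(ℝ, E) p) :
    dirW (fun q => ∑ a, φ a q • e a) p x = ∑ a, (mvfderiv 𝓘(ℝ, E) (φ a) p x : ℝ) • e a := by
  exact (dirW_of (hasMFDerivAt_comb φ e p) x).trans
    (sum_clm (fun a => (mvfderiv 𝓘(ℝ, E) (φ a) p).smulRight (e a)) x)

/-- a smooth `W`-valued function is near `p` a combination of global smooth functions -/
theorem exists_comps [FiniteDimensional ℝ W] {U : M → W} {p : M}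
    (hU : ∀ᶠ q in 𝓝 p, ContMDiffAt 𝓘(ℝ, E) 𝓘(ℝ, W) ∞ U q) :
    ∃ (n : ℕ) (e : Fin n → W) (φ : Fin n → SF E M), ∀ᶠ q in 𝓝 p, U q = ∑ a, φ a q • e a := by
  let b := stdOrthonormalBasis ℝ W
  have h1 : ∀ a, ∃ f : SF E M, ∀ᶠ y in 𝓝 p, f y = ⟪b a, U y⟫ := by
    intro a
    refine cut_fun hU (u := fun y => ⟪b a, U y⟫) fun q hq => ?_
    have h2 : ContMDiffAt 𝓘(ℝ, E) 𝓘(ℝ, ℝ) ∞ (fun y => innerSL ℝ (b a) (U y)) q :=
      (innerSL ℝ (b a)).contMDiff.contMDiffAt.comp q hq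
    exact h2.contMDiffWithinAt
  choose φ hφ using h1
  refine ⟨_, b, φ, ?_⟩
  filter_upwards [eventually_all.mpr hφ] with q hq
  rw [← b.sum_repr' (U q)]
  exact Finset.sum_congr rfl fun a _ => by rw [hq a]

/-- inclusion of the `l`-th summand of `T ⊗ W` -/
def sgl (W : Type) [NormedAddCommGroup W] [InnerProductSpace ℝ W] (l : Fin 4) : W →L[ℝ] Tn W :=
  ((PiLp.continuousLinearEquiv 2 ℝ fun _ : Fin 4 => W).symm :
      (Fin 4 → W) →L[ℝ] Tn W).comp (ContinuousLinearMap.single ℝ (fun _ : Fin 4 => W) l)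

theorem sgl_apply (l k : Fin 4) (w : W) : (sgl W l w) k = if k = l then w else 0 := by
  by_cases h : k = l
  · subst h; simp [sgl]
  · simp [sgl, h]

theorem sum_sgl (V : Tn W) : V = ∑ l, sgl W l (V l) := by
  ext k
  simp [WithLp.ofLp_sum, Finset.sum_apply, sgl_apply]

/-- derivatives of `T ⊗ W`-valued functions are computed componentwise -/
theorem dirW_apply {V : M → Tn W} {Vl : Fin 4 → M → W} {p : M}
    (h : ∀ᶠ q in 𝓝 p, ∀ l, V q l = Vl l q)
    (hd : ∀ l, MDifferentiableAt 𝓘(ℝ, E) 𝓘(ℝ, W) (Vl l) p) (x : TangentSpace 𝓘(ℝ, E) p)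
    (l : Fin 4) : (dirW V p x) l = dirW (Vl l) p x := by
  have h1 : ∀ᶠ q in 𝓝 p, V q = ∑ l, sgl W l (Vl l q) := by
    filter_upwards [h] with q hq
    rw [sum_sgl (V q)]
    exact Finset.sum_congr rfl fun l _ => by rw [hq l]
  have h2 : HasMFDerivAt 𝓘(ℝ, E) 𝓘(ℝ, Tn W) (fun q => ∑ l, sgl W l (Vl l q)) p
      (∑ l, (sgl W l).comp (mvfderiv 𝓘(ℝ, E) (Vl l) p)) := by
    have h3 := HasMFDerivAt.sum (I := 𝓘(ℝ, E)) (z := p) (t := Finset.univ)
      (f := fun l q => sgl W l (Vl l q))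
      (f' := fun l => (sgl W l).comp (mvfderiv 𝓘(ℝ, E) (Vl l) p))
      (fun l _ => HasMFDerivAt.comp p (sgl W l).hasMFDerivAt (hd l).hasMFDerivAt)
    have h4 : (∑ l, (fun l (q : M) => sgl W l (Vl l q)) l) = fun q => ∑ l, sgl W l (Vl l q) := by
      ext q; rw [Finset.sum_apply]
    rw [h4] at h3
    exact h3
  have h5 : dirW V p x = ∑ m, sgl W m (mvfderiv 𝓘(ℝ, E) (Vl m) p x) :=
    (dirW_congr h1 x).trans ((dirW_of h2 x).trans
      (sum_clm (fun m => (sgl W m).comp (mvfderiv 𝓘(ℝ, E) (Vl m) p)) x))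
  rw [h5]
  change (∑ m, sgl W m (mvfderiv 𝓘(ℝ, E) (Vl m) p x) : Tn W) l = mvfderiv 𝓘(ℝ, E) (Vl l) p x
  rw [WithLp.ofLp_sum, Finset.sum_apply]
  simp only [sgl_apply]
  rw [Finset.sum_ite_eq]
  simp

/-! ### matrices -/

/-- matrix units -/
def stdM (x : Fin 4 × Fin 4) : Mat4 := Pi.single x.1 (Pi.single x.2 1)

theorem sum_stdM (A : Mat4) : A = ∑ x : Fin 4 × Fin 4, A x.1 x.2 • stdM x := by
  ext i j
  rw [Finset.sum_apply, Finset.sum_apply, Fintype.sum_prod_type]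
  simp [stdM, Pi.single_apply, Finset.sum_ite_eq, ite_apply, apply_ite]

theorem d_expand (R : Rep W) (A : Mat4) (w : W) :
    R.d A w = ∑ x : Fin 4 × Fin 4, A x.1 x.2 • R.d (stdM x) w := by
  unfold Rep.d
  conv_lhs => rw [sum_stdM A]
  rw [map_sum, _root_.sum_apply]
  exact Finset.sum_congr rfl fun x _ => by rw [map_smul]; rfl

/-! ### curvature -/

variable {cov : CovariantDerivative 𝓘(ℝ, E) E (TangentSpace 𝓘(ℝ, E) : M → Type)}

theorem rm_eq (h : IsLC cov) (X Y Z U : VF E M) (p : M) :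
    NN.Rm cov X Y Z U p = ((lcOf h).Rm X Y Z U : SF E M) p := congrFun (riem_eq h X Y Z U) p

theorem t4_congr {T : VF E M → VF E M → VF E M → VF E M → SF E M} (hT : IsT4 T) {p : M}
    {X X' Y Y' Z Z' U U' : VF E M} (hX : X p = X' p) (hY : Y p = Y' p) (hZ : Z p = Z' p)
    (hU : U p = U' p) : T X Y Z U p = T X' Y' Z' U' p := by
  have key : ∀ (Φ : VF E M →ₗ[SF E M] SF E M) (A B : VF E M), A p = B p → Φ A p = Φ B p := by
    intro Φ A B h
    have h1 := lin_ptwise Φ (x := p) (Z := A - B) (by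
      rw [ContMDiffSection.coe_sub, Pi.sub_apply, h, sub_self])
    rw [map_sub] at h1
    exact sub_eq_zero.mp h1
  have e1 := key ⟨⟨fun A => T A Y Z U, fun A B => hT.add1 A B Y Z U⟩, fun c A => hT.smul1 c A Y Z U⟩
    X X' hX
  have e2 := key ⟨⟨fun A => T X' A Z U, fun A B => hT.add2 X' A B Z U⟩,
    fun c A => hT.smul2 c X' A Z U⟩ Y Y' hY
  have e3 := key ⟨⟨fun A => T X' Y' A U, fun A B => hT.add3 X' Y' A B U⟩,
    fun c A => hT.smul3 c X' Y' A U⟩ Z Z' hZ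
  have e4 := key ⟨⟨fun A => T X' Y' Z' A, fun A B => hT.add4 X' Y' Z' A B⟩,
    fun c A => hT.smul4 c X' Y' Z' A⟩ U U' hU
  exact (e1.trans e2).trans (e3.trans e4)

theorem rm_congr (h : IsLC cov) {p : M} {X X' Y Y' Z Z' U U' : VF E M} (hX : X p = X' p)
    (hY : Y p = Y' p) (hZ : Z p = Z' p) (hU : U p = U' p) :
    NN.Rm cov X Y Z U p = NN.Rm cov X' Y' Z' U' p := by
  rw [rm_eq h, rm_eq h]
  exact t4_congr (lcOf h).isT4_Rm hX hY hZ hU

/-- the curvature matrices can be computed with any smooth fields through the frame -/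
theorem Om_eq (h : IsLC cov) {p : M} {f : Fin 4 → TangentSpace 𝓘(ℝ, E) p} {F : Fin 4 → VF E M}
    (hF : ∀ i, F i p = f i) (k l : Fin 4) : Om cov p f k l = OmF cov F p k l := by
  have hex : ∃ F : Fin 4 → VF E M, ∀ i, F i p = f i := ⟨F, hF⟩
  unfold Om
  rw [dif_pos hex]
  ext i j
  have hc := hex.choose_spec
  exact rm_congr h ((hc k).trans (hF k).symm) ((hc l).trans (hF l).symm)
    ((hc j).trans (hF j).symm) ((hc i).trans (hF i).symm)

/-! ### the main computation -/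

variable {om : Form4 E M}

theorem nabS_eq {V : PreS E M W} {p : M} {f : Fin 4 → TangentSpace 𝓘(ℝ, E) p}
    (h : PON om p f ∧ ∃ F : Fin 4 → VF E M, SyncExt cov om p f F) (k : Fin 4) :
    (nabS cov om V p f) k = dirW (fun q => V q fun i => h.2.choose i q) p (f k) := by
  unfold nabS
  rw [dif_pos h]
  rfl

theorem nabS_comp (hG : Geo4 cov om) (h1 : SC1Stmt cov om) [FiniteDimensional ℝ W] (R : Rep W)
    {u : PreS E M W} (hu : u ∈ Sec om R) {q : M} {F : Fin 4 → VF E M} (hF : PONnear om q F)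
    {n : ℕ} {e : Fin n → W} {φ : Fin n → SF E M}
    (hφ : ∀ᶠ y in 𝓝 q, (u y fun i => F i y) = ∑ a, φ a y • e a) (l : Fin 4) :
    (nabS cov om u q fun i => F i q) l = ∑ a, DVF (F l) (φ a) q • e a +
      ∑ x : Fin 4 × Fin 4, ∑ a,
        (gVF (nabVF cov hG.lc.smooth (F l) (F x.2)) (F x.1) * φ a : SF E M) q •
          R.d (stdM x) (e a) := by
  rw [h1 hG W R u hu q F hF l, dirW_congr hφ, dirW_comb, d_expand, hφ.self_of_nhds]
  congr 1
  refine Finset.sum_congr rfl fun x _ => ?_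
  rw [map_sum, Finset.smul_sum]
  refine Finset.sum_congr rfl fun a _ => ?_
  rw [map_smul, smul_smul]
  rfl

theorem second (hG : Geo4 cov om) (h1 : SC1Stmt cov om) [FiniteDimensional ℝ W] (R : Rep W)
    {u : PreS E M W} (hu : u ∈ Sec om R) {p : M} {f : Fin 4 → TangentSpace 𝓘(ℝ, E) p}
    (h : PON om p f ∧ ∃ F : Fin 4 → VF E M, SyncExt cov om p f F)
    {n : ℕ} {e : Fin n → W} {φ : Fin n → SF E M}
    (hφ : ∀ᶠ y in 𝓝 p, (u y fun i => h.2.choose i y) = ∑ a, φ a y • e a) (k l : Fin 4) :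
    (nabS cov om (nabS cov om u) p f) k l =
      ∑ a, DVF (h.2.choose k) (DVF (h.2.choose l) (φ a)) p • e a +
      ∑ x : Fin 4 × Fin 4, DVF (h.2.choose k)
        (gVF (nabVF cov hG.lc.smooth (h.2.choose l) (h.2.choose x.2)) (h.2.choose x.1)) p •
          R.d (stdM x) (u p f) := by
  obtain ⟨hP, hf, hn⟩ := h.2.choose_spec
  rw [nabS_eq h]
  set F := h.2.choose with hF
  let ι : Type := Fin n ⊕ ((Fin 4 × Fin 4) × Fin n)
  let Φ : Fin 4 → ι → SF E M := fun l => Sum.elim (fun a => DVF (F l) (φ a))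
    (fun z => gVF (nabVF cov hG.lc.smooth (F l) (F z.1.2)) (F z.1.1) * φ z.2)
  let ε : ι → W := Sum.elim e fun z => R.d (stdM z.1) (e z.2)
  have hs : ∀ g : ι → W, ∑ b, g b = ∑ a, g (Sum.inl a) + ∑ x, ∑ a, g (Sum.inr (x, a)) := by
    intro g
    rw [Fintype.sum_sum_type, Fintype.sum_prod_type (fun z : (Fin 4 × Fin 4) × Fin n =>
      g (Sum.inr z))]
  have hV : ∀ᶠ q in 𝓝 p, ∀ l, (nabS cov om u q fun i => F i q) l = ∑ b, Φ l b q • ε b := by
    filter_upwards [hP.eventually_nhds, hφ.eventually_nhds] with q h2 h3 l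
    rw [nabS_comp hG h1 R hu h2 h3 l, hs]
    rfl
  rw [dirW_apply hV (fun l => (hasMFDerivAt_comb (Φ l) ε p).mdifferentiableAt), dirW_comb, hs]
  have hk : ∀ g : SF E M, mvfderiv 𝓘(ℝ, E) g p (f k) = DVF (F k) g p := fun g => by
    rw [DVF_apply, hf k]
  simp only [hk]
  congr 1
  refine Finset.sum_congr rfl fun x _ => ?_
  have hup : u p f = ∑ a, φ a p • e a := by
    have := hφ.self_of_nhds
    have h4 : (fun i => F i p) = f := funext hf
    rw [← this, h4]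
  rw [hup, map_sum, Finset.smul_sum]
  refine Finset.sum_congr rfl fun a _ => ?_
  change DVF (F k) (gVF (nabVF cov hG.lc.smooth (F l) (F x.2)) (F x.1) * φ a) p •
    R.d (stdM x) (e a) = _
  have h0 : gVF (nabVF cov hG.lc.smooth (F l) (F x.2)) (F x.1) p = 0 := by
    rw [gVF_apply, nabVF_apply, hn, inner_zero_left]
  rw [DVF_mul_apply, h0, zero_mul, add_zero, map_smul, smul_smul]

theorem sc5 (om : Form4 E M) (h0 : SC0Stmt cov om) (h1 : SC1Stmt cov om) : SC5Stmt cov om := by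
  intro hG W _ _ _ R u hu p f hf
  have h : PON om p f ∧ ∃ F : Fin 4 → VF E M, SyncExt cov om p f F := ⟨hf, (h0 hG).1 p f hf⟩
  obtain ⟨hP, hF, hn⟩ := h.2.choose_spec
  have hOm := Om_eq hG.lc hF
  set G := lcOf hG.lc with hGdef
  refine ⟨fun k l i j => ?_, fun k l => ?_⟩
  · rw [hOm]
    unfold OmF
    rw [rm_eq hG.lc, rm_eq hG.lc, (lcOf hG.lc).Rm_anti34]
    rfl
  · have hU : ∀ᶠ q in 𝓝 p, ContMDiffAt 𝓘(ℝ, E) 𝓘(ℝ, W) ∞
        (fun y => u y fun i => h.2.choose i y) q := by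
      filter_upwards [hP.eventually_nhds] with q hq
      exact hu.2.2 h.2.choose q hq
    obtain ⟨n, e, φ, hφ⟩ := exists_comps hU
    rw [second hG h1 R hu h hφ k l, second hG h1 R hu h hφ l k, hOm, d_expand]
    set F := h.2.choose with hFdef
    have hz : ∀ (X : VF E M) (i : Fin 4), (nabVF cov hG.lc.smooth X (F i)) p = 0 := fun X i => by
      rw [nabVF_apply, hn]
    have e1 : ∀ g : SF E M, DVF (F k) (DVF (F l) g) p = DVF (F l) (DVF (F k) g) p := by
      intro g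
      have h3 := congrArg (fun z : SF E M => z p) (G.comm (F k) (F l) g)
      change DVF (nabVF cov hG.lc.smooth (F k) (F l) - nabVF cov hG.lc.smooth (F l) (F k)) g p =
        DVF (F k) (DVF (F l) g) p - DVF (F l) (DVF (F k) g) p at h3
      rw [DVF_apply, ContMDiffSection.coe_sub, Pi.sub_apply, hz, hz, sub_zero, map_zero] at h3
      exact (sub_eq_zero.mp h3.symm)
    have e2 : ∀ x : Fin 4 × Fin 4,
        DVF (F k) (gVF (nabVF cov hG.lc.smooth (F l) (F x.2)) (F x.1)) p -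
        DVF (F l) (gVF (nabVF cov hG.lc.smooth (F k) (F x.2)) (F x.1)) p =
          OmF cov F p k l x.1 x.2 := by
      intro x
      unfold OmF
      rw [metricVF hG.lc, metricVF hG.lc, rm_eq hG.lc]
      have h4 : ∀ a b : Fin 4, gVF (nabVF cov hG.lc.smooth (F a) (F x.2))
          (nabVF cov hG.lc.smooth (F b) (F x.1)) p = 0 := fun a b => by
        rw [gVF_apply, hz, inner_zero_left]
      rw [h4, h4, add_zero, add_zero]
      change _ = gVF (nabVF cov hG.lc.smooth (F k) (nabVF cov hG.lc.smooth (F l) (F x.2)) -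
        nabVF cov hG.lc.smooth (F l) (nabVF cov hG.lc.smooth (F k) (F x.2)) -
        nabVF cov hG.lc.smooth (G.brk (F k) (F l)) (F x.2)) (F x.1) p
      rw [gVF_apply, gVF_apply, gVF_apply, ContMDiffSection.coe_sub, ContMDiffSection.coe_sub,
        Pi.sub_apply, Pi.sub_apply, hz (G.brk (F k) (F l)), sub_zero, inner_sub_left]
    have e3 : ∀ (A B C D : W), A + B - (C + D) = (A - C) + (B - D) := fun A B C D => by abel
    rw [e3, ← Finset.sum_sub_distrib, ← Finset.sum_sub_distrib]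
    rw [Finset.sum_eq_zero fun a _ => by rw [e1, sub_self], zero_add]
    exact Finset.sum_congr rfl fun x _ => by rw [← sub_smul, e2]

/-- SC5, unconditional -/
theorem sc5u (cov : CovariantDerivative 𝓘(ℝ, E) E (TangentSpace 𝓘(ℝ, E) : M → Type))
    (om : Form4 E M) : SC5Stmt cov om := sc5 om sc0 (sc1 cov om)

end
end Vale.Agent.P211.HK.C5
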