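import Vale.Agent.P211.HK.SC0b

/-! P211 / HK / SC7(b): the representations used (helper884). -/

set_option maxSynthPendingDepth 3
set_option linter.unusedSectionVars false

namespace Vale.Agent.P211.HK

open scoped ContDiff RealInnerProductSpace

noncomputable section

variable {W W' : Type} [NormedAddCommGroup W] [InnerProductSpace ℝ W]
  [NormedAddCommGroup W'] [InnerProductSpace ℝ W']

/-! ### matrices -/

theorem mulM_one (g : Mat4) : mulM g idM = g := by
  funext i j; simp [mulM, idM]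

theorem one_mulM (g : Mat4) : mulM idM g = g := by
  funext i j; simp [mulM, idM]

theorem IsSO.one : IsSO HK.idM := IsSO.idM

/-- right inverse -/
theorem IsSO.right {g : Mat4} (hg : IsSO g) : mulM g (trM g) = HK.idM := hg.mul_tr

/-- columns are orthonormal -/
theorem IsSO.col {g : Mat4} (hg : IsSO g) (i j : Fin 4) :
    ∑ k, g k i * g k j = if i = j then 1 else 0 := by
  have := congrFun (congrFun hg.1 i) j
  simpa [mulM, trM, HK.idM] using this

/-- rows are orthonormal -/
theorem IsSO.row {g : Mat4} (hg : IsSO g) (i j : Fin 4) :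
    ∑ k, g i k * g j k = if i = j then 1 else 0 := by
  have := congrFun (congrFun hg.right i) j
  simpa [mulM, trM, HK.idM] using this

/-! ### `tnMap` -/

@[simp] theorem mkT_apply (w : Fin 4 → W) (k : Fin 4) : mkT w k = w k := rfl

theorem symm_ofLp (v : Fin 4 → W) (k : Fin 4) :
    (((PiLp.continuousLinearEquiv 2 ℝ fun _ : Fin 4 => W).symm :
      (Fin 4 → W) →L[ℝ] Tn W) v) k = v k := rfl

theorem tnMap_apply (m : Mat4) (a : W →L[ℝ] W) (w : Tn W) (k : Fin 4) :
    tnMap m a w k = ∑ l, m k l • a (w l) := by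
  have h1 : tnMap m a w k = ∑ k', ∑ l, m k' l • (Pi.single k' (a (w l)) : Fin 4 → W) k := by
    simp only [tnMap, sum_apply, smul_apply, WithLp.ofLp_sum, WithLp.ofLp_smul, Finset.sum_apply,
      Pi.smul_apply]
    rfl
  rw [h1, Finset.sum_eq_single k]
  · simp
  · intro b _ hb
    refine Finset.sum_eq_zero fun l _ => ?_
    rw [Pi.single_eq_of_ne (Ne.symm hb), smul_zero]
  · simp

theorem tn_ext {v w : Tn W} (h : ∀ k, v k = w k) : v = w := by
  apply PiLp.ext; exact h

theorem tnMap_one : tnMap idM (ContinuousLinearMap.id ℝ W) = ContinuousLinearMap.id ℝ (Tn W) := by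
  ext w k
  rw [tnMap_apply]
  simp [idM]

theorem tnMap_mul (m n : Mat4) (a b : W →L[ℝ] W) :
    tnMap (mulM m n) (a.comp b) = (tnMap m a).comp (tnMap n b) := by
  ext w k
  rw [ContinuousLinearMap.comp_apply, tnMap_apply, tnMap_apply]
  simp only [tnMap_apply, map_sum, map_smul, mulM, Finset.sum_smul, Finset.smul_sum, smul_smul,
    ContinuousLinearMap.comp_apply]
  rw [Finset.sum_comm]

theorem tnMap_inner {m : Mat4} (hm : mulM (trM m) m = idM) {a : W →L[ℝ] W}
    (ha : ∀ v w : W, ⟪a v, a w⟫ = ⟪v, w⟫) (v w : Tn W) :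
    ⟪tnMap m a v, tnMap m a w⟫ = ⟪v, w⟫ := by
  rw [PiLp.inner_apply, PiLp.inner_apply]
  have hc : ∀ i j : Fin 4, ∑ k, m k i * m k j = if i = j then 1 else 0 := by
    intro i j
    have := congrFun (congrFun hm i) j
    simpa [mulM, trM, idM] using this
  calc ∑ k, ⟪tnMap m a v k, tnMap m a w k⟫ = ∑ k, ∑ i, ∑ j, m k i * m k j * ⟪v i, w j⟫ := by
        refine Finset.sum_congr rfl fun k _ => ?_
        rw [tnMap_apply, tnMap_apply, sum_inner]
        refine Finset.sum_congr rfl fun i _ => ?_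
        rw [inner_sum]
        refine Finset.sum_congr rfl fun j _ => ?_
        rw [real_inner_smul_left, real_inner_smul_right, ha, mul_assoc]
    _ = ∑ i, ∑ j, (∑ k, m k i * m k j) * ⟪v i, w j⟫ := by
        rw [Finset.sum_comm]
        refine Finset.sum_congr rfl fun i _ => ?_
        rw [Finset.sum_comm]
        refine Finset.sum_congr rfl fun j _ => ?_
        rw [Finset.sum_mul]
    _ = ∑ i, ∑ j, (if i = j then 1 else 0) * ⟪v i, w j⟫ := by simp only [hc]
    _ = ∑ i, ⟪v i, w i⟫ := by simp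

theorem contDiff_tnMap {m : Mat4 → Mat4} (hm : ContDiff ℝ ∞ m) {a : Mat4 → W →L[ℝ] W}
    (ha : ContDiff ℝ ∞ a) : ContDiff ℝ ∞ fun g => tnMap (m g) (a g) := by
  unfold tnMap
  refine ContDiff.sum fun k _ => ContDiff.sum fun l _ => ?_
  refine ContDiff.smul (contDiff_pi.1 (contDiff_pi.1 hm k) l) ?_
  exact contDiff_const.clm_comp (contDiff_const.clm_comp (ha.clm_comp contDiff_const))

/-! ### the representations -/

/-- a smooth orthogonal matrix representation of `SO(4)` on `ℝ⁴` -/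
structure MRep (m : Mat4 → Mat4) : Prop where
  smooth : ContDiff ℝ ∞ m
  one : m idM = idM
  mul : ∀ g h, IsSO g → IsSO h → m (mulM g h) = mulM (m g) (m h)
  orth : ∀ g, IsSO g → mulM (trM (m g)) (m g) = idM

/-- the trivial representation -/
def Rep.triv : Rep ℝ where
  ρ _ := ContinuousLinearMap.id ℝ ℝ
  smooth := contDiff_const
  one := rfl
  mul _ _ _ _ := rfl
  inner _ _ _ _ := rfl

/-- the tensor product of a four-dimensional matrix representation with `R` -/
def Rep.twist {m : Mat4 → Mat4} (hm : MRep m) (R : Rep W) : Rep (Tn W) where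
  ρ g := tnMap (m g) (R.ρ g)
  smooth := contDiff_tnMap hm.smooth R.smooth
  one := by rw [hm.one, R.one, tnMap_one]
  mul g h hg hh := by rw [hm.mul g h hg hh, R.mul g h hg hh, tnMap_mul]
  inner g hg := tnMap_inner (hm.orth g hg) (R.inner g hg)

theorem Rep.twist_twist {m : Mat4 → Mat4} (hm : MRep m) (R : Rep W) :
    Twist m R (R.twist hm) := fun _ _ => rfl

theorem MRep.id : MRep (fun g => g) :=
  ⟨contDiff_id, rfl, fun _ _ _ _ => rfl, fun _ hg => hg.1⟩

/-- `T ⊗ R` -/
def Rep.tn (R : Rep W) : Rep (Tn W) := R.twist MRep.id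

theorem Rep.tens_tn (R : Rep W) : Tens R R.tn := fun _ _ => rfl

@[simp] theorem Rep.tn_ρ (R : Rep W) (g : Mat4) : R.tn.ρ g = tnMap g (R.ρ g) := rfl

/-- right multiplications by the quaternions `i, j, k` (basis `1, i, j, k` of `ℝ⁴`); they span the
anti-self-dual skew matrices -/
def Rq : Fin 3 → Mat4 := ![
  ![![0, -1, 0, 0], ![1, 0, 0, 0], ![0, 0, 0, 1], ![0, 0, -1, 0]],
  ![![0, 0, -1, 0], ![0, 0, 0, -1], ![1, 0, 0, 0], ![0, 1, 0, 0]],
  ![![0, 0, 0, -1], ![0, 0, 1, 0], ![0, -1, 0, 0], ![1, 0, 0, 0]]]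

/-- conjugation -/
def adM (g A : Mat4) : Mat4 := mulM (mulM g A) (trM g)

/-- `(1/4) tr (Aᵀ B)` -/
def dotM (A B : Mat4) : ℝ := (1 / 4) * ∑ i, ∑ j, A i j * B i j

/-- the action of `g` on the anti-self-dual matrices, in the basis `Rq` -/
def lamM (g : Mat4) : Fin 3 → Fin 3 → ℝ := fun a b => dotM (Rq a) (adM g (Rq b))

theorem det4 (g : Mat4) : (Matrix.of g : Matrix (Fin 4) (Fin 4) ℝ).det =
    g 0 0 * (g 1 1 * (g 2 2 * g 3 3 - g 2 3 * g 3 2) - g 1 2 * (g 2 1 * g 3 3 - g 2 3 * g 3 1)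
      + g 1 3 * (g 2 1 * g 3 2 - g 2 2 * g 3 1))
    - g 0 1 * (g 1 0 * (g 2 2 * g 3 3 - g 2 3 * g 3 2) - g 1 2 * (g 2 0 * g 3 3 - g 2 3 * g 3 0)
      + g 1 3 * (g 2 0 * g 3 2 - g 2 2 * g 3 0))
    + g 0 2 * (g 1 0 * (g 2 1 * g 3 3 - g 2 3 * g 3 1) - g 1 1 * (g 2 0 * g 3 3 - g 2 3 * g 3 0)
      + g 1 3 * (g 2 0 * g 3 1 - g 2 1 * g 3 0))
    - g 0 3 * (g 1 0 * (g 2 1 * g 3 2 - g 2 2 * g 3 1) - g 1 1 * (g 2 0 * g 3 2 - g 2 2 * g 3 0)
      + g 1 2 * (g 2 0 * g 3 1 - g 2 1 * g 3 0)) := by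
  rw [Matrix.det_succ_row_zero]
  simp only [Fin.sum_univ_four, Matrix.det_fin_three, Matrix.submatrix_apply, Matrix.of_apply]
  simp [Fin.succAbove]
  ring

/-- the Pfaffian -/
def pfM (B : Mat4) : ℝ := B 0 1 * B 2 3 - B 0 2 * B 1 3 + B 0 3 * B 1 2

theorem pfM_adM (g : Mat4) (b : Fin 3) :
    pfM (adM g (Rq b)) = - (Matrix.of g : Matrix (Fin 4) (Fin 4) ℝ).det := by
  rw [det4]
  fin_cases b <;>
  · simp [pfM, adM, mulM, trM, Fin.sum_univ_four, Rq]
    ring

theorem trM_adM (g A : Mat4) : trM (adM g A) = adM g (trM A) := by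
  unfold adM
  rw [trM_mulM, trM_mulM, trM_trM, mulM_assoc]

theorem trM_Rq (b : Fin 3) : trM (Rq b) = - Rq b := by
  funext i j
  fin_cases b <;> fin_cases i <;> fin_cases j <;> simp [trM, Rq]

theorem adM_neg (g A : Mat4) : adM g (-A) = - adM g A := by
  funext i j
  simp [adM, mulM, Finset.sum_neg_distrib]

theorem skew_adM (g : Mat4) (b : Fin 3) : IsSkew (adM g (Rq b)) := by
  intro i j
  have h := trM_adM g (Rq b)
  rw [trM_Rq, adM_neg] at h
  have := congrFun (congrFun h j) i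
  simpa [trM] using this

/-- trace form -/
theorem dotM_eq_trace (A B : Mat4) : dotM A B = (1 / 4) * ∑ j, mulM (trM A) B j j := by
  unfold dotM mulM trM
  rw [Finset.sum_comm]

theorem dotM_adM {g : Mat4} (hg : IsSO g) (A B : Mat4) : dotM (adM g A) (adM g B) = dotM A B := by
  have tr_comm : ∀ X Y : Mat4, ∑ j, mulM X Y j j = ∑ j, mulM Y X j j := by
    intro X Y
    unfold mulM
    rw [Finset.sum_comm]
    exact Finset.sum_congr rfl fun _ _ => Finset.sum_congr rfl fun _ _ => mul_comm _ _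
  rw [dotM_eq_trace, dotM_eq_trace, trM_adM]
  congr 1
  unfold adM
  have : mulM (mulM (mulM g (trM A)) (trM g)) (mulM (mulM g B) (trM g)) =
      mulM g (mulM (mulM (trM A) B) (trM g)) := by
    simp only [mulM_assoc]
    rw [← mulM_assoc (trM g) g, hg.1, one_mulM]
  rw [this, tr_comm, mulM_assoc, hg.1, mulM_one]

theorem dotM_Rq (a b : Fin 3) : dotM (Rq a) (Rq b) = if a = b then 1 else 0 := by
  fin_cases a <;> fin_cases b <;> simp [dotM, Rq, Fin.sum_univ_four] <;> norm_num

/-- a skew matrix with the right norm and Pfaffian is anti-self-dual -/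
theorem asd_of_pf {B : Mat4} (hB : IsSkew B) (h1 : dotM B B = 1) (h2 : pfM B = -1) :
    B = ∑ a, dotM (Rq a) B • Rq a := by
  have e00 : B 0 0 = 0 := by have := hB 0 0; linarith
  have e11 : B 1 1 = 0 := by have := hB 1 1; linarith
  have e22 : B 2 2 = 0 := by have := hB 2 2; linarith
  have e33 : B 3 3 = 0 := by have := hB 3 3; linarith
  have e10 := hB 1 0
  have e20 := hB 2 0
  have e30 := hB 3 0
  have e21 := hB 2 1
  have e31 := hB 3 1
  have e32 := hB 3 2
  have hs : (B 0 1 + B 2 3) ^ 2 + (B 0 2 - B 1 3) ^ 2 + (B 0 3 + B 1 2) ^ 2 = 0 := by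
    have h1' : B 0 1 ^ 2 + B 0 2 ^ 2 + B 0 3 ^ 2 + B 1 2 ^ 2 + B 1 3 ^ 2 + B 2 3 ^ 2 = 2 := by
      simp only [dotM, Fin.sum_univ_four, e00, e11, e22, e33, e10, e20, e30, e21, e31, e32] at h1
      linarith
    unfold pfM at h2
    nlinarith
  have k1 : B 2 3 = - B 0 1 := by
    have : (B 0 1 + B 2 3) ^ 2 = 0 := by
      have := sq_nonneg (B 0 1 + B 2 3)
      have := sq_nonneg (B 0 2 - B 1 3)
      have := sq_nonneg (B 0 3 + B 1 2)
      linarith
    have := pow_eq_zero_iff (two_ne_zero) |>.1 this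
    linarith
  have k2 : B 1 3 = B 0 2 := by
    have : (B 0 2 - B 1 3) ^ 2 = 0 := by
      have := sq_nonneg (B 0 1 + B 2 3)
      have := sq_nonneg (B 0 2 - B 1 3)
      have := sq_nonneg (B 0 3 + B 1 2)
      linarith
    have := pow_eq_zero_iff (two_ne_zero) |>.1 this
    linarith
  have k3 : B 1 2 = - B 0 3 := by
    have : (B 0 3 + B 1 2) ^ 2 = 0 := by
      have := sq_nonneg (B 0 1 + B 2 3)
      have := sq_nonneg (B 0 2 - B 1 3)
      have := sq_nonneg (B 0 3 + B 1 2)
      linarith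
    have := pow_eq_zero_iff (two_ne_zero) |>.1 this
    linarith
  funext i j
  fin_cases i <;> fin_cases j <;>
    simp [dotM, Rq, Fin.sum_univ_four, Fin.sum_univ_three, e00, e11, e22, e33, e10, e20, e30, e21,
      e31, e32, k1, k2, k3] <;> ring

theorem adM_Rq {g : Mat4} (hg : IsSO g) (b : Fin 3) :
    adM g (Rq b) = ∑ a, lamM g a b • Rq a := by
  refine asd_of_pf (skew_adM g b) ?_ ?_
  · rw [dotM_adM hg, dotM_Rq]; simp
  · rw [pfM_adM, hg.2]

theorem adM_mul (g h A : Mat4) : adM (mulM g h) A = adM g (adM h A) := by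
  unfold adM
  rw [trM_mulM]
  simp only [mulM_assoc]

theorem adM_one (A : Mat4) : adM idM A = A := by
  unfold adM
  rw [trM_idM, mulM_one, one_mulM]

theorem adM_sum (g : Mat4) (c : Fin 3 → ℝ) (A : Fin 3 → Mat4) :
    adM g (∑ a, c a • A a) = ∑ a, c a • adM g (A a) := by
  funext i j
  simp only [adM, mulM, trM, Fin.sum_univ_four, Fin.sum_univ_three, Pi.add_apply, Pi.smul_apply,
    smul_eq_mul]
  ring

theorem dotM_sum (A : Mat4) (c : Fin 3 → ℝ) (B : Fin 3 → Mat4) :
    dotM A (∑ a, c a • B a) = ∑ a, c a * dotM A (B a) := by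
  simp only [dotM, Fin.sum_univ_four, Fin.sum_univ_three, Pi.add_apply, Pi.smul_apply,
    smul_eq_mul]
  ring

theorem dotM_comm (A B : Mat4) : dotM A B = dotM B A := by
  unfold dotM
  congr 1
  exact Finset.sum_congr rfl fun _ _ => Finset.sum_congr rfl fun _ _ => mul_comm _ _

theorem lamM_one (a b : Fin 3) : lamM idM a b = if a = b then 1 else 0 := by
  unfold lamM
  rw [adM_one, dotM_Rq]

theorem lamM_mul {g h : Mat4} (hg : IsSO g) (hh : IsSO h) (a b : Fin 3) :
    lamM (mulM g h) a b = ∑ c, lamM g a c * lamM h c b := by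
  have h1 : lamM (mulM g h) a b = dotM (Rq a) (∑ c, lamM h c b • adM g (Rq c)) := by
    rw [← adM_sum, ← adM_Rq hh b, ← adM_mul]
    rfl
  rw [h1, dotM_sum]
  exact Finset.sum_congr rfl fun c _ => mul_comm _ _

theorem lamM_orth {g : Mat4} (hg : IsSO g) (a b : Fin 3) :
    ∑ c, lamM g c a * lamM g c b = if a = b then 1 else 0 := by
  have h1 : dotM (adM g (Rq a)) (adM g (Rq b)) = if a = b then 1 else 0 := by
    rw [dotM_adM hg, dotM_Rq]
  rw [adM_Rq hg b, dotM_sum] at h1
  rw [← h1]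
  refine Finset.sum_congr rfl fun c _ => ?_
  rw [mul_comm (lamM g c a), dotM_comm]
  rfl

theorem contDiff_lamM (a b : Fin 3) : ContDiff ℝ ∞ fun g : Mat4 => lamM g a b := by
  unfold lamM dotM adM mulM trM
  have h : ∀ i j, ContDiff ℝ ∞ fun g : Mat4 => g i j := fun i j =>
    contDiff_pi.1 (contDiff_pi.1 contDiff_id i) j
  refine contDiff_const.mul (ContDiff.sum fun i _ => ContDiff.sum fun j _ => ?_)
  refine contDiff_const.mul (ContDiff.sum fun k _ => ?_)
  refine ContDiff.mul (ContDiff.sum fun l _ => ?_) (h j k)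
  exact (h i l).mul contDiff_const

/-- the operator on `ℝ³` with the matrix `m` -/
def op3 (m : Fin 3 → Fin 3 → ℝ) : EuclideanSpace ℝ (Fin 3) →L[ℝ] EuclideanSpace ℝ (Fin 3) :=
  ∑ a, ∑ b, m a b • (EuclideanSpace.proj b : EuclideanSpace ℝ (Fin 3) →L[ℝ] ℝ).smulRight
    (EuclideanSpace.single a (1 : ℝ))

theorem op3_apply (m : Fin 3 → Fin 3 → ℝ) (v : EuclideanSpace ℝ (Fin 3)) (a : Fin 3) :
    op3 m v a = ∑ b, m a b * v b := by
  simp only [op3, sum_apply, smul_apply, WithLp.ofLp_sum, WithLp.ofLp_smul, Finset.sum_apply,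
    Pi.smul_apply, ContinuousLinearMap.smulRight_apply]
  rw [Finset.sum_eq_single a]
  · refine Finset.sum_congr rfl fun b _ => ?_
    simp
  · intro b _ hb
    refine Finset.sum_eq_zero fun c _ => ?_
    simp [Ne.symm hb]
  · simp

/-- the representation on the anti-self-dual forms `L-` -/
def Rep.lam : Rep (EuclideanSpace ℝ (Fin 3)) where
  ρ g := op3 (lamM g)
  smooth := by
    unfold op3
    exact ContDiff.sum fun a _ => ContDiff.sum fun b _ => (contDiff_lamM a b).smul contDiff_const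
  one := by
    ext v a
    rw [op3_apply]
    simp [lamM_one]
  mul g h hg hh := by
    ext v a
    rw [ContinuousLinearMap.comp_apply, op3_apply, op3_apply]
    simp only [op3_apply, lamM_mul hg hh, Finset.sum_mul, Finset.mul_sum, mul_assoc]
    rw [Finset.sum_comm]
  inner g hg v w := by
    rw [PiLp.inner_apply, PiLp.inner_apply]
    simp only [op3_apply]
    have h := lamM_orth hg
    simp only [Fin.sum_univ_three] at h ⊢
    have h00 := h 0 0
    have h01 := h 0 1
    have h02 := h 0 2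
    have h11 := h 1 1
    have h12 := h 1 2
    have h22 := h 2 2
    simp at h00 h01 h02 h11 h12 h22
    simp
    linear_combination (v 0 * w 0) * h00 + (v 0 * w 1 + v 1 * w 0) * h01 +
      (v 0 * w 2 + v 2 * w 0) * h02 + (v 1 * w 1) * h11 + (v 1 * w 2 + v 2 * w 1) * h12 +
      (v 2 * w 2) * h22

/-- the representation `ℝ ⊕ L-` as a four by four matrix -/
def mH (g : Mat4) : Mat4 := fun i j =>
  Fin.cases (Fin.cases 1 (fun _ => 0) j) (fun a => Fin.cases 0 (fun b => lamM g a b) j) i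

@[simp] theorem mH_zero_zero (g : Mat4) : mH g 0 0 = 1 := rfl
@[simp] theorem mH_zero_succ (g : Mat4) (b : Fin 3) : mH g 0 b.succ = 0 := rfl
@[simp] theorem mH_succ_zero (g : Mat4) (a : Fin 3) : mH g a.succ 0 = 0 := rfl
@[simp] theorem mH_succ_succ (g : Mat4) (a b : Fin 3) : mH g a.succ b.succ = lamM g a b := rfl

theorem mrep_mH : MRep mH where
  smooth := by
    refine contDiff_pi.2 fun i => contDiff_pi.2 fun j => ?_
    refine Fin.cases ?_ (fun a => ?_) i <;> refine Fin.cases ?_ (fun b => ?_) j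
    · exact contDiff_const
    · exact contDiff_const
    · exact contDiff_const
    · exact contDiff_lamM a b
  one := by
    funext i j
    refine Fin.cases ?_ (fun a => ?_) i <;> refine Fin.cases ?_ (fun b => ?_) j
    · simp [idM]
    · simp [idM, (Fin.succ_ne_zero b).symm]
    · simp [idM]
    · simp [idM, lamM_one]
  mul g h hg hh := by
    funext i j
    refine Fin.cases ?_ (fun a => ?_) i <;> refine Fin.cases ?_ (fun b => ?_) j
    · simp [mulM, Fin.sum_univ_succ]
    · simp [mulM, Fin.sum_univ_succ]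
    · simp [mulM, Fin.sum_univ_succ]
    · have := lamM_mul hg hh a b
      simp only [mulM] at this ⊢
      rw [Fin.sum_univ_succ]
      simpa using this
  orth g hg := by
    funext i j
    refine Fin.cases ?_ (fun a => ?_) i <;> refine Fin.cases ?_ (fun b => ?_) j
    · simp [mulM, Fin.sum_univ_succ, trM, idM]
    · simp [mulM, Fin.sum_univ_succ, trM, idM, (Fin.succ_ne_zero b).symm]
    · simp [mulM, Fin.sum_univ_succ, trM, idM]
    · have := lamM_orth hg a b
      simp only [mulM, trM, idM] at this ⊢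
      rw [Fin.sum_univ_succ]
      simpa using this

/-- `(ℝ ⊕ L-) ⊗ R` -/
def Rep.hq (R : Rep W) : Rep (Tn W) := R.twist mrep_mH

theorem Rep.twist_hq (R : Rep W) : Twist mH R R.hq := fun _ _ => rfl

@[simp] theorem Rep.hq_ρ (R : Rep W) (g : Mat4) : R.hq.ρ g = tnMap (mH g) (R.ρ g) := rfl

end

end Vale.Agent.P211.HK
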