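import Vale.Agent.P211.HK.WZ2
import Vale.Agent.P211.HK.Reps

/-! P211 / HK / WZ: the twisted Fueter operators and the statements of block WZ (helper600).

`T ⊗ W = R.tn`, `(ℝ ⊕ L₋) ⊗ W = R.hq`; `Dop : T ⊗ W → (ℝ ⊕ L₋) ⊗ W`, `Dad` its formal adjoint.
`HF cov om kap`: the curvature of an Einstein metric (`Ric = 3 kap g`) with `W₋ = 0`. -/

set_option maxSynthPendingDepth 3
set_option linter.unusedSectionVars false

namespace Vale.Agent.P211.HK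

open scoped Manifold ContDiff Topology RealInnerProductSpace
open Bundle Filter VectorField MeasureTheory

noncomputable section

variable {W : Type} [NormedAddCommGroup W] [InnerProductSpace ℝ W]

/-- Clifford multiplication `T → ℝ ⊕ L₋` by `e_k` (quaternion multiplication by `conj e_k`) -/
def cM (k : Fin 4) : Mat4 := fun i j => (cZ k i j : ℝ)

/-- `- c_kᵀ` -/
def cMt (k : Fin 4) : Mat4 := fun i j => - (cZ k j i : ℝ)

/-- `η ↦ ∑ k, m k (η k)`, a map `T ⊗ (ℝ⁴ ⊗ W) → ℝ⁴ ⊗ W` -/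
def CC (m : Fin 4 → Mat4) : Tn (Tn W) →L[ℝ] Tn W :=
  ∑ k, (tnMap (m k) (ContinuousLinearMap.id ℝ W)).comp (PiLp.proj 2 (fun _ : Fin 4 => Tn W) k)

/-- three-index symbol -/
def epsZ (a b c : Fin 3) : ℤ :=
  if (a, b, c) = (0, 1, 2) ∨ (a, b, c) = (1, 2, 0) ∨ (a, b, c) = (2, 0, 1) then 1
  else if (a, b, c) = (0, 2, 1) ∨ (a, b, c) = (2, 1, 0) ∨ (a, b, c) = (1, 0, 2) then -1 else 0

def d3Z (a b : Fin 3) : ℤ := if a = b then 1 else 0

def s3 (f : Fin 3 → ℤ) : ℤ := f 0 + f 1 + f 2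

/-- six times the matrices of the four projections of `(ℝ ⊕ L₋) ⊗ L₋`: trace line (rank 1),
symmetric traceless (rank 5), two copies of `L₋` (rank 3, 3) -/
def PlZ (t : Fin 4) (i : Fin 4) (a : Fin 3) (j : Fin 4) (b : Fin 3) : ℤ :=
  Fin.cases
    (Fin.cases
      ((![0, 0, 2 * d3Z a b, 4 * d3Z a b] : Fin 4 → ℤ) t)
      (fun j => (![0, 0, 2 * epsZ j b a, -2 * epsZ j b a] : Fin 4 → ℤ) t) j)
    (fun i => Fin.cases
      ((![0, 0, 2 * epsZ i a b, -2 * epsZ i a b] : Fin 4 → ℤ) t)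
      (fun j => (![2 * d3Z i a * d3Z j b,
        3 * (d3Z i j * d3Z a b + d3Z i b * d3Z j a) - 2 * d3Z i a * d3Z j b,
        2 * s3 (fun c => epsZ i a c * epsZ j b c),
        s3 (fun c => epsZ i a c * epsZ j b c)] : Fin 4 → ℤ) t) j) i

/-- the operator on `(ℝ ⊕ L₋) ⊗ L₋` with a matrix -/
def opT (P : Fin 4 → Fin 3 → Fin 4 → Fin 3 → ℝ) :
    Tn (EuclideanSpace ℝ (Fin 3)) →L[ℝ] Tn (EuclideanSpace ℝ (Fin 3)) :=
  LinearMap.toContinuousLinearMap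
    { toFun := fun η => mkT fun i => WithLp.toLp 2 fun a => ∑ j, ∑ b, P i a j b * (η j) b
      map_add' := fun η ζ => by
        ext i a
        simp only [mkT, PiLp.add_apply, mul_add, Finset.sum_add_distrib]
      map_smul' := fun c η => by
        ext i a
        simp only [mkT, PiLp.smul_apply, smul_eq_mul, RingHom.id_apply, Finset.mul_sum]
        refine Finset.sum_congr rfl fun k _ => Finset.sum_congr rfl fun a _ => ?_
        ring }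

/-- the four projections of `(ℝ ⊕ L₋) ⊗ L₋` -/
def prL (t : Fin 4) : Tn (EuclideanSpace ℝ (Fin 3)) →L[ℝ] Tn (EuclideanSpace ℝ (Fin 3)) :=
  opT fun i a j b => (PlZ t i a j b : ℝ) / 6

/-- the two projections of `ℝ ⊕ L₋` -/
def prR (t : Fin 2) : Tn ℝ →L[ℝ] Tn ℝ :=
  tnMap (fun i j => if i = j ∧ (i = 0 ↔ t = 0) then 1 else 0) (ContinuousLinearMap.id ℝ ℝ)

/-- eigenvalues of `K₁`, in units of `kap` -/
def evL : Fin 4 → ℝ := ![0, 6, 4, -2]
def evR : Fin 2 → ℝ := ![0, 4]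
/-- ranks -/
def rkL : Fin 4 → ℝ := ![1, 5, 3, 3]
def rkR : Fin 2 → ℝ := ![1, 3]

/-- `(x₀, X) ↦ 2 x₀ - ε(X)`, `ioL ∘ ioLᵗ = 6 prL 3`, `ioLt ∘ ioL = 6` -/
def ioLt : Tn (EuclideanSpace ℝ (Fin 3)) →L[ℝ] EuclideanSpace ℝ (Fin 3) :=
  LinearMap.toContinuousLinearMap
    { toFun := fun η => WithLp.toLp 2 fun c =>
        2 * (η 0) c - ∑ a : Fin 3, ∑ b : Fin 3, (epsZ a b c : ℝ) * (η a.succ) b
      map_add' := fun η ζ => by
        ext c
        simp only [PiLp.add_apply, mul_add, Finset.sum_add_distrib]; ring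
      map_smul' := fun r η => by
        ext c
        simp only [PiLp.smul_apply, smul_eq_mul, RingHom.id_apply, Fin.sum_univ_three]
        ring }

/-- `x ↦ (2 x, - ε(x))` -/
def ioL : EuclideanSpace ℝ (Fin 3) →L[ℝ] Tn (EuclideanSpace ℝ (Fin 3)) :=
  LinearMap.toContinuousLinearMap
    { toFun := fun x => mkT fun i => Fin.cases (2 • x)
        (fun a => WithLp.toLp 2 fun b => - ∑ c : Fin 3, (epsZ a b c : ℝ) * x c) i
      map_add' := fun x y => by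
        ext i a
        refine Fin.cases ?_ (fun i => ?_) i
        · simp [mkT]
        · simp [mkT, Fin.sum_univ_three]; ring
      map_smul' := fun r x => by
        ext i a
        refine Fin.cases ?_ (fun i => ?_) i
        · simp [mkT]; ring
        · simp [mkT, Fin.sum_univ_three]; ring }

variable {E : Type} [NormedAddCommGroup E] [NormedSpace ℝ E] [FiniteDimensional ℝ E]
  {M : Type} [TopologicalSpace M] [ChartedSpace E M] [IsManifold 𝓘(ℝ, E) ∞ M] [T2Space M]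
  [RiemannianBundle fun p : M => TangentSpace 𝓘(ℝ, E) p]
  [IsContMDiffRiemannianBundle 𝓘(ℝ, E) ∞ E fun p : M => TangentSpace 𝓘(ℝ, E) p]

variable (cov : CovariantDerivative 𝓘(ℝ, E) E (TangentSpace 𝓘(ℝ, E) : M → Type))
  (om : Form4 E M)

/-- `D = ∑ c_k ∇_k` -/
def Dop (u : PreS E M (Tn W)) : PreS E M (Tn W) := mapS (CC cM) (nabS cov om u)

/-- `D' = - ∑ c_kᵀ ∇_k` -/
def Dad (u : PreS E M (Tn W)) : PreS E M (Tn W) := mapS (CC cMt) (nabS cov om u)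

/-- the curvature of an Einstein metric, `Ric = 3 kap g`, with `W₋ = 0` -/
def HF (kap : ℝ) : Prop := ∀ (p : M) (f : Fin 4 → TangentSpace 𝓘(ℝ, E) p), PON om p f →
  ∃ w, HFCurv kap (Om cov p f) w

/-- WZ1: mapping properties and linearity. -/
def WZ1Stmt : Prop := Geo4 cov om → ∀ (W : Type) [NormedAddCommGroup W] [InnerProductSpace ℝ W]
    [FiniteDimensional ℝ W] (R : Rep W),
    (∀ u ∈ Sec (E := E) om R.tn, Dop cov om u ∈ Sec (E := E) om R.hq) ∧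
    (∀ v ∈ Sec (E := E) om R.hq, Dad cov om v ∈ Sec (E := E) om R.tn) ∧
    (∀ u ∈ Sec (E := E) om R.tn, ∀ v ∈ Sec (E := E) om R.tn,
      Dop cov om (u + v) = Dop cov om u + Dop cov om v) ∧
    (∀ (c : ℝ), ∀ u ∈ Sec (E := E) om R.tn, Dop cov om (c • u) = c • Dop cov om u) ∧
    (∀ u ∈ Sec (E := E) om R.hq, ∀ v ∈ Sec (E := E) om R.hq,
      Dad cov om (u + v) = Dad cov om u + Dad cov om v) ∧
    (∀ (c : ℝ), ∀ u ∈ Sec (E := E) om R.hq, Dad cov om (c • u) = c • Dad cov om u)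

/-- WZ2: formal adjoints (hypotheses as in `SC6Stmt`). -/
def WZ2Stmt [MeasurableSpace M] [BorelSpace M] [CompactSpace M] (μ : Measure M) : Prop :=
  Geo4 cov om → IsFiniteMeasure μ →
  (∀ (X : VF E M) (d : M → ℝ), (∀ p f, PON om p f →
      d p = ∑ i, inner ℝ (cov X p (f i)) (f i)) → ∫ p, d p ∂μ = 0) →
  ∀ (W : Type) [NormedAddCommGroup W] [InnerProductSpace ℝ W] [FiniteDimensional ℝ W]
    (R : Rep W),
    ∀ (fr : (p : M) → Fin 4 → TangentSpace 𝓘(ℝ, E) p), (∀ p, PON om p (fr p)) →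
    ∀ u ∈ Sec (E := E) om R.tn, ∀ v ∈ Sec (E := E) om R.hq,
      ∫ p, ⟪Dop cov om u p (fr p), v p (fr p)⟫ ∂μ =
        ∫ p, ⟪u p (fr p), Dad cov om v p (fr p)⟫ ∂μ

/-- WZ3: the projections. -/
def WZ3Stmt : Prop :=
  (∀ t, Intertwines Rep.triv.hq Rep.triv.hq (prR t)) ∧
  (∀ t x y, ⟪prR t x, y⟫ = ⟪x, prR t y⟫) ∧ (∀ t x, prR t (prR t x) = prR t x) ∧
  (∀ s t, s ≠ t → ∀ x, prR s (prR t x) = 0) ∧ (∀ x, ∑ t, prR t x = x) ∧
  (∀ t, LinearMap.trace ℝ _ (prR t).toLinearMap = rkR t) ∧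
  (∀ t, Intertwines Rep.lam.hq Rep.lam.hq (prL t)) ∧
  (∀ t x y, ⟪prL t x, y⟫ = ⟪x, prL t y⟫) ∧ (∀ t x, prL t (prL t x) = prL t x) ∧
  (∀ s t, s ≠ t → ∀ x, prL s (prL t x) = 0) ∧ (∀ x, ∑ t, prL t x = x) ∧
  (∀ t, LinearMap.trace ℝ _ (prL t).toLinearMap = rkL t) ∧
  Intertwines Rep.lam Rep.lam.hq ioL ∧ Intertwines Rep.lam.hq Rep.lam ioLt ∧
  (∀ x, ioLt (ioL x) = (6 : ℝ) • x) ∧ (∀ η, ioL (ioLt η) = (6 : ℝ) • prL 3 η)

/-- WZ4: Weitzenböck formulas. -/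
def WZ4Stmt : Prop := Geo4 cov om → ∀ kap : ℝ, HF cov om kap →
  (∀ u ∈ Sec (E := E) om Rep.triv.tn, Dad cov om (Dop cov om u) =
    lapS cov om u + (3 * kap) • u) ∧
  (∀ v ∈ Sec (E := E) om Rep.triv.hq, Dop cov om (Dad cov om v) =
    lapS cov om v + ∑ t, (kap * evR t) • mapS (prR t) v) ∧
  (∀ u ∈ Sec (E := E) om Rep.lam.tn, Dad cov om (Dop cov om u) =
    lapS cov om u + (3 * kap) • u) ∧
  (∀ v ∈ Sec (E := E) om Rep.lam.hq, Dop cov om (Dad cov om v) =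
    lapS cov om v + ∑ t, (kap * evL t) • mapS (prL t) v)

/-- `tr_W (∑ Ω_kl Ω_kl)` for the representation `R` and the curvature matrices `A` -/
def trOm (R : Rep W) (A : Fin 4 → Fin 4 → Mat4) : ℝ :=
  ∑ k, ∑ l, LinearMap.trace ℝ W ((R.d (A k l)).comp (R.d (A k l))).toLinearMap

/-- the same with a projection -/
def trOmP (R : Rep W) (P : W →L[ℝ] W) (A : Fin 4 → Fin 4 → Mat4) : ℝ :=
  ∑ k, ∑ l, LinearMap.trace ℝ W (P.comp ((R.d (A k l)).comp (R.d (A k l)))).toLinearMap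

/-- WZ5: traces of the squares of the curvature. -/
def WZ5Stmt : Prop := ∀ (kap : ℝ) (A : Fin 4 → Fin 4 → Mat4) (w : Fin 3 → Fin 3 → ℝ),
  HFCurv kap A w →
  (∑ t, trOmP Rep.triv.hq (prR t) A) - trOm Rep.triv.tn A = 4 * ∑ a, ∑ b, w a b ^ 2 ∧
  (∑ t, trOmP Rep.lam.hq (prL t) A) - trOm Rep.lam.tn A = 12 * ∑ a, ∑ b, w a b ^ 2 ∧
  (∑ k, ∑ l, ∑ i, ∑ j, A k l i j ^ 2) = 24 * kap ^ 2 + 4 * ∑ a, ∑ b, w a b ^ 2

/-- WZ6: nonnegative curvature of the planes containing `f 0`. -/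
def WZ6Stmt : Prop := ∀ (kap : ℝ) (A : Fin 4 → Fin 4 → Mat4) (w : Fin 3 → Fin 3 → ℝ),
  HFCurv kap A w →
  (∀ v : Fin 3 → ℝ, 0 ≤ ∑ a, ∑ b, v a * v b * A 0 a.succ 0 b.succ) →
  ∑ a, ∑ b, w a b ^ 2 ≤ 24 * kap ^ 2

/-- WZ0: the hypothesis `HF` in the language of the starting files. -/
def WZ0Stmt : Prop := Geo4 cov om → PreconnectedSpace M → ∀ kap : ℝ,
  NN.RicciEq cov (fun _ => 3 * kap) → NN.WPlusZero cov (3 * kap) (-om) → HF cov om kap

end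

end Vale.Agent.P211.HK
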