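import Vale.Agent.P211.HK.KI0
import Vale.Agent.P211.HK.SC5
import Vale.Agent.P211.HK.WZDefs
import Vale.Agent.P211.HK.KRDefs

/-! P211 / HK: block IX1 (helper485): the norm of the curvature; constant curvature, the `ℂP²`
tensor, nonnegative curvature. -/

set_option linter.all false
set_option maxSynthPendingDepth 3

namespace Vale.Agent.P211.HK

open scoped Manifold ContDiff Topology RealInnerProductSpace
open Bundle Filter VectorField MeasureTheory

noncomputable section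

namespace IX1

/-! ### algebra -/

/-- sum of the squares of the entries -/
def sq4 (r : Fin 4 → Fin 4 → Fin 4 → Fin 4 → ℝ) : ℝ := ∑ i, ∑ j, ∑ k, ∑ l, r i j k l ^ 2

theorem sq_orth {g : Mat4} (hg : mulM g (trM g) = idM) (x : Fin 4 → ℝ) :
    ∑ j, (∑ i, g i j * x i) ^ 2 = ∑ i, x i ^ 2 := by
  have h : ∀ i k, ∑ j, g i j * g k j = if i = k then (1 : ℝ) else 0 := fun i k =>
    congrFun (congrFun hg i) k
  calc ∑ j, (∑ i, g i j * x i) ^ 2 = ∑ j, ∑ i, ∑ k, (g i j * g k j) * (x i * x k) := by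
        refine Finset.sum_congr rfl fun j _ => ?_
        rw [sq, Finset.sum_mul_sum]
        refine Finset.sum_congr rfl fun i _ => Finset.sum_congr rfl fun k _ => ?_
        ring
    _ = ∑ i, ∑ k, (∑ j, g i j * g k j) * (x i * x k) := by
        rw [Finset.sum_comm]
        refine Finset.sum_congr rfl fun i _ => ?_
        rw [Finset.sum_comm]
        refine Finset.sum_congr rfl fun k _ => ?_
        rw [Finset.sum_mul]
    _ = _ := by
        simp only [h]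
        simp [sq]

theorem sq4_rot {g : Mat4} (hg : mulM g (trM g) = idM)
    (r : Fin 4 → Fin 4 → Fin 4 → Fin 4 → ℝ) :
    sq4 (fun a b c d => ∑ i, ∑ j, ∑ k, ∑ l, g i a * g j b * g k c * g l d * r i j k l) = sq4 r := by
  unfold sq4
  have e : ∀ a b c d, ∑ i, ∑ j, ∑ k, ∑ l, g i a * g j b * g k c * g l d * r i j k l =
      ∑ i, g i a * ∑ j, g j b * ∑ k, g k c * ∑ l, g l d * r i j k l := by
    intro a b c d
    simp only [Finset.mul_sum]
    refine Finset.sum_congr rfl fun i _ => Finset.sum_congr rfl fun j _ =>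
      Finset.sum_congr rfl fun k _ => Finset.sum_congr rfl fun l _ => ?_
    ring
  simp only [e]
  -- first index
  have h1 : ∀ b c d, ∑ a, (∑ i, g i a * ∑ j, g j b * ∑ k, g k c * ∑ l, g l d * r i j k l) ^ 2 =
      ∑ i, (∑ j, g j b * ∑ k, g k c * ∑ l, g l d * r i j k l) ^ 2 := fun b c d => sq_orth hg _
  have h2 : ∀ i c d, ∑ b, (∑ j, g j b * ∑ k, g k c * ∑ l, g l d * r i j k l) ^ 2 =
      ∑ j, (∑ k, g k c * ∑ l, g l d * r i j k l) ^ 2 := fun i c d => sq_orth hg _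
  have h3 : ∀ i j d, ∑ c, (∑ k, g k c * ∑ l, g l d * r i j k l) ^ 2 =
      ∑ k, (∑ l, g l d * r i j k l) ^ 2 := fun i j d => sq_orth hg _
  have h4 : ∀ i j k, ∑ d, (∑ l, g l d * r i j k l) ^ 2 = ∑ l, r i j k l ^ 2 :=
    fun i j k => sq_orth hg _
  calc ∑ a, ∑ b, ∑ c, ∑ d, (∑ i, g i a * ∑ j, g j b * ∑ k, g k c * ∑ l, g l d * r i j k l) ^ 2
      = ∑ b, ∑ c, ∑ d, ∑ a, (∑ i, g i a * ∑ j, g j b * ∑ k, g k c * ∑ l, g l d * r i j k l) ^ 2 := by
        rw [Finset.sum_comm]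
        refine Finset.sum_congr rfl fun b _ => ?_
        rw [Finset.sum_comm]
        refine Finset.sum_congr rfl fun c _ => ?_
        rw [Finset.sum_comm]
    _ = ∑ b, ∑ c, ∑ d, ∑ i, (∑ j, g j b * ∑ k, g k c * ∑ l, g l d * r i j k l) ^ 2 := by
        simp only [h1]
    _ = ∑ i, ∑ c, ∑ d, ∑ b, (∑ j, g j b * ∑ k, g k c * ∑ l, g l d * r i j k l) ^ 2 := by
        have s1 : ∀ b, ∑ c, ∑ d, ∑ i, (∑ j, g j b * ∑ k, g k c * ∑ l, g l d * r i j k l) ^ 2 =
            ∑ i, ∑ c, ∑ d, (∑ j, g j b * ∑ k, g k c * ∑ l, g l d * r i j k l) ^ 2 := by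
          intro b
          have : ∀ c, ∑ d, ∑ i, (∑ j, g j b * ∑ k, g k c * ∑ l, g l d * r i j k l) ^ 2 =
              ∑ i, ∑ d, (∑ j, g j b * ∑ k, g k c * ∑ l, g l d * r i j k l) ^ 2 := fun c =>
            Finset.sum_comm
          simp only [this]
          rw [Finset.sum_comm]
        simp only [s1]
        rw [Finset.sum_comm]
        refine Finset.sum_congr rfl fun i _ => ?_
        rw [Finset.sum_comm]
        refine Finset.sum_congr rfl fun c _ => ?_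
        rw [Finset.sum_comm]
    _ = ∑ i, ∑ c, ∑ d, ∑ j, (∑ k, g k c * ∑ l, g l d * r i j k l) ^ 2 := by
        simp only [h2]
    _ = ∑ i, ∑ j, ∑ d, ∑ c, (∑ k, g k c * ∑ l, g l d * r i j k l) ^ 2 := by
        refine Finset.sum_congr rfl fun i _ => ?_
        have s1 : ∀ c, ∑ d, ∑ j, (∑ k, g k c * ∑ l, g l d * r i j k l) ^ 2 =
            ∑ j, ∑ d, (∑ k, g k c * ∑ l, g l d * r i j k l) ^ 2 := fun c => Finset.sum_comm
        simp only [s1]
        rw [Finset.sum_comm]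
        refine Finset.sum_congr rfl fun j _ => ?_
        rw [Finset.sum_comm]
    _ = ∑ i, ∑ j, ∑ d, ∑ k, (∑ l, g l d * r i j k l) ^ 2 := by
        simp only [h3]
    _ = ∑ i, ∑ j, ∑ k, ∑ d, (∑ l, g l d * r i j k l) ^ 2 := by
        refine Finset.sum_congr rfl fun i _ => Finset.sum_congr rfl fun j _ => ?_
        rw [Finset.sum_comm]
    _ = _ := by simp only [h4]

/-! ### the norm of the curvature -/

variable {E : Type} [NormedAddCommGroup E] [NormedSpace ℝ E] [FiniteDimensional ℝ E]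
  {M : Type} [TopologicalSpace M] [ChartedSpace E M] [IsManifold 𝓘(ℝ, E) ∞ M] [T2Space M]
  [RiemannianBundle fun p : M => TangentSpace 𝓘(ℝ, E) p]
  [IsContMDiffRiemannianBundle 𝓘(ℝ, E) ∞ E fun p : M => TangentSpace 𝓘(ℝ, E) p]
  {cov : CovariantDerivative 𝓘(ℝ, E) E (TangentSpace 𝓘(ℝ, E) : M → Type)}
  {om : Form4 E M}

/-- the squared norm of the curvature -/
def omSq (cov : CovariantDerivative 𝓘(ℝ, E) E (TangentSpace 𝓘(ℝ, E) : M → Type)) (p : M)
    (f : Fin 4 → TangentSpace 𝓘(ℝ, E) p) : ℝ := ∑ k, ∑ l, ∑ i, ∑ j, Om cov p f k l i j ^ 2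

theorem omSq_field (h : IsLC cov) {p : M} {f : Fin 4 → TangentSpace 𝓘(ℝ, E) p}
    {F : Fin 4 → VF E M} (hF : ∀ i, F i p = f i) :
    omSq cov p f = sq4 fun i j k l => NN.Rm cov (F i) (F j) (F k) (F l) p := by
  unfold omSq sq4
  refine Finset.sum_congr rfl fun k _ => Finset.sum_congr rfl fun l _ => ?_
  rw [Finset.sum_comm]
  refine Finset.sum_congr rfl fun j _ => Finset.sum_congr rfl fun i _ => ?_
  rw [C5.Om_eq h hF]
  rfl

theorem omSq_fact (hg : Geo4 cov om) {p : M} {f : Fin 4 → TangentSpace 𝓘(ℝ, E) p}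
    (hf : PON om p f) {g : Mat4} (hgo : IsSO g) : omSq cov p (fact f g) = omSq cov p f := by
  obtain ⟨F, -, hF⟩ := exists_ponnear hg hf
  have hG : ∀ j, (∑ i, g i j • F i : VF E M) p = fact f g j := by
    intro j
    have h1 := congrFun (SC2.chF_apply F g p) j
    have h2 : (fun i => F i p) = f := funext hF
    rw [h2] at h1
    exact h1
  rw [omSq_field hg.lc hG, omSq_field hg.lc hF]
  have e : ∀ X Y Z W : VF E M, NN.Rm cov X Y Z W p = (lcOf hg.lc).Rm X Y Z W p :=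
    fun X Y Z W => congrFun (KI0.rm_eq hg.lc X Y Z W) p
  simp only [e, KI0.expand (lcOf hg.lc).isT4_Rm]
  exact sq4_rot hgo.mul_tr _

theorem omSq_eq (hg : Geo4 cov om) {p : M} {f f' : Fin 4 → TangentSpace 𝓘(ℝ, E) p}
    (hf : PON om p f) (hf' : PON om p f') : omSq cov p f' = omSq cov p f := by
  obtain ⟨h1, h2⟩ := pon_matrix hg hf hf'
  rw [h2]
  exact omSq_fact hg hf h1

/-- the norm of the curvature is smooth -/
theorem contMDiff_omSq (hg : Geo4 cov om) {fr : (p : M) → Fin 4 → TangentSpace 𝓘(ℝ, E) p}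
    (hfr : ∀ p, PON om p (fr p)) : ContMDiff 𝓘(ℝ, E) 𝓘(ℝ) ∞ fun p => omSq cov p (fr p) := by
  intro p
  obtain ⟨F, hF, -⟩ := exists_ponnear hg (hfr p)
  have h1 : (fun q => omSq cov q (fr q)) =ᶠ[𝓝 p]
      fun q => sq4 fun i j k l => NN.Rm cov (F i) (F j) (F k) (F l) q := by
    filter_upwards [hF] with q hq
    rw [omSq_eq hg hq (hfr q), omSq_field hg.lc fun i => rfl]
  refine ContMDiffAt.congr_of_eventuallyEq ?_ h1
  unfold sq4
  refine ContMDiffAt.sum fun i _ => ContMDiffAt.sum fun j _ => ContMDiffAt.sum fun k _ =>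
    ContMDiffAt.sum fun l _ => ?_
  have h2 : ContMDiffAt 𝓘(ℝ, E) 𝓘(ℝ) ∞ (fun q => NN.Rm cov (F i) (F j) (F k) (F l) q) p := by
    rw [show (fun q => NN.Rm cov (F i) (F j) (F k) (F l) q) =
      ((lcOf hg.lc).Rm (F i) (F j) (F k) (F l) : SF E M) from KI0.rm_eq hg.lc _ _ _ _]
    exact ((lcOf hg.lc).Rm (F i) (F j) (F k) (F l)).contMDiff p
  exact h2.pow 2

/-! ### the two models -/

/-- integer Kronecker symbol -/
def dZ (i j : Fin 4) : ℤ := if i = j then 1 else 0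

theorem dZ_cast (i j : Fin 4) : ((dZ i j : ℤ) : ℝ) = if i = j then 1 else 0 := by
  unfold dZ; split_ifs <;> simp

/-- curvature tensor of the sphere -/
def tS (k l i j : Fin 4) : ℤ := dZ k i * dZ l j - dZ k j * dZ l i

/-- the Kähler form -/
def wZ (i j : Fin 4) : ℤ := dZ 0 i * dZ 1 j - dZ 0 j * dZ 1 i + (dZ 2 i * dZ 3 j - dZ 2 j * dZ 3 i)

/-- curvature tensor of the complex projective plane -/
def tC (k l i j : Fin 4) : ℤ :=
  dZ l j * dZ k i - dZ k j * dZ l i + wZ l j * wZ k i - wZ k j * wZ l i - 2 * wZ k l * wZ j i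

theorem sum_tS : ∑ k, ∑ l, ∑ i, ∑ j, tS k l i j ^ 2 = 24 := by decide +kernel

theorem sum_tC : ∑ k, ∑ l, ∑ i, ∑ j, tC k l i j ^ 2 = 192 := by decide +kernel

theorem omSq_of_int {p : M} {f : Fin 4 → TangentSpace 𝓘(ℝ, E) p} {c : ℝ}
    {t : Fin 4 → Fin 4 → Fin 4 → Fin 4 → ℤ} {n : ℤ}
    (h : ∀ k l i j, Om cov p f k l i j = c * (t k l i j : ℝ))
    (hn : ∑ k, ∑ l, ∑ i, ∑ j, t k l i j ^ 2 = n) : omSq cov p f = c ^ 2 * n := by
  unfold omSq
  simp only [h, mul_pow, ← Finset.mul_sum]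
  congr 1
  rw [← hn]
  push_cast
  rfl

theorem omSq_const (hg : Geo4 cov om) {k : ℝ} (hc : ConstCurv cov k) {p : M}
    {f : Fin 4 → TangentSpace 𝓘(ℝ, E) p} (hf : PON om p f) : omSq cov p f = k ^ 2 * 24 := by
  obtain ⟨F, -, hF⟩ := exists_ponnear hg hf
  have h := omSq_of_int (cov := cov) (p := p) (f := f) (c := k) (t := tS) (n := 24) ?_ sum_tS
  · rw [h]; norm_num
  intro a b i j
  rw [C5.Om_eq hg.lc hF]
  have h1 := hc p (F a) (F b) (F j) (F i)
  have h2 : ∀ i j, (inner ℝ (F i p) (F j p) : ℝ) = if i = j then 1 else 0 := by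
    intro i j
    rw [hF i, hF j]
    exact orthonormal_iff_ite.1 hf.1 i j
  change NN.Rm cov (F a) (F b) (F j) (F i) p = _
  rw [h1, h2, h2, h2, h2, tS]
  push_cast
  rw [dZ_cast, dZ_cast, dZ_cast, dZ_cast]
  ring

theorem omSq_cp2 (hg : Geo4 cov om) {lam : ℝ} (hc : CP2Type cov om lam) {p : M}
    {f : Fin 4 → TangentSpace 𝓘(ℝ, E) p} (hf : PON om p f) :
    omSq cov p f = (lam / 6) ^ 2 * 192 := by
  obtain ⟨F, hF1, hF2, hF3⟩ := hc.2 p
  have hp : PON om p fun i => F i p := ⟨hF1, hF2⟩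
  rw [omSq_eq hg hp hf]
  have h := omSq_of_int (cov := cov) (p := p) (f := fun i => F i p) (c := lam / 6) (t := tC)
    (n := 192) ?_ sum_tC
  · rw [h]; norm_num
  intro a b i j
  rw [C5.Om_eq (F := F) hg.lc fun i => rfl]
  have h1 := hF3 (F a) (F b) (F j) (F i)
  have h2 : ∀ i j, (inner ℝ (F i p) (F j p) : ℝ) = ((dZ i j : ℤ) : ℝ) := by
    intro i j
    rw [dZ_cast]
    exact orthonormal_iff_ite.1 hF1 i j
  have h3 : ∀ i j, kf F (F i) (F j) p = ((wZ i j : ℤ) : ℝ) := by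
    intro i j
    unfold kf NN.area wZ
    rw [h2, h2, h2, h2, h2, h2, h2, h2]
    push_cast
    ring
  change NN.Rm cov (F a) (F b) (F j) (F i) p = _
  rw [h1, h3, h3, h3, h3, h3, h3, h2, h2, h2, h2, tC]
  push_cast
  ring

/-! ### consequences in the format of `WZDefs` -/

theorem w_const (hg : Geo4 cov om) (h5 : WZ5Stmt) {kap : ℝ} (hc : ConstCurv cov kap) {p : M}
    {f : Fin 4 → TangentSpace 𝓘(ℝ, E) p} (hf : PON om p f) {w : Fin 3 → Fin 3 → ℝ}
    (hw : HFCurv kap (Om cov p f) w) : ∑ a, ∑ b, w a b ^ 2 = 0 := by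
  have h1 := (h5 kap _ w hw).2.2
  have h2 := omSq_const hg hc hf
  unfold omSq at h2
  rw [h2] at h1
  linarith

theorem w_cp2 (hg : Geo4 cov om) (h5 : WZ5Stmt) {lam : ℝ} (hc : CP2Type cov om lam) {p : M}
    {f : Fin 4 → TangentSpace 𝓘(ℝ, E) p} (hf : PON om p f) {w : Fin 3 → Fin 3 → ℝ}
    (hw : HFCurv (lam / 3) (Om cov p f) w) : ∑ a, ∑ b, w a b ^ 2 = 6 * (lam / 3) ^ 2 := by
  have h1 := (h5 (lam / 3) _ w hw).2.2
  have h2 := omSq_cp2 hg hc hf
  unfold omSq at h2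
  rw [h2] at h1
  nlinarith

/-- nonnegative sectional curvature in the format of `WZ6Stmt` -/
theorem sec_nonneg (hg : Geo4 cov om) (hK : NN.SecNonneg cov) {p : M}
    {f : Fin 4 → TangentSpace 𝓘(ℝ, E) p} (hf : PON om p f) (v : Fin 3 → ℝ) :
    0 ≤ ∑ a, ∑ b, v a * v b * Om cov p f 0 a.succ 0 b.succ := by
  obtain ⟨F, -, hF⟩ := exists_ponnear hg hf
  set c : Fin 4 → ℝ := Fin.cons 0 v with hc
  set d : Fin 4 → ℝ := Fin.cons 1 0 with hd
  have h1 := hK p (∑ i, d i • F i : VF E M) (∑ i, c i • F i : VF E M)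
  have e : ∀ X Y Z W : VF E M, NN.Rm cov X Y Z W p = (lcOf hg.lc).Rm X Y Z W p :=
    fun X Y Z W => congrFun (KI0.rm_eq hg.lc X Y Z W) p
  rw [e, KI0.expand (lcOf hg.lc).isT4_Rm] at h1
  have h2 : ∀ a b, Om cov p f 0 (a : Fin 3).succ 0 (b : Fin 3).succ =
      (lcOf hg.lc).Rm (F 0) (F a.succ) (F b.succ) (F 0) p := by
    intro a b
    rw [C5.Om_eq hg.lc hF, ← e]
    rfl
  simp only [h2]
  simp only [Fin.sum_univ_succ (n := 3), hc, hd, Fin.cons_zero, Fin.cons_succ, Pi.zero_apply,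
    zero_mul, mul_zero, Finset.sum_const_zero, add_zero, zero_add, one_mul, mul_one] at h1
  exact h1

theorem w_le (hg : Geo4 cov om) (h6 : WZ6Stmt) (hK : NN.SecNonneg cov) {kap : ℝ} {p : M}
    {f : Fin 4 → TangentSpace 𝓘(ℝ, E) p} (hf : PON om p f) {w : Fin 3 → Fin 3 → ℝ}
    (hw : HFCurv kap (Om cov p f) w) : ∑ a, ∑ b, w a b ^ 2 ≤ 24 * kap ^ 2 :=
  h6 kap _ w hw fun v => sec_nonneg hg hK hf v

end IX1

end

end Vale.Agent.P211.HK
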