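import Vale.Agent.P211.HK.SC6
import Vale.Agent.P211.HK.SC4
import Vale.Agent.P211.HK.SC3
import Vale.Agent.P211.HK.KIDefs
import Vale.Agent.P211.HK.SV
import Vale.Agent.P211.HK.WZDefs

/-! P211 / HK, block IX2 (helper69): harmonic sections and kernels. -/

set_option maxSynthPendingDepth 3
set_option linter.unusedSectionVars false

namespace Vale.Agent.P211.HK.IX

open scoped Manifold ContDiff Topology RealInnerProductSpace
open Bundle Filter VectorField MeasureTheory Vale.Agent.P211.HK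

noncomputable section

variable {E : Type} [NormedAddCommGroup E] [NormedSpace ℝ E] [FiniteDimensional ℝ E]
  {M : Type} [TopologicalSpace M] [ChartedSpace E M] [IsManifold 𝓘(ℝ, E) ∞ M] [T2Space M]
  [RiemannianBundle fun p : M => TangentSpace 𝓘(ℝ, E) p]
  [IsContMDiffRiemannianBundle 𝓘(ℝ, E) ∞ E fun p : M => TangentSpace 𝓘(ℝ, E) p]
  {cov : CovariantDerivative 𝓘(ℝ, E) E (TangentSpace 𝓘(ℝ, E) : M → Type)}
  {om : Form4 E M}

variable {W W' : Type} [NormedAddCommGroup W] [InnerProductSpace ℝ W] [FiniteDimensional ℝ W]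
  [NormedAddCommGroup W'] [InnerProductSpace ℝ W'] [FiniteDimensional ℝ W']

theorem sc2 (cov : CovariantDerivative 𝓘(ℝ, E) E (TangentSpace 𝓘(ℝ, E) : M → Type))
    (om : Form4 E M) : SC2Stmt cov om := sc2_of cov om sc0 (sc1 cov om)

theorem sc3 (cov : CovariantDerivative 𝓘(ℝ, E) E (TangentSpace 𝓘(ℝ, E) : M → Type))
    (om : Form4 E M) : SC3Stmt cov om := sc3_of cov om (sc1 cov om)

/-- a section vanishing in all positive frames is zero -/
theorem sec_ext {R : Rep W} {u v : PreS E M W} (hu : u ∈ Sec om R) (hv : v ∈ Sec om R)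
    (h : ∀ p f, PON om p f → u p f = v p f) : u = v := by
  funext p f
  by_cases hf : PON om p f
  · exact h p f hf
  · rw [hu.1 p f hf, hv.1 p f hf]

/-! ### constant sections -/

open Classical in
/-- the section with constant components `e` -/
def cS (om : Form4 E M) (e : W) : PreS E M W := fun p f => if PON om p f then e else 0

theorem cS_pos {e : W} {p : M} {f : Fin 4 → TangentSpace 𝓘(ℝ, E) p} (h : PON om p f) :
    cS om e p f = e := if_pos h

theorem cS_mem (hG : Geo4 cov om) {R : Rep W} {e : W} (he : ∀ g, IsSO g → R.ρ g e = e) :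
    cS om e ∈ Sec (E := E) om R := by
  refine ⟨fun p f hf => if_neg hf, fun p f g hf hg => ?_, fun F p hF => ?_⟩
  · rw [cS_pos hf, cS_pos ((sc0 hG).2.2.1 p f g hf hg), he _ (SC2.isSO_trM hg)]
  · have h1 : (fun q => cS om e q fun i => F i q) =ᶠ[𝓝 p] fun _ => e := by
      filter_upwards [hF] with q hq
      exact cS_pos hq
    exact contMDiffAt_const.congr_of_eventuallyEq h1

theorem nabS_cS (hG : Geo4 cov om) (e : W) {p : M} {f : Fin 4 → TangentSpace 𝓘(ℝ, E) p}
    (hf : PON om p f) : nabS cov om (cS om e) p f = 0 := by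
  obtain ⟨F, hF, hn⟩ := SC4.exists_sync hG hf
  rw [hn]
  ext k
  have h1 : (fun q => cS om e q fun i => F i q) =ᶠ[𝓝 p] fun _ => e := by
    filter_upwards [hF.1] with q hq
    exact cS_pos hq
  show dirW (fun q => cS om e q fun i => F i q) p (f k) = 0
  unfold dirW
  rw [h1.mfderiv_eq, mfderiv_const]
  rfl

theorem nabS_cS' (hG : Geo4 cov om) (e : W) : nabS cov om (cS om e) = 0 := by
  funext p f
  by_cases hf : PON om p f
  · exact nabS_cS hG e hf
  · unfold nabS
    rw [dif_neg fun h => hf h.1]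
    rfl

/-! ### integration -/

section meas

variable [MeasurableSpace M] [BorelSpace M] [CompactSpace M] {μ : Measure M}

/-- the hypotheses on the measure -/
structure Vol (cov : CovariantDerivative 𝓘(ℝ, E) E (TangentSpace 𝓘(ℝ, E) : M → Type))
    (om : Form4 E M) (μ : Measure M) : Prop where
  geo : Geo4 cov om
  fin : IsFiniteMeasure μ
  pos : ∀ U : Set M, IsOpen U → U.Nonempty → 0 < μ U
  div : DivZero cov om μ

theorem Vol.exists_fr (V : Vol cov om μ) :
    ∃ fr : (p : M) → Fin 4 → TangentSpace 𝓘(ℝ, E) p, ∀ p, PON om p (fr p) := by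
  choose fr hfr using fun p : M => exists_pon V.geo p
  exact ⟨fr, hfr⟩

theorem Vol.int_zero (V : Vol cov om μ) {R : Rep W} {u : PreS E M W} (hu : u ∈ Sec om R)
    {fr : (p : M) → Fin 4 → TangentSpace 𝓘(ℝ, E) p} (hfr : ∀ p, PON om p (fr p))
    (h : ∫ p, ⟪u p (fr p), u p (fr p)⟫ ∂μ = 0) : u = 0 := by
  have := V.fin
  obtain ⟨φ, hφ, -⟩ := SC4.exists_inner V.geo hu hu
  have h1 : ∀ p, φ p = ⟪u p (fr p), u p (fr p)⟫ := fun p => hφ p _ (hfr p)
  have hc : Continuous fun p => φ p := φ.contMDiff.continuous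
  have h2 : ∫ p, φ p ∂μ = 0 := by
    rw [← h]
    exact integral_congr_ae (Eventually.of_forall h1)
  have hnn : ∀ p, 0 ≤ φ p := fun p => by rw [h1]; exact real_inner_self_nonneg
  have hint : Integrable (fun p => φ p) μ :=
    hc.integrable_of_hasCompactSupport (HasCompactSupport.of_compactSpace _)
  have h3 := (integral_eq_zero_iff_of_nonneg (fun p => hnn p) hint).1 h2
  have hop : μ.IsOpenPosMeasure := ⟨fun U hU hne => (V.pos U hU hne).ne'⟩
  have h4 : (fun p => φ p) = fun _ => (0 : ℝ) :=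
    Continuous.ae_eq_iff_eq (μ := μ) hc continuous_const |>.1 h3
  funext p f
  by_cases hf : PON om p f
  · have h5 : φ p = 0 := congrFun h4 p
    rw [hφ p f hf] at h5
    exact inner_self_eq_zero.1 h5
  · exact hu.1 p f hf

/-- Green's formula -/
theorem Vol.green (V : Vol cov om μ) {R : Rep W} {u v : PreS E M W} (hu : u ∈ Sec om R)
    (hv : v ∈ Sec om R)
    {fr : (p : M) → Fin 4 → TangentSpace 𝓘(ℝ, E) p} (hfr : ∀ p, PON om p (fr p)) :
    ∫ p, ⟪nabS cov om u p (fr p), nabS cov om v p (fr p)⟫ ∂μ =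
      ∫ p, ⟪u p (fr p), lapS cov om v p (fr p)⟫ ∂μ :=
  (sc6 cov om μ V.geo V.fin V.div W R R.tn R.tens_tn fr hfr).2 u hu v hv

/-- eigensections to negative eigenvalues vanish -/
theorem Vol.eig_neg (V : Vol cov om μ) {R : Rep W} {u : PreS E M W} (hu : u ∈ Sec om R) {r : ℝ}
    (hr : 0 < r) (h : lapS cov om u = -(r • u)) : u = 0 := by
  obtain ⟨fr, hfr⟩ := V.exists_fr
  have h1 := V.green hu hu hfr
  have h2 : ∫ p, ⟪u p (fr p), lapS cov om u p (fr p)⟫ ∂μ =
      -(r * ∫ p, ⟪u p (fr p), u p (fr p)⟫ ∂μ) := by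
    rw [← integral_const_mul, ← integral_neg]
    refine integral_congr_ae (Eventually.of_forall fun p => ?_)
    simp only [h, Pi.neg_apply, Pi.smul_apply, inner_neg_right, real_inner_smul_right]
  have h3 : 0 ≤ ∫ p, ⟪nabS cov om u p (fr p), nabS cov om u p (fr p)⟫ ∂μ :=
    integral_nonneg fun p => real_inner_self_nonneg
  have h4 : 0 ≤ ∫ p, ⟪u p (fr p), u p (fr p)⟫ ∂μ :=
    integral_nonneg fun p => real_inner_self_nonneg
  rw [h1, h2] at h3
  refine V.int_zero hu hfr ?_
  nlinarith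

/-- harmonic sections are parallel -/
theorem Vol.harm (V : Vol cov om μ) {R : Rep W} {u : PreS E M W} (hu : u ∈ Sec om R)
    (h : lapS cov om u = 0) : nabS cov om u = 0 := by
  obtain ⟨fr, hfr⟩ := V.exists_fr
  have h1 := V.green hu hu hfr
  have h2 : ∫ p, ⟪u p (fr p), lapS cov om u p (fr p)⟫ ∂μ = 0 := by
    rw [h]
    simp
  rw [h2] at h1
  exact V.int_zero (sc2 cov om V.geo W R R.tn R.tens_tn u hu) hfr h1

/-- harmonic functions are constant -/
theorem Vol.const (V : Vol cov om μ) [PreconnectedSpace M] {w : PreS E M ℝ}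
    (hw : w ∈ Sec om Rep.triv) (h : lapS cov om w = 0) :
    ∀ p f q g, PON om p f → PON om q g → w p f = w q g := by
  have h1 := V.harm hw h
  have hc : cS om (1 : ℝ) ∈ Sec (E := E) om Rep.triv := cS_mem V.geo fun g _ => rfl
  obtain ⟨φ, hφ, hd⟩ := SC4.exists_inner V.geo hw hc
  have hval : ∀ p f, PON om p f → φ p = w p f := by
    intro p f hf
    rw [hφ p f hf, cS_pos hf]
    simp
  have hD : ∀ X : VF E M, DVF X φ = 0 := by
    intro X
    ext p
    obtain ⟨f, hf⟩ := exists_pon V.geo p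
    have h2 : ∀ k, (mvfderiv 𝓘(ℝ, E) φ p (f k) : ℝ) = 0 := by
      intro k
      rw [hd p f hf k, h1, nabS_cS V.geo _ hf]
      simp
    have h3 : X p = ∑ k, (inner ℝ (f k) (X p) : ℝ) • f k := by
      have hT : Module.finrank ℝ (TangentSpace 𝓘(ℝ, E) p) = 4 := V.geo.dim
      obtain ⟨b, hb⟩ := exists_onb hT hf.1
      have := b.sum_repr' (X p)
      rw [← this]
      refine Finset.sum_congr rfl fun k _ => ?_
      rw [this, ← hb]
    show (mvfderiv 𝓘(ℝ, E) φ p (X p) : ℝ) = 0
    rw [h3, map_sum]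
    refine Finset.sum_eq_zero fun k _ => ?_
    rw [map_smul, h2 k, smul_zero]
  intro p f q g hf hg
  rw [← hval p f hf, ← hval q g hg]
  exact S22.const_of_DVF φ hD p q

end meas

end

end Vale.Agent.P211.HK.IX
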