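import Vale.Agent.P211.HK.IX2
import Vale.Agent.P211.HK.HKMain

/-! P211 / HK, block IX2 (helper69): the kernels of `D` and `D'`. -/

set_option maxSynthPendingDepth 3
set_option linter.unusedSectionVars false

namespace Vale.Agent.P211.HK.IX

open scoped Manifold ContDiff Topology RealInnerProductSpace
open Bundle Filter VectorField MeasureTheory Vale.Agent.P211.HK

noncomputable section

/-! ### algebra of the fibre -/

theorem projR (h3 : WZ3Stmt) : ProjSys Rep.triv.hq prR where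
  symm := h3.2.1
  idem t := by
    ext1 x
    exact h3.2.2.1 t x
  orth i j hij := by
    ext1 x
    exact h3.2.2.2.1 i j hij x
  sum := by
    ext1 x
    rw [sum_apply]
    exact h3.2.2.2.2.1 x
  comm := h3.1

theorem projL (h3 : WZ3Stmt) : ProjSys Rep.lam.hq prL where
  symm := h3.2.2.2.2.2.2.2.1
  idem t := by
    ext1 x
    exact h3.2.2.2.2.2.2.2.2.1 t x
  orth i j hij := by
    ext1 x
    exact h3.2.2.2.2.2.2.2.2.2.1 i j hij x
  sum := by
    ext1 x
    rw [sum_apply]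
    exact h3.2.2.2.2.2.2.2.2.2.2.1 x
  comm := h3.2.2.2.2.2.2.1

/-- the real part -/
def reC : Tn ℝ →L[ℝ] ℝ := PiLp.proj 2 (fun _ : Fin 4 => ℝ) 0

theorem reC_apply (η : Tn ℝ) : reC η = η 0 := rfl

theorem reC_int : Intertwines Rep.triv.hq Rep.triv reC := by
  intro g hg η
  rw [reC_apply, reC_apply, Rep.hq_ρ, tnMap_apply, Fin.sum_univ_succ]
  have : ∀ x : ℝ, Rep.triv.ρ g x = x := fun _ => rfl
  simp [this]

/-- the section with components `(c, 0, 0, 0)` -/
def e0 : Tn ℝ := mkT ![1, 0, 0, 0]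

theorem e0_fix (g : Mat4) (_hg : IsSO g) : Rep.triv.hq.ρ g e0 = e0 := by
  refine tn_ext fun k => ?_
  have : ∀ x : ℝ, Rep.triv.ρ g x = x := fun _ => rfl
  rw [Rep.hq_ρ, tnMap_apply, Fin.sum_univ_succ, Fin.sum_univ_three]
  refine Fin.cases ?_ (fun a => ?_) k
  · simp [this, e0, mH]
  · rw [mH_succ_zero]
    fin_cases a <;> simp [this, e0]

theorem prR_one (η : Tn ℝ) (h : prR 1 η = 0) : η = η 0 • e0 := by
  have h1 : ∀ a : Fin 3, η a.succ = 0 := by
    intro a
    have h2 : (prR 1 η) a.succ = 0 := by rw [h]; rfl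
    rw [prR, tnMap_apply, Fin.sum_univ_four] at h2
    fin_cases a <;> simpa using h2
  refine tn_ext fun k => ?_
  refine Fin.cases ?_ (fun a => ?_) k
  · simp [e0]
  · rw [h1 a]
    fin_cases a <;> simp [e0]

theorem reC_prR (η : Tn ℝ) : reC (prR 1 η) = 0 := by
  rw [reC_apply, prR, tnMap_apply, Fin.sum_univ_four]
  simp

/-- the trace `(ℝ ⊕ L₋) ⊗ L₋ → ℝ` -/
def tauC : Tn (EuclideanSpace ℝ (Fin 3)) →L[ℝ] ℝ :=
  ∑ a : Fin 3, (EuclideanSpace.proj a : EuclideanSpace ℝ (Fin 3) →L[ℝ] ℝ).comp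
    (PiLp.proj 2 (fun _ : Fin 4 => EuclideanSpace ℝ (Fin 3)) a.succ)

theorem tauC_apply (η : Tn (EuclideanSpace ℝ (Fin 3))) :
    tauC η = ∑ a : Fin 3, (η a.succ) a := by
  simp [tauC]

theorem tauC_int : Intertwines Rep.lam.hq Rep.triv tauC := by
  intro g hg η
  have h0 : ∀ x : ℝ, Rep.triv.ρ g x = x := fun _ => rfl
  rw [h0, tauC_apply, tauC_apply]
  have h1 : ∀ (x : EuclideanSpace ℝ (Fin 3)) (a : Fin 3),
      (Rep.lam.ρ g x) a = ∑ b, lamM g a b * x b := fun x a => op3_apply _ x a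
  have h2 : ∀ a : Fin 3, ((Rep.lam.hq.ρ g η) a.succ) a =
      ∑ b : Fin 3, ∑ c : Fin 3, lamM g a b * (lamM g a c * (η b.succ) c) := by
    intro a
    rw [Rep.hq_ρ, tnMap_apply, Fin.sum_univ_succ]
    simp only [mH_succ_zero, mH_succ_succ, zero_smul, zero_add, WithLp.ofLp_sum,
      WithLp.ofLp_smul, Finset.sum_apply, Pi.smul_apply, smul_eq_mul, h1, Finset.mul_sum]
  simp only [h2]
  rw [Finset.sum_comm]
  have h3 : ∀ b : Fin 3, ∑ a : Fin 3, ∑ c : Fin 3, lamM g a b * (lamM g a c * (η b.succ) c) =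
      (η b.succ) b := by
    intro b
    rw [Finset.sum_comm]
    have h4 : ∀ c : Fin 3, ∑ a : Fin 3, lamM g a b * (lamM g a c * (η b.succ) c) =
        (if b = c then 1 else 0) * (η b.succ) c := by
      intro c
      rw [← lamM_orth hg b c, Finset.sum_mul]
      exact Finset.sum_congr rfl fun a _ => by ring
    simp only [h4]
    simp
  simp only [h3]

theorem tauC_ioL (x : EuclideanSpace ℝ (Fin 3)) : tauC (ioL x) = 0 := by
  rw [tauC_apply]
  have h : ∀ a : Fin 3, ((ioL x) a.succ) a = - ∑ c : Fin 3, (epsZ a a c : ℝ) * x c := fun a => rfl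
  simp only [h]
  have he : ∀ a c : Fin 3, epsZ a a c = 0 := by decide
  simp [he]

theorem prL_zero (η : Tn (EuclideanSpace ℝ (Fin 3))) (h : tauC η = 0) : prL 0 η = 0 := by
  rw [tauC_apply, Fin.sum_univ_three] at h
  have h0 : ∀ i a, (prL 0 η i) a = ∑ j, ∑ b, ((PlZ 0 i a j b : ℝ) / 6) * (η j) b :=
    fun i a => rfl
  refine tn_ext fun i => ?_
  ext a
  rw [h0]
  show _ = (0 : ℝ)
  refine Fin.cases ?_ (fun i => ?_) i
  · refine Finset.sum_eq_zero fun j _ => Finset.sum_eq_zero fun b _ => ?_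
    have : PlZ 0 0 a j b = 0 := by
      refine Fin.cases ?_ (fun j => ?_) j <;> rfl
    rw [this]
    simp
  · have h1 : ∀ b, PlZ 0 i.succ a 0 b = 0 := fun b => rfl
    have h2 : ∀ j b : Fin 3, PlZ 0 i.succ a j.succ b = 2 * d3Z i a * d3Z j b := fun j b => rfl
    rw [Fin.sum_univ_succ]
    simp only [h1, h2]
    have h3 : ∀ j b : Fin 3, (((2 * d3Z i a * d3Z j b : ℤ) : ℝ) / 6) * (η j.succ) b =
        ((d3Z i a : ℝ) / 3) * ((d3Z j b : ℝ) * (η j.succ) b) := by
      intro j b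
      push_cast
      ring
    simp only [h3]
    simp only [← Finset.mul_sum]
    have h4 : ∀ j : Fin 3, ∑ b : Fin 3, (d3Z j b : ℝ) * (η j.succ) b = (η j.succ) j := by
      intro j
      simp [d3Z]
    simp only [h4, Fin.sum_univ_three]
    rw [h]
    simp

/-! ### components -/

variable {E : Type} [NormedAddCommGroup E] [NormedSpace ℝ E] [FiniteDimensional ℝ E]
  {M : Type} [TopologicalSpace M] [ChartedSpace E M] [IsManifold 𝓘(ℝ, E) ∞ M] [T2Space M]
  [RiemannianBundle fun p : M => TangentSpace 𝓘(ℝ, E) p]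
  [IsContMDiffRiemannianBundle 𝓘(ℝ, E) ∞ E fun p : M => TangentSpace 𝓘(ℝ, E) p]
  {cov : CovariantDerivative 𝓘(ℝ, E) E (TangentSpace 𝓘(ℝ, E) : M → Type)}
  {om : Form4 E M}

variable {W : Type} [NormedAddCommGroup W] [InnerProductSpace ℝ W] [FiniteDimensional ℝ W]

theorem lap_eq {ι : Type} [Fintype ι] {pr : ι → W →L[ℝ] W} {v : PreS E M W} {r : ι → ℝ}
    (h : lapS cov om v + ∑ t, r t • mapS (pr t) v = 0) (p : M)
    (f : Fin 4 → TangentSpace 𝓘(ℝ, E) p) :
    lapS cov om v p f = - ∑ t, r t • pr t (v p f) := by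
  have h1 := congrFun (congrFun h p) f
  simp only [Pi.add_apply, Finset.sum_apply, Pi.smul_apply, Pi.zero_apply] at h1
  rw [eq_neg_iff_add_eq_zero]
  exact h1

theorem comp_eig (hG : Geo4 cov om) {R : Rep W} {ι : Type} [Fintype ι] {pr : ι → W →L[ℝ] W}
    (hp : ProjSys R pr) {v : PreS E M W} (hv : v ∈ Sec om R) {r : ι → ℝ}
    (h : lapS cov om v + ∑ t, r t • mapS (pr t) v = 0) (j : ι) :
    lapS cov om (mapS (pr j) v) = -(r j • mapS (pr j) v) := by
  rw [(sc3 cov om hG W W R R (pr j) (hp.comm j) v hv).2.2]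
  funext p f
  show pr j (lapS cov om v p f) = -(r j • pr j (v p f))
  rw [lap_eq h, map_neg, map_sum, Finset.sum_eq_single j]
  · rw [map_smul]
    have := DFunLike.congr_fun (hp.idem j) (v p f)
    rw [ContinuousLinearMap.comp_apply] at this
    rw [this]
  · intro t _ ht
    rw [map_smul]
    have := DFunLike.congr_fun (hp.orth j t ht.symm) (v p f)
    rw [ContinuousLinearMap.comp_apply] at this
    rw [this]
    simp
  · intro h
    exact absurd (Finset.mem_univ j) h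

/-! ### the operators -/

/-- `D` as a linear map -/
def DopL (h1 : WZ1Stmt cov om) (hG : Geo4 cov om) (R : Rep W) :
    Sec (E := E) om R.tn →ₗ[ℝ] Sec (E := E) om R.hq where
  toFun u := ⟨Dop cov om u, (h1 hG W R).1 u u.2⟩
  map_add' u v := Subtype.ext ((h1 hG W R).2.2.1 u u.2 v v.2)
  map_smul' c u := Subtype.ext ((h1 hG W R).2.2.2.1 c u u.2)

/-- `D'` as a linear map -/
def DadL (h1 : WZ1Stmt cov om) (hG : Geo4 cov om) (R : Rep W) :
    Sec (E := E) om R.hq →ₗ[ℝ] Sec (E := E) om R.tn where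
  toFun u := ⟨Dad cov om u, (h1 hG W R).2.1 u u.2⟩
  map_add' u v := Subtype.ext ((h1 hG W R).2.2.2.2.1 u u.2 v v.2)
  map_smul' c u := Subtype.ext ((h1 hG W R).2.2.2.2.2 c u u.2)

@[simp] theorem DopL_coe (h1 : WZ1Stmt cov om) (hG : Geo4 cov om) (R : Rep W)
    (u : Sec (E := E) om R.tn) : (DopL h1 hG R u : PreS E M (Tn W)) = Dop cov om u := rfl

@[simp] theorem DadL_coe (h1 : WZ1Stmt cov om) (hG : Geo4 cov om) (R : Rep W)
    (u : Sec (E := E) om R.hq) : (DadL h1 hG R u : PreS E M (Tn W)) = Dad cov om u := rfl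

theorem mapS_zero (C : W →L[ℝ] W) : mapS C (0 : PreS E M W) = 0 := by
  funext p f
  exact map_zero C

theorem Dop_zero (h1 : WZ1Stmt cov om) (hG : Geo4 cov om) (R : Rep W) :
    Dop cov om (0 : PreS E M (Tn W)) = 0 :=
  congrArg Subtype.val (map_zero (DopL h1 hG R))

section meas

variable [MeasurableSpace M] [BorelSpace M] [CompactSpace M] {μ : Measure M}

theorem ker_Dop (V : Vol cov om μ) {kap : ℝ} (hk : 0 < kap) (h1 : WZ1Stmt cov om) (R : Rep W)
    (h4 : ∀ u ∈ Sec (E := E) om R.tn, Dad cov om (Dop cov om u) =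
      lapS cov om u + (3 * kap) • u) :
    LinearMap.ker (DopL h1 V.geo R) = ⊥ := by
  rw [LinearMap.ker_eq_bot']
  intro u hu
  have h5 : Dop cov om (u : PreS E M (Tn W)) = 0 := congrArg Subtype.val hu
  have h6 := h4 u u.2
  rw [h5] at h6
  have h7 : Dad cov om (0 : PreS E M (Tn W)) = 0 :=
    congrArg Subtype.val (map_zero (DadL h1 V.geo R))
  rw [h7] at h6
  have h8 : lapS cov om (u : PreS E M (Tn W)) = -((3 * kap) • (u : PreS E M (Tn W))) :=
    eq_neg_of_add_eq_zero_left h6.symm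
  exact Subtype.ext (V.eig_neg u.2 (by linarith) h8)

theorem lap_of_ker {R : Rep W} {kap : ℝ} {ι : Type} [Fintype ι] {pr : ι → Tn W →L[ℝ] Tn W}
    {ev : ι → ℝ} (h1 : WZ1Stmt cov om) (hG : Geo4 cov om)
    (h4 : ∀ v ∈ Sec (E := E) om R.hq, Dop cov om (Dad cov om v) =
      lapS cov om v + ∑ t, (kap * ev t) • mapS (pr t) v)
    (v : Sec (E := E) om R.hq) (hv : v ∈ LinearMap.ker (DadL h1 hG R)) :
    lapS cov om (v : PreS E M (Tn W)) + ∑ t, (kap * ev t) • mapS (pr t) v = 0 := by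
  rw [← h4 v v.2]
  have h5 : Dad cov om (v : PreS E M (Tn W)) = 0 := congrArg Subtype.val hv
  rw [h5]
  exact Dop_zero h1 hG R

/-- the kernel of `D'` for the trivial twist is spanned by the constants -/
theorem finrank_triv [PreconnectedSpace M] [Nonempty M] (V : Vol cov om μ) {kap : ℝ}
    (hk : 0 < kap) (h1 : WZ1Stmt cov om) (h3 : WZ3Stmt)
    (h4 : ∀ v ∈ Sec (E := E) om Rep.triv.hq, Dop cov om (Dad cov om v) =
      lapS cov om v + ∑ t, (kap * evR t) • mapS (prR t) v) :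
    Module.finrank ℝ (LinearMap.ker (DadL h1 V.geo Rep.triv)) = 1 := by
  obtain ⟨fr, hfr⟩ := V.exists_fr
  obtain ⟨p0⟩ := ‹Nonempty M›
  have hc : cS om e0 ∈ Sec (E := E) om Rep.triv.hq := cS_mem V.geo e0_fix
  have hk0 : (⟨cS om e0, hc⟩ : Sec (E := E) om Rep.triv.hq) ∈
      LinearMap.ker (DadL h1 V.geo Rep.triv) := by
    rw [LinearMap.mem_ker]
    refine Subtype.ext ?_
    show mapS (CC cMt) (nabS cov om (cS om e0)) = 0
    rw [nabS_cS' V.geo]
    funext p f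
    exact map_zero _
  rw [finrank_eq_one_iff_of_nonzero' (⟨_, hk0⟩ : LinearMap.ker (DadL h1 V.geo Rep.triv))]
  · rintro ⟨v, hv⟩
    have h5 := lap_of_ker h1 V.geo h4 v hv
    have h6 := comp_eig V.geo (projR h3) v.2 h5 1
    have h7 : mapS (prR 1) (v : PreS E M (Tn ℝ)) = 0 := by
      refine V.eig_neg ((sc3 cov om V.geo _ _ _ _ _ ((projR h3).comm 1) v v.2).1)
        (r := kap * evR 1) ?_ h6
      simp [evR]
      linarith
    have h8 : ∀ p f, (v : PreS E M (Tn ℝ)) p f = (v : PreS E M (Tn ℝ)) p f 0 • e0 := by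
      intro p f
      exact prR_one _ (congrFun (congrFun h7 p) f)
    have h9 := sc3 cov om V.geo _ _ _ _ _ reC_int v v.2
    have h10 : lapS cov om (mapS reC (v : PreS E M (Tn ℝ))) = 0 := by
      rw [h9.2.2]
      funext p f
      show reC (lapS cov om (v : PreS E M (Tn ℝ)) p f) = 0
      rw [lap_eq h5, Fin.sum_univ_two, map_neg, map_add, map_smul, map_smul, reC_prR]
      simp [evR]
    have h11 := V.const h9.1 h10
    refine ⟨(v : PreS E M (Tn ℝ)) p0 (fr p0) 0, Subtype.ext (Subtype.ext ?_)⟩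
    refine sec_ext ((Sec om Rep.triv.hq).smul_mem _ hc) v.2 fun p f hf => ?_
    rw [h8 p f]
    show (v : PreS E M (Tn ℝ)) p0 (fr p0) 0 • cS om e0 p f = _
    have h12 : (v : PreS E M (Tn ℝ)) p f 0 = (v : PreS E M (Tn ℝ)) p0 (fr p0) 0 :=
      h11 p f p0 (fr p0) hf (hfr p0)
    rw [cS_pos hf, h12]
  · intro h
    have h5 : cS om e0 p0 (fr p0) = (0 : Tn ℝ) :=
      congrFun (congrFun (congrArg Subtype.val (congrArg Subtype.val h)) p0) (fr p0)
    rw [cS_pos (hfr p0)] at h5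
    have h6 : (e0 : Tn ℝ) 0 = 0 := by rw [h5]; rfl
    simp [e0] at h6

/-- the components of the elements of the kernel of `D'` for the twist `L₋` -/
theorem lam_comp (V : Vol cov om μ) {kap : ℝ} (hk : 0 < kap) (h1 : WZ1Stmt cov om)
    (h3 : WZ3Stmt)
    (h4 : ∀ v ∈ Sec (E := E) om Rep.lam.hq, Dop cov om (Dad cov om v) =
      lapS cov om v + ∑ t, (kap * evL t) • mapS (prL t) v)
    (v : Sec (E := E) om Rep.lam.hq) (hv : v ∈ LinearMap.ker (DadL h1 V.geo Rep.lam))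
    (p : M) (f : Fin 4 → TangentSpace 𝓘(ℝ, E) p) :
    prL 1 ((v : PreS E M (Tn Eu3)) p f) = 0 ∧ prL 2 ((v : PreS E M (Tn Eu3)) p f) = 0 ∧
    lapS cov om (v : PreS E M (Tn Eu3)) p f =
      (2 * kap) • prL 3 ((v : PreS E M (Tn Eu3)) p f) := by
  have h5 := lap_of_ker h1 V.geo h4 v hv
  have key : ∀ j, 0 < kap * evL j → prL j ((v : PreS E M (Tn Eu3)) p f) = 0 := by
    intro j hj
    have h6 := comp_eig V.geo (projL h3) v.2 h5 j
    have h7 : mapS (prL j) (v : PreS E M (Tn Eu3)) = 0 :=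
      V.eig_neg ((sc3 cov om V.geo _ _ _ _ _ ((projL h3).comm j) v v.2).1) hj h6
    exact congrFun (congrFun h7 p) f
  have k1 := key 1 (by simp [evL]; linarith)
  have k2 := key 2 (by simp [evL]; linarith)
  refine ⟨k1, k2, ?_⟩
  rw [lap_eq h5, Fin.sum_univ_four, k1, k2]
  simp only [evL, Matrix.cons_val_zero, Matrix.cons_val, mul_zero, zero_smul, smul_zero, zero_add]
  rw [← neg_smul]
  congr 1
  ring

theorem six_prL (h3 : WZ3Stmt) (η : Tn Eu3) : prL 3 η = (1 / 6 : ℝ) • ioL (ioLt η) := by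
  rw [h3.2.2.2.2.2.2.2.2.2.2.2.2.2.2.2 η, smul_smul]
  norm_num

theorem lam_map (V : Vol cov om μ) {kap : ℝ} (hk : 0 < kap) (h1 : WZ1Stmt cov om)
    (h3 : WZ3Stmt)
    (h4 : ∀ v ∈ Sec (E := E) om Rep.lam.hq, Dop cov om (Dad cov om v) =
      lapS cov om v + ∑ t, (kap * evL t) • mapS (prL t) v)
    (v : Sec (E := E) om Rep.lam.hq) (hv : v ∈ LinearMap.ker (DadL h1 V.geo Rep.lam)) :
    mapS ioLt (v : PreS E M (Tn Eu3)) ∈ Sec om Rep.lam ∧
    lapS cov om (mapS ioLt (v : PreS E M (Tn Eu3))) =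
      (2 * kap) • mapS ioLt (v : PreS E M (Tn Eu3)) := by
  have h9 := sc3 cov om V.geo _ _ _ _ ioLt h3.2.2.2.2.2.2.2.2.2.2.2.2.2.1 v v.2
  refine ⟨h9.1, ?_⟩
  rw [h9.2.2]
  funext p f
  show ioLt (lapS cov om (v : PreS E M (Tn Eu3)) p f) =
    (2 * kap) • ioLt ((v : PreS E M (Tn Eu3)) p f)
  rw [(lam_comp V hk h1 h3 h4 v hv p f).2.2, map_smul, six_prL h3, map_smul,
    h3.2.2.2.2.2.2.2.2.2.2.2.2.2.2.1, smul_smul, smul_smul]
  congr 1
  ring

theorem lam_inj [PreconnectedSpace M] (V : Vol cov om μ) {kap : ℝ} (hk : 0 < kap)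
    (h1 : WZ1Stmt cov om) (h3 : WZ3Stmt)
    (h4 : ∀ v ∈ Sec (E := E) om Rep.lam.hq, Dop cov om (Dad cov om v) =
      lapS cov om v + ∑ t, (kap * evL t) • mapS (prL t) v)
    (v : Sec (E := E) om Rep.lam.hq) (hv : v ∈ LinearMap.ker (DadL h1 V.geo Rep.lam))
    {p0 : M} {f0 : Fin 4 → TangentSpace 𝓘(ℝ, E) p0} (hf0 : PON om p0 f0)
    (h6 : tauC ((v : PreS E M (Tn Eu3)) p0 f0) = 0)
    (h7 : mapS ioLt (v : PreS E M (Tn Eu3)) = 0) : v = 0 := by
  have h9 := sc3 cov om V.geo _ _ _ _ tauC tauC_int v v.2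
  have h10 : lapS cov om (mapS tauC (v : PreS E M (Tn Eu3))) = 0 := by
    rw [h9.2.2]
    funext p f
    show tauC (lapS cov om (v : PreS E M (Tn Eu3)) p f) = 0
    rw [(lam_comp V hk h1 h3 h4 v hv p f).2.2, map_smul, six_prL h3, map_smul, tauC_ioL]
    simp
  have h11 := V.const h9.1 h10
  refine Subtype.ext (sec_ext v.2 (Sec om Rep.lam.hq).zero_mem fun p f hf => ?_)
  have h12 : tauC ((v : PreS E M (Tn Eu3)) p f) = 0 := by
    rw [← h6]
    exact h11 p f p0 f0 hf hf0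
  have h13 : ioLt ((v : PreS E M (Tn Eu3)) p f) = 0 := congrFun (congrFun h7 p) f
  have h14 := (lam_comp V hk h1 h3 h4 v hv p f)
  have h15 := h3.2.2.2.2.2.2.2.2.2.2.1 ((v : PreS E M (Tn Eu3)) p f)
  rw [Fin.sum_univ_four, h14.1, h14.2.1, six_prL h3, h13, prL_zero _ h12] at h15
  show (v : PreS E M (Tn Eu3)) p f = 0
  rw [← h15]
  simp

/-- many elements in the kernel of `D'` give many eigensections of `L₋` -/
theorem exists_E2 [PreconnectedSpace M] [Nonempty M] (V : Vol cov om μ) {kap : ℝ} (hk : 0 < kap)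
    (h1 : WZ1Stmt cov om) (h3 : WZ3Stmt)
    (h4 : ∀ v ∈ Sec (E := E) om Rep.lam.hq, Dop cov om (Dad cov om v) =
      lapS cov om v + ∑ t, (kap * evL t) • mapS (prL t) v)
    (hfin : FiniteDimensional ℝ (LinearMap.ker (DadL h1 V.geo Rep.lam))) {n : ℕ}
    (hn : n + 1 ≤ Module.finrank ℝ (LinearMap.ker (DadL h1 V.geo Rep.lam))) :
    ∃ u : Fin n → PreS E M Eu3, (∀ i, u i ∈ Sec om Rep.lam) ∧
      (∀ i, lapS cov om (u i) = (2 * kap) • u i) ∧ LinearIndependent ℝ u := by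
  obtain ⟨fr, hfr⟩ := V.exists_fr
  obtain ⟨p0⟩ := ‹Nonempty M›
  -- the value of the trace
  let tp : LinearMap.ker (DadL h1 V.geo Rep.lam) →ₗ[ℝ] ℝ :=
    { toFun := fun v => tauC (((v : Sec (E := E) om Rep.lam.hq) : PreS E M (Tn Eu3)) p0 (fr p0))
      map_add' := fun v w => map_add tauC _ _
      map_smul' := fun c v => map_smul tauC _ _ }
  have h5 : Module.finrank ℝ (LinearMap.range tp) + Module.finrank ℝ (LinearMap.ker tp) =
      Module.finrank ℝ (LinearMap.ker (DadL h1 V.geo Rep.lam)) :=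
    LinearMap.finrank_range_add_finrank_ker tp
  have h6 : Module.finrank ℝ (LinearMap.range tp) ≤ 1 := by
    have := Submodule.finrank_le (LinearMap.range tp)
    simpa using this
  have h7 : n ≤ Module.finrank ℝ (LinearMap.ker tp) := by omega
  let b := Module.finBasis ℝ (LinearMap.ker tp)
  let Ψ : LinearMap.ker tp →ₗ[ℝ] PreS E M Eu3 :=
    { toFun := fun v => mapS ioLt
        (((v : LinearMap.ker (DadL h1 V.geo Rep.lam)) : Sec (E := E) om Rep.lam.hq) :
          PreS E M (Tn Eu3))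
      map_add' := fun v w => by
        funext p f
        exact map_add ioLt _ _
      map_smul' := fun c v => by
        funext p f
        exact map_smul ioLt _ _ }
  have hΨ : LinearMap.ker Ψ = ⊥ := by
    rw [LinearMap.ker_eq_bot']
    rintro ⟨⟨v, hv⟩, hv0⟩ h8
    refine Subtype.ext (Subtype.ext ?_)
    exact lam_inj V hk h1 h3 h4 v hv (hfr p0) hv0 h8
  refine ⟨fun i => Ψ (b (Fin.castLE h7 i)), fun i => ?_, fun i => ?_, ?_⟩
  · exact (lam_map V hk h1 h3 h4 _ (b (Fin.castLE h7 i)).1.2).1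
  · exact (lam_map V hk h1 h3 h4 _ (b (Fin.castLE h7 i)).1.2).2
  · exact (b.linearIndependent.comp _ (Fin.castLE_injective h7)).map' Ψ hΨ

end meas

end

end Vale.Agent.P211.HK.IX
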