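import Vale.Agent.P211.HK.KI2
import Vale.Agent.P211.HK.Reps
import Vale.Agent.P211.HK.SC4

/-! P211 / HK / KI1 (helper786): eigensections of `H` on `L-` for the eigenvalue `2 kap` are twistor
forms. -/

set_option maxSynthPendingDepth 3
set_option linter.unusedSectionVars false

namespace Vale.Agent.P211.HK

open scoped Manifold ContDiff Topology RealInnerProductSpace
open Bundle Filter VectorField MeasureTheory

noncomputable section

variable {E : Type} [NormedAddCommGroup E] [NormedSpace ℝ E] [FiniteDimensional ℝ E]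
  {M : Type} [TopologicalSpace M] [ChartedSpace E M] [IsManifold 𝓘(ℝ, E) ∞ M] [T2Space M]
  [RiemannianBundle fun p : M => TangentSpace 𝓘(ℝ, E) p]
  [IsContMDiffRiemannianBundle 𝓘(ℝ, E) ∞ E fun p : M => TangentSpace 𝓘(ℝ, E) p]
  {cov : CovariantDerivative 𝓘(ℝ, E) E (TangentSpace 𝓘(ℝ, E) : M → Type)}
  {om : Form4 E M}

namespace KI

open SC2 SC3

/-- `∑ ∇_k (S Sᵀ ∇u)_k = - H u - 4 kap u` -/
theorem div_SST (h5 : SC5Stmt cov om) (hg : Geo4 cov om) {kap : ℝ} (hA : Asd cov om kap)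
    {R : Rep Eu3} (hR : IsLam R) {u : PreS E M Eu3} (hu : u ∈ Sec om R)
    (hu' : SmF om (nabS cov om u)) {p : M}
    {f : Fin 4 → TangentSpace 𝓘(ℝ, E) p} (hf : PON om p f) :
    ∑ k, (nabS cov om (mapS SLm (mapS STm (nabS cov om u))) p f) k k =
      - (lapS cov om u p f + (4 * kap) • u p f) := by
  have h1 : nabS cov om (mapS SLm (mapS STm (nabS cov om u))) =
      mapS (tnC (SLm.comp STm)) (nabS cov om (nabS cov om u)) := by
    rw [← nabS_mapS hu']
    rfl
  rw [h1]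
  unfold mapS
  simp only [tnC_apply]
  ext a
  have h2 := div_alg kap (fun b => u p f b)
    (fun k l a => (nabS cov om (nabS cov om u) p f) k l a)
    (fun k l a => d_Om h5 hg hA hR hu hf k l a) a
  have h3 : (∑ k, (SLm.comp STm) ((nabS cov om (nabS cov om u) p f) k) k) a =
      ∑ k, ∑ l, Mm a k l * ∑ m, ∑ b, Mm b m l * (nabS cov om (nabS cov om u) p f) k m b := by
    simp only [WithLp.ofLp_sum, Finset.sum_apply]
    rfl
  rw [h3, h2]
  unfold lapS
  simp only [PiLp.neg_apply, PiLp.add_apply, PiLp.smul_apply, smul_eq_mul, WithLp.ofLp_sum,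
    Finset.sum_apply]
  ring

end KI

open SC2 SC3 KI

/-- KI1 -/
theorem ki1 (cov : CovariantDerivative 𝓘(ℝ, E) E (TangentSpace 𝓘(ℝ, E) : M → Type))
    (om : Form4 E M) [MeasurableSpace M] [BorelSpace M] [CompactSpace M] (μ : Measure M) :
    KI1Stmt cov om μ := by
  intro hg hfin hopen hdiv kap hkap hA R RT hR hRT u hu hlap
  have h5 : SC5Stmt cov om := C5.sc5 om sc0 (sc1 cov om)
  have hT := Rep.tens_tn R
  have hη : nabS cov om u ∈ Sec om R.tn := sc2_of cov om sc0 (sc1 cov om) hg Eu3 R R.tn hT u hu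
  have hz : mapS STm (nabS cov om u) ∈ Sec om RT := mapS_mem (STm_int hR hT hRT) hη
  have hζ : mapS SLm (mapS STm (nabS cov om u)) ∈ Sec om R.tn := mapS_mem (SLm_int hR hT hRT) hz
  refine ⟨hz, ?_⟩
  -- choice of frames
  have hex := (sc0 (cov := cov) (om := om) hg).2.1
  choose fr hfr using hex
  obtain ⟨i1, i2⟩ := sc6 cov om μ hg hfin hdiv Eu3 R R.tn hT fr hfr
  have e1 := i1 u hu _ hζ
  have e2 := i2 u hu u hu
  -- the remainder section
  have hθ : nabS cov om u - (1 / 3 : ℝ) • mapS SLm (mapS STm (nabS cov om u)) ∈ Sec om R.tn :=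
    Submodule.sub_mem _ hη (Submodule.smul_mem _ _ hζ)
  obtain ⟨φ, hφ, -⟩ := (sc4 (cov := cov) (om := om) hg (Tn Eu3) R.tn).2.2.2 _ hθ _ hθ
  obtain ⟨φ₁, hφ₁, -⟩ := (sc4 (cov := cov) (om := om) hg (Tn Eu3) R.tn).2.2.2 _ hη _ hη
  obtain ⟨φ₂, hφ₂, -⟩ := (sc4 (cov := cov) (om := om) hg (Tn Eu3) R.tn).2.2.2 _ hη _ hζ
  obtain ⟨ψ, hψ, -⟩ := (sc4 (cov := cov) (om := om) hg Eu3 R).2.2.2 _ hu _ hu
  have hint : ∀ χ : SF E M, Integrable (fun p => χ p) μ := fun χ =>
    χ.contMDiff.continuous.integrable_of_hasCompactSupport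
      (HasCompactSupport.of_compactSpace _)
  have hpt : ∀ p, φ p = φ₁ p - 1 / 3 * φ₂ p := by
    intro p
    rw [hφ p _ (hfr p), hφ₁ p _ (hfr p), hφ₂ p _ (hfr p), real_inner_self_eq_norm_sq]
    exact Q_norm (nabS cov om u p (fr p))
  have hlap' : ∀ p f, lapS cov om u p f = (2 * kap) • u p f := fun p f => by
    rw [hlap]; rfl
  have k1 : ∫ p, φ₁ p ∂μ = 2 * kap * ∫ p, ψ p ∂μ := by
    rw [← integral_const_mul]
    refine Eq.trans ?_ (e2.trans ?_)
    · exact integral_congr_ae (Eventually.of_forall fun p => hφ₁ p _ (hfr p))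
    · refine integral_congr_ae (Eventually.of_forall fun p => ?_)
      change ⟪u p (fr p), lapS cov om u p (fr p)⟫ = 2 * kap * ψ p
      rw [hlap', inner_smul_right, hψ p _ (hfr p)]
  have k2 : ∫ p, φ₂ p ∂μ = 6 * kap * ∫ p, ψ p ∂μ := by
    rw [← integral_const_mul]
    refine Eq.trans ?_ (e1.trans ?_)
    · exact integral_congr_ae (Eventually.of_forall fun p => hφ₂ p _ (hfr p))
    · rw [← integral_neg]
      refine integral_congr_ae (Eventually.of_forall fun p => ?_)
      change - ⟪u p (fr p), ∑ k, (nabS cov om (mapS SLm (mapS STm (nabS cov om u))) p (fr p)) k k⟫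
        = 6 * kap * ψ p
      rw [div_SST h5 hg hA hR hu (smF_of_mem hη) (hfr p), hlap', inner_neg_right, inner_add_right,
        inner_smul_right, inner_smul_right, hψ p _ (hfr p)]
      ring
  have k3 : ∫ p, φ p ∂μ = 0 := by
    have : ∫ p, φ p ∂μ = ∫ p, (φ₁ p - 1 / 3 * φ₂ p) ∂μ :=
      integral_congr_ae (Eventually.of_forall hpt)
    rw [this, integral_sub (hint φ₁) ((hint φ₂).const_mul _), integral_const_mul, k1, k2]
    ring
  have hpos : μ.IsOpenPosMeasure := ⟨fun U hU hne => (hopen U hU hne).ne'⟩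
  have hnn : ∀ p, 0 ≤ φ p := fun p => by
    rw [hφ p _ (hfr p)]
    exact real_inner_self_nonneg
  have k4 : (fun p => φ p) =ᵐ[μ] 0 :=
    (integral_eq_zero_iff_of_nonneg hnn (hint φ)).1 k3
  have k5 : (fun p => φ p) = 0 :=
    (Continuous.ae_eq_iff_eq μ φ.contMDiff.continuous continuous_const).1 k4
  intro p f hf k a
  have k6 : φ p = 0 := congrFun k5 p
  rw [hφ p f hf, inner_self_eq_zero] at k6
  have k7 := sub_eq_zero.1 k6
  exact congrArg (fun w : Tn Eu3 => (w k) a) k7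

end

end Vale.Agent.P211.HK
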