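import Vale.Agent.P211.HK.KI1d
import Vale.Agent.P211.HK.SC6

/-! P211 / HK / KI2 (helper786): twistor forms give Killing fields. -/

set_option maxSynthPendingDepth 3
set_option linter.unusedSectionVars false

namespace Vale.Agent.P211.HK

open scoped Manifold ContDiff Topology RealInnerProductSpace
open Bundle Filter VectorField MeasureTheory

noncomputable section

variable {E : Type} [NormedAddCommGroup E] [NormedSpace ℝ E] [FiniteDimensional ℝ E]
  {M : Type} [TopologicalSpace M] [ChartedSpace E M] [IsManifold 𝓘(ℝ, E) ∞ M] [T2Space M]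
  [RiemannianBundle fun p : M => TangentSpace 𝓘(ℝ, E) p]
  [IsContMDiffRiemannianBundle 𝓘(ℝ, E) ∞ E fun p : M => TangentSpace 𝓘(ℝ, E) p]
  {cov : CovariantDerivative 𝓘(ℝ, E) E (TangentSpace 𝓘(ℝ, E) : M → Type)}
  {om : Form4 E M}

namespace KI

open SC2 SC3

/-- action of the curvature on the bundle `L-` -/
theorem d_Om (h5 : SC5Stmt cov om) (hg : Geo4 cov om) {kap : ℝ} (hA : Asd cov om kap)
    {R : Rep Eu3} (hR : IsLam R) {u : PreS E M Eu3} (hu : u ∈ Sec om R) {p : M}
    {f : Fin 4 → TangentSpace 𝓘(ℝ, E) p} (hf : PON om p f) (k l : Fin 4) (a : Fin 3) :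
    (nabS cov om (nabS cov om u) p f) k l a - (nabS cov om (nabS cov om u) p f) l k a =
      kap * crs (fun b => Mm b k l) (fun b => u p f b) a := by
  obtain ⟨h1, h2⟩ := h5 hg Eu3 R u hu p f hf
  have h3 := h2 k l
  have h4 := congrArg (fun w : Eu3 => w a) h3
  simp only [PiLp.sub_apply] at h4
  rw [h4, d_lam hR (fun i j => h1 k l i j)]
  have h6 : alp (Om cov p f k l) = fun b => 2 * kap * Mm b k l := by
    funext b
    exact hA p f hf b k l
  rw [h6]
  fin_cases a <;> simp [crs] <;> ring

theorem nabS_off {W : Type} [NormedAddCommGroup W] [InnerProductSpace ℝ W] (u : PreS E M W) {p : M}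
    {f : Fin 4 → TangentSpace 𝓘(ℝ, E) p} (hf : ¬ PON om p f) : nabS cov om u p f = 0 := by
  unfold nabS
  rw [dif_neg fun h => hf h.1]

theorem nabS_zero' {W : Type} [NormedAddCommGroup W] [InnerProductSpace ℝ W]
    (u : PreS E M W) (hu : ∀ p f, u p f = 0) (p : M) (f : Fin 4 → TangentSpace 𝓘(ℝ, E) p) :
    nabS cov om u p f = 0 := by
  have h0 : u = mapS (0 : ℝ →L[ℝ] W) (fun (q : M) (_ : Fin 4 → TangentSpace 𝓘(ℝ, E) q) => (0 : ℝ)) := by
    funext q g
    rw [hu]
    simp [mapS]
  rw [h0, nabS_mapS]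
  · unfold mapS
    ext k
    rw [tnC_apply]
    simp
  · intro F q hF
    exact contMDiffAt_const

end KI

open SC2 SC3 KI

/-- KI2 -/
theorem ki2 (cov : CovariantDerivative 𝓘(ℝ, E) E (TangentSpace 𝓘(ℝ, E) : M → Type))
    (om : Form4 E M) : KI2Stmt cov om := by
  intro hg kap hkap hA R RT hR hRT u hu z hz h
  have h5 : SC5Stmt cov om := C5.sc5 om sc0 (sc1 cov om)
  have hnab : nabS cov om u = mapS ((1 / 3 : ℝ) • SLm) z := by
    funext p f
    by_cases hf : PON om p f
    · ext k a
      rw [h p f hf k a]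
      rfl
    · rw [nabS_off u hf]
      unfold mapS
      rw [hz.1 p f hf, map_zero]
  have hnn : nabS cov om (nabS cov om u) = mapS (tnC ((1 / 3 : ℝ) • SLm)) (nabS cov om z) := by
    rw [hnab]
    exact nabS_mapS (smF_of_mem hz) _
  have key : ∀ p f, PON om p f →
      (∀ i j, (nabS cov om z p f i) j = - (nabS cov om z p f j) i) ∧
      ∀ a, ∑ i, ∑ j, Mm a i j * (nabS cov om z p f i) j = -6 * kap * u p f a := by
    intro p f hf
    refine ki_alg kap (fun k m => (nabS cov om z p f k) m) (fun b => u p f b) fun k l a => ?_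
    have h1 := d_Om h5 hg hA hR hu hf k l a
    have h2 : ∀ k l a, (nabS cov om (nabS cov om u) p f) k l a =
        1 / 3 * ∑ m, Mm a l m * (nabS cov om z p f k) m := by
      intro k l a
      rw [hnn]
      unfold mapS
      rw [tnC_apply]
      rfl
    rw [h2, h2] at h1
    linear_combination 3 * h1
  refine ⟨fun p f hf k l => (key p f hf).1 k l, fun hz0 p f => ?_⟩
  by_cases hf : PON om p f
  · ext a
    have h1 := (key p f hf).2 a
    have h2 : ∀ i, (nabS cov om z p f) i = 0 := fun i => by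
      rw [nabS_zero' z hz0]; rfl
    simp only [h2] at h1
    have h3 : (-6 * kap) * u p f a = 0 := by
      rw [← h1]
      simp
    rcases mul_eq_zero.1 h3 with h4 | h4
    · nlinarith
    · simpa using h4
  · exact hu.1 p f hf

end

end Vale.Agent.P211.HK
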