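import Vale.Agent.P211.HK.KI
import Vale.Agent.P211.HK.KI1
import Vale.Agent.P211.HK.KI2

/-! P211 / HK: block KI, unconditional (helper485). -/

set_option maxSynthPendingDepth 3
set_option linter.all false

namespace Vale.Agent.P211.HK

open scoped Manifold ContDiff Topology RealInnerProductSpace
open Bundle Filter VectorField MeasureTheory

variable {E : Type} [NormedAddCommGroup E] [NormedSpace ℝ E] [FiniteDimensional ℝ E]
  {M : Type} [TopologicalSpace M] [ChartedSpace E M] [IsManifold 𝓘(ℝ, E) ∞ M] [T2Space M]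
  [RiemannianBundle fun p : M => TangentSpace 𝓘(ℝ, E) p]
  [IsContMDiffRiemannianBundle 𝓘(ℝ, E) ∞ E fun p : M => TangentSpace 𝓘(ℝ, E) p]

/-- KI -/
theorem ki (cov : CovariantDerivative 𝓘(ℝ, E) E (TangentSpace 𝓘(ℝ, E) : M → Type))
    (om : Form4 E M) [MeasurableSpace M] [BorelSpace M] [CompactSpace M] (μ : Measure M) :
    KIStmt cov om μ := ki_of (ki1 cov om μ) (ki2 cov om)

end Vale.Agent.P211.HK
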