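import Vale.Agent.P211.HK.IX2b
import Vale.Agent.P211.HK.IX1
import Vale.Agent.P211.HK.HKIndex
import Vale.Agent.P211.HK.KIfin
import Vale.Agent.P211.HK.VolGlue
import Vale.Agent.P211.HK.Fin0

/-! P211 / HK, block IX3 (helper69): the index numbers; assembly of `IXStmt`. -/

set_option maxSynthPendingDepth 3
set_option linter.unusedSectionVars false

namespace Vale.Agent.P211.HK.IX

open scoped Manifold ContDiff Topology RealInnerProductSpace
open Bundle Filter VectorField MeasureTheory Vale.Agent.P211.HK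

noncomputable section

section core

variable {E : Type} [NormedAddCommGroup E] [NormedSpace ℝ E] [FiniteDimensional ℝ E]
  {M : Type} [TopologicalSpace M] [ChartedSpace E M] [IsManifold 𝓘(ℝ, E) ∞ M] [T2Space M]
  [RiemannianBundle fun p : M => TangentSpace 𝓘(ℝ, E) p]
  [IsContMDiffRiemannianBundle 𝓘(ℝ, E) ∞ E fun p : M => TangentSpace 𝓘(ℝ, E) p]
  {cov : CovariantDerivative 𝓘(ℝ, E) E (TangentSpace 𝓘(ℝ, E) : M → Type)}
  {om : Form4 E M}

variable {W : Type} [NormedAddCommGroup W] [InnerProductSpace ℝ W] [FiniteDimensional ℝ W]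

/-- the trivial system of projections -/
theorem projOne (R : Rep W) : ProjSys R (fun _ : Fin 1 => ContinuousLinearMap.id ℝ W) where
  symm _ _ _ := rfl
  idem _ := rfl
  orth i j hij := absurd (Subsingleton.elim i j) hij
  sum := by simp
  comm _ _ _ _ := rfl

theorem curvTr_trOm (R : Rep W) (p : M) (f : Fin 4 → TangentSpace 𝓘(ℝ, E) p) :
    curvTr cov R (ContinuousLinearMap.id ℝ W) p f = trOm R (Om cov p f) := rfl

theorem curvTr_trOmP (R : Rep W) (A : W →L[ℝ] W) (p : M) (f : Fin 4 → TangentSpace 𝓘(ℝ, E) p) :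
    curvTr cov R A p f = trOmP R A (Om cov p f) := rfl

variable [MeasurableSpace M] [BorelSpace M] [CompactSpace M] {μ : Measure M}

/-- the index formula for a fixed choice of frames -/
def IdxAt (cov : CovariantDerivative 𝓘(ℝ, E) E (TangentSpace 𝓘(ℝ, E) : M → Type))
    (om : Form4 E M) (μ : Measure M) (fr : (p : M) → Fin 4 → TangentSpace 𝓘(ℝ, E) p) : Prop :=
    ∀ (W₀ W₁ : Type) [NormedAddCommGroup W₀] [InnerProductSpace ℝ W₀] [FiniteDimensional ℝ W₀]
      [NormedAddCommGroup W₁] [InnerProductSpace ℝ W₁] [FiniteDimensional ℝ W₁]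
      (R₀ : Rep W₀) (R₁ : Rep W₁) (ι₀ ι₁ : Type) [Fintype ι₀] [Fintype ι₁]
      (pr₀ : ι₀ → W₀ →L[ℝ] W₀) (pr₁ : ι₁ → W₁ →L[ℝ] W₁), ProjSys R₀ pr₀ → ProjSys R₁ pr₁ →
    ∀ (r₀ : ι₀ → ℝ) (r₁ : ι₁ → ℝ) (D : Sec (E := E) om R₀ →ₗ[ℝ] Sec (E := E) om R₁)
      (D' : Sec (E := E) om R₁ →ₗ[ℝ] Sec (E := E) om R₀),
      (∀ (u : Sec (E := E) om R₀) (v : Sec (E := E) om R₁),
        ∫ p, ⟪(D u : PreS E M W₁) p (fr p), (v : PreS E M W₁) p (fr p)⟫ ∂μ =
          ∫ p, ⟪(u : PreS E M W₀) p (fr p), (D' v : PreS E M W₀) p (fr p)⟫ ∂μ) →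
      (∀ (u : Sec (E := E) om R₀) p f, PON om p f → (D' (D u) : PreS E M W₀) p f =
        lapS cov om (u : PreS E M W₀) p f + ∑ j, r₀ j • pr₀ j ((u : PreS E M W₀) p f)) →
      (∀ (v : Sec (E := E) om R₁) p f, PON om p f → (D (D' v) : PreS E M W₁) p f =
        lapS cov om (v : PreS E M W₁) p f + ∑ j, r₁ j • pr₁ j ((v : PreS E M W₁) p f)) →
      Module.finrank ℝ W₁ = Module.finrank ℝ W₀ →
      ∑ j, trW (pr₁ j) * r₁ j = ∑ j, trW (pr₀ j) * r₀ j →
      FiniteDimensional ℝ (LinearMap.ker D) ∧ FiniteDimensional ℝ (LinearMap.ker D') ∧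
      Integrable (fun p => curvTr cov R₀ (ContinuousLinearMap.id ℝ W₀) p (fr p)) μ ∧
      Integrable (fun p => curvTr cov R₁ (ContinuousLinearMap.id ℝ W₁) p (fr p)) μ ∧
      (Module.finrank ℝ (LinearMap.ker D') : ℝ) - Module.finrank ℝ (LinearMap.ker D) =
        (32 * Real.pi ^ 2)⁻¹ * μ.real Set.univ *
            ((∑ j, trW (pr₁ j) * r₁ j ^ 2) - ∑ j, trW (pr₀ j) * r₀ j ^ 2) +
          (192 * Real.pi ^ 2)⁻¹ * ∫ p, (curvTr cov R₁ (ContinuousLinearMap.id ℝ W₁) p (fr p) -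
            curvTr cov R₀ (ContinuousLinearMap.id ℝ W₀) p (fr p)) ∂μ

theorem twist_index (V : Vol cov om μ) {fr : (p : M) → Fin 4 → TangentSpace 𝓘(ℝ, E) p}
    (hfr : ∀ p, PON om p (fr p)) (hI : IdxAt cov om μ fr) (h1 : WZ1Stmt cov om)
    (h2 : WZ2Stmt cov om μ) (R : Rep W) {n : ℕ} (pr : Fin n → Tn W →L[ℝ] Tn W)
    (hp : ProjSys R.hq pr) (kap : ℝ) (ev : Fin n → ℝ)
    (h4a : ∀ u ∈ Sec (E := E) om R.tn, Dad cov om (Dop cov om u) =
      lapS cov om u + (3 * kap) • u)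
    (h4b : ∀ v ∈ Sec (E := E) om R.hq, Dop cov om (Dad cov om v) =
      lapS cov om v + ∑ t, (kap * ev t) • mapS (pr t) v)
    (htr : ∑ t, trW (pr t) * ev t = 3 * Module.finrank ℝ (Tn W)) :
    FiniteDimensional ℝ (LinearMap.ker (DadL h1 V.geo R)) ∧
    Integrable (fun p => curvTr cov R.tn (ContinuousLinearMap.id ℝ (Tn W)) p (fr p)) μ ∧
    Integrable (fun p => curvTr cov R.hq (ContinuousLinearMap.id ℝ (Tn W)) p (fr p)) μ ∧
    (Module.finrank ℝ (LinearMap.ker (DadL h1 V.geo R)) : ℝ) -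
        Module.finrank ℝ (LinearMap.ker (DopL h1 V.geo R)) =
      (32 * Real.pi ^ 2)⁻¹ * μ.real Set.univ *
          ((∑ j, trW (pr j) * (kap * ev j) ^ 2) - Module.finrank ℝ (Tn W) * (3 * kap) ^ 2) +
        (192 * Real.pi ^ 2)⁻¹ * ∫ p, (curvTr cov R.hq (ContinuousLinearMap.id ℝ (Tn W)) p (fr p) -
          curvTr cov R.tn (ContinuousLinearMap.id ℝ (Tn W)) p (fr p)) ∂μ := by
  have key := hI (Tn W) (Tn W) R.tn R.hq (Fin 1) (Fin n) _ pr
    (projOne R.tn) hp (fun _ => 3 * kap) (fun t => kap * ev t)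
    (DopL h1 V.geo R) (DadL h1 V.geo R)
    (fun u v => h2 V.geo V.fin V.div W R fr hfr u u.2 v v.2)
    (fun u p f _ => by
      have := congrFun (congrFun (h4a u u.2) p) f
      rw [Fin.sum_univ_one]
      exact this)
    (fun v p f _ => by
      have := congrFun (congrFun (h4b v v.2) p) f
      simp only [Pi.add_apply, Finset.sum_apply, Pi.smul_apply] at this
      exact this)
    rfl
    (by
      rw [Fin.sum_univ_one, trW_id]
      have : ∑ j, trW (pr j) * (kap * ev j) = kap * ∑ j, trW (pr j) * ev j := by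
        rw [Finset.mul_sum]
        exact Finset.sum_congr rfl fun j _ => by ring
      rw [this, htr]
      ring)
  obtain ⟨-, a0, a1, a2, a3⟩ := key
  rw [Fin.sum_univ_one, trW_id] at a3
  exact ⟨a0, a1, a2, a3⟩

theorem finrank_tnR : (Module.finrank ℝ (Tn ℝ) : ℝ) = 4 := by
  have h : Module.finrank ℝ (Tn ℝ) = 4 := finrank_euclideanSpace_fin
  rw [h]
  norm_num

theorem finrank_tnE : (Module.finrank ℝ (Tn Eu3) : ℝ) = 12 := by
  have h : Module.finrank ℝ (Tn Eu3) = 12 := by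
    rw [(WithLp.linearEquiv 2 ℝ (Fin 4 → Eu3)).finrank_eq, Module.finrank_pi_fintype]
    simp
  rw [h]
  norm_num

theorem index_core [PreconnectedSpace M] [Nonempty M] (HK : HKMainStmt cov om μ)
    (V : Vol cov om μ) {kap : ℝ} (hk : 0 < kap) (hF : HF cov om kap) (h1 : WZ1Stmt cov om)
    (h2 : WZ2Stmt cov om μ) (h3 : WZ3Stmt) (h4 : WZ4Stmt cov om) (h5 : WZ5Stmt) :
    ∃ (fr : (p : M) → Fin 4 → TangentSpace 𝓘(ℝ, E) p) (w : M → Fin 3 → Fin 3 → ℝ),
      (∀ p, PON om p (fr p)) ∧ (∀ p, HFCurv kap (Om cov p (fr p)) (w p)) ∧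
      Integrable (fun p => ∑ a, ∑ b, w p a b ^ 2) μ ∧
      FiniteDimensional ℝ (LinearMap.ker (DadL h1 V.geo Rep.lam)) ∧
      (1 : ℝ) = (32 * Real.pi ^ 2)⁻¹ * μ.real Set.univ * (12 * kap ^ 2) +
        (192 * Real.pi ^ 2)⁻¹ * (4 * ∫ p, (∑ a, ∑ b, w p a b ^ 2) ∂μ) ∧
      (Module.finrank ℝ (LinearMap.ker (DadL h1 V.geo Rep.lam)) : ℝ) =
        (32 * Real.pi ^ 2)⁻¹ * μ.real Set.univ * (132 * kap ^ 2) +
        (192 * Real.pi ^ 2)⁻¹ * (12 * ∫ p, (∑ a, ∑ b, w p a b ^ 2) ∂μ) := by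
  have := V.fin
  have hop : μ.IsOpenPosMeasure := ⟨fun U hU hne => (V.pos U hU hne).ne'⟩
  obtain ⟨fr, hfr, hI⟩ : ∃ fr : (p : M) → Fin 4 → TangentSpace 𝓘(ℝ, E) p,
      (∀ p, PON om p (fr p)) ∧ IdxAt cov om μ fr := hk_index HK V.geo
  obtain ⟨h4a, h4b, h4c, h4d⟩ := h4 V.geo kap hF
  choose w hw using fun p => hF p (fr p) (hfr p)
  have eR : ∀ t, trW (prR t) = rkR t := h3.2.2.2.2.2.1
  have eL : ∀ t, trW (prL t) = rkL t := h3.2.2.2.2.2.2.2.2.2.2.2.1
  -- the trivial twist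
  obtain ⟨-, a1, a2, a3⟩ := twist_index V hfr hI h1 h2 Rep.triv prR (projR h3) kap evR h4a h4b
    (by
      rw [Fin.sum_univ_two, eR, eR, finrank_tnR]
      simp [evR, rkR])
  -- the twist by anti-self-dual forms
  obtain ⟨b0, -, -, b3⟩ := twist_index V hfr hI h1 h2 Rep.lam prL (projL h3) kap evL h4c h4d
    (by
      have := finrank_tnE
      rw [Fin.sum_univ_four, eL, eL, eL, eL, this]
      simp [evL, rkL]
      norm_num)
  have hA : ∀ p, curvTr cov Rep.triv.hq (ContinuousLinearMap.id ℝ (Tn ℝ)) p (fr p) -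
      curvTr cov Rep.triv.tn (ContinuousLinearMap.id ℝ (Tn ℝ)) p (fr p) =
      4 * ∑ a, ∑ b, w p a b ^ 2 := by
    intro p
    rw [← sum_curvTr (projR h3)]
    exact (h5 kap _ _ (hw p)).1
  have hB : ∀ p, curvTr cov Rep.lam.hq (ContinuousLinearMap.id ℝ (Tn Eu3)) p (fr p) -
      curvTr cov Rep.lam.tn (ContinuousLinearMap.id ℝ (Tn Eu3)) p (fr p) =
      12 * ∑ a, ∑ b, w p a b ^ 2 := by
    intro p
    rw [← sum_curvTr (projL h3)]
    exact (h5 kap _ _ (hw p)).2.1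
  have hint : Integrable (fun p => ∑ a, ∑ b, w p a b ^ 2) μ := by
    have := (a2.sub a1).const_mul (1 / 4 : ℝ)
    refine this.congr (Eventually.of_forall fun p => ?_)
    show 1 / 4 * (curvTr cov Rep.triv.hq (ContinuousLinearMap.id ℝ (Tn ℝ)) p (fr p) -
      curvTr cov Rep.triv.tn (ContinuousLinearMap.id ℝ (Tn ℝ)) p (fr p)) = _
    rw [hA]
    ring
  refine ⟨fr, w, hfr, hw, hint, b0, ?_, ?_⟩
  · rw [finrank_triv V hk h1 h3 h4b, ker_Dop V hk h1 Rep.triv h4a, finrank_bot] at a3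
    simp only [hA, Fin.sum_univ_two, eR, finrank_tnR] at a3
    rw [integral_const_mul] at a3
    simp only [evR, rkR, Matrix.cons_val_zero, Matrix.cons_val_one] at a3
    push_cast at a3
    linear_combination a3
  · rw [ker_Dop V hk h1 Rep.lam h4c, finrank_bot] at b3
    have := finrank_tnE
    simp only [hB, Fin.sum_univ_four, eL] at b3
    rw [integral_const_mul, this] at b3
    simp only [evL, rkL, Matrix.cons_val_zero, Matrix.cons_val_one, Matrix.cons_val] at b3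
    push_cast at b3
    linear_combination b3

end core

section final

open Vale.Agent.P231 (riemVol)

variable {E : Type} [NormedAddCommGroup E] [NormedSpace ℝ E] [FiniteDimensional ℝ E]
  {M : Type} [MetricSpace M] [ChartedSpace E M] [IsManifold 𝓘(ℝ, E) ∞ M]
  [RiemannianBundle fun p : M => TangentSpace 𝓘(ℝ, E) p]
  [IsContMDiffRiemannianBundle 𝓘(ℝ, E) ∞ E fun p : M => TangentSpace 𝓘(ℝ, E) p]
  [IsRiemannianManifold 𝓘(ℝ, E) M] [CompactSpace M] [ConnectedSpace M]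
  [MeasurableSpace M] [BorelSpace M]
  {cov : CovariantDerivative 𝓘(ℝ, E) E (TangentSpace 𝓘(ℝ, E) : M → Type)}
  {om : Form4 E M}

theorem vol_riem (hG : Geo4 cov om) : Vol cov om (riemVol 4 M) :=
  ⟨hG, finite_riemVol hG.dim, fun U hU hne => riemVol_open_pos hG.dim U hU hne,
    divZero_riemVol hG⟩

/-- **IX.** Six Killing fields; the volume in the two rigid cases. -/
theorem ix_of {lam : ℝ} (HK : HKMainStmt cov om (riemVol 4 M)) (h0 : WZ0Stmt cov om)
    (h1 : WZ1Stmt cov om) (h2 : WZ2Stmt cov om (riemVol 4 M)) (h3 : WZ3Stmt)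
    (h4 : WZ4Stmt cov om) (h5 : WZ5Stmt) (h6 : WZ6Stmt) : IXStmt cov om lam := by
  intro hG hK hlam hE hW
  have hkap : 0 < lam / 3 := by linarith
  have e3 : 3 * (lam / 3) = lam := by ring
  have hF : HF cov om (lam / 3) := by
    refine h0 hG inferInstance (lam / 3) ?_ ?_
    · rw [e3]; exact hE
    · rw [e3]; exact hW
  have V := vol_riem hG
  have hpi : (0 : ℝ) < Real.pi ^ 2 := by positivity
  obtain ⟨fr, w, hfr, hw, hint, hfin, i1, i2⟩ := index_core HK V hkap hF h1 h2 h3 h4 h5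
  have := V.fin
  set m : ℝ := (riemVol 4 M).real Set.univ with hm
  set J : ℝ := ∫ p, (∑ a, ∑ b, w p a b ^ 2) ∂(riemVol 4 M) with hJ
  have hconst : ∀ c : ℝ, (∀ p, ∑ a, ∑ b, w p a b ^ 2 = c) → J = c * m := by
    intro c hc
    rw [hJ]
    simp only [hc]
    rw [integral_const, smul_eq_mul, mul_comm]
  have i1' : 2 * lam ^ 2 * m + J = 48 * Real.pi ^ 2 := by
    field_simp at i1
    linear_combination (-1 / 1152) * i1
  have hl2 : (0 : ℝ) < lam ^ 2 := by positivity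
  refine ⟨?_, fun hc => ?_, fun hc => ?_⟩
  · have hle : J ≤ 24 * (lam / 3) ^ 2 * m := by
      have h7 : J ≤ ∫ p, (24 * (lam / 3) ^ 2 : ℝ) ∂(riemVol 4 M) := by
        refine integral_mono hint (integrable_const _) fun p => ?_
        exact IX1.w_le hG h6 hK (hfr p) (hw p)
      rw [integral_const, smul_eq_mul] at h7
      linarith
    have hdim : 6 < (Module.finrank ℝ (LinearMap.ker (DadL h1 V.geo Rep.lam)) : ℝ) := by
      have i2' : (Module.finrank ℝ (LinearMap.ker (DadL h1 V.geo Rep.lam)) : ℝ) *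
          (48 * Real.pi ^ 2) = 22 * lam ^ 2 * m + 3 * J := by
        rw [i2]
        field_simp
        ring
      have i3 : 6 * (48 * Real.pi ^ 2) <
          (Module.finrank ℝ (LinearMap.ker (DadL h1 V.geo Rep.lam)) : ℝ) *
          (48 * Real.pi ^ 2) := by
        rw [i2']
        nlinarith
      exact lt_of_mul_lt_mul_right i3 (by positivity)
    have hdim' : 6 + 1 ≤ Module.finrank ℝ (LinearMap.ker (DadL h1 V.geo Rep.lam)) := by
      have : 6 < Module.finrank ℝ (LinearMap.ker (DadL h1 V.geo Rep.lam)) := by exact_mod_cast hdim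
      omega
    obtain ⟨u, hu, hl, hind⟩ := exists_E2 V hkap h1 h3 (h4 V.geo _ hF).2.2.2 hfin hdim'
    exact ki cov om (riemVol 4 M) hG V.fin V.pos V.div (lam / 3) hkap (ki0 hG lam hE hW)
      Rep.lam isLam_lam 6 u hu hl hind
  · have hz : J = 0 * m := hconst 0 fun p => IX1.w_const hG h5 hc (hfr p) (hw p)
    rw [hz] at i1'
    rw [eq_div_iff hl2.ne']
    linear_combination (1 / 2) * i1'
  · have hz : J = 6 * (lam / 3) ^ 2 * m := hconst _ fun p => IX1.w_cp2 hG h5 hc (hfr p) (hw p)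
    rw [hz] at i1'
    rw [eq_div_iff hl2.ne']
    linear_combination (3 / 8) * i1'

end final

end

end Vale.Agent.P211.HK.IX
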