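import Vale.Agent.P211.HK.WZDefs
import Vale.Agent.P211.HK.RepD

/-! P211 / HK / WZ: fibrewise algebra of the curvature terms (helper600). -/

set_option maxSynthPendingDepth 3
set_option linter.unusedSectionVars false

namespace Vale.Agent.P211.HK

open scoped RealInnerProductSpace

noncomputable section

namespace WZ

/-! ### integer identities -/

def HZ (c : Fin 3) (i j : Fin 4) : ℤ := s4 fun k => s4 fun l => hZ k l i j * JmZ c k l

def HZ' : Fin 3 → Fin 4 → Fin 4 → ℤ :=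
  ![![![0, -4, 0, 0], ![4, 0, 0, 0], ![0, 0, 0, -4], ![0, 0, 4, 0]],
    ![![0, 0, -4, 0], ![0, 0, 0, 4], ![4, 0, 0, 0], ![0, -4, 0, 0]],
    ![![0, 0, 0, -4], ![0, 0, -4, 0], ![0, 4, 0, 0], ![4, 0, 0, 0]]]

theorem HZ_eq : ∀ c i j, HZ c i j = HZ' c i j := by decide

theorem gZ_Jp : ∀ a i j, (s4 fun k => s4 fun l => gZ k l i j * JpZ a k l) = 4 * JpZ a i j := by
  decide

theorem gZ_const : ∀ j m, (s4 fun k => s4 fun l => s4 fun n =>
    gZ k l j n * (dZ k n * dZ l m - dZ k m * dZ l n)) = -6 * dZ j m := by decide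

theorem Jp_mul : ∀ a b i j, (s4 fun k => JpZ a i k * JpZ b k j + JpZ b i k * JpZ a k j) =
    -2 * d3Z a b * dZ i j := by decide

theorem Jm_Jp : ∀ a b, (s4 fun i => s4 fun j => JmZ a i j * JpZ b i j) = 0 := by decide

theorem Jm_skewZ : ∀ a i j, JmZ a i j = - JmZ a j i := by decide

theorem K1R_id : ∀ j (b : Fin 3), (s3 fun a => s3 fun c => HZ' c j a.succ * epsZ c a b) =
    if j = b.succ then 8 else 0 := by decide

theorem K1L_id : ∀ (j : Fin 4) (a : Fin 3) (n : Fin 4) (b : Fin 3),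
    24 * (if j = n ∧ j ≠ 0 ∧ a = b then 1 else 0) + 3 * (s3 fun c => HZ' c j n * epsZ c a b) =
      6 * PlZ 1 j a n b + 4 * PlZ 2 j a n b - 2 * PlZ 3 j a n b := by decide

/-! ### real identities -/

theorem s4_cast (f : Fin 4 → ℤ) : ((s4 f : ℤ) : ℝ) = ∑ i, (f i : ℝ) := by
  simp [s4, Fin.sum_univ_four]

theorem s3_cast (f : Fin 3 → ℤ) : ((s3 f : ℤ) : ℝ) = ∑ i, (f i : ℝ) := by
  simp [s3, Fin.sum_univ_three]

theorem dZ_cast (i j : Fin 4) : ((dZ i j : ℤ) : ℝ) = idM i j := by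
  simp [dZ, idM]

/-- a linear functional of the curvature -/
theorem lin_curv {kap : ℝ} {A : Fin 4 → Fin 4 → Mat4} {w : Fin 3 → Fin 3 → ℝ}
    (h : HFCurv kap A w) (X : Fin 4 → Fin 4 → ℝ) (k l : Fin 4) :
    ∑ i, ∑ j, X i j * A k l i j = kap * (X k l - X l k) +
      (1 / 2) * ∑ a, ∑ b, w a b * Jp a k l * ∑ i, ∑ j, X i j * Jp b i j := by
  have e1 : ∀ i j, X i j * A k l i j = kap * (X i j * (idM k i * idM l j - idM k j * idM l i)) +
      (1 / 2) * ∑ a, ∑ b, w a b * Jp a k l * (X i j * Jp b i j) := by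
    intro i j
    rw [h.2.2 k l i j, mul_add]
    congr 1
    · ring
    · simp only [Finset.mul_sum]
      refine Finset.sum_congr rfl fun a _ => Finset.sum_congr rfl fun b _ => by ring
  simp only [e1, Finset.sum_add_distrib, ← Finset.mul_sum]
  congr 1
  · congr 1
    have : ∀ i j, X i j * (idM k i * idM l j - idM k j * idM l i) =
        (if k = i then (if l = j then X i j else 0) else 0) -
          (if l = i then (if k = j then X i j else 0) else 0) := by
      intro i j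
      simp only [idM]
      split_ifs <;> simp
    simp only [this, Finset.sum_sub_distrib]
    congr 1
    · rw [Finset.sum_eq_single k]
      · simp
      · intro b _ hb; simp [Ne.symm hb]
      · simp
    · rw [Finset.sum_eq_single l]
      · simp
      · intro b _ hb; simp [Ne.symm hb]
      · simp
  · congr 1
    simp only [Finset.mul_sum]
    have h1 : ∀ i, ∑ j, ∑ a, ∑ b, w a b * Jp a k l * (X i j * Jp b i j) =
        ∑ a, ∑ b, ∑ j, w a b * Jp a k l * (X i j * Jp b i j) := by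
      intro i
      rw [Finset.sum_comm]
      exact Finset.sum_congr rfl fun a _ => Finset.sum_comm
    simp only [h1]
    rw [Finset.sum_comm]
    exact Finset.sum_congr rfl fun a _ => Finset.sum_comm

theorem asd {kap : ℝ} {A : Fin 4 → Fin 4 → Mat4} {w : Fin 3 → Fin 3 → ℝ}
    (h : HFCurv kap A w) (c : Fin 3) (k l : Fin 4) :
    ∑ i, ∑ j, (JmZ c i j : ℝ) * A k l i j = 2 * kap * JmZ c k l := by
  rw [lin_curv h]
  have h1 : ∀ b, ∑ i, ∑ j, (JmZ c i j : ℝ) * Jp b i j = 0 := by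
    intro b
    have := Jm_Jp c b
    have h2 := congrArg (fun z : ℤ => (z : ℝ)) this
    simp only [s4_cast] at h2
    push_cast at h2
    exact h2
  have h3 : (JmZ c l k : ℝ) = - JmZ c k l := by
    rw [Jm_skewZ c l k]; push_cast; ring
  simp only [h1, h3]
  simp
  ring

theorem skew_of {kap : ℝ} {A : Fin 4 → Fin 4 → Mat4} {w : Fin 3 → Fin 3 → ℝ}
    (h : HFCurv kap A w) (k l : Fin 4) : IsSkew (A k l) := by
  intro i j
  rw [h.2.2 k l i j, h.2.2 k l j i]
  have : ∀ a b, w a b * Jp a k l * Jp b i j = - (w a b * Jp a k l * Jp b j i) := by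
    intro a b; rw [Jp_skew b i j]; ring
  simp only [this, Finset.sum_neg_distrib]
  ring

theorem lamD_eq {A : Mat4} (hA : IsSkew A) (a b : Fin 3) :
    lamD A a b = -(1 / 2) * ∑ c, (epsZ c a b : ℝ) * ∑ i, ∑ j, (JmZ c i j : ℝ) * A i j := by
  have e00 : A 0 0 = 0 := by have := hA 0 0; linarith
  have e11 : A 1 1 = 0 := by have := hA 1 1; linarith
  have e22 : A 2 2 = 0 := by have := hA 2 2; linarith
  have e33 : A 3 3 = 0 := by have := hA 3 3; linarith
  have e10 := hA 1 0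
  have e20 := hA 2 0
  have e30 := hA 3 0
  have e21 := hA 2 1
  have e31 := hA 3 1
  have e32 := hA 3 2
  fin_cases a <;> fin_cases b <;>
    simp [lamD, dotM, brM, mulM, Rq, epsZ, JmZ, Fin.sum_univ_four, e00, e11,
      e22, e33, e10, e20, e30, e21, e31, e32] <;> ring

theorem lamD_curv {kap : ℝ} {A : Fin 4 → Fin 4 → Mat4} {w : Fin 3 → Fin 3 → ℝ}
    (h : HFCurv kap A w) (k l : Fin 4) (a b : Fin 3) :
    lamD (A k l) a b = - kap * ∑ c, (epsZ c a b : ℝ) * JmZ c k l := by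
  rw [lamD_eq (skew_of h k l)]
  simp only [asd h]
  have : ∀ c, (epsZ c a b : ℝ) * (2 * kap * JmZ c k l) =
      (2 * kap) * ((epsZ c a b : ℝ) * JmZ c k l) := fun c => by ring
  simp only [this, ← Finset.mul_sum]
  ring

theorem K0T {kap : ℝ} {A : Fin 4 → Fin 4 → Mat4} {w : Fin 3 → Fin 3 → ℝ}
    (h : HFCurv kap A w) (j m : Fin 4) :
    ∑ k, ∑ l, ∑ n, (gZ k l j n : ℝ) * A k l n m = -6 * kap * idM j m := by
  have e1 : ∀ k l n, (gZ k l j n : ℝ) * A k l n m =
      kap * ((gZ k l j n : ℝ) * (idM k n * idM l m - idM k m * idM l n)) +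
      (1 / 2) * ∑ a, ∑ b, w a b * (((gZ k l j n : ℝ) * Jp a k l) * Jp b n m) := by
    intro k l n
    rw [h.2.2 k l n m, mul_add]
    congr 1
    · ring
    · simp only [Finset.mul_sum]
      refine Finset.sum_congr rfl fun a _ => Finset.sum_congr rfl fun b _ => by ring
  simp only [e1, Finset.sum_add_distrib, ← Finset.mul_sum]
  have e2 : ∑ k, ∑ l, ∑ n, (gZ k l j n : ℝ) * (idM k n * idM l m - idM k m * idM l n) =
      -6 * idM j m := by
    have := congrArg (fun z : ℤ => (z : ℝ)) (gZ_const j m)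
    simp only [s4_cast] at this
    push_cast at this
    simpa only [dZ_cast] using this
  have e3 : ∑ k, ∑ l, ∑ n, ∑ a, ∑ b, w a b * (((gZ k l j n : ℝ) * Jp a k l) * Jp b n m) =
      4 * ∑ a, ∑ b, w a b * ∑ n, Jp a j n * Jp b n m := by
    have s1 : ∀ a n, ∑ k, ∑ l, (gZ k l j n : ℝ) * Jp a k l = 4 * Jp a j n := by
      intro a n
      have := congrArg (fun z : ℤ => (z : ℝ)) (gZ_Jp a j n)
      simp only [s4_cast] at this
      push_cast at this
      exact this
    calc _ = ∑ a, ∑ b, ∑ n, ∑ k, ∑ l, w a b * (((gZ k l j n : ℝ) * Jp a k l) * Jp b n m) := by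
          have t1 : ∀ k, ∑ l, ∑ n, ∑ a, ∑ b, w a b * (((gZ k l j n : ℝ) * Jp a k l) * Jp b n m) =
              ∑ a, ∑ b, ∑ n, ∑ l, w a b * (((gZ k l j n : ℝ) * Jp a k l) * Jp b n m) := by
            intro k
            have t2 : ∀ l, ∑ n, ∑ a, ∑ b, w a b * (((gZ k l j n : ℝ) * Jp a k l) * Jp b n m) =
                ∑ a, ∑ b, ∑ n, w a b * (((gZ k l j n : ℝ) * Jp a k l) * Jp b n m) := by
              intro l
              rw [Finset.sum_comm]
              exact Finset.sum_congr rfl fun a _ => Finset.sum_comm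
            simp only [t2]
            rw [Finset.sum_comm]
            refine Finset.sum_congr rfl fun a _ => ?_
            rw [Finset.sum_comm]
            exact Finset.sum_congr rfl fun b _ => Finset.sum_comm
          simp only [t1]
          rw [Finset.sum_comm]
          refine Finset.sum_congr rfl fun a _ => ?_
          rw [Finset.sum_comm]
          refine Finset.sum_congr rfl fun b _ => ?_
          rw [Finset.sum_comm]
      _ = _ := by
          rw [Finset.mul_sum]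
          refine Finset.sum_congr rfl fun a _ => ?_
          rw [Finset.mul_sum]
          refine Finset.sum_congr rfl fun b _ => ?_
          rw [Finset.mul_sum, Finset.mul_sum]
          refine Finset.sum_congr rfl fun n _ => ?_
          simp only [← Finset.mul_sum, ← Finset.sum_mul]
          rw [s1]
          ring
  have e4 : ∑ a, ∑ b, w a b * ∑ n, Jp a j n * Jp b n m = 0 := by
    have q : ∀ a b, (∑ n, Jp a j n * Jp b n m) + (∑ n, Jp b j n * Jp a n m) =
        -2 * (if a = b then 1 else 0) * idM j m := by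
      intro a b
      have := congrArg (fun z : ℤ => (z : ℝ)) (Jp_mul a b j m)
      simp only [s4_cast] at this
      push_cast at this
      rw [Finset.sum_add_distrib] at this
      rw [dZ_cast] at this
      have d3 : ((d3Z a b : ℤ) : ℝ) = if a = b then 1 else 0 := by simp [d3Z]
      rw [d3] at this
      exact this
    have hw := h.1
    have ht := h.2.1
    have q00 := q 0 0
    have q11 := q 1 1
    have q22 := q 2 2
    have q01 := q 0 1
    have q02 := q 0 2
    have q12 := q 1 2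
    simp only [Fin.sum_univ_three]
    rw [hw 1 0, hw 2 0, hw 2 1]
    simp at q00 q11 q22 q01 q02 q12
    linear_combination (w 0 0 / 2) * q00 + (w 1 1 / 2) * q11 + (w 2 2 / 2) * q22 +
      w 0 1 * q01 + w 0 2 * q02 + w 1 2 * q12 - idM j m * ht
  rw [e2, e3, e4]
  ring

/-- `∑ γ_kl ⊗ lam(A_kl) = 0` -/
theorem K0L {kap : ℝ} {A : Fin 4 → Fin 4 → Mat4} {w : Fin 3 → Fin 3 → ℝ}
    (h : HFCurv kap A w) (j n : Fin 4) (a b : Fin 3) :
    ∑ k, ∑ l, (gZ k l j n : ℝ) * lamD (A k l) a b = 0 := by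
  have s1 : ∀ c, ∑ k, ∑ l, (JmZ c k l : ℝ) * gZ k l j n = 0 := by
    intro c
    have := congrArg (fun z : ℤ => (z : ℝ)) (gZ_Jm c j n)
    simp only [s4_cast] at this
    push_cast at this
    exact this
  simp only [lamD_curv h]
  have e1 : ∀ k l, (gZ k l j n : ℝ) * (-kap * ∑ c, (epsZ c a b : ℝ) * JmZ c k l) =
      ∑ c, (-kap * epsZ c a b) * ((JmZ c k l : ℝ) * gZ k l j n) := by
    intro k l
    simp only [Finset.mul_sum]
    exact Finset.sum_congr rfl fun c _ => by ring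
  simp only [e1]
  have e2 : ∀ k, ∑ l, ∑ c, (-kap * epsZ c a b) * ((JmZ c k l : ℝ) * gZ k l j n) =
      ∑ c, ∑ l, (-kap * epsZ c a b) * ((JmZ c k l : ℝ) * gZ k l j n) := fun k => Finset.sum_comm
  simp only [e2]
  rw [Finset.sum_comm]
  refine Finset.sum_eq_zero fun c _ => ?_
  simp only [← Finset.mul_sum]
  rw [s1, mul_zero]

/-- `∑ h_kl ⊗ lam(A_kl)` -/
theorem K1L_aux {kap : ℝ} {A : Fin 4 → Fin 4 → Mat4} {w : Fin 3 → Fin 3 → ℝ}
    (h : HFCurv kap A w) (j n : Fin 4) (a b : Fin 3) :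
    ∑ k, ∑ l, (hZ k l j n : ℝ) * lamD (A k l) a b =
      -kap * ∑ c, (HZ' c j n : ℝ) * epsZ c a b := by
  have s1 : ∀ c, ∑ k, ∑ l, (hZ k l j n : ℝ) * JmZ c k l = HZ' c j n := by
    intro c
    have := congrArg (fun z : ℤ => (z : ℝ)) (HZ_eq c j n)
    simp only [HZ, s4_cast] at this
    push_cast at this
    exact this
  simp only [lamD_curv h]
  have e1 : ∀ k l, (hZ k l j n : ℝ) * (-kap * ∑ c, (epsZ c a b : ℝ) * JmZ c k l) =
      ∑ c, (-kap * epsZ c a b) * ((hZ k l j n : ℝ) * JmZ c k l) := by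
    intro k l
    simp only [Finset.mul_sum]
    exact Finset.sum_congr rfl fun c _ => by ring
  simp only [e1]
  have e2 : ∀ k, ∑ l, ∑ c, (-kap * epsZ c a b) * ((hZ k l j n : ℝ) * JmZ c k l) =
      ∑ c, ∑ l, (-kap * epsZ c a b) * ((hZ k l j n : ℝ) * JmZ c k l) := fun k => Finset.sum_comm
  simp only [e2]
  rw [Finset.sum_comm, Finset.mul_sum]
  refine Finset.sum_congr rfl fun c _ => ?_
  simp only [← Finset.mul_sum]
  rw [s1]
  ring

/-- `∑ h_kl mHd(A_kl)` -/
theorem K1R {kap : ℝ} {A : Fin 4 → Fin 4 → Mat4} {w : Fin 3 → Fin 3 → ℝ}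
    (h : HFCurv kap A w) (j m : Fin 4) :
    ∑ k, ∑ l, ∑ n, (hZ k l j n : ℝ) * mHd (A k l) n m =
      if j = m ∧ j ≠ 0 then -8 * kap else 0 := by
  have e0 : ∀ k l, ∑ n, (hZ k l j n : ℝ) * mHd (A k l) n m =
      ∑ a : Fin 3, (hZ k l j a.succ : ℝ) * mHd (A k l) a.succ m := by
    intro k l
    rw [Fin.sum_univ_succ, mHd_zero_left, mul_zero, zero_add]
  simp only [e0]
  refine Fin.cases ?_ (fun b => ?_) m
  · simp
  · simp only [mHd_succ_succ]
    have e1 : ∀ k, ∑ l, ∑ a : Fin 3, (hZ k l j a.succ : ℝ) * lamD (A k l) a b =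
        ∑ a : Fin 3, ∑ l, (hZ k l j a.succ : ℝ) * lamD (A k l) a b := fun k => Finset.sum_comm
    simp only [e1]
    rw [Finset.sum_comm]
    simp only [K1L_aux h]
    have := congrArg (fun z : ℤ => (z : ℝ)) (K1R_id j b)
    simp only [s3_cast] at this
    push_cast at this
    rw [← Finset.mul_sum, this]
    by_cases hj : j = b.succ
    · subst hj; simp; ring
    · simp [hj]

/-- the fibre operator `-(1/2) ∑ h_kl (mHd(A_kl) ⊗ 1 + 1 ⊗ lam(A_kl))` -/
theorem K1L {kap : ℝ} {A : Fin 4 → Fin 4 → Mat4} {w : Fin 3 → Fin 3 → ℝ}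
    (h : HFCurv kap A w) (j n : Fin 4) (a b : Fin 3) :
    -(1 / 2) * ((∑ k, ∑ l, ∑ p, (hZ k l j p : ℝ) * mHd (A k l) p n) * (if a = b then 1 else 0) +
      ∑ k, ∑ l, (hZ k l j n : ℝ) * lamD (A k l) a b) =
      kap * (6 * (PlZ 1 j a n b / 6 : ℝ) + 4 * (PlZ 2 j a n b / 6) - 2 * (PlZ 3 j a n b / 6)) := by
  rw [K1R h, K1L_aux h]
  have := congrArg (fun z : ℤ => (z : ℝ)) (K1L_id j a n b)
  push_cast at this
  rw [s3_cast] at this
  push_cast at this
  have e : (6 * (PlZ 1 j a n b / 6 : ℝ) + 4 * (PlZ 2 j a n b / 6) - 2 * (PlZ 3 j a n b / 6)) =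
      (24 * (if j = n ∧ j ≠ 0 ∧ a = b then 1 else 0) + 3 * ∑ c, (HZ' c j n : ℝ) * epsZ c a b) / 6 := by
    rw [this]; ring
  have c1 : (if j = n ∧ j ≠ 0 ∧ a = b then (1 : ℝ) else 0) =
      (if j = n ∧ j ≠ 0 then 1 else 0) * (if a = b then 1 else 0) := by
    by_cases h1 : j = n <;> by_cases h2 : j = 0 <;> by_cases h3 : a = b <;> simp [h1, h2, h3]
  have c2 : (if j = n ∧ j ≠ 0 then -8 * kap else 0) =
      -8 * kap * (if j = n ∧ j ≠ 0 then 1 else 0) := by
    by_cases h1 : j = n ∧ j ≠ 0 <;> simp [h1]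
  rw [e, c1, c2]
  ring

end WZ

end

end Vale.Agent.P211.HK
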