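import Vale.Agent.P211.HK.WZ3
import Vale.Agent.P211.HK.WZ4a
import Vale.Agent.P211.HK.SC5

/-! P211 / HK / WZ: Weitzenböck formulas (helper600). -/

set_option maxSynthPendingDepth 3
set_option linter.unusedSectionVars false

namespace Vale.Agent.P211.HK

open scoped Manifold ContDiff Topology RealInnerProductSpace
open Bundle Filter VectorField MeasureTheory

noncomputable section

variable {W : Type} [NormedAddCommGroup W] [InnerProductSpace ℝ W]

variable {E : Type} [NormedAddCommGroup E] [NormedSpace ℝ E] [FiniteDimensional ℝ E]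
  {M : Type} [TopologicalSpace M] [ChartedSpace E M] [IsManifold 𝓘(ℝ, E) ∞ M] [T2Space M]
  [RiemannianBundle fun p : M => TangentSpace 𝓘(ℝ, E) p]
  [IsContMDiffRiemannianBundle 𝓘(ℝ, E) ∞ E fun p : M => TangentSpace 𝓘(ℝ, E) p]

variable {cov : CovariantDerivative 𝓘(ℝ, E) E (TangentSpace 𝓘(ℝ, E) : M → Type)}
  {om : Form4 E M}

namespace WZ

theorem nabS_neg {p : M} {f : Fin 4 → TangentSpace 𝓘(ℝ, E) p} (hf : ¬ PON om p f)
    (u : PreS E M W) : nabS cov om u p f = 0 := by
  unfold nabS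
  rw [dif_neg]
  exact fun h => hf h.1

theorem lapS_neg {p : M} {f : Fin 4 → TangentSpace 𝓘(ℝ, E) p} (hf : ¬ PON om p f)
    (u : PreS E M W) : lapS cov om u p f = 0 := by
  unfold lapS
  rw [nabS_neg hf]
  simp

/-- `CC m' ∘ (1 ⊗ CC m)` -/
theorem CC_CC (m m' : Fin 4 → Mat4) (N : Tn (Tn (Tn W))) (j : Fin 4) :
    CC m' (tnC (CC m) N) j = ∑ k, ∑ l, ∑ n, mulM (m' k) (m l) j n • N k l n := by
  rw [CC_apply]
  refine Finset.sum_congr rfl fun k _ => ?_
  have : ∀ i, (tnC (CC m) N) k i = ∑ l, ∑ n, m l i n • N k l n := by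
    intro i
    rw [SC3.tnC_apply, CC_apply]
  simp only [this, Finset.smul_sum, smul_smul]
  rw [Finset.sum_comm]
  refine Finset.sum_congr rfl fun l _ => ?_
  rw [Finset.sum_comm]
  refine Finset.sum_congr rfl fun n _ => ?_
  rw [← Finset.sum_smul]
  rfl

/-- general Weitzenböck formula -/
theorem weitz [FiniteDimensional ℝ W] (hg : Geo4 cov om) {R0 R1 : Rep (Tn W)} {m m' : Fin 4 → Mat4}
    (hC : Intertwines R0.tn R1 (CC m))
    (T : ∀ k l i j, mulM (m' k) (m l) i j + mulM (m' l) (m k) i j = -2 * idM k l * idM i j)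
    {u : PreS E M (Tn W)} (hu : u ∈ Sec om R0) {p : M} {f : Fin 4 → TangentSpace 𝓘(ℝ, E) p}
    (hf : PON om p f) (j : Fin 4) :
    (mapS (CC m') (nabS cov om (mapS (CC m) (nabS cov om u))) p f) j =
      (lapS cov om u p f) j +
        (1 / 2 : ℝ) • ∑ k, ∑ l, ∑ n, mulM (m' k) (m l) j n • (R0.d (Om cov p f k l) (u p f)) n := by
  have h2 := sc2_of cov om sc0 (sc1 cov om) hg (Tn W) R0 R0.tn R0.tens_tn u hu
  have h3 := (sc3_of (cov := cov) (om := om) (sc1 cov om) hg (Tn (Tn W)) (Tn W) R0.tn R1 (CC m) hC _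
    h2).2.1
  have h5 := (C5.sc5 om sc0 (sc1 cov om) hg (Tn W) R0 u hu p f hf).2
  rw [h3]
  show CC m' (tnC (CC m) (nabS cov om (nabS cov om u) p f)) j = _
  rw [CC_CC]
  have hlap : (lapS cov om u p f) j = - ∑ k, (nabS cov om (nabS cov om u) p f) k k j := by
    show (-∑ k, (nabS cov om (nabS cov om u) p f) k k) j = _
    rw [PiLp.neg_apply, tn_sum_apply]
  rw [hlap]
  set N := nabS cov om (nabS cov om u) p f with hN
  have h5' : ∀ k l n, (R0.d (Om cov p f k l) (u p f)) n = N k l n - N l k n := by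
    intro k l n
    rw [← h5 k l, PiLp.sub_apply]
  simp only [h5', smul_sub, Finset.sum_sub_distrib]
  have e1 : ∑ k, ∑ l, ∑ n, mulM (m' k) (m l) j n • N l k n =
      ∑ k, ∑ l, ∑ n, mulM (m' l) (m k) j n • N k l n := by
    rw [Finset.sum_comm]
  have e2 : ∑ k, ∑ l, ∑ n, mulM (m' l) (m k) j n • N k l n =
      - (2 : ℝ) • (∑ k, N k k j) - ∑ k, ∑ l, ∑ n, mulM (m' k) (m l) j n • N k l n := by
    rw [eq_sub_iff_add_eq]
    simp only [← Finset.sum_add_distrib, ← add_smul]
    have : ∀ k l n, (mulM (m' l) (m k) j n + mulM (m' k) (m l) j n) = -2 * idM k l * idM j n := by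
      intro k l n; rw [add_comm]; exact T k l j n
    simp only [this]
    have e3 : ∀ k l, ∑ n, (-2 * idM k l * idM j n) • N k l n = (-2 * idM k l) • N k l j := by
      intro k l
      rw [Finset.sum_eq_single j]
      · simp [idM]
      · intro b _ hb; simp [idM, Ne.symm hb]
      · simp
    simp only [e3]
    have e4 : ∀ k, ∑ l, (-2 * idM k l) • N k l j = (-2 : ℝ) • N k k j := by
      intro k
      rw [Finset.sum_eq_single k]
      · simp [idM]
      · intro b _ hb; simp [idM, Ne.symm hb]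
      · simp
    simp only [e4, ← Finset.smul_sum]
  rw [e1, e2]
  module

theorem T1 (k l i j : Fin 4) : mulM (cMt k) (cM l) i j + mulM (cMt l) (cM k) i j =
    -2 * idM k l * idM i j := by
  have h : ∀ k l, mulM (cMt k) (cM l) i j = - (gZ k l i j : ℝ) := by
    intro k l
    simp only [mulM, cMt, cM, gZ, s4_cast, neg_mul, Finset.sum_neg_distrib]
    push_cast
    rfl
  have := congrArg (fun z : ℤ => (z : ℝ)) (gZ_cliff k l i j)
  push_cast at this
  rw [dZ_cast, dZ_cast] at this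
  rw [h, h]
  linarith

theorem cc1 (k l i j : Fin 4) : mulM (cMt k) (cM l) i j = - (gZ k l i j : ℝ) := by
  simp only [mulM, cMt, cM, gZ, s4_cast, neg_mul, Finset.sum_neg_distrib]
  push_cast
  rfl

theorem cc2 (k l i j : Fin 4) : mulM (cM k) (cMt l) i j = - (hZ k l i j : ℝ) := by
  simp only [mulM, cMt, cM, hZ, s4_cast, mul_neg, Finset.sum_neg_distrib]
  push_cast
  rfl

theorem T2 (k l i j : Fin 4) : mulM (cM k) (cMt l) i j + mulM (cM l) (cMt k) i j =
    -2 * idM k l * idM i j := by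
  have := congrArg (fun z : ℤ => (z : ℝ)) (hZ_cliff k l i j)
  push_cast at this
  rw [dZ_cast, dZ_cast] at this
  rw [cc2, cc2]
  linarith

theorem Dad_Dop [FiniteDimensional ℝ W] (hg : Geo4 cov om) (R : Rep W) {u : PreS E M (Tn W)}
    (hu : u ∈ Sec om R.tn) {p : M} {f : Fin 4 → TangentSpace 𝓘(ℝ, E) p}
    (hf : PON om p f) (hsk : ∀ k l, IsSkew (Om cov p f k l)) (j : Fin 4) :
    (Dad cov om (Dop cov om u) p f) j = (lapS cov om u p f) j -
      (1 / 2 : ℝ) • (∑ m, (∑ k, ∑ l, ∑ n, (gZ k l j n : ℝ) * Om cov p f k l n m) • u p f m +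
        ∑ k, ∑ l, ∑ n, (gZ k l j n : ℝ) • R.d (Om cov p f k l) (u p f n)) := by
  have h := weitz hg (intertwines_D R) T1 hu hf j
  unfold Dad Dop
  rw [h, sub_eq_add_neg, ← smul_neg]
  congr 2
  simp only [cc1, neg_smul, Finset.sum_neg_distrib]
  congr 1
  have e : ∀ k l n, (gZ k l j n : ℝ) • (R.tn.d (Om cov p f k l) (u p f)) n =
      ∑ m, ((gZ k l j n : ℝ) * Om cov p f k l n m) • u p f m +
        (gZ k l j n : ℝ) • R.d (Om cov p f k l) (u p f n) := by
    intro k l n
    rw [Rep.tn_d R (hsk k l), smul_add, Finset.smul_sum]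
    simp only [smul_smul]
  simp only [e, Finset.sum_add_distrib]
  congr 1
  simp only [Finset.sum_smul]
  have t1 : ∀ k, ∑ l, ∑ n, ∑ m, ((gZ k l j n : ℝ) * Om cov p f k l n m) • u p f m =
      ∑ m, ∑ l, ∑ n, ((gZ k l j n : ℝ) * Om cov p f k l n m) • u p f m := by
    intro k
    have : ∀ l, ∑ n, ∑ m, ((gZ k l j n : ℝ) * Om cov p f k l n m) • u p f m =
        ∑ m, ∑ n, ((gZ k l j n : ℝ) * Om cov p f k l n m) • u p f m := fun l => Finset.sum_comm
    simp only [this]
    rw [Finset.sum_comm]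
  simp only [t1]
  rw [Finset.sum_comm]

theorem Dop_Dad [FiniteDimensional ℝ W] (hg : Geo4 cov om) (R : Rep W) {u : PreS E M (Tn W)}
    (hu : u ∈ Sec om R.hq) {p : M} {f : Fin 4 → TangentSpace 𝓘(ℝ, E) p}
    (hf : PON om p f) (hsk : ∀ k l, IsSkew (Om cov p f k l)) (j : Fin 4) :
    (Dop cov om (Dad cov om u) p f) j = (lapS cov om u p f) j -
      (1 / 2 : ℝ) • (∑ m, (∑ k, ∑ l, ∑ n, (hZ k l j n : ℝ) * mHd (Om cov p f k l) n m) • u p f m +
        ∑ k, ∑ l, ∑ n, (hZ k l j n : ℝ) • R.d (Om cov p f k l) (u p f n)) := by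
  have h := weitz hg (intertwines_D' R) T2 hu hf j
  unfold Dad Dop
  rw [h, sub_eq_add_neg, ← smul_neg]
  congr 2
  simp only [cc2, neg_smul, Finset.sum_neg_distrib]
  congr 1
  have e : ∀ k l n, (hZ k l j n : ℝ) • (R.hq.d (Om cov p f k l) (u p f)) n =
      ∑ m, ((hZ k l j n : ℝ) * mHd (Om cov p f k l) n m) • u p f m +
        (hZ k l j n : ℝ) • R.d (Om cov p f k l) (u p f n) := by
    intro k l n
    rw [Rep.hq_d R (hsk k l), smul_add, Finset.smul_sum]
    simp only [smul_smul]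
  simp only [e, Finset.sum_add_distrib]
  congr 1
  simp only [Finset.sum_smul]
  have t1 : ∀ k, ∑ l, ∑ n, ∑ m, ((hZ k l j n : ℝ) * mHd (Om cov p f k l) n m) • u p f m =
      ∑ m, ∑ l, ∑ n, ((hZ k l j n : ℝ) * mHd (Om cov p f k l) n m) • u p f m := by
    intro k
    have : ∀ l, ∑ n, ∑ m, ((hZ k l j n : ℝ) * mHd (Om cov p f k l) n m) • u p f m =
        ∑ m, ∑ n, ((hZ k l j n : ℝ) * mHd (Om cov p f k l) n m) • u p f m :=
      fun l => Finset.sum_comm
    simp only [this]
    rw [Finset.sum_comm]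
  simp only [t1]
  rw [Finset.sum_comm]

theorem sum_K0 {kap : ℝ} {A : Fin 4 → Fin 4 → Mat4} {w : Fin 3 → Fin 3 → ℝ}
    (h : HFCurv kap A w) (x : Tn W) (j : Fin 4) :
    ∑ m, (∑ k, ∑ l, ∑ n, (gZ k l j n : ℝ) * A k l n m) • x m = (-6 * kap) • x j := by
  simp only [K0T h]
  rw [Finset.sum_eq_single j]
  · simp [idM]
  · intro b _ hb; simp [idM, Ne.symm hb]
  · simp

theorem sum_lam {A : Fin 4 → Fin 4 → Mat4} (hA : ∀ k l, IsSkew (A k l))
    (c : Fin 4 → Fin 4 → Fin 4 → ℝ) (x : Tn (EuclideanSpace ℝ (Fin 3))) (a : Fin 3) :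
    (∑ k, ∑ l, ∑ n, c k l n • Rep.lam.d (A k l) (x n)) a =
      ∑ n, ∑ b, (∑ k, ∑ l, c k l n * lamD (A k l) a b) * x n b := by
  simp only [WithLp.ofLp_sum, Finset.sum_apply, PiLp.smul_apply, smul_eq_mul, Rep.lam_d (hA _ _),
    Finset.sum_mul, Finset.mul_sum]
  have t : ∀ k l, ∑ n, ∑ b, c k l n * (lamD (A k l) a b * x n b) =
      ∑ n, ∑ b, c k l n * lamD (A k l) a b * x n b := fun k l =>
    Finset.sum_congr rfl fun n _ => Finset.sum_congr rfl fun b _ => by ring
  simp only [t]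
  have t1 : ∀ k, ∑ l, ∑ n, ∑ b, c k l n * lamD (A k l) a b * x n b =
      ∑ n, ∑ b, ∑ l, c k l n * lamD (A k l) a b * x n b := by
    intro k
    rw [Finset.sum_comm]
    exact Finset.sum_congr rfl fun n _ => Finset.sum_comm
  simp only [t1]
  rw [Finset.sum_comm]
  exact Finset.sum_congr rfl fun n _ => Finset.sum_comm

theorem opT_apply (P : Fin 4 → Fin 3 → Fin 4 → Fin 3 → ℝ) (η : Tn (EuclideanSpace ℝ (Fin 3)))
    (i : Fin 4) (a : Fin 3) : opT P η i a = ∑ j, ∑ b, P i a j b * η j b := rfl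

end WZ

theorem wz4 : WZ4Stmt cov om := by
  intro hg kap hHF
  refine ⟨?_, ?_, ?_, ?_⟩
  · intro u hu
    funext p f
    by_cases hf : PON om p f
    · obtain ⟨w, hw⟩ := hHF p f hf
      refine tn_ext fun j => ?_
      rw [WZ.Dad_Dop hg _ hu hf (fun k l => WZ.skew_of hw k l) j, WZ.sum_K0 hw]
      have : ∀ k l n, (gZ k l j n : ℝ) • Rep.triv.d (Om cov p f k l) (u p f n) = 0 := by
        intro k l n; rw [Rep.triv_d]; simp
      simp only [this, Finset.sum_const_zero, add_zero]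
      show _ = (lapS cov om u p f) j + (3 * kap) • (u p f) j
      module
    · show CC cMt (nabS cov om _ p f) = lapS cov om u p f + (3 * kap) • u p f
      rw [WZ.nabS_neg hf, WZ.lapS_neg hf, hu.1 p f hf]
      simp
  · intro u hu
    funext p f
    by_cases hf : PON om p f
    · obtain ⟨w, hw⟩ := hHF p f hf
      refine tn_ext fun j => ?_
      rw [WZ.Dop_Dad hg _ hu hf (fun k l => WZ.skew_of hw k l) j]
      have : ∀ k l n, (hZ k l j n : ℝ) • Rep.triv.d (Om cov p f k l) (u p f n) = 0 := by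
        intro k l n; rw [Rep.triv_d]; simp
      simp only [this, Finset.sum_const_zero, add_zero, WZ.K1R hw]
      have e : (lapS cov om u + ∑ t, (kap * evR t) • mapS (prR t) u) p f =
          lapS cov om u p f + ((kap * 0) • prR 0 (u p f) + (kap * 4) • prR 1 (u p f)) := by
        rw [Fin.sum_univ_two]; rfl
      rw [e, PiLp.add_apply, PiLp.add_apply, PiLp.smul_apply, PiLp.smul_apply]
      unfold prR
      rw [tnMap_apply, tnMap_apply, sub_eq_add_neg]
      congr 1
      refine Fin.cases ?_ (fun j => ?_) j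
      · simp
      · simp [Fin.succ_ne_zero]
        ring
    · have e : (lapS cov om u + ∑ t, (kap * evR t) • mapS (prR t) u) p f =
          lapS cov om u p f + ((kap * 0) • prR 0 (u p f) + (kap * 4) • prR 1 (u p f)) := by
        rw [Fin.sum_univ_two]; rfl
      rw [e]
      show CC cM (nabS cov om _ p f) = _
      rw [WZ.nabS_neg hf, WZ.lapS_neg hf, hu.1 p f hf]
      simp
  · intro u hu
    funext p f
    by_cases hf : PON om p f
    · obtain ⟨w, hw⟩ := hHF p f hf
      have hsk := fun k l => WZ.skew_of hw k l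
      refine tn_ext fun j => ?_
      rw [WZ.Dad_Dop hg _ hu hf hsk j, WZ.sum_K0 hw]
      have : ∑ k, ∑ l, ∑ n, (gZ k l j n : ℝ) • Rep.lam.d (Om cov p f k l) (u p f n) = 0 := by
        ext a
        rw [WZ.sum_lam hsk (fun k l n => (gZ k l j n : ℝ))]
        simp only [WZ.K0L hw]
        simp
      rw [this, add_zero]
      show _ = (lapS cov om u p f) j + (3 * kap) • (u p f) j
      module
    · show CC cMt (nabS cov om _ p f) = lapS cov om u p f + (3 * kap) • u p f
      rw [WZ.nabS_neg hf, WZ.lapS_neg hf, hu.1 p f hf]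
      simp
  · intro u hu
    have e : ∀ p f, (lapS cov om u + ∑ t, (kap * evL t) • mapS (prL t) u) p f =
        lapS cov om u p f + ((kap * 0) • prL 0 (u p f) + (kap * 6) • prL 1 (u p f) +
          (kap * 4) • prL 2 (u p f) + (kap * (-2)) • prL 3 (u p f)) := by
      intro p f
      rw [Fin.sum_univ_four]; rfl
    funext p f
    rw [e]
    by_cases hf : PON om p f
    · obtain ⟨w, hw⟩ := hHF p f hf
      have hsk := fun k l => WZ.skew_of hw k l
      refine tn_ext fun j => ?_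
      rw [WZ.Dop_Dad hg _ hu hf hsk j, PiLp.add_apply, sub_eq_add_neg]
      congr 1
      ext a
      set x := u p f
      have e1 : (∑ m, (∑ k, ∑ l, ∑ n, (hZ k l j n : ℝ) * mHd (Om cov p f k l) n m) • x m) a =
          ∑ n, ∑ b, ((∑ k, ∑ l, ∑ p', (hZ k l j p' : ℝ) * mHd (Om cov p f k l) p' n) *
            (if a = b then 1 else 0)) * x n b := by
        simp only [WithLp.ofLp_sum, Finset.sum_apply, PiLp.smul_apply, smul_eq_mul]
        refine Finset.sum_congr rfl fun n _ => ?_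
        rw [Finset.sum_eq_single a]
        · simp
        · intro b _ hb; simp [Ne.symm hb]
        · simp
      have e2 := WZ.sum_lam hsk (fun k l n => (hZ k l j n : ℝ)) x a
      rw [PiLp.neg_apply, PiLp.smul_apply, PiLp.add_apply, e1, e2, ← Finset.sum_add_distrib]
      simp only [← Finset.sum_add_distrib, ← add_mul, smul_eq_mul]
      simp only [PiLp.add_apply, PiLp.smul_apply, prL, WZ.opT_apply, smul_eq_mul]
      rw [← neg_mul]
      simp only [Finset.mul_sum, ← Finset.sum_add_distrib]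
      refine Finset.sum_congr rfl fun n _ => Finset.sum_congr rfl fun b _ => ?_
      rw [← mul_assoc, WZ.K1L hw j n a b]
      ring
    · show CC cM (nabS cov om _ p f) = _
      rw [WZ.nabS_neg hf, WZ.lapS_neg hf, hu.1 p f hf]
      simp

end

end Vale.Agent.P211.HK
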