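import Vale.Agent.P211.HK.WZDefs

/-! P211 / HK, block WZ6 (helper455): nonnegative curvature bounds the Weyl part. -/

set_option maxSynthPendingDepth 3
set_option linter.unusedSectionVars false

namespace Vale.Agent.P211.HK.WZ6

noncomputable section

theorem Jp0 : ∀ (c a : Fin 3), JpZ c 0 a.succ = if c = a then 1 else 0 := by decide

theorem quad_le {p q r : ℝ} (h : ∀ t : ℝ, 0 ≤ p * (t * t) + 2 * q * t + r) : q ^ 2 ≤ p * r := by
  have := discrim_le_zero (a := p) (b := 2 * q) (c := r) h
  unfold discrim at this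
  nlinarith

theorem A0 {kap : ℝ} {A : Fin 4 → Fin 4 → Mat4} {w : Fin 3 → Fin 3 → ℝ} (h : HFCurv kap A w)
    (a b : Fin 3) : A 0 a.succ 0 b.succ = kap * (if a = b then 1 else 0) + (1 / 2) * w a b := by
  rw [h.2.2]
  have h1 : ∀ c (a : Fin 3), Jp c 0 a.succ = if c = a then 1 else 0 := by
    intro c a
    unfold Jp
    rw [Jp0]
    split_ifs <;> simp
  simp only [h1, idM]
  have h2 : (0 : Fin 4) ≠ b.succ := (Fin.succ_ne_zero b).symm
  have h3 : a.succ ≠ (0 : Fin 4) := Fin.succ_ne_zero a
  simp only [if_neg h2, if_neg h3, Fin.succ_inj, if_true, mul_zero, sub_zero, one_mul]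
  congr 1
  rw [Finset.sum_eq_single a, Finset.sum_eq_single b]
  · simp
  · intro c _ hc; simp [hc]
  · simp
  · intro c _ hc; simp [hc]
  · simp

theorem wz6 : WZ6Stmt := by
  intro kap A w h hv
  have hs := h.1
  have ht := h.2.1
  simp only [A0 h] at hv
  simp only [Fin.sum_univ_three] at hv ⊢
  have h01 := quad_le (p := 2 * kap + w 1 1) (q := w 0 1) (r := 2 * kap + w 0 0) fun t => by
    have := hv ![1, t, 0]
    simp [hs 1 0] at this
    linarith
  have h02 := quad_le (p := 2 * kap + w 2 2) (q := w 0 2) (r := 2 * kap + w 0 0) fun t => by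
    have := hv ![1, 0, t]
    simp [hs 2 0] at this
    linarith
  have h12 := quad_le (p := 2 * kap + w 2 2) (q := w 1 2) (r := 2 * kap + w 1 1) fun t => by
    have := hv ![0, 1, t]
    simp [hs 2 1] at this
    linarith
  rw [hs 1 0, hs 2 0, hs 2 1]
  have ht2 : w 2 2 = - w 0 0 - w 1 1 := by linarith
  rw [ht2] at h02 h12 ⊢
  linarith

end

end Vale.Agent.P211.HK.WZ6
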