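import Vale.Agent.P211.HK.WZDefs

/-! P211 / HK, block WZ3 (helper455): the projections of `(ℝ ⊕ L₋) ⊗ W`, `W = ℝ, L₋`. -/

set_option maxSynthPendingDepth 3
set_option linter.unusedSectionVars false

namespace Vale.Agent.P211.HK.WZ3

open scoped ContDiff RealInnerProductSpace

noncomputable section

abbrev E3 : Type := EuclideanSpace ℝ (Fin 3)

/-! ### `opT` -/

theorem opT_apply (P : Fin 4 → Fin 3 → Fin 4 → Fin 3 → ℝ) (η : Tn E3) (i : Fin 4) (a : Fin 3) :
    (opT P η i) a = ∑ j, ∑ b, P i a j b * (η j) b := rfl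

theorem tn3_ext {η ζ : Tn E3} (h : ∀ i a, (η i) a = (ζ i) a) : η = ζ := by
  refine tn_ext fun i => ?_
  ext a
  exact h i a

theorem inner_tn3 (η ζ : Tn E3) : ⟪η, ζ⟫ = ∑ i, ∑ a, (η i) a * (ζ i) a := by
  rw [PiLp.inner_apply]
  refine Finset.sum_congr rfl fun i _ => ?_
  rw [PiLp.inner_apply]
  refine Finset.sum_congr rfl fun a _ => ?_
  simp [mul_comm]

theorem opT_symm {P : Fin 4 → Fin 3 → Fin 4 → Fin 3 → ℝ}
    (hP : ∀ i a j b, P i a j b = P j b i a) (η ζ : Tn E3) : ⟪opT P η, ζ⟫ = ⟪η, opT P ζ⟫ := by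
  rw [inner_tn3, inner_tn3]
  simp only [opT_apply, Finset.sum_mul, Finset.mul_sum]
  calc ∑ i, ∑ a, ∑ j, ∑ b, P i a j b * (η j) b * (ζ i) a
      = ∑ i, ∑ j, ∑ a, ∑ b, P i a j b * (η j) b * (ζ i) a :=
        Finset.sum_congr rfl fun i _ => Finset.sum_comm
    _ = ∑ j, ∑ i, ∑ a, ∑ b, P i a j b * (η j) b * (ζ i) a := Finset.sum_comm
    _ = ∑ j, ∑ i, ∑ b, ∑ a, P i a j b * (η j) b * (ζ i) a :=
        Finset.sum_congr rfl fun j _ => Finset.sum_congr rfl fun i _ => Finset.sum_comm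
    _ = ∑ j, ∑ b, ∑ i, ∑ a, P i a j b * (η j) b * (ζ i) a :=
        Finset.sum_congr rfl fun j _ => Finset.sum_comm
    _ = _ := by
        refine Finset.sum_congr rfl fun j _ => Finset.sum_congr rfl fun b _ =>
          Finset.sum_congr rfl fun i _ => Finset.sum_congr rfl fun a _ => ?_
        rw [hP i a j b]; ring

theorem opT_comp (P Q R : Fin 4 → Fin 3 → Fin 4 → Fin 3 → ℝ)
    (h : ∀ i a j b, ∑ k, ∑ c, P i a k c * Q k c j b = R i a j b) (η : Tn E3) :
    opT P (opT Q η) = opT R η := by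
  refine tn3_ext fun i a => ?_
  simp only [opT_apply, Finset.mul_sum]
  calc ∑ k, ∑ c, ∑ j, ∑ b, P i a k c * (Q k c j b * (η j) b)
      = ∑ k, ∑ j, ∑ c, ∑ b, P i a k c * (Q k c j b * (η j) b) :=
        Finset.sum_congr rfl fun k _ => Finset.sum_comm
    _ = ∑ j, ∑ k, ∑ c, ∑ b, P i a k c * (Q k c j b * (η j) b) := Finset.sum_comm
    _ = ∑ j, ∑ k, ∑ b, ∑ c, P i a k c * (Q k c j b * (η j) b) :=
        Finset.sum_congr rfl fun j _ => Finset.sum_congr rfl fun k _ => Finset.sum_comm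
    _ = ∑ j, ∑ b, ∑ k, ∑ c, P i a k c * (Q k c j b * (η j) b) :=
        Finset.sum_congr rfl fun j _ => Finset.sum_comm
    _ = _ := by
        refine Finset.sum_congr rfl fun j _ => Finset.sum_congr rfl fun b _ => ?_
        rw [← h i a j b, Finset.sum_mul]
        refine Finset.sum_congr rfl fun k _ => ?_
        rw [Finset.sum_mul]
        exact Finset.sum_congr rfl fun c _ => by ring

/-- unit vectors -/
def un (i : Fin 4) (a : Fin 3) : Tn E3 :=
  mkT fun j => if j = i then EuclideanSpace.single a (1 : ℝ) else 0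

/-- coordinates -/
def co (j : Fin 4) (b : Fin 3) : Tn E3 →ₗ[ℝ] ℝ where
  toFun η := (η j) b
  map_add' _ _ := rfl
  map_smul' _ _ := rfl

theorem un_apply (i j : Fin 4) (a b : Fin 3) : (un i a j) b = if j = i ∧ b = a then 1 else 0 := by
  by_cases h : j = i
  · subst h; simp [un, mkT]
  · simp [un, mkT, h]

theorem trace_opT (P : Fin 4 → Fin 3 → Fin 4 → Fin 3 → ℝ) :
    LinearMap.trace ℝ _ (opT P).toLinearMap = ∑ i, ∑ a, P i a i a := by
  have e : (opT P).toLinearMap = ∑ i, ∑ a, ∑ j, ∑ b, P i a j b • (co j b).smulRight (un i a) := by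
    refine LinearMap.ext fun η => tn3_ext fun k c => ?_
    have h1 : ∀ (x : Tn E3), (x k) c = co k c x := fun _ => rfl
    rw [h1, h1]
    simp only [LinearMap.sum_apply, map_sum, LinearMap.smul_apply, LinearMap.smulRight_apply,
      map_smul, ContinuousLinearMap.coe_coe]
    have h2 : ∀ i a, co k c (un i a) = if k = i ∧ c = a then 1 else 0 := fun i a =>
      un_apply i k a c
    simp only [h2, smul_eq_mul]
    rw [Finset.sum_eq_single k, Finset.sum_eq_single c]
    · change (opT P η k) c = _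
      rw [opT_apply]
      simp
      rfl
    · intro a _ ha
      simp [Ne.symm ha]
    · simp
    · intro i _ hi
      simp [Ne.symm hi]
    · simp
  rw [e]
  simp only [map_sum, map_smul, LinearMap.trace_smulRight]
  have h2 : ∀ i a j b, co j b (un i a) = if j = i ∧ b = a then 1 else 0 := fun i a j b =>
    un_apply i j a b
  simp only [h2, smul_eq_mul]
  refine Finset.sum_congr rfl fun i _ => Finset.sum_congr rfl fun a _ => ?_
  rw [Finset.sum_eq_single i, Finset.sum_eq_single a]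
  · simp
  · intro b _ hb; simp [hb]
  · simp
  · intro j _ hj; simp [hj]
  · simp

/-! ### numerical identities -/

theorem Pl_symm : ∀ (t : Fin 4) (i : Fin 4) (a : Fin 3) (j : Fin 4) (b : Fin 3),
    PlZ t i a j b = PlZ t j b i a := by decide +kernel

theorem Pl_mul : ∀ (s t : Fin 4) (i : Fin 4) (a : Fin 3) (j : Fin 4) (b : Fin 3),
    ∑ k, ∑ c, PlZ s i a k c * PlZ t k c j b = if s = t then 6 * PlZ t i a j b else 0 := by
  decide +kernel

theorem Pl_sum : ∀ (i : Fin 4) (a : Fin 3) (j : Fin 4) (b : Fin 3),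
    ∑ t, PlZ t i a j b = if i = j ∧ a = b then 6 else 0 := by decide +kernel

theorem Pl_trace : ∀ t : Fin 4, ∑ i, ∑ a, PlZ t i a i a = (![6, 30, 18, 18] : Fin 4 → ℤ) t := by
  decide +kernel

/-- `prL 2`, `prL 3`, `prL 0` through the equivariant maps -/
theorem Pl_three : ∀ (i : Fin 4) (a : Fin 3) (j : Fin 4) (b : Fin 3),
    PlZ 3 i a j b = ∑ c,
      (Fin.cases (2 * d3Z a c) (fun i => - epsZ i a c) i : ℤ) *
        (Fin.cases (2 * d3Z b c) (fun j => - epsZ j b c) j : ℤ) := by decide +kernel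

theorem Pl_two : ∀ (i : Fin 4) (a : Fin 3) (j : Fin 4) (b : Fin 3),
    PlZ 2 i a j b = 2 * ∑ c,
      (Fin.cases (d3Z a c) (fun i => epsZ i a c) i : ℤ) *
        (Fin.cases (d3Z b c) (fun j => epsZ j b c) j : ℤ) := by decide +kernel

theorem Pl_zero : ∀ (i : Fin 4) (a : Fin 3) (j : Fin 4) (b : Fin 3),
    PlZ 0 i a j b = 2 *
      (Fin.cases 0 (fun i => d3Z i a) i : ℤ) * (Fin.cases 0 (fun j => d3Z j b) j : ℤ) := by
  decide +kernel

theorem prL_symm (t : Fin 4) (η ζ : Tn E3) : ⟪prL t η, ζ⟫ = ⟪η, prL t ζ⟫ :=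
  opT_symm (fun i a j b => by rw [Pl_symm]) η ζ

theorem prL_mul (s t : Fin 4) (η : Tn E3) :
    prL s (prL t η) = if s = t then prL t η else 0 := by
  have h : ∀ i a j b, ∑ k, ∑ c, ((PlZ s i a k c : ℝ) / 6) * ((PlZ t k c j b : ℝ) / 6) =
      (if s = t then 1 else 0) * ((PlZ t i a j b : ℝ) / 6) := by
    intro i a j b
    have h1 := Pl_mul s t i a j b
    have h2 : (∑ k, ∑ c, (PlZ s i a k c : ℝ) * (PlZ t k c j b : ℝ)) =
        ((if s = t then 6 * PlZ t i a j b else 0 : ℤ) : ℝ) := by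
      rw [← h1]; push_cast; rfl
    have h3 : ∑ k, ∑ c, ((PlZ s i a k c : ℝ) / 6) * ((PlZ t k c j b : ℝ) / 6) =
        (∑ k, ∑ c, (PlZ s i a k c : ℝ) * (PlZ t k c j b : ℝ)) / 36 := by
      rw [Finset.sum_div]
      refine Finset.sum_congr rfl fun k _ => ?_
      rw [Finset.sum_div]
      exact Finset.sum_congr rfl fun c _ => by ring
    rw [h3, h2]
    split_ifs <;> push_cast <;> ring
  have h4 := opT_comp _ _ _ h η
  unfold prL
  rw [h4]
  split_ifs with hst
  · simp
  · simp only [zero_mul]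
    refine tn3_ext fun i a => ?_
    rw [opT_apply]
    simp

theorem prL_sum (η : Tn E3) : ∑ t, prL t η = η := by
  refine tn3_ext fun i a => ?_
  have h1 : ∀ (x : Tn E3), (x i) a = co i a x := fun _ => rfl
  rw [h1, h1, map_sum]
  have h2 : ∀ t, co i a (prL t η) = ∑ j, ∑ b, (PlZ t i a j b : ℝ) / 6 * (η j) b := fun t => rfl
  simp only [h2]
  rw [Finset.sum_comm]
  have h3 : ∀ j, ∑ t, ∑ b, (PlZ t i a j b : ℝ) / 6 * (η j) b =
      ∑ b, (if i = j ∧ a = b then 1 else 0) * (η j) b := by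
    intro j
    rw [Finset.sum_comm]
    refine Finset.sum_congr rfl fun b _ => ?_
    rw [← Finset.sum_mul, ← Finset.sum_div]
    have h4 := Pl_sum i a j b
    have h5 : (∑ t, (PlZ t i a j b : ℝ)) = ((if i = j ∧ a = b then 6 else 0 : ℤ) : ℝ) := by
      rw [← h4]; push_cast; rfl
    rw [h5]
    split_ifs <;> norm_num
  simp only [h3]
  rw [Finset.sum_eq_single i, Finset.sum_eq_single a]
  · simp; rfl
  · intro b _ hb; simp [Ne.symm hb]
  · simp
  · intro j _ hj; simp [Ne.symm hj]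
  · simp

theorem prL_trace (t : Fin 4) : LinearMap.trace ℝ _ (prL t).toLinearMap = rkL t := by
  unfold prL
  rw [trace_opT]
  have h := Pl_trace t
  have h2 : (∑ i, ∑ a, (PlZ t i a i a : ℝ)) = (((![6, 30, 18, 18] : Fin 4 → ℤ) t : ℤ) : ℝ) := by
    rw [← h]; push_cast; rfl
  have h3 : ∑ i, ∑ a, (PlZ t i a i a : ℝ) / 6 = (∑ i, ∑ a, (PlZ t i a i a : ℝ)) / 6 := by
    rw [Finset.sum_div]
    exact Finset.sum_congr rfl fun i _ => by rw [Finset.sum_div]
  rw [h3, h2]
  fin_cases t <;> norm_num [rkL]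

/-! ### equivariance -/

theorem RZ_mul : ∀ (a b : Fin 3) (i j : Fin 4), ∑ s, JmZ a i s * JmZ b s j =
    (if a = b ∧ i = j then -1 else 0) + ∑ c, epsZ a b c * JmZ c i j := by decide +kernel

theorem Rq_eq (a : Fin 3) (i j : Fin 4) : Rq a i j = - (JmZ a i j : ℝ) := by
  fin_cases a <;> fin_cases i <;> fin_cases j <;> simp [Rq, JmZ]

theorem Rq_mul (a b : Fin 3) : mulM (Rq a) (Rq b) =
    (if a = b then (-1 : ℝ) else 0) • idM - ∑ c, (epsZ a b c : ℝ) • Rq c := by
  funext i j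
  have h := RZ_mul a b i j
  have h2 : (∑ s, (JmZ a i s : ℝ) * (JmZ b s j : ℝ)) =
      (((if a = b ∧ i = j then -1 else 0) + ∑ c, epsZ a b c * JmZ c i j : ℤ) : ℝ) := by
    rw [← h]; push_cast; rfl
  have h3 : mulM (Rq a) (Rq b) i j = ∑ s, (JmZ a i s : ℝ) * (JmZ b s j : ℝ) := by
    unfold mulM
    exact Finset.sum_congr rfl fun s _ => by rw [Rq_eq, Rq_eq]; ring
  rw [h3, h2]
  simp only [Pi.sub_apply, Pi.smul_apply, Finset.sum_apply, Rq_eq, idM, smul_eq_mul]
  push_cast
  by_cases h1 : a = b <;> by_cases h4 : i = j <;> simp [h1, h4]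

theorem adM_mulM {g : Mat4} (hg : IsSO g) (A B : Mat4) :
    adM g (mulM A B) = mulM (adM g A) (adM g B) := by
  unfold adM
  have h : mulM (trM g) g = idM := hg.1
  simp only [mulM_assoc]
  rw [← mulM_assoc (trM g) g, h, one_mulM]

theorem adM_idM {g : Mat4} (hg : IsSO g) : adM g idM = idM := by
  unfold adM
  rw [mulM_one, hg.right]

theorem adM_addM (g A B : Mat4) : adM g (A + B) = adM g A + adM g B := by
  unfold adM
  funext i j
  simp only [mulM, Pi.add_apply, mul_add, add_mul, Finset.sum_add_distrib]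

theorem adM_smulM (g A : Mat4) (c : ℝ) : adM g (c • A) = c • adM g A := by
  unfold adM
  funext i j
  simp only [mulM, Pi.smul_apply, smul_eq_mul, Finset.mul_sum, Finset.sum_mul]
  exact Finset.sum_congr rfl fun k _ => Finset.sum_congr rfl fun l _ => by ring

theorem dotM_idM (a : Fin 3) : dotM (Rq a) idM = 0 := by
  unfold dotM idM
  fin_cases a <;> simp [Rq, Fin.sum_univ_four]

theorem dotM_addM (A B C : Mat4) : dotM A (B + C) = dotM A B + dotM A C := by
  unfold dotM
  simp only [Pi.add_apply, mul_add, Finset.sum_add_distrib]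

theorem dotM_smulM (A B : Mat4) (c : ℝ) : dotM A (c • B) = c * dotM A B := by
  unfold dotM
  simp only [Pi.smul_apply, smul_eq_mul, Finset.mul_sum]
  exact Finset.sum_congr rfl fun k _ => Finset.sum_congr rfl fun l _ => by ring

theorem dotM_Rq_sum (a : Fin 3) (c : Fin 3 → ℝ) : dotM (Rq a) (∑ b, c b • Rq b) = c a := by
  rw [dotM_sum]
  simp [dotM_Rq]

/-- equivariance of the three-index symbol -/
theorem eps_lam {g : Mat4} (hg : IsSO g) (k c a : Fin 3) :
    ∑ j, ∑ b, (epsZ j b a : ℝ) * lamM g j k * lamM g b c =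
      ∑ d, (epsZ k c d : ℝ) * lamM g a d := by
  have h1 : adM g (mulM (Rq k) (Rq c)) = mulM (adM g (Rq k)) (adM g (Rq c)) := adM_mulM hg _ _
  have h2 : dotM (Rq a) (adM g (mulM (Rq k) (Rq c))) = - ∑ d, (epsZ k c d : ℝ) * lamM g a d := by
    rw [Rq_mul, sub_eq_add_neg, adM_addM, adM_smulM, adM_idM hg, dotM_addM, dotM_smulM, dotM_idM,
      mul_zero, zero_add, adM_neg, adM_sum]
    have e : (-∑ d, (epsZ k c d : ℝ) • adM g (Rq d)) =
        ∑ b, (-(∑ d, (epsZ k c d : ℝ) * lamM g b d)) • Rq b := by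
      simp only [adM_Rq hg, Finset.smul_sum, smul_smul, neg_smul, Finset.sum_smul,
        Finset.sum_neg_distrib]
      rw [Finset.sum_comm]
    rw [e, dotM_Rq_sum]
  have h3 : dotM (Rq a) (mulM (adM g (Rq k)) (adM g (Rq c))) =
      - ∑ j, ∑ b, (epsZ j b a : ℝ) * lamM g j k * lamM g b c := by
    have e : mulM (adM g (Rq k)) (adM g (Rq c)) =
        (∑ j, ∑ b, (lamM g j k * lamM g b c * (if j = b then (-1 : ℝ) else 0))) • idM +
          ∑ d, (-(∑ j, ∑ b, (epsZ j b d : ℝ) * lamM g j k * lamM g b c)) • Rq d := by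
      have e1 : mulM (adM g (Rq k)) (adM g (Rq c)) =
          ∑ j, ∑ b, (lamM g j k * lamM g b c) • mulM (Rq j) (Rq b) := by
        rw [adM_Rq hg, adM_Rq hg]
        funext x y
        simp only [mulM, Finset.sum_apply, Pi.smul_apply, smul_eq_mul, Finset.mul_sum,
          Finset.sum_mul]
        rw [Finset.sum_comm]
        simp only [Fin.sum_univ_three, Fin.sum_univ_four]
        ring
      rw [e1]
      simp only [Rq_mul]
      funext x y
      simp only [Finset.sum_apply, Pi.add_apply, Pi.sub_apply, Pi.smul_apply, smul_eq_mul,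
        Fin.sum_univ_three, neg_mul]
      ring
    rw [e, dotM_addM, dotM_smulM, dotM_idM, mul_zero, zero_add, dotM_Rq_sum]
  rw [← h1, h2] at h3
  linarith

theorem lamM_tr {g : Mat4} (hg : IsSO g) (a b : Fin 3) : lamM (trM g) a b = lamM g b a := by
  unfold lamM
  have h : adM g (adM (trM g) (Rq b)) = Rq b := by
    rw [← adM_mul, hg.right, adM_one]
  rw [← dotM_adM hg (Rq a) (adM (trM g) (Rq b)), h, dotM_comm]

theorem eps_lam' {g : Mat4} (hg : IsSO g) (i a c : Fin 3) :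
    ∑ j, ∑ b, (epsZ j b c : ℝ) * lamM g i j * lamM g a b =
      ∑ d, (epsZ i a d : ℝ) * lamM g d c := by
  have h := eps_lam hg.tr i a c
  simp only [lamM_tr hg] at h
  exact h

theorem rho_zero (g : Mat4) (η : Tn E3) (a : Fin 3) :
    ((Rep.lam.hq.ρ g η) 0) a = ∑ b, lamM g a b * (η 0) b := by
  have h : Rep.lam.hq.ρ g η = tnMap (mH g) (op3 (lamM g)) η := rfl
  rw [h, tnMap_apply, Fin.sum_univ_succ]
  simp [op3_apply]

theorem rho_succ (g : Mat4) (η : Tn E3) (i a : Fin 3) :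
    ((Rep.lam.hq.ρ g η) i.succ) a =
      ∑ j, ∑ b, lamM g i j * lamM g a b * (η (Fin.succ j)) b := by
  have h : Rep.lam.hq.ρ g η = tnMap (mH g) (op3 (lamM g)) η := rfl
  rw [h, tnMap_apply, Fin.sum_univ_succ]
  simp only [mH_succ_zero, mH_succ_succ, zero_smul, zero_add]
  have h1 : ∀ (x : E3), x a = (EuclideanSpace.proj a : E3 →L[ℝ] ℝ) x := fun _ => rfl
  rw [h1, map_sum]
  refine Finset.sum_congr rfl fun j _ => ?_
  rw [map_smul, ← h1, op3_apply, smul_eq_mul, Finset.mul_sum]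
  exact Finset.sum_congr rfl fun b _ => by ring

theorem rho3 (g : Mat4) (x : E3) (a : Fin 3) : (Rep.lam.ρ g x) a = ∑ b, lamM g a b * x b :=
  op3_apply _ _ _

/-- `(x₀, X) ↦ α x₀ + β ε(X)` -/
def phi (α β : ℝ) : Tn E3 →L[ℝ] E3 :=
  LinearMap.toContinuousLinearMap
    { toFun := fun η => WithLp.toLp 2 fun c =>
        α * (η 0) c + β * ∑ a : Fin 3, ∑ b : Fin 3, (epsZ a b c : ℝ) * (η a.succ) b
      map_add' := fun η ζ => by
        ext c
        simp only [PiLp.add_apply, mul_add, Finset.sum_add_distrib]; ring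
      map_smul' := fun r η => by
        ext c
        simp only [PiLp.smul_apply, smul_eq_mul, RingHom.id_apply, Fin.sum_univ_three]
        ring }

theorem phi_apply (α β : ℝ) (η : Tn E3) (c : Fin 3) : phi α β η c =
    α * (η 0) c + β * ∑ a : Fin 3, ∑ b : Fin 3, (epsZ a b c : ℝ) * (η a.succ) b := rfl

/-- `x ↦ (α x, β ε(x))` -/
def psi (α β : ℝ) : E3 →L[ℝ] Tn E3 :=
  LinearMap.toContinuousLinearMap
    { toFun := fun x => mkT fun i => Fin.cases (α • x)
        (fun a => WithLp.toLp 2 fun b => β * ∑ c : Fin 3, (epsZ a b c : ℝ) * x c) i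
      map_add' := fun x y => by
        ext i a
        refine Fin.cases ?_ (fun i => ?_) i
        · simp [mkT]
        · simp [mkT, Fin.sum_univ_three]; ring
      map_smul' := fun r x => by
        ext i a
        refine Fin.cases ?_ (fun i => ?_) i
        · simp [mkT]; ring
        · simp [mkT, Fin.sum_univ_three]; ring }

theorem psi_zero (α β : ℝ) (x : E3) (a : Fin 3) : (psi α β x 0) a = α * x a := rfl

theorem psi_succ (α β : ℝ) (x : E3) (i a : Fin 3) :
    (psi α β x i.succ) a = β * ∑ c : Fin 3, (epsZ i a c : ℝ) * x c := rfl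

theorem intertwines_phi (α β : ℝ) : Intertwines Rep.lam.hq Rep.lam (phi α β) := by
  intro g hg η
  ext c
  rw [phi_apply, rho_zero, rho3]
  simp only [phi_apply, rho_succ]
  have h := fun k d => eps_lam hg k d c
  have e : ∑ a : Fin 3, ∑ b : Fin 3, (epsZ a b c : ℝ) *
      (∑ j, ∑ d, lamM g a j * lamM g b d * (η (Fin.succ j)) d) =
      ∑ j, ∑ d, (∑ a, ∑ b, (epsZ a b c : ℝ) * lamM g a j * lamM g b d) * (η (Fin.succ j)) d := by
    simp only [Fin.sum_univ_three]
    ring
  rw [e]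
  simp only [h]
  simp only [Fin.sum_univ_three]
  ring

theorem intertwines_psi (α β : ℝ) : Intertwines Rep.lam Rep.lam.hq (psi α β) := by
  intro g hg x
  refine tn3_ext fun i a => ?_
  refine Fin.cases ?_ (fun i => ?_) i
  · rw [psi_zero, rho_zero, rho3]
    simp only [psi_zero, Finset.mul_sum]
    exact Finset.sum_congr rfl fun b _ => by ring
  · rw [psi_succ, rho_succ]
    simp only [psi_succ, rho3]
    have h := fun c => eps_lam' hg i a c
    have e : ∑ j, ∑ b, lamM g i j * lamM g a b * (β * ∑ c : Fin 3, (epsZ j b c : ℝ) * x c) =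
        β * ∑ c, (∑ j, ∑ b, (epsZ j b c : ℝ) * lamM g i j * lamM g a b) * x c := by
      simp only [Fin.sum_univ_three]
      ring
    rw [e]
    simp only [h]
    simp only [Fin.sum_univ_three]
    ring

theorem ioLt_eq : ioLt = phi 2 (-1) := by
  refine ContinuousLinearMap.ext fun η => ?_
  ext c
  rw [phi_apply]
  change 2 * (η 0) c - ∑ a : Fin 3, ∑ b : Fin 3, (epsZ a b c : ℝ) * (η a.succ) b = _
  ring

theorem ioL_eq : ioL = psi 2 (-1) := by
  refine ContinuousLinearMap.ext fun x => tn3_ext fun i a => ?_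
  refine Fin.cases ?_ (fun i => ?_) i
  · rw [psi_zero]
    change (2 • x) a = _
    simp
  · rw [psi_succ]
    change - ∑ c : Fin 3, (epsZ i a c : ℝ) * x c = _
    ring

theorem prL_apply (t : Fin 4) (η : Tn E3) (i : Fin 4) (a : Fin 3) :
    (prL t η i) a = ∑ j, ∑ b, (PlZ t i a j b : ℝ) / 6 * (η j) b := rfl

theorem sum_ez {a : Fin 3} {f : Fin 3 → ℝ} : ∑ c, (d3Z a c : ℝ) * f c = f a := by
  unfold d3Z
  simp

theorem P300 (a b : Fin 3) : PlZ 3 0 a 0 b = 4 * d3Z a b := rfl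
theorem P30s (a j b : Fin 3) : PlZ 3 0 a j.succ b = -2 * epsZ j b a := rfl
theorem P3s0 (i a b : Fin 3) : PlZ 3 i.succ a 0 b = -2 * epsZ i a b := rfl
theorem P3ss (i a j b : Fin 3) : PlZ 3 i.succ a j.succ b =
    s3 (fun c => epsZ i a c * epsZ j b c) := rfl
theorem P200 (a b : Fin 3) : PlZ 2 0 a 0 b = 2 * d3Z a b := rfl
theorem P20s (a j b : Fin 3) : PlZ 2 0 a j.succ b = 2 * epsZ j b a := rfl
theorem P2s0 (i a b : Fin 3) : PlZ 2 i.succ a 0 b = 2 * epsZ i a b := rfl
theorem P2ss (i a j b : Fin 3) : PlZ 2 i.succ a j.succ b =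
    2 * s3 (fun c => epsZ i a c * epsZ j b c) := rfl
theorem P00 (a : Fin 3) (j : Fin 4) (b : Fin 3) : PlZ 0 0 a j b = 0 := by
  revert a j b; decide
theorem P0s0 (i a b : Fin 3) : PlZ 0 i.succ a 0 b = 0 := rfl
theorem P0ss (i a j b : Fin 3) : PlZ 0 i.succ a j.succ b = 2 * d3Z i a * d3Z j b := rfl

theorem prL3_eq (η : Tn E3) : (6 : ℝ) • prL 3 η = psi 2 (-1) (phi 2 (-1) η) := by
  refine tn3_ext fun i a => ?_
  have h1 : ((6 : ℝ) • prL 3 η) i a = 6 * (prL 3 η i) a := rfl
  rw [h1, prL_apply]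
  refine Fin.cases ?_ (fun i => ?_) i
  · rw [psi_zero, phi_apply, Fin.sum_univ_succ]
    have h0 := sum_ez (a := a) (f := fun b => (η 0) b)
    simp only [P300, P30s]
    push_cast
    simp only [Fin.sum_univ_three] at h0 ⊢
    linear_combination 4 * h0
  · rw [psi_succ, Fin.sum_univ_succ]
    simp only [phi_apply, P3s0, P3ss, s3]
    push_cast
    simp only [Fin.sum_univ_three]
    ring

theorem prL2_eq (η : Tn E3) : (3 : ℝ) • prL 2 η = psi 1 1 (phi 1 1 η) := by
  refine tn3_ext fun i a => ?_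
  have h1 : ((3 : ℝ) • prL 2 η) i a = 3 * (prL 2 η i) a := rfl
  rw [h1, prL_apply]
  refine Fin.cases ?_ (fun i => ?_) i
  · rw [psi_zero, phi_apply, Fin.sum_univ_succ]
    have h0 := sum_ez (a := a) (f := fun b => (η 0) b)
    simp only [P200, P20s]
    push_cast
    simp only [Fin.sum_univ_three] at h0 ⊢
    linear_combination h0
  · rw [psi_succ, Fin.sum_univ_succ]
    simp only [phi_apply, P2s0, P2ss, s3]
    push_cast
    simp only [Fin.sum_univ_three]
    ring

theorem intertwines_smul_inv {R : Rep (Tn E3)} {C : Tn E3 →L[ℝ] Tn E3} {c : ℝ} (hc : c ≠ 0)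
    (h : ∀ g, IsSO g → ∀ w, c • C (R.ρ g w) = R.ρ g (c • C w)) : Intertwines R R C := by
  intro g hg w
  have := h g hg w
  rw [map_smul] at this
  exact smul_right_injective _ hc this

theorem intertwines_prL3 : Intertwines Rep.lam.hq Rep.lam.hq (prL 3) :=
  intertwines_smul_inv (c := 6) (by norm_num) fun g hg w => by
    rw [prL3_eq, prL3_eq, intertwines_phi 2 (-1) g hg, intertwines_psi 2 (-1) g hg]

theorem intertwines_prL2 : Intertwines Rep.lam.hq Rep.lam.hq (prL 2) :=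
  intertwines_smul_inv (c := 3) (by norm_num) fun g hg w => by
    rw [prL2_eq, prL2_eq, intertwines_phi 1 1 g hg, intertwines_psi 1 1 g hg]

theorem prL0_zero (η : Tn E3) (a : Fin 3) : (prL 0 η 0) a = 0 := by
  rw [prL_apply]
  refine Finset.sum_eq_zero fun j _ => Finset.sum_eq_zero fun b _ => ?_
  rw [P00]
  simp

theorem prL0_succ (η : Tn E3) (i a : Fin 3) : (prL 0 η i.succ) a =
    if i = a then (∑ j : Fin 3, (η j.succ) j) / 3 else 0 := by
  rw [prL_apply, Fin.sum_univ_succ]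
  simp only [P0s0, P0ss]
  have h : ∀ j : Fin 3, ∑ b, ((2 * d3Z i a * d3Z j b : ℤ) : ℝ) / 6 * (η j.succ) b =
      (d3Z i a : ℝ) / 3 * (η j.succ) j := by
    intro j
    have h0 := sum_ez (a := j) (f := fun b => (η j.succ) b)
    push_cast
    simp only [Fin.sum_univ_three] at h0 ⊢
    linear_combination (d3Z i a : ℝ) / 3 * h0
  simp only [h, ← Finset.mul_sum]
  unfold d3Z
  split_ifs
  · simp; ring
  · simp

theorem intertwines_prL0 : Intertwines Rep.lam.hq Rep.lam.hq (prL 0) := by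
  intro g hg η
  refine tn3_ext fun i a => ?_
  refine Fin.cases ?_ (fun i => ?_) i
  · rw [prL0_zero, rho_zero]
    simp [prL0_zero]
  · rw [prL0_succ, rho_succ]
    simp only [prL0_succ, rho_succ]
    have h0 : ∑ l : Fin 3, ∑ j, ∑ b, lamM g l j * lamM g l b * (η (Fin.succ j)) b =
        ∑ j : Fin 3, (η j.succ) j := by
      have e : ∑ l : Fin 3, ∑ j, ∑ b, lamM g l j * lamM g l b * (η (Fin.succ j)) b =
          ∑ j, ∑ b, (∑ l, lamM g l j * lamM g l b) * (η (Fin.succ j)) b := by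
        simp only [Fin.sum_univ_three]
        ring
      rw [e]
      have hO := lamM_orth hg
      simp only [Fin.sum_univ_three] at hO ⊢
      simp only [hO]
      simp
    rw [h0]
    have h1 : ∀ j, ∑ b, lamM g i j * lamM g a b *
        (if j = b then (∑ j : Fin 3, (η j.succ) j) / 3 else 0) =
        lamM g i j * lamM g a j * ((∑ j : Fin 3, (η j.succ) j) / 3) := by
      intro j
      simp
    simp only [h1, ← Finset.sum_mul]
    have h2 := lamM_orth hg.tr i a
    simp only [lamM_tr hg] at h2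
    rw [h2]
    split_ifs <;> simp

theorem prL1_eq (ζ : Tn E3) : prL 1 ζ = ζ - prL 0 ζ - prL 2 ζ - prL 3 ζ := by
  have h := prL_sum ζ
  rw [Fin.sum_univ_four] at h
  calc prL 1 ζ = (prL 0 ζ + prL 1 ζ + prL 2 ζ + prL 3 ζ) - prL 0 ζ - prL 2 ζ - prL 3 ζ := by abel
    _ = _ := by rw [h]

theorem intertwines_prL1 : Intertwines Rep.lam.hq Rep.lam.hq (prL 1) := by
  intro g hg η
  rw [prL1_eq, prL1_eq, intertwines_prL0 g hg, intertwines_prL2 g hg, intertwines_prL3 g hg]
  simp only [map_sub]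

theorem intertwines_prL (t : Fin 4) : Intertwines Rep.lam.hq Rep.lam.hq (prL t) := by
  fin_cases t
  · exact intertwines_prL0
  · exact intertwines_prL1
  · exact intertwines_prL2
  · exact intertwines_prL3

theorem epsZ_sq : ∀ c d : Fin 3, ∑ a : Fin 3, ∑ b : Fin 3, epsZ a b c * epsZ a b d =
    if c = d then 2 else 0 := by decide

theorem phi_psi (α β : ℝ) (x : E3) : phi α β (psi α β x) = (α ^ 2 + 2 * β ^ 2) • x := by
  ext c
  rw [phi_apply]
  simp only [psi_zero, psi_succ]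
  have h : ∀ d, (∑ a : Fin 3, ∑ b : Fin 3, (epsZ a b c : ℝ) * (epsZ a b d : ℝ)) =
      ((if c = d then 2 else 0 : ℤ) : ℝ) := by
    intro d
    rw [← epsZ_sq c d]
    push_cast
    rfl
  have e : ∑ a : Fin 3, ∑ b : Fin 3, (epsZ a b c : ℝ) *
      (β * ∑ d : Fin 3, (epsZ a b d : ℝ) * x d) =
      β * ∑ d, (∑ a : Fin 3, ∑ b : Fin 3, (epsZ a b c : ℝ) * (epsZ a b d : ℝ)) * x d := by
    simp only [Fin.sum_univ_three]
    ring
  rw [e]
  simp only [h]
  have e2 : ∑ d, ((if c = d then 2 else 0 : ℤ) : ℝ) * x d = 2 * x c := by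
    rw [Finset.sum_eq_single c]
    · simp
    · intro d _ hd
      simp [Ne.symm hd]
    · simp
  rw [e2]
  simp only [PiLp.smul_apply, smul_eq_mul]
  ring

theorem io_one (x : E3) : ioLt (ioL x) = (6 : ℝ) • x := by
  rw [ioLt_eq, ioL_eq, phi_psi]
  norm_num

theorem io_two (η : Tn E3) : ioL (ioLt η) = (6 : ℝ) • prL 3 η := by
  rw [ioLt_eq, ioL_eq, prL3_eq]

/-! ### `prR` -/

theorem prR_apply (t : Fin 2) (η : Tn ℝ) (i : Fin 4) :
    prR t η i = if (i = 0 ↔ t = 0) then η i else 0 := by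
  unfold prR
  rw [tnMap_apply]
  simp only [ContinuousLinearMap.id_apply]
  rw [Finset.sum_eq_single i]
  · by_cases h : (i = 0 ↔ t = 0) <;> simp [h]
  · intro j _ hj
    simp [Ne.symm hj]
  · simp

theorem prR_idem (t : Fin 2) (η : Tn ℝ) : prR t (prR t η) = prR t η := by
  refine tn_ext fun i => ?_
  rw [prR_apply, prR_apply]
  split_ifs <;> rfl

theorem prR_orth (s t : Fin 2) (h : s ≠ t) (η : Tn ℝ) : prR s (prR t η) = 0 := by
  refine tn_ext fun i => ?_
  rw [prR_apply, prR_apply]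
  by_cases h1 : i = 0 <;> fin_cases s <;> fin_cases t <;> simp_all

theorem prR_symm (t : Fin 2) (x y : Tn ℝ) : ⟪prR t x, y⟫ = ⟪x, prR t y⟫ := by
  rw [PiLp.inner_apply, PiLp.inner_apply]
  refine Finset.sum_congr rfl fun i _ => ?_
  rw [prR_apply, prR_apply]
  split_ifs <;> simp

theorem prR_sum (x : Tn ℝ) : ∑ t, prR t x = x := by
  refine tn_ext fun i => ?_
  rw [Fin.sum_univ_two]
  change prR 0 x i + prR 1 x i = x i
  rw [prR_apply, prR_apply]
  by_cases h : i = 0 <;> simp [h]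

theorem mH_block (g : Mat4) (t : Fin 2) (i j : Fin 4) (x : ℝ) :
    mH g i j • (if (j = 0 ↔ t = 0) then x else 0) =
      if (i = 0 ↔ t = 0) then mH g i j • x else 0 := by
  refine Fin.cases ?_ (fun i => ?_) i <;> refine Fin.cases ?_ (fun j => ?_) j
  · split_ifs <;> simp
  · rw [mH_zero_succ]; simp
  · rw [mH_succ_zero]; simp
  · simp only [Fin.succ_ne_zero, false_iff]
    split_ifs <;> simp

theorem intertwines_prR (t : Fin 2) : Intertwines Rep.triv.hq Rep.triv.hq (prR t) := by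
  intro g hg η
  refine tn_ext fun i => ?_
  have h : ∀ ζ : Tn ℝ, Rep.triv.hq.ρ g ζ = tnMap (mH g) (ContinuousLinearMap.id ℝ ℝ) ζ :=
    fun _ => rfl
  rw [prR_apply, h, h, tnMap_apply, tnMap_apply]
  simp only [ContinuousLinearMap.id_apply, prR_apply, mH_block]
  split_ifs <;> simp

theorem trace_prR (t : Fin 2) : LinearMap.trace ℝ _ (prR t).toLinearMap = rkR t := by
  rw [LinearMap.trace_eq_sum_inner _ (EuclideanSpace.basisFun (Fin 4) ℝ)]
  have h : ∀ i, ⟪(EuclideanSpace.basisFun (Fin 4) ℝ) i,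
      (prR t).toLinearMap ((EuclideanSpace.basisFun (Fin 4) ℝ) i)⟫ =
      if (i = 0 ↔ t = 0) then (1 : ℝ) else 0 := by
    intro i
    rw [EuclideanSpace.basisFun_apply, EuclideanSpace.inner_single_left]
    change _ * (prR t (EuclideanSpace.single i 1)) i = _
    rw [prR_apply]
    simp
  simp only [h]
  fin_cases t <;> simp [Fin.sum_univ_four, rkR]
  norm_num

theorem wz3 : WZ3Stmt :=
  ⟨intertwines_prR, prR_symm, prR_idem, prR_orth, prR_sum, trace_prR, intertwines_prL, prL_symm,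
    fun t x => by rw [prL_mul]; simp, fun s t h x => by rw [prL_mul, if_neg h], prL_sum, prL_trace,
    by rw [ioL_eq]; exact intertwines_psi 2 (-1), by rw [ioLt_eq]; exact intertwines_phi 2 (-1),
    io_one, io_two⟩

end

end Vale.Agent.P211.HK.WZ3
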