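import Vale.Agent.P211.HK.WZPr
import Vale.Agent.P211.HK.RepD

/-! P211 / HK, block WZ5 (helper455): traces of the squares of the curvature operators. -/

set_option maxSynthPendingDepth 3
set_option linter.unusedSectionVars false

namespace Vale.Agent.P211.HK.WZ5

open scoped ContDiff RealInnerProductSpace

noncomputable section

variable {W : Type} [NormedAddCommGroup W] [InnerProductSpace ℝ W]

/-! ### traces on `Tn W` -/

/-- insertion of the `k`-th component -/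
def insL (k : Fin 4) : W →ₗ[ℝ] Tn W where
  toFun w := mkT fun j => if j = k then w else 0
  map_add' v w := by
    refine tn_ext fun j => ?_
    change (if j = k then v + w else 0) = (if j = k then v else 0) + (if j = k then w else 0)
    split_ifs <;> simp
  map_smul' c w := by
    refine tn_ext fun j => ?_
    change (if j = k then c • w else 0) = c • (if j = k then w else 0)
    split_ifs <;> simp

def prjL (k : Fin 4) : Tn W →ₗ[ℝ] W where
  toFun η := η k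
  map_add' _ _ := rfl
  map_smul' _ _ := rfl

theorem trace_block [FiniteDimensional ℝ W] (T : Tn W →ₗ[ℝ] Tn W)
    (B : Fin 4 → Fin 4 → W →ₗ[ℝ] W) (h : ∀ w k, T w k = ∑ l, B k l (w l)) :
    LinearMap.trace ℝ _ T = ∑ k, LinearMap.trace ℝ W (B k k) := by
  have e : T = ∑ k, ∑ l, (insL k).comp ((B k l).comp (prjL l)) := by
    refine LinearMap.ext fun η => tn_ext fun j => ?_
    rw [h]
    have h1 : ∀ x : Tn W, x j = prjL j x := fun _ => rfl
    rw [h1]
    simp only [LinearMap.sum_apply, map_sum, LinearMap.comp_apply]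
    have h2 : ∀ k (w : W), prjL j (insL k w) = if j = k then w else 0 := fun _ _ => rfl
    simp only [h2]
    have h5 : ∀ k l, (if j = k then (B k l) (prjL l η) else 0) =
        if j = k then (B j l) (prjL l η) else 0 := by
      intro k l
      split_ifs with hjk
      · rw [hjk]
      · rfl
    simp only [h5]
    rw [Finset.sum_comm]
    refine Finset.sum_congr rfl fun l _ => ?_
    simp
    rfl
  rw [e]
  simp only [map_sum]
  refine Finset.sum_congr rfl fun k _ => ?_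
  have h3 : ∀ l, LinearMap.trace ℝ _ ((insL k).comp ((B k l).comp (prjL l))) =
      if l = k then LinearMap.trace ℝ W (B k k) else 0 := by
    intro l
    rw [LinearMap.trace_comp_comm', LinearMap.comp_assoc]
    have h4 : (prjL l).comp (insL k) = if l = k then (LinearMap.id : W →ₗ[ℝ] W) else 0 := by
      refine LinearMap.ext fun w => ?_
      change (if l = k then w else 0) = _
      split_ifs <;> simp
    rw [h4]
    by_cases hl : l = k
    · subst hl; simp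
    · simp [hl]
  simp only [h3]
  simp

theorem trace_sq [FiniteDimensional ℝ W] (m : Mat4) (D : W →L[ℝ] W) (T : Tn W →L[ℝ] Tn W)
    (hT : ∀ w k, T w k = ∑ l, m k l • w l + D (w k)) (hm : ∀ k, m k k = 0) :
    LinearMap.trace ℝ _ (T.comp T).toLinearMap =
      (∑ k, ∑ j, m k j * m j k) * Module.finrank ℝ W +
        4 * LinearMap.trace ℝ W (D.comp D).toLinearMap := by
  rw [trace_block _ (fun k l => (∑ j, m k j * m j l) • LinearMap.id + (2 * m k l) • D.toLinearMap +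
    (if k = l then (1 : ℝ) else 0) • (D.comp D).toLinearMap)]
  · simp only [map_add, map_smul, hm, mul_zero, zero_smul, add_zero, if_true, one_smul,
      LinearMap.trace_id, smul_eq_mul, Finset.sum_add_distrib, Finset.sum_const, Finset.card_univ,
      Fintype.card_fin, nsmul_eq_mul, ← Finset.sum_mul]
    norm_num
  · intro w k
    change T (T w) k = _
    rw [hT]
    simp only [hT, LinearMap.add_apply, LinearMap.smul_apply, LinearMap.id_apply, smul_add,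
      Finset.sum_add_distrib, map_add, map_sum, map_smul, Finset.smul_sum, smul_smul,
      ContinuousLinearMap.coe_coe, ContinuousLinearMap.comp_apply]
    rw [Finset.sum_comm]
    have h3 : ∀ l, ∑ x, (m k x * m x l) • w l = (∑ x, m k x * m x l) • w l := fun l =>
      (Finset.sum_smul).symm
    simp only [h3]
    have h1 : ∑ l, (if k = l then (1 : ℝ) else 0) • D (D (w l)) = D (D (w k)) := by
      rw [Finset.sum_eq_single k]
      · simp
      · intro j _ hj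
        simp [Ne.symm hj]
      · simp
    rw [h1]
    have h2 : ∀ l, (2 * m k l) • D (w l) = m k l • D (w l) + m k l • D (w l) := fun l => by
      rw [two_mul, add_smul]
    simp only [h2, Finset.sum_add_distrib]
    abel

/-! ### the action on `L₋` -/

theorem lamD_eq {A : Mat4} (hA : IsSkew A) (a b : Fin 3) :
    lamD A a b = -2 * ∑ c, (epsZ c b a : ℝ) * dotM (Rq c) A := by
  have h : ∀ i j, A i j = - A j i := hA
  have d0 : ∀ i, A i i = 0 := fun i => by linarith [h i i]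
  have h10 := h 1 0
  have h20 := h 2 0
  have h30 := h 3 0
  have h21 := h 2 1
  have h31 := h 3 1
  have h32 := h 3 2
  unfold lamD dotM brM mulM
  fin_cases a <;> fin_cases b <;>
    simp [Fin.sum_univ_four, Rq, epsZ, d0, h10, h20, h30, h21, h31, h32] <;> ring

/-! ### numbers -/

def xZ (k l i j : Fin 4) : ℤ := dZ k i * dZ l j - dZ k j * dZ l i

theorem xZ_sq : ∑ k, ∑ l, ∑ i, ∑ j, xZ k l i j * xZ k l i j = 24 := by decide +kernel

theorem xZ_Jp : ∀ a b : Fin 3, ∑ k, ∑ l, ∑ i, ∑ j, xZ k l i j * (JpZ a k l * JpZ b i j) =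
    if a = b then 8 else 0 := by decide +kernel

theorem Jp_Jp : ∀ a b : Fin 3, ∑ k, ∑ l, JpZ a k l * JpZ b k l = if a = b then 4 else 0 := by
  decide +kernel

theorem Jm_Jm : ∀ a b : Fin 3, ∑ k, ∑ l, JmZ a k l * JmZ b k l = if a = b then 4 else 0 := by
  decide +kernel

theorem Jm_Jp : ∀ a b : Fin 3, ∑ k, ∑ l, JmZ a k l * JpZ b k l = 0 := by
  decide +kernel

theorem xZ_Jm : ∀ (a : Fin 3) (k l : Fin 4), ∑ i, ∑ j, JmZ a i j * xZ k l i j = 2 * JmZ a k l := by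
  decide +kernel

theorem idM_eq (i j : Fin 4) : idM i j = (dZ i j : ℝ) := by
  unfold idM dZ
  split_ifs <;> simp

theorem dotM_curv {kap : ℝ} {A : Fin 4 → Fin 4 → Mat4} {w : Fin 3 → Fin 3 → ℝ}
    (h : HFCurv kap A w) (c : Fin 3) (k l : Fin 4) :
    dotM (Rq c) (A k l) = - (kap / 2) * (JmZ c k l : ℝ) := by
  have h1 := xZ_Jm c k l
  have h1' : (∑ i, ∑ j, (JmZ c i j : ℝ) * (xZ k l i j : ℝ)) = 2 * (JmZ c k l : ℝ) := by
    have := congrArg (fun z : ℤ => (z : ℝ)) h1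
    push_cast at this
    exact this
  have h2' : ∀ b, (∑ i, ∑ j, (JmZ c i j : ℝ) * (JpZ b i j : ℝ)) = 0 := by
    intro b
    have := congrArg (fun z : ℤ => (z : ℝ)) (Jm_Jp c b)
    push_cast at this
    exact this
  have e : ∀ i j, Rq c i j * A k l i j = -kap * ((JmZ c i j : ℝ) * (xZ k l i j : ℝ)) -
      (1 / 2) * ∑ a, ∑ b, (w a b * Jp a k l) * ((JmZ c i j : ℝ) * (JpZ b i j : ℝ)) := by
    intro i j
    rw [h.2.2 k l i j, WZ3.Rq_eq, idM_eq, idM_eq, idM_eq, idM_eq]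
    unfold xZ Jp
    push_cast
    simp only [Fin.sum_univ_three]
    ring
  unfold dotM
  simp only [e, Finset.sum_sub_distrib, ← Finset.mul_sum, h1']
  have h3 : ∑ i, ∑ j, ∑ a, ∑ b, (w a b * Jp a k l) * ((JmZ c i j : ℝ) * (JpZ b i j : ℝ)) =
      ∑ a, ∑ b, (w a b * Jp a k l) * ∑ i, ∑ j, (JmZ c i j : ℝ) * (JpZ b i j : ℝ) := by
    simp only [Finset.mul_sum]
    calc ∑ i, ∑ j, ∑ a, ∑ b, (w a b * Jp a k l) * ((JmZ c i j : ℝ) * (JpZ b i j : ℝ))
        = ∑ i, ∑ a, ∑ j, ∑ b, (w a b * Jp a k l) * ((JmZ c i j : ℝ) * (JpZ b i j : ℝ)) :=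
          Finset.sum_congr rfl fun i _ => Finset.sum_comm
      _ = ∑ a, ∑ i, ∑ j, ∑ b, (w a b * Jp a k l) * ((JmZ c i j : ℝ) * (JpZ b i j : ℝ)) :=
          Finset.sum_comm
      _ = ∑ a, ∑ i, ∑ b, ∑ j, (w a b * Jp a k l) * ((JmZ c i j : ℝ) * (JpZ b i j : ℝ)) :=
          Finset.sum_congr rfl fun a _ => Finset.sum_congr rfl fun i _ => Finset.sum_comm
      _ = _ := Finset.sum_congr rfl fun a _ => Finset.sum_comm
  rw [h3]
  simp only [h2', mul_zero, Finset.sum_const_zero]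
  ring

theorem skew_curv {kap : ℝ} {A : Fin 4 → Fin 4 → Mat4} {w : Fin 3 → Fin 3 → ℝ}
    (h : HFCurv kap A w) (k l : Fin 4) : IsSkew (A k l) := by
  intro i j
  rw [h.2.2, h.2.2]
  have : ∀ b, Jp b i j = - Jp b j i := fun b => Jp_skew b i j
  simp only [this]
  simp only [mul_neg, Finset.sum_neg_distrib]
  ring

theorem eps_eps : ∀ c d : Fin 3, ∑ a, ∑ b, epsZ c b a * epsZ d a b = if c = d then -2 else 0 := by
  decide

/-- the quadratic invariant on `L₋` -/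
theorem lam_inv {kap : ℝ} {A : Fin 4 → Fin 4 → Mat4} {w : Fin 3 → Fin 3 → ℝ}
    (h : HFCurv kap A w) :
    ∑ k, ∑ l, ∑ a, ∑ b, lamD (A k l) a b * lamD (A k l) b a = -24 * kap ^ 2 := by
  have e1 : ∀ k l a b, lamD (A k l) a b = kap * ∑ c, (epsZ c b a : ℝ) * (JmZ c k l : ℝ) := by
    intro k l a b
    rw [lamD_eq (skew_curv h k l)]
    simp only [dotM_curv h, Fin.sum_univ_three]
    ring
  have ee : ∀ c d : Fin 3, (∑ a, ∑ b, (epsZ c b a : ℝ) * (epsZ d a b : ℝ)) =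
      if c = d then -2 else 0 := by
    intro c d
    have := congrArg (fun z : ℤ => (z : ℝ)) (eps_eps c d)
    push_cast at this
    rw [this]
  have e2 : ∀ k l, ∑ a, ∑ b, lamD (A k l) a b * lamD (A k l) b a =
      -2 * kap ^ 2 * ∑ c, (JmZ c k l : ℝ) * (JmZ c k l : ℝ) := by
    intro k l
    simp only [e1]
    have e3 : ∑ a, ∑ b, (kap * ∑ c, (epsZ c b a : ℝ) * (JmZ c k l : ℝ)) *
        (kap * ∑ c, (epsZ c a b : ℝ) * (JmZ c k l : ℝ)) =
        kap ^ 2 * ∑ c, ∑ d, (JmZ c k l : ℝ) * (JmZ d k l : ℝ) *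
          ∑ a, ∑ b, (epsZ c b a : ℝ) * (epsZ d a b : ℝ) := by
      simp only [Fin.sum_univ_three]
      ring
    rw [e3]
    simp only [ee]
    simp only [Fin.sum_univ_three]
    simp
    ring
  simp only [e2, ← Finset.mul_sum]
  have e4 : ∑ k, ∑ l, ∑ c, (JmZ c k l : ℝ) * (JmZ c k l : ℝ) = 12 := by
    have h5 : ∑ k, ∑ l, ∑ c, JmZ c k l * JmZ c k l = 12 := by decide +kernel
    have := congrArg (fun z : ℤ => (z : ℝ)) h5
    push_cast at this
    exact this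
  rw [e4]
  ring

/-- the full norm of the curvature -/
theorem norm_curv {kap : ℝ} {A : Fin 4 → Fin 4 → Mat4} {w : Fin 3 → Fin 3 → ℝ}
    (h : HFCurv kap A w) :
    ∑ k, ∑ l, ∑ i, ∑ j, A k l i j ^ 2 = 24 * kap ^ 2 + 4 * ∑ a, ∑ b, w a b ^ 2 := by
  -- sums over quadruples
  have S : ∀ f : Fin 4 → Fin 4 → Fin 4 → Fin 4 → ℝ, ∑ k, ∑ l, ∑ i, ∑ j, f k l i j =
      ∑ x : Fin 4 × Fin 4 × Fin 4 × Fin 4, f x.1 x.2.1 x.2.2.1 x.2.2.2 := by
    intro f
    simp only [Fintype.sum_prod_type]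
  have hx : ∑ x : Fin 4 × Fin 4 × Fin 4 × Fin 4, (xZ x.1 x.2.1 x.2.2.1 x.2.2.2 : ℝ) ^ 2 = 24 := by
    rw [← S (fun k l i j => (xZ k l i j : ℝ) ^ 2)]
    have := congrArg (fun z : ℤ => (z : ℝ)) xZ_sq
    push_cast at this
    simp only [pow_two]
    exact this
  have hxy : ∀ a b, ∑ x : Fin 4 × Fin 4 × Fin 4 × Fin 4, (xZ x.1 x.2.1 x.2.2.1 x.2.2.2 : ℝ) *
      ((JpZ a x.1 x.2.1 : ℝ) * (JpZ b x.2.2.1 x.2.2.2 : ℝ)) = if a = b then 8 else 0 := by
    intro a b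
    rw [← S (fun k l i j => (xZ k l i j : ℝ) * ((JpZ a k l : ℝ) * (JpZ b i j : ℝ)))]
    have := congrArg (fun z : ℤ => (z : ℝ)) (xZ_Jp a b)
    push_cast at this
    exact this
  have hJ : ∀ a b, ∑ k, ∑ l, (JpZ a k l : ℝ) * (JpZ b k l : ℝ) = if a = b then 4 else 0 := by
    intro a b
    have := congrArg (fun z : ℤ => (z : ℝ)) (Jp_Jp a b)
    push_cast at this
    exact this
  have hyy : ∀ a b c d, ∑ x : Fin 4 × Fin 4 × Fin 4 × Fin 4,
      ((JpZ a x.1 x.2.1 : ℝ) * (JpZ b x.2.2.1 x.2.2.2 : ℝ)) *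
      ((JpZ c x.1 x.2.1 : ℝ) * (JpZ d x.2.2.1 x.2.2.2 : ℝ)) =
      (if a = c then 4 else 0) * (if b = d then 4 else 0) := by
    intro a b c d
    rw [← hJ a c, ← hJ b d, ← S (fun k l i j => ((JpZ a k l : ℝ) * (JpZ b i j : ℝ)) *
      ((JpZ c k l : ℝ) * (JpZ d i j : ℝ)))]
    rw [Finset.sum_mul]
    refine Finset.sum_congr rfl fun k _ => ?_
    rw [Finset.sum_mul]
    refine Finset.sum_congr rfl fun l _ => ?_
    rw [Finset.mul_sum]
    refine Finset.sum_congr rfl fun i _ => ?_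
    rw [Finset.mul_sum]
    exact Finset.sum_congr rfl fun j _ => by ring
  rw [S (fun k l i j => A k l i j ^ 2)]
  have e : ∀ x : Fin 4 × Fin 4 × Fin 4 × Fin 4, A x.1 x.2.1 x.2.2.1 x.2.2.2 ^ 2 =
      kap ^ 2 * (xZ x.1 x.2.1 x.2.2.1 x.2.2.2 : ℝ) ^ 2 +
      kap * (∑ a, ∑ b, w a b * ((xZ x.1 x.2.1 x.2.2.1 x.2.2.2 : ℝ) *
        ((JpZ a x.1 x.2.1 : ℝ) * (JpZ b x.2.2.1 x.2.2.2 : ℝ)))) +
      (1 / 4) * ∑ a, ∑ b, ∑ c, ∑ d, (w a b * w c d) *
        (((JpZ a x.1 x.2.1 : ℝ) * (JpZ b x.2.2.1 x.2.2.2 : ℝ)) *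
        ((JpZ c x.1 x.2.1 : ℝ) * (JpZ d x.2.2.1 x.2.2.2 : ℝ))) := by
    intro x
    rw [h.2.2 x.1 x.2.1 x.2.2.1 x.2.2.2, idM_eq, idM_eq, idM_eq, idM_eq]
    have h1 : (xZ x.1 x.2.1 x.2.2.1 x.2.2.2 : ℝ) = (dZ x.1 x.2.2.1 : ℝ) * (dZ x.2.1 x.2.2.2 : ℝ) -
        (dZ x.1 x.2.2.2 : ℝ) * (dZ x.2.1 x.2.2.1 : ℝ) := by
      unfold xZ; push_cast; ring
    rw [← h1]
    have h2 : ∑ a, ∑ b, ∑ c, ∑ d, (w a b * w c d) *
        (((JpZ a x.1 x.2.1 : ℝ) * (JpZ b x.2.2.1 x.2.2.2 : ℝ)) *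
        ((JpZ c x.1 x.2.1 : ℝ) * (JpZ d x.2.2.1 x.2.2.2 : ℝ))) =
        (∑ a, ∑ b, w a b * Jp a x.1 x.2.1 * Jp b x.2.2.1 x.2.2.2) *
        (∑ a, ∑ b, w a b * Jp a x.1 x.2.1 * Jp b x.2.2.1 x.2.2.2) := by
      simp only [Finset.sum_mul, Finset.mul_sum, Jp]
      refine Finset.sum_congr rfl fun a _ => Finset.sum_congr rfl fun b _ =>
        Finset.sum_congr rfl fun c _ => Finset.sum_congr rfl fun d _ => by ring
    have h3 : ∑ a, ∑ b, w a b * ((xZ x.1 x.2.1 x.2.2.1 x.2.2.2 : ℝ) *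
        ((JpZ a x.1 x.2.1 : ℝ) * (JpZ b x.2.2.1 x.2.2.2 : ℝ))) =
        (xZ x.1 x.2.1 x.2.2.1 x.2.2.2 : ℝ) *
        (∑ a, ∑ b, w a b * Jp a x.1 x.2.1 * Jp b x.2.2.1 x.2.2.2) := by
      simp only [Finset.mul_sum, Jp]
      exact Finset.sum_congr rfl fun a _ => Finset.sum_congr rfl fun b _ => by ring
    rw [h2, h3]
    ring
  simp only [e, Finset.sum_add_distrib, ← Finset.mul_sum, hx]
  have h4 : ∑ x : Fin 4 × Fin 4 × Fin 4 × Fin 4, ∑ a, ∑ b,
      w a b * ((xZ x.1 x.2.1 x.2.2.1 x.2.2.2 : ℝ) *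
        ((JpZ a x.1 x.2.1 : ℝ) * (JpZ b x.2.2.1 x.2.2.2 : ℝ))) = 0 := by
    rw [Finset.sum_comm]
    have h5 : ∀ a, ∑ x : Fin 4 × Fin 4 × Fin 4 × Fin 4, ∑ b,
      w a b * ((xZ x.1 x.2.1 x.2.2.1 x.2.2.2 : ℝ) *
        ((JpZ a x.1 x.2.1 : ℝ) * (JpZ b x.2.2.1 x.2.2.2 : ℝ))) = 8 * w a a := by
      intro a
      rw [Finset.sum_comm]
      simp only [← Finset.mul_sum, hxy]
      simp [mul_comm]
    rw [Finset.sum_congr rfl fun a _ => h5 a, ← Finset.mul_sum, Fin.sum_univ_three, h.2.1,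
      mul_zero]
  have h6 : ∑ x : Fin 4 × Fin 4 × Fin 4 × Fin 4, ∑ a, ∑ b, ∑ c, ∑ d, (w a b * w c d) *
        (((JpZ a x.1 x.2.1 : ℝ) * (JpZ b x.2.2.1 x.2.2.2 : ℝ)) *
        ((JpZ c x.1 x.2.1 : ℝ) * (JpZ d x.2.2.1 x.2.2.2 : ℝ))) =
        16 * ∑ a, ∑ b, w a b ^ 2 := by
    calc _ = ∑ a, ∑ x : Fin 4 × Fin 4 × Fin 4 × Fin 4, ∑ b, ∑ c, ∑ d, (w a b * w c d) *
        (((JpZ a x.1 x.2.1 : ℝ) * (JpZ b x.2.2.1 x.2.2.2 : ℝ)) *
        ((JpZ c x.1 x.2.1 : ℝ) * (JpZ d x.2.2.1 x.2.2.2 : ℝ))) := Finset.sum_comm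
      _ = ∑ a, ∑ b, ∑ x : Fin 4 × Fin 4 × Fin 4 × Fin 4, ∑ c, ∑ d, (w a b * w c d) *
        (((JpZ a x.1 x.2.1 : ℝ) * (JpZ b x.2.2.1 x.2.2.2 : ℝ)) *
        ((JpZ c x.1 x.2.1 : ℝ) * (JpZ d x.2.2.1 x.2.2.2 : ℝ))) :=
          Finset.sum_congr rfl fun a _ => Finset.sum_comm
      _ = ∑ a, ∑ b, ∑ c, ∑ x : Fin 4 × Fin 4 × Fin 4 × Fin 4, ∑ d, (w a b * w c d) *
        (((JpZ a x.1 x.2.1 : ℝ) * (JpZ b x.2.2.1 x.2.2.2 : ℝ)) *
        ((JpZ c x.1 x.2.1 : ℝ) * (JpZ d x.2.2.1 x.2.2.2 : ℝ))) :=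
          Finset.sum_congr rfl fun a _ => Finset.sum_congr rfl fun b _ => Finset.sum_comm
      _ = ∑ a, ∑ b, ∑ c, ∑ d, (w a b * w c d) * ((if a = c then 4 else 0) *
          (if b = d then 4 else 0)) := by
          refine Finset.sum_congr rfl fun a _ => Finset.sum_congr rfl fun b _ =>
            Finset.sum_congr rfl fun c _ => ?_
          rw [Finset.sum_comm]
          refine Finset.sum_congr rfl fun d _ => ?_
          rw [← Finset.mul_sum, hyy]
      _ = _ := by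
          rw [Finset.mul_sum]
          refine Finset.sum_congr rfl fun a _ => ?_
          rw [Finset.mul_sum]
          refine Finset.sum_congr rfl fun b _ => ?_
          simp only [mul_ite, mul_zero, ite_mul, zero_mul, Finset.sum_ite_eq, Finset.mem_univ,
            if_true]
          ring
  rw [h4, h6]
  ring

/-! ### assembly -/

theorem trOmP_sum [FiniteDimensional ℝ W] {n : ℕ} (R : Rep W) (P : Fin n → W →L[ℝ] W)
    (hP : ∀ x, ∑ t, P t x = x) (A : Fin 4 → Fin 4 → Mat4) :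
    ∑ t, trOmP R (P t) A = trOm R A := by
  unfold trOmP trOm
  rw [Finset.sum_comm]
  refine Finset.sum_congr rfl fun k _ => ?_
  rw [Finset.sum_comm]
  refine Finset.sum_congr rfl fun l _ => ?_
  rw [← map_sum]
  congr 1
  refine LinearMap.ext fun x => ?_
  rw [LinearMap.sum_apply]
  exact hP _

theorem trace_lam {A : Mat4} (hA : IsSkew A) :
    LinearMap.trace ℝ _ ((Rep.lam.d A).comp (Rep.lam.d A)).toLinearMap =
      ∑ a, ∑ b, lamD A a b * lamD A b a := by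
  rw [LinearMap.trace_eq_sum_inner _ (EuclideanSpace.basisFun (Fin 3) ℝ)]
  refine Finset.sum_congr rfl fun a _ => ?_
  rw [EuclideanSpace.basisFun_apply, EuclideanSpace.inner_single_left]
  change _ * (Rep.lam.d A (Rep.lam.d A (EuclideanSpace.single a 1))) a = _
  rw [Rep.lam_d hA]
  simp only [Rep.lam_d hA]
  simp

theorem lamD_diag {A : Mat4} (hA : IsSkew A) (a : Fin 3) : lamD A a a = 0 := by
  rw [lamD_eq hA]
  fin_cases a <;> simp [epsZ]

theorem mHd_diag {A : Mat4} (hA : IsSkew A) (k : Fin 4) : mHd A k k = 0 := by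
  refine Fin.cases rfl (fun k => ?_) k
  rw [mHd_succ_succ]
  exact lamD_diag hA k

theorem mHd_sq (A : Mat4) : ∑ k, ∑ j, mHd A k j * mHd A j k =
    ∑ a, ∑ b, lamD A a b * lamD A b a := by
  rw [Fin.sum_univ_succ]
  simp only [mHd_zero_left, zero_mul, Finset.sum_const_zero, zero_add]
  refine Finset.sum_congr rfl fun a _ => ?_
  rw [Fin.sum_univ_succ]
  simp

theorem skew_diag {A : Mat4} (hA : IsSkew A) (k : Fin 4) : A k k = 0 := by
  have := hA k k
  linarith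

theorem skew_sq {A : Mat4} (hA : IsSkew A) : ∑ k, ∑ j, A k j * A j k = - ∑ i, ∑ j, A i j ^ 2 := by
  rw [← Finset.sum_neg_distrib]
  refine Finset.sum_congr rfl fun i _ => ?_
  rw [← Finset.sum_neg_distrib]
  refine Finset.sum_congr rfl fun j _ => ?_
  rw [hA j i]
  ring

theorem wz5 : WZ5Stmt := by
  intro kap A w h
  have hs := skew_curv h
  have h3 := norm_curv h
  have hl := lam_inv h
  have t1 : ∀ k l, LinearMap.trace ℝ _
      ((Rep.triv.tn.d (A k l)).comp (Rep.triv.tn.d (A k l))).toLinearMap =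
      - ∑ i, ∑ j, A k l i j ^ 2 := by
    intro k l
    rw [trace_sq (A k l) (Rep.triv.d (A k l)) _ (fun w k' => Rep.triv.tn_d (hs k l) w k')
      (skew_diag (hs k l)), skew_sq (hs k l)]
    simp
  have t2 : ∀ k l, LinearMap.trace ℝ _
      ((Rep.triv.hq.d (A k l)).comp (Rep.triv.hq.d (A k l))).toLinearMap =
      ∑ a, ∑ b, lamD (A k l) a b * lamD (A k l) b a := by
    intro k l
    rw [trace_sq (mHd (A k l)) (Rep.triv.d (A k l)) _ (fun w k' => Rep.triv.hq_d (hs k l) w k')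
      (mHd_diag (hs k l)), mHd_sq]
    simp
  have t3 : ∀ k l, LinearMap.trace ℝ _
      ((Rep.lam.tn.d (A k l)).comp (Rep.lam.tn.d (A k l))).toLinearMap =
      - 3 * ∑ i, ∑ j, A k l i j ^ 2 + 4 * ∑ a, ∑ b, lamD (A k l) a b * lamD (A k l) b a := by
    intro k l
    rw [trace_sq (A k l) (Rep.lam.d (A k l)) _ (fun w k' => Rep.lam.tn_d (hs k l) w k')
      (skew_diag (hs k l)), skew_sq (hs k l), trace_lam (hs k l), finrank_euclideanSpace_fin]
    push_cast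
    ring
  have t4 : ∀ k l, LinearMap.trace ℝ _
      ((Rep.lam.hq.d (A k l)).comp (Rep.lam.hq.d (A k l))).toLinearMap =
      7 * ∑ a, ∑ b, lamD (A k l) a b * lamD (A k l) b a := by
    intro k l
    rw [trace_sq (mHd (A k l)) (Rep.lam.d (A k l)) _ (fun w k' => Rep.lam.hq_d (hs k l) w k')
      (mHd_diag (hs k l)), mHd_sq, trace_lam (hs k l), finrank_euclideanSpace_fin]
    push_cast
    ring
  refine ⟨?_, ?_, h3⟩
  · rw [trOmP_sum Rep.triv.hq prR WZ3.prR_sum]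
    unfold trOm
    simp only [t1, t2]
    rw [hl]
    simp only [Finset.sum_neg_distrib]
    rw [h3]
    ring
  · rw [trOmP_sum Rep.lam.hq prL WZ3.prL_sum]
    unfold trOm
    simp only [t3, t4, Finset.sum_add_distrib, ← Finset.mul_sum]
    rw [hl, h3]
    ring

end

end Vale.Agent.P211.HK.WZ5
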