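import Vale.Agent.P211.HK.IX3
import Vale.Agent.P211.HK.WZPr
import Vale.Agent.P211.HK.WZTr
import Vale.Agent.P211.HK.WZ4
import Vale.Agent.P211.HK.WZ6

/-! P211 / HK, block IX (helper69): `IXStmt` from `HKMainStmt` alone. -/

set_option maxSynthPendingDepth 3
set_option linter.unusedSectionVars false

namespace Vale.Agent.P211.HK.IX

open scoped Manifold ContDiff Topology RealInnerProductSpace
open Bundle Filter VectorField MeasureTheory Vale.Agent.P211 Vale.Agent.P211.HK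

noncomputable section

section wz0

variable {E : Type} [NormedAddCommGroup E] [NormedSpace ℝ E] [FiniteDimensional ℝ E]
  {M : Type} [TopologicalSpace M] [ChartedSpace E M] [IsManifold 𝓘(ℝ, E) ∞ M] [T2Space M]
  [RiemannianBundle fun p : M => TangentSpace 𝓘(ℝ, E) p]
  [IsContMDiffRiemannianBundle 𝓘(ℝ, E) ∞ E fun p : M => TangentSpace 𝓘(ℝ, E) p]
  {cov : CovariantDerivative 𝓘(ℝ, E) E (TangentSpace 𝓘(ℝ, E) : M → Type)}
  {om : Form4 E M}

theorem wMinus_of [PreconnectedSpace M] (hG : Geo4 cov om) {lam : ℝ}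
    (h : NN.WPlusZero cov lam (-om)) : WMinus cov lam om := by
  intro p F hF h0
  have : CompleteSpace E := FiniteDimensional.complete ℝ E
  have hs := Geom.algCurv_rr (G := geomOf hG.lc hG.dim) p F
  let F' : Fin 4 → NN.SmoothField E M := fun i => F (Equiv.swap (2 : Fin 4) 3 i)
  have h1 : NN.OrthonormalAt F' p :=
    Orthonormal.comp (v := fun i => F i p) hF _ (Equiv.swap (2 : Fin 4) 3).injective
  have h2 : 0 < (-om) p (fun i => F' i p) := by
    have h3 : om p (fun i => F' i p) = - om p (fun i => F i p) := by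
      have := (om p).map_swap (fun i => F i p) (i := 2) (j := 3) (by decide)
      exact this
    have h4 : (-om) p (fun i => F' i p) = - om p (fun i => F' i p) := rfl
    rw [h4, h3, neg_neg]
    exact h0
  have h5 := h p F' h1 h2
  have e0 : F' 0 = F 0 := rfl
  have e1 : F' 1 = F 1 := rfl
  have e2 : F' 2 = F 3 := rfl
  have e3 : F' 3 = F 2 := rfl
  rw [e0, e1, e2, e3, H555.rm_eq hG.lc, H555.rm_eq hG.lc, H555.rm_eq hG.lc] at h5
  rw [H555.rm_eq hG.lc, H555.rm_eq hG.lc, H555.rm_eq hG.lc]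
  have k1 : (lcOf hG.lc).Rm (F 0) (F 1) (F 3) (F 2) p = - (lcOf hG.lc).Rm (F 0) (F 1) (F 2) (F 3) p :=
    hs.anti34 0 1 3 2
  have k2 : (lcOf hG.lc).Rm (F 2) (F 3) (F 3) (F 2) p = (lcOf hG.lc).Rm (F 3) (F 2) (F 2) (F 3) p :=
    hs.pair 2 3 3 2
  rw [k1, k2]
  linarith

/-- WZ0 -/
theorem wz0 : WZ0Stmt cov om := by
  intro hG hc kap hR hW p f hf
  exact exists_hfCurv hG hR (wMinus_of hG hW) p f hf

end wz0

section final

open Vale.Agent.P231 (riemVol)

variable {E : Type} [NormedAddCommGroup E] [NormedSpace ℝ E] [FiniteDimensional ℝ E]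
  {M : Type} [MetricSpace M] [ChartedSpace E M] [IsManifold 𝓘(ℝ, E) ∞ M]
  [RiemannianBundle fun p : M => TangentSpace 𝓘(ℝ, E) p]
  [IsContMDiffRiemannianBundle 𝓘(ℝ, E) ∞ E fun p : M => TangentSpace 𝓘(ℝ, E) p]
  [IsRiemannianManifold 𝓘(ℝ, E) M] [CompactSpace M] [ConnectedSpace M]
  [MeasurableSpace M] [BorelSpace M]

/-- **IX**, from the heat kernel part. -/
theorem ix (cov : CovariantDerivative 𝓘(ℝ, E) E (TangentSpace 𝓘(ℝ, E) : M → Type))
    (om : Form4 E M) (lam : ℝ) (HK : HKMainStmt cov om (riemVol 4 M)) : IXStmt cov om lam :=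
  ix_of HK wz0 (wz1 cov om) (wz2 cov om _) WZ3.wz3 wz4 WZ5.wz5 WZ6.wz6

end final

end

end Vale.Agent.P211.HK.IX
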