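import Vale.Agent.P231.Bd3.B1
import Mathlib.Analysis.SpecialFunctions.Trigonometric.Sinc

/-! P211 / HK, block ISOE (helper271): the metric end of the isometry theorems. From maps `Z₁`, `Z₂`
into Euclidean spaces which are explicit along geodesics to the distance formula of a product of two
spheres. No Jacobi fields. -/

set_option maxSynthPendingDepth 3
set_option linter.unusedSectionVars false

namespace Vale.Agent.P211.HK

open Filter Topology Set Module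
open scoped RealInnerProductSpace

noncomputable section

/-! ### elementary facts on great circles -/

section circle

variable {W : Type*} [NormedAddCommGroup W] [InnerProductSpace ℝ W]

/-- the point at parameter one of the great circle through `z` with initial velocity `a` -/
def gc (z a : W) : W := Real.cos ‖a‖ • z + Real.sinc ‖a‖ • a

theorem gc_inner {z a : W} (hz : ‖z‖ = 1) (ha : ⟪a, z⟫ = 0) : ⟪z, gc z a⟫ = Real.cos ‖a‖ := by
  have ha' : ⟪z, a⟫ = 0 := by rw [real_inner_comm]; exact ha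
  unfold gc
  rw [inner_add_right, real_inner_smul_right, real_inner_smul_right, real_inner_self_eq_norm_sq,
    hz, ha']
  ring

theorem gc_inj {z a b : W} (hz : ‖z‖ = 1) (ha : ⟪a, z⟫ = 0) (hb : ⟪b, z⟫ = 0)
    (ha1 : ‖a‖ < Real.pi) (hb1 : ‖b‖ < Real.pi) (h : gc z a = gc z b) : a = b := by
  have h1 : Real.cos ‖a‖ = Real.cos ‖b‖ := by
    rw [← gc_inner hz ha, ← gc_inner hz hb, h]
  have h2 : ‖a‖ = ‖b‖ :=
    Real.injOn_cos ⟨norm_nonneg a, ha1.le⟩ ⟨norm_nonneg b, hb1.le⟩ h1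
  have h3 : Real.sinc ‖a‖ ≠ 0 := by
    rcases eq_or_ne ‖a‖ 0 with h0 | h0
    · rw [h0, Real.sinc_zero]; exact one_ne_zero
    · rw [Real.sinc_of_ne_zero h0]
      have hp : 0 < ‖a‖ := lt_of_le_of_ne (norm_nonneg a) (Ne.symm h0)
      exact div_ne_zero (Real.sin_pos_of_pos_of_lt_pi hp ha1).ne' h0
  unfold gc at h
  rw [← h2] at h
  have h4 := add_left_cancel h
  exact smul_right_injective W h3 h4

theorem gc_pi {z a : W} (ha : ‖a‖ = Real.pi) : gc z a = -z := by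
  unfold gc
  rw [ha, Real.cos_pi, Real.sinc_of_ne_zero Real.pi_ne_zero, Real.sin_pi, zero_div, zero_smul,
    add_zero, neg_one_smul]

/-- every unit vector is reached, if there is a unit vector orthogonal to `z` -/
theorem gc_surj {z : W} (hz : ‖z‖ = 1) {n : W} (hn : ‖n‖ = 1) (hnz : ⟪n, z⟫ = 0) {y : W}
    (hy : ‖y‖ = 1) : ∃ a : W, ⟪a, z⟫ = 0 ∧ gc z a = y := by
  set c : ℝ := ⟪y, z⟫ with hc
  have hc1 : |c| ≤ 1 := by
    have := abs_real_inner_le_norm y z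
    rwa [hy, hz, one_mul] at this
  obtain ⟨hcl, hcr⟩ := abs_le.1 hc1
  set b : W := y - c • z with hb
  have hbz : ⟪b, z⟫ = 0 := by
    rw [hb, inner_sub_left, real_inner_smul_left, real_inner_self_eq_norm_sq, hz]
    rw [hc]; ring
  have hy2 : y = c • z + b := by rw [hb]; abel
  have hbn : ‖b‖ ^ 2 = 1 - c ^ 2 := by
    have h1 : ‖y‖ ^ 2 = c ^ 2 + ‖b‖ ^ 2 := by
      conv_lhs => rw [hy2]
      rw [@norm_add_sq ℝ, norm_smul, hz]
      have : ⟪c • z, b⟫ = 0 := by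
        rw [real_inner_smul_left, real_inner_comm, hbz, mul_zero]
      rw [show RCLike.re ⟪c • z, b⟫ = ⟪c • z, b⟫ from rfl, this]
      simp
    rw [hy] at h1
    linarith
  set θ := Real.arccos c with hθ
  have hcos : Real.cos θ = c := Real.cos_arccos hcl hcr
  have hθ0 : 0 ≤ θ := Real.arccos_nonneg c
  have hθπ : θ ≤ Real.pi := Real.arccos_le_pi c
  have hsin : Real.sin θ = ‖b‖ := by
    have h1 : 0 ≤ Real.sin θ := Real.sin_nonneg_of_nonneg_of_le_pi hθ0 hθπ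
    have h2 : Real.sin θ ^ 2 = ‖b‖ ^ 2 := by
      rw [hbn, Real.sin_sq, hcos]
    exact (pow_left_inj₀ h1 (norm_nonneg b) two_ne_zero).1 h2
  rcases eq_or_ne b 0 with h0 | h0
  · -- `y = ± z`
    have hθ2 : Real.sin θ = 0 := by rw [hsin, h0, norm_zero]
    refine ⟨θ • n, by rw [real_inner_smul_left, hnz, mul_zero], ?_⟩
    have hnn : ‖θ • n‖ = θ := by rw [norm_smul, hn, mul_one, Real.norm_eq_abs, abs_of_nonneg hθ0]
    unfold gc
    rw [hnn, hcos, hy2, h0]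
    rcases eq_or_ne θ 0 with h1 | h1
    · rw [h1]; simp
    · rw [Real.sinc_of_ne_zero h1, hθ2]; simp
  · have hbp : 0 < ‖b‖ := norm_pos_iff.2 h0
    have hθne : θ ≠ 0 := by
      intro h1
      rw [h1, Real.sin_zero] at hsin
      exact hbp.ne hsin
    refine ⟨(θ / ‖b‖) • b, by rw [real_inner_smul_left, hbz, mul_zero], ?_⟩
    have hnn : ‖(θ / ‖b‖) • b‖ = θ := by
      rw [norm_smul, Real.norm_eq_abs, abs_of_nonneg (by positivity)]
      field_simp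
    unfold gc
    rw [hnn, hcos, Real.sinc_of_ne_zero hθne, hsin, smul_smul]
    conv_rhs => rw [hy2]
    congr 1
    have : ‖b‖ / θ * (θ / ‖b‖) = 1 := by field_simp
    rw [this, one_smul]

theorem exists_unit_orth [FiniteDimensional ℝ W] (h : 2 ≤ finrank ℝ W) (z : W) :
    ∃ n : W, ‖n‖ = 1 ∧ ⟪n, z⟫ = 0 := by
  have h1 : finrank ℝ (ℝ ∙ z) ≤ 1 := by
    rcases eq_or_ne z 0 with h0 | h0
    · rw [h0, Submodule.span_zero_singleton, finrank_bot]; exact Nat.zero_le 1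
    · exact (finrank_span_singleton h0).le
  have h2 := Submodule.finrank_add_finrank_orthogonal (ℝ ∙ z)
  have h3 : (ℝ ∙ z)ᗮ ≠ ⊥ := by
    intro h4
    rw [h4, finrank_bot] at h2
    omega
  obtain ⟨u, hu, hu0⟩ := Submodule.exists_mem_ne_zero_of_ne_bot h3
  have hun : ‖u‖ ≠ 0 := norm_ne_zero_iff.2 hu0
  refine ⟨‖u‖⁻¹ • u, ?_, ?_⟩
  · rw [norm_smul, norm_inv, norm_norm, inv_mul_cancel₀ hun]
  · rw [real_inner_smul_left, Submodule.mem_orthogonal_singleton_iff_inner_left.1 hu, mul_zero]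

end circle

/-! ### the abstract theorem -/

section core

variable {M : Type*} [MetricSpace M] {T : M → Type*} [∀ x, NormedAddCommGroup (T x)]
  [∀ x, InnerProductSpace ℝ (T x)] [∀ x, FiniteDimensional ℝ (T x)]
  {W₁ W₂ : Type*} [NormedAddCommGroup W₁] [InnerProductSpace ℝ W₁] [FiniteDimensional ℝ W₁]
  [NormedAddCommGroup W₂] [InnerProductSpace ℝ W₂] [FiniteDimensional ℝ W₂]

/-- maps `Z₁`, `Z₂` to unit spheres which send the geodesic `e x (t v)` to pairs of great circles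
with orthogonal splitting of `lam |v|²` -/
structure ZData (e : ∀ x : M, T x → M) (lam : ℝ) (Z₁ : M → W₁) (Z₂ : M → W₂)
    (L₁ : ∀ x : M, T x →ₗ[ℝ] W₁) (L₂ : ∀ x : M, T x →ₗ[ℝ] W₂) : Prop where
  n₁ : ∀ x, ‖Z₁ x‖ = 1
  n₂ : ∀ x, ‖Z₂ x‖ = 1
  o₁ : ∀ x v, ⟪L₁ x v, Z₁ x⟫ = 0
  o₂ : ∀ x v, ⟪L₂ x v, Z₂ x⟫ = 0
  sq : ∀ x v, ‖L₁ x v‖ ^ 2 + ‖L₂ x v‖ ^ 2 = lam * ‖v‖ ^ 2
  g₁ : ∀ x v, Z₁ (e x v) = gc (Z₁ x) (L₁ x v)
  g₂ : ∀ x v, Z₂ (e x v) = gc (Z₂ x) (L₂ x v)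

variable {e : ∀ x : M, T x → M} {lam : ℝ} {Z₁ : M → W₁} {Z₂ : M → W₂}
  {L₁ : ∀ x : M, T x →ₗ[ℝ] W₁} {L₂ : ∀ x : M, T x →ₗ[ℝ] W₂}

theorem ZData.swap (D : ZData e lam Z₁ Z₂ L₁ L₂) : ZData e lam Z₂ Z₁ L₂ L₁ :=
  ⟨D.n₂, D.n₁, D.o₂, D.o₁, fun x v => by rw [add_comm]; exact D.sq x v, D.g₂, D.g₁⟩

theorem ZData.inj (D : ZData e lam Z₁ Z₂ L₁ L₂) (hlam : 0 < lam) {x : M} {v w : T x}
    (h1 : L₁ x v = L₁ x w) (h2 : L₂ x v = L₂ x w) : v = w := by
  have h := D.sq x (v - w)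
  rw [map_sub, map_sub, h1, h2, sub_self, sub_self, norm_zero, norm_zero] at h
  have h3 : ‖v - w‖ ^ 2 = 0 := by
    have : lam * ‖v - w‖ ^ 2 = 0 := by rw [← h]; ring
    rcases mul_eq_zero.1 this with h4 | h4
    · exact absurd h4 hlam.ne'
    · exact h4
  exact sub_eq_zero.1 (norm_eq_zero.1 (pow_eq_zero_iff two_ne_zero |>.1 h3))

/-- the pair of maps is injective near every point -/
theorem ZData.locInj (D : ZData e lam Z₁ Z₂ L₁ L₂) (hlam : 0 < lam)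
    (hopf : ∀ x y : M, ∃ v : T x, e x v = y ∧ dist x y = ‖v‖) (x : M) :
    ∃ r : ℝ, 0 < r ∧ ∀ y z : M, dist x y < r → dist x z < r → Z₁ y = Z₁ z → Z₂ y = Z₂ z →
      y = z := by
  refine ⟨Real.pi / Real.sqrt lam, by positivity, fun y z hy hz h1 h2 => ?_⟩
  obtain ⟨v, hv, hvd⟩ := hopf x y
  obtain ⟨w, hw, hwd⟩ := hopf x z
  have bd : ∀ u : T x, ‖u‖ < Real.pi / Real.sqrt lam → ‖L₁ x u‖ < Real.pi ∧ ‖L₂ x u‖ < Real.pi := by
    intro u hu
    have h3 := D.sq x u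
    have h4 : lam * ‖u‖ ^ 2 < Real.pi ^ 2 := by
      have h5 : ‖u‖ ^ 2 < (Real.pi / Real.sqrt lam) ^ 2 :=
        pow_lt_pow_left₀ hu (norm_nonneg u) two_ne_zero
      rw [div_pow, Real.sq_sqrt hlam.le, lt_div_iff₀ hlam] at h5
      linarith
    constructor
    · refine lt_of_pow_lt_pow_left₀ 2 Real.pi_pos.le ?_
      have := sq_nonneg ‖L₂ x u‖
      linarith
    · refine lt_of_pow_lt_pow_left₀ 2 Real.pi_pos.le ?_
      have := sq_nonneg ‖L₁ x u‖
      linarith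
  obtain ⟨bv1, bv2⟩ := bd v (by rw [← hvd]; exact hy)
  obtain ⟨bw1, bw2⟩ := bd w (by rw [← hwd]; exact hz)
  have e1 : L₁ x v = L₁ x w := by
    refine gc_inj (D.n₁ x) (D.o₁ x v) (D.o₁ x w) bv1 bw1 ?_
    rw [← D.g₁, ← D.g₁, hv, hw, h1]
  have e2 : L₂ x v = L₂ x w := by
    refine gc_inj (D.n₂ x) (D.o₂ x v) (D.o₂ x w) bv2 bw2 ?_
    rw [← D.g₂, ← D.g₂, hv, hw, h2]
  rw [← hv, ← hw, D.inj hlam e1 e2]

/-- the pair of linear maps is onto the product of the orthogonal complements -/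
theorem ZData.onto (D : ZData e lam Z₁ Z₂ L₁ L₂) (hlam : 0 < lam) {x : M}
    (hd : finrank ℝ (T x) + 2 = finrank ℝ W₁ + finrank ℝ W₂) {a : W₁} {b : W₂}
    (ha : ⟪a, Z₁ x⟫ = 0) (hb : ⟪b, Z₂ x⟫ = 0) : ∃ v : T x, L₁ x v = a ∧ L₂ x v = b := by
  have hz1 : Z₁ x ≠ 0 := fun h => by
    have := D.n₁ x
    rw [h, norm_zero] at this
    exact one_ne_zero this.symm
  have hz2 : Z₂ x ≠ 0 := fun h => by
    have := D.n₂ x
    rw [h, norm_zero] at this
    exact one_ne_zero this.symm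
  have hf1 : finrank ℝ ((ℝ ∙ Z₁ x)ᗮ : Submodule ℝ W₁) + 1 = finrank ℝ W₁ := by
    have h := Submodule.finrank_add_finrank_orthogonal (ℝ ∙ Z₁ x)
    rw [finrank_span_singleton hz1] at h
    omega
  have hf2 : finrank ℝ ((ℝ ∙ Z₂ x)ᗮ : Submodule ℝ W₂) + 1 = finrank ℝ W₂ := by
    have h := Submodule.finrank_add_finrank_orthogonal (ℝ ∙ Z₂ x)
    rw [finrank_span_singleton hz2] at h
    omega
  have m1 : ∀ v, L₁ x v ∈ (ℝ ∙ Z₁ x)ᗮ := fun v =>
    Submodule.mem_orthogonal_singleton_iff_inner_left.2 (D.o₁ x v)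
  have m2 : ∀ v, L₂ x v ∈ (ℝ ∙ Z₂ x)ᗮ := fun v =>
    Submodule.mem_orthogonal_singleton_iff_inner_left.2 (D.o₂ x v)
  let f : T x →ₗ[ℝ] ((ℝ ∙ Z₁ x)ᗮ : Submodule ℝ W₁) × ((ℝ ∙ Z₂ x)ᗮ : Submodule ℝ W₂) :=
    ((L₁ x).codRestrict _ m1).prod ((L₂ x).codRestrict _ m2)
  have hfr : finrank ℝ (T x) = finrank ℝ (((ℝ ∙ Z₁ x)ᗮ : Submodule ℝ W₁) ×
      ((ℝ ∙ Z₂ x)ᗮ : Submodule ℝ W₂)) := by
    rw [Module.finrank_prod]
    omega
  have hinj : Function.Injective f := by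
    intro v w h
    have h1 := congrArg (fun t => (t.1 : W₁)) h
    have h2 := congrArg (fun t => (t.2 : W₂)) h
    exact D.inj hlam h1 h2
  obtain ⟨v, hv⟩ := (LinearMap.injective_iff_surjective_of_finrank_eq_finrank hfr).1 hinj
    (⟨a, Submodule.mem_orthogonal_singleton_iff_inner_left.2 ha⟩,
      ⟨b, Submodule.mem_orthogonal_singleton_iff_inner_left.2 hb⟩)
  refine ⟨v, ?_, ?_⟩
  · exact congrArg (fun t => (t.1 : W₁)) hv
  · exact congrArg (fun t => (t.2 : W₂)) hv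

/-- what is used of the exponential map -/
structure EData (e : ∀ x : M, T x → M) : Prop where
  cont : ∀ x, Continuous (e x)
  hopf : ∀ x y : M, ∃ v : T x, e x v = y ∧ dist x y = ‖v‖
  uniq : ∀ (x : M) (v w : T x) (t : ℝ), dist x (e x v) = ‖v‖ → 0 < t → t < 1 → ‖w‖ = ‖v‖ →
    e x (t • w) = e x (t • v) → w = v

/-- minimal geodesics do not run through the antipode -/
theorem ZData.le_pi (X : EData e) (D : ZData e lam Z₁ Z₂ L₁ L₂) (hlam : 0 < lam)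
    (hd : ∀ x : M, finrank ℝ (T x) + 2 = finrank ℝ W₁ + finrank ℝ W₂) (h2 : finrank ℝ W₁ ≠ 2)
    {x : M} {v : T x} (hv : dist x (e x v) = ‖v‖) : ‖L₁ x v‖ ≤ Real.pi := by
  by_contra hcon
  rw [not_le] at hcon
  set a := L₁ x v with ha
  have hap : 0 < ‖a‖ := Real.pi_pos.trans hcon
  have ha0 : a ≠ 0 := norm_pos_iff.1 hap
  have haz : ⟪a, Z₁ x⟫ = 0 := D.o₁ x v
  have hz1 : Z₁ x ≠ 0 := fun h => by
    have := D.n₁ x
    rw [h, norm_zero] at this
    exact one_ne_zero this.symm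
  -- a vector orthogonal to `a` and `Z₁ x`
  obtain ⟨u, hu0, hua, huz⟩ : ∃ u : W₁, u ≠ 0 ∧ ⟪u, a⟫ = 0 ∧ ⟪u, Z₁ x⟫ = 0 := by
    by_contra hno
    push Not at hno
    have hbot : (Submodule.span ℝ {a, Z₁ x})ᗮ = ⊥ := by
      rw [Submodule.eq_bot_iff]
      intro u hu
      by_contra hu0
      refine hno u hu0 ?_ ?_
      · exact Submodule.inner_left_of_mem_orthogonal (Submodule.subset_span (by simp)) hu
      · exact Submodule.inner_left_of_mem_orthogonal (Submodule.subset_span (by simp)) hu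
    have htop : (Submodule.span ℝ {a, Z₁ x}) = ⊤ := by
      rwa [Submodule.orthogonal_eq_bot_iff] at hbot
    have hle : finrank ℝ W₁ ≤ 2 := by
      rw [← finrank_top ℝ W₁, ← htop]
      have h3 := finrank_range_le_card (R := ℝ) (b := ![a, Z₁ x])
      have h4 : ({a, Z₁ x} : Set W₁) = Set.range ![a, Z₁ x] := by
        rw [Matrix.range_cons, Matrix.range_cons, Matrix.range_empty, Set.union_empty,
          Set.singleton_union]
      rw [h4]
      exact h3.trans (by simp)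
    have hge : 2 ≤ finrank ℝ W₁ := by
      have hli : LinearIndependent ℝ ![a, Z₁ x] := by
        refine linearIndependent_of_ne_zero_of_inner_eq_zero ?_ ?_
        · intro i
          fin_cases i
          · exact ha0
          · exact hz1
        · intro i j hij
          fin_cases i <;> fin_cases j
          · exact absurd rfl hij
          · exact haz
          · show ⟪Z₁ x, a⟫ = 0
            rw [real_inner_comm]; exact haz
          · exact absurd rfl hij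
      simpa using hli.fintype_card_le_finrank
    exact h2 (le_antisymm hle hge)
  have hun : 0 < ‖u‖ := norm_pos_iff.2 hu0
  set b : W₁ := (‖a‖ / ‖u‖) • u with hb
  have hbz : ⟪b, Z₁ x⟫ = 0 := by rw [hb, real_inner_smul_left, huz, mul_zero]
  have hba : ⟪a, b⟫ = 0 := by
    rw [hb, real_inner_smul_right, real_inner_comm, hua, mul_zero]
  have hbn : ‖b‖ = ‖a‖ := by
    rw [hb, norm_smul, Real.norm_eq_abs, abs_of_nonneg (by positivity)]
    field_simp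
  obtain ⟨v1, hv1, hv1'⟩ := D.onto hlam (hd x) haz (b := 0) (by simp)
  obtain ⟨w1, hw1, hw1'⟩ := D.onto hlam (hd x) hbz (b := 0) (by simp)
  -- the rotated vectors
  let w : ℝ → T x := fun θ => v + (Real.cos θ - 1) • v1 + Real.sin θ • w1
  have hLw1 : ∀ θ, L₁ x (w θ) = Real.cos θ • a + Real.sin θ • b := by
    intro θ
    show L₁ x (v + (Real.cos θ - 1) • v1 + Real.sin θ • w1) = _
    rw [map_add, map_add, map_smul, map_smul, hv1, hw1, ← ha, sub_smul, one_smul]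
    abel
  have hLw2 : ∀ θ, L₂ x (w θ) = L₂ x v := by
    intro θ
    show L₂ x (v + (Real.cos θ - 1) • v1 + Real.sin θ • w1) = _
    rw [map_add, map_add, map_smul, map_smul, hv1', hw1', smul_zero, smul_zero, add_zero,
      add_zero]
  have hLn : ∀ θ, ‖L₁ x (w θ)‖ = ‖a‖ := by
    intro θ
    rw [hLw1]
    have h3 : ‖Real.cos θ • a + Real.sin θ • b‖ ^ 2 = ‖a‖ ^ 2 := by
      rw [@norm_add_sq ℝ, norm_smul, norm_smul, hbn]
      have : RCLike.re ⟪Real.cos θ • a, Real.sin θ • b⟫ = (0 : ℝ) := by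
        show ⟪Real.cos θ • a, Real.sin θ • b⟫ = 0
        rw [real_inner_smul_left, real_inner_smul_right, hba]; ring
      rw [this, mul_pow, mul_pow, Real.norm_eq_abs, Real.norm_eq_abs, sq_abs, sq_abs]
      have := Real.cos_sq_add_sin_sq θ
      linear_combination ‖a‖ ^ 2 * this
    exact (pow_left_inj₀ (norm_nonneg _) (norm_nonneg _) two_ne_zero).1 h3
  have hwn : ∀ θ, ‖w θ‖ = ‖v‖ := by
    intro θ
    have h3 := D.sq x (w θ)
    have h4 := D.sq x v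
    rw [hLn, hLw2, ha, h4] at h3
    have h5 : ‖w θ‖ ^ 2 = ‖v‖ ^ 2 := (mul_left_cancel₀ hlam.ne' h3).symm
    exact (pow_left_inj₀ (norm_nonneg _) (norm_nonneg _) two_ne_zero).1 h5
  have hw0 : w 0 = v := by simp [w]
  have hwc : Continuous w := by
    show Continuous fun θ => v + (Real.cos θ - 1) • v1 + Real.sin θ • w1
    fun_prop
  set t : ℝ := Real.pi / ‖a‖ with ht
  have ht0 : 0 < t := by positivity
  have ht1 : t < 1 := by rw [ht, div_lt_one hap]; exact hcon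
  have hZ1 : ∀ θ, Z₁ (e x (t • w θ)) = -Z₁ x := by
    intro θ
    rw [D.g₁]
    refine gc_pi ?_
    rw [map_smul, norm_smul, hLn, Real.norm_eq_abs, abs_of_pos ht0, ht]
    field_simp
  have hZ2 : ∀ θ, Z₂ (e x (t • w θ)) = Z₂ (e x (t • v)) := by
    intro θ
    rw [D.g₂, D.g₂, map_smul, map_smul, hLw2]
  obtain ⟨r, hr, hri⟩ := D.locInj hlam X.hopf (e x (t • v))
  have hcont : Tendsto (fun θ => dist (e x (t • v)) (e x (t • w θ))) (𝓝 0) (𝓝 0) := by
    have h3 : Continuous fun θ => dist (e x (t • v)) (e x (t • w θ)) :=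
      continuous_const.dist ((X.cont x).comp (hwc.const_smul t))
    have h4 := h3.tendsto 0
    rwa [hw0, dist_self] at h4
  have hev := hcont.eventually (gt_mem_nhds hr)
  have hev2 : ∀ᶠ θ in 𝓝[≠] (0 : ℝ), w θ = v := by
    filter_upwards [mem_nhdsWithin_of_mem_nhds hev] with θ hθ
    have h3 := hri (e x (t • w θ)) (e x (t • v)) hθ (by rw [dist_self]; exact hr)
      (by rw [hZ1, ← hZ1 0, hw0]) (hZ2 θ)
    exact X.uniq x v (w θ) t hv ht0 ht1 (hwn θ) h3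
  have hev3 : ∀ᶠ θ in 𝓝[≠] (0 : ℝ), Real.sin θ ≠ 0 := by
    have h3 : ∀ᶠ θ in 𝓝 (0 : ℝ), θ ∈ Ioo (-Real.pi) Real.pi :=
      Ioo_mem_nhds (by linarith [Real.pi_pos]) Real.pi_pos
    filter_upwards [mem_nhdsWithin_of_mem_nhds h3, self_mem_nhdsWithin] with θ h4 h5 h6
    exact h5 ((Real.sin_eq_zero_iff_of_lt_of_lt h4.1 h4.2).1 h6)
  obtain ⟨θ, h3, h4⟩ := (hev2.and hev3).exists
  have h5 := hLw1 θ
  rw [h3, ← ha] at h5
  have h6 : ⟪a, b⟫ = Real.sin θ * ‖b‖ ^ 2 := by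
    conv_lhs => rw [h5]
    rw [inner_add_left, real_inner_smul_left, real_inner_smul_left, hba,
      real_inner_self_eq_norm_sq]
    ring
  rw [hba, hbn] at h6
  have h7 : Real.sin θ * ‖a‖ ^ 2 ≠ 0 := mul_ne_zero h4 (pow_ne_zero 2 hap.ne')
  exact h7 h6.symm

/-- the distance formula -/
theorem ZData.dist_sq (X : EData e) (D : ZData e lam Z₁ Z₂ L₁ L₂) (hlam : 0 < lam)
    (hd : ∀ x : M, finrank ℝ (T x) + 2 = finrank ℝ W₁ + finrank ℝ W₂) (h1 : finrank ℝ W₁ ≠ 2)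
    (h2 : finrank ℝ W₂ ≠ 2) (x y : M) :
    lam * dist x y ^ 2 = Real.arccos ⟪Z₁ x, Z₁ y⟫ ^ 2 + Real.arccos ⟪Z₂ x, Z₂ y⟫ ^ 2 := by
  obtain ⟨v, hv, hvd⟩ := X.hopf x y
  have hv' : dist x (e x v) = ‖v‖ := by rw [hv, hvd]
  have b1 := D.le_pi X hlam hd h1 hv'
  have b2 := D.swap.le_pi X hlam (fun x => by rw [hd x, add_comm]) h2 hv'
  rw [← hv, D.g₁, D.g₂, gc_inner (D.n₁ x) (D.o₁ x v), gc_inner (D.n₂ x) (D.o₂ x v),
    Real.arccos_cos (norm_nonneg _) b1, Real.arccos_cos (norm_nonneg _) b2, D.sq x v, hv']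

/-- the pair of maps is injective -/
theorem ZData.injective (X : EData e) (D : ZData e lam Z₁ Z₂ L₁ L₂) (hlam : 0 < lam)
    (hd : ∀ x : M, finrank ℝ (T x) + 2 = finrank ℝ W₁ + finrank ℝ W₂) (h1 : finrank ℝ W₁ ≠ 2)
    (h2 : finrank ℝ W₂ ≠ 2) {x y : M} (e1 : Z₁ x = Z₁ y) (e2 : Z₂ x = Z₂ y) : x = y := by
  have h := D.dist_sq X hlam hd h1 h2 x y
  rw [e1, e2, real_inner_self_eq_norm_sq, real_inner_self_eq_norm_sq, D.n₁, D.n₂] at h
  norm_num at h
  rcases h with h | h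
  · exact absurd h hlam.ne'
  · exact h

/-- the pair of maps is onto the product of the unit spheres -/
theorem ZData.surj (D : ZData e lam Z₁ Z₂ L₁ L₂) (hlam : 0 < lam) [Nonempty M]
    (hd : ∀ x : M, finrank ℝ (T x) + 2 = finrank ℝ W₁ + finrank ℝ W₂) (h1 : 2 ≤ finrank ℝ W₁)
    (h2 : 2 ≤ finrank ℝ W₂) {a : W₁} {b : W₂} (ha : ‖a‖ = 1) (hb : ‖b‖ = 1) :
    ∃ x : M, Z₁ x = a ∧ Z₂ x = b := by
  obtain ⟨x⟩ := ‹Nonempty M›
  obtain ⟨n1, hn1, hn1'⟩ := exists_unit_orth h1 (Z₁ x)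
  obtain ⟨n2, hn2, hn2'⟩ := exists_unit_orth h2 (Z₂ x)
  obtain ⟨a', ha', ha''⟩ := gc_surj (D.n₁ x) hn1 hn1' ha
  obtain ⟨b', hb', hb''⟩ := gc_surj (D.n₂ x) hn2 hn2' hb
  obtain ⟨v, hv1, hv2⟩ := D.onto hlam (hd x) ha' hb'
  exact ⟨e x v, by rw [D.g₁, hv1, ha''], by rw [D.g₂, hv2, hb'']⟩

/-! ### one sphere -/

/-- a map `Z` to a unit sphere which sends geodesics to great circles -/
structure ZData1 (e : ∀ x : M, T x → M) (lam : ℝ) (Z : M → W₁) (L : ∀ x : M, T x →ₗ[ℝ] W₁) :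
    Prop where
  n : ∀ x, ‖Z x‖ = 1
  o : ∀ x v, ⟪L x v, Z x⟫ = 0
  sq : ∀ x v, ‖L x v‖ ^ 2 = lam * ‖v‖ ^ 2
  g : ∀ x v, Z (e x v) = gc (Z x) (L x v)

theorem ZData1.zdata (D : ZData1 e lam Z₁ L₁) :
    ZData e lam Z₁ (fun _ => (1 : ℝ)) L₁ (fun _ => 0) :=
  ⟨D.n, fun _ => by simp, D.o, fun _ _ => by simp, fun x v => by simpa using D.sq x v, D.g,
    fun x v => by simp [gc]⟩

theorem ZData1.dist_eq (X : EData e) (D : ZData1 e lam Z₁ L₁) (hlam : 0 < lam)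
    (hd : ∀ x : M, finrank ℝ (T x) + 1 = finrank ℝ W₁) (h1 : finrank ℝ W₁ ≠ 2) (x y : M) :
    Real.sqrt lam * dist x y = Real.arccos ⟪Z₁ x, Z₁ y⟫ := by
  have h := D.zdata.dist_sq X hlam (fun x => by rw [← hd x]; simp) h1 (by simp) x y
  have h2 : Real.arccos ⟪(1 : ℝ), (1 : ℝ)⟫ = 0 := by simp
  rw [h2] at h
  have h3 : (Real.sqrt lam * dist x y) ^ 2 = Real.arccos ⟪Z₁ x, Z₁ y⟫ ^ 2 := by
    rw [mul_pow, Real.sq_sqrt hlam.le, h]; ring
  exact (pow_left_inj₀ (by positivity) (Real.arccos_nonneg _) two_ne_zero).1 h3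

theorem ZData1.surj (D : ZData1 e lam Z₁ L₁) (hlam : 0 < lam) [Nonempty M]
    (hd : ∀ x : M, finrank ℝ (T x) + 1 = finrank ℝ W₁) (h1 : 2 ≤ finrank ℝ W₁)
    {a : W₁} (ha : ‖a‖ = 1) : ∃ x : M, Z₁ x = a := by
  obtain ⟨x⟩ := ‹Nonempty M›
  obtain ⟨n1, hn1, hn1'⟩ := exists_unit_orth h1 (Z₁ x)
  obtain ⟨a', ha', ha''⟩ := gc_surj (D.n x) hn1 hn1' ha
  obtain ⟨v, hv1, -⟩ := D.zdata.onto hlam (b := 0) (by rw [← hd x]; simp) ha' (by simp)
  exact ⟨e x v, by rw [D.g, hv1, ha'']⟩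

end core

/-! ### closed Riemannian manifolds -/

section facts

open Bundle Manifold Vale.Agent.P234
open scoped ContDiff

variable {E : Type*} [NormedAddCommGroup E] [NormedSpace ℝ E] [FiniteDimensional ℝ E]
  {M : Type*} [MetricSpace M] [ChartedSpace E M]
  [RiemannianBundle (fun x : M => TangentSpace 𝓘(ℝ, E) x)]
  [IsManifold 𝓘(ℝ, E) ∞ M]
  [IsContMDiffRiemannianBundle 𝓘(ℝ, E) ∞ E (fun x : M => TangentSpace 𝓘(ℝ, E) x)]
  [CompactSpace M]
  {e : ∀ x : M, TangentSpace 𝓘(ℝ, E) x → M}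

theorem eData_of_facts (F : Facts e) : EData (T := fun x : M => TangentSpace 𝓘(ℝ, E) x) e where
  cont x := (contMDiff_exp_fiber F.isExp x).continuous
  hopf := F.hopfRinow
  uniq x v w t hv ht0 ht1 hw h := by
    have h1 : t • v ∈ injDomain e x := smul_mem_injDomain F.isExp hv ht0.le ht1
    have h2 : t • v ∈ segMin e x := injDomain_subset_segMin F.isExp x h1
    have h3 : t • w ∈ segMin e x := by
      show dist x (e x (t • w)) = ‖t • w‖
      have h4 : dist x (e x (t • v)) = ‖t • v‖ := h2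
      rw [h, h4, norm_smul, norm_smul, hw]
    have h5 := F.injDomain_unique h1 h3 h
    exact smul_right_injective _ ht0.ne' h5

end facts

end

end Vale.Agent.P211.HK
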