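import Vale.Agent.P211.HK.JacC

/-! P211 / HK / JAC: the differential of the exponential map when the curvature is parallel. -/

set_option maxSynthPendingDepth 3
set_option linter.all false

namespace Vale.Agent.P211.HK.Jac

open scoped Manifold ContDiff Topology
open Bundle Filter VectorField MeasureTheory Set
open Vale.Agent.P234 Vale.Agent.P231 Vale.Agent.P211.S4

noncomputable section

/-- Gronwall, two-sided -/
theorem zero_of_gronwall {f f' : ℝ → ℝ} (hd : ∀ t, HasDerivAt f (f' t) t) (h0 : ∀ t, 0 ≤ f t)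
    {C s : ℝ} (hC : ∀ t, |f' t| ≤ C * f t) (hs : f s = 0) (t : ℝ) : f t = 0 := by
  have hg : ∀ k r : ℝ, HasDerivAt (fun r => f r * Real.exp (k * (r - s)))
      ((f' r + k * f r) * Real.exp (k * (r - s))) r := by
    intro k r
    have h1 : HasDerivAt (fun r : ℝ => Real.exp (k * (r - s))) (Real.exp (k * (r - s)) * k) r := by
      have h2 : HasDerivAt (fun r : ℝ => k * (r - s)) k r := by
        have := ((hasDerivAt_id r).sub_const s).const_mul k
        simpa using this
      exact h2.exp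
    refine ((hd r).fun_mul h1).congr_deriv ?_
    ring
  refine le_antisymm ?_ (h0 t)
  rcases le_total s t with hst | hst
  · have hanti : Antitone (fun r => f r * Real.exp (-C * (r - s))) := by
      refine antitone_of_deriv_nonpos (fun r => (hg (-C) r).differentiableAt) fun r => ?_
      rw [(hg (-C) r).deriv]
      refine mul_nonpos_of_nonpos_of_nonneg ?_ (Real.exp_nonneg _)
      have := (abs_le.1 (hC r)).2
      linarith
    have h1 := hanti hst
    simp only [hs, zero_mul] at h1
    by_contra hcon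
    push Not at hcon
    have := mul_pos hcon (Real.exp_pos (-C * (t - s)))
    linarith
  · have hmono : Monotone (fun r => f r * Real.exp (C * (r - s))) := by
      refine monotone_of_deriv_nonneg (fun r => (hg C r).differentiableAt) fun r => ?_
      rw [(hg C r).deriv]
      refine mul_nonneg ?_ (Real.exp_nonneg _)
      have := (abs_le.1 (hC r)).1
      linarith
    have h1 := hmono hst
    simp only [hs, zero_mul] at h1
    by_contra hcon
    push Not at hcon
    have := mul_pos hcon (Real.exp_pos (C * (t - s)))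
    linarith

/-- the solution of `s'' = - κ s`, `s(0) = 0`, `s'(0) = 1` -/
def sn (κ t : ℝ) : ℝ := if κ = 0 then t else Real.sin (Real.sqrt κ * t) / Real.sqrt κ

/-- its derivative -/
def cn (κ t : ℝ) : ℝ := if κ = 0 then 1 else Real.cos (Real.sqrt κ * t)

theorem sn_zero (κ : ℝ) : sn κ 0 = 0 := by unfold sn; split_ifs <;> simp

theorem cn_zero (κ : ℝ) : cn κ 0 = 1 := by unfold cn; split_ifs <;> simp

theorem hasDerivAt_sn {κ : ℝ} (hκ : 0 ≤ κ) (t : ℝ) : HasDerivAt (sn κ) (cn κ t) t := by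
  unfold sn cn
  by_cases h : κ = 0
  · simp only [h, if_true]
    exact hasDerivAt_id t
  · simp only [h, if_false]
    have hs : Real.sqrt κ ≠ 0 := (Real.sqrt_pos.2 (lt_of_le_of_ne hκ (Ne.symm h))).ne'
    have h1 : HasDerivAt (fun t : ℝ => Real.sqrt κ * t) (Real.sqrt κ) t := by
      simpa using (hasDerivAt_id t).const_mul (Real.sqrt κ)
    refine (h1.sin.div_const (Real.sqrt κ)).congr_deriv ?_
    field_simp

theorem hasDerivAt_cn {κ : ℝ} (hκ : 0 ≤ κ) (t : ℝ) : HasDerivAt (cn κ) (-κ * sn κ t) t := by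
  unfold sn cn
  by_cases h : κ = 0
  · simp only [h, if_true, neg_zero, zero_mul]
    exact hasDerivAt_const t 1
  · simp only [h, if_false]
    have hs : Real.sqrt κ ≠ 0 := (Real.sqrt_pos.2 (lt_of_le_of_ne hκ (Ne.symm h))).ne'
    have h1 : HasDerivAt (fun t : ℝ => Real.sqrt κ * t) (Real.sqrt κ) t := by
      simpa using (hasDerivAt_id t).const_mul (Real.sqrt κ)
    refine h1.cos.congr_deriv ?_
    have h2 : κ / Real.sqrt κ = Real.sqrt κ := by
      rw [div_eq_iff hs]; exact (Real.mul_self_sqrt hκ).symm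
    calc -Real.sin (Real.sqrt κ * t) * Real.sqrt κ
        = -Real.sin (Real.sqrt κ * t) * (κ / Real.sqrt κ) := by rw [h2]
      _ = _ := by ring

theorem cn_sq {κ : ℝ} (hκ : 0 ≤ κ) (t : ℝ) : cn κ t ^ 2 + κ * sn κ t ^ 2 = 1 := by
  unfold sn cn
  by_cases h : κ = 0
  · simp [h]
  · simp only [h, if_false]
    have hs : Real.sqrt κ ≠ 0 := (Real.sqrt_pos.2 (lt_of_le_of_ne hκ (Ne.symm h))).ne'
    have h2 : Real.sqrt κ ^ 2 = κ := Real.sq_sqrt hκ
    rw [div_pow, h2, mul_div_cancel₀ _ h]
    exact Real.cos_sq_add_sin_sq _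

variable {E : Type*} [NormedAddCommGroup E] [NormedSpace ℝ E] [FiniteDimensional ℝ E]
  {M : Type*} [MetricSpace M] [ChartedSpace E M] [IsManifold 𝓘(ℝ, E) ∞ M]
  [RiemannianBundle (fun x : M => TangentSpace 𝓘(ℝ, E) x)]
  [IsContMDiffRiemannianBundle 𝓘(ℝ, E) ∞ E (fun x : M => TangentSpace 𝓘(ℝ, E) x)]
  [IsRiemannianManifold 𝓘(ℝ, E) M] [CompactSpace M] [ConnectedSpace M]

variable {cov : CovariantDerivative 𝓘(ℝ, E) E (TangentSpace 𝓘(ℝ, E) : M → Type _)}
  {e : ∀ x : M, TangentSpace 𝓘(ℝ, E) x → M}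

/-- the Jacobi operators are bounded -/
def RBdd (hcov : IsLC cov) : Prop :=
  ∃ C : ℝ, ∀ (q : M) (v w z : E), nm q v = 1 →
    |P231.ip q (Rv hcov q w v v) z| ≤ C * (nm q w * nm q z)

variable {x : M} {u : E}

/-- a field with vanishing derivative has constant length -/
theorem zero_of_par (hcov : IsLC cov) (hE : Module.finrank ℝ E = 4) (F : Facts e) {Q : ℝ → E}
    (h : ∀ t, HasD cov e x u Q 0 t) {s : ℝ} (hs : Q s = 0) (t : ℝ) : Q t = 0 := by
  have h1 : ∀ r, HasDerivAt (fun r => P231.ip (gam e x u r) (Q r) (Q r)) 0 r := fun r => by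
    have := (h r).inner hcov hE F (h r)
    rwa [ip_zero_left', asm_ip_zero_right, add_zero] at this
  have h2 := is_const_of_deriv_eq_zero (fun r => (h1 r).differentiableAt) (fun r => (h1 r).deriv) t s
  simp only [hs, ip_zero_left'] at h2
  exact eq_zero_of_ip h2

/-- Jacobi fields whose initial derivative is an eigenvector of the Jacobi operator -/
theorem jac_eigen (hcov : IsLC cov) (hE : Module.finrank ℝ E = 4) (F : Facts e)
    (hp : RPar hcov) (hb : RBdd hcov) (hu : nm x u = 1) {s : ℝ} {w : E} {κ : ℝ} (hκ0 : 0 ≤ κ)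
    (hκ : Rv hcov (gam e x u s) w (vel e x u s) (vel e x u s) = κ • w) :
    ∃ P : ℝ → E, P s = w ∧ (∀ t, HasD cov e x u P 0 t) ∧
      (∀ t, Rv hcov (gam e x u t) (P t) (vel e x u t) (vel e x u t) = κ • P t) ∧
      ∀ t, jf e x u s t w = sn κ (t - s) • P t := by
  obtain ⟨J1, hJ0, hJ, hJ2⟩ := jacobi (cov := cov) hcov F hu s w
  set J : ℝ → E := fun t => jf e x u s t w with hJdef
  have hJs : J s = 0 := by
    change jf e x u s s w = 0
    rw [jf, sub_self, zero_smul]
  obtain ⟨C, hC⟩ := hb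
  set K : ℝ → E → E := fun t a => Rv hcov (gam e x u t) a (vel e x u t) (vel e x u t) with hK
  have hKadd : ∀ t a b, K t (a + b) = K t a + K t b := fun t a b => Rv_add1 hcov _ a b _ _
  have hKsmul : ∀ t (c : ℝ) a, K t (c • a) = c • K t a := fun t c a => Rv_smul1 hcov _ c a _ _
  have hKneg : ∀ t a, K t (-a) = - K t a := fun t a => by
    have := hKsmul t (-1) a
    simpa using this
  have hKsub : ∀ t a b, K t (a - b) = K t a - K t b := fun t a b => by
    rw [sub_eq_add_neg, hKadd, hKneg, ← sub_eq_add_neg]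
  have hKpar : ∀ {Y : ℝ → E} {Z : E} {t : ℝ}, HasD cov e x u Y Z t →
      HasD cov e x u (fun r => K r (Y r)) (K t Z) t := fun h => K_par hcov F hp hu h
  -- the difference `K J - κ J`
  set L : ℝ → E := fun t => K t (J t) - κ • J t with hL
  set L1 : ℝ → E := fun t => K t (J1 t) - κ • J1 t with hL1
  have dL : ∀ t, HasD cov e x u L (L1 t) t := fun t => (hKpar (hJ t)).sub ((hJ t).const_smul κ)
  have dL1 : ∀ t, HasD cov e x u L1 (- K t (L t)) t := fun t => by
    have h1 := (hKpar (hJ2 t)).sub ((hJ2 t).const_smul κ)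
    have h2 : K t (- K t (J t)) - κ • (- K t (J t)) = - K t (L t) := by
      rw [hL]
      simp only [hKneg, hKsub, hKsmul, smul_neg]
      abel
    exact h2 ▸ h1
  have hL0 : L s = 0 := by
    have h1 : K s 0 = 0 := by simpa using hKsmul s 0 0
    simp [hL, hJs, h1]
  have hL10 : L1 s = 0 := by
    change K s (J1 s) - κ • J1 s = 0
    rw [hJ0]
    exact sub_eq_zero.2 hκ
  have hf : ∀ t, HasDerivAt (fun t => P231.ip (gam e x u t) (L t) (L t) +
      P231.ip (gam e x u t) (L1 t) (L1 t))
      (2 * P231.ip (gam e x u t) (L t) (L1 t) - 2 * P231.ip (gam e x u t) (K t (L t)) (L1 t))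
      t := by
    intro t
    have h1 := ((dL t).inner hcov hE F (dL t)).fun_add ((dL1 t).inner hcov hE F (dL1 t))
    refine h1.congr_deriv ?_
    rw [ip_neg_left', ip_comm' _ (L1 t) (L t), ip_comm' _ (L1 t) (-K t (L t)), ip_neg_left']
    ring
  have hnm : ∀ t, nm (gam e x u t) (vel e x u t) = 1 := fun t => by rw [nm_vel F, hu]
  have hCS : ∀ (q : M) (a b : E), |P231.ip q a b| ≤ nm q a * nm q b := fun q a b =>
    abs_real_inner_le_norm (F := TangentSpace 𝓘(ℝ, E) q) a b
  have hzero : ∀ t, P231.ip (gam e x u t) (L t) (L t) +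
      P231.ip (gam e x u t) (L1 t) (L1 t) = 0 := by
    refine fun t => zero_of_gronwall hf (fun t => ?_) (C := 1 + |C|) (s := s) (fun t => ?_) ?_ t
    · rw [asm_ip_self, asm_ip_self]; positivity
    · have h1 := hCS (gam e x u t) (L t) (L1 t)
      have h2 := hC (gam e x u t) (vel e x u t) (L t) (L1 t) (hnm t)
      have h3 : |P231.ip (gam e x u t) (K t (L t)) (L1 t)| ≤
          |C| * (nm (gam e x u t) (L t) * nm (gam e x u t) (L1 t)) :=
        h2.trans (mul_le_mul_of_nonneg_right (le_abs_self C)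
          (mul_nonneg (nm_nonneg _ _) (nm_nonneg _ _)))
      rw [asm_ip_self, asm_ip_self]
      have h4 : nm (gam e x u t) (L t) * nm (gam e x u t) (L1 t) ≤
          (nm (gam e x u t) (L t) ^ 2 + nm (gam e x u t) (L1 t) ^ 2) / 2 := by
        nlinarith [sq_nonneg (nm (gam e x u t) (L t) - nm (gam e x u t) (L1 t))]
      calc |2 * P231.ip (gam e x u t) (L t) (L1 t) -
            2 * P231.ip (gam e x u t) (K t (L t)) (L1 t)|
          ≤ 2 * |P231.ip (gam e x u t) (L t) (L1 t)| +
            2 * |P231.ip (gam e x u t) (K t (L t)) (L1 t)| := by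
              refine (abs_sub _ _).trans ?_
              rw [abs_mul, abs_mul, abs_two]
        _ ≤ 2 * (nm (gam e x u t) (L t) * nm (gam e x u t) (L1 t)) + 2 * (|C| *
            (nm (gam e x u t) (L t) * nm (gam e x u t) (L1 t))) := by linarith
        _ = 2 * (1 + |C|) * (nm (gam e x u t) (L t) * nm (gam e x u t) (L1 t)) := by ring
        _ ≤ 2 * (1 + |C|) * ((nm (gam e x u t) (L t) ^ 2 + nm (gam e x u t) (L1 t) ^ 2) / 2) :=
            mul_le_mul_of_nonneg_left h4 (by positivity)
        _ = _ := by ring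
    · rw [hL0, hL10, ip_zero_left']; ring
  have hLz : ∀ t, K t (J t) = κ • J t := by
    intro t
    have h1 := hzero t
    rw [asm_ip_self, asm_ip_self] at h1
    have h2 : nm (gam e x u t) (L t) ^ 2 = 0 := by
      nlinarith [sq_nonneg (nm (gam e x u t) (L t)), sq_nonneg (nm (gam e x u t) (L1 t))]
    rw [← asm_ip_self] at h2
    exact sub_eq_zero.1 (eq_zero_of_ip h2)
  have hL1z : ∀ t, K t (J1 t) = κ • J1 t := by
    intro t
    have h1 := hzero t
    rw [asm_ip_self, asm_ip_self] at h1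
    have h2 : nm (gam e x u t) (L1 t) ^ 2 = 0 := by
      nlinarith [sq_nonneg (nm (gam e x u t) (L t)), sq_nonneg (nm (gam e x u t) (L1 t))]
    rw [← asm_ip_self] at h2
    exact sub_eq_zero.1 (eq_zero_of_ip h2)
  have hS : ∀ t, HasDerivAt (fun t => sn κ (t - s)) (cn κ (t - s)) t := fun t =>
    (hasDerivAt_sn hκ0 (t - s)).comp_sub_const t s
  have hCc : ∀ t, HasDerivAt (fun t => cn κ (t - s)) (-κ * sn κ (t - s)) t := fun t =>
    (hasDerivAt_cn hκ0 (t - s)).comp_sub_const t s
  have hJ2' : ∀ t, HasD cov e x u J1 (-(κ • J t)) t := fun t => by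
    have := hJ2 t
    rw [show Rv hcov (gam e x u t) (jf e x u s t w) (vel e x u t) (vel e x u t) = κ • J t from
      hLz t] at this
    exact this
  refine ⟨fun t => cn κ (t - s) • J1 t + (κ * sn κ (t - s)) • J t, ?_, fun t => ?_, fun t => ?_,
    fun t => ?_⟩
  · simp [cn_zero, sn_zero, hJ0]
  · have h1 := ((hJ2' t).smul (hCc t)).add ((hJ t).smul ((hS t).const_mul κ))
    have h2 : (-κ * sn κ (t - s)) • J1 t + cn κ (t - s) • (-(κ • J t)) +
        ((κ * cn κ (t - s)) • J t + (κ * sn κ (t - s)) • J1 t) = 0 := by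
      module
    exact h2 ▸ h1
  · change K t _ = _
    rw [hKadd, hKsmul, hKsmul, hLz, hL1z]
    module
  · have hQ : ∀ t, HasD cov e x u (fun t => cn κ (t - s) • J t - sn κ (t - s) • J1 t) 0 t := by
      intro t
      have h1 := ((hJ t).smul (hCc t)).sub ((hJ2' t).smul (hS t))
      have h2 : (-κ * sn κ (t - s)) • J t + cn κ (t - s) • J1 t -
        (cn κ (t - s) • J1 t + sn κ (t - s) • (-(κ • J t))) = 0 := by
        module
      exact h2 ▸ h1
    have hQ0 := zero_of_par hcov hE F hQ (s := s) (by simp [sn_zero, hJs]) t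
    have h3 := cn_sq hκ0 (t - s)
    have h4 : J t = (cn κ (t - s) ^ 2 + κ * sn κ (t - s) ^ 2) • J t := by rw [h3, one_smul]
    have h5 : cn κ (t - s) • J t = sn κ (t - s) • J1 t := sub_eq_zero.1 hQ0
    change J t = _
    rw [h4, add_smul, sq, mul_smul, h5]
    module

end

end Vale.Agent.P211.HK.Jac
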