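import Vale.Agent.P211.Bdl.S5

/-! P211 / HK / JAC, first part: radial and coordinate fields on a normal ball, in the calculus of
vector fields. -/

set_option maxSynthPendingDepth 3
set_option linter.all false

namespace Vale.Agent.P211.HK.Jac

open scoped Manifold ContDiff Topology
open Bundle Filter VectorField MeasureTheory Set
open Vale.Agent.P234 Vale.Agent.P231 Vale.Agent.P211.S4

noncomputable section

variable {E : Type*} [NormedAddCommGroup E] [NormedSpace ℝ E] [FiniteDimensional ℝ E]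
  {M : Type*} [MetricSpace M] [ChartedSpace E M] [IsManifold 𝓘(ℝ, E) ∞ M]
  [RiemannianBundle (fun x : M => TangentSpace 𝓘(ℝ, E) x)]
  [IsContMDiffRiemannianBundle 𝓘(ℝ, E) ∞ E (fun x : M => TangentSpace 𝓘(ℝ, E) x)]
  [IsRiemannianManifold 𝓘(ℝ, E) M] [CompactSpace M] [ConnectedSpace M]

variable {cov : CovariantDerivative 𝓘(ℝ, E) E (TangentSpace 𝓘(ℝ, E) : M → Type _)}
  {e : ∀ x : M, TangentSpace 𝓘(ℝ, E) x → M}

/-- normal coordinates as smooth functions -/
theorem exists_coordfun (F : Facts e) {D : ℝ} (hB : InjGE e D) (x : M) {r : ℝ}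
    (hr : r < D) :
    ∃ X : Fin (Module.finrank ℝ E) → SF E M, ∀ ξ : Eu E, ‖ξ‖ < r → ∀ i,
      X i (ef e x ξ) = ξ i := by
  obtain ⟨χ, h1, h0⟩ := V5cut (E := E) x hr
  let L : Fin (Module.finrank ℝ E) → (TangentSpace 𝓘(ℝ, E) x →L[ℝ] ℝ) := fun i =>
    (EuclideanSpace.proj (𝕜 := ℝ) i : Eu E →L[ℝ] ℝ).comp
      ((fr (E := E) x).symm : E →L[ℝ] Eu E)
  have key : ∀ i, ContMDiff 𝓘(ℝ, E) 𝓘(ℝ, ℝ) ∞ (fun z : M => χ z * L i (logMap e x z)) := by
    intro i y
    rcases lt_or_ge (dist x y) D with hy | hy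
    · have h2 := (V5log_smooth F hB hy).1
      have h3 : ContMDiffAt 𝓘(ℝ, E) 𝓘(ℝ, ℝ) ∞ (fun z : M => L i (logMap e x z)) y :=
        (L i).contMDiff.contMDiffAt.comp y h2
      exact (χ.contMDiff y).mul h3
    · refine (contMDiffAt_const (c := (0 : ℝ))).congr_of_eventuallyEq ?_
      filter_upwards [h0 y hy] with z hz
      rw [hz, zero_mul]
  refine ⟨fun i => ⟨fun z => χ z * L i (logMap e x z), key i⟩, fun ξ hξ i => ?_⟩
  have hn : nm x (fr x ξ) = ‖ξ‖ := nm_fr x ξ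
  have hl : logMap e x (ef e x ξ) = (fr x ξ : E) :=
    V5log_eq F hB (x := x) (v := (fr x ξ : E)) (lt_of_eq_of_lt hn (hξ.trans hr))
  have hd : dist x (ef e x ξ) = ‖ξ‖ :=
    (hB x (fr x ξ : E) (le_of_eq_of_le hn (hξ.trans hr).le)).trans hn
  change χ (ef e x ξ) * L i (logMap e x (ef e x ξ)) = _
  rw [h1 _ (by rw [hd]; exact hξ.le), one_mul, hl]
  change ((fr x).symm (fr x ξ)) i = ξ i
  rw [ContinuousLinearEquiv.symm_apply_apply]

/-- data on a normal ball of radius `r` -/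
structure Nball (e : ∀ x : M, TangentSpace 𝓘(ℝ, E) x → M) (x : M) (r : ℝ) where
  C : Fin (Module.finrank ℝ E) → VF E M
  X : Fin (Module.finrank ℝ E) → SF E M
  hC : ∀ ξ : Eu E, ‖ξ‖ < r → ∀ i,
      (C i (ef e x ξ) : E) = dE e x (fr x ξ) (fr x (EuclideanSpace.single i 1))
  hX : ∀ ξ : Eu E, ‖ξ‖ < r → ∀ i, X i (ef e x ξ) = ξ i

theorem exists_nball (F : Facts e) {D : ℝ} (hD : 0 < D) (hB : InjGE e D) (x : M) {r : ℝ}
    (hr : r < D) : Nonempty (Nball e x r) := by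
  obtain ⟨C, hC⟩ := exists_coord F hD hB x hr
  obtain ⟨X, hX⟩ := exists_coordfun F hB x hr
  exact ⟨⟨C, X, hC, hX⟩⟩

namespace Nball

variable {x : M} {r : ℝ} (B : Nball e x r)

/-- the radial field -/
def N : VF E M := ∑ i, B.X i • B.C i

/-- the coordinate field with constant coefficients `c` -/
def Cc (c : Eu E) : VF E M := ∑ i, (algebraMap ℝ (SF E M) (c i)) • B.C i

theorem Cc_apply (c : Eu E) {ξ : Eu E} (hξ : ‖ξ‖ < r) :
    (B.Cc c (ef e x ξ) : E) = dE e x (fr x ξ) (fr x c) := by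
  have h1 : (B.Cc c (ef e x ξ) : E) = ∑ i, c i • (B.C i (ef e x ξ) : E) := by
    unfold Cc
    rw [VF.sum_apply]
    rfl
  have h2 : (∑ i, c i • dE e x (fr x ξ) (fr x (EuclideanSpace.single i 1)) : E) =
      dE e x (fr x ξ) (fr x c) := by
    rw [← Jac.dE_sum]
    congr 1
    have h := Jac.eq_sum_fr x (fr x c)
    rw [ContinuousLinearEquiv.symm_apply_apply] at h
    exact h.symm
  refine h1.trans (Eq.trans ?_ h2)
  exact Finset.sum_congr rfl fun i _ => congrArg (fun z : E => c i • z) (B.hC ξ hξ i)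

theorem N_apply {ξ : Eu E} (hξ : ‖ξ‖ < r) :
    (B.N (ef e x ξ) : E) = dE e x (fr x ξ) (fr x ξ) := by
  have h1 : (B.N (ef e x ξ) : E) = ∑ i, ξ i • (B.C i (ef e x ξ) : E) := by
    unfold N
    rw [VF.sum_apply]
    refine Finset.sum_congr rfl fun i _ => ?_
    rw [smulVF_apply, B.hX ξ hξ i]
  have h2 : (B.Cc ξ (ef e x ξ) : E) = ∑ i, ξ i • (B.C i (ef e x ξ) : E) := by
    unfold Cc
    rw [VF.sum_apply]
    rfl
  rw [h1, ← h2, B.Cc_apply ξ hξ]

/-- points of the normal ball -/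
theorem ev_ball (F : Facts e) {D : ℝ} (hB : InjGE e D) (hr : r ≤ D) {ξ : Eu E} (hξ : ‖ξ‖ < r)
    {P : M → Prop} (hP : ∀ η : Eu E, ‖η‖ < r → P (ef e x η)) : ∀ᶠ q in 𝓝 (ef e x ξ), P q := by
  have h := V23_image F hB x hr
  have h1 : ef e x ξ ∈ Metric.ball x r := by
    rw [← h]; exact ⟨ξ, by simpa using hξ, rfl⟩
  filter_upwards [Metric.isOpen_ball.mem_nhds h1] with q hq
  rw [← h] at hq
  obtain ⟨η, hη, rfl⟩ := hq
  exact hP η (by simpa using hη)

/-- (A) -/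
theorem D_X (F : Facts e) {D : ℝ} (hB : InjGE e D) (hr : r < D) {ξ : Eu E} (hξ : ‖ξ‖ < r)
    (i j : Fin (Module.finrank ℝ E)) :
    DVF (B.C j) (B.X i) (ef e x ξ) = if i = j then 1 else 0 := by
  rw [coord_deriv F hB x hr B.hC (B.X i) hξ j]
  have hev : (fun η : Eu E => B.X i (ef e x η)) =ᶠ[𝓝 ξ] fun η => η i := by
    have h1 : ∀ᶠ η : Eu E in 𝓝 ξ, ‖η‖ < r := continuous_norm.continuousAt.eventually
      (Iio_mem_nhds hξ)
    filter_upwards [h1] with η hη
    exact B.hX η hη i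
  rw [hev.fderiv_eq]
  have h2 : HasFDerivAt (fun η : Eu E => η i) (EuclideanSpace.proj (𝕜 := ℝ) i : Eu E →L[ℝ] ℝ) ξ :=
    (EuclideanSpace.proj (𝕜 := ℝ) i : Eu E →L[ℝ] ℝ).hasFDerivAt
  rw [h2.fderiv]
  simp [PiLp.single_apply]

/-- (C) Gauss lemma -/
theorem g_N_C (F : Facts e) {ξ : Eu E} (hξ : ‖ξ‖ < r) (j : Fin (Module.finrank ℝ E)) :
    gVF B.N (B.C j) (ef e x ξ) = B.X j (ef e x ξ) := by
  have h := taylor_GG_radial F x ξ (EuclideanSpace.single j 1) 1
  rw [one_smul, ip_fr, EuclideanSpace.inner_single_right] at h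
  rw [B.hX ξ hξ j]
  have h2 : gVF B.N (B.C j) (ef e x ξ) = GG e x ξ (EuclideanSpace.single j 1) ξ := by
    unfold GG
    rw [← B.N_apply hξ, ← B.hC ξ hξ j]
    rfl
  rw [h2, h]
  simp

end Nball

theorem nab_congr (hcov : IsLC cov) (X Y Y' : VF E M) {q : M} (h : ∀ᶠ z in 𝓝 q, Y z = Y' z) :
    nabVF cov hcov.smooth X Y q = nabVF cov hcov.smooth X Y' q := by
  have h1 := cov.isCovariantDerivativeOnUniv.congr_of_eventuallyEq (Y.mdiff q) (Y'.mdiff q)
    Filter.univ_mem h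
  exact congrArg (fun L : TangentSpace 𝓘(ℝ, E) q →L[ℝ] TangentSpace 𝓘(ℝ, E) q => L (X q)) h1

theorem nab_congr_left (hcov : IsLC cov) (X X' Y : VF E M) {q : M} (h : X q = X' q) :
    nabVF cov hcov.smooth X Y q = nabVF cov hcov.smooth X' Y q := by
  change cov Y q (X q) = cov Y q (X' q)
  rw [h]

namespace Nball

variable {x : M} {r : ℝ} (B : Nball e x r)

theorem Cc_val (c : Eu E) (q : M) : B.Cc c q = ∑ i, c i • B.C i q := by
  unfold Cc
  rw [VF.sum_apply]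
  rfl

theorem N_val (q : M) : B.N q = ∑ i, B.X i q • B.C i q := by
  unfold N
  rw [VF.sum_apply]
  rfl

theorem DVF_sum_left {ι : Type*} (s : Finset ι) (Y : ι → VF E M) (f : SF E M) (q : M) :
    DVF (∑ i ∈ s, Y i) f q = ∑ i ∈ s, DVF (Y i) f q := by
  have h : (∑ i ∈ s, Y i : VF E M) q = ∑ i ∈ s, Y i q := VF.sum_apply s Y q
  change mvfderiv 𝓘(ℝ, E) f q ((∑ i ∈ s, Y i : VF E M) q) = _
  rw [h, map_sum]
  rfl

theorem D_N (f : SF E M) (q : M) : DVF B.N f q = ∑ i, B.X i q * DVF (B.C i) f q := by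
  unfold N
  rw [DVF_sum_left]
  refine Finset.sum_congr rfl fun i _ => ?_
  rw [DVF_smul_left]
  rfl

theorem D_Cc (c : Eu E) (f : SF E M) (q : M) :
    DVF (B.Cc c) f q = ∑ i, c i * DVF (B.C i) f q := by
  unfold Cc
  rw [DVF_sum_left]
  refine Finset.sum_congr rfl fun i _ => ?_
  rw [DVF_smul_left]
  rfl

theorem nab_N_left (hcov : IsLC cov) (Y : VF E M) (q : M) :
    nabVF cov hcov.smooth B.N Y q = ∑ i, B.X i q • nabVF cov hcov.smooth (B.C i) Y q := by
  change cov Y q (B.N q) = _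
  rw [N_val, map_sum]
  refine Finset.sum_congr rfl fun i _ => ?_
  rw [map_smul]
  rfl

theorem nab_Cc_left (hcov : IsLC cov) (c : Eu E) (Y : VF E M) (q : M) :
    nabVF cov hcov.smooth (B.Cc c) Y q = ∑ i, c i • nabVF cov hcov.smooth (B.C i) Y q := by
  change cov Y q (B.Cc c q) = _
  rw [Cc_val, map_sum]
  refine Finset.sum_congr rfl fun i _ => ?_
  rw [map_smul]
  rfl

theorem nab_N_right (hcov : IsLC cov) (Y : VF E M) (q : M) :
    nabVF cov hcov.smooth Y B.N q =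
      ∑ i, (DVF Y (B.X i) q • B.C i q + B.X i q • nabVF cov hcov.smooth Y (B.C i) q) := by
  unfold N
  rw [nab_sum_apply hcov]
  exact Finset.sum_congr rfl fun i _ => nab_smul_apply hcov Y (B.C i) (B.X i) q

theorem nab_Cc_right (hcov : IsLC cov) (c : Eu E) (Y : VF E M) (q : M) :
    nabVF cov hcov.smooth Y (B.Cc c) q = ∑ i, c i • nabVF cov hcov.smooth Y (B.C i) q := by
  unfold Cc
  rw [nab_sum_apply hcov]
  refine Finset.sum_congr rfl fun i _ => ?_
  rw [nab_smul_apply hcov, DVF_const]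
  change (0 : ℝ) • _ + c i • _ = _
  rw [zero_smul, zero_add]

/-- (1) -/
theorem nab_C_N (hcov : IsLC cov) (F : Facts e) {D : ℝ} (hB : InjGE e D) (hr : r < D)
    (c : Eu E) {ξ : Eu E} (hξ : ‖ξ‖ < r) :
    nabVF cov hcov.smooth (B.Cc c) B.N (ef e x ξ) =
      B.Cc c (ef e x ξ) + nabVF cov hcov.smooth B.N (B.Cc c) (ef e x ξ) := by
  rw [B.nab_N_right hcov, Cc_val, Finset.sum_add_distrib]
  congr 1
  · refine Finset.sum_congr rfl fun i _ => ?_
    congr 1
    rw [D_Cc]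
    simp [B.D_X F hB hr hξ]
  · rw [B.nab_N_left hcov]
    simp only [B.nab_Cc_left hcov, B.nab_Cc_right hcov, Finset.smul_sum]
    refine Finset.sum_congr rfl fun i _ => Finset.sum_congr rfl fun j _ => ?_
    rw [coord_comm hcov F hB x hr B.hC hξ i j, smul_comm]

theorem C_eq_Cc (i : Fin (Module.finrank ℝ E)) (q : M) :
    B.Cc (EuclideanSpace.single i 1) q = B.C i q := by
  rw [Cc_val]
  simp [PiLp.single_apply]

/-- (1) for a coordinate field -/
theorem nab_Ci_N (hcov : IsLC cov) (F : Facts e) {D : ℝ} (hB : InjGE e D) (hr : r < D)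
    (i : Fin (Module.finrank ℝ E)) {ξ : Eu E} (hξ : ‖ξ‖ < r) :
    nabVF cov hcov.smooth (B.C i) B.N (ef e x ξ) =
      B.C i (ef e x ξ) + nabVF cov hcov.smooth B.N (B.C i) (ef e x ξ) := by
  have h := B.nab_C_N hcov F hB hr (EuclideanSpace.single i 1) hξ
  have hv : ∀ᶠ z in 𝓝 (ef e x ξ), B.Cc (EuclideanSpace.single i 1) z = B.C i z :=
    Filter.Eventually.of_forall fun z => B.C_eq_Cc i z
  rw [nab_congr_left hcov _ _ _ (B.C_eq_Cc i _), nab_congr hcov _ _ _ hv, B.C_eq_Cc] at h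
  exact h

/-- the coordinate fields span -/
theorem span (F : Facts e) {D : ℝ} (hB : InjGE e D) (hr : r < D) {ξ : Eu E} (hξ : ‖ξ‖ < r)
    {z : TangentSpace 𝓘(ℝ, E) (ef e x ξ)}
    (h : ∀ i, inner ℝ z (B.C i (ef e x ξ)) = 0) : z = 0 := by
  have hinj : Function.Injective (dEl e x (fr x ξ)) := by
    refine (injective_iff_map_eq_zero _).2 fun w hw => ?_
    exact dE_injective F hB (by rw [nm_fr]; exact hξ.trans hr) hw
  have hsurj := LinearMap.injective_iff_surjective.1 hinj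
  obtain ⟨a, ha⟩ := hsurj z
  obtain ⟨c, rfl⟩ := (fr (E := E) x).surjective a
  have h1 : (B.Cc c (ef e x ξ) : E) = z := (B.Cc_apply c hξ).trans ha
  have h2 : B.Cc c (ef e x ξ) = z := h1
  rw [← inner_self_eq_zero (𝕜 := ℝ)]
  nth_rw 2 [← h2]
  rw [Cc_val, inner_sum]
  refine Finset.sum_eq_zero fun i _ => ?_
  rw [inner_smul_right, h i, mul_zero]

theorem DVF_eq_of_ball (F : Facts e) {D : ℝ} (hB : InjGE e D) (hr : r < D) {ξ : Eu E}
    (hξ : ‖ξ‖ < r) {f h : SF E M} (hfh : ∀ η : Eu E, ‖η‖ < r → f (ef e x η) = h (ef e x η))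
    (Y : VF E M) : DVF Y f (ef e x ξ) = DVF Y h (ef e x ξ) :=
  DVF_local _ f h (ev_ball F hB hr.le hξ hfh) Y

/-- (2) the radial field satisfies `∇_N N = N` -/
theorem nab_N_N (hcov : IsLC cov) (F : Facts e) {D : ℝ} (hB : InjGE e D) (hr : r < D)
    {ξ : Eu E} (hξ : ‖ξ‖ < r) :
    nabVF cov hcov.smooth B.N B.N (ef e x ξ) = B.N (ef e x ξ) := by
  refine sub_eq_zero.1 (B.span F hB hr hξ fun j => ?_)
  rw [inner_sub_left, sub_eq_zero]
  -- derivative of `⟨N, C_j⟩` along `N`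
  have h1 : DVF B.N (gVF B.N (B.C j)) (ef e x ξ) = B.X j (ef e x ξ) := by
    rw [DVF_eq_of_ball F hB hr hξ (h := B.X j) (fun η hη => B.g_N_C F hη j), B.D_N]
    simp [B.D_X F hB hr hξ]
  -- derivative of `⟨N, N⟩` along `C_j`
  have h2 : DVF (B.C j) (gVF B.N B.N) (ef e x ξ) = 2 * B.X j (ef e x ξ) := by
    have h3 : ∀ η : Eu E, ‖η‖ < r → gVF B.N B.N (ef e x η) =
        (∑ i, B.X i * B.X i : SF E M) (ef e x η) := by
      intro η hη
      have h4 : gVF B.N B.N (ef e x η) = ∑ i, B.X i (ef e x η) * gVF B.N (B.C i) (ef e x η) := by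
        rw [gVF_apply]
        nth_rw 2 [B.N_val]
        rw [inner_sum]
        refine Finset.sum_congr rfl fun i _ => ?_
        rw [inner_smul_right]
        rfl
      rw [h4, SF.sum_apply]
      refine Finset.sum_congr rfl fun i _ => ?_
      rw [B.g_N_C F hη i]
      rfl
    rw [DVF_eq_of_ball F hB hr hξ h3]
    have h5 : DVF (B.C j) (∑ i, B.X i * B.X i : SF E M) (ef e x ξ) =
        ∑ i, DVF (B.C j) (B.X i * B.X i) (ef e x ξ) := by
      have := map_sum (G := (SF E M →+ SF E M)) (⟨⟨fun f => DVF (B.C j) f,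
        (lcOf hcov).D_zero (B.C j)⟩, fun a b => DVF_add (B.C j) a b⟩)
        (fun i => B.X i * B.X i) Finset.univ
      have h6 := congrArg (fun f : SF E M => f (ef e x ξ)) this
      refine h6.trans ?_
      rw [SF.sum_apply]
      rfl
    rw [h5]
    simp only [DVF_mul_apply, B.D_X F hB hr hξ, ite_mul, mul_ite, one_mul, mul_one, zero_mul,
      mul_zero, Finset.sum_add_distrib]
    simp only [Finset.sum_ite_eq', Finset.mem_univ, if_true]
    ring
  have h3 := metricVF hcov (B.C j) B.N B.N (ef e x ξ)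
  have h4 := metricVF hcov B.N B.N (B.C j) (ef e x ξ)
  have h5 := B.nab_Ci_N hcov F hB hr j hξ
  rw [h2] at h3
  rw [h1] at h4
  have h6 : gVF B.N (nabVF cov hcov.smooth (B.C j) B.N) (ef e x ξ) =
      gVF B.N (B.C j) (ef e x ξ) + gVF B.N (nabVF cov hcov.smooth B.N (B.C j)) (ef e x ξ) := by
    simp only [gVF_apply]
    rw [h5, inner_add_right]
  have h7 : gVF (nabVF cov hcov.smooth (B.C j) B.N) B.N (ef e x ξ) =
      gVF B.N (nabVF cov hcov.smooth (B.C j) B.N) (ef e x ξ) := by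
    rw [gVF_apply, gVF_apply, real_inner_comm]
  have h8 := B.g_N_C F hξ j
  have h9 : gVF (nabVF cov hcov.smooth B.N B.N) (B.C j) (ef e x ξ) = gVF B.N (B.C j) (ef e x ξ) := by
    rw [h7, h6] at h3
    linarith
  exact h9

/-- (3) the second derivative of a coordinate field -/
theorem nab_N_nab_C_N (hcov : IsLC cov) (F : Facts e) {D : ℝ} (hB : InjGE e D) (hr : r < D)
    (c : Eu E) {ξ : Eu E} (hξ : ‖ξ‖ < r) :
    nabVF cov hcov.smooth B.N (nabVF cov hcov.smooth (B.Cc c) B.N) (ef e x ξ) =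
      (lcOf hcov).R B.N (B.Cc c) B.N (ef e x ξ) := by
  have h1 : (lcOf hcov).R B.N (B.Cc c) B.N (ef e x ξ) =
      nabVF cov hcov.smooth B.N (nabVF cov hcov.smooth (B.Cc c) B.N) (ef e x ξ) -
        nabVF cov hcov.smooth (B.Cc c) (nabVF cov hcov.smooth B.N B.N) (ef e x ξ) -
        nabVF cov hcov.smooth (nabVF cov hcov.smooth B.N (B.Cc c) -
          nabVF cov hcov.smooth (B.Cc c) B.N) B.N (ef e x ξ) := rfl
  have h2 := nab_congr hcov (B.Cc c) (nabVF cov hcov.smooth B.N B.N) B.N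
    (ev_ball F hB hr.le hξ fun η hη => B.nab_N_N hcov F hB hr hη)
  have h3 : (nabVF cov hcov.smooth B.N (B.Cc c) - nabVF cov hcov.smooth (B.Cc c) B.N : VF E M)
      (ef e x ξ) = (- B.Cc c : VF E M) (ef e x ξ) := by
    change nabVF cov hcov.smooth B.N (B.Cc c) (ef e x ξ) -
      nabVF cov hcov.smooth (B.Cc c) B.N (ef e x ξ) = - B.Cc c (ef e x ξ)
    rw [B.nab_C_N hcov F hB hr c hξ]
    abel
  have h4 := nab_congr_left hcov _ _ B.N h3
  have h5 : nabVF cov hcov.smooth (- B.Cc c) B.N (ef e x ξ) =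
      - nabVF cov hcov.smooth (B.Cc c) B.N (ef e x ξ) := by
    change cov B.N (ef e x ξ) (- B.Cc c (ef e x ξ)) = - cov B.N (ef e x ξ) (B.Cc c (ef e x ξ))
    rw [map_neg]
  rw [h1, h2, h4, h5]
  abel

end Nball

end

end Vale.Agent.P211.HK.Jac
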