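import Vale.Agent.P211.HK.JacA

/-! P211 / HK / JAC, second part: covariant derivatives along geodesics. -/

set_option maxSynthPendingDepth 3
set_option linter.all false

namespace Vale.Agent.P211.HK.Jac

open scoped Manifold ContDiff Topology
open Bundle Filter VectorField MeasureTheory Set
open Vale.Agent.P234 Vale.Agent.P231 Vale.Agent.P211.S4

noncomputable section

variable {E : Type*} [NormedAddCommGroup E] [NormedSpace ℝ E] [FiniteDimensional ℝ E]
  {M : Type*} [MetricSpace M] [ChartedSpace E M] [IsManifold 𝓘(ℝ, E) ∞ M]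
  [RiemannianBundle (fun x : M => TangentSpace 𝓘(ℝ, E) x)]
  [IsContMDiffRiemannianBundle 𝓘(ℝ, E) ∞ E (fun x : M => TangentSpace 𝓘(ℝ, E) x)]

variable {cov : CovariantDerivative 𝓘(ℝ, E) E (TangentSpace 𝓘(ℝ, E) : M → Type _)}
  {e : ∀ x : M, TangentSpace 𝓘(ℝ, E) x → M}

/-! ### raw inner products -/

theorem ip_comm' (x : M) (a b : E) : P231.ip x a b = P231.ip x b a :=
  asm_ip_comm x a b

/-- raw value of a field -/
def vv (X : VF E M) (q : M) : E := X q

/-- raw covariant derivative -/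
def cc (cov : CovariantDerivative 𝓘(ℝ, E) E (TangentSpace 𝓘(ℝ, E) : M → Type _)) (X : VF E M)
    (q : M) (v : E) : E := cov X q (v : TangentSpace 𝓘(ℝ, E) q)

/-- the covariant derivative of the field `Y` along the geodesic `gam e x u` at time `t` is `Z` -/
def HasD (cov : CovariantDerivative 𝓘(ℝ, E) E (TangentSpace 𝓘(ℝ, E) : M → Type _))
    (e : ∀ x : M, TangentSpace 𝓘(ℝ, E) x → M) (x : M) (u : E) (Y : ℝ → E) (Z : E) (t : ℝ) :
    Prop :=
  ∀ X : VF E M, HasDerivAt (fun r => P231.ip (gam e x u r) (Y r) (vv X (gam e x u r)))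
    (P231.ip (gam e x u t) Z (vv X (gam e x u t)) +
      P231.ip (gam e x u t) (Y t) (cc cov X (gam e x u t) (vel e x u t))) t

theorem exists_vv (q : M) (a : E) : ∃ X : VF E M, vv X q = a :=
  exists_ext q (a : TangentSpace 𝓘(ℝ, E) q)

/-- derivative of a smooth function along a geodesic -/
theorem hasDerivAt_SF (F : Facts e) (x : M) (u : E) (f : SF E M) {t : ℝ} {V : VF E M}
    (hV : vv V (gam e x u t) = vel e x u t) :
    HasDerivAt (fun r => f (gam e x u r)) (DVF V f (gam e x u t)) t := by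
  have h1 : MDifferentiableAt 𝓘(ℝ, ℝ) 𝓘(ℝ, E) (gam e x u) t :=
    (contMDiff_gam F.isExp x u).contMDiffAt.mdifferentiableAt (by simp)
  have h2 := h1.hasMFDerivAt
  have key : ∀ (L : ℝ →L[ℝ] E) (s : ℝ), L s = s • L 1 := fun L s => by
    rw [← map_smul]; simp
  have h3 : mfderiv 𝓘(ℝ, ℝ) 𝓘(ℝ, E) (gam e x u) t =
      (1 : ℝ →L[ℝ] ℝ).smulRight (V (gam e x u t)) := by
    refine ContinuousLinearMap.ext fun (s : ℝ) => ?_
    have h5 : (mfderiv 𝓘(ℝ, ℝ) 𝓘(ℝ, E) (gam e x u) t (1 : ℝ) : E) = V (gam e x u t) :=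
      (mfderiv_gam F.isExp x u t).trans hV.symm
    refine (key (mfderiv 𝓘(ℝ, ℝ) 𝓘(ℝ, E) (gam e x u) t) s).trans ?_
    exact congrArg (fun z : E => s • z) h5
  rw [h3] at h2
  exact hasDerivAt_curve h2 f

/-- fields restricted to geodesics -/
theorem hasD_field (hcov : IsLC cov) (F : Facts e) (x : M) (u : E) (Y : VF E M) (t : ℝ) :
    HasD cov e x u (fun r => vv Y (gam e x u r)) (cc cov Y (gam e x u t) (vel e x u t)) t := by
  intro X
  obtain ⟨V, hV⟩ := exists_vv (gam e x u t) (vel e x u t)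
  have h := hasDerivAt_SF F x u (gVF Y X) (t := t) (V := V) hV
  have h2 := metricVF hcov V Y X (gam e x u t)
  refine h.congr_deriv (h2.trans ?_)
  change P231.ip (gam e x u t) (cc cov Y (gam e x u t) (vv V (gam e x u t))) (vv X (gam e x u t)) +
    P231.ip (gam e x u t) (vv Y (gam e x u t)) (cc cov X (gam e x u t) (vv V (gam e x u t))) = _
  rw [hV]

theorem ip_add_right' (x : M) (a b c : E) : P231.ip x a (b + c) =
    P231.ip x a b + P231.ip x a c := asm_ip_add_right x a b c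

theorem ip_smul_left' (x : M) (r : ℝ) (a b : E) : P231.ip x (r • a) b =
    r * P231.ip x a b := asm_ip_smul_left x r a b

theorem ip_neg_left' (x : M) (a b : E) : P231.ip x (-a) b =
    - P231.ip x a b := by
  have := ip_smul_left' (E := E) x (-1) a b
  simpa using this

theorem ip_sub_left' (x : M) (a b c : E) : P231.ip x (a - b) c =
    P231.ip x a c - P231.ip x b c := by
  rw [sub_eq_add_neg, ip_add_left, ip_neg_left', ← sub_eq_add_neg]

theorem ip_zero_left' (x : M) (b : E) : P231.ip x (0 : E) b = 0 := by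
  have := ip_smul_left' (E := E) x 0 0 b
  simpa using this

theorem eq_zero_of_ip {x : M} {a : E} (h : P231.ip x a a = 0) : a = 0 := by
  rw [asm_ip_self] at h
  have h2 : nm x a = 0 := pow_eq_zero_iff (two_ne_zero) |>.1 h
  have key : ∀ b : TangentSpace 𝓘(ℝ, E) x, ‖b‖ = 0 → b = 0 := fun b => norm_eq_zero.1
  exact key a h2

theorem eq_of_ip {x : M} {a b : E} (h : ∀ c : E, P231.ip x a c =
    P231.ip x b c) : a = b := by
  have h1 : P231.ip x (a - b) (a - b) = 0 := by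
    rw [ip_sub_left', h, sub_self]
  exact sub_eq_zero.1 (eq_zero_of_ip h1)

theorem HasD.unique {x : M} {u : E} {Y : ℝ → E} {Z Z' : E} {t : ℝ}
    (h : HasD cov e x u Y Z t) (h' : HasD cov e x u Y Z' t) : Z = Z' := by
  refine eq_of_ip (x := gam e x u t) fun c => ?_
  obtain ⟨X, hX⟩ := exists_vv (gam e x u t) c
  have h1 := (h X).unique (h' X)
  rw [hX] at h1
  exact add_right_cancel h1

theorem HasD.congr {x : M} {u : E} {Y Y' : ℝ → E} {Z : E} {t : ℝ}
    (h : HasD cov e x u Y Z t) (hY : ∀ᶠ r in 𝓝 t, Y r = Y' r) : HasD cov e x u Y' Z t := by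
  intro X
  have h1 := h X
  rw [hY.self_of_nhds] at h1
  refine h1.congr_of_eventuallyEq ?_
  filter_upwards [hY] with r hr
  rw [hr]

theorem HasD.add {x : M} {u : E} {Y Y' : ℝ → E} {Z Z' : E} {t : ℝ}
    (h : HasD cov e x u Y Z t) (h' : HasD cov e x u Y' Z' t) :
    HasD cov e x u (fun r => Y r + Y' r) (Z + Z') t := by
  intro X
  have h1 := (h X).fun_add (h' X)
  simp only [ip_add_left]
  refine HasDerivAt.congr_deriv h1 ?_
  ring

theorem HasD.smul {x : M} {u : E} {Y : ℝ → E} {Z : E} {t : ℝ} {φ : ℝ → ℝ} {φ' : ℝ}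
    (h : HasD cov e x u Y Z t) (hφ : HasDerivAt φ φ' t) :
    HasD cov e x u (fun r => φ r • Y r) (φ' • Y t + φ t • Z) t := by
  intro X
  have h1 := hφ.fun_mul (h X)
  simp only [ip_add_left, ip_smul_left']
  refine HasDerivAt.congr_deriv h1 ?_
  ring

theorem HasD.const_smul {x : M} {u : E} {Y : ℝ → E} {Z : E} {t : ℝ} (c : ℝ)
    (h : HasD cov e x u Y Z t) : HasD cov e x u (fun r => c • Y r) (c • Z) t := by
  have h1 := h.smul (hasDerivAt_const t c)
  simpa using h1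

theorem HasD.neg {x : M} {u : E} {Y : ℝ → E} {Z : E} {t : ℝ}
    (h : HasD cov e x u Y Z t) : HasD cov e x u (fun r => - Y r) (- Z) t := by
  have h1 := h.const_smul (-1)
  simpa using h1

theorem HasD.sub {x : M} {u : E} {Y Y' : ℝ → E} {Z Z' : E} {t : ℝ}
    (h : HasD cov e x u Y Z t) (h' : HasD cov e x u Y' Z' t) :
    HasD cov e x u (fun r => Y r - Y' r) (Z - Z') t := by
  simp only [sub_eq_add_neg]
  exact h.add h'.neg

theorem parseval_raw (hE : Module.finrank ℝ E = 4) {q : M} {G : Fin 4 → VF E M}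
    (hG : ∀ i j, gVF (G i) (G j) q = if i = j then 1 else 0) (a b : E) :
    P231.ip q a b = ∑ i, P231.ip q a (vv (G i) q) * P231.ip q b (vv (G i) q) := by
  obtain ⟨A, hA⟩ := exists_vv q a
  have h1 := expandVF hE q G hG A
  have h2 : a = ∑ i, P231.ip q a (vv (G i) q) • vv (G i) q := by
    conv_lhs => rw [← hA]
    refine h1.trans ?_
    refine Finset.sum_congr rfl fun i _ => ?_
    have h3 : gVF A (G i) q = P231.ip q a (vv (G i) q) := by rw [← hA]; rfl
    exact congrArg (fun c : ℝ => c • vv (G i) q) h3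
  conv_lhs => rw [h2, asm_ip_sum_left]
  refine Finset.sum_congr rfl fun i _ => ?_
  rw [ip_smul_left', ip_comm' q (vv (G i) q) b]

theorem exists_sync (hcov : IsLC cov) (hE : Module.finrank ℝ E = 4) (q : M) :
    ∃ G : Fin 4 → VF E M, (∀ᶠ z in 𝓝 q, ∀ i j, gVF (G i) (G j) z = if i = j then 1 else 0) ∧
      ∀ i v, cc cov (G i) q v = 0 := by
  obtain ⟨G0, hG0⟩ := exists_frame4 (E := E) hE q
  obtain ⟨G, h1, -, h3⟩ := syncVF hcov hE q G0 hG0
  refine ⟨G, h1, fun i v => ?_⟩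
  obtain ⟨V, hV⟩ := exists_vv q v
  have := h3 V i
  rw [← hV]
  exact this

/-- the metric is parallel -/
theorem HasD.inner (hcov : IsLC cov) (hE : Module.finrank ℝ E = 4) (F : Facts e)
    {x : M} {u : E} {Y Y' : ℝ → E} {Z Z' : E} {t : ℝ}
    (h : HasD cov e x u Y Z t) (h' : HasD cov e x u Y' Z' t) :
    HasDerivAt (fun r => P231.ip (gam e x u r) (Y r) (Y' r))
      (P231.ip (gam e x u t) Z (Y' t) + P231.ip (gam e x u t) (Y t) Z') t := by
  obtain ⟨G, hG, hG0⟩ := exists_sync hcov hE (gam e x u t)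
  have hc : ContinuousAt (gam e x u) t := (contMDiff_gam F.isExp x u).continuous.continuousAt
  have hev : ∀ᶠ r in 𝓝 t, ∀ i j, gVF (G i) (G j) (gam e x u r) = if i = j then 1 else 0 :=
    hc.eventually hG
  have h1 : ∀ i, HasDerivAt (fun r => P231.ip (gam e x u r) (Y r) (vv (G i) (gam e x u r)) *
      P231.ip (gam e x u r) (Y' r) (vv (G i) (gam e x u r)))
      (P231.ip (gam e x u t) Z (vv (G i) (gam e x u t)) *
        P231.ip (gam e x u t) (Y' t) (vv (G i) (gam e x u t)) +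
        P231.ip (gam e x u t) (Y t) (vv (G i) (gam e x u t)) *
        P231.ip (gam e x u t) Z' (vv (G i) (gam e x u t))) t := by
    intro i
    have a1 := h (G i)
    have a2 := h' (G i)
    rw [hG0, asm_ip_zero_right, add_zero] at a1 a2
    exact a1.fun_mul a2
  have h2 := HasDerivAt.fun_sum (u := Finset.univ) fun i _ => h1 i
  have h3 := h2.congr_of_eventuallyEq (f₁ := fun r => P231.ip (gam e x u r) (Y r) (Y' r)) (by
    filter_upwards [hev] with r hr
    exact parseval_raw hE hr _ _)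
  refine h3.congr_deriv ?_
  rw [Finset.sum_add_distrib, ← parseval_raw hE hev.self_of_nhds,
    ← parseval_raw hE hev.self_of_nhds]

/-! ### the curvature operator on raw vectors -/

theorem vv_ext {q : M} {A B : VF E M} (h : ∀ D : VF E M, gVF A D q = gVF B D q) :
    vv A q = vv B q := by
  refine eq_of_ip (x := q) fun c => ?_
  obtain ⟨D, hD⟩ := exists_vv q c
  have := h D
  rw [← hD]
  exact this

theorem R_congr1 (hcov : IsLC cov) {q : M} {A A' : VF E M} (B C : VF E M) (h : vv A q = vv A' q) :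
    vv ((lcOf hcov).R A B C) q = vv ((lcOf hcov).R A' B C) q := by
  refine vv_ext fun D => ?_
  let Φ : VF E M →ₗ[SF E M] SF E M := ⟨⟨fun X => (lcOf hcov).Rm X B C D,
    fun a b => (lcOf hcov).isT4_Rm.add1 a b B C D⟩, fun a b => (lcOf hcov).isT4_Rm.smul1 a b B C D⟩
  have h1 := lin_ptwise Φ (x := q) (Z := A - A') (sub_eq_zero.2 h)
  rw [map_sub] at h1
  exact sub_eq_zero.1 h1

theorem R_congr2 (hcov : IsLC cov) {q : M} (A : VF E M) {B B' : VF E M} (C : VF E M)
    (h : vv B q = vv B' q) :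
    vv ((lcOf hcov).R A B C) q = vv ((lcOf hcov).R A B' C) q := by
  refine vv_ext fun D => ?_
  let Φ : VF E M →ₗ[SF E M] SF E M := ⟨⟨fun X => (lcOf hcov).Rm A X C D,
    fun a b => (lcOf hcov).isT4_Rm.add2 A a b C D⟩, fun a b => (lcOf hcov).isT4_Rm.smul2 a A b C D⟩
  have h1 := lin_ptwise Φ (x := q) (Z := B - B') (sub_eq_zero.2 h)
  rw [map_sub] at h1
  exact sub_eq_zero.1 h1

theorem R_congr3 (hcov : IsLC cov) {q : M} (A B : VF E M) {C C' : VF E M}
    (h : vv C q = vv C' q) :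
    vv ((lcOf hcov).R A B C) q = vv ((lcOf hcov).R A B C') q := by
  refine vv_ext fun D => ?_
  let Φ : VF E M →ₗ[SF E M] SF E M := ⟨⟨fun X => (lcOf hcov).Rm A B X D,
    fun a b => (lcOf hcov).isT4_Rm.add3 A B a b D⟩, fun a b => (lcOf hcov).isT4_Rm.smul3 a A B b D⟩
  have h1 := lin_ptwise Φ (x := q) (Z := C - C') (sub_eq_zero.2 h)
  rw [map_sub] at h1
  exact sub_eq_zero.1 h1

theorem R_congr (hcov : IsLC cov) {q : M} {A A' B B' C C' : VF E M} (h1 : vv A q = vv A' q)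
    (h2 : vv B q = vv B' q) (h3 : vv C q = vv C' q) :
    vv ((lcOf hcov).R A B C) q = vv ((lcOf hcov).R A' B' C') q := by
  rw [R_congr1 hcov B C h1, R_congr2 hcov A' C h2, R_congr3 hcov A' B' h3]

/-- the curvature on raw vectors: `R(a, b) c` -/
def Rv (hcov : IsLC cov) (q : M) (a b c : E) : E :=
  vv ((lcOf hcov).R (exists_vv q a).choose (exists_vv q b).choose (exists_vv q c).choose) q

theorem Rv_eq (hcov : IsLC cov) (q : M) (A B C : VF E M) :
    vv ((lcOf hcov).R A B C) q = Rv hcov q (vv A q) (vv B q) (vv C q) :=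
  R_congr hcov (exists_vv q (vv A q)).choose_spec.symm (exists_vv q (vv B q)).choose_spec.symm
    (exists_vv q (vv C q)).choose_spec.symm

theorem Rm_eq (hcov : IsLC cov) (q : M) (A B C D : VF E M) :
    (lcOf hcov).Rm A B C D q = P231.ip q (Rv hcov q (vv A q) (vv B q) (vv C q)) (vv D q) := by
  rw [← Rv_eq]
  rfl

theorem vv_add (A B : VF E M) (q : M) : vv (A + B) q = vv A q + vv B q := rfl

theorem vv_smul (c : ℝ) (A : VF E M) (q : M) : vv (algebraMap ℝ (SF E M) c • A) q = c • vv A q :=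
  rfl

theorem Rv_add1 (hcov : IsLC cov) (q : M) (a a' b c : E) :
    Rv hcov q (a + a') b c = Rv hcov q a b c + Rv hcov q a' b c := by
  obtain ⟨A, rfl⟩ := exists_vv q a
  obtain ⟨A', rfl⟩ := exists_vv q a'
  obtain ⟨B, rfl⟩ := exists_vv q b
  obtain ⟨C, rfl⟩ := exists_vv q c
  rw [← vv_add, ← Rv_eq, ← Rv_eq, ← Rv_eq, (lcOf hcov).R_add1, vv_add]

theorem Rv_smul1 (hcov : IsLC cov) (q : M) (k : ℝ) (a b c : E) :
    Rv hcov q (k • a) b c = k • Rv hcov q a b c := by
  obtain ⟨A, rfl⟩ := exists_vv q a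
  obtain ⟨B, rfl⟩ := exists_vv q b
  obtain ⟨C, rfl⟩ := exists_vv q c
  rw [← vv_smul, ← Rv_eq, ← Rv_eq, (lcOf hcov).R_smul1, vv_smul]

theorem Rv_smul2 (hcov : IsLC cov) (q : M) (k : ℝ) (a b c : E) :
    Rv hcov q a (k • b) c = k • Rv hcov q a b c := by
  obtain ⟨A, rfl⟩ := exists_vv q a
  obtain ⟨B, rfl⟩ := exists_vv q b
  obtain ⟨C, rfl⟩ := exists_vv q c
  rw [← vv_smul, ← Rv_eq, ← Rv_eq, (lcOf hcov).R_smul2, vv_smul]

theorem Rv_smul3 (hcov : IsLC cov) (q : M) (k : ℝ) (a b c : E) :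
    Rv hcov q a b (k • c) = k • Rv hcov q a b c := by
  obtain ⟨A, rfl⟩ := exists_vv q a
  obtain ⟨B, rfl⟩ := exists_vv q b
  obtain ⟨C, rfl⟩ := exists_vv q c
  rw [← vv_smul, ← Rv_eq, ← Rv_eq, (lcOf hcov).R_smul3, vv_smul]

theorem Rv_anti (hcov : IsLC cov) (q : M) (a b c : E) :
    Rv hcov q a b c = - Rv hcov q b a c := by
  obtain ⟨A, rfl⟩ := exists_vv q a
  obtain ⟨B, rfl⟩ := exists_vv q b
  obtain ⟨C, rfl⟩ := exists_vv q c
  rw [← Rv_eq, ← Rv_eq, (lcOf hcov).R_anti]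
  rfl

/-- symmetry of the Jacobi operator -/
theorem Rv_symm (hcov : IsLC cov) (q : M) (a b v : E) :
    P231.ip q (Rv hcov q a v v) b = P231.ip q (Rv hcov q b v v) a := by
  obtain ⟨A, rfl⟩ := exists_vv q a
  obtain ⟨B, rfl⟩ := exists_vv q b
  obtain ⟨V, rfl⟩ := exists_vv q v
  rw [← Rm_eq, ← Rm_eq, (lcOf hcov).Rm_pair, (lcOf hcov).Rm_anti12, (lcOf hcov).Rm_anti34, neg_neg]

/-- the curvature is parallel -/
def RPar (hcov : IsLC cov) : Prop :=
  ∀ (U X Y Z W : VF E M) (q : M), (lcOf hcov).d1 (lcOf hcov).Rm U X Y Z W q = 0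

theorem nab_R (hcov : IsLC cov) (hp : RPar hcov) (U X Y Z : VF E M) (q : M) :
    vv ((lcOf hcov).nab U ((lcOf hcov).R X Y Z)) q =
      vv ((lcOf hcov).R ((lcOf hcov).nab U X) Y Z) q +
      vv ((lcOf hcov).R X ((lcOf hcov).nab U Y) Z) q +
      vv ((lcOf hcov).R X Y ((lcOf hcov).nab U Z)) q := by
  rw [← vv_add, ← vv_add]
  refine vv_ext fun D => ?_
  have h1 := hp U X Y Z D q
  have h2 := congrArg (fun f : SF E M => f q)
    ((lcOf hcov).metric U ((lcOf hcov).R X Y Z) D)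
  have h3 : (lcOf hcov).D U ((lcOf hcov).Rm X Y Z D) q -
      (lcOf hcov).Rm ((lcOf hcov).nab U X) Y Z D q - (lcOf hcov).Rm X ((lcOf hcov).nab U Y) Z D q -
      (lcOf hcov).Rm X Y ((lcOf hcov).nab U Z) D q - (lcOf hcov).Rm X Y Z ((lcOf hcov).nab U D) q
        = 0 := h1
  have h4 : (lcOf hcov).D U ((lcOf hcov).Rm X Y Z D) q =
      (lcOf hcov).g ((lcOf hcov).nab U ((lcOf hcov).R X Y Z)) D q +
        (lcOf hcov).Rm X Y Z ((lcOf hcov).nab U D) q := h2
  have h5 : gVF ((lcOf hcov).R ((lcOf hcov).nab U X) Y Z + (lcOf hcov).R X ((lcOf hcov).nab U Y) Z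
      + (lcOf hcov).R X Y ((lcOf hcov).nab U Z)) D q =
      (lcOf hcov).Rm ((lcOf hcov).nab U X) Y Z D q + (lcOf hcov).Rm X ((lcOf hcov).nab U Y) Z D q +
      (lcOf hcov).Rm X Y ((lcOf hcov).nab U Z) D q := by
    have h6 := congrArg (fun f : SF E M => f q) ((lcOf hcov).g_add_left
      ((lcOf hcov).R ((lcOf hcov).nab U X) Y Z + (lcOf hcov).R X ((lcOf hcov).nab U Y) Z)
      ((lcOf hcov).R X Y ((lcOf hcov).nab U Z)) D)
    have h7 := congrArg (fun f : SF E M => f q) ((lcOf hcov).g_add_left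
      ((lcOf hcov).R ((lcOf hcov).nab U X) Y Z) ((lcOf hcov).R X ((lcOf hcov).nab U Y) Z) D)
    refine h6.trans ?_
    change (lcOf hcov).g ((lcOf hcov).R ((lcOf hcov).nab U X) Y Z +
      (lcOf hcov).R X ((lcOf hcov).nab U Y) Z) D q + _ = _
    exact congrArg (fun z : ℝ => z + (lcOf hcov).Rm X Y ((lcOf hcov).nab U Z) D q) h7
  rw [h5]
  change (lcOf hcov).g ((lcOf hcov).nab U ((lcOf hcov).R X Y Z)) D q = _
  linarith

end

end Vale.Agent.P211.HK.Jac
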