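import Vale.Agent.P211.HK.JacB

/-! P211 / HK / JAC, third part: geodesics and the Jacobi equation. -/

set_option maxSynthPendingDepth 3
set_option linter.all false

namespace Vale.Agent.P211.HK.Jac

open scoped Manifold ContDiff Topology
open Bundle Filter VectorField MeasureTheory Set
open Vale.Agent.P234 Vale.Agent.P231 Vale.Agent.P211.S4

noncomputable section

variable {E : Type*} [NormedAddCommGroup E] [NormedSpace ℝ E] [FiniteDimensional ℝ E]
  {M : Type*} [MetricSpace M] [ChartedSpace E M] [IsManifold 𝓘(ℝ, E) ∞ M]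
  [RiemannianBundle (fun x : M => TangentSpace 𝓘(ℝ, E) x)]
  [IsContMDiffRiemannianBundle 𝓘(ℝ, E) ∞ E (fun x : M => TangentSpace 𝓘(ℝ, E) x)]
  [IsRiemannianManifold 𝓘(ℝ, E) M] [CompactSpace M] [ConnectedSpace M]

variable {cov : CovariantDerivative 𝓘(ℝ, E) E (TangentSpace 𝓘(ℝ, E) : M → Type _)}
  {e : ∀ x : M, TangentSpace 𝓘(ℝ, E) x → M}

theorem cc_smul (Y : VF E M) (q : M) (c : ℝ) (v : E) : cc cov Y q (c • v) = c • cc cov Y q v :=
  map_smul (cov Y q) c (v : TangentSpace 𝓘(ℝ, E) q)

theorem nab_vv (hcov : IsLC cov) (X Y : VF E M) (q : M) :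
    vv (nabVF cov hcov.smooth X Y) q = cc cov Y q (vv X q) := rfl

/-- normal coordinates at `gam e x u a` of the point `gam e x u t` -/
def nc (e : ∀ x : M, TangentSpace 𝓘(ℝ, E) x → M) (x : M) (u : E) (a t : ℝ) : Eu E :=
  (t - a) • (fr (gam e x u a)).symm (vel e x u a)

theorem fr_nc (x : M) (u : E) (a t : ℝ) :
    fr (gam e x u a) (nc e x u a t) = (t - a) • vel e x u a := by
  rw [nc, map_smul, ContinuousLinearEquiv.apply_symm_apply]

theorem norm_nc (F : Facts e) (x : M) (u : E) (hu : nm x u = 1) (a t : ℝ) :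
    ‖nc e x u a t‖ = |t - a| := by
  rw [nc, norm_smul, ← nm_fr (gam e x u a), ContinuousLinearEquiv.apply_symm_apply, nm_vel F, hu,
    mul_one, Real.norm_eq_abs]

theorem ef_nc (F : Facts e) (x : M) (u : E) (a t : ℝ) :
    ef e (gam e x u a) (nc e x u a t) = gam e x u t := by
  have h := gam_flow F x u a (t - a)
  rw [add_sub_cancel] at h
  rw [← h]
  exact congrArg (e (gam e x u a)) (fr_nc x u a t)

variable {x : M} {u : E} {a r : ℝ}

theorem N_gam (F : Facts e) (hu : nm x u = 1) (B : Nball e (gam e x u a) r) {t : ℝ}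
    (ht : |t - a| < r) : vv B.N (gam e x u t) = (t - a) • vel e x u t := by
  have h1 := B.N_apply (ξ := nc e x u a t) (by rw [norm_nc F x u hu]; exact ht)
  rw [fr_nc] at h1
  have h2 : vv B.N (ef e (gam e x u a) (nc e x u a t)) = _ := h1
  rw [ef_nc F, dE_smul] at h2
  rw [h2]
  congr 1
  have h3 := vel_flow F x u a (t - a)
  rw [add_sub_cancel] at h3
  exact h3

theorem C_gam (F : Facts e) (hu : nm x u = 1) (B : Nball e (gam e x u a) r) {t : ℝ}
    (ht : |t - a| < r) (c : Eu E) :
    (t - a) • vv (B.Cc c) (gam e x u t) = jf e x u a t (fr (gam e x u a) c) := by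
  have h1 := B.Cc_apply c (ξ := nc e x u a t) (by rw [norm_nc F x u hu]; exact ht)
  rw [fr_nc] at h1
  have h2 : vv (B.Cc c) (ef e (gam e x u a) (nc e x u a t)) = _ := h1
  rw [ef_nc F] at h2
  rw [h2]
  rfl

section

variable (hcov : IsLC cov) (F : Facts e) {D : ℝ} (hB : InjGE e D) (hr : r < D)
  (hu : nm x u = 1) (B : Nball e (gam e x u a) r)
include hcov F hB hr hu B

theorem raw_N_N {t : ℝ} (ht : |t - a| < r) :
    cc cov B.N (gam e x u t) (vv B.N (gam e x u t)) = vv B.N (gam e x u t) := by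
  have h1 := B.nab_N_N hcov F hB hr (ξ := nc e x u a t) (by rw [norm_nc F x u hu]; exact ht)
  have h2 : cc cov B.N (ef e (gam e x u a) (nc e x u a t))
    (vv B.N (ef e (gam e x u a) (nc e x u a t))) =
      vv B.N (ef e (gam e x u a) (nc e x u a t)) := h1
  rwa [ef_nc F] at h2

theorem raw_C_N (c : Eu E) {t : ℝ} (ht : |t - a| < r) :
    cc cov B.N (gam e x u t) (vv (B.Cc c) (gam e x u t)) = vv (B.Cc c) (gam e x u t) +
      cc cov (B.Cc c) (gam e x u t) (vv B.N (gam e x u t)) := by
  have h1 := B.nab_C_N hcov F hB hr c (ξ := nc e x u a t) (by rw [norm_nc F x u hu]; exact ht)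
  have h2 : cc cov B.N (ef e (gam e x u a) (nc e x u a t))
      (vv (B.Cc c) (ef e (gam e x u a) (nc e x u a t))) =
      vv (B.Cc c) (ef e (gam e x u a) (nc e x u a t)) +
      cc cov (B.Cc c) (ef e (gam e x u a) (nc e x u a t))
        (vv B.N (ef e (gam e x u a) (nc e x u a t))) := h1
  rwa [ef_nc F] at h2

theorem raw_R (c : Eu E) {t : ℝ} (ht : |t - a| < r) :
    cc cov (nabVF cov hcov.smooth (B.Cc c) B.N) (gam e x u t) (vv B.N (gam e x u t)) =
      Rv hcov (gam e x u t) (vv B.N (gam e x u t)) (vv (B.Cc c) (gam e x u t))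
        (vv B.N (gam e x u t)) := by
  have h1 := B.nab_N_nab_C_N hcov F hB hr c (ξ := nc e x u a t)
    (by rw [norm_nc F x u hu]; exact ht)
  have h2 : cc cov (nabVF cov hcov.smooth (B.Cc c) B.N) (ef e (gam e x u a) (nc e x u a t))
      (vv B.N (ef e (gam e x u a) (nc e x u a t))) =
      vv ((lcOf hcov).R B.N (B.Cc c) B.N) (ef e (gam e x u a) (nc e x u a t)) := h1
  rwa [ef_nc F, Rv_eq] at h2

/-- the velocity is parallel -/
theorem hasD_vel_aux {t : ℝ} (ht : |t - a| < r) (hta : t ≠ a) :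
    HasD cov e x u (vel e x u) 0 t := by
  have h0 : t - a ≠ 0 := sub_ne_zero.2 hta
  have h1 := hasD_field hcov F x u B.N t
  have hφ : HasDerivAt (fun s : ℝ => (s - a)⁻¹) (-1 / (t - a) ^ 2) t :=
    ((hasDerivAt_id t).sub_const a).inv h0
  have h2 := h1.smul hφ
  have hopen : ∀ᶠ s in 𝓝 t, |s - a| < r ∧ s - a ≠ 0 := by
    refine Filter.Eventually.and ?_ ?_
    · exact (continuous_abs.comp (continuous_id.sub continuous_const)).continuousAt.eventually
        (Iio_mem_nhds ht)
    · exact (continuous_id.sub continuous_const).continuousAt.eventually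
        (isOpen_ne.mem_nhds h0)
  have h3 : ∀ᶠ s in 𝓝 t, (s - a)⁻¹ • vv B.N (gam e x u s) = vel e x u s := by
    filter_upwards [hopen] with s hs
    rw [N_gam F hu B hs.1, smul_smul, inv_mul_cancel₀ hs.2, one_smul]
  have h4 := h2.congr h3
  have h5 : (-1 / (t - a) ^ 2) • vv B.N (gam e x u t) +
      (t - a)⁻¹ • cc cov B.N (gam e x u t) (vel e x u t) = 0 := by
    have h6 := raw_N_N hcov F hB hr hu B ht
    rw [N_gam F hu B ht, cc_smul] at h6
    have h7 : cc cov B.N (gam e x u t) (vel e x u t) = vel e x u t := by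
      have := congrArg (fun z : E => (t - a)⁻¹ • z) h6
      simpa [smul_smul, inv_mul_cancel₀ h0] using this
    rw [h7, N_gam F hu B ht, smul_smul, ← add_smul]
    have : -1 / (t - a) ^ 2 * (t - a) + (t - a)⁻¹ = 0 := by field_simp; ring
    rw [this, zero_smul]
  rw [h5] at h4
  exact h4

/-- the Jacobi field vanishing at `a`: first derivative -/
theorem hasD_jf_aux (c : Eu E) {t : ℝ} (ht : |t - a| < r) :
    HasD cov e x u (fun s => jf e x u a s (fr (gam e x u a) c))
      (vv (nabVF cov hcov.smooth (B.Cc c) B.N) (gam e x u t)) t := by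
  have h1 := hasD_field hcov F x u (B.Cc c) t
  have h2 := h1.smul ((hasDerivAt_id t).sub_const a)
  have hopen : ∀ᶠ s in 𝓝 t, |s - a| < r :=
    (continuous_abs.comp (continuous_id.sub continuous_const)).continuousAt.eventually
        (Iio_mem_nhds ht)
  have h3 : ∀ᶠ s in 𝓝 t, (id s - a) • vv (B.Cc c) (gam e x u s) =
      jf e x u a s (fr (gam e x u a) c) := by
    filter_upwards [hopen] with s hs
    exact C_gam F hu B hs c
  have h4 := h2.congr h3
  have h5 : (1 : ℝ) • vv (B.Cc c) (gam e x u t) +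
      (id t - a) • cc cov (B.Cc c) (gam e x u t) (vel e x u t) =
      vv (nabVF cov hcov.smooth (B.Cc c) B.N) (gam e x u t) := by
    rw [nab_vv hcov, raw_C_N hcov F hB hr hu B c ht, N_gam F hu B ht, cc_smul, one_smul]
    rfl
  rw [h5] at h4
  exact h4

/-- the Jacobi field vanishing at `a`: second derivative -/
theorem hasD2_jf_aux (c : Eu E) {t : ℝ} (ht : |t - a| < r) (hta : t ≠ a) :
    HasD cov e x u (fun s => vv (nabVF cov hcov.smooth (B.Cc c) B.N) (gam e x u s))
      (- Rv hcov (gam e x u t) (jf e x u a t (fr (gam e x u a) c)) (vel e x u t) (vel e x u t))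
      t := by
  have h0 : t - a ≠ 0 := sub_ne_zero.2 hta
  have h1 := hasD_field hcov F x u (nabVF cov hcov.smooth (B.Cc c) B.N) t
  have h2 := raw_R hcov F hB hr hu B c ht
  rw [N_gam F hu B ht, cc_smul, Rv_smul1, Rv_smul3] at h2
  have h3 : cc cov (nabVF cov hcov.smooth (B.Cc c) B.N) (gam e x u t) (vel e x u t) =
      - Rv hcov (gam e x u t) (jf e x u a t (fr (gam e x u a) c)) (vel e x u t)
        (vel e x u t) := by
    have h4 := congrArg (fun z : E => (t - a)⁻¹ • z) h2
    simp only [smul_smul, inv_mul_cancel₀ h0, one_smul] at h4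
    rw [h4, ← C_gam F hu B ht c, Rv_smul1, Rv_anti hcov _ (vel e x u t)]
    rw [← mul_assoc, inv_mul_cancel₀ h0, one_mul, smul_neg]
  rw [h3] at h1
  exact h1

end

/-- the velocity of a geodesic is parallel -/
theorem hasD_vel (hcov : IsLC cov) (F : Facts e) (hu : nm x u = 1) (t : ℝ) :
    HasD cov e x u (vel e x u) 0 t := by
  obtain ⟨D, hD, hB⟩ := injGE_small F
  obtain ⟨B⟩ := exists_nball F hD hB (gam e x u (t - D / 4)) (r := D / 2) (by linarith)
  refine hasD_vel_aux hcov F hB (by linarith) hu B ?_ (by linarith)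
  rw [sub_sub_cancel, abs_of_pos (by linarith)]
  linarith

/-- the Jacobi equation, local form -/
theorem jacobi_local (hcov : IsLC cov) (F : Facts e) (hu : nm x u = 1) (s : ℝ) (w : E) (τ : ℝ) :
    ∃ J1 : ℝ → E, ∀ᶠ t in 𝓝 τ, HasD cov e x u (fun t => jf e x u s t w) (J1 t) t ∧
      HasD cov e x u J1 (- Rv hcov (gam e x u t) (jf e x u s t w) (vel e x u t) (vel e x u t))
        t := by
  obtain ⟨D, hD, hB⟩ := injGE_small F
  obtain ⟨ρ, hρ, hrel⟩ := exists_rel F
  set δ : ℝ := min ρ (D / 2) / 4 with hδ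
  have hδ0 : 0 < δ := by
    have : 0 < min ρ (D / 2) := lt_min hρ (by linarith)
    rw [hδ]; linarith
  have hδ1 : 4 * δ ≤ ρ := by
    have := min_le_left ρ (D / 2)
    rw [hδ]; linarith
  have hδ2 : 4 * δ ≤ D / 2 := by
    have := min_le_right ρ (D / 2)
    rw [hδ]; linarith
  obtain ⟨X, Z, hXZ⟩ := hrel x u hu (τ - δ) (τ + δ) (by linarith) (by linarith) s w
  obtain ⟨A⟩ := exists_nball F hD hB (gam e x u (τ - δ)) (r := D / 2) (by linarith)
  obtain ⟨B⟩ := exists_nball F hD hB (gam e x u (τ + δ)) (r := D / 2) (by linarith)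
  set cX := (fr (gam e x u (τ - δ))).symm X with hcX
  set cZ := (fr (gam e x u (τ + δ))).symm Z with hcZ
  have eX : fr (gam e x u (τ - δ)) cX = X := by rw [hcX, ContinuousLinearEquiv.apply_symm_apply]
  have eZ : fr (gam e x u (τ + δ)) cZ = Z := by rw [hcZ, ContinuousLinearEquiv.apply_symm_apply]
  have hr : D / 2 < D := by linarith
  refine ⟨fun t => vv (nabVF cov hcov.smooth (A.Cc cX) A.N) (gam e x u t) +
    vv (nabVF cov hcov.smooth (B.Cc cZ) B.N) (gam e x u t), ?_⟩
  have hball : ∀ᶠ t in 𝓝 τ, |t - τ| < δ := by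
    filter_upwards [Metric.ball_mem_nhds τ hδ0] with t ht
    rwa [Metric.mem_ball, Real.dist_eq] at ht
  filter_upwards [hball] with t ht
  rw [abs_lt] at ht
  have ha : |t - (τ - δ)| < D / 2 := by rw [abs_lt]; constructor <;> linarith
  have hb : |t - (τ + δ)| < D / 2 := by rw [abs_lt]; constructor <;> linarith
  have ha' : t ≠ τ - δ := by intro h; linarith
  have hb' : t ≠ τ + δ := by intro h; linarith
  have a1 := hasD_jf_aux hcov F hB hr hu A cX ha
  have b1 := hasD_jf_aux hcov F hB hr hu B cZ hb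
  have a2 := hasD2_jf_aux hcov F hB hr hu A cX ha ha'
  have b2 := hasD2_jf_aux hcov F hB hr hu B cZ hb hb'
  rw [eX] at a1 a2
  rw [eZ] at b1 b2
  constructor
  · refine (a1.add b1).congr (Filter.Eventually.of_forall fun r => ?_)
    exact (hXZ r).symm
  · have h := a2.add b2
    rw [hXZ t, Rv_add1, neg_add]
    exact h

/-- initial value of the derivative of a Jacobi field -/
theorem hasD_jf_zero (F : Facts e) (s : ℝ) (w : E) :
    HasD cov e x u (fun t => jf e x u s t w) w s := by
  intro X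
  have hY : ContMDiff 𝓘(ℝ, ℝ) 𝓘(ℝ, E).tangent ∞
      (fun t : ℝ => tb (gam e x u t) (dE e (gam e x u s) ((t - s) • vel e x u s) w)) := by
    have hc := contDiff_line (V := TangentSpace 𝓘(ℝ, E) (gam e x u s)) (vel (E := E) e x u s : E) s
    have hd := contDiff_cst (V := TangentSpace 𝓘(ℝ, E) (gam e x u s)) w
    have h := contMDiff_dE F.isExp (gam e x u s) hc hd
    refine h.congr fun t => ?_
    refine tb_congr ?_ rfl
    have := gam_flow F x u s (t - s)
    rw [add_sub_cancel] at this
    exact this.symm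
  have hX : ContMDiff 𝓘(ℝ, ℝ) 𝓘(ℝ, E).tangent ∞
      (fun t : ℝ => tb (gam e x u t) (vv X (gam e x u t))) :=
    X.contMDiff.comp (contMDiff_gam F.isExp x u)
  have hg := contDiff_ip_tb hY hX
  have hg' := (hg.differentiable (by simp)).differentiableAt (x := s)
  have h1 : HasDerivAt (fun t : ℝ => t - s) 1 s := (hasDerivAt_id s).sub_const s
  have h2 := h1.fun_mul hg'.hasDerivAt
  have h3 : (fun t => P231.ip (gam e x u t) (jf e x u s t w) (vv X (gam e x u t))) =
      fun t => (t - s) * P231.ip (gam e x u t) (dE e (gam e x u s) ((t - s) • vel e x u s) w)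
        (vv X (gam e x u t)) := by
    funext t
    rw [← ip_smul_left']
    rfl
  rw [h3]
  refine h2.congr_deriv ?_
  have h4 : (fun t => jf e x u s t w) s = 0 := by
    change jf e x u s s w = 0
    rw [jf, sub_self, zero_smul]
  rw [sub_self, zero_mul, add_zero, one_mul, zero_smul, dE_zero_base F.isExp, h4, ip_zero_left',
    add_zero]

/-- the Jacobi equation -/
theorem jacobi (hcov : IsLC cov) (F : Facts e) (hu : nm x u = 1) (s : ℝ) (w : E) :
    ∃ J1 : ℝ → E, J1 s = w ∧
      (∀ t, HasD cov e x u (fun t => jf e x u s t w) (J1 t) t) ∧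
      ∀ t, HasD cov e x u J1
        (- Rv hcov (gam e x u t) (jf e x u s t w) (vel e x u t) (vel e x u t)) t := by
  choose L hL using jacobi_local (cov := cov) (x := x) (u := u) hcov F hu s w
  have h0 : ∀ t, HasD cov e x u (fun t => jf e x u s t w) (L t t) t := fun t =>
    (hL t).self_of_nhds.1
  refine ⟨fun t => L t t, ?_, h0, fun t => ?_⟩
  · exact (h0 s).unique (hasD_jf_zero F s w)
  · have h1 := (hL t).self_of_nhds.2
    refine h1.congr ?_
    filter_upwards [hL t] with r hr
    exact hr.1.unique (h0 r)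

/-- the Jacobi operator is parallel -/
theorem K_par (hcov : IsLC cov) (F : Facts e) (hp : RPar hcov) (hu : nm x u = 1) {Y : ℝ → E}
    {Z : E} {t : ℝ} (h : HasD cov e x u Y Z t) :
    HasD cov e x u (fun s => Rv hcov (gam e x u s) (Y s) (vel e x u s) (vel e x u s))
      (Rv hcov (gam e x u t) Z (vel e x u t) (vel e x u t)) t := by
  obtain ⟨D, hD, hB⟩ := injGE_small F
  set a := t - D / 4 with ha
  obtain ⟨B⟩ := exists_nball F hD hB (gam e x u a) (r := D / 2) (by linarith)
  have hr : D / 2 < D := by linarith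
  have hta : t - a = D / 4 := by rw [ha]; ring
  have ht : |t - a| < D / 2 := by rw [hta, abs_of_pos (by linarith)]; linarith
  have h0 : t - a ≠ 0 := by rw [hta]; positivity
  intro X
  have hopen : ∀ᶠ s in 𝓝 t, |s - a| < D / 2 ∧ s - a ≠ 0 := by
    refine Filter.Eventually.and ?_ ?_
    · exact (continuous_abs.comp (continuous_id.sub continuous_const)).continuousAt.eventually
        (Iio_mem_nhds ht)
    · exact (continuous_id.sub continuous_const).continuousAt.eventually
        (isOpen_ne.mem_nhds h0)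
  set W : VF E M := (lcOf hcov).R X B.N B.N with hW
  have h1 := h W
  have hφ : HasDerivAt (fun s : ℝ => ((s - a)⁻¹) ^ 2) (2 * (t - a)⁻¹ * (-1 / (t - a) ^ 2)) t := by
    have h2 := ((hasDerivAt_id t).sub_const a).inv h0
    have h3 := h2.pow 2
    refine HasDerivAt.congr_deriv h3 ?_
    simp
  have h2 := hφ.fun_mul h1
  have hval : ∀ s, |s - a| < D / 2 → vv W (gam e x u s) =
      ((s - a) * (s - a)) • Rv hcov (gam e x u s) (vv X (gam e x u s)) (vel e x u s)
        (vel e x u s) := by
    intro s hs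
    rw [hW, Rv_eq, N_gam F hu B hs, Rv_smul2, Rv_smul3, smul_smul]
  have h3 : (fun s => P231.ip (gam e x u s)
      (Rv hcov (gam e x u s) (Y s) (vel e x u s) (vel e x u s)) (vv X (gam e x u s))) =ᶠ[𝓝 t]
      fun s => ((s - a)⁻¹) ^ 2 * P231.ip (gam e x u s) (Y s) (vv W (gam e x u s)) := by
    filter_upwards [hopen] with s hs
    rw [hval s hs.1, asm_ip_smul_right, Rv_symm, ip_comm' _ (Y s)]
    field_simp [hs.2]
  refine (h2.congr_of_eventuallyEq h3).congr_deriv ?_
  -- the derivative of `W`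
  have h4 : cc cov W (gam e x u t) (vel e x u t) =
      ((t - a) * (t - a)) • Rv hcov (gam e x u t) (cc cov X (gam e x u t) (vel e x u t))
        (vel e x u t) (vel e x u t) +
      (2 * (t - a)) • Rv hcov (gam e x u t) (vv X (gam e x u t)) (vel e x u t) (vel e x u t) := by
    have h5 := nab_R hcov hp B.N X B.N B.N (gam e x u t)
    rw [Rv_eq, Rv_eq, Rv_eq] at h5
    have h6 : vv ((lcOf hcov).nab B.N B.N) (gam e x u t) = vv B.N (gam e x u t) :=
      raw_N_N hcov F hB hr hu B ht
    have h7 : vv ((lcOf hcov).nab B.N X) (gam e x u t) =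
      (t - a) • cc cov X (gam e x u t) (vel e x u t) := by
      have h8 : vv ((lcOf hcov).nab B.N X) (gam e x u t) =
        cc cov X (gam e x u t) (vv B.N (gam e x u t)) := rfl
      rw [h8, N_gam F hu B ht, cc_smul]
    have h8 : vv ((lcOf hcov).nab B.N W) (gam e x u t) =
      (t - a) • cc cov W (gam e x u t) (vel e x u t) := by
      have h8 : vv ((lcOf hcov).nab B.N W) (gam e x u t) =
        cc cov W (gam e x u t) (vv B.N (gam e x u t)) := rfl
      rw [h8, N_gam F hu B ht, cc_smul]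
    rw [← hW, h8, h6, h7, N_gam F hu B ht] at h5
    simp only [Rv_smul1, Rv_smul2, Rv_smul3] at h5
    have h9 := congrArg (fun z : E => (t - a)⁻¹ • z) h5
    simp only [smul_smul, inv_mul_cancel₀ h0, one_smul, smul_add] at h9
    rw [h9, add_assoc, ← add_smul]
    congr 2
    · field_simp
    · field_simp
      ring
  rw [h4, hval t ht]
  simp only [asm_ip_smul_right, asm_ip_add_right]
  rw [Rv_symm hcov _ Z, Rv_symm hcov _ (Y t), ip_comm' _ Z, ip_comm' _ (Y t), ip_comm' _ (Y t)]
  field_simp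
  ring

end

end Vale.Agent.P211.HK.Jac
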