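import Vale.Agent.P211.HK.CP2Iso



/-! P211 / HK (helper348): from the Gram matrices of `d exp` (explicit Jacobi fields) to the
Jacobian, the kernels, and the isometry with `ℂP²`. -/

set_option maxSynthPendingDepth 3
set_option linter.unusedSectionVars false
set_option linter.unusedVariables false

open Bundle Manifold Set Filter MeasureTheory Module
open scoped ContDiff Manifold Topology ENNReal

namespace Vale.Agent.P211.HK.VE

noncomputable section

open Vale.Agent.P234 Vale.Agent.P231

section gram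

variable {E : Type*} [NormedAddCommGroup E] [NormedSpace ℝ E] [FiniteDimensional ℝ E]
  {M : Type*} [MetricSpace M] [ChartedSpace E M]
  [RiemannianBundle (fun x : M => TangentSpace 𝓘(ℝ, E) x)]
  [IsManifold 𝓘(ℝ, E) ∞ M]
  [IsContMDiffRiemannianBundle 𝓘(ℝ, E) ∞ E (fun x : M => TangentSpace 𝓘(ℝ, E) x)]
  {e : ∀ x : M, TangentSpace 𝓘(ℝ, E) x → M}

/-- the Jacobian from the Gram matrix of the differential -/
theorem jac_of_gram (hE : finrank ℝ E = 4) (x : M) (v : E) {b : Fin 4 → E}
    (hb : ∀ i j, ip x (b i) (b j) = if i = j then 1 else 0) {μ : Fin 4 → ℝ}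
    (hG : ∀ i j, ip (e x v) (dE e x v (b i)) (dE e x v (b j)) = if i = j then μ i ^ 2 else 0) :
    jac e x v = |∏ i, μ i| := by
  have h1 := Jac.sq_eq (e := e) x v (p := fun i => b (finCongr hE i)) (fun i j => by
    rw [hb]
    simp only [EmbeddingLike.apply_eq_iff_eq])
  have h2 : (Matrix.of fun i j : Fin (finrank ℝ E) => ip (e x v) (dE e x v (b (finCongr hE i)))
      (dE e x v (b (finCongr hE j)))) = Matrix.diagonal fun i => μ (finCongr hE i) ^ 2 := by
    ext i j
    rw [Matrix.of_apply, hG, Matrix.diagonal_apply]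
    simp only [EmbeddingLike.apply_eq_iff_eq]
  rw [h2, Matrix.det_diagonal, Equiv.prod_comp (finCongr hE) (fun i => μ i ^ 2),
    Finset.prod_pow] at h1
  rw [← sq_eq_sq₀ (Jac.nonneg x v) (abs_nonneg _), h1, sq_abs]

/-- the kernel from the Gram matrix of the differential -/
theorem ker_of_gram (hE : finrank ℝ E = 4) (x : M) (v : E) {b : Fin 4 → E}
    (hb : ∀ i j, ip x (b i) (b j) = if i = j then 1 else 0) {μ : Fin 4 → ℝ}
    (hG : ∀ i j, ip (e x v) (dE e x v (b i)) (dE e x v (b j)) = if i = j then μ i ^ 2 else 0)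
    {i₀ : Fin 4} (h0 : μ i₀ = 0) (h1 : ∀ i, i ≠ i₀ → μ i ≠ 0) :
    finrank ℝ (LinearMap.ker (dEl e x v)) = 1 := by
  -- `b` as an orthonormal family of the tangent space
  let b' : Fin 4 → TangentSpace 𝓘(ℝ, E) x := b
  have hon : Orthonormal ℝ b' := by
    rw [orthonormal_iff_ite]
    exact hb
  have hspan : ∀ w : E, ∃ c : Fin 4 → ℝ, w = ∑ i, c i • b i := by
    intro w
    have hfd : FiniteDimensional ℝ (TangentSpace 𝓘(ℝ, E) x) :=
      inferInstanceAs (FiniteDimensional ℝ E)
    have hcard : Fintype.card (Fin 4) = finrank ℝ (TangentSpace 𝓘(ℝ, E) x) := by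
      rw [Fintype.card_fin]; exact hE.symm
    have h2 := hon.linearIndependent.span_eq_top_of_card_eq_finrank' hcard
    let w' : TangentSpace 𝓘(ℝ, E) x := w
    have h3 : w' ∈ Submodule.span ℝ (range b') := by
      rw [h2]; trivial
    rw [Submodule.mem_span_range_iff_exists_fun] at h3
    obtain ⟨c, hc⟩ := h3
    exact ⟨c, hc.symm⟩
  have hz : ∀ z : E, ip (e x v) z z = 0 → z = 0 := fun z hz =>
    (inner_self_eq_zero (𝕜 := ℝ) (E := TangentSpace 𝓘(ℝ, E) (e x v))).1 hz
  have hb0 : dE e x v (b i₀) = 0 := by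
    refine hz _ ?_
    rw [hG, if_pos rfl, h0, zero_pow two_ne_zero]
  have hbne : b i₀ ≠ 0 := by
    intro h
    have h2 := hb i₀ i₀
    rw [if_pos rfl, h] at h2
    have h3 : ip x (0 : E) (0 : E) = 0 := inner_zero_left (𝕜 := ℝ) (E := TangentSpace 𝓘(ℝ, E) x) _
    rw [h3] at h2
    exact zero_ne_one h2
  have hker : LinearMap.ker (dEl e x v) = Submodule.span ℝ {b i₀} := by
    refine le_antisymm (fun w hw => ?_) ?_
    · obtain ⟨c, hc⟩ := hspan w
      have h2' : dEl e x v w = 0 := LinearMap.mem_ker.1 hw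
      have h2 : dE e x v w = 0 := h2'
      rw [hc, Jac.dE_sum] at h2
      have h3 : ∀ i, i ≠ i₀ → c i = 0 := by
        intro i hi
        have h4 : ip (e x v) (dE e x v (b i)) (∑ j, c j • dE e x v (b j)) = 0 := by
          rw [h2]
          exact inner_zero_right (𝕜 := ℝ) (E := TangentSpace 𝓘(ℝ, E) (e x v)) _
        rw [asm_ip_sum_right] at h4
        have h5 : ∀ j, ip (e x v) (dE e x v (b i)) (c j • dE e x v (b j)) =
            if i = j then c i * μ i ^ 2 else 0 := by
          intro j
          rw [ip_smul_right, hG]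
          split_ifs with h
          · rw [h]
          · rw [mul_zero]
        simp only [h5, Finset.sum_ite_eq, Finset.mem_univ, if_true] at h4
        exact (mul_eq_zero.1 h4).resolve_right (pow_ne_zero 2 (h1 i hi))
      rw [Submodule.mem_span_singleton]
      refine ⟨c i₀, ?_⟩
      rw [hc, Finset.sum_eq_single i₀ (fun i _ hi => by rw [h3 i hi, zero_smul])
        (fun h => absurd (Finset.mem_univ _) h)]
    · rw [Submodule.span_singleton_le_iff_mem, LinearMap.mem_ker]
      exact hb0
  rw [hker, finrank_span_singleton hbne]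

end gram

end

end Vale.Agent.P211.HK.VE
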