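import Vale.Agent.P211.HK.KernelData

/-! P211 / HK (helper249): change of the measurable frame in kernel data. -/

namespace Vale.Agent.P211.HK

open Filter Topology MeasureTheory Set
open scoped RealInnerProductSpace ENNReal

noncomputable section

set_option linter.unusedSectionVars false

variable {M W : Type} [MeasurableSpace M] [NormedAddCommGroup W] [InnerProductSpace ℝ W]
  [FiniteDimensional ℝ W] {μ : Measure M} [IsFiniteMeasure μ]

/-- a measurable field of isometries with its inverse -/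
structure IsoField (g g' : M → W →L[ℝ] W) : Prop where
  meas : StronglyMeasurable g
  meas' : StronglyMeasurable g'
  iso : ∀ x w, ‖g x w‖ = ‖w‖
  left : ∀ x w, g' x (g x w) = w
  right : ∀ x w, g x (g' x w) = w

namespace IsoField

variable {g g' : M → W →L[ℝ] W} (h : IsoField g g')

include h

theorem iso' (x : M) (w : W) : ‖g' x w‖ = ‖w‖ := by
  rw [← h.iso x (g' x w), h.right]

theorem inner (x : M) (a b : W) : ⟪g x a, g x b⟫ = ⟪a, b⟫ := by
  have := (LinearIsometry.mk (g x : W →ₗ[ℝ] W) (h.iso x)).inner_map_map a b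
  exact this

theorem inner_left (x : M) (a b : W) : ⟪g x a, b⟫ = ⟪a, g' x b⟫ := by
  rw [← h.inner x a (g' x b), h.right]

theorem adj (x : M) : ContinuousLinearMap.adjoint (g x) = g' x := by
  symm
  rw [ContinuousLinearMap.eq_adjoint_iff]
  intro a b
  rw [real_inner_comm, ← h.inner_left, real_inner_comm]

theorem adj' (x : M) : ContinuousLinearMap.adjoint (g' x) = g x := by
  rw [← h.adj, ContinuousLinearMap.adjoint_adjoint]

theorem norm_le (x : M) : ‖g x‖ ≤ 1 :=
  ContinuousLinearMap.opNorm_le_bound _ zero_le_one fun w => by rw [h.iso, one_mul]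

theorem norm_le' (x : M) : ‖g' x‖ ≤ 1 :=
  ContinuousLinearMap.opNorm_le_bound _ zero_le_one fun w => by rw [h.iso', one_mul]

theorem symm : IsoField g' g :=
  ⟨h.meas', h.meas, h.iso', h.right, h.left⟩

theorem norm_conj_le (x y : M) (A : W →L[ℝ] W) : ‖(g x).comp (A.comp (g' y))‖ ≤ ‖A‖ := by
  refine (ContinuousLinearMap.opNorm_comp_le _ _).trans ?_
  calc ‖g x‖ * ‖A.comp (g' y)‖ ≤ 1 * (‖A‖ * ‖g' y‖) := by
        gcongr
        · exact h.norm_le x
        · exact ContinuousLinearMap.opNorm_comp_le _ _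
    _ ≤ 1 * (‖A‖ * 1) := by gcongr; exact h.norm_le' y
    _ = ‖A‖ := by ring

theorem sm_apply {φ : M → W} (hφ : StronglyMeasurable φ) :
    StronglyMeasurable fun x => g x (φ x) :=
  (ContinuousLinearMap.apply ℝ W).isBoundedBilinearMap.continuous.comp_stronglyMeasurable
    (hφ.prodMk h.meas)

theorem aesm_apply {φ : M → W} (hφ : AEStronglyMeasurable φ μ) :
    AEStronglyMeasurable (fun x => g x (φ x)) μ :=
  (ContinuousLinearMap.apply ℝ W).isBoundedBilinearMap.continuous.comp_aestronglyMeasurable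
    (hφ.prodMk h.meas.aestronglyMeasurable)

theorem memLp {φ : M → W} (hφ : MemLp φ 2 μ) : MemLp (fun x => g x (φ x)) 2 μ :=
  hφ.of_le (h.aesm_apply hφ.1) (ae_of_all _ fun x => (h.iso x _).le)

theorem sm_conj {K : M → M → (W →L[ℝ] W)}
    (hK : StronglyMeasurable fun p : M × M => K p.1 p.2) :
    StronglyMeasurable fun p : M × M => (g p.1).comp ((K p.1 p.2).comp (g' p.2)) := by
  have h1 : StronglyMeasurable fun p : M × M => g p.1 := h.meas.comp_measurable measurable_fst
  have h2 : StronglyMeasurable fun p : M × M => g' p.2 := h.meas'.comp_measurable measurable_snd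
  have hc : Continuous fun q : (W →L[ℝ] W) × (W →L[ℝ] W) => q.1.comp q.2 :=
    isBoundedBilinearMap_comp.continuous
  have h3 := hc.comp_stronglyMeasurable (hK.prodMk h2)
  exact hc.comp_stronglyMeasurable (h1.prodMk h3)

end IsoField

namespace KernelData

variable {S : Type} [AddCommGroup S] [Module ℝ S] (K : KernelData (W := W) (S := S) μ)
  {g g' : M → W →L[ℝ] W} (h : IsoField g g')

/-- components in another frame -/
def appL (g : M → W →L[ℝ] W) (f : S →ₗ[ℝ] (M → W)) : S →ₗ[ℝ] (M → W) where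
  toFun s x := g x (f s x)
  map_add' s r := by funext x; simp
  map_smul' c s := by funext x; simp

/-- change of the measurable frame -/
def conj : KernelData (W := W) (S := S) μ where
  ev := appL g K.ev
  Lf := appL g K.Lf
  ev_meas := fun s => h.sm_apply (K.ev_meas s)
  ev_bdd := fun s => by
    obtain ⟨C, hC⟩ := K.ev_bdd s
    exact ⟨C, fun x => (h.iso x _).le.trans (hC x)⟩
  Lf_meas := fun s => h.sm_apply (K.Lf_meas s)
  Lf_bdd := fun s => by
    obtain ⟨C, hC⟩ := K.Lf_bdd s
    exact ⟨C, fun x => (h.iso x _).le.trans (hC x)⟩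
  symm := fun s r => by
    have := K.symm s r
    simp only [appL, LinearMap.coe_mk, AddHom.coe_mk, h.inner]
    exact this
  lower := by
    obtain ⟨c, hc⟩ := K.lower
    refine ⟨c, fun s => ?_⟩
    simp only [appL, LinearMap.coe_mk, AddHom.coe_mk, h.inner, h.iso]
    exact hc s
  z := fun t x y => (g x).comp ((K.z t x y).comp (g' y))
  e := fun t x y => (g x).comp ((K.e t x y).comp (g' y))
  lz := fun t x y => (g x).comp ((K.lz t x y).comp (g' y))
  z_meas := fun t ht => h.sm_conj (K.z_meas t ht)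
  e_meas := fun t ht => h.sm_conj (K.e_meas t ht)
  lz_meas := fun t ht => h.sm_conj (K.lz_meas t ht)
  bdd := fun a b ha => by
    obtain ⟨C, hC⟩ := K.bdd a b ha
    exact ⟨C, fun t ht x y => ⟨(h.norm_conj_le x y _).trans (hC t ht x y).1,
      (h.norm_conj_le x y _).trans (hC t ht x y).2.1,
      (h.norm_conj_le x y _).trans (hC t ht x y).2.2⟩⟩
  e_cont := fun x y =>
    continuousOn_const.clm_comp ((K.e_cont x y).clm_comp continuousOn_const)
  e_small := by
    obtain ⟨C, hC⟩ := K.e_small
    exact ⟨C, fun t ht x y => (h.norm_conj_le x y _).trans (hC t ht x y)⟩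
  z_deriv := fun t ht x y => by
    have h1 := K.z_deriv t ht x y
    set Φ : (W →L[ℝ] W) →L[ℝ] (W →L[ℝ] W) :=
      (ContinuousLinearMap.compL ℝ W W W (g x)).comp
        ((ContinuousLinearMap.compL ℝ W W W).flip (g' y)) with hΦ
    have h2 := Φ.hasFDerivAt.comp_hasDerivAt t h1
    have h3 : Φ (K.e t x y - K.lz t x y) = (g x).comp ((K.e t x y).comp (g' y)) -
        (g x).comp ((K.lz t x y).comp (g' y)) := by
      rw [map_sub]; rfl
    rw [h3] at h2
    exact h2
  z_mem := fun t ht w => by
    have hw : MemLp (fun y => g' y (w y)) 2 μ := h.symm.memLp (Lp.memLp w)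
    obtain ⟨s, h1, h2⟩ := K.z_mem t ht (hw.toLp _)
    have hint : ∀ {k : M → M → (W →L[ℝ] W)}, BKer k → ∀ x, g x (∫ y, k x y (hw.toLp _ y) ∂μ) =
        ∫ y, ((g x).comp ((k x y).comp (g' y))) (w y) ∂μ := by
      intro k hk x
      rw [← ContinuousLinearMap.integral_comp_comm _ (KD.int_apply hk (hw.toLp _) x)]
      refine integral_congr_ae ?_
      filter_upwards [hw.coeFn_toLp] with y hy
      rw [hy]; rfl
    refine ⟨s, ?_, ?_⟩
    · filter_upwards [h1] with x hx
      change g x (K.ev s x) = _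
      rw [hx, hint (K.bz ht) x]
    · filter_upwards [h2] with x hx
      change g x (K.Lf s x) = _
      rw [hx, hint (K.blz ht) x]
  schur := fun δ hδ => by
    filter_upwards [K.schur δ hδ, self_mem_nhdsWithin] with t ht ht0
    have hb := K.bz ht0
    obtain ⟨C, hC⟩ := hb.bdd
    have hb' : BKer fun x y => (g x).comp ((K.z t x y).comp (g' y)) :=
      ⟨h.sm_conj hb.meas, C, fun x y => (h.norm_conj_le x y _).trans (hC x y)⟩
    have i1 : ∀ {k : M → M → (W →L[ℝ] W)}, BKer k → ∀ y, Integrable (fun x => ‖k x y‖) μ := by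
      intro k hk y
      obtain ⟨C', hC'⟩ := hk.bdd
      exact Integrable.of_bound (KD.meas_col hk y).norm.aestronglyMeasurable C'
        (ae_of_all _ fun x => by rw [norm_norm]; exact hC' x y)
    have i2 : ∀ {k : M → M → (W →L[ℝ] W)}, BKer k → ∀ x, Integrable (fun y => ‖k x y‖) μ := by
      intro k hk x
      obtain ⟨C', hC'⟩ := hk.bdd
      exact Integrable.of_bound (KD.meas_row hk x).norm.aestronglyMeasurable C'
        (ae_of_all _ fun y => by rw [norm_norm]; exact hC' x y)
    refine ⟨fun y => ?_, fun x => ?_⟩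
    · exact (integral_mono (i1 hb' y) (i1 hb y) fun x => h.norm_conj_le x y _).trans (ht.1 y)
    · exact (integral_mono (i2 hb' x) (i2 hb x) fun y => h.norm_conj_le x y _).trans (ht.2 x)
  D := {φ | ∃ ψ ∈ K.D, φ = fun x => g x (ψ x)}
  D_meas := by
    rintro φ ⟨ψ, hψ, rfl⟩
    exact h.sm_apply (K.D_meas ψ hψ)
  D_bdd := by
    rintro φ ⟨ψ, hψ, rfl⟩
    obtain ⟨C, hC⟩ := K.D_bdd ψ hψ
    exact ⟨C, fun x => (h.iso x _).le.trans (hC x)⟩
  D_dense := by
    rw [Submodule.topologicalClosure_eq_top_iff, Submodule.eq_bot_iff]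
    intro b hb
    rw [Submodule.mem_orthogonal] at hb
    have hb' : MemLp (fun x => g' x (b x)) 2 μ := h.symm.memLp (Lp.memLp b)
    have h1 : hb'.toLp _ ∈ (Submodule.span ℝ {f : Lp W 2 μ | ∃ φ ∈ K.D, f =ᵐ[μ] φ})ᗮ := by
      rw [Submodule.mem_orthogonal]
      intro u hu
      induction hu using Submodule.span_induction with
      | mem u hu =>
        obtain ⟨φ, hφ, hu⟩ := hu
        have hm : MemLp (fun x => g x (u x)) 2 μ := h.memLp (Lp.memLp u)
        have h2 := hb (hm.toLp _) (Submodule.subset_span ⟨_, ⟨φ, hφ, rfl⟩, by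
          filter_upwards [hm.coeFn_toLp, hu] with x e1 e2
          rw [e1, e2]⟩)
        rw [L2.inner_def] at h2 ⊢
        rw [← h2]
        refine integral_congr_ae ?_
        filter_upwards [hm.coeFn_toLp, hb'.coeFn_toLp] with x e1 e2
        rw [e1, e2, h.inner_left]
      | zero => simp
      | add x y _ _ hx hy => rw [inner_add_left, hx, hy, add_zero]
      | smul a x _ hx => rw [real_inner_smul_left, hx, mul_zero]
    have h3 : (Submodule.span ℝ {f : Lp W 2 μ | ∃ φ ∈ K.D, f =ᵐ[μ] φ})ᗮ = ⊥ :=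
      (Submodule.topologicalClosure_eq_top_iff).1 K.D_dense
    rw [h3, Submodule.mem_bot] at h1
    refine Lp.ext ?_
    have h4 : (hb'.toLp _ : Lp W 2 μ) =ᵐ[μ] (0 : Lp W 2 μ) := by rw [h1]
    filter_upwards [h4, hb'.coeFn_toLp, Lp.coeFn_zero W 2 μ] with x e1 e2 e3
    rw [e3] at e1 ⊢
    rw [e2] at e1
    have e4 := congrArg (g x) e1
    rw [h.right] at e4
    rw [e4]
    simp
  lim := by
    rintro φ ⟨ψ, hψ, rfl⟩
    obtain ⟨C, hC⟩ := K.D_bdd ψ hψ
    filter_upwards [K.lim ψ hψ] with y hy
    have h1 := ((g y).continuous.tendsto _).comp hy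
    refine h1.congr' ?_
    filter_upwards [self_mem_nhdsWithin] with t ht
    have hb := (K.bz ht).adj
    have hi : Integrable (fun x => ContinuousLinearMap.adjoint (K.z t x y) (ψ x)) μ := by
      obtain ⟨C', hC'⟩ := hb.bdd
      refine Integrable.of_bound ?_ (C' * C) (ae_of_all _ fun x => ?_)
      · exact ((ContinuousLinearMap.apply ℝ W).isBoundedBilinearMap.continuous.comp_stronglyMeasurable
          ((K.D_meas ψ hψ).prodMk (KD.meas_row hb y))).aestronglyMeasurable
      · exact ((ContinuousLinearMap.le_opNorm _ _).trans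
          (mul_le_mul (hC' y x) (hC x) (norm_nonneg _) ((norm_nonneg _).trans (hC' y x))))
    change g y (∫ x, ContinuousLinearMap.adjoint (K.z t x y) (ψ x) ∂μ) = _
    rw [← ContinuousLinearMap.integral_comp_comm _ hi]
    refine integral_congr_ae (ae_of_all _ fun x => ?_)
    change g y (ContinuousLinearMap.adjoint (K.z t x y) (ψ x)) = ContinuousLinearMap.adjoint
      ((g x).comp ((K.z t x y).comp (g' y))) (g x (ψ x))
    rw [ContinuousLinearMap.adjoint_comp, ContinuousLinearMap.adjoint_comp, h.adj, h.adj']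
    simp only [ContinuousLinearMap.comp_apply, h.left]

end KernelData

end

end Vale.Agent.P211.HK
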