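import Vale.Agent.P211.HK.SecStmt
import Mathlib.MeasureTheory.Integral.IntervalIntegral.Basic
import Mathlib.Analysis.InnerProductSpace.Adjoint

/-! P211 / HK: interface of the calculus of smooth ONE-SIDED kernels (LK2). helper339.
A kernel `K t p f q : W →L W'` depends on a time `t`, a point `p` with a frame `f` (target) and a
source point `q` (the source space `W` is a fixed Euclidean space: components in the frame chosen
at `q`). -/

set_option maxSynthPendingDepth 3
set_option linter.unusedSectionVars false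

namespace Vale.Agent.P211.HK

open scoped Manifold ContDiff Topology RealInnerProductSpace
open Bundle Filter VectorField MeasureTheory Set

noncomputable section

variable {W W' : Type} [NormedAddCommGroup W] [InnerProductSpace ℝ W] [FiniteDimensional ℝ W]
  [NormedAddCommGroup W'] [InnerProductSpace ℝ W'] [FiniteDimensional ℝ W']

variable {E : Type} [NormedAddCommGroup E] [NormedSpace ℝ E] [FiniteDimensional ℝ E]
  {M : Type} [TopologicalSpace M] [ChartedSpace E M] [IsManifold 𝓘(ℝ, E) ∞ M] [T2Space M]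
  [RiemannianBundle fun p : M => TangentSpace 𝓘(ℝ, E) p]
  [IsContMDiffRiemannianBundle 𝓘(ℝ, E) ∞ E fun p : M => TangentSpace 𝓘(ℝ, E) p]

/-- one-sided kernels: target point and frame, source point -/
abbrev PreK (E M W W' : Type) [NormedAddCommGroup E] [NormedSpace ℝ E] [TopologicalSpace M]
    [ChartedSpace E M] [IsManifold 𝓘(ℝ, E) ∞ M] [NormedAddCommGroup W] [InnerProductSpace ℝ W]
    [NormedAddCommGroup W'] [InnerProductSpace ℝ W'] : Type :=
  (p : M) → (Fin 4 → TangentSpace 𝓘(ℝ, E) p) → M → (W →L[ℝ] W')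

/-- `K` is a kernel with values in the bundle of `R'`, jointly of class `C^n` in time `t ∈ O`, in
the target point and in the source point `q ∈ U` -/
structure SmK (om : Form4 E M) (R' : Rep W') (n : WithTop ℕ∞) (O : Set ℝ) (U : Set M)
    (K : ℝ → PreK E M W W') : Prop where
  zero : ∀ t ∈ O, ∀ p f, ∀ q ∈ U, ¬ PON om p f → K t p f q = 0
  equiv : ∀ t ∈ O, ∀ p f, ∀ q ∈ U, ∀ a, PON om p f → IsSO a →
    K t p (fact f a) q = (R'.ρ (trM a)).comp (K t p f q)
  smooth : ∀ (F : Fin 4 → VF E M) (t : ℝ) (p q : M), t ∈ O → q ∈ U → PONnear om p F →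
    ContMDiffAt (𝓘(ℝ, ℝ).prod (𝓘(ℝ, E).prod 𝓘(ℝ, E))) 𝓘(ℝ, W →L[ℝ] W') n
      (fun z : ℝ × M × M => K z.1 z.2.1 (fun i => F i z.2.1) z.2.2) (t, p, q)

/-- sections of class `C^n` (for `n = ∞` this is `Sec om R`) -/
def SecN (om : Form4 E M) (R : Rep W) (n : WithTop ℕ∞) : Set (PreS E M W) :=
  {u | (∀ p f, ¬ PON om p f → u p f = 0) ∧
    (∀ p f g, PON om p f → IsSO g → u p (fact f g) = R.ρ (trM g) (u p f)) ∧
    ∀ (F : Fin 4 → VF E M) (p : M), PONnear om p F →
      ContMDiffAt 𝓘(ℝ, E) 𝓘(ℝ, W) n (fun q => u q fun i => F i q) p}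

/-- `fr` is a choice of positively oriented orthonormal frames, made of finitely many smooth local
frames on a finite Borel partition `S` -/
structure FrSel [MeasurableSpace M] (om : Form4 E M)
    (fr : (p : M) → Fin 4 → TangentSpace 𝓘(ℝ, E) p) where
  N : ℕ
  S : Fin N → Set M
  F : Fin N → Fin 4 → VF E M
  meas : ∀ i, MeasurableSet (S i)
  disj : Pairwise fun i j => Disjoint (S i) (S j)
  cover : (⋃ i, S i) = univ
  pon : ∀ i, ∀ p ∈ closure (S i), PONnear om p (F i)
  eq : ∀ i, ∀ p ∈ S i, fr p = fun j => F i j p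

/-- the operator with kernel `K` on the piece `B`, applied to `w : M → W` -/
def appK [MeasurableSpace M] (μ : Measure M) (B : Set M) (K : PreK E M W W') (w : M → W) :
    PreS E M W' :=
  fun p f => ∫ q in B, K p f q (w q) ∂μ

/-- time derivative of a kernel -/
def dtK (K : ℝ → PreK E M W W') : ℝ → PreK E M W W' :=
  fun t p f q => deriv (fun s => K s p f q) t

open Classical in
/-- an operation on sections applied to a kernel (in the target variable) -/
def liftK {W'' : Type} [NormedAddCommGroup W''] [InnerProductSpace ℝ W'']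
    (T : PreS E M W' → PreS E M W'') (K : PreK E M W W') : PreK E M W W'' :=
  fun p f q =>
    if h : IsLinearMap ℝ (fun w : W => T (fun p' f' => K p' f' q w) p f) then
      LinearMap.toContinuousLinearMap h.mk' else 0

variable (cov : CovariantDerivative 𝓘(ℝ, E) E (TangentSpace 𝓘(ℝ, E) : M → Type))

/-- covariant derivative of a kernel in the target variable -/
def nabK (om : Form4 E M) (K : PreK E M W W') : PreK E M W (Tn W') := liftK (nabS cov om) K

/-- `H` applied to a kernel in the target variable -/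
def lapK (om : Form4 E M) (K : PreK E M W W') : PreK E M W W' := liftK (lapS cov om) K

variable (om : Form4 E M)

/-- LK2a: a kernel of class `C^n` maps integrable functions to sections of class `C^n`
(also after integration over time). -/
def LK2aStmt [MeasurableSpace M] [BorelSpace M] [CompactSpace M] (μ : Measure M) : Prop :=
  Geo4 cov om → IsFiniteMeasure μ →
  ∀ (W W' : Type) [NormedAddCommGroup W] [InnerProductSpace ℝ W] [FiniteDimensional ℝ W]
    [NormedAddCommGroup W'] [InnerProductSpace ℝ W'] [FiniteDimensional ℝ W']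
    (R' : Rep W') (n : ℕ∞) (O : Set ℝ) (U B : Set M) (K : ℝ → PreK E M W W'),
    IsOpen O → IsOpen U → MeasurableSet B → closure B ⊆ U → SmK om R' n O U K →
    ∀ (w : M → W), IntegrableOn w B μ →
      (∀ t ∈ O, appK μ B (K t) w ∈ SecN om R' n) ∧
      ∀ (a b : ℝ), a ≤ b → Icc a b ⊆ O → ∀ (c : ℝ → ℝ), ContDiff ℝ ∞ c →
        (fun p f => ∫ s in a..b, c s • appK μ B (K s) w p f) ∈ SecN om R' n

/-- LK2b: derivatives of smooth kernels are smooth kernels. -/
def LK2bStmt : Prop :=
  Geo4 cov om →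
  ∀ (W W' : Type) [NormedAddCommGroup W] [InnerProductSpace ℝ W] [FiniteDimensional ℝ W]
    [NormedAddCommGroup W'] [InnerProductSpace ℝ W'] [FiniteDimensional ℝ W']
    (R' : Rep W') (R'' : Rep (Tn W')), Tens R' R'' →
    ∀ (O : Set ℝ) (U : Set M) (K : ℝ → PreK E M W W'), IsOpen O → IsOpen U → SmK om R' ∞ O U K →
      SmK om R' ∞ O U (dtK K) ∧
      (SmK om R'' ∞ O U (fun t => nabK cov om (K t)) ∧
        ∀ t ∈ O, ∀ q ∈ U, ∀ p f (w : W),
          nabK cov om (K t) p f q w = nabS cov om (fun p' f' => K t p' f' q w) p f) ∧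
      SmK om R' ∞ O U (fun t => lapK cov om (K t)) ∧
        ∀ t ∈ O, ∀ q ∈ U, ∀ p f (w : W),
          lapK cov om (K t) p f q w = lapS cov om (fun p' f' => K t p' f' q w) p f

/-- LK2c: covariant derivative, `H` and time derivative under the integral sign. -/
def LK2cStmt [MeasurableSpace M] [BorelSpace M] [CompactSpace M] (μ : Measure M) : Prop :=
  Geo4 cov om → IsFiniteMeasure μ →
  ∀ (W W' : Type) [NormedAddCommGroup W] [InnerProductSpace ℝ W] [FiniteDimensional ℝ W]
    [NormedAddCommGroup W'] [InnerProductSpace ℝ W'] [FiniteDimensional ℝ W']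
    (R' : Rep W') (R'' : Rep (Tn W')), Tens R' R'' →
    ∀ (O : Set ℝ) (U B : Set M) (K : ℝ → PreK E M W W'),
    IsOpen O → IsOpen U → MeasurableSet B → closure B ⊆ U → SmK om R' ∞ O U K →
    ∀ (w : M → W), IntegrableOn w B μ → ∀ t ∈ O,
      nabS cov om (appK μ B (K t) w) = appK μ B (nabK cov om (K t)) w ∧
      lapS cov om (appK μ B (K t) w) = appK μ B (lapK cov om (K t)) w ∧
      ∀ p f, HasDerivAt (fun s => appK μ B (K s) w p f) (appK μ B (dtK K t) w p f) t

/-- LK2d: local bounds and measurability. -/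
def LK2dStmt [MeasurableSpace M] [BorelSpace M] [CompactSpace M] : Prop :=
  Geo4 cov om →
  ∀ (W W' : Type) [NormedAddCommGroup W] [InnerProductSpace ℝ W] [FiniteDimensional ℝ W]
    [NormedAddCommGroup W'] [InnerProductSpace ℝ W'] [FiniteDimensional ℝ W']
    (R' : Rep W') (fr : (p : M) → Fin 4 → TangentSpace 𝓘(ℝ, E) p), Nonempty (FrSel om fr) →
    ∀ (n : ℕ∞) (O : Set ℝ) (U B : Set M) (K : ℝ → PreK E M W W'),
    IsOpen O → IsOpen U → MeasurableSet B → closure B ⊆ U → SmK om R' n O U K →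
      (∀ T : Set ℝ, IsCompact T → T ⊆ O → ∃ C : ℝ, ∀ t ∈ T, ∀ p f, ∀ q ∈ closure B,
        ‖K t p f q‖ ≤ C) ∧
      (∀ t ∈ O, StronglyMeasurable
        (indicator (univ ×ˢ B) fun z : M × M => K t z.1 (fr z.1) z.2)) ∧
      StronglyMeasurable
        (indicator (O ×ˢ univ ×ˢ B) fun z : ℝ × M × M => K z.1 z.2.1 (fr z.2.1) z.2.2)

/-- LK2e: the transposed operator: smoothness in the source point. -/
def LK2eStmt [MeasurableSpace M] [BorelSpace M] [CompactSpace M] (μ : Measure M) : Prop :=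
  Geo4 cov om → IsFiniteMeasure μ →
  ∀ (W W' : Type) [NormedAddCommGroup W] [InnerProductSpace ℝ W] [FiniteDimensional ℝ W]
    [NormedAddCommGroup W'] [InnerProductSpace ℝ W'] [FiniteDimensional ℝ W']
    (R' : Rep W') (fr : (p : M) → Fin 4 → TangentSpace 𝓘(ℝ, E) p), Nonempty (FrSel om fr) →
    ∀ (n : ℕ∞) (O : Set ℝ) (U : Set M) (K : ℝ → PreK E M W W'),
    IsOpen O → IsOpen U → SmK om R' n O U K → ∀ (b : M → W'), Integrable b μ →
      (∀ t ∈ O, ContMDiffOn 𝓘(ℝ, E) 𝓘(ℝ, W) n
        (fun y => ∫ x, ContinuousLinearMap.adjoint (K t x (fr x) y) (b x) ∂μ) U) ∧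
      ∀ (a a' : ℝ), a ≤ a' → Icc a a' ⊆ O → ∀ (c : ℝ → ℝ), ContDiff ℝ ∞ c →
        ContMDiffOn 𝓘(ℝ, E) 𝓘(ℝ, W) n
          (fun y => ∫ s in a..a', c s •
            ∫ x, ContinuousLinearMap.adjoint (K s x (fr x) y) (b x) ∂μ) U

/-- LK2f: sections as functions on `M`; `fr` is a frame selection. -/
def LK2fStmt [MeasurableSpace M] [BorelSpace M] [CompactSpace M] (μ : Measure M) : Prop :=
  Geo4 cov om → μ.IsOpenPosMeasure →
  ∀ (W : Type) [NormedAddCommGroup W] [InnerProductSpace ℝ W] [FiniteDimensional ℝ W]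
    (R : Rep W) (fr : (p : M) → Fin 4 → TangentSpace 𝓘(ℝ, E) p), Nonempty (FrSel om fr) →
    (∀ u ∈ SecN (E := E) om R 0, StronglyMeasurable (fun p => u p (fr p)) ∧
      ∃ C : ℝ, ∀ p f, ‖u p f‖ ≤ C) ∧
    (∀ u ∈ SecN (E := E) om R 0, ∀ v ∈ SecN (E := E) om R 0,
      (fun p => u p (fr p)) =ᵐ[μ] (fun p => v p (fr p)) → u = v) ∧
    (∀ u, u ∈ Sec (E := E) om R ↔ ∀ n : ℕ, u ∈ SecN om R n)

/-- LK2g: finite Borel partitions subordinate to a family of neighbourhoods; a given point may be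
put in the interior of a piece belonging to its own neighbourhood. -/
def LK2gStmt [MeasurableSpace M] [BorelSpace M] [CompactSpace M] : Prop :=
  ∀ (U : M → Set M), (∀ p, U p ∈ 𝓝 p) → ∀ y₀ : M, ∃ (N : ℕ) (c : Fin N → M) (B : Fin N → Set M),
    (∀ i, MeasurableSet (B i)) ∧ (Pairwise fun i j => Disjoint (B i) (B j)) ∧
    (⋃ i, B i) = univ ∧ (∀ i, closure (B i) ⊆ interior (U (c i))) ∧
    ∃ i, c i = y₀ ∧ B i ∈ 𝓝 y₀

end

end Vale.Agent.P211.HK
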