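import Vale.Agent.P211.HK.SC0b
import Vale.Agent.P211.HK.LK2Defs

/-! P211 / HK / REG, part 1 (helper674): gluing local `C^n` representatives of an `L²` section. -/

set_option maxSynthPendingDepth 3
set_option linter.unusedSectionVars false

namespace Vale.Agent.P211.HK

open scoped Manifold ContDiff Topology RealInnerProductSpace
open Bundle Filter VectorField MeasureTheory Set

noncomputable section

variable {W : Type} [NormedAddCommGroup W] [InnerProductSpace ℝ W] [FiniteDimensional ℝ W]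

variable {E : Type} [NormedAddCommGroup E] [NormedSpace ℝ E] [FiniteDimensional ℝ E]
  {M : Type} [TopologicalSpace M] [ChartedSpace E M] [IsManifold 𝓘(ℝ, E) ∞ M] [T2Space M]
  [RiemannianBundle fun p : M => TangentSpace 𝓘(ℝ, E) p]
  [IsContMDiffRiemannianBundle 𝓘(ℝ, E) ∞ E fun p : M => TangentSpace 𝓘(ℝ, E) p]
  {cov : CovariantDerivative 𝓘(ℝ, E) E (TangentSpace 𝓘(ℝ, E) : M → Type)}
  {om : Form4 E M}

/-- the matrix between two frames at the same point: `f' = fact f (matF f f')` -/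
def matF {p : M} (f f' : Fin 4 → TangentSpace 𝓘(ℝ, E) p) : Mat4 :=
  fun i j => (inner ℝ (f i) (f' j) : ℝ)

theorem trM_matF {p : M} (f f' : Fin 4 → TangentSpace 𝓘(ℝ, E) p) :
    trM (matF f f') = matF f' f := by
  funext i j
  simp only [trM, matF]
  rw [real_inner_comm]

theorem matF_spec (h : Geo4 cov om) {p : M} {f f' : Fin 4 → TangentSpace 𝓘(ℝ, E) p}
    (hf : PON om p f) (hf' : PON om p f') : IsSO (matF f f') ∧ f' = fact f (matF f f') :=
  pon_matrix h hf hf'

theorem matF_fact {p : M} {f : Fin 4 → TangentSpace 𝓘(ℝ, E) p} (hf : Orthonormal ℝ f)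
    (g : Mat4) : matF f (fact f g) = g := by
  funext i j
  exact inner_fact hf g i j

theorem matF_mul (h : Geo4 cov om) {p : M} {f f' f'' : Fin 4 → TangentSpace 𝓘(ℝ, E) p}
    (hf : PON om p f) (hf' : PON om p f') (hf'' : PON om p f'') :
    mulM (matF f f') (matF f' f'') = matF f f'' := by
  have h1 := (matF_spec h hf hf').2
  have h2 := (matF_spec h hf' hf'').2
  have h3 : f'' = fact f (mulM (matF f f') (matF f' f'')) := by
    rw [← fact_fact, ← h1, ← h2]
  have h4 := matF_fact hf.1 (mulM (matF f f') (matF f' f''))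
  rw [← h3] at h4
  exact h4.symm

/-- composition of changes of components -/
theorem rho_matF (h : Geo4 cov om) (R : Rep W) {p : M}
    {f f' f'' : Fin 4 → TangentSpace 𝓘(ℝ, E) p}
    (hf : PON om p f) (hf' : PON om p f') (hf'' : PON om p f'') (w : W) :
    R.ρ (trM (matF f' f'')) (R.ρ (trM (matF f f')) w) = R.ρ (trM (matF f f'')) w := by
  have h1 : trM (matF f f'') = mulM (trM (matF f' f'')) (trM (matF f f')) := by
    rw [← trM_mulM, matF_mul h hf hf' hf'']
  rw [h1, R.mul _ _ ((matF_spec h hf' hf'').1.tr) ((matF_spec h hf hf').1.tr)]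
  rfl

theorem matF_self {p : M} {f : Fin 4 → TangentSpace 𝓘(ℝ, E) p} (hf : Orthonormal ℝ f) :
    matF f f = idM := by
  funext i j
  exact orthonormal_iff_ite.1 hf i j

theorem rho_matF_self (R : Rep W) {p : M} {f : Fin 4 → TangentSpace 𝓘(ℝ, E) p}
    (hf : Orthonormal ℝ f) (w : W) : R.ρ (trM (matF f f)) w = w := by
  rw [matF_self hf, trM_idM, R.one]
  rfl

/-- `y ↦ ρ((F_y → G_y)^T) (g y)` is of class `C^n` if `g` is -/
theorem contMDiffAt_rho_gFF (R : Rep W) {n : WithTop ℕ∞} (hn : n ≤ ∞) (F G : Fin 4 → VF E M)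
    {g : M → W} {p : M} (hg : ContMDiffAt 𝓘(ℝ, E) 𝓘(ℝ, W) n g p) :
    ContMDiffAt 𝓘(ℝ, E) 𝓘(ℝ, W) n (fun y => R.ρ (trM (gFF F G y)) (g y)) p := by
  have h1 : ContMDiffAt 𝓘(ℝ, E) 𝓘(ℝ, Mat4) n (gFF F G) p :=
    ((gFF_smooth F G).contMDiffAt (x := p)).of_le hn
  have htr : ContDiff ℝ n (fun g : Mat4 => trM g) := by
    rw [contDiff_pi]
    intro i
    rw [contDiff_pi]
    intro j
    exact (contDiff_apply_apply ℝ ℝ j i : ContDiff ℝ n fun g : Mat4 => g j i)
  have h2 : ContMDiffAt 𝓘(ℝ, E) 𝓘(ℝ, W →L[ℝ] W) n (fun y => R.ρ (trM (gFF F G y))) p :=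
    (((R.smooth.of_le hn).comp htr).contMDiff.contMDiffAt (x := gFF F G p)).comp p h1
  exact h2.clm_apply hg

variable [CompactSpace M] [MeasurableSpace M] [BorelSpace M] {μ : Measure M}

/-- Gluing: an `L²` section which near each point is represented by a function of class `C^n` (in a
smooth local frame) is represented by a section of class `C^n`. -/
theorem glueN [μ.IsOpenPosMeasure] (h : Geo4 cov om) (R : Rep W) {n : WithTop ℕ∞} (hn : n ≤ ∞)
    (fr : (p : M) → Fin 4 → TangentSpace 𝓘(ℝ, E) p) (hfr : ∀ p, PON om p (fr p)) (b : M → W)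
    (H : ∀ p₀ : M, ∃ (V : Set M) (F : Fin 4 → VF E M) (g : M → W), IsOpen V ∧ p₀ ∈ V ∧
      (∀ p ∈ V, PONnear om p F) ∧ ContMDiffOn 𝓘(ℝ, E) 𝓘(ℝ, W) n g V ∧
      ∀ᵐ y ∂μ, y ∈ V → g y = R.ρ (trM (matF (fr y) fun i => F i y)) (b y)) :
    ∃ u ∈ SecN (E := E) om R n, ∀ᵐ y ∂μ, u y (fr y) = b y := by
  choose V F g hVo hV hF hg hb using H
  -- comparison of two local representatives
  have key : ∀ p, ∀ q ∈ V p, g q q =
      R.ρ (trM (matF (fun i => F p i q) fun i => F q i q)) (g p q) := by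
    intro p q hq
    have ho : IsOpen (V p ∩ V q) := (hVo p).inter (hVo q)
    have h1 : (g q) =ᵐ[μ.restrict (V p ∩ V q)]
        fun y => R.ρ (trM (gFF (F p) (F q) y)) (g p y) := by
      rw [Filter.EventuallyEq, ae_restrict_iff' ho.measurableSet]
      filter_upwards [hb p, hb q] with y hy1 hy2 hy
      have hp := (hF p y hy.1).pon
      have hq' := (hF q y hy.2).pon
      rw [hy1 hy.1, hy2 hy.2]
      exact (rho_matF h R (hfr y) hp hq' (b y)).symm
    have h2 := Measure.eqOn_open_of_ae_eq h1 ho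
      ((hg q).continuousOn.mono inter_subset_right) (by
        intro y hy
        exact (contMDiffAt_rho_gFF R hn (F p) (F q)
          ((hg p).contMDiffAt ((hVo p).mem_nhds hy.1))).continuousAt.continuousWithinAt)
    exact h2 ⟨hq, hV q⟩
  classical
  set u : PreS E M W := fun p f =>
    if PON om p f then R.ρ (trM (matF (fun i => F p i p) f)) (g p p) else 0 with hu
  have hval : ∀ p, ∀ q ∈ V p, ∀ f, PON om q f →
      u q f = R.ρ (trM (matF (fun i => F p i q) f)) (g p q) := by
    intro p q hq f hf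
    rw [hu]
    simp only [if_pos hf]
    rw [key p q hq]
    exact rho_matF h R (hF p q hq).pon (hF q q (hV q)).pon hf _
  refine ⟨u, ⟨fun p f hf => if_neg hf, fun p f a hf ha => ?_, fun G p hG => ?_⟩, ?_⟩
  · have hf' := pon_fact h hf ha
    rw [hval p p (hV p) _ hf', hval p p (hV p) _ hf]
    have h1 := rho_matF h R (hF p p (hV p)).pon hf hf' (g p p)
    rw [matF_fact hf.1] at h1
    exact h1.symm
  · have h1 : (fun q => u q fun i => G i q) =ᶠ[𝓝 p]
        fun q => R.ρ (trM (gFF (F p) G q)) (g p q) := by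
      filter_upwards [(hVo p).mem_nhds (hV p), hG] with q hq hGq
      exact hval p q hq _ hGq
    exact (contMDiffAt_rho_gFF R hn (F p) G
      ((hg p).contMDiffAt ((hVo p).mem_nhds (hV p)))).congr_of_eventuallyEq h1
  · obtain ⟨s, hs⟩ := isCompact_univ.elim_finite_subcover V hVo
      (fun p _ => mem_iUnion.2 ⟨p, hV p⟩)
    have h1 : ∀ᵐ y ∂μ, ∀ p ∈ s, y ∈ V p →
        g p y = R.ρ (trM (matF (fr y) fun i => F p i y)) (b y) :=
      (ae_ball_iff s.countable_toSet).2 fun p _ => hb p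
    filter_upwards [h1] with y hy
    obtain ⟨p, hp, hyp⟩ : ∃ p ∈ s, y ∈ V p := by
      have := hs (mem_univ y)
      simpa using this
    rw [hval p y hyp _ (hfr y), hy p hp hyp,
      rho_matF h R (hfr y) (hF p y hyp).pon (hfr y), rho_matF_self R (hfr y).1]

end

end Vale.Agent.P211.HK
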