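import Vale.Agent.P211.HK.KConj
import Vale.Agent.P211.HK.KSec
import Vale.Agent.P211.HK.RegGlue

/-! P211 / HK (helper249): kernel data in another frame selection. -/

set_option maxSynthPendingDepth 3
set_option linter.unusedSectionVars false

namespace Vale.Agent.P211.HK

open scoped Manifold ContDiff Topology RealInnerProductSpace
open Bundle Filter VectorField MeasureTheory Set

noncomputable section

variable {E : Type} [NormedAddCommGroup E] [NormedSpace ℝ E] [FiniteDimensional ℝ E]
  {M : Type} [TopologicalSpace M] [ChartedSpace E M] [IsManifold 𝓘(ℝ, E) ∞ M] [T2Space M]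
  [RiemannianBundle fun p : M => TangentSpace 𝓘(ℝ, E) p]
  [IsContMDiffRiemannianBundle 𝓘(ℝ, E) ∞ E fun p : M => TangentSpace 𝓘(ℝ, E) p]
  [MeasurableSpace M] [BorelSpace M] [CompactSpace M]
  {W : Type} [NormedAddCommGroup W] [InnerProductSpace ℝ W] [FiniteDimensional ℝ W]
  {cov : CovariantDerivative 𝓘(ℝ, E) E (TangentSpace 𝓘(ℝ, E) : M → Type)}
  {om : Form4 E M} {R : Rep W} {μ : Measure M}
  {fr fr' : (p : M) → Fin 4 → TangentSpace 𝓘(ℝ, E) p}

/-- change of components from the frames `fr` to the frames `fr'` -/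
def frC (R : Rep W) (fr fr' : (p : M) → Fin 4 → TangentSpace 𝓘(ℝ, E) p) (p : M) : W →L[ℝ] W :=
  R.ρ (trM (matF (fr p) (fr' p)))

theorem frC_sec (hG : Geo4 cov om) {u : PreS E M W} (hu : u ∈ Sec om R) {p : M}
    (h : PON om p (fr p)) (h' : PON om p (fr' p)) : frC R fr fr' p (u p (fr p)) = u p (fr' p) := by
  have h1 := matF_spec hG h h'
  have h2 := hu.2.1 p (fr p) _ h h1.1
  rw [← h1.2] at h2
  exact h2.symm

theorem frC_meas (S : FrSel om fr) (S' : FrSel om fr') : StronglyMeasurable (frC R fr fr') := by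
  have hc : ∀ (F G : Fin 4 → VF E M),
      Continuous fun p => R.ρ (trM (matF (fun i => F i p) (fun i => G i p))) := by
    intro F G
    refine R.smooth.continuous.comp ?_
    refine continuous_pi fun i => continuous_pi fun j => ?_
    exact (gVF (F j) (G i)).contMDiff.continuous
  have h1 : ∀ i, StronglyMeasurable ((S.S i).indicator (frC R fr fr')) := by
    intro i
    refine VOL.sm_pieces (A := fun j => S.S i ∩ S'.S j)
      (G := fun j p => R.ρ (trM (matF (fun k => S.F i k p) (fun k => S'.F j k p))))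
      (fun j => (S.meas i).inter (S'.meas j)) ?_ ?_ ?_ ?_
    · intro a b hab
      exact (S'.disj hab).mono inter_subset_right inter_subset_right
    · rw [← inter_iUnion, S'.cover, inter_univ]
    · intro j p hp
      unfold frC
      rw [S.eq i p hp.1, S'.eq j p hp.2]
    · intro j
      exact (hc _ _).continuousOn
  have h2 : frC R fr fr' = fun p => ∑ i, (S.S i).indicator (frC R fr fr') p := by
    funext p
    obtain ⟨i, hi⟩ := S.exists_piece p
    rw [Finset.sum_eq_single i]
    · rw [indicator_of_mem hi]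
    · intro j _ hj
      refine indicator_of_notMem (fun h => ?_) _
      exact (Set.disjoint_left.1 (S.disj hj) h) hi
    · intro h; exact absurd (Finset.mem_univ i) h
  rw [h2]
  exact Finset.stronglyMeasurable_fun_sum _ fun i _ => h1 i

theorem isoField_fr (hG : Geo4 cov om) (S : FrSel om fr) (S' : FrSel om fr') :
    IsoField (frC R fr fr') (frC R fr' fr) where
  meas := frC_meas S S'
  meas' := frC_meas S' S
  iso := fun p w => by
    have h1 := (matF_spec hG (S'.ponfr p) (S.ponfr p)).1
    unfold frC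
    rw [trM_matF]
    have h2 := R.inner _ h1 w w
    rw [real_inner_self_eq_norm_sq, real_inner_self_eq_norm_sq] at h2
    exact (sq_eq_sq₀ (norm_nonneg _) (norm_nonneg _)).1 h2
  left := fun p w => by
    have h1 := rho_matF hG R (S.ponfr p) (S'.ponfr p) (S.ponfr p) w
    rw [rho_matF_self R (S.ponfr p).1] at h1
    exact h1
  right := fun p w => by
    have h1 := rho_matF hG R (S'.ponfr p) (S.ponfr p) (S'.ponfr p) w
    rw [rho_matF_self R (S'.ponfr p).1] at h1
    exact h1

/-- an equivariant kernel in the new frames -/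
theorem frC_ker (hG : Geo4 cov om) {n : WithTop ℕ∞} {O : Set ℝ} {U : Set M} {k : ℝ → PreK E M W W}
    (hk : SmK om R n O U k) {t : ℝ} (ht : t ∈ O) {x y : M} (hy : y ∈ U)
    (h : PON om x (fr x)) (h' : PON om x (fr' x)) :
    (frC R fr fr' x).comp (k t x (fr x) y) = k t x (fr' x) y := by
  have h1 := matF_spec hG h h'
  have h2 := hk.equiv t ht x (fr x) y hy _ h h1.1
  rw [← h1.2] at h2
  exact h2.symm

variable [IsFiniteMeasure μ]

/-- kernel data in the frames `fr'`, from kernel data in the frames `fr` -/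
def conjFr (hG : Geo4 cov om) (S : FrSel om fr) (S' : FrSel om fr')
    (K : KernelData (W := W) (S := Sec (E := E) (M := M) om R) μ) :
    KernelData (W := W) (S := Sec (E := E) (M := M) om R) μ :=
  K.conj (isoField_fr (R := R) hG S S')

variable (hG : Geo4 cov om) (S : FrSel om fr) (S' : FrSel om fr')
  (K : KernelData (W := W) (S := Sec (E := E) (M := M) om R) μ)

theorem conjFr_z (t : ℝ) (x y : M) : (conjFr hG S S' K).z t x y =
    (frC R fr fr' x).comp ((K.z t x y).comp (frC R fr' fr y)) := rfl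

theorem conjFr_e (t : ℝ) (x y : M) : (conjFr hG S S' K).e t x y =
    (frC R fr fr' x).comp ((K.e t x y).comp (frC R fr' fr y)) := rfl

theorem conjFr_ev (hK : ∀ s p, K.ev s p = s.1 p (fr p)) (s : Sec (E := E) (M := M) om R) (p : M) :
    (conjFr hG S S' K).ev s p = s.1 p (fr' p) := by
  change frC R fr fr' p (K.ev s p) = _
  rw [hK, frC_sec hG s.2 (S.ponfr p) (S'.ponfr p)]

theorem conjFr_Lf (hK : ∀ s p, K.Lf s p = lapS cov om s.1 p (fr p))
    (s : Sec (E := E) (M := M) om R) (p : M) :
    (conjFr hG S S' K).Lf s p = lapS cov om s.1 p (fr' p) := by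
  change frC R fr fr' p (K.Lf s p) = _
  rw [hK, frC_sec hG (KSec.lapS_mem hG s.2) (S.ponfr p) (S'.ponfr p)]

/-- the kernels of `conjFr` in terms of equivariant kernels, in the format of `LocSmooth` -/
theorem conjFr_z_eq {n : WithTop ℕ∞} {O : Set ℝ} {U : Set M} {k : ℝ → PreK E M W W}
    (hk : SmK om R n O U k) {t : ℝ} (ht : t ∈ O) {x y : M} (hy : y ∈ U)
    {F : Fin 4 → VF E M} (hF : fr y = fun i => F i y)
    (hz : K.z t x y = k t x (fr x) y) :
    (conjFr hG S S' K).z t x y =
      (k t x (fr' x) y).comp (R.ρ (trM (matF (fr' y) fun i => F i y))) := by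
  rw [conjFr_z, hz, ← frC_ker (fr := fr) (fr' := fr') hG hk ht hy (S.ponfr x) (S'.ponfr x),
    ← hF]
  rfl

theorem conjFr_e_eq {n : WithTop ℕ∞} {O : Set ℝ} {U : Set M} {k : ℝ → PreK E M W W}
    (hk : SmK om R n O U k) {t : ℝ} (ht : t ∈ O) {x y : M} (hy : y ∈ U)
    {F : Fin 4 → VF E M} (hF : fr y = fun i => F i y)
    (hz : K.e t x y = k t x (fr x) y) :
    (conjFr hG S S' K).e t x y =
      (k t x (fr' x) y).comp (R.ρ (trM (matF (fr' y) fun i => F i y))) := by
  rw [conjFr_e, hz, ← frC_ker (fr := fr) (fr' := fr') hG hk ht hy (S.ponfr x) (S'.ponfr x),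
    ← hF]
  rfl

end

end Vale.Agent.P211.HK
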