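import Vale.Agent.P211.HK.ANDefs

/-! P211 / HK / LK3, Hilbert space half (helper249): strong limit from Schur constants and the
adjoint limit; operators given through a space of sections. -/

namespace Vale.Agent.P211.HK

open Filter Topology MeasureTheory Set
open scoped RealInnerProductSpace

noncomputable section

set_option linter.unusedSectionVars false

variable {H : Type} [NormedAddCommGroup H] [InnerProductSpace ℝ H] [CompleteSpace H]

/-- a uniformly bounded family of operators converging on a set with dense span converges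
strongly -/
theorem strong_of_dense {Z : ℝ → H →L[ℝ] H} {D : Set H}
    (hD : (Submodule.span ℝ D).topologicalClosure = ⊤) {C : ℝ}
    (hZ : ∀ᶠ t in 𝓝[>] (0 : ℝ), ‖Z t‖ ≤ C)
    (hlim : ∀ φ ∈ D, Tendsto (fun t => Z t φ) (𝓝[>] 0) (𝓝 φ)) (w : H) :
    Tendsto (fun t => Z t w) (𝓝[>] 0) (𝓝 w) := by
  have hspan : ∀ φ ∈ Submodule.span ℝ D, Tendsto (fun t => Z t φ) (𝓝[>] 0) (𝓝 φ) := by
    intro φ hφ
    induction hφ using Submodule.span_induction with
    | mem x hx => exact hlim x hx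
    | zero => simp
    | add x y _ _ hx hy => simpa using hx.add hy
    | smul a x _ hx => simpa using hx.const_smul a
  have hdense : Dense ((Submodule.span ℝ D : Submodule ℝ H) : Set H) := by
    rw [Submodule.dense_iff_topologicalClosure_eq_top]; exact hD
  have hC0 : 0 ≤ max C 0 := le_max_right _ _
  rw [Metric.tendsto_nhds]
  intro ε hε
  obtain ⟨φ, hφ, hwφ⟩ := hdense.exists_dist_lt w (ε := ε / (2 * (max C 0 + 2))) (by positivity)
  have h1 := hspan φ hφ
  rw [Metric.tendsto_nhds] at h1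
  filter_upwards [hZ, h1 (ε / 2) (by positivity)] with t ht ht2
  have hwφ' : ‖w - φ‖ < ε / (2 * (max C 0 + 2)) := by rwa [← dist_eq_norm]
  have e1 : ‖Z t (w - φ)‖ ≤ max C 0 * ‖w - φ‖ :=
    (Z t).le_of_opNorm_le (ht.trans (le_max_left _ _)) _
  have e2 : ‖Z t φ - φ‖ < ε / 2 := by rwa [← dist_eq_norm]
  rw [dist_eq_norm]
  have e3 : Z t w - w = Z t (w - φ) + (Z t φ - φ) - (w - φ) := by
    rw [map_sub]; abel
  have e4 : (max C 0 + 2) * ‖w - φ‖ < ε / 2 := by
    have := mul_lt_mul_of_pos_left hwφ' (show 0 < max C 0 + 2 by positivity)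
    calc _ < _ := this
      _ = ε / 2 := by field_simp
  calc ‖Z t w - w‖ ≤ ‖Z t (w - φ)‖ + ‖Z t φ - φ‖ + ‖w - φ‖ := by
        rw [e3]; exact (norm_sub_le _ _).trans (by gcongr; exact norm_add_le _ _)
    _ < ε := by nlinarith [norm_nonneg (w - φ)]

/-- strong limit of `Z t` from `limsup ‖Z t‖ ≤ 1` and the strong limit of the adjoints on a set
with dense span -/
theorem strong_lim {Z : ℝ → H →L[ℝ] H} {D : Set H}
    (hD : (Submodule.span ℝ D).topologicalClosure = ⊤)
    (hZ : ∀ δ : ℝ, 0 < δ → ∀ᶠ t in 𝓝[>] (0 : ℝ), ‖Z t‖ ≤ 1 + δ)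
    (hlim : ∀ φ ∈ D, Tendsto (fun t => ContinuousLinearMap.adjoint (Z t) φ) (𝓝[>] 0) (𝓝 φ))
    (w : H) : Tendsto (fun t => Z t w) (𝓝[>] 0) (𝓝 w) := by
  have hadj : ∀ δ : ℝ, 0 < δ → ∀ᶠ t in 𝓝[>] (0 : ℝ), ‖ContinuousLinearMap.adjoint (Z t)‖ ≤ 1 + δ := by
    intro δ hδ
    filter_upwards [hZ δ hδ] with t ht
    rwa [LinearIsometryEquiv.norm_map]
  have h1 := strong_of_dense hD (hadj 1 one_pos) hlim w
  have h2 : Tendsto (fun t => ⟪ContinuousLinearMap.adjoint (Z t) w, w⟫) (𝓝[>] 0) (𝓝 ⟪w, w⟫) :=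
    h1.inner tendsto_const_nhds
  rw [tendsto_iff_norm_sub_tendsto_zero]
  have h3 : Tendsto (fun t => ‖Z t w - w‖ ^ 2) (𝓝[>] 0) (𝓝 0) := by
    rw [Metric.tendsto_nhds]
    intro ε hε
    set A := ‖w‖ ^ 2 with hA
    have hA0 : 0 ≤ A := by positivity
    obtain ⟨δ, hδ, hδ2⟩ : ∃ δ : ℝ, 0 < δ ∧ ((1 + δ) ^ 2 - 1) * A < ε / 2 := by
      refine ⟨min 1 (ε / (8 * (A + 1))), by positivity, ?_⟩
      set δ := min 1 (ε / (8 * (A + 1)))
      have d1 : δ ≤ 1 := min_le_left _ _
      have d2 : δ ≤ ε / (8 * (A + 1)) := min_le_right _ _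
      have d0 : 0 < δ := by positivity
      have d3 : δ * (A + 1) ≤ ε / 8 := by
        calc δ * (A + 1) ≤ ε / (8 * (A + 1)) * (A + 1) := by gcongr
          _ = ε / 8 := by field_simp
      nlinarith
    rw [Metric.tendsto_nhds] at h2
    filter_upwards [hZ δ hδ, h2 (ε / 4) (by positivity)] with t ht ht2
    rw [Real.dist_eq, abs_lt] at ht2
    rw [dist_zero_right, Real.norm_of_nonneg (by positivity)]
    have e1 : ‖Z t w‖ ≤ (1 + δ) * ‖w‖ := (Z t).le_of_opNorm_le ht _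
    have e2 : ‖Z t w‖ ^ 2 ≤ (1 + δ) ^ 2 * A := by
      rw [hA, ← mul_pow]; exact pow_le_pow_left₀ (norm_nonneg _) e1 2
    have e3 : ⟪ContinuousLinearMap.adjoint (Z t) w, w⟫ = ⟪w, Z t w⟫ :=
      ContinuousLinearMap.adjoint_inner_left _ _ _
    have e4 : ⟪w, w⟫ = A := real_inner_self_eq_norm_sq w
    rw [norm_sub_sq_real, real_inner_comm]
    rw [e3, e4] at ht2
    nlinarith
  have h4 := h3.sqrt
  simpa using h4

/-- the operator on the range of `T` with values `G` -/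
theorem exists_opL {S : Type} [AddCommGroup S] [Module ℝ S] (T G : S →ₗ[ℝ] H)
    (h : ∀ s, T s = 0 → G s = 0) :
    ∃ L : LinearMap.range T →ₗ[ℝ] H, ∀ s, L ⟨T s, LinearMap.mem_range_self T s⟩ = G s := by
  refine ⟨((LinearMap.ker T).liftQ G (fun s hs => ?_)).comp
    (T.quotKerEquivRange.symm : LinearMap.range T →ₗ[ℝ] _), fun s => ?_⟩
  · rw [LinearMap.mem_ker] at hs ⊢; exact h s hs
  · have : T.quotKerEquivRange.symm ⟨T s, LinearMap.mem_range_self T s⟩ =
        Submodule.Quotient.mk s := by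
      rw [LinearEquiv.symm_apply_eq]; rfl
    simp [this]

/-- symmetry and density: `T s = 0` implies `G s = 0` -/
theorem op_wellDefined {S : Type} [AddCommGroup S] [Module ℝ S] (T G : S →ₗ[ℝ] H)
    (hsymm : ∀ s r, ⟪G s, T r⟫ = ⟪T s, G r⟫)
    (hd : (LinearMap.range T).topologicalClosure = ⊤) (s : S) (hs : T s = 0) : G s = 0 := by
  have hdense : Dense ((LinearMap.range T : Submodule ℝ H) : Set H) := by
    rw [Submodule.dense_iff_topologicalClosure_eq_top]; exact hd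
  refine hdense.eq_zero_of_inner_right ℝ fun v hv => ?_
  obtain ⟨r, rfl⟩ := hv
  rw [real_inner_comm]
  simp [hsymm, hs]

end

end Vale.Agent.P211.HK
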