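import Vale.Agent.P211.HK.KI3
import Vale.Agent.P211.HK.Reps
import Vale.Agent.P211.HK.SC4

/-! P211 / HK: block KI, final assembly (helper485): linearly independent eigensections of `Λ₋`
give linearly independent Killing fields. -/

set_option maxSynthPendingDepth 3
set_option linter.all false

namespace Vale.Agent.P211.HK

open scoped Manifold ContDiff Topology RealInnerProductSpace
open Bundle Filter VectorField MeasureTheory

noncomputable section

theorem isTan_triv : IsTan Rep.triv.tn := fun g _ z k => by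
  rw [Rep.tn_ρ, tnMap_apply]
  simp [Rep.triv]

theorem Mm_eq (a : Fin 3) (i j : Fin 4) : Mm a i j = - Rq a i j := by
  fin_cases a <;> fin_cases i <;> fin_cases j <;> simp [Mm, Rq]

theorem lamM_eq (g : Mat4) (a b : Fin 3) :
    lamM g a b = 1 / 4 * ∑ i, ∑ j, ∑ k, ∑ l, Mm a i j * g i k * Mm b k l * g j l := by
  unfold lamM dotM adM mulM trM
  congr 1
  refine Finset.sum_congr rfl fun i _ => Finset.sum_congr rfl fun j _ => ?_
  rw [Finset.mul_sum, Finset.sum_comm]
  refine Finset.sum_congr rfl fun l _ => ?_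
  rw [Finset.sum_mul, Finset.mul_sum]
  refine Finset.sum_congr rfl fun k _ => ?_
  rw [Mm_eq, Mm_eq]
  ring

theorem isLam_lam : IsLam Rep.lam := by
  intro g _ w a
  change (op3 (lamM g) w) a = _
  rw [op3_apply]
  refine Finset.sum_congr rfl fun b _ => ?_
  rw [lamM_eq]

variable {E : Type} [NormedAddCommGroup E] [NormedSpace ℝ E] [FiniteDimensional ℝ E]
  {M : Type} [TopologicalSpace M] [ChartedSpace E M] [IsManifold 𝓘(ℝ, E) ∞ M] [T2Space M]
  [RiemannianBundle fun p : M => TangentSpace 𝓘(ℝ, E) p]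
  [IsContMDiffRiemannianBundle 𝓘(ℝ, E) ∞ E fun p : M => TangentSpace 𝓘(ℝ, E) p]
  {cov : CovariantDerivative 𝓘(ℝ, E) E (TangentSpace 𝓘(ℝ, E) : M → Type)}
  {om : Form4 E M}

/-- `nabS` as a linear map -/
def nabL (cov : CovariantDerivative 𝓘(ℝ, E) E (TangentSpace 𝓘(ℝ, E) : M → Type))
    (om : Form4 E M) {W : Type} [NormedAddCommGroup W] [InnerProductSpace ℝ W] (R : Rep W) :
    Sec (E := E) (M := M) om R →ₗ[ℝ] PreS E M (Tn W) where
  toFun u := nabS cov om u.1
  map_add' u v := SC4.nabS_add u.2 v.2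
  map_smul' c u := SC4.nabS_smul c u.2

theorem nabS_sum {W : Type} [NormedAddCommGroup W] [InnerProductSpace ℝ W] (R : Rep W) {n : ℕ}
    (c : Fin n → ℝ) {u : Fin n → PreS E M W} (hu : ∀ i, u i ∈ Sec om R) :
    nabS cov om (∑ i, c i • u i) = ∑ i, c i • nabS cov om (u i) := by
  have h := map_sum (nabL cov om R) (fun i => c i • (⟨u i, hu i⟩ : Sec (E := E) (M := M) om R))
    Finset.univ
  simp only [map_smul] at h
  have e : ((∑ i, c i • (⟨u i, hu i⟩ : Sec (E := E) (M := M) om R) : Sec om R) : PreS E M W) =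
      ∑ i, c i • u i := by
    rw [Submodule.coe_sum]; rfl
  rw [← e]
  exact h

theorem isKill_of (hg : Geo4 cov om) {X : VF E M} (h : ∀ p f, PON om p f → ∀ k l,
    (inner ℝ (f l) (cov X p (f k)) : ℝ) = - inner ℝ (f k) (cov X p (f l))) : IsKill cov X := by
  intro p v w
  obtain ⟨f, hf⟩ := exists_pon hg p
  have key : ∀ v w : TangentSpace 𝓘(ℝ, E) p, (inner ℝ (cov X p v) w : ℝ) =
      ∑ k, ∑ l, (inner ℝ (f k) v : ℝ) * inner ℝ (f l) w * inner ℝ (f l) (cov X p (f k)) := by
    intro v w
    have e1 : cov X p v = ∑ k, (inner ℝ (f k) v : ℝ) • cov X p (f k) := by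
      conv_lhs => rw [pon_expand hg hf.1 v]
      rw [map_sum]
      simp only [map_smul]
    have e2 : w = ∑ l, (inner ℝ (f l) w : ℝ) • f l := pon_expand hg hf.1 w
    conv_lhs => rw [e1, e2]
    rw [sum_inner]
    refine Finset.sum_congr rfl fun k _ => ?_
    rw [inner_sum]
    refine Finset.sum_congr rfl fun l _ => ?_
    rw [real_inner_smul_left, real_inner_smul_right, real_inner_comm (f l) (cov X p (f k))]
    ring
  have h2 : (inner ℝ v (cov X p w) : ℝ) = inner ℝ (cov X p w) v := real_inner_comm _ _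
  rw [h2, key v w, key w v]
  have h3 : ∑ k, ∑ l, (inner ℝ (f k) w : ℝ) * inner ℝ (f l) v * inner ℝ (f l) (cov X p (f k)) =
      ∑ k, ∑ l, (inner ℝ (f l) w : ℝ) * inner ℝ (f k) v * inner ℝ (f k) (cov X p (f l)) :=
    Finset.sum_comm
  rw [h3, ← Finset.sum_add_distrib]
  refine Finset.sum_eq_zero fun k _ => ?_
  rw [← Finset.sum_add_distrib]
  refine Finset.sum_eq_zero fun l _ => ?_
  rw [h p f hf k l]
  ring

theorem ki_of [MeasurableSpace M] [BorelSpace M] [CompactSpace M] {μ : Measure M}
    (h1 : KI1Stmt cov om μ) (h2 : KI2Stmt cov om) : KIStmt cov om μ := by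
  intro hg hfin hpos hdiv kap hk hA R hR n u hu hl hind
  have hT := isTan_triv
  have k1 := fun i => h1 hg hfin hpos hdiv kap hk hA R Rep.triv.tn hR hT (u i) (hu i) (hl i)
  refine ⟨fun i => KI3.vfOf hg hT (k1 i).1, ?_, fun i => ?_⟩
  · rw [Fintype.linearIndependent_iff]
    intro c hc
    have huc : (∑ i, c i • u i) ∈ Sec (E := E) (M := M) om R :=
      Submodule.sum_mem _ fun i _ => Submodule.smul_mem _ _ (hu i)
    have hzc : (∑ i, c i • mapS STm (nabS cov om (u i))) ∈ Sec (E := E) (M := M) om Rep.triv.tn :=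
      Submodule.sum_mem _ fun i _ => Submodule.smul_mem _ _ (k1 i).1
    have hz : ∀ p f, (∑ i, c i • mapS STm (nabS cov om (u i))) p f = (0 : Tn ℝ) := by
      intro p f
      by_cases hf : PON om p f
      · ext l
        have e1 : (∑ i, c i • KI3.vfOf hg hT (k1 i).1 : VF E M) p = 0 := by
          rw [hc]; rfl
        have e2 : (∑ i, c i • KI3.vfOf hg hT (k1 i).1 : VF E M) p =
            ∑ i, c i • KI3.vfOf hg hT (k1 i).1 p := by
          rw [VF.sum_apply]; rfl
        rw [e2] at e1
        have e3 := congrArg (fun x => (inner ℝ (f l) x : ℝ)) e1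
        simp only [inner_sum, real_inner_smul_right, inner_zero_right,
          KI3.inner_vfOf hg hT _ hf l] at e3
        simp only [Finset.sum_apply, Pi.smul_apply, WithLp.ofLp_sum, WithLp.ofLp_smul,
          smul_eq_mul]
        exact e3
      · exact hzc.1 p f hf
    have hrel : ∀ p f, PON om p f → ∀ (k : Fin 4) (a : Fin 3),
        (nabS cov om (∑ i, c i • u i) p f k) a =
          1 / 3 * ∑ l, Mm a k l * ((∑ i, c i • mapS STm (nabS cov om (u i))) p f) l := by
      intro p f hf k a
      rw [nabS_sum R c hu, hz p f]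
      have e1 : ∀ i, (nabS cov om (u i) p f k) a =
          1 / 3 * ∑ l, Mm a k l * (mapS STm (nabS cov om (u i)) p f) l :=
        fun i => (k1 i).2 p f hf k a
      have e2 : ((∑ i, c i • nabS cov om (u i)) p f k) a =
          ∑ i, c i * (nabS cov om (u i) p f k) a := by
        simp only [Finset.sum_apply, Pi.smul_apply, WithLp.ofLp_sum, WithLp.ofLp_smul,
          smul_eq_mul, PiLp.smul_apply]
      rw [e2]
      simp only [e1]
      have e3 : ∑ i, c i * (1 / 3 * ∑ l, Mm a k l * (mapS STm (nabS cov om (u i)) p f) l) =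
          1 / 3 * ∑ l, Mm a k l * ((∑ i, c i • mapS STm (nabS cov om (u i))) p f) l := by
        simp only [Finset.sum_apply, Pi.smul_apply, WithLp.ofLp_sum, WithLp.ofLp_smul,
          smul_eq_mul, Finset.mul_sum]
        rw [Finset.sum_comm]
        refine Finset.sum_congr rfl fun l _ => Finset.sum_congr rfl fun i _ => ?_
        ring
      rw [e3, hz p f]
    have h0 := (h2 hg kap hk hA R Rep.triv.tn hR hT _ huc _ hzc hrel).2 hz
    have h00 : ∑ i, c i • u i = 0 := by
      funext p f
      exact h0 p f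
    exact Fintype.linearIndependent_iff.1 hind c h00
  · refine isKill_of hg fun p f hf k l => ?_
    have h3 := (h2 hg kap hk hA R Rep.triv.tn hR hT (u i) (hu i) _ (k1 i).1
      (fun p f hf k a => (k1 i).2 p f hf k a)).1 p f hf k l
    rw [KI3.nab_vfOf hg hT _ hf, KI3.nab_vfOf hg hT _ hf] at h3
    exact h3

end

end Vale.Agent.P211.HK
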