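import Vale.Agent.P211.HK.KIDefs
import Vale.Agent.P211.HK.SC0
import Vale.Agent.P211.HK.SC2
import Vale.Agent.P211.H555.Bridge

/-! P211 / HK: block KI0 (helper485): Einstein and `W₋ = 0` in the form `Asd`. -/

set_option linter.all false
set_option maxSynthPendingDepth 3

namespace Vale.Agent.P211.HK

open scoped Manifold ContDiff Topology RealInnerProductSpace
open Bundle Filter VectorField MeasureTheory

noncomputable section

namespace KI0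

/-- the quadratic form of the curvature operator on `(G₀ ∧ G₁ + G₂ ∧ G₃) / √2`, `G = F g` -/
def qG (r : Fin 4 → Fin 4 → Fin 4 → Fin 4 → ℝ) (g : Mat4) : ℝ :=
  (∑ i, ∑ j, ∑ k, ∑ l, g i 0 * g j 1 * g k 1 * g l 0 * r i j k l +
    2 * ∑ i, ∑ j, ∑ k, ∑ l, g i 0 * g j 1 * g k 3 * g l 2 * r i j k l +
    ∑ i, ∑ j, ∑ k, ∑ l, g i 2 * g j 3 * g k 3 * g l 2 * r i j k l) / 2

/-- symmetries of a curvature tensor -/
structure Sym4 (r : Fin 4 → Fin 4 → Fin 4 → Fin 4 → ℝ) : Prop where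
  a12 : ∀ i j k l, r i j k l = - r j i k l
  a34 : ∀ i j k l, r i j k l = - r i j l k
  pr : ∀ i j k l, r i j k l = r k l i j
  bi : ∀ i j k l, r i j k l + r j k i l + r k i j l = 0

variable {r : Fin 4 → Fin 4 → Fin 4 → Fin 4 → ℝ}

theorem Sym4.z12 (h : Sym4 r) (i k l) : r i i k l = 0 := by have := h.a12 i i k l; linarith
theorem Sym4.z34 (h : Sym4 r) (i j k) : r i j k k = 0 := by have := h.a34 i j k k; linarith
theorem Sym4.b10 (h : Sym4 r) (k l) : r 1 0 k l = - r 0 1 k l := h.a12 1 0 k l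
theorem Sym4.b20 (h : Sym4 r) (k l) : r 2 0 k l = - r 0 2 k l := h.a12 2 0 k l
theorem Sym4.b30 (h : Sym4 r) (k l) : r 3 0 k l = - r 0 3 k l := h.a12 3 0 k l
theorem Sym4.b21 (h : Sym4 r) (k l) : r 2 1 k l = - r 1 2 k l := h.a12 2 1 k l
theorem Sym4.b31 (h : Sym4 r) (k l) : r 3 1 k l = - r 1 3 k l := h.a12 3 1 k l
theorem Sym4.b32 (h : Sym4 r) (k l) : r 3 2 k l = - r 2 3 k l := h.a12 3 2 k l
theorem Sym4.c10 (h : Sym4 r) (k l) : r k l 1 0 = - r k l 0 1 := h.a34 k l 1 0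
theorem Sym4.c20 (h : Sym4 r) (k l) : r k l 2 0 = - r k l 0 2 := h.a34 k l 2 0
theorem Sym4.c30 (h : Sym4 r) (k l) : r k l 3 0 = - r k l 0 3 := h.a34 k l 3 0
theorem Sym4.c21 (h : Sym4 r) (k l) : r k l 2 1 = - r k l 1 2 := h.a34 k l 2 1
theorem Sym4.c31 (h : Sym4 r) (k l) : r k l 3 1 = - r k l 1 3 := h.a34 k l 3 1
theorem Sym4.c32 (h : Sym4 r) (k l) : r k l 3 2 = - r k l 2 3 := h.a34 k l 3 2
theorem Sym4.p1 (h : Sym4 r) : r 0 2 0 1 = r 0 1 0 2 := h.pr _ _ _ _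
theorem Sym4.p2 (h : Sym4 r) : r 0 3 0 1 = r 0 1 0 3 := h.pr _ _ _ _
theorem Sym4.p3 (h : Sym4 r) : r 1 2 0 1 = r 0 1 1 2 := h.pr _ _ _ _
theorem Sym4.p4 (h : Sym4 r) : r 1 3 0 1 = r 0 1 1 3 := h.pr _ _ _ _
theorem Sym4.p5 (h : Sym4 r) : r 2 3 0 1 = r 0 1 2 3 := h.pr _ _ _ _
theorem Sym4.p6 (h : Sym4 r) : r 0 3 0 2 = r 0 2 0 3 := h.pr _ _ _ _
theorem Sym4.p7 (h : Sym4 r) : r 1 2 0 2 = r 0 2 1 2 := h.pr _ _ _ _
theorem Sym4.p8 (h : Sym4 r) : r 1 3 0 2 = r 0 2 1 3 := h.pr _ _ _ _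
theorem Sym4.p9 (h : Sym4 r) : r 2 3 0 2 = r 0 2 2 3 := h.pr _ _ _ _
theorem Sym4.p10 (h : Sym4 r) : r 1 2 0 3 = r 0 3 1 2 := h.pr _ _ _ _
theorem Sym4.p11 (h : Sym4 r) : r 1 3 0 3 = r 0 3 1 3 := h.pr _ _ _ _
theorem Sym4.p12 (h : Sym4 r) : r 2 3 0 3 = r 0 3 2 3 := h.pr _ _ _ _
theorem Sym4.p13 (h : Sym4 r) : r 1 3 1 2 = r 1 2 1 3 := h.pr _ _ _ _
theorem Sym4.p14 (h : Sym4 r) : r 2 3 1 2 = r 1 2 2 3 := h.pr _ _ _ _
theorem Sym4.p15 (h : Sym4 r) : r 2 3 1 3 = r 1 3 2 3 := h.pr _ _ _ _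


theorem q1 (h : Sym4 r) : qG r ![![1, 0, 0, 0], ![0, 1, 0, 0], ![0, 0, 0, 1], ![0, 0, 1, 0]] =
    (-1/2) * r 0 1 0 1 + (1) * r 0 1 2 3 + (-1/2) * r 2 3 2 3 := by
  simp [qG, Fin.sum_univ_four, h.z12, h.z34, h.b10, h.b20, h.b30, h.b21, h.b31, h.b32, h.c10, h.c20, h.c30, h.c21, h.c31, h.c32, h.p1, h.p2, h.p3, h.p4, h.p5, h.p6, h.p7, h.p8, h.p9, h.p10, h.p11, h.p12, h.p13, h.p14, h.p15]
  ring

theorem q1_so : mulM (trM (![![1, 0, 0, 0], ![0, 1, 0, 0], ![0, 0, 0, 1], ![0, 0, 1, 0]] : Mat4)) (![![1, 0, 0, 0], ![0, 1, 0, 0], ![0, 0, 0, 1], ![0, 0, 1, 0]] : Mat4) = idM := by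
  funext i j; fin_cases i <;> fin_cases j <;> simp [mulM, trM, idM, Fin.sum_univ_four] <;> norm_num

theorem q1_det : (Matrix.of (![![1, 0, 0, 0], ![0, 1, 0, 0], ![0, 0, 0, 1], ![0, 0, 1, 0]] : Mat4)).det = -1 := by
  simp [Matrix.det_succ_row_zero, Fin.sum_univ_succ] <;> norm_num

theorem q2 (h : Sym4 r) : qG r ![![1, 0, 0, 0], ![0, 0, 1, 0], ![0, 1, 0, 0], ![0, 0, 0, 1]] =
    (-1/2) * r 0 2 0 2 + (-1) * r 0 2 1 3 + (-1/2) * r 1 3 1 3 := by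
  simp [qG, Fin.sum_univ_four, h.z12, h.z34, h.b10, h.b20, h.b30, h.b21, h.b31, h.b32, h.c10, h.c20, h.c30, h.c21, h.c31, h.c32, h.p1, h.p2, h.p3, h.p4, h.p5, h.p6, h.p7, h.p8, h.p9, h.p10, h.p11, h.p12, h.p13, h.p14, h.p15]
  ring

theorem q2_so : mulM (trM (![![1, 0, 0, 0], ![0, 0, 1, 0], ![0, 1, 0, 0], ![0, 0, 0, 1]] : Mat4)) (![![1, 0, 0, 0], ![0, 0, 1, 0], ![0, 1, 0, 0], ![0, 0, 0, 1]] : Mat4) = idM := by
  funext i j; fin_cases i <;> fin_cases j <;> simp [mulM, trM, idM, Fin.sum_univ_four] <;> norm_num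

theorem q2_det : (Matrix.of (![![1, 0, 0, 0], ![0, 0, 1, 0], ![0, 1, 0, 0], ![0, 0, 0, 1]] : Mat4)).det = -1 := by
  simp [Matrix.det_succ_row_zero, Fin.sum_univ_succ] <;> norm_num

theorem q3 (h : Sym4 r) : qG r ![![1, 0, 0, 0], ![0, 0, 0, 1], ![0, 0, 1, 0], ![0, 1, 0, 0]] =
    (-1/2) * r 0 3 0 3 + (1) * r 0 3 1 2 + (-1/2) * r 1 2 1 2 := by
  simp [qG, Fin.sum_univ_four, h.z12, h.z34, h.b10, h.b20, h.b30, h.b21, h.b31, h.b32, h.c10, h.c20, h.c30, h.c21, h.c31, h.c32, h.p1, h.p2, h.p3, h.p4, h.p5, h.p6, h.p7, h.p8, h.p9, h.p10, h.p11, h.p12, h.p13, h.p14, h.p15]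
  ring

theorem q3_so : mulM (trM (![![1, 0, 0, 0], ![0, 0, 0, 1], ![0, 0, 1, 0], ![0, 1, 0, 0]] : Mat4)) (![![1, 0, 0, 0], ![0, 0, 0, 1], ![0, 0, 1, 0], ![0, 1, 0, 0]] : Mat4) = idM := by
  funext i j; fin_cases i <;> fin_cases j <;> simp [mulM, trM, idM, Fin.sum_univ_four] <;> norm_num

theorem q3_det : (Matrix.of (![![1, 0, 0, 0], ![0, 0, 0, 1], ![0, 0, 1, 0], ![0, 1, 0, 0]] : Mat4)).det = -1 := by
  simp [Matrix.det_succ_row_zero, Fin.sum_univ_succ] <;> norm_num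

theorem q4 (h : Sym4 r) : qG r ![![1, 0, 0, 0], ![0, 3 / 5, 0, -4 / 5], ![0, 4 / 5, 0, 3 / 5], ![0, 0, 1, 0]] =
    (-9/50) * r 0 1 0 1 + (-12/25) * r 0 1 0 2 + (-12/25) * r 0 1 1 3 + (9/25) * r 0 1 2 3 + (-8/25) * r 0 2 0 2 + (-16/25) * r 0 2 1 3 + (12/25) * r 0 2 2 3 + (-8/25) * r 1 3 1 3 + (12/25) * r 1 3 2 3 + (-9/50) * r 2 3 2 3 := by
  simp [qG, Fin.sum_univ_four, h.z12, h.z34, h.b10, h.b20, h.b30, h.b21, h.b31, h.b32, h.c10, h.c20, h.c30, h.c21, h.c31, h.c32, h.p1, h.p2, h.p3, h.p4, h.p5, h.p6, h.p7, h.p8, h.p9, h.p10, h.p11, h.p12, h.p13, h.p14, h.p15]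
  ring

theorem q4_so : mulM (trM (![![1, 0, 0, 0], ![0, 3 / 5, 0, -4 / 5], ![0, 4 / 5, 0, 3 / 5], ![0, 0, 1, 0]] : Mat4)) (![![1, 0, 0, 0], ![0, 3 / 5, 0, -4 / 5], ![0, 4 / 5, 0, 3 / 5], ![0, 0, 1, 0]] : Mat4) = idM := by
  funext i j; fin_cases i <;> fin_cases j <;> simp [mulM, trM, idM, Fin.sum_univ_four] <;> norm_num

theorem q4_det : (Matrix.of (![![1, 0, 0, 0], ![0, 3 / 5, 0, -4 / 5], ![0, 4 / 5, 0, 3 / 5], ![0, 0, 1, 0]] : Mat4)).det = -1 := by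
  simp [Matrix.det_succ_row_zero, Fin.sum_univ_succ] <;> norm_num

theorem q5 (h : Sym4 r) : qG r ![![1, 0, 0, 0], ![0, 0, 1, 0], ![0, 3 / 5, 0, -4 / 5], ![0, 4 / 5, 0, 3 / 5]] =
    (-9/50) * r 0 2 0 2 + (-12/25) * r 0 2 0 3 + (12/25) * r 0 2 1 2 + (-9/25) * r 0 2 1 3 + (-8/25) * r 0 3 0 3 + (16/25) * r 0 3 1 2 + (-12/25) * r 0 3 1 3 + (-8/25) * r 1 2 1 2 + (12/25) * r 1 2 1 3 + (-9/50) * r 1 3 1 3 := by
  simp [qG, Fin.sum_univ_four, h.z12, h.z34, h.b10, h.b20, h.b30, h.b21, h.b31, h.b32, h.c10, h.c20, h.c30, h.c21, h.c31, h.c32, h.p1, h.p2, h.p3, h.p4, h.p5, h.p6, h.p7, h.p8, h.p9, h.p10, h.p11, h.p12, h.p13, h.p14, h.p15]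
  ring

theorem q5_so : mulM (trM (![![1, 0, 0, 0], ![0, 0, 1, 0], ![0, 3 / 5, 0, -4 / 5], ![0, 4 / 5, 0, 3 / 5]] : Mat4)) (![![1, 0, 0, 0], ![0, 0, 1, 0], ![0, 3 / 5, 0, -4 / 5], ![0, 4 / 5, 0, 3 / 5]] : Mat4) = idM := by
  funext i j; fin_cases i <;> fin_cases j <;> simp [mulM, trM, idM, Fin.sum_univ_four] <;> norm_num

theorem q5_det : (Matrix.of (![![1, 0, 0, 0], ![0, 0, 1, 0], ![0, 3 / 5, 0, -4 / 5], ![0, 4 / 5, 0, 3 / 5]] : Mat4)).det = -1 := by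
  simp [Matrix.det_succ_row_zero, Fin.sum_univ_succ] <;> norm_num

theorem q6 (h : Sym4 r) : qG r ![![1, 0, 0, 0], ![0, 4 / 5, 0, 3 / 5], ![0, 0, 1, 0], ![0, 3 / 5, 0, -4 / 5]] =
    (-8/25) * r 0 1 0 1 + (-12/25) * r 0 1 0 3 + (12/25) * r 0 1 1 2 + (16/25) * r 0 1 2 3 + (-9/50) * r 0 3 0 3 + (9/25) * r 0 3 1 2 + (12/25) * r 0 3 2 3 + (-9/50) * r 1 2 1 2 + (-12/25) * r 1 2 2 3 + (-8/25) * r 2 3 2 3 := by
  simp [qG, Fin.sum_univ_four, h.z12, h.z34, h.b10, h.b20, h.b30, h.b21, h.b31, h.b32, h.c10, h.c20, h.c30, h.c21, h.c31, h.c32, h.p1, h.p2, h.p3, h.p4, h.p5, h.p6, h.p7, h.p8, h.p9, h.p10, h.p11, h.p12, h.p13, h.p14, h.p15]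
  ring

theorem q6_so : mulM (trM (![![1, 0, 0, 0], ![0, 4 / 5, 0, 3 / 5], ![0, 0, 1, 0], ![0, 3 / 5, 0, -4 / 5]] : Mat4)) (![![1, 0, 0, 0], ![0, 4 / 5, 0, 3 / 5], ![0, 0, 1, 0], ![0, 3 / 5, 0, -4 / 5]] : Mat4) = idM := by
  funext i j; fin_cases i <;> fin_cases j <;> simp [mulM, trM, idM, Fin.sum_univ_four] <;> norm_num

theorem q6_det : (Matrix.of (![![1, 0, 0, 0], ![0, 4 / 5, 0, 3 / 5], ![0, 0, 1, 0], ![0, 3 / 5, 0, -4 / 5]] : Mat4)).det = -1 := by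
  simp [Matrix.det_succ_row_zero, Fin.sum_univ_succ] <;> norm_num

theorem ric00 (h : Sym4 r) : ∑ i, r i 0 0 i = (-1) * r 0 1 0 1 + (-1) * r 0 2 0 2 + (-1) * r 0 3 0 3 := by
  simp [Fin.sum_univ_four, h.z12, h.z34, h.b10, h.b20, h.b30, h.b21, h.b31, h.b32, h.c10, h.c20, h.c30, h.c21, h.c31, h.c32, h.p1, h.p2, h.p3, h.p4, h.p5, h.p6, h.p7, h.p8, h.p9, h.p10, h.p11, h.p12, h.p13, h.p14, h.p15]
  try ring

theorem ric11 (h : Sym4 r) : ∑ i, r i 1 1 i = (-1) * r 0 1 0 1 + (-1) * r 1 2 1 2 + (-1) * r 1 3 1 3 := by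
  simp [Fin.sum_univ_four, h.z12, h.z34, h.b10, h.b20, h.b30, h.b21, h.b31, h.b32, h.c10, h.c20, h.c30, h.c21, h.c31, h.c32, h.p1, h.p2, h.p3, h.p4, h.p5, h.p6, h.p7, h.p8, h.p9, h.p10, h.p11, h.p12, h.p13, h.p14, h.p15]
  try ring

theorem ric22 (h : Sym4 r) : ∑ i, r i 2 2 i = (-1) * r 0 2 0 2 + (-1) * r 1 2 1 2 + (-1) * r 2 3 2 3 := by
  simp [Fin.sum_univ_four, h.z12, h.z34, h.b10, h.b20, h.b30, h.b21, h.b31, h.b32, h.c10, h.c20, h.c30, h.c21, h.c31, h.c32, h.p1, h.p2, h.p3, h.p4, h.p5, h.p6, h.p7, h.p8, h.p9, h.p10, h.p11, h.p12, h.p13, h.p14, h.p15]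
  try ring

theorem ric33 (h : Sym4 r) : ∑ i, r i 3 3 i = (-1) * r 0 3 0 3 + (-1) * r 1 3 1 3 + (-1) * r 2 3 2 3 := by
  simp [Fin.sum_univ_four, h.z12, h.z34, h.b10, h.b20, h.b30, h.b21, h.b31, h.b32, h.c10, h.c20, h.c30, h.c21, h.c31, h.c32, h.p1, h.p2, h.p3, h.p4, h.p5, h.p6, h.p7, h.p8, h.p9, h.p10, h.p11, h.p12, h.p13, h.p14, h.p15]
  try ring

theorem ric01 (h : Sym4 r) : ∑ i, r i 0 1 i = (-1) * r 0 2 1 2 + (-1) * r 0 3 1 3 := by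
  simp [Fin.sum_univ_four, h.z12, h.z34, h.b10, h.b20, h.b30, h.b21, h.b31, h.b32, h.c10, h.c20, h.c30, h.c21, h.c31, h.c32, h.p1, h.p2, h.p3, h.p4, h.p5, h.p6, h.p7, h.p8, h.p9, h.p10, h.p11, h.p12, h.p13, h.p14, h.p15]
  try ring

theorem ric02 (h : Sym4 r) : ∑ i, r i 0 2 i = (1) * r 0 1 1 2 + (-1) * r 0 3 2 3 := by
  simp [Fin.sum_univ_four, h.z12, h.z34, h.b10, h.b20, h.b30, h.b21, h.b31, h.b32, h.c10, h.c20, h.c30, h.c21, h.c31, h.c32, h.p1, h.p2, h.p3, h.p4, h.p5, h.p6, h.p7, h.p8, h.p9, h.p10, h.p11, h.p12, h.p13, h.p14, h.p15]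
  try ring

theorem ric03 (h : Sym4 r) : ∑ i, r i 0 3 i = (1) * r 0 1 1 3 + (1) * r 0 2 2 3 := by
  simp [Fin.sum_univ_four, h.z12, h.z34, h.b10, h.b20, h.b30, h.b21, h.b31, h.b32, h.c10, h.c20, h.c30, h.c21, h.c31, h.c32, h.p1, h.p2, h.p3, h.p4, h.p5, h.p6, h.p7, h.p8, h.p9, h.p10, h.p11, h.p12, h.p13, h.p14, h.p15]
  try ring

theorem ric12 (h : Sym4 r) : ∑ i, r i 1 2 i = (-1) * r 0 1 0 2 + (-1) * r 1 3 2 3 := by
  simp [Fin.sum_univ_four, h.z12, h.z34, h.b10, h.b20, h.b30, h.b21, h.b31, h.b32, h.c10, h.c20, h.c30, h.c21, h.c31, h.c32, h.p1, h.p2, h.p3, h.p4, h.p5, h.p6, h.p7, h.p8, h.p9, h.p10, h.p11, h.p12, h.p13, h.p14, h.p15]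
  try ring

theorem ric13 (h : Sym4 r) : ∑ i, r i 1 3 i = (-1) * r 0 1 0 3 + (1) * r 1 2 2 3 := by
  simp [Fin.sum_univ_four, h.z12, h.z34, h.b10, h.b20, h.b30, h.b21, h.b31, h.b32, h.c10, h.c20, h.c30, h.c21, h.c31, h.c32, h.p1, h.p2, h.p3, h.p4, h.p5, h.p6, h.p7, h.p8, h.p9, h.p10, h.p11, h.p12, h.p13, h.p14, h.p15]
  try ring

theorem ric23 (h : Sym4 r) : ∑ i, r i 2 3 i = (-1) * r 0 2 0 3 + (-1) * r 1 2 1 3 := by
  simp [Fin.sum_univ_four, h.z12, h.z34, h.b10, h.b20, h.b30, h.b21, h.b31, h.b32, h.c10, h.c20, h.c30, h.c21, h.c31, h.c32, h.p1, h.p2, h.p3, h.p4, h.p5, h.p6, h.p7, h.p8, h.p9, h.p10, h.p11, h.p12, h.p13, h.p14, h.p15]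
  try ring

/-- the hypotheses on the curvature in a frame -/
structure Hyp (r : Fin 4 → Fin 4 → Fin 4 → Fin 4 → ℝ) (lam : ℝ) : Prop extends Sym4 r where
  ric : ∀ j k, ∑ i, r i j k i = if j = k then lam else 0
  q : ∀ g : Mat4, mulM (trM g) g = idM → (Matrix.of g).det = -1 → qG r g = lam / 3

section
variable {lam : ℝ} (H : Hyp r lam)
include H
theorem B : r 0 1 2 3 + r 0 3 1 2 - r 0 2 1 3 = 0 := by
  have h := H.toSym4
  have B := h.bi 0 1 2 3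
  simp only [h.b20, h.p10, h.p8, h.c30, h.c31, h.c32] at B
  linarith
theorem e00 : (-1) * r 0 1 0 1 + (-1) * r 0 2 0 2 + (-1) * r 0 3 0 3 = lam := (ric00 H.toSym4).symm.trans ((H.ric 0 0).trans (by simp))
theorem e11 : (-1) * r 0 1 0 1 + (-1) * r 1 2 1 2 + (-1) * r 1 3 1 3 = lam := (ric11 H.toSym4).symm.trans ((H.ric 1 1).trans (by simp))
theorem e22 : (-1) * r 0 2 0 2 + (-1) * r 1 2 1 2 + (-1) * r 2 3 2 3 = lam := (ric22 H.toSym4).symm.trans ((H.ric 2 2).trans (by simp))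
theorem e33 : (-1) * r 0 3 0 3 + (-1) * r 1 3 1 3 + (-1) * r 2 3 2 3 = lam := (ric33 H.toSym4).symm.trans ((H.ric 3 3).trans (by simp))
theorem e01 : (-1) * r 0 2 1 2 + (-1) * r 0 3 1 3 = 0 := (ric01 H.toSym4).symm.trans ((H.ric 0 1).trans (by simp))
theorem e02 : (1) * r 0 1 1 2 + (-1) * r 0 3 2 3 = 0 := (ric02 H.toSym4).symm.trans ((H.ric 0 2).trans (by simp))
theorem e03 : (1) * r 0 1 1 3 + (1) * r 0 2 2 3 = 0 := (ric03 H.toSym4).symm.trans ((H.ric 0 3).trans (by simp))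
theorem e12 : (-1) * r 0 1 0 2 + (-1) * r 1 3 2 3 = 0 := (ric12 H.toSym4).symm.trans ((H.ric 1 2).trans (by simp))
theorem e13 : (-1) * r 0 1 0 3 + (1) * r 1 2 2 3 = 0 := (ric13 H.toSym4).symm.trans ((H.ric 1 3).trans (by simp))
theorem e23 : (-1) * r 0 2 0 3 + (-1) * r 1 2 1 3 = 0 := (ric23 H.toSym4).symm.trans ((H.ric 2 3).trans (by simp))
theorem fq1 : (-1/2) * r 0 1 0 1 + (1) * r 0 1 2 3 + (-1/2) * r 2 3 2 3 = lam / 3 := (q1 H.toSym4).symm.trans (H.q _ q1_so q1_det)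
theorem fq2 : (-1/2) * r 0 2 0 2 + (-1) * r 0 2 1 3 + (-1/2) * r 1 3 1 3 = lam / 3 := (q2 H.toSym4).symm.trans (H.q _ q2_so q2_det)
theorem fq3 : (-1/2) * r 0 3 0 3 + (1) * r 0 3 1 2 + (-1/2) * r 1 2 1 2 = lam / 3 := (q3 H.toSym4).symm.trans (H.q _ q3_so q3_det)
theorem fq4 : (-9/50) * r 0 1 0 1 + (-12/25) * r 0 1 0 2 + (-12/25) * r 0 1 1 3 + (9/25) * r 0 1 2 3 + (-8/25) * r 0 2 0 2 + (-16/25) * r 0 2 1 3 + (12/25) * r 0 2 2 3 + (-8/25) * r 1 3 1 3 + (12/25) * r 1 3 2 3 + (-9/50) * r 2 3 2 3 = lam / 3 := (q4 H.toSym4).symm.trans (H.q _ q4_so q4_det)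
theorem fq5 : (-9/50) * r 0 2 0 2 + (-12/25) * r 0 2 0 3 + (12/25) * r 0 2 1 2 + (-9/25) * r 0 2 1 3 + (-8/25) * r 0 3 0 3 + (16/25) * r 0 3 1 2 + (-12/25) * r 0 3 1 3 + (-8/25) * r 1 2 1 2 + (12/25) * r 1 2 1 3 + (-9/50) * r 1 3 1 3 = lam / 3 := (q5 H.toSym4).symm.trans (H.q _ q5_so q5_det)
theorem fq6 : (-8/25) * r 0 1 0 1 + (-12/25) * r 0 1 0 3 + (12/25) * r 0 1 1 2 + (16/25) * r 0 1 2 3 + (-9/50) * r 0 3 0 3 + (9/25) * r 0 3 1 2 + (12/25) * r 0 3 2 3 + (-9/50) * r 1 2 1 2 + (-12/25) * r 1 2 2 3 + (-8/25) * r 2 3 2 3 = lam / 3 := (q6 H.toSym4).symm.trans (H.q _ q6_so q6_det)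

theorem m001 : ∑ i, ∑ j, Mm 0 i j * r 0 1 j i = 2 * (lam / 3) * Mm 0 0 1 := by
  have h := H.toSym4
  have e : ∑ i, ∑ j, Mm 0 i j * r 0 1 j i = (-2) * r 0 1 0 1 + (2) * r 0 1 2 3 := by
    simp [Mm, Fin.sum_univ_four, h.z12, h.z34, h.b10, h.b20, h.b30, h.b21, h.b31, h.b32, h.c10, h.c20, h.c30, h.c21, h.c31, h.c32, h.p1, h.p2, h.p3, h.p4, h.p5, h.p6, h.p7, h.p8, h.p9, h.p10, h.p11, h.p12, h.p13, h.p14, h.p15]
    try ring
  have e2 : 2 * (lam / 3) * Mm 0 0 1 = (2/3) * lam := by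
    simp [Mm] <;> ring
  rw [e, e2]
  linear_combination (1/2) * e00 H + (1/2) * e11 H + (-1/2) * e22 H + (-1/2) * e33 H + (2) * fq1 H

theorem m002 : ∑ i, ∑ j, Mm 0 i j * r 0 2 j i = 2 * (lam / 3) * Mm 0 0 2 := by
  have h := H.toSym4
  have e : ∑ i, ∑ j, Mm 0 i j * r 0 2 j i = (-2) * r 0 1 0 2 + (2) * r 0 2 2 3 := by
    simp [Mm, Fin.sum_univ_four, h.z12, h.z34, h.b10, h.b20, h.b30, h.b21, h.b31, h.b32, h.c10, h.c20, h.c30, h.c21, h.c31, h.c32, h.p1, h.p2, h.p3, h.p4, h.p5, h.p6, h.p7, h.p8, h.p9, h.p10, h.p11, h.p12, h.p13, h.p14, h.p15]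
    try ring
  have e2 : 2 * (lam / 3) * Mm 0 0 2 = (0) * lam := by
    simp [Mm] <;> ring
  rw [e, e2]
  linear_combination (1) * e03 H + (1) * e12 H + (-3/4) * fq1 H + (-4/3) * fq2 H + (25/12) * fq4 H

theorem m003 : ∑ i, ∑ j, Mm 0 i j * r 0 3 j i = 2 * (lam / 3) * Mm 0 0 3 := by
  have h := H.toSym4
  have e : ∑ i, ∑ j, Mm 0 i j * r 0 3 j i = (-2) * r 0 1 0 3 + (2) * r 0 3 2 3 := by
    simp [Mm, Fin.sum_univ_four, h.z12, h.z34, h.b10, h.b20, h.b30, h.b21, h.b31, h.b32, h.c10, h.c20, h.c30, h.c21, h.c31, h.c32, h.p1, h.p2, h.p3, h.p4, h.p5, h.p6, h.p7, h.p8, h.p9, h.p10, h.p11, h.p12, h.p13, h.p14, h.p15]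
    try ring
  have e2 : 2 * (lam / 3) * Mm 0 0 3 = (0) * lam := by
    simp [Mm] <;> ring
  rw [e, e2]
  linear_combination (-3/4) * B H + (-3/16) * e00 H + (-3/16) * e11 H + (-3/16) * e22 H + (-3/16) * e33 H + (-1) * e02 H + (1) * e13 H + (-7/12) * fq1 H + (3/4) * fq2 H + (25/12) * fq6 H

theorem m012 : ∑ i, ∑ j, Mm 0 i j * r 1 2 j i = 2 * (lam / 3) * Mm 0 1 2 := by
  have h := H.toSym4
  have e : ∑ i, ∑ j, Mm 0 i j * r 1 2 j i = (-2) * r 0 1 1 2 + (2) * r 1 2 2 3 := by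
    simp [Mm, Fin.sum_univ_four, h.z12, h.z34, h.b10, h.b20, h.b30, h.b21, h.b31, h.b32, h.c10, h.c20, h.c30, h.c21, h.c31, h.c32, h.p1, h.p2, h.p3, h.p4, h.p5, h.p6, h.p7, h.p8, h.p9, h.p10, h.p11, h.p12, h.p13, h.p14, h.p15]
    try ring
  have e2 : 2 * (lam / 3) * Mm 0 1 2 = (0) * lam := by
    simp [Mm] <;> ring
  rw [e, e2]
  linear_combination (3/4) * B H + (3/16) * e00 H + (3/16) * e11 H + (3/16) * e22 H + (3/16) * e33 H + (-1) * e02 H + (1) * e13 H + (7/12) * fq1 H + (-3/4) * fq2 H + (-25/12) * fq6 H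

theorem m013 : ∑ i, ∑ j, Mm 0 i j * r 1 3 j i = 2 * (lam / 3) * Mm 0 1 3 := by
  have h := H.toSym4
  have e : ∑ i, ∑ j, Mm 0 i j * r 1 3 j i = (-2) * r 0 1 1 3 + (2) * r 1 3 2 3 := by
    simp [Mm, Fin.sum_univ_four, h.z12, h.z34, h.b10, h.b20, h.b30, h.b21, h.b31, h.b32, h.c10, h.c20, h.c30, h.c21, h.c31, h.c32, h.p1, h.p2, h.p3, h.p4, h.p5, h.p6, h.p7, h.p8, h.p9, h.p10, h.p11, h.p12, h.p13, h.p14, h.p15]
    try ring
  have e2 : 2 * (lam / 3) * Mm 0 1 3 = (0) * lam := by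
    simp [Mm] <;> ring
  rw [e, e2]
  linear_combination (-1) * e03 H + (-1) * e12 H + (-3/4) * fq1 H + (-4/3) * fq2 H + (25/12) * fq4 H

theorem m023 : ∑ i, ∑ j, Mm 0 i j * r 2 3 j i = 2 * (lam / 3) * Mm 0 2 3 := by
  have h := H.toSym4
  have e : ∑ i, ∑ j, Mm 0 i j * r 2 3 j i = (-2) * r 0 1 2 3 + (2) * r 2 3 2 3 := by
    simp [Mm, Fin.sum_univ_four, h.z12, h.z34, h.b10, h.b20, h.b30, h.b21, h.b31, h.b32, h.c10, h.c20, h.c30, h.c21, h.c31, h.c32, h.p1, h.p2, h.p3, h.p4, h.p5, h.p6, h.p7, h.p8, h.p9, h.p10, h.p11, h.p12, h.p13, h.p14, h.p15]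
    try ring
  have e2 : 2 * (lam / 3) * Mm 0 2 3 = (-2/3) * lam := by
    simp [Mm] <;> ring
  rw [e, e2]
  linear_combination (1/2) * e00 H + (1/2) * e11 H + (-1/2) * e22 H + (-1/2) * e33 H + (-2) * fq1 H

theorem m101 : ∑ i, ∑ j, Mm 1 i j * r 0 1 j i = 2 * (lam / 3) * Mm 1 0 1 := by
  have h := H.toSym4
  have e : ∑ i, ∑ j, Mm 1 i j * r 0 1 j i = (-2) * r 0 1 0 2 + (-2) * r 0 1 1 3 := by
    simp [Mm, Fin.sum_univ_four, h.z12, h.z34, h.b10, h.b20, h.b30, h.b21, h.b31, h.b32, h.c10, h.c20, h.c30, h.c21, h.c31, h.c32, h.p1, h.p2, h.p3, h.p4, h.p5, h.p6, h.p7, h.p8, h.p9, h.p10, h.p11, h.p12, h.p13, h.p14, h.p15]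
    try ring
  have e2 : 2 * (lam / 3) * Mm 1 0 1 = (0) * lam := by
    simp [Mm] <;> ring
  rw [e, e2]
  linear_combination (-1) * e03 H + (1) * e12 H + (-3/4) * fq1 H + (-4/3) * fq2 H + (25/12) * fq4 H

theorem m102 : ∑ i, ∑ j, Mm 1 i j * r 0 2 j i = 2 * (lam / 3) * Mm 1 0 2 := by
  have h := H.toSym4
  have e : ∑ i, ∑ j, Mm 1 i j * r 0 2 j i = (-2) * r 0 2 0 2 + (-2) * r 0 2 1 3 := by
    simp [Mm, Fin.sum_univ_four, h.z12, h.z34, h.b10, h.b20, h.b30, h.b21, h.b31, h.b32, h.c10, h.c20, h.c30, h.c21, h.c31, h.c32, h.p1, h.p2, h.p3, h.p4, h.p5, h.p6, h.p7, h.p8, h.p9, h.p10, h.p11, h.p12, h.p13, h.p14, h.p15]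
    try ring
  have e2 : 2 * (lam / 3) * Mm 1 0 2 = (2/3) * lam := by
    simp [Mm] <;> ring
  rw [e, e2]
  linear_combination (1/2) * e00 H + (-1/2) * e11 H + (1/2) * e22 H + (-1/2) * e33 H + (2) * fq2 H

theorem m103 : ∑ i, ∑ j, Mm 1 i j * r 0 3 j i = 2 * (lam / 3) * Mm 1 0 3 := by
  have h := H.toSym4
  have e : ∑ i, ∑ j, Mm 1 i j * r 0 3 j i = (-2) * r 0 2 0 3 + (-2) * r 0 3 1 3 := by
    simp [Mm, Fin.sum_univ_four, h.z12, h.z34, h.b10, h.b20, h.b30, h.b21, h.b31, h.b32, h.c10, h.c20, h.c30, h.c21, h.c31, h.c32, h.p1, h.p2, h.p3, h.p4, h.p5, h.p6, h.p7, h.p8, h.p9, h.p10, h.p11, h.p12, h.p13, h.p14, h.p15]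
    try ring
  have e2 : 2 * (lam / 3) * Mm 1 0 3 = (0) * lam := by
    simp [Mm] <;> ring
  rw [e, e2]
  linear_combination (-4/3) * B H + (-1/3) * e00 H + (-1/3) * e11 H + (-1/3) * e22 H + (-1/3) * e33 H + (1) * e01 H + (1) * e23 H + (4/3) * fq1 H + (7/12) * fq2 H + (25/12) * fq5 H

theorem m112 : ∑ i, ∑ j, Mm 1 i j * r 1 2 j i = 2 * (lam / 3) * Mm 1 1 2 := by
  have h := H.toSym4
  have e : ∑ i, ∑ j, Mm 1 i j * r 1 2 j i = (-2) * r 0 2 1 2 + (-2) * r 1 2 1 3 := by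
    simp [Mm, Fin.sum_univ_four, h.z12, h.z34, h.b10, h.b20, h.b30, h.b21, h.b31, h.b32, h.c10, h.c20, h.c30, h.c21, h.c31, h.c32, h.p1, h.p2, h.p3, h.p4, h.p5, h.p6, h.p7, h.p8, h.p9, h.p10, h.p11, h.p12, h.p13, h.p14, h.p15]
    try ring
  have e2 : 2 * (lam / 3) * Mm 1 1 2 = (0) * lam := by
    simp [Mm] <;> ring
  rw [e, e2]
  linear_combination (4/3) * B H + (1/3) * e00 H + (1/3) * e11 H + (1/3) * e22 H + (1/3) * e33 H + (1) * e01 H + (1) * e23 H + (-4/3) * fq1 H + (-7/12) * fq2 H + (-25/12) * fq5 H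

theorem m113 : ∑ i, ∑ j, Mm 1 i j * r 1 3 j i = 2 * (lam / 3) * Mm 1 1 3 := by
  have h := H.toSym4
  have e : ∑ i, ∑ j, Mm 1 i j * r 1 3 j i = (-2) * r 0 2 1 3 + (-2) * r 1 3 1 3 := by
    simp [Mm, Fin.sum_univ_four, h.z12, h.z34, h.b10, h.b20, h.b30, h.b21, h.b31, h.b32, h.c10, h.c20, h.c30, h.c21, h.c31, h.c32, h.p1, h.p2, h.p3, h.p4, h.p5, h.p6, h.p7, h.p8, h.p9, h.p10, h.p11, h.p12, h.p13, h.p14, h.p15]
    try ring
  have e2 : 2 * (lam / 3) * Mm 1 1 3 = (2/3) * lam := by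
    simp [Mm] <;> ring
  rw [e, e2]
  linear_combination (-1/2) * e00 H + (1/2) * e11 H + (-1/2) * e22 H + (1/2) * e33 H + (2) * fq2 H

theorem m123 : ∑ i, ∑ j, Mm 1 i j * r 2 3 j i = 2 * (lam / 3) * Mm 1 2 3 := by
  have h := H.toSym4
  have e : ∑ i, ∑ j, Mm 1 i j * r 2 3 j i = (-2) * r 0 2 2 3 + (-2) * r 1 3 2 3 := by
    simp [Mm, Fin.sum_univ_four, h.z12, h.z34, h.b10, h.b20, h.b30, h.b21, h.b31, h.b32, h.c10, h.c20, h.c30, h.c21, h.c31, h.c32, h.p1, h.p2, h.p3, h.p4, h.p5, h.p6, h.p7, h.p8, h.p9, h.p10, h.p11, h.p12, h.p13, h.p14, h.p15]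
    try ring
  have e2 : 2 * (lam / 3) * Mm 1 2 3 = (0) * lam := by
    simp [Mm] <;> ring
  rw [e, e2]
  linear_combination (-1) * e03 H + (1) * e12 H + (3/4) * fq1 H + (4/3) * fq2 H + (-25/12) * fq4 H

theorem m201 : ∑ i, ∑ j, Mm 2 i j * r 0 1 j i = 2 * (lam / 3) * Mm 2 0 1 := by
  have h := H.toSym4
  have e : ∑ i, ∑ j, Mm 2 i j * r 0 1 j i = (-2) * r 0 1 0 3 + (2) * r 0 1 1 2 := by
    simp [Mm, Fin.sum_univ_four, h.z12, h.z34, h.b10, h.b20, h.b30, h.b21, h.b31, h.b32, h.c10, h.c20, h.c30, h.c21, h.c31, h.c32, h.p1, h.p2, h.p3, h.p4, h.p5, h.p6, h.p7, h.p8, h.p9, h.p10, h.p11, h.p12, h.p13, h.p14, h.p15]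
    try ring
  have e2 : 2 * (lam / 3) * Mm 2 0 1 = (0) * lam := by
    simp [Mm] <;> ring
  rw [e, e2]
  linear_combination (-3/4) * B H + (-3/16) * e00 H + (-3/16) * e11 H + (-3/16) * e22 H + (-3/16) * e33 H + (1) * e02 H + (1) * e13 H + (-7/12) * fq1 H + (3/4) * fq2 H + (25/12) * fq6 H

theorem m202 : ∑ i, ∑ j, Mm 2 i j * r 0 2 j i = 2 * (lam / 3) * Mm 2 0 2 := by
  have h := H.toSym4
  have e : ∑ i, ∑ j, Mm 2 i j * r 0 2 j i = (-2) * r 0 2 0 3 + (2) * r 0 2 1 2 := by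
    simp [Mm, Fin.sum_univ_four, h.z12, h.z34, h.b10, h.b20, h.b30, h.b21, h.b31, h.b32, h.c10, h.c20, h.c30, h.c21, h.c31, h.c32, h.p1, h.p2, h.p3, h.p4, h.p5, h.p6, h.p7, h.p8, h.p9, h.p10, h.p11, h.p12, h.p13, h.p14, h.p15]
    try ring
  have e2 : 2 * (lam / 3) * Mm 2 0 2 = (0) * lam := by
    simp [Mm] <;> ring
  rw [e, e2]
  linear_combination (-4/3) * B H + (-1/3) * e00 H + (-1/3) * e11 H + (-1/3) * e22 H + (-1/3) * e33 H + (-1) * e01 H + (1) * e23 H + (4/3) * fq1 H + (7/12) * fq2 H + (25/12) * fq5 H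

theorem m203 : ∑ i, ∑ j, Mm 2 i j * r 0 3 j i = 2 * (lam / 3) * Mm 2 0 3 := by
  have h := H.toSym4
  have e : ∑ i, ∑ j, Mm 2 i j * r 0 3 j i = (-2) * r 0 3 0 3 + (2) * r 0 3 1 2 := by
    simp [Mm, Fin.sum_univ_four, h.z12, h.z34, h.b10, h.b20, h.b30, h.b21, h.b31, h.b32, h.c10, h.c20, h.c30, h.c21, h.c31, h.c32, h.p1, h.p2, h.p3, h.p4, h.p5, h.p6, h.p7, h.p8, h.p9, h.p10, h.p11, h.p12, h.p13, h.p14, h.p15]
    try ring
  have e2 : 2 * (lam / 3) * Mm 2 0 3 = (2/3) * lam := by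
    simp [Mm] <;> ring
  rw [e, e2]
  linear_combination (2) * B H + (1) * e00 H + (1) * e33 H + (-2) * fq1 H + (-2) * fq2 H

theorem m212 : ∑ i, ∑ j, Mm 2 i j * r 1 2 j i = 2 * (lam / 3) * Mm 2 1 2 := by
  have h := H.toSym4
  have e : ∑ i, ∑ j, Mm 2 i j * r 1 2 j i = (-2) * r 0 3 1 2 + (2) * r 1 2 1 2 := by
    simp [Mm, Fin.sum_univ_four, h.z12, h.z34, h.b10, h.b20, h.b30, h.b21, h.b31, h.b32, h.c10, h.c20, h.c30, h.c21, h.c31, h.c32, h.p1, h.p2, h.p3, h.p4, h.p5, h.p6, h.p7, h.p8, h.p9, h.p10, h.p11, h.p12, h.p13, h.p14, h.p15]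
    try ring
  have e2 : 2 * (lam / 3) * Mm 2 1 2 = (-2/3) * lam := by
    simp [Mm] <;> ring
  rw [e, e2]
  linear_combination (-2) * B H + (-1) * e11 H + (-1) * e22 H + (2) * fq1 H + (2) * fq2 H

theorem m213 : ∑ i, ∑ j, Mm 2 i j * r 1 3 j i = 2 * (lam / 3) * Mm 2 1 3 := by
  have h := H.toSym4
  have e : ∑ i, ∑ j, Mm 2 i j * r 1 3 j i = (-2) * r 0 3 1 3 + (2) * r 1 2 1 3 := by
    simp [Mm, Fin.sum_univ_four, h.z12, h.z34, h.b10, h.b20, h.b30, h.b21, h.b31, h.b32, h.c10, h.c20, h.c30, h.c21, h.c31, h.c32, h.p1, h.p2, h.p3, h.p4, h.p5, h.p6, h.p7, h.p8, h.p9, h.p10, h.p11, h.p12, h.p13, h.p14, h.p15]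
    try ring
  have e2 : 2 * (lam / 3) * Mm 2 1 3 = (0) * lam := by
    simp [Mm] <;> ring
  rw [e, e2]
  linear_combination (-4/3) * B H + (-1/3) * e00 H + (-1/3) * e11 H + (-1/3) * e22 H + (-1/3) * e33 H + (1) * e01 H + (-1) * e23 H + (4/3) * fq1 H + (7/12) * fq2 H + (25/12) * fq5 H

theorem m223 : ∑ i, ∑ j, Mm 2 i j * r 2 3 j i = 2 * (lam / 3) * Mm 2 2 3 := by
  have h := H.toSym4
  have e : ∑ i, ∑ j, Mm 2 i j * r 2 3 j i = (-2) * r 0 3 2 3 + (2) * r 1 2 2 3 := by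
    simp [Mm, Fin.sum_univ_four, h.z12, h.z34, h.b10, h.b20, h.b30, h.b21, h.b31, h.b32, h.c10, h.c20, h.c30, h.c21, h.c31, h.c32, h.p1, h.p2, h.p3, h.p4, h.p5, h.p6, h.p7, h.p8, h.p9, h.p10, h.p11, h.p12, h.p13, h.p14, h.p15]
    try ring
  have e2 : 2 * (lam / 3) * Mm 2 2 3 = (0) * lam := by
    simp [Mm] <;> ring
  rw [e, e2]
  linear_combination (3/4) * B H + (3/16) * e00 H + (3/16) * e11 H + (3/16) * e22 H + (3/16) * e33 H + (1) * e02 H + (1) * e13 H + (7/12) * fq1 H + (-3/4) * fq2 H + (-25/12) * fq6 H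

theorem Mm_skew (a : Fin 3) (k l : Fin 4) : Mm a k l = - Mm a l k := by
  fin_cases a <;> fin_cases k <;> fin_cases l <;> simp [Mm]

theorem flip {a : Fin 3} {k l : Fin 4}
    (h : ∑ i, ∑ j, Mm a i j * r k l j i = 2 * (lam / 3) * Mm a k l) :
    ∑ i, ∑ j, Mm a i j * r l k j i = 2 * (lam / 3) * Mm a l k := by
  rw [Mm_skew H a l k, mul_neg, ← h, ← Finset.sum_neg_distrib]
  refine Finset.sum_congr rfl fun i _ => ?_
  rw [← Finset.sum_neg_distrib]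
  refine Finset.sum_congr rfl fun j _ => ?_
  rw [H.a12 l k]
  ring

theorem diag (a : Fin 3) (k : Fin 4) :
    ∑ i, ∑ j, Mm a i j * r k k j i = 2 * (lam / 3) * Mm a k k := by
  have h1 : Mm a k k = 0 := by have := Mm_skew H a k k; linarith
  simp [h1, H.toSym4.z12]

theorem main : ∀ a k l, ∑ i, ∑ j, Mm a i j * r k l j i = 2 * (lam / 3) * Mm a k l := by
  intro a k l
  fin_cases a
  · fin_cases k
    · fin_cases l
      · exact diag H 0 0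
      · exact m001 H
      · exact m002 H
      · exact m003 H
    · fin_cases l
      · exact flip H (m001 H)
      · exact diag H 0 1
      · exact m012 H
      · exact m013 H
    · fin_cases l
      · exact flip H (m002 H)
      · exact flip H (m012 H)
      · exact diag H 0 2
      · exact m023 H
    · fin_cases l
      · exact flip H (m003 H)
      · exact flip H (m013 H)
      · exact flip H (m023 H)
      · exact diag H 0 3
  · fin_cases k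
    · fin_cases l
      · exact diag H 1 0
      · exact m101 H
      · exact m102 H
      · exact m103 H
    · fin_cases l
      · exact flip H (m101 H)
      · exact diag H 1 1
      · exact m112 H
      · exact m113 H
    · fin_cases l
      · exact flip H (m102 H)
      · exact flip H (m112 H)
      · exact diag H 1 2
      · exact m123 H
    · fin_cases l
      · exact flip H (m103 H)
      · exact flip H (m113 H)
      · exact flip H (m123 H)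
      · exact diag H 1 3
  · fin_cases k
    · fin_cases l
      · exact diag H 2 0
      · exact m201 H
      · exact m202 H
      · exact m203 H
    · fin_cases l
      · exact flip H (m201 H)
      · exact diag H 2 1
      · exact m212 H
      · exact m213 H
    · fin_cases l
      · exact flip H (m202 H)
      · exact flip H (m212 H)
      · exact diag H 2 2
      · exact m223 H
    · fin_cases l
      · exact flip H (m203 H)
      · exact flip H (m213 H)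
      · exact flip H (m223 H)
      · exact diag H 2 3

end

/-! ### geometry -/

variable {E : Type} [NormedAddCommGroup E] [NormedSpace ℝ E] [FiniteDimensional ℝ E]
  {M : Type} [TopologicalSpace M] [ChartedSpace E M] [IsManifold 𝓘(ℝ, E) ∞ M] [T2Space M]
  [RiemannianBundle fun p : M => TangentSpace 𝓘(ℝ, E) p]
  [IsContMDiffRiemannianBundle 𝓘(ℝ, E) ∞ E fun p : M => TangentSpace 𝓘(ℝ, E) p]
  {cov : CovariantDerivative 𝓘(ℝ, E) E (TangentSpace 𝓘(ℝ, E) : M → Type)}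
  {om : Form4 E M}

theorem rm_eq (h : IsLC cov) (X Y Z W : VF E M) :
    NN.Rm cov X Y Z W = ((lcOf h).Rm X Y Z W : SF E M) := riem_eq h X Y Z W

theorem smul_vf (c : ℝ) (X : VF E M) : (c • X : VF E M) = (algebraMap ℝ (SF E M) c) • X := by
  ext x
  rw [smulVF_apply]
  simp [Algebra.algebraMap_eq_smul_one]

theorem ev_const (c : ℝ) (p : M) : (algebraMap ℝ (SF E M) c : SF E M) p = c := by
  simp [Algebra.algebraMap_eq_smul_one]

/-- a four-linear function, at a point, as a real linear map in the first variable -/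
def lin1 {T : VF E M → VF E M → VF E M → VF E M → SF E M} (hT : IsT4 T) (p : M) (Y Z W : VF E M) :
    VF E M →ₗ[ℝ] ℝ where
  toFun X := T X Y Z W p
  map_add' X X' := by rw [hT.add1]; rfl
  map_smul' c X := by
    rw [smul_vf, hT.smul1]
    change (algebraMap ℝ (SF E M) c : SF E M) p * _ = _
    rw [ev_const]; rfl

def lin2 {T : VF E M → VF E M → VF E M → VF E M → SF E M} (hT : IsT4 T) (p : M) (X Z W : VF E M) :
    VF E M →ₗ[ℝ] ℝ where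
  toFun Y := T X Y Z W p
  map_add' Y Y' := by rw [hT.add2]; rfl
  map_smul' c Y := by
    rw [smul_vf, hT.smul2]
    change (algebraMap ℝ (SF E M) c : SF E M) p * _ = _
    rw [ev_const]; rfl

def lin3 {T : VF E M → VF E M → VF E M → VF E M → SF E M} (hT : IsT4 T) (p : M) (X Y W : VF E M) :
    VF E M →ₗ[ℝ] ℝ where
  toFun Z := T X Y Z W p
  map_add' Z Z' := by rw [hT.add3]; rfl
  map_smul' c Z := by
    rw [smul_vf, hT.smul3]
    change (algebraMap ℝ (SF E M) c : SF E M) p * _ = _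
    rw [ev_const]; rfl

def lin4 {T : VF E M → VF E M → VF E M → VF E M → SF E M} (hT : IsT4 T) (p : M) (X Y Z : VF E M) :
    VF E M →ₗ[ℝ] ℝ where
  toFun W := T X Y Z W p
  map_add' W W' := by rw [hT.add4]; rfl
  map_smul' c W := by
    rw [smul_vf, hT.smul4]
    change (algebraMap ℝ (SF E M) c : SF E M) p * _ = _
    rw [ev_const]; rfl

theorem expand {T : VF E M → VF E M → VF E M → VF E M → SF E M} (hT : IsT4 T) (p : M)
    (F : Fin 4 → VF E M) (a b c d : Fin 4 → ℝ) :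
    T (∑ i, a i • F i) (∑ i, b i • F i) (∑ i, c i • F i) (∑ i, d i • F i) p =
      ∑ i, ∑ j, ∑ k, ∑ l, a i * b j * c k * d l * T (F i) (F j) (F k) (F l) p := by
  change lin1 hT p _ _ _ _ = _
  rw [map_sum]
  refine Finset.sum_congr rfl fun i _ => ?_
  rw [map_smul]
  change a i • lin2 hT p _ _ _ _ = _
  rw [map_sum, Finset.smul_sum]
  refine Finset.sum_congr rfl fun j _ => ?_
  rw [map_smul]
  change a i • b j • lin3 hT p _ _ _ _ = _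
  rw [map_sum, Finset.smul_sum, Finset.smul_sum]
  refine Finset.sum_congr rfl fun k _ => ?_
  rw [map_smul]
  change a i • b j • c k • lin4 hT p _ _ _ _ = _
  rw [map_sum, Finset.smul_sum, Finset.smul_sum, Finset.smul_sum]
  refine Finset.sum_congr rfl fun l _ => ?_
  rw [map_smul]
  change a i * (b j * (c k * (d l * T (F i) (F j) (F k) (F l) p))) = _
  ring

theorem hyp_of (hg : Geo4 cov om) {lam : ℝ} (hE : NN.RicciEq cov (fun _ => lam))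
    (hW : NN.WPlusZero cov lam (-om)) {p : M} {F : Fin 4 → VF E M}
    (hF : PON om p fun i => F i p) :
    Hyp (fun i j k l => NN.Rm cov (F i) (F j) (F k) (F l) p) lam := by
  have e : ∀ X Y Z W : VF E M, NN.Rm cov X Y Z W p = (lcOf hg.lc).Rm X Y Z W p :=
    fun X Y Z W => congrFun (rm_eq hg.lc X Y Z W) p
  have hT : Module.finrank ℝ (TangentSpace 𝓘(ℝ, E) p) = 4 := hg.dim
  refine { a12 := ?_, a34 := ?_, pr := ?_, bi := ?_, ric := ?_, q := ?_ }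
  · intro i j k l
    simp only [e]
    rw [LC.Rm_anti12]; rfl
  · intro i j k l
    simp only [e]
    rw [LC.Rm_anti34]; rfl
  · intro i j k l
    simp only [e]
    rw [LC.Rm_pair]
  · intro i j k l
    simp only [e]
    have := congrArg (fun φ : SF E M => φ p) ((lcOf hg.lc).Rm_bianchi (F i) (F j) (F k) (F l))
    exact this
  · intro j k
    have h1 := hE p F hF.1 (F j) (F k)
    rw [h1, orthonormal_iff_ite.1 hF.1 j k]
    split_ifs <;> simp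
  · intro g hg1 hg2
    have hG : ∀ j, ((∑ i, g i j • F i : VF E M) : (x : M) → TangentSpace 𝓘(ℝ, E) x) p =
        ∑ i, g i j • F i p := by
      intro j
      have := congrFun (SC2.chF_apply F g p) j
      exact this
    have h0 : Orthonormal ℝ fun j => (∑ i, g i j • F i : VF E M) p := by
      have := orthonormal_fact hF.1 hg1
      simpa only [hG] using this
    have h1 : 0 < (-om) p fun j => (∑ i, g i j • F i : VF E M) p := by
      have h2 := alt_fact hT hF.1 (om p) g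
      simp only [hG]
      change 0 < - (om p fun j => ∑ i, g i j • F i p)
      rw [h2, hg2]
      have := hF.2
      linarith
    have h3 := hW p (fun j => ∑ i, g i j • F i) h0 h1
    rw [← h3, qG, e, e, e, expand (lcOf hg.lc).isT4_Rm, expand (lcOf hg.lc).isT4_Rm,
      expand (lcOf hg.lc).isT4_Rm]
    simp only [e]

end KI0

section

variable {E : Type} [NormedAddCommGroup E] [NormedSpace ℝ E] [FiniteDimensional ℝ E]
  {M : Type} [TopologicalSpace M] [ChartedSpace E M] [IsManifold 𝓘(ℝ, E) ∞ M] [T2Space M]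
  [RiemannianBundle fun p : M => TangentSpace 𝓘(ℝ, E) p]
  [IsContMDiffRiemannianBundle 𝓘(ℝ, E) ∞ E fun p : M => TangentSpace 𝓘(ℝ, E) p]
  {cov : CovariantDerivative 𝓘(ℝ, E) E (TangentSpace 𝓘(ℝ, E) : M → Type)}
  {om : Form4 E M}

/-- KI0 -/
theorem ki0 : KI0Stmt cov om := by
  intro hg lam hE hW p f hf a k l
  obtain ⟨F₀, -, hF₀, -⟩ := sc0_sync hg p f hf
  have hex : ∃ F : Fin 4 → VF E M, ∀ i, F i p = f i := ⟨F₀, hF₀⟩
  have e : ∀ i j, Om cov p f k l i j = NN.Rm cov (hex.choose k) (hex.choose l) (hex.choose j)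
      (hex.choose i) p := by
    intro i j
    unfold Om
    rw [dif_pos hex]
    rfl
  simp only [e]
  have hF : PON om p fun i => hex.choose i p := by
    have : (fun i => hex.choose i p) = f := funext hex.choose_spec
    rw [this]; exact hf
  exact KI0.main (KI0.hyp_of hg hE hW hF) a k l

end

end

end Vale.Agent.P211.HK
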