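import Vale.Agent.P211.HK.KIDefs
import Vale.Agent.P211.HK.SC3
import Vale.Agent.P211.HK.SC5
import Mathlib.Analysis.Normed.Algebra.MatrixExponential

/-! P211 / HK / KI1a (helper786): the differential of the representation `IsLam`. -/

set_option maxSynthPendingDepth 3
set_option linter.unusedSectionVars false

namespace Vale.Agent.P211.HK

open scoped Manifold ContDiff Topology RealInnerProductSpace
open Bundle Filter VectorField MeasureTheory

noncomputable section

namespace KI

open scoped Matrix.Norms.Operator in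
/-- a curve in `SO(4)` with a given skew derivative -/
theorem exists_soCurve (A : Mat4) (hA : IsSkew A) :
    ∃ g : ℝ → Mat4, g 0 = idM ∧ HasDerivAt g A 0 ∧ ∀ t, IsSO (g t) := by
  let B : Matrix (Fin 4) (Fin 4) ℝ := Matrix.of A
  have hB : B.transpose = -B := by
    ext i j
    exact hA j i
  refine ⟨fun t => fun i j => NormedSpace.exp (t • B) i j, ?_, ?_, fun t => ?_⟩
  · funext i j
    simp [idM, Matrix.one_apply]
  · have h1 : HasDerivAt (fun t : ℝ => NormedSpace.exp (t • B))
        (NormedSpace.exp ((0 : ℝ) • B) * B) 0 := hasDerivAt_exp_smul_const B 0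
    rw [zero_smul, NormedSpace.exp_zero, one_mul] at h1
    refine hasDerivAt_pi.2 fun i => hasDerivAt_pi.2 fun j => ?_
    let L : Matrix (Fin 4) (Fin 4) ℝ →L[ℝ] ℝ := LinearMap.toContinuousLinearMap
      { toFun := fun X => X i j
        map_add' := fun X Y => rfl
        map_smul' := fun c X => rfl }
    exact (L.hasFDerivAt.comp_hasDerivAt (0 : ℝ) h1 :)
  · have h1 : (NormedSpace.exp (t • B)).transpose * NormedSpace.exp (t • B) = 1 := by
      rw [← Matrix.exp_transpose, Matrix.transpose_smul, hB, smul_neg, Matrix.exp_neg]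
      exact Matrix.nonsing_inv_mul _ ((Matrix.isUnit_iff_isUnit_det _).1 (Matrix.isUnit_exp _))
    refine ⟨?_, ?_⟩
    · funext i j
      have h2 := congr_fun (congr_fun h1 i) j
      rw [Matrix.mul_apply] at h2
      simpa [mulM, trM, idM, Matrix.one_apply] using h2
    · have h3 : (NormedSpace.exp (t • B)).det * (NormedSpace.exp (t • B)).det = 1 := by
        have := congrArg Matrix.det h1
        rwa [Matrix.det_mul, Matrix.det_transpose, Matrix.det_one] at this
      have h4 : NormedSpace.exp (t • B) =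
          NormedSpace.exp ((t / 2) • B) * NormedSpace.exp ((t / 2) • B) := by
        rw [← Matrix.exp_add_of_commute _ _ (Commute.refl _), ← add_smul, add_halves]
      have h5 : 0 ≤ (NormedSpace.exp (t • B)).det := by
        rw [h4, Matrix.det_mul]
        exact mul_self_nonneg _
      have h6 : (NormedSpace.exp (t • B)).det = 1 := by nlinarith
      exact h6

/-- derivative of `R.ρ` along the curve -/
theorem hasDerivAt_rho {W : Type} [NormedAddCommGroup W] [InnerProductSpace ℝ W] (R : Rep W)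
    {A : Mat4} {g : ℝ → Mat4} (h0 : g 0 = idM) (h1 : HasDerivAt g A 0) (w : W) :
    HasDerivAt (fun t => R.ρ (g t) w) (R.d A w) 0 := by
  have h2 : HasFDerivAt R.ρ (fderiv ℝ R.ρ idM) (g 0) := by
    rw [h0]
    exact (R.smooth.differentiable (by simp) idM).hasFDerivAt
  have h3 : HasDerivAt (fun t => R.ρ (g t)) (R.d A) 0 := h2.comp_hasDerivAt (0 : ℝ) h1
  exact h3.clm_apply (hasDerivAt_const (0 : ℝ) w) |>.congr_deriv (by simp)

/-- vector product -/
def crs (u v : Fin 3 → ℝ) : Fin 3 → ℝ :=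
  ![u 1 * v 2 - u 2 * v 1, u 2 * v 0 - u 0 * v 2, u 0 * v 1 - u 1 * v 0]

/-- components of a matrix with respect to the `M_a` -/
def alp (A : Mat4) (b : Fin 3) : ℝ := ∑ i, ∑ j, Mm b i j * A i j

theorem lam_alg (A : Mat4) (hA : IsSkew A) (w : Fin 3 → ℝ) (a : Fin 3) :
    ∑ b, (1 / 4 * ∑ i, ∑ j, ∑ k, ∑ l, (Mm a i j * A i k * Mm b k l * idM j l +
      Mm a i j * idM i k * Mm b k l * A j l)) * w b = 1 / 2 * crs (alp A) w a := by
  have h00 := hA 0 0
  have h11 := hA 1 1
  have h22 := hA 2 2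
  have h33 := hA 3 3
  have g00 : A 0 0 = 0 := by linarith
  have g11 : A 1 1 = 0 := by linarith
  have g22 : A 2 2 = 0 := by linarith
  have g33 : A 3 3 = 0 := by linarith
  have g10 := hA 1 0
  have g20 := hA 2 0
  have g30 := hA 3 0
  have g21 := hA 2 1
  have g31 := hA 3 1
  have g32 := hA 3 2
  fin_cases a <;>
  simp [Fin.sum_univ_succ, Mm, idM, crs, alp, g00, g11, g22, g33, g10, g20, g30, g21, g31, g32] <;>
  ring

theorem d_lam {R : Rep Eu3} (hR : IsLam R) {A : Mat4} (hA : IsSkew A) (w : Eu3) (a : Fin 3) :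
    (R.d A w) a = 1 / 2 * crs (alp A) (fun b => w b) a := by
  obtain ⟨g, g0, g1, g2⟩ := exists_soCurve A hA
  have h1 := hasDerivAt_rho R g0 g1 w
  let L : Eu3 →L[ℝ] ℝ := EuclideanSpace.proj a
  have h2 : HasDerivAt (fun t => (R.ρ (g t) w) a) ((R.d A w) a) 0 :=
    (L.hasFDerivAt.comp_hasDerivAt (0 : ℝ) h1 :)
  have h3 : (fun t => (R.ρ (g t) w) a) = fun t => ∑ b, (1 / 4 * ∑ i, ∑ j, ∑ k, ∑ l,
      Mm a i j * g t i k * Mm b k l * g t j l) * w b := by
    funext t
    exact hR (g t) (g2 t) w a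
  have g3 : ∀ i j, HasDerivAt (fun t => g t i j) (A i j) 0 := fun i j =>
    hasDerivAt_pi.1 (hasDerivAt_pi.1 g1 i) j
  have h4 : HasDerivAt (fun t => ∑ b, (1 / 4 * ∑ i, ∑ j, ∑ k, ∑ l,
      Mm a i j * g t i k * Mm b k l * g t j l) * w b)
      (∑ b, (1 / 4 * ∑ i, ∑ j, ∑ k, ∑ l, (Mm a i j * A i k * Mm b k l * idM j l +
      Mm a i j * idM i k * Mm b k l * A j l)) * w b) 0 := by
    refine HasDerivAt.fun_sum fun b _ => HasDerivAt.mul_const (HasDerivAt.const_mul _ ?_) _
    refine HasDerivAt.fun_sum fun i _ => HasDerivAt.fun_sum fun j _ =>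
      HasDerivAt.fun_sum fun k _ => HasDerivAt.fun_sum fun l _ => ?_
    have h5 := ((g3 i k).const_mul (Mm a i j)).mul_const (Mm b k l) |>.mul (g3 j l)
    rw [g0] at h5
    exact h5
  rw [h3] at h2
  rw [h2.unique h4]
  exact lam_alg A hA (fun b => w b) a

end KI

end

end Vale.Agent.P211.HK
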