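import Vale.Agent.P211.HK.KI1a

/-! P211 / HK / KI1b (helper786): `SO(4)` preserves the anti-self-dual matrices. -/

set_option maxSynthPendingDepth 3
set_option linter.unusedSectionVars false

namespace Vale.Agent.P211.HK

open scoped Manifold ContDiff Topology RealInnerProductSpace
open Bundle Filter VectorField MeasureTheory

noncomputable section

namespace KI

/-- `g B gᵀ` -/
def cj (g B : Mat4) : Mat4 := fun k l => ∑ i, ∑ j, g k i * B i j * g l j

theorem cj_eq (g B : Mat4) : Matrix.of (cj g B) =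
    Matrix.of g * Matrix.of B * (Matrix.of g).transpose := by
  ext k l
  simp only [cj, Matrix.of_apply, Matrix.mul_apply, Matrix.transpose_apply, Finset.sum_mul]
  rw [Finset.sum_comm]

theorem cj_skew (g : Mat4) (b : Fin 3) (k l : Fin 4) : cj g (Mm b) k l = - cj g (Mm b) l k := by
  fin_cases b <;> simp [cj, Mm, Fin.sum_univ_succ] <;> ring

/-- Pfaffian -/
def pf (X : Mat4) : ℝ := X 0 1 * X 2 3 - X 0 2 * X 1 3 + X 0 3 * X 1 2

theorem pf_cj (g : Mat4) (b : Fin 3) : pf (cj g (Mm b)) = (Matrix.of g).det * pf (Mm b) := by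
  fin_cases b <;>
  simp [pf, cj, Mm, Fin.sum_univ_succ, Matrix.det_succ_row_zero, Fin.succAbove] <;> ring

theorem so_left {g : Mat4} (hg : IsSO g) : (Matrix.of g).transpose * Matrix.of g = 1 := by
  ext i j
  have := congrFun (congrFun hg.1 i) j
  simp only [mulM, idM, trM] at this
  rw [Matrix.mul_apply, Matrix.one_apply]
  exact this

theorem so_right {g : Mat4} (hg : IsSO g) : Matrix.of g * (Matrix.of g).transpose = 1 :=
  mul_eq_one_comm.1 (so_left hg)

theorem sumsq (X : Mat4) : ∑ k, ∑ l, X k l ^ 2 =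
    (Matrix.of X * (Matrix.of X).transpose).trace := by
  simp only [Matrix.trace, Matrix.diag_apply, Matrix.mul_apply, Matrix.transpose_apply,
    Matrix.of_apply]
  exact Finset.sum_congr rfl fun k _ => Finset.sum_congr rfl fun l _ => sq _

theorem sumsq_cj {g : Mat4} (hg : IsSO g) (B : Mat4) :
    ∑ k, ∑ l, cj g B k l ^ 2 = ∑ k, ∑ l, B k l ^ 2 := by
  rw [sumsq, sumsq, cj_eq, Matrix.transpose_mul, Matrix.transpose_mul, Matrix.transpose_transpose]
  have h1 : Matrix.of g * Matrix.of B * (Matrix.of g).transpose *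
      (Matrix.of g * ((Matrix.of B).transpose * (Matrix.of g).transpose)) =
      Matrix.of g * (Matrix.of B * ((Matrix.of g).transpose * Matrix.of g) *
        (Matrix.of B).transpose) * (Matrix.of g).transpose := by
    simp only [Matrix.mul_assoc]
  rw [h1, so_left hg, Matrix.mul_one, Matrix.trace_mul_comm, ← Matrix.mul_assoc, so_left hg,
    Matrix.one_mul]

/-- anti-self-dual skew matrices -/
theorem cj_asd {g : Mat4} (hg : IsSO g) (b : Fin 3) :
    cj g (Mm b) 0 1 = - cj g (Mm b) 2 3 ∧ cj g (Mm b) 0 2 = cj g (Mm b) 1 3 ∧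
      cj g (Mm b) 0 3 = - cj g (Mm b) 1 2 := by
  have h1 := sumsq_cj hg (Mm b)
  have h2 := pf_cj g b
  rw [hg.2, one_mul] at h2
  have h3 : ∑ k, ∑ l, Mm b k l ^ 2 = 4 := by
    fin_cases b <;> simp [Mm, Fin.sum_univ_succ] <;> norm_num
  have h4 : pf (Mm b) = -1 := by
    fin_cases b <;> simp [Mm, pf]
  rw [h3] at h1
  rw [h4] at h2
  unfold pf at h2
  generalize hX : cj g (Mm b) = X at h1 h2 ⊢
  have hs : ∀ k l, X k l = - X l k := fun k l => by rw [← hX]; exact cj_skew g b k l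
  have h00 : X 0 0 = 0 := by linarith [hs 0 0]
  have h11 : X 1 1 = 0 := by linarith [hs 1 1]
  have h22 : X 2 2 = 0 := by linarith [hs 2 2]
  have h33 : X 3 3 = 0 := by linarith [hs 3 3]
  simp only [Fin.sum_univ_succ, Fin.sum_univ_zero, Fin.succ_zero_eq_one, Fin.succ_one_eq_two] at h1
  have e3 : (Fin.succ 2 : Fin 4) = 3 := rfl
  rw [e3] at h1
  rw [h00, h11, h22, h33, hs 1 0, hs 2 0, hs 3 0, hs 2 1, hs 3 1, hs 3 2] at h1
  have h5 : (X 0 1 + X 2 3) ^ 2 + (X 0 2 - X 1 3) ^ 2 + (X 0 3 + X 1 2) ^ 2 = 0 := by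
    linear_combination h1 / 2 + 2 * h2
  have q1 := sq_nonneg (X 0 1 + X 2 3)
  have q2 := sq_nonneg (X 0 2 - X 1 3)
  have q3 := sq_nonneg (X 0 3 + X 1 2)
  have h6 : (X 0 1 + X 2 3) ^ 2 = 0 := by linarith
  have h7 : (X 0 2 - X 1 3) ^ 2 = 0 := by linarith
  have h8 : (X 0 3 + X 1 2) ^ 2 = 0 := by linarith
  have h6' := pow_eq_zero_iff (two_ne_zero) |>.1 h6
  have h7' := pow_eq_zero_iff (two_ne_zero) |>.1 h7
  have h8' := pow_eq_zero_iff (two_ne_zero) |>.1 h8
  exact ⟨by linarith, by linarith, by linarith⟩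

/-- the matrix of `B ↦ g B gᵀ` in the basis `M_a` -/
def lamM (g : Mat4) (a b : Fin 3) : ℝ :=
  1 / 4 * ∑ i, ∑ j, ∑ k, ∑ l, Mm a i j * g i k * Mm b k l * g j l

theorem lamM_eq (g : Mat4) (a b : Fin 3) :
    lamM g a b = 1 / 4 * ∑ i, ∑ j, Mm a i j * cj g (Mm b) i j := by
  unfold lamM cj
  congr 1
  refine Finset.sum_congr rfl fun i _ => Finset.sum_congr rfl fun j _ => ?_
  rw [Finset.mul_sum]
  refine Finset.sum_congr rfl fun k _ => ?_
  rw [Finset.mul_sum]
  refine Finset.sum_congr rfl fun l _ => ?_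
  ring

/-- `g M_b gᵀ = ∑ λ(g)_ab M_a` -/
theorem cj_span {g : Mat4} (hg : IsSO g) (b : Fin 3) (k l : Fin 4) :
    cj g (Mm b) k l = ∑ a, lamM g a b * Mm a k l := by
  obtain ⟨h1, h2, h3⟩ := cj_asd hg b
  simp only [lamM_eq]
  generalize hX : cj g (Mm b) = X at h1 h2 h3 ⊢
  have hs : ∀ k l, X k l = - X l k := fun k l => by rw [← hX]; exact cj_skew g b k l
  have h00 : X 0 0 = 0 := by linarith [hs 0 0]
  have h11 : X 1 1 = 0 := by linarith [hs 1 1]
  have h22 : X 2 2 = 0 := by linarith [hs 2 2]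
  have h33 : X 3 3 = 0 := by linarith [hs 3 3]
  have g10 := hs 1 0
  have g20 := hs 2 0
  have g30 := hs 3 0
  have g21 := hs 2 1
  have g31 := hs 3 1
  have g32 := hs 3 2
  fin_cases k <;> fin_cases l <;>
  simp [Fin.sum_univ_succ, Mm, h00, h11, h22, h33, g10, g20, g30, g21, g31, g32, h1, h2, h3] <;>
  ring

end KI

end

end Vale.Agent.P211.HK
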