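import Vale.Agent.P211.HK.KI1b

/-! P211 / HK / KI1c (helper786): the equivariant maps `S` and `Sᵀ`. -/

set_option maxSynthPendingDepth 3
set_option linter.unusedSectionVars false

namespace Vale.Agent.P211.HK

open scoped Manifold ContDiff Topology RealInnerProductSpace
open Bundle Filter VectorField MeasureTheory

noncomputable section

namespace KI

open SC2 SC3

theorem lamM_tr (g : Mat4) (a b : Fin 3) : lamM (trM g) b a = lamM g a b := by
  unfold lamM trM
  congr 1
  have h1 : ∀ F : Fin 4 → Fin 4 → Fin 4 → Fin 4 → ℝ,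
      ∑ i, ∑ j, ∑ k, ∑ l, F i j k l = ∑ k, ∑ l, ∑ i, ∑ j, F i j k l := by
    intro F
    have : ∑ i, ∑ j, ∑ k, ∑ l, F i j k l = ∑ x : Fin 4 × Fin 4, ∑ y : Fin 4 × Fin 4,
        F x.1 x.2 y.1 y.2 := by
      simp only [Fintype.sum_prod_type]
    rw [this, Finset.sum_comm]
    simp only [Fintype.sum_prod_type]
  rw [h1]
  refine Finset.sum_congr rfl fun i _ => Finset.sum_congr rfl fun j _ => Finset.sum_congr rfl
    fun k _ => Finset.sum_congr rfl fun l _ => ?_
  ring

theorem cj_mat {g : Mat4} (hg : IsSO g) (b : Fin 3) :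
    Matrix.of g * Matrix.of (Mm b) * (Matrix.of g).transpose =
      ∑ a, lamM g a b • Matrix.of (Mm a) := by
  rw [← cj_eq]
  ext k l
  rw [Matrix.of_apply, cj_span hg, Matrix.sum_apply]
  rfl

/-- `gᵀ ∑ λ_ab M_a = M_b gᵀ` -/
theorem key1 {g : Mat4} (hg : IsSO g) (b : Fin 3) (m l : Fin 4) :
    ∑ k, g k m * ∑ a, lamM g a b * Mm a k l = ∑ j, Mm b m j * g l j := by
  have h1 : (Matrix.of g).transpose * ∑ a, lamM g a b • Matrix.of (Mm a) =
      Matrix.of (Mm b) * (Matrix.of g).transpose := by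
    rw [← cj_mat hg, ← Matrix.mul_assoc, ← Matrix.mul_assoc, so_left hg, Matrix.one_mul]
  have h2 := congrFun (congrFun h1 m) l
  simp only [Matrix.mul_apply, Matrix.sum_apply, Matrix.smul_apply, Matrix.transpose_apply,
    Matrix.of_apply, smul_eq_mul] at h2
  exact h2

/-- `M_a g = g ∑ λ_ab M_b` -/
theorem key2 {g : Mat4} (hg : IsSO g) (a : Fin 3) (k j : Fin 4) :
    ∑ m, g k m * ∑ b, lamM g a b * Mm b m j = ∑ l, Mm a k l * g l j := by
  have h0 : (Matrix.of (trM g)) = (Matrix.of g).transpose := by ext i j; rfl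
  have h1 : Matrix.of g * ∑ b, lamM g a b • Matrix.of (Mm b) =
      Matrix.of (Mm a) * Matrix.of g := by
    have := cj_mat (isSO_trM hg) a
    simp only [lamM_tr] at this
    rw [← this, h0, Matrix.transpose_transpose, ← Matrix.mul_assoc, ← Matrix.mul_assoc,
      so_right hg, Matrix.one_mul]
  have h2 := congrFun (congrFun h1 k) j
  simp only [Matrix.mul_apply, Matrix.sum_apply, Matrix.smul_apply,
    Matrix.of_apply, smul_eq_mul] at h2
  exact h2

/-- `(S z)_{k a} = ∑ (M_a)_kl z_l` -/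
def SLm : Tn ℝ →L[ℝ] Tn Eu3 :=
  LinearMap.toContinuousLinearMap
    { toFun := fun z => mkT fun k => WithLp.toLp 2 fun a => ∑ l, Mm a k l * z l
      map_add' := fun z w => by
        ext k a
        simp only [mkT, PiLp.add_apply, mul_add, Finset.sum_add_distrib]
      map_smul' := fun c z => by
        ext k a
        simp only [mkT, PiLp.smul_apply, smul_eq_mul, RingHom.id_apply, Finset.mul_sum]
        refine Finset.sum_congr rfl fun l _ => ?_
        ring }

theorem SLm_apply (z : Tn ℝ) (k : Fin 4) (a : Fin 3) : (SLm z k) a = ∑ l, Mm a k l * z l := rfl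

theorem STm_apply (η : Tn Eu3) (l : Fin 4) : (STm η) l = ∑ k, ∑ a, Mm a k l * (η k) a := rfl

theorem rho_lam {R : Rep Eu3} (hR : IsLam R) {g : Mat4} (hg : IsSO g) (w : Eu3) (a : Fin 3) :
    (R.ρ g w) a = ∑ b, lamM g a b * w b := hR g hg w a

theorem tens_apply {R : Rep Eu3} (hR : IsLam R) {R' : Rep (Tn Eu3)} (hT : Tens R R') {g : Mat4}
    (hg : IsSO g) (η : Tn Eu3) (k : Fin 4) (a : Fin 3) :
    (R'.ρ g η k) a = ∑ m, g k m * ∑ b, lamM g a b * (η m) b := by
  rw [hT g hg, tnMap_apply]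
  simp only [WithLp.ofLp_sum, WithLp.ofLp_smul, Finset.sum_apply, Pi.smul_apply, smul_eq_mul]
  refine Finset.sum_congr rfl fun m _ => ?_
  rw [rho_lam hR hg]

theorem STm_int {R : Rep Eu3} (hR : IsLam R) {R' : Rep (Tn Eu3)} (hT : Tens R R')
    {RT : Rep (Tn ℝ)} (hRT : IsTan RT) : Intertwines R' RT STm := by
  intro g hg η
  ext l
  rw [hRT g hg, STm_apply]
  simp only [STm_apply, tens_apply hR hT hg]
  have h1 : ∑ k, ∑ a, Mm a k l * ∑ m, g k m * ∑ b, lamM g a b * (η m) b =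
      ∑ m, ∑ b, (∑ k, g k m * ∑ a, lamM g a b * Mm a k l) * (η m) b := by
    simp only [Finset.mul_sum, Finset.sum_mul]
    have h2 : ∀ F : Fin 4 → Fin 3 → Fin 4 → Fin 3 → ℝ,
        ∑ k, ∑ a, ∑ m, ∑ b, F k a m b = ∑ m, ∑ b, ∑ k, ∑ a, F k a m b := by
      intro F
      have : ∑ k, ∑ a, ∑ m, ∑ b, F k a m b = ∑ x : Fin 4 × Fin 3, ∑ y : Fin 4 × Fin 3,
          F x.1 x.2 y.1 y.2 := by
        simp only [Fintype.sum_prod_type]
      rw [this, Finset.sum_comm]
      simp only [Fintype.sum_prod_type]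
    rw [h2]
    refine Finset.sum_congr rfl fun i _ => Finset.sum_congr rfl fun j _ => Finset.sum_congr rfl
      fun k _ => Finset.sum_congr rfl fun l _ => ?_
    ring
  rw [h1]
  simp only [key1 hg]
  simp only [Finset.mul_sum, Finset.sum_mul]
  have h3 : ∀ F : Fin 4 → Fin 3 → Fin 4 → ℝ,
      ∑ m, ∑ b, ∑ j, F m b j = ∑ j, ∑ m, ∑ b, F m b j := by
    intro F
    have : ∑ m, ∑ b, ∑ j, F m b j = ∑ x : Fin 4 × Fin 3, ∑ j, F x.1 x.2 j := by
      simp only [Fintype.sum_prod_type]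
    rw [this, Finset.sum_comm]
    simp only [Fintype.sum_prod_type]
  rw [h3]
  refine Finset.sum_congr rfl fun i _ => Finset.sum_congr rfl fun j _ => Finset.sum_congr rfl
    fun k _ => ?_
  ring

theorem SLm_int {R : Rep Eu3} (hR : IsLam R) {R' : Rep (Tn Eu3)} (hT : Tens R R')
    {RT : Rep (Tn ℝ)} (hRT : IsTan RT) : Intertwines RT R' SLm := by
  intro g hg z
  ext k a
  rw [tens_apply hR hT hg]
  simp only [SLm_apply, hRT g hg]
  have h1 : ∑ m, g k m * ∑ b, lamM g a b * ∑ l, Mm b m l * z l =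
      ∑ l, (∑ m, g k m * ∑ b, lamM g a b * Mm b m l) * z l := by
    simp only [Finset.mul_sum, Finset.sum_mul]
    have h3 : ∀ F : Fin 4 → Fin 3 → Fin 4 → ℝ,
        ∑ m, ∑ b, ∑ j, F m b j = ∑ j, ∑ m, ∑ b, F m b j := by
      intro F
      have : ∑ m, ∑ b, ∑ j, F m b j = ∑ x : Fin 4 × Fin 3, ∑ j, F x.1 x.2 j := by
        simp only [Fintype.sum_prod_type]
      rw [this, Finset.sum_comm]
      simp only [Fintype.sum_prod_type]
    rw [h3]
    refine Finset.sum_congr rfl fun i _ => Finset.sum_congr rfl fun j _ => Finset.sum_congr rfl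
      fun k _ => ?_
    ring
  rw [h1]
  simp only [key2 hg]
  simp only [Finset.mul_sum, Finset.sum_mul]
  rw [Finset.sum_comm]
  refine Finset.sum_congr rfl fun i _ => Finset.sum_congr rfl fun j _ => ?_
  ring

end KI

end

end Vale.Agent.P211.HK
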