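import Vale.Agent.P211.HK.KI1c

/-! P211 / HK / KI1d (helper786): pointwise identities for KI1 and KI2. -/

set_option maxSynthPendingDepth 3
set_option linter.unusedSectionVars false

namespace Vale.Agent.P211.HK

open scoped Manifold ContDiff Topology RealInnerProductSpace
open Bundle Filter VectorField MeasureTheory

noncomputable section

namespace KI

theorem inner_tn (η ζ : Tn Eu3) : ⟪η, ζ⟫ = ∑ k, ∑ a, (η k) a * (ζ k) a := by
  rw [PiLp.inner_apply]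
  refine Finset.sum_congr rfl fun k _ => ?_
  rw [PiLp.inner_apply]
  refine Finset.sum_congr rfl fun a _ => ?_
  simp [mul_comm]

theorem inner_tnR (η ζ : Tn ℝ) : ⟪η, ζ⟫ = ∑ k, (η k) * (ζ k) := by
  rw [PiLp.inner_apply]
  refine Finset.sum_congr rfl fun k _ => ?_
  simp [mul_comm]

theorem SLm_adj (η : Tn Eu3) (z : Tn ℝ) : ⟪η, SLm z⟫ = ⟪STm η, z⟫ := by
  rw [inner_tn, inner_tnR]
  simp only [SLm_apply, STm_apply, Finset.mul_sum, Finset.sum_mul]
  have h3 : ∀ F : Fin 4 → Fin 3 → Fin 4 → ℝ,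
      ∑ m, ∑ b, ∑ j, F m b j = ∑ j, ∑ m, ∑ b, F m b j := by
    intro F
    have : ∑ m, ∑ b, ∑ j, F m b j = ∑ x : Fin 4 × Fin 3, ∑ j, F x.1 x.2 j := by
      simp only [Fintype.sum_prod_type]
    rw [this, Finset.sum_comm]
    simp only [Fintype.sum_prod_type]
  rw [h3]
  refine Finset.sum_congr rfl fun i _ => Finset.sum_congr rfl fun j _ => Finset.sum_congr rfl
    fun k _ => ?_
  ring

theorem STm_SLm (z : Tn ℝ) : STm (SLm z) = (3 : ℝ) • z := by
  ext l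
  rw [STm_apply]
  simp only [SLm_apply, PiLp.smul_apply, smul_eq_mul]
  fin_cases l <;> simp [Fin.sum_univ_succ, Mm] <;> ring

theorem Q_norm (η : Tn Eu3) : ‖η - (1 / 3 : ℝ) • SLm (STm η)‖ ^ 2 =
    ⟪η, η⟫ - 1 / 3 * ⟪η, SLm (STm η)⟫ := by
  have h1 : ⟪SLm (STm η), SLm (STm η)⟫ = 3 * ⟪η, SLm (STm η)⟫ := by
    rw [SLm_adj, STm_SLm, inner_smul_left, SLm_adj]
    simp
  rw [← real_inner_self_eq_norm_sq, inner_sub_left, inner_sub_right, inner_sub_right,
    inner_smul_left, inner_smul_left, inner_smul_right, inner_smul_right, h1,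
    real_inner_comm η (SLm (STm η))]
  simp

theorem div_alg (κ : ℝ) (u : Fin 3 → ℝ) (N : Fin 4 → Fin 4 → Fin 3 → ℝ)
    (h : ∀ k l a, N k l a - N l k a = κ * crs (fun b => Mm b k l) u a) (a : Fin 3) :
    ∑ k, ∑ l, Mm a k l * ∑ m, ∑ b, Mm b m l * N k m b = ∑ k, N k k a - 4 * κ * u a := by
  have h01 := h 0 1
  have h02 := h 0 2
  have h03 := h 0 3
  have h12 := h 1 2
  have h13 := h 1 3
  have h23 := h 2 3
  clear h
  simp [Fin.forall_fin_succ, Mm, crs] at h01 h02 h03 h12 h13 h23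
  obtain ⟨a1, a2, a3⟩ := h01
  obtain ⟨b1, b2, b3⟩ := h02
  obtain ⟨c1, c2, c3⟩ := h03
  obtain ⟨d1, d2, d3⟩ := h12
  obtain ⟨e1, e2, e3⟩ := h13
  obtain ⟨f1, f2, f3⟩ := h23
  fin_cases a <;> simp [Fin.sum_univ_succ, Mm] <;> linarith

/-- the algebraic system of the commutator identity implies that `A` is skew with anti-self-dual
part `-(3/2) κ u` -/
theorem ki_alg (κ : ℝ) (A : Mat4) (u : Fin 3 → ℝ)
    (h : ∀ k l a, ∑ m, Mm a l m * A k m - ∑ m, Mm a k m * A l m =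
      3 * κ * crs (fun b => Mm b k l) u a) :
    (∀ i j, A i j = - A j i) ∧ ∀ a, ∑ i, ∑ j, Mm a i j * A i j = -6 * κ * u a := by
  have h01 := h 0 1
  have h02 := h 0 2
  have h03 := h 0 3
  have h12 := h 1 2
  have h13 := h 1 3
  have h23 := h 2 3
  clear h
  simp [Fin.forall_fin_succ, Fin.sum_univ_succ, Mm, crs] at h01 h02 h03 h12 h13 h23
  obtain ⟨a1, a2, a3⟩ := h01
  obtain ⟨b1, b2, b3⟩ := h02
  obtain ⟨c1, c2, c3⟩ := h03
  obtain ⟨d1, d2, d3⟩ := h12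
  obtain ⟨e1, e2, e3⟩ := h13
  obtain ⟨f1, f2, f3⟩ := h23
  refine ⟨fun i j => ?_, fun a => ?_⟩
  · fin_cases i <;> fin_cases j <;> simp <;> linarith
  · fin_cases a <;> simp [Fin.sum_univ_succ, Mm] <;> linarith

end KI

end

end Vale.Agent.P211.HK
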