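import Vale.Agent.P211.HK.KIDefs
import Vale.Agent.P211.HK.SC0b
import Vale.Agent.P211.HK.SC1
import Vale.Agent.P211.HK.SC2

/-! P211 / HK: block KI3 (helper485): sections for the standard representation are smooth vector
fields. -/

set_option maxSynthPendingDepth 3
set_option linter.all false

namespace Vale.Agent.P211.HK

open scoped Manifold ContDiff Topology RealInnerProductSpace
open Bundle Filter VectorField MeasureTheory

noncomputable section

namespace KI3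

variable {E : Type} [NormedAddCommGroup E] [NormedSpace ℝ E] [FiniteDimensional ℝ E]
  {M : Type} [TopologicalSpace M] [ChartedSpace E M] [IsManifold 𝓘(ℝ, E) ∞ M] [T2Space M]
  [RiemannianBundle fun p : M => TangentSpace 𝓘(ℝ, E) p]
  [IsContMDiffRiemannianBundle 𝓘(ℝ, E) ∞ E fun p : M => TangentSpace 𝓘(ℝ, E) p]
  {cov : CovariantDerivative 𝓘(ℝ, E) E (TangentSpace 𝓘(ℝ, E) : M → Type)}
  {om : Form4 E M}

open Classical in
/-- the vector field with components `z` -/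
def fldOf (om : Form4 E M) (z : PreS E M (Tn ℝ)) : (p : M) → TangentSpace 𝓘(ℝ, E) p := fun p =>
  if h : ∃ f, PON om p f then ∑ l, (z p h.choose) l • h.choose l else 0

theorem fldOf_eq (hg : Geo4 cov om) {RT : Rep (Tn ℝ)} (hT : IsTan RT) {z : PreS E M (Tn ℝ)}
    (hz : z ∈ Sec om RT) {p : M} {f : Fin 4 → TangentSpace 𝓘(ℝ, E) p} (hf : PON om p f) :
    fldOf om z p = ∑ l, (z p f) l • f l := by
  have hex : ∃ f, PON om p f := ⟨f, hf⟩
  unfold fldOf
  rw [dif_pos hex]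
  obtain ⟨hm1, hm2⟩ := pon_matrix hg hf hex.choose_spec
  have h2 : ∀ i l, ∑ k, (inner ℝ (f i) (hex.choose k) : ℝ) * inner ℝ (f l) (hex.choose k) =
      if i = l then (1 : ℝ) else 0 := fun i l => congrFun (congrFun hm1.mul_tr i) l
  have h1 : ∀ k, (z p hex.choose) k = ∑ l, (inner ℝ (f l) (hex.choose k) : ℝ) * (z p f) l := by
    intro k
    have e := congrArg (z p) hm2
    rw [e, hz.2.1 p f _ hf hm1, hT _ hm1.tr]
    rfl
  have h3 : ∀ i, (inner ℝ (f i) (∑ l, (z p hex.choose) l • hex.choose l) : ℝ) = (z p f) i := by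
    intro i
    simp only [inner_sum, real_inner_smul_right, h1, Finset.sum_mul]
    rw [Finset.sum_comm]
    have : ∀ l, ∑ k, (inner ℝ (f l) (hex.choose k) : ℝ) * (z p f) l *
        inner ℝ (f i) (hex.choose k) = if i = l then (z p f) l else 0 := by
      intro l
      have h4 : ∑ k, (inner ℝ (f l) (hex.choose k) : ℝ) * (z p f) l *
        inner ℝ (f i) (hex.choose k) = (∑ k, (inner ℝ (f i) (hex.choose k) : ℝ) *
          inner ℝ (f l) (hex.choose k)) * (z p f) l := by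
        rw [Finset.sum_mul]
        refine Finset.sum_congr rfl fun k _ => ?_
        ring
      rw [h4, h2]
      split_ifs <;> simp
    simp only [this]
    simp
  rw [pon_expand hg hf.1 (∑ l, (z p hex.choose) l • hex.choose l)]
  simp only [h3]

theorem comp_smooth {z : PreS E M (Tn ℝ)} {RT : Rep (Tn ℝ)} (hz : z ∈ Sec om RT) {p : M}
    {F : Fin 4 → VF E M} (hF : PONnear om p F) (l : Fin 4) :
    ContMDiffAt 𝓘(ℝ, E) 𝓘(ℝ, ℝ) ∞ (fun q => (z q fun i => F i q) l) p :=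
  ((PiLp.proj 2 (fun _ : Fin 4 => ℝ) l : Tn ℝ →L[ℝ] ℝ).contMDiff.contMDiffAt.comp p
    (hz.2.2 F p hF) :)

theorem fldOf_smooth (hg : Geo4 cov om) {RT : Rep (Tn ℝ)} (hT : IsTan RT) {z : PreS E M (Tn ℝ)}
    (hz : z ∈ Sec om RT) :
    ContMDiff 𝓘(ℝ, E) (𝓘(ℝ, E).prod 𝓘(ℝ, E)) ∞
      (fun p => (⟨p, fldOf om z p⟩ : TotalSpace E (TangentSpace 𝓘(ℝ, E) : M → Type))) := by
  intro p
  obtain ⟨f, hf⟩ := exists_pon hg p
  obtain ⟨F, hF, -⟩ := exists_ponnear hg hf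
  have h1 : ∀ l : Fin 4, ContMDiffAt 𝓘(ℝ, E) (𝓘(ℝ, E).prod 𝓘(ℝ, E)) ∞
      (fun q => (⟨q, (z q fun i => F i q) l • F l q⟩ :
        TotalSpace E (TangentSpace 𝓘(ℝ, E) : M → Type))) p := fun l =>
    ContMDiffAt.smul_section (comp_smooth hz hF l) ((F l).contMDiff p)
  have h2 : ContMDiffAt 𝓘(ℝ, E) (𝓘(ℝ, E).prod 𝓘(ℝ, E)) ∞
      (fun q => (⟨q, ∑ l, (z q fun i => F i q) l • F l q⟩ :
        TotalSpace E (TangentSpace 𝓘(ℝ, E) : M → Type))) p :=
    ContMDiffAt.sum_section (fun l _ => h1 l)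
  refine h2.congr_of_eventuallyEq ?_
  filter_upwards [hF] with q hq
  rw [fldOf_eq hg hT hz hq]

/-- the smooth vector field with components `z` -/
def vfOf (hg : Geo4 cov om) {RT : Rep (Tn ℝ)} (hT : IsTan RT) {z : PreS E M (Tn ℝ)}
    (hz : z ∈ Sec om RT) : VF E M := ⟨fldOf om z, fldOf_smooth hg hT hz⟩

theorem vfOf_eq (hg : Geo4 cov om) {RT : Rep (Tn ℝ)} (hT : IsTan RT) {z : PreS E M (Tn ℝ)}
    (hz : z ∈ Sec om RT) {p : M} {f : Fin 4 → TangentSpace 𝓘(ℝ, E) p} (hf : PON om p f) :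
    vfOf hg hT hz p = ∑ l, (z p f) l • f l := fldOf_eq hg hT hz hf

theorem inner_vfOf (hg : Geo4 cov om) {RT : Rep (Tn ℝ)} (hT : IsTan RT) {z : PreS E M (Tn ℝ)}
    (hz : z ∈ Sec om RT) {p : M} {f : Fin 4 → TangentSpace 𝓘(ℝ, E) p} (hf : PON om p f)
    (l : Fin 4) : (inner ℝ (f l) (vfOf hg hT hz p) : ℝ) = (z p f) l := by
  rw [vfOf_eq hg hT hz hf]
  simp only [inner_sum, real_inner_smul_right, orthonormal_iff_ite.1 hf.1]
  simp

theorem nab_vfOf (hg : Geo4 cov om) {RT : Rep (Tn ℝ)} (hT : IsTan RT) {z : PreS E M (Tn ℝ)}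
    (hz : z ∈ Sec om RT) {p : M} {f : Fin 4 → TangentSpace 𝓘(ℝ, E) p} (hf : PON om p f)
    (k l : Fin 4) : (nabS cov om z p f k) l = inner ℝ (f l) (cov (vfOf hg hT hz) p (f k)) := by
  obtain ⟨F, hF⟩ := sc0_sync hg p f hf
  have e : (fun i => F i p) = f := funext hF.2.1
  subst e
  have h1 := nabS_eq hg RT hz hF.1 k
  have h2 : GaF cov F p k = 0 := hF.GaV_zero _
  rw [h2, SC2.d_zero] at h1
  rw [h1]
  have h3 : (dirW (fun q => z q fun i => F i q) p (F k p) +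
      (0 : Tn ℝ →L[ℝ] Tn ℝ) (z p fun i => F i p)) l =
      (dirW (fun q => z q fun i => F i q) p (F k p)) l := by simp
  rw [h3]
  have h4 := SC2.dirW_clm (PiLp.proj 2 (fun _ : Fin 4 => ℝ) l : Tn ℝ →L[ℝ] ℝ)
    (hz.2.2 F p hF.1) (F k p)
  have h5 : dirW (fun q => (inner ℝ (F l q) (vfOf hg hT hz q) : ℝ)) p (F k p) =
      dirW (fun q => (z q fun i => F i q) l) p (F k p) := by
    refine SC2.dirW_congr ?_ _
    filter_upwards [hF.1] with q hq
    exact inner_vfOf hg hT hz hq l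
  have h6 := hg.lc.metric (F k) (F l) (vfOf hg hT hz) p
  rw [hF.2.2 l, inner_zero_left, zero_add] at h6
  rw [← h6]
  exact (h5.trans h4).symm

/-- components of a vector field -/
theorem comp_mem (hg : Geo4 cov om) {RT : Rep (Tn ℝ)} (hT : IsTan RT) (X : VF E M) :
    ∃ z ∈ Sec (E := E) (M := M) om RT,
      ∀ p f, PON om p f → ∀ l, (z p f) l = inner ℝ (f l) (X p) := by
  classical
  refine ⟨fun p f => if PON om p f then mkT fun l => inner ℝ (f l) (X p) else 0,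
    ⟨fun p f hf => if_neg hf, ?_, ?_⟩, fun p f hf l => ?_⟩
  · intro p f g hf hgg
    have h1 := pon_fact hg hf hgg
    simp only [if_pos hf, if_pos h1]
    ext l
    rw [hT _ hgg.tr]
    simp only [mkT, fact, sum_inner, real_inner_smul_left, trM]
  · intro F p hF
    have h1 : ContMDiffAt 𝓘(ℝ, E) 𝓘(ℝ, Fin 4 → ℝ) ∞
        (fun q => fun l => (inner ℝ (F l q) (X q) : ℝ)) p := by
      rw [contMDiffAt_pi_space]
      intro l
      exact (gVF (F l) X).contMDiff p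
    have h2 : ContMDiffAt 𝓘(ℝ, E) 𝓘(ℝ, Tn ℝ) ∞
        (fun q => (mkT fun l => (inner ℝ (F l q) (X q) : ℝ) : Tn ℝ)) p :=
      (((PiLp.continuousLinearEquiv 2 ℝ fun _ : Fin 4 => ℝ).symm : (Fin 4 → ℝ) →L[ℝ] Tn ℝ)
        |>.contMDiff.contMDiffAt.comp p h1 :)
    refine h2.congr_of_eventuallyEq ?_
    filter_upwards [hF] with q hq
    rw [if_pos hq]
  · simp only [if_pos hf]
    rfl

end KI3

variable {E : Type} [NormedAddCommGroup E] [NormedSpace ℝ E] [FiniteDimensional ℝ E]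
  {M : Type} [TopologicalSpace M] [ChartedSpace E M] [IsManifold 𝓘(ℝ, E) ∞ M] [T2Space M]
  [RiemannianBundle fun p : M => TangentSpace 𝓘(ℝ, E) p]
  [IsContMDiffRiemannianBundle 𝓘(ℝ, E) ∞ E fun p : M => TangentSpace 𝓘(ℝ, E) p]
  {cov : CovariantDerivative 𝓘(ℝ, E) E (TangentSpace 𝓘(ℝ, E) : M → Type)}
  {om : Form4 E M}

theorem ki3 : KI3Stmt cov om := fun hg RT hT =>
  ⟨fun z hz => ⟨KI3.vfOf hg hT hz, fun p f hf l => KI3.inner_vfOf hg hT hz hf l,
    fun p f hf => KI3.vfOf_eq hg hT hz hf, fun p f hf k l => KI3.nab_vfOf hg hT hz hf k l⟩,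
    fun X => KI3.comp_mem hg hT X⟩

end

end Vale.Agent.P211.HK
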