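import Vale.Agent.P211.Bdl.B1

set_option linter.all false

/-! P211 / HK, block KR (helper115): Killing fields in the formal calculus. -/

namespace Vale.Agent.P211.HK

open Vale.Agent.P211

variable {𝒪 V : Type*} [CommRing 𝒪] [Algebra ℝ 𝒪] [AddCommGroup V] [Module 𝒪 V]

/-- `ξ` is a Killing field -/
def Kill (G : LC 𝒪 V) (ξ : V) : Prop :=
  ∀ X Y, G.g (G.nab X ξ) Y + G.g X (G.nab Y ξ) = 0

/-- the second covariant derivative of a vector field -/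
def hes (G : LC 𝒪 V) (ξ X Y : V) : V := G.nab X (G.nab Y ξ) - G.nab (G.nab X Y) ξ

section
variable {G : LC 𝒪 V} {ξ : V}

theorem g_sub_right (X Y Z : V) : G.g X (Y - Z) = G.g X Y - G.g X Z := by
  rw [G.g_symm, G.g_sub_left, G.g_symm Y, G.g_symm Z]

theorem g_neg_right (X Y : V) : G.g X (-Y) = - G.g X Y := by
  rw [G.g_symm, G.g_neg_left, G.g_symm Y]

theorem hes_skew (hk : Kill G ξ) (X Y Z : V) :
    G.g (hes G ξ X Y) Z + G.g Y (hes G ξ X Z) = 0 := by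
  have h0 := congrArg (G.D X) (hk Y Z)
  rw [G.D_add, G.metric, G.metric, G.D_zero] at h0
  have h1 := hk (G.nab X Y) Z
  have h2 := hk Y (G.nab X Z)
  simp only [hes, G.g_sub_left, g_sub_right]
  linear_combination h0 - h1 - h2

theorem hes_comm (X Y : V) : hes G ξ X Y - hes G ξ Y X = G.R X Y ξ := by
  simp only [hes, LC.R, LC.brk, G.nab_sub_left]
  abel

theorem hes_comm_g (X Y Z : V) :
    G.g (hes G ξ X Y) Z = G.g (hes G ξ Y X) Z + G.Rm X Y ξ Z := by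
  rw [LC.Rm, ← hes_comm, G.g_sub_left]; ring

/-- `∇_X ∇ ξ = R(X, ξ)` -/
theorem hes_eq (hk : Kill G ξ) (X Y Z : V) : G.g (hes G ξ X Y) Z = G.Rm X ξ Y Z := by
  have e1 := hes_comm_g (G := G) (ξ := ξ) X Y Z
  have e2 := hes_comm_g (G := G) (ξ := ξ) Y Z X
  have e3 := hes_comm_g (G := G) (ξ := ξ) Z X Y
  have s1 := hes_skew hk X Y Z
  have s2 := hes_skew hk Y Z X
  have s3 := hes_skew hk Z X Y
  have y1 := G.g_symm Y (hes G ξ X Z)
  have y2 := G.g_symm Z (hes G ξ Y X)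
  have y3 := G.g_symm X (hes G ξ Z Y)
  have b4 := G.Rm_bianchi X Y Z ξ
  have p1 := G.Rm_pair X ξ Y Z
  have p3 := G.Rm_anti34 X Y ξ Z
  have p4 := G.Rm_anti34 Y Z ξ X
  have p5 := G.Rm_anti34 Z X ξ Y
  refine sub_eq_zero.mp (LC.two_cancel ?_)
  linear_combination e1 + s2 - e2 - s3 + e3 + s1 - y2 + y3 - y1 + p3 + p5 - p4 - b4 - 2 * p1

/-- a slot of the curvature only depends on the scalar products -/
theorem Rm_slot {A A' : V} (h : ∀ Z, G.g A Z = G.g A' Z) (X Y Z : V) :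
    G.Rm A X Y Z = G.Rm A' X Y Z ∧ G.Rm X A Y Z = G.Rm X A' Y Z ∧ G.Rm X Y A Z = G.Rm X Y A' Z ∧
      G.Rm X Y Z A = G.Rm X Y Z A' := by
  have h4 : ∀ X Y Z, G.Rm X Y Z A = G.Rm X Y Z A' := fun X Y Z => by
    simp only [LC.Rm]; rw [G.g_symm, h, G.g_symm]
  have h3 : ∀ X Y Z, G.Rm X Y A Z = G.Rm X Y A' Z := fun X Y Z => by
    rw [G.Rm_anti34, h4, ← G.Rm_anti34]
  refine ⟨?_, ?_, h3 X Y Z, h4 X Y Z⟩
  · rw [G.Rm_pair A, h3, ← G.Rm_pair]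
  · rw [G.Rm_pair X A, h4, ← G.Rm_pair]

/-- `L_ξ R = 0` -/
theorem kill1 (hk : Kill G ξ) (X Y Z W : V) :
    G.d1 G.Rm ξ X Y Z W + G.Rm (G.nab X ξ) Y Z W + G.Rm X (G.nab Y ξ) Z W
      + G.Rm X Y (G.nab Z ξ) W + G.Rm X Y Z (G.nab W ξ) = 0 := by
  -- derivative of `hes_eq`
  have key : ∀ U X Y Z : V, G.g (G.nab U (hes G ξ X Y) - hes G ξ (G.nab U X) Y
      - hes G ξ X (G.nab U Y)) Z = G.d1 G.Rm U X ξ Y Z + G.Rm X (G.nab U ξ) Y Z := by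
    intro U X Y Z
    have h0 := congrArg (G.D U) (hes_eq hk X Y Z)
    rw [G.metric, G.D_expand G.Rm] at h0
    have h1 := hes_eq hk (G.nab U X) Y Z
    have h2 := hes_eq hk X (G.nab U Y) Z
    have h3 := hes_eq hk X Y (G.nab U Z)
    rw [G.g_sub_left, G.g_sub_left]
    linear_combination h0 - h1 - h2 - h3
  have k1 := key X Y Z W
  have k2 := key Y X Z W
  -- commutator of third derivatives
  have hc : (G.nab X (hes G ξ Y Z) - hes G ξ (G.nab X Y) Z - hes G ξ Y (G.nab X Z))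
      - (G.nab Y (hes G ξ X Z) - hes G ξ (G.nab Y X) Z - hes G ξ X (G.nab Y Z)) =
      G.R X Y (G.nab Z ξ) - G.nab (G.R X Y Z) ξ := by
    simp only [hes, LC.R, LC.brk, G.nab_sub, G.nab_sub_left]
    abel
  have hc' := congrArg (fun A => G.g A W) hc
  simp only [G.g_sub_left] at hc' k1 k2
  have hk1 := hk (G.R X Y Z) W
  have b := G.d1Rm_bianchi2 X Y ξ Z W
  have a1 := G.d1Rm_anti12 Y ξ X Z W
  have a2 := G.Rm_anti12 Y (G.nab X ξ) Z W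
  have a3 := G.Rm_anti12 X (G.nab Y ξ) Z W
  have c1 : G.Rm X Y (G.nab Z ξ) W = G.g (G.R X Y (G.nab Z ξ)) W := rfl
  have c2 : G.Rm X Y Z (G.nab W ξ) = G.g (G.R X Y Z) (G.nab W ξ) := rfl
  rw [c1, c2]
  linear_combination k1 - k2 - hc' + hk1 + b - a1 + a2

/-- `L_ξ ∇R = 0` -/
theorem kill2 (hk : Kill G ξ) (U X Y Z W : V) :
    G.d2 G.Rm ξ U X Y Z W + G.d1 G.Rm (G.nab U ξ) X Y Z W
      + (G.d1 G.Rm U (G.nab X ξ) Y Z W + G.d1 G.Rm U X (G.nab Y ξ) Z W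
      + G.d1 G.Rm U X Y (G.nab Z ξ) W + G.d1 G.Rm U X Y Z (G.nab W ξ)) = 0 := by
  have h4 := G.isT4_Rm
  have h0 := congrArg (G.D U) (kill1 hk X Y Z W)
  simp only [G.D_add, G.D_zero] at h0
  rw [G.D_expand G.Rm U (G.nab X ξ), G.D_expand G.Rm U X (G.nab Y ξ),
    G.D_expand G.Rm U X Y (G.nab Z ξ), G.D_expand G.Rm U X Y Z (G.nab W ξ)] at h0
  have h1 := kill1 hk (G.nab U X) Y Z W
  have h2 := kill1 hk X (G.nab U Y) Z W
  have h3 := kill1 hk X Y (G.nab U Z) W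
  have h5 := kill1 hk X Y Z (G.nab U W)
  have r := G.ricci_identity h4 U ξ X Y Z W
  have hs : ∀ A Z, G.g (hes G ξ U A) Z = G.g (G.R U ξ A) Z := fun A Z => hes_eq hk U A Z
  have s1 := (Rm_slot (hs X) Y Z W).1
  have s2 := (Rm_slot (hs Y) X Z W).2.1
  have s3 := (Rm_slot (hs Z) X Y W).2.2.1
  have s4 := (Rm_slot (hs W) X Y Z).2.2.2
  simp only [hes, h4.sub1, h4.sub2, h4.sub3, h4.sub4] at s1 s2 s3 s4
  have e : G.d2 G.Rm U ξ X Y Z W = G.D U (G.d1 G.Rm ξ X Y Z W) - G.d1 G.Rm (G.nab U ξ) X Y Z W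
      - G.d1 G.Rm ξ (G.nab U X) Y Z W - G.d1 G.Rm ξ X (G.nab U Y) Z W
      - G.d1 G.Rm ξ X Y (G.nab U Z) W - G.d1 G.Rm ξ X Y Z (G.nab U W) := rfl
  linear_combination h0 - h1 - h2 - h3 - h5 - r + e - s1 - s2 - s3 - s4

end

end Vale.Agent.P211.HK
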