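import Vale.Agent.P211.HK.KR1
import Vale.Agent.P211.Bdl.S1

set_option linter.all false

/-! P211 / HK, block KR (helper115): a Killing field which vanishes to first order at a point
vanishes. -/

namespace Vale.Agent.P211.HK

open Topology Filter Vale.Agent.P211 Vale.Agent.P211.S4

variable {M 𝒪 V : Type*} [TopologicalSpace M] [CommRing 𝒪] [Algebra ℝ 𝒪]
    [AddCommGroup V] [Module 𝒪 V] {G : Geo2 M 𝒪 V} {ξ : V}

/-- squared norm of `∇ξ` -/
def Ssq (G : Geo2 M 𝒪 V) (ξ : V) (p : M) (F : Fin 4 → V) : ℝ :=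
  ∑ i, G.ev p (G.g (G.nab (F i) ξ) (G.nab (F i) ξ))

/-- the linear functional `X ↦ ⟨∇_X ξ, Z⟩` -/
def kr_nabL (G : Geo2 M 𝒪 V) (ξ Z : V) : V →ₗ[𝒪] 𝒪 :=
  ⟨⟨fun X => G.g (G.nab X ξ) Z, fun a b => by rw [G.nab_add_left, G.g_add_left]⟩,
    fun a b => by
      show G.g (G.nab (a • b) ξ) Z = _
      rw [G.nab_smul_left, G.g_smul_left]; rfl⟩

theorem nab_exp {p : M} {F : Fin 4 → V} (hF : G.ON p F) (X Z : V) :
    G.ev p (G.g (G.nab X ξ) Z) = ∑ i, G.ev p (G.g X (F i)) * G.ev p (G.g (G.nab (F i) ξ) Z) :=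
  G.expand hF (kr_nabL G ξ Z) X

theorem Ssq_inv {p : M} {F F' : Fin 4 → V} (hF : G.ON p F) (hF' : G.ON p F') :
    Ssq G ξ p F = Ssq G ξ p F' := by
  unfold Ssq
  have h1 : ∀ i, G.ev p (G.g (G.nab (F i) ξ) (G.nab (F i) ξ)) =
      ∑ j, G.ev p (G.g (F i) (F' j)) * G.ev p (G.g (G.nab (F' j) ξ) (G.nab (F i) ξ)) :=
    fun i => nab_exp hF' _ _
  have h2 : ∀ j, G.ev p (G.g (G.nab (F' j) ξ) (G.nab (F' j) ξ)) =
      ∑ i, G.ev p (G.g (F' j) (F i)) * G.ev p (G.g (G.nab (F i) ξ) (G.nab (F' j) ξ)) :=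
    fun i => nab_exp hF _ _
  simp only [h1, h2]
  rw [Finset.sum_comm]
  refine Finset.sum_congr rfl fun j _ => Finset.sum_congr rfl fun i _ => ?_
  rw [G.g_symm (F i) (F' j), G.g_symm (G.nab (F i) ξ)]

theorem comp_le {p : M} {F : Fin 4 → V} (hF : G.ON p F) (X : V) (i : Fin 4) :
    G.ev p (G.g X (F i)) ^ 2 ≤ G.ev p (G.g X X) := by
  rw [G.parseval p F hF X]
  exact Finset.single_le_sum (f := fun i => G.ev p (G.g X (F i)) ^ 2)
    (fun j _ => sq_nonneg _) (Finset.mem_univ i)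

theorem abs_comp_le {p : M} {F : Fin 4 → V} (hF : G.ON p F) (X : V) (i : Fin 4) :
    |G.ev p (G.g X (F i))| ≤ Real.sqrt (G.ev p (G.g X X)) :=
  Real.abs_le_sqrt (comp_le hF X i)

theorem prod_le {a b s : ℝ} (h : a ^ 2 + b ^ 2 ≤ s) : |a * b| ≤ s := by
  rw [abs_mul]
  nlinarith [sq_nonneg (|a| - |b|), sq_abs a, sq_abs b, abs_nonneg a, abs_nonneg b]

/-- a Killing field which vanishes to first order at a point vanishes -/
theorem kill_unique (hB : ∃ C : ℝ, ∀ p (F : Fin 4 → V), G.ON p F → ∀ i j k l, |G.rr p F i j k l| ≤ C)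
    (hk : Kill G.toLC ξ) {p : M} (h0 : G.ev p (G.g ξ ξ) = 0)
    (h1 : ∀ X, G.ev p (G.g (G.nab X ξ) (G.nab X ξ)) = 0) (q : M) : G.ev q (G.g ξ ξ) = 0 := by
  obtain ⟨C, hC⟩ := hB
  choose F₀ hF₀ using G.frame
  have hs0 : ∀ q, 0 ≤ Ssq G ξ q (F₀ q) := fun q =>
    Finset.sum_nonneg fun i _ => G.g_nonneg q _
  set s : M → ℝ := fun q => G.ev q (G.g ξ ξ) + Ssq G ξ q (F₀ q) with hs
  have key := G.gronwall s (32 + 512 * C) (fun q => add_nonneg (G.g_nonneg q _) (hs0 q))
    (fun p => ?_) p q ?_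
  · have : 0 ≤ G.ev q (G.g ξ ξ) := G.g_nonneg q _
    have h2 : G.ev q (G.g ξ ξ) + Ssq G ξ q (F₀ q) = 0 := key
    have := hs0 q
    linarith
  · obtain ⟨F, hF, -, hn⟩ := G.sync p (F₀ p) (hF₀ p)
    have hS : G.Sync p F := ⟨hF, hn⟩
    have hp : G.ON p F := hS.at
    refine ⟨G.g ξ ξ + ∑ i, G.g (G.nab (F i) ξ) (G.nab (F i) ξ), 0, ?_, map_zero _, fun X => ?_⟩
    · filter_upwards [hF] with q hq
      have : s q = G.ev q (G.g ξ ξ + ∑ i, G.g (G.nab (F i) ξ) (G.nab (F i) ξ)) := by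
        rw [map_add, map_sum]
        show _ + Ssq G ξ q (F₀ q) = _ + Ssq G ξ q F
        rw [Ssq_inv (hF₀ q) hq]
      rw [this, sub_self, abs_zero, map_zero]
    · have hsp : s p = G.ev p (G.g ξ ξ) + Ssq G ξ p F := by
        show _ + Ssq G ξ p (F₀ p) = _
        rw [Ssq_inv (hF₀ p) hp]
      set N := Real.sqrt (G.ev p (G.g X X)) with hN
      have hN0 : 0 ≤ N := Real.sqrt_nonneg _
      have hspn : 0 ≤ s p := by
        rw [hsp]
        exact add_nonneg (G.g_nonneg p _) (Finset.sum_nonneg fun i _ => G.g_nonneg p _)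
      -- components
      have hz : ∀ b, G.ev p (G.g ξ (F b)) ^ 2 ≤ G.ev p (G.g ξ ξ) := comp_le hp ξ
      have ha : ∀ i c, G.ev p (G.g (G.nab (F i) ξ) (F c)) ^ 2 ≤ Ssq G ξ p F := fun i c =>
        (comp_le hp _ c).trans (Finset.single_le_sum
          (f := fun i => G.ev p (G.g (G.nab (F i) ξ) (G.nab (F i) ξ)))
          (fun j _ => G.g_nonneg p _) (Finset.mem_univ i))
      have hza : ∀ b i c, |G.ev p (G.g ξ (F b)) * G.ev p (G.g (G.nab (F i) ξ) (F c))| ≤ s p :=
        fun b i c => prod_le (by rw [hsp]; exact add_le_add (hz b) (ha i c))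
      have hx : ∀ a, |G.ev p (G.g X (F a))| ≤ N := abs_comp_le hp X
      -- the first term
      have t1 : |G.ev p (G.g (G.nab X ξ) ξ)| ≤ 16 * (N * s p) := by
        have e1 : G.ev p (G.g (G.nab X ξ) ξ) = ∑ a, ∑ b, G.ev p (G.g X (F a)) *
            (G.ev p (G.g ξ (F b)) * G.ev p (G.g (G.nab (F a) ξ) (F b))) := by
          rw [nab_exp hp]
          refine Finset.sum_congr rfl fun a _ => ?_
          have := G.expand hp ⟨⟨fun Y => G.g Y (G.nab (F a) ξ), fun u v => G.g_add_left u v _⟩,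
            fun u v => G.g_smul_left u v _⟩ ξ
          have e2 : G.ev p (G.g (G.nab (F a) ξ) ξ) = ∑ b, G.ev p (G.g ξ (F b)) *
              G.ev p (G.g (G.nab (F a) ξ) (F b)) := by
            rw [G.g_symm]
            refine this.trans (Finset.sum_congr rfl fun b _ => ?_)
            show _ * G.ev p (G.g (F b) (G.nab (F a) ξ)) = _
            rw [G.g_symm (F b)]
          rw [e2, Finset.mul_sum]
        rw [e1]
        refine (Finset.abs_sum_le_sum_abs _ _).trans ?_
        calc _ ≤ ∑ a : Fin 4, ∑ b : Fin 4, N * s p := by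
              refine Finset.sum_le_sum fun a _ => (Finset.abs_sum_le_sum_abs _ _).trans
                (Finset.sum_le_sum fun b _ => ?_)
              rw [abs_mul]
              exact mul_le_mul (hx a) (hza b a b) (abs_nonneg _) hN0
          _ = 16 * (N * s p) := by simp; ring
      have t2 : ∀ i, |G.ev p (G.Rm X ξ (F i) (G.nab (F i) ξ))| ≤ 64 * (C * (N * s p)) := by
        intro i
        have e1 : G.ev p (G.Rm X ξ (F i) (G.nab (F i) ξ)) = ∑ a, ∑ b, ∑ c,
            (G.ev p (G.g X (F a)) * (G.ev p (G.g ξ (F b)) * G.ev p (G.g (G.nab (F i) ξ) (F c)))) *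
              G.rr p F a b i c := by
          rw [G.exp1 G.isT4_Rm hp]
          refine Finset.sum_congr rfl fun a _ => ?_
          rw [G.exp2 G.isT4_Rm hp, Finset.mul_sum]
          refine Finset.sum_congr rfl fun b _ => ?_
          rw [G.exp4 G.isT4_Rm hp, Finset.mul_sum, Finset.mul_sum]
          refine Finset.sum_congr rfl fun c _ => ?_
          unfold Geom.rr
          ring
        rw [e1]
        refine (Finset.abs_sum_le_sum_abs _ _).trans ?_
        calc _ ≤ ∑ a : Fin 4, ∑ b : Fin 4, ∑ c : Fin 4, (N * s p) * C := by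
              refine Finset.sum_le_sum fun a _ => (Finset.abs_sum_le_sum_abs _ _).trans
                (Finset.sum_le_sum fun b _ => (Finset.abs_sum_le_sum_abs _ _).trans
                (Finset.sum_le_sum fun c _ => ?_))
              rw [abs_mul, abs_mul]
              exact mul_le_mul (mul_le_mul (hx a) (hza b i c) (abs_nonneg _) hN0)
                (hC p F hp a b i c) (abs_nonneg _) (mul_nonneg hN0 hspn)
          _ = 64 * (C * (N * s p)) := by simp; ring
      -- derivative of `ρ`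
      have hd : G.ev p (G.D X (G.g ξ ξ + ∑ i, G.g (G.nab (F i) ξ) (G.nab (F i) ξ))) =
          2 * G.ev p (G.g (G.nab X ξ) ξ) +
            2 * ∑ i, G.ev p (G.Rm X ξ (F i) (G.nab (F i) ξ)) := by
        rw [G.D_add, G.metric, a67_D_sum, map_add, map_add, map_sum, G.g_symm ξ (G.nab X ξ),
          Finset.mul_sum]
        have e1 : ∀ i, G.ev p (G.D X (G.g (G.nab (F i) ξ) (G.nab (F i) ξ))) =
            2 * G.ev p (G.Rm X ξ (F i) (G.nab (F i) ξ)) := by
          intro i
          have hh := hes_eq hk X (F i) (G.nab (F i) ξ)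
          have e2 : G.ev p (G.g (G.nab (G.nab X (F i)) ξ) (G.nab (F i) ξ)) = 0 :=
            G.ptwise p (kr_nabL G ξ (G.nab (F i) ξ)) _ (hn X i)
          have e3 : G.g (G.nab X (G.nab (F i) ξ)) (G.nab (F i) ξ) =
              G.Rm X ξ (F i) (G.nab (F i) ξ) + G.g (G.nab (G.nab X (F i)) ξ) (G.nab (F i) ξ) := by
            rw [← hh]
            simp only [hes, G.toLC.g_sub_left]
            ring
          rw [G.metric, G.g_symm (G.nab (F i) ξ) (G.nab X _), e3, map_add, map_add, e2]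
          ring
        rw [Finset.sum_congr rfl fun i _ => e1 i]
        ring
      rw [hd]
      have t3 : |∑ i, G.ev p (G.Rm X ξ (F i) (G.nab (F i) ξ))| ≤ 256 * (C * (N * s p)) := by
        refine (Finset.abs_sum_le_sum_abs _ _).trans ?_
        calc _ ≤ ∑ i : Fin 4, 64 * (C * (N * s p)) := Finset.sum_le_sum fun i _ => t2 i
          _ = 256 * (C * (N * s p)) := by simp; ring
      have := abs_add_le (2 * G.ev p (G.g (G.nab X ξ) ξ))
        (2 * ∑ i, G.ev p (G.Rm X ξ (F i) (G.nab (F i) ξ)))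
      rw [abs_mul, abs_mul, abs_two] at this
      have e : (32 + 512 * C) * s p * N = 2 * (16 * (N * s p)) + 2 * (256 * (C * (N * s p))) := by
        ring
      rw [e]
      linarith
  · show G.ev p (G.g ξ ξ) + Ssq G ξ p (F₀ p) = 0
    rw [h0, zero_add]
    exact Finset.sum_eq_zero fun i _ => h1 _

end Vale.Agent.P211.HK
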