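import Vale.Agent.P211.HK.KR2

set_option linter.all false

/-! P211 / HK, block KR (helper115): pointwise algebra of Killing fields. -/

namespace Vale.Agent.P211.HK

open Topology Filter Vale.Agent.P211 Vale.Agent.P211.S4

/-- self-dual part of a skew matrix -/
def sdv (a : Fin 4 → Fin 4 → ℝ) : Fin 3 → ℝ := ![a 0 1 + a 2 3, a 0 2 + a 3 1, a 0 3 + a 1 2]

theorem Pm_c (r : Arr4) (i j : Fin 3) : Pm r i j = r 0 (a67_c i) (a67_c j) 0 := by
  fin_cases i <;> fin_cases j <;> rfl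

theorem Sm_c (r : Arr4) (i j : Fin 3) : Sm r i j = r 0 (a67_c i) (a67_a j) (a67_b j) := by
  fin_cases i <;> fin_cases j <;> rfl

/-- the stabiliser of the self-dual part of the curvature -/
theorem stab_alg {P S : Fin 3 → Fin 3 → ℝ} (hP : ∀ i j, P i j = P j i) (hS : ∀ i j, S i j = S j i)
    (hPS : ∀ i j, P i j - S i j = if i = j then 1 else 0) (hd : ∀ i j, i ≠ j → P i j + S i j = 0)
    {a : Fin 4 → Fin 4 → ℝ} (ha : ∀ i j, a i j = - a j i)
    (h : ∀ i j k l, a67_rot a (einArr P S) i j k l = 0) :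
    (P 0 0 + S 0 0 - (P 1 1 + S 1 1)) * sdv a 2 = 0 ∧
      (P 1 1 + S 1 1 - (P 2 2 + S 2 2)) * sdv a 0 = 0 ∧
      (P 2 2 + S 2 2 - (P 0 0 + S 0 0)) * sdv a 1 = 0 := by
  have off : ∀ i j, i ≠ j → P i j = 0 ∧ S i j = 0 := by
    intro i j hij
    have h1 := hPS i j
    have h2 := hd i j hij
    rw [if_neg hij] at h1
    constructor <;> linarith
  have on : ∀ i, S i i = P i i - 1 := fun i => by
    have := hPS i i
    rw [if_pos rfl] at this
    linarith
  have h00 : a 0 0 = 0 := by linarith [ha 0 0]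
  have h11 : a 1 1 = 0 := by linarith [ha 1 1]
  have h22 : a 2 2 = 0 := by linarith [ha 2 2]
  have h33 : a 3 3 = 0 := by linarith [ha 3 3]
  have h10 := ha 1 0
  have h20 := ha 2 0
  have h30 := ha 3 0
  have h21 := ha 2 1
  have h31 := ha 3 1
  have h32 := ha 3 2
  have e1 := h 0 1 2 0
  have e3 := h 0 2 3 0
  have e5 := h 0 1 3 0
  simp only [a67_rot, Fin.sum_univ_four, einArr, sk, Matrix.cons_val_zero, Matrix.cons_val_one,
    Matrix.cons_val, Pi.neg_apply, Pi.zero_apply, h00, h11, h22, h33, h10, h20, h30, h21, h31, h32,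
    (off 0 1 (by decide)).1, (off 0 2 (by decide)).1, (off 1 2 (by decide)).1,
    (off 0 1 (by decide)).2, (off 0 2 (by decide)).2, (off 1 2 (by decide)).2,
    (off 1 0 (by decide)).1, (off 2 0 (by decide)).1, (off 2 1 (by decide)).1,
    (off 1 0 (by decide)).2, (off 2 0 (by decide)).2, (off 2 1 (by decide)).2, on] at e1 e3 e5
  simp only [sdv, Matrix.cons_val_zero, Matrix.cons_val_one, Matrix.cons_val, on, h31]
  refine ⟨?_, ?_, ?_⟩
  · linear_combination (-2) * e1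
  · linear_combination (-2) * e3
  · linear_combination (-2) * e5

/-- anti-self-dual rotations do not act on the self-dual block -/
theorem kr_rot_zero {P : Fin 3 → Fin 3 → ℝ} (hP : ∀ i j, P i j = P j i)
    (ht : P 0 0 + P 1 1 + P 2 2 = 0)
    {a : Fin 4 → Fin 4 → ℝ} (ha : ∀ i j, a i j = - a j i) (h0 : ∀ i, sdv a i = 0) (i j k l : Fin 4) :
    a67_rot a (einArr P P) i j k l = 0 := by
  have h00 : a 0 0 = 0 := by linarith [ha 0 0]
  have h11 : a 1 1 = 0 := by linarith [ha 1 1]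
  have h22 : a 2 2 = 0 := by linarith [ha 2 2]
  have h33 : a 3 3 = 0 := by linarith [ha 3 3]
  have h10 := ha 1 0
  have h20 := ha 2 0
  have h30 := ha 3 0
  have s0 := h0 0
  have s1 := h0 1
  have s2 := h0 2
  simp only [sdv, Matrix.cons_val_zero, Matrix.cons_val_one, Matrix.cons_val] at s0 s1 s2
  have h23 : a 2 3 = - a 0 1 := by linarith
  have h32 : a 3 2 = a 0 1 := by rw [ha 3 2, h23]; ring
  have h31 : a 3 1 = - a 0 2 := by linarith
  have h13 : a 1 3 = a 0 2 := by rw [ha 1 3, h31]; ring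
  have h12 : a 1 2 = - a 0 3 := by linarith
  have h21 : a 2 1 = a 0 3 := by rw [ha 2 1, h12]; ring
  have p22 : P 2 2 = - P 0 0 - P 1 1 := by linarith
  have key : a67_rot a (einArr P P) = fun _ _ _ _ => 0 := by
    refine ext_lt ?_ ?_ (fun _ _ _ _ => by simp) (fun _ _ _ _ => by simp) ?_
    · intro i j k l
      have e := einArr_anti12 P P
      simp only [a67_rot, ← Finset.sum_neg_distrib]
      refine Finset.sum_congr rfl fun n _ => ?_
      rw [e n j k l, e i n k l, e i j n l, e i j k n]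
      ring
    · intro i j k l
      have e := einArr_anti34 P P
      simp only [a67_rot, ← Finset.sum_neg_distrib]
      refine Finset.sum_congr rfl fun n _ => ?_
      rw [e n j k l, e i n k l, e i j n l, e i j k n]
      ring
    · intro i j k l hij hkl
      have f : ∀ i j : Fin 4, i < j → (i = 0 ∧ j = 1) ∨ (i = 0 ∧ j = 2) ∨ (i = 0 ∧ j = 3) ∨
        (i = 1 ∧ j = 2) ∨ (i = 1 ∧ j = 3) ∨ (i = 2 ∧ j = 3) := by decide
      rcases f i j hij with ⟨rfl, rfl⟩ | ⟨rfl, rfl⟩ | ⟨rfl, rfl⟩ | ⟨rfl, rfl⟩ | ⟨rfl, rfl⟩ | ⟨rfl, rfl⟩ <;>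
      rcases f k l hkl with
        ⟨rfl, rfl⟩ | ⟨rfl, rfl⟩ | ⟨rfl, rfl⟩ | ⟨rfl, rfl⟩ | ⟨rfl, rfl⟩ | ⟨rfl, rfl⟩ <;>
      (simp only [a67_rot, Fin.sum_univ_four, einArr, sk, Matrix.cons_val_zero, Matrix.cons_val_one,
        Matrix.cons_val, Pi.neg_apply, Pi.zero_apply, h00, h11, h22, h33, h10, h20, h30, h21, h31,
        h32, h12, h13, h23, p22]; ring)
  rw [key]

/-- an anti-self-dual matrix is zero or invertible -/
theorem asd_inj {a : Fin 4 → Fin 4 → ℝ} (ha : ∀ i j, a i j = - a j i) (h0 : ∀ i, sdv a i = 0)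
    (hne : ∃ i j, a i j ≠ 0) {v : Fin 4 → ℝ} (hv : ∀ m, ∑ n, a m n * v n = 0) (n : Fin 4) :
    v n = 0 := by
  have h00 : a 0 0 = 0 := by linarith [ha 0 0]
  have h11 : a 1 1 = 0 := by linarith [ha 1 1]
  have h22 : a 2 2 = 0 := by linarith [ha 2 2]
  have h33 : a 3 3 = 0 := by linarith [ha 3 3]
  have h10 := ha 1 0
  have h20 := ha 2 0
  have h30 := ha 3 0
  have s0 := h0 0
  have s1 := h0 1
  have s2 := h0 2
  simp only [sdv, Matrix.cons_val_zero, Matrix.cons_val_one, Matrix.cons_val] at s0 s1 s2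
  have h23 : a 2 3 = - a 0 1 := by linarith
  have h32 : a 3 2 = a 0 1 := by rw [ha 3 2, h23]; ring
  have h31 : a 3 1 = - a 0 2 := by linarith
  have h13 : a 1 3 = a 0 2 := by rw [ha 1 3, h31]; ring
  have h12 : a 1 2 = - a 0 3 := by linarith
  have h21 : a 2 1 = a 0 3 := by rw [ha 2 1, h12]; ring
  have hN : 0 < a 0 1 ^ 2 + a 0 2 ^ 2 + a 0 3 ^ 2 := by
    by_contra hc
    push Not at hc
    have x : a 0 1 = 0 := by nlinarith [sq_nonneg (a 0 1), sq_nonneg (a 0 2), sq_nonneg (a 0 3)]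
    have y : a 0 2 = 0 := by nlinarith [sq_nonneg (a 0 1), sq_nonneg (a 0 2), sq_nonneg (a 0 3)]
    have z : a 0 3 = 0 := by nlinarith [sq_nonneg (a 0 1), sq_nonneg (a 0 2), sq_nonneg (a 0 3)]
    obtain ⟨i, j, hij⟩ := hne
    apply hij
    fin_cases i <;> fin_cases j <;>
      simp only [Fin.zero_eta, Fin.mk_one, Fin.reduceFinMk, h00, h11, h22, h33, h10, h20, h30, h21,
        h31, h32, h12, h13, h23, x, y, z, neg_zero]
  have v0 := hv 0
  have v1 := hv 1
  have v2 := hv 2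
  have v3 := hv 3
  simp only [Fin.sum_univ_four, h00, h11, h22, h33, h10, h20, h30, h21, h31, h32, h12, h13, h23]
    at v0 v1 v2 v3
  have fin : ∀ x : ℝ, (a 0 1 ^ 2 + a 0 2 ^ 2 + a 0 3 ^ 2) * x = 0 → x = 0 := fun x hx => by
    rcases mul_eq_zero.1 hx with h | h
    · exact absurd h hN.ne'
    · exact h
  have w0 : v 0 = 0 := fin _ (by linear_combination (-a 0 1) * v1 - a 0 2 * v2 - a 0 3 * v3)
  have w1 : v 1 = 0 := fin _ (by linear_combination (a 0 1) * v0 + a 0 3 * v2 - a 0 2 * v3)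
  have w2 : v 2 = 0 := fin _ (by linear_combination (a 0 2) * v0 - a 0 3 * v1 + a 0 1 * v3)
  have w3 : v 3 = 0 := fin _ (by linear_combination (a 0 3) * v0 + a 0 2 * v1 - a 0 1 * v2)
  fin_cases n
  · exact w0
  · exact w1
  · exact w2
  · exact w3

end Vale.Agent.P211.HK
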