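import Vale.Agent.P211.HK.KR3

set_option linter.all false

/-! P211 / HK, block KR (helper115): six Killing fields force `∇R = 0` wherever `W ≠ 0`. -/

namespace Vale.Agent.P211.HK

open Topology Filter Vale.Agent.P211 Vale.Agent.P211.S4

variable {M 𝒪 V : Type*} [TopologicalSpace M] [CommRing 𝒪] [Algebra ℝ 𝒪]
    [AddCommGroup V] [Module 𝒪 V] {G : Geo2 M 𝒪 V} {om : V → V → V → V → 𝒪} {ξ : V}

/-- `W₋ = 0` (for `Ric = 3 g`) -/
def AsdOne (G : Geo2 M 𝒪 V) (om : V → V → V → V → 𝒪) : Prop :=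
  ∀ p F, Pos G om p F → ∀ i j : Fin 3,
    Pm (G.rr p F) i j - Sm (G.rr p F) i j = if i = j then 1 else 0

theorem dd_asd (ho : Orient G om) (hW : AsdOne G om) {p : M} {F₀ : Fin 4 → V} (h : Pos G om p F₀)
    (m : Fin 4) (i j : Fin 3) : Pm (G.dd p F₀ m) i j = Sm (G.dd p F₀ m) i j := by
  obtain ⟨F, hS, he, hP⟩ := pos_sync ho h
  have e : ∀ i j k l, G.dd p F₀ m i j k l = G.dd p F m i j k l := fun i j k l =>
    (G.congr5All (G.isT5_d1 G.isT4_Rm) (he m) (he i) (he j) (he k) (he l)).symm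
  rw [Pm_c, Sm_c, e, e]
  have h1 := G.D_local p (G.Rm (F 0) (F (a67_c i)) (F (a67_c j)) (F 0) -
    G.Rm (F 0) (F (a67_c i)) (F (a67_a j)) (F (a67_b j)))
    (algebraMap ℝ 𝒪 (if i = j then 1 else 0)) (by
      filter_upwards [hP] with q hq
      have := hW q F hq i j
      rw [Pm_c, Sm_c] at this
      rw [map_sub, AlgHom.commutes]
      exact this) (F m)
  rw [G.D_sub, map_sub, Geom.D_comp hS, Geom.D_comp hS, G.D_const, map_zero] at h1
  exact sub_eq_zero.1 h1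

/-- components of `∇ξ` -/
def aa (G : Geo2 M 𝒪 V) (ξ : V) (p : M) (F : Fin 4 → V) (i c : Fin 4) : ℝ :=
  G.ev p (G.g (G.nab (F i) ξ) (F c))

theorem aa_skew (hk : Kill G.toLC ξ) (p : M) (F : Fin 4 → V) (i j : Fin 4) :
    aa G ξ p F i j = - aa G ξ p F j i := by
  have h := congrArg (G.ev p) (hk (F i) (F j))
  rw [map_add, map_zero, G.g_symm (F i)] at h
  unfold aa
  linarith

theorem kill_rot (hk : Kill G.toLC ξ) {p : M} (h0 : G.ev p (G.g ξ ξ) = 0) {F : Fin 4 → V}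
    (hF : G.ON p F) (i j k l : Fin 4) : a67_rot (aa G ξ p F) (G.rr p F) i j k l = 0 := by
  have h := congrArg (G.ev p) (kill1 hk (F i) (F j) (F k) (F l))
  have h5 := G.isT5_d1 G.isT4_Rm
  have e0 : G.ev p (G.d1 G.Rm ξ (F i) (F j) (F k) (F l)) = 0 :=
    G.ptwise p ⟨⟨fun U => G.d1 G.Rm U (F i) (F j) (F k) (F l), fun a b => h5.add0 a b _ _ _ _⟩,
      fun a b => h5.smul0 a b _ _ _ _⟩ ξ h0
  simp only [map_add, map_zero] at h
  rw [e0, zero_add, G.exp1 G.isT4_Rm hF, G.exp2 G.isT4_Rm hF, G.exp3 G.isT4_Rm hF,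
    G.exp4 G.isT4_Rm hF] at h
  unfold a67_rot
  simp only [← Finset.sum_add_distrib] at h
  exact h

theorem kill_rot2 (hk : Kill G.toLC ξ) {p : M} (h0 : G.ev p (G.g ξ ξ) = 0) {F : Fin 4 → V}
    (hF : G.ON p F) (m i j k l : Fin 4) :
    ∑ n, aa G ξ p F m n * G.dd p F n i j k l +
      a67_rot (aa G ξ p F) (G.dd p F m) i j k l = 0 := by
  have h := congrArg (G.ev p) (kill2 hk (F m) (F i) (F j) (F k) (F l))
  have h5 := G.isT5_d1 G.isT4_Rm
  have h6 := G.isT6_d2 G.isT4_Rm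
  have e0 : G.ev p (G.d2 G.Rm ξ (F m) (F i) (F j) (F k) (F l)) = 0 :=
    G.ptwise p ⟨⟨fun U => G.d2 G.Rm U (F m) (F i) (F j) (F k) (F l),
      fun a b => h6.add00 a b _ _ _ _ _⟩, fun a b => h6.smul00 a b _ _ _ _ _⟩ ξ h0
  simp only [map_add, map_zero] at h
  rw [e0, zero_add, G.exp5_0 h5 hF, G.exp5_1 h5 hF, G.exp5_2 h5 hF, G.exp5_3 h5 hF,
    G.exp5_4 h5 hF] at h
  unfold a67_rot
  simp only [Finset.sum_add_distrib]
  exact h

theorem rr_ein {lam : ℝ} (hE : G.Einstein lam) {p : M} {F : Fin 4 → V} (hF : G.ON p F) (j k : Fin 4) :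
    ∑ i, G.rr p F i j k i = if j = k then lam else 0 := by
  have h1 := hE p F hF (F j) (F k)
  rw [hF j k] at h1
  simp only [Geom.rr]
  rw [h1]
  split_ifs <;> simp

/-- the components of `∇R` in a positive frame -/
theorem dd_ein (hE : G.Einstein 3) (ho : Orient G om) {p : M} {F₀ : Fin 4 → V}
    (h : Pos G om p F₀) (m j k : Fin 4) : ∑ i, G.dd p F₀ m i j k i = 0 := by
  obtain ⟨F, hS, he, hP⟩ := pos_sync ho h
  have e : ∀ i j k l, G.dd p F₀ m i j k l = G.dd p F m i j k l := fun i j k l =>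
    (G.congr5All (G.isT5_d1 G.isT4_Rm) (he m) (he i) (he j) (he k) (he l)).symm
  simp only [e]
  exact G.trace_d1 hE hS.on _ _ _

/-- combinations of the six fields with constant coefficients -/
noncomputable def cb (𝒪 : Type*) {V : Type*} [CommRing 𝒪] [Algebra ℝ 𝒪] [AddCommGroup V]
    [Module 𝒪 V] (X : Fin 6 → V) (c : Fin 6 → ℝ) : V := ∑ i, algebraMap ℝ 𝒪 (c i) • X i

theorem nab_fsum (U : V) (f : Fin 6 → V) : G.nab U (∑ i, f i) = ∑ i, G.nab U (f i) := by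
  simp only [Fin.sum_univ_six, G.nab_add]

theorem g_fsum_left (f : Fin 6 → V) (Z : V) : G.g (∑ i, f i) Z = ∑ i, G.g (f i) Z := by
  simp only [Fin.sum_univ_six, G.g_add_left]

theorem nab_cb (X : Fin 6 → V) (c : Fin 6 → ℝ) (U : V) :
    G.nab U (cb 𝒪 X c) = ∑ i, algebraMap ℝ 𝒪 (c i) • G.nab U (X i) := by
  unfold cb
  rw [nab_fsum]
  refine Finset.sum_congr rfl fun i _ => ?_
  rw [G.nab_smul, G.D_const, zero_smul, add_zero]

theorem kill_cb {X : Fin 6 → V} (hk : ∀ i, Kill G.toLC (X i)) (c : Fin 6 → ℝ) :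
    Kill G.toLC (cb 𝒪 X c) := by
  intro A B
  rw [nab_cb, nab_cb, g_fsum_left, G.g_symm A, g_fsum_left, ← Finset.sum_add_distrib]
  refine Finset.sum_eq_zero fun i _ => ?_
  rw [G.g_smul_left, G.g_smul_left, G.g_symm _ A, ← mul_add, hk i A B, mul_zero]

theorem ev_g_cb (X : Fin 6 → V) (c : Fin 6 → ℝ) (p : M) (Z : V) :
    G.ev p (G.g (cb 𝒪 X c) Z) = ∑ i, c i * G.ev p (G.g (X i) Z) := by
  unfold cb
  rw [g_fsum_left, map_sum]
  refine Finset.sum_congr rfl fun i _ => ?_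
  rw [G.g_smul_left, map_mul, AlgHom.commutes]
  rfl

theorem aa_cb (X : Fin 6 → V) (c : Fin 6 → ℝ) (p : M) (F : Fin 4 → V) (a b : Fin 4) :
    aa G (cb 𝒪 X c) p F a b = ∑ i, c i * aa G (X i) p F a b := by
  unfold aa
  rw [nab_cb, g_fsum_left, map_sum]
  refine Finset.sum_congr rfl fun i _ => ?_
  rw [G.g_smul_left, map_mul, AlgHom.commutes]
  rfl

theorem sdv_cb (X : Fin 6 → V) (c : Fin 6 → ℝ) (p : M) (F : Fin 4 → V) (k : Fin 3) :
    sdv (aa G (cb 𝒪 X c) p F) k = ∑ i, c i * sdv (aa G (X i) p F) k := by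
  fin_cases k <;>
    simp only [sdv, Matrix.cons_val_zero, Matrix.cons_val_one, Matrix.cons_val, aa_cb,
      Fin.zero_eta, Fin.mk_one, Fin.reduceFinMk, mul_add, Finset.sum_add_distrib]

/-- five linear conditions on six coefficients -/
theorem exists_c (w : Fin 6 → Fin 5 → ℝ) : ∃ c : Fin 6 → ℝ, c ≠ 0 ∧ ∀ a, ∑ i, c i * w i a = 0 := by
  have h : LinearMap.ker (Fintype.linearCombination ℝ w) ≠ ⊥ :=
    LinearMap.ker_ne_bot_of_finrank_lt (by simp)
  obtain ⟨c, hc, hne⟩ := (Submodule.ne_bot_iff _).1 h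
  refine ⟨c, hne, fun a => ?_⟩
  have h1 : Fintype.linearCombination ℝ w c = 0 := hc
  rw [Fintype.linearCombination_apply] at h1
  have h2 := congrFun h1 a
  simpa [Finset.sum_apply] using h2

/-- where `W ≠ 0`, the covariant derivative of the curvature vanishes -/
theorem nabla_zero (hE : G.Einstein 3) (ho : Orient G om) (hW : AsdOne G om)
    (hB : ∃ C : ℝ, ∀ p (F : Fin 4 → V), G.ON p F → ∀ i j k l, |G.rr p F i j k l| ≤ C)
    {X : Fin 6 → V} (hk : ∀ i, Kill G.toLC (X i))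
    (hli : ∀ c : Fin 6 → ℝ, (∀ q, G.ev q (G.g (cb 𝒪 X c) (cb 𝒪 X c)) = 0) → c = 0)
    {p : M} {F : Fin 4 → V} (hF : Pos G om p F) (hd : ∀ i j : Fin 3, i ≠ j → Ab (G.rr p F) i j = 0)
    (hne : Ab (G.rr p F) 0 0 ≠ Ab (G.rr p F) 1 1 ∨ Ab (G.rr p F) 0 0 ≠ Ab (G.rr p F) 2 2)
    (n i j k l : Fin 4) : G.dd p F n i j k l = 0 := by
  obtain ⟨r1, r2, r3, -, -⟩ := eq_einArr (Geom.algCurv_rr p F) (rr_ein hE hF.1)
  -- the index whose coefficient has to be killed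
  obtain ⟨k₀, hk₀⟩ : ∃ k₀ : Fin 3, ∀ a : Fin 4 → Fin 4 → ℝ, sdv a k₀ = 0 →
      (Ab (G.rr p F) 0 0 - Ab (G.rr p F) 1 1) * sdv a 2 = 0 →
      (Ab (G.rr p F) 1 1 - Ab (G.rr p F) 2 2) * sdv a 0 = 0 →
      (Ab (G.rr p F) 2 2 - Ab (G.rr p F) 0 0) * sdv a 1 = 0 → ∀ k, sdv a k = 0 := by
    have cn : ∀ x y s : ℝ, x ≠ y → (x - y) * s = 0 → s = 0 := fun x y s hxy h => by
      rcases mul_eq_zero.1 h with h | h
      · exact absurd (sub_eq_zero.1 h) hxy
      · exact h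
    have fin3 : ∀ a : Fin 4 → Fin 4 → ℝ, sdv a 0 = 0 → sdv a 1 = 0 → sdv a 2 = 0 →
        ∀ k, sdv a k = 0 := by
      intro a h0 h1 h2 k
      fin_cases k
      · exact h0
      · exact h1
      · exact h2
    by_cases h01 : Ab (G.rr p F) 0 0 = Ab (G.rr p F) 1 1
    · have h02 : Ab (G.rr p F) 0 0 ≠ Ab (G.rr p F) 2 2 := by
        rcases hne with h | h
        · exact absurd h01 h
        · exact h
      have h12 : Ab (G.rr p F) 1 1 ≠ Ab (G.rr p F) 2 2 := by rw [← h01]; exact h02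
      exact ⟨2, fun a s2 _ e0 e1 => fin3 a (cn _ _ _ h12 e0) (cn _ _ _ h02.symm e1) s2⟩
    · by_cases h02 : Ab (G.rr p F) 0 0 = Ab (G.rr p F) 2 2
      · have h12 : Ab (G.rr p F) 1 1 ≠ Ab (G.rr p F) 2 2 := by
          rw [← h02]; exact fun h => h01 h.symm
        exact ⟨1, fun a s1 e2 e0 _ => fin3 a (cn _ _ _ h12 e0) s1 (cn _ _ _ h01 e2)⟩
      · exact ⟨0, fun a s0 e2 _ e1 =>
          fin3 a s0 (cn _ _ _ (fun h => h02 h.symm) e1) (cn _ _ _ h01 e2)⟩
  obtain ⟨c, hc, hw⟩ := exists_c fun i => Fin.snoc (fun a : Fin 4 => G.ev p (G.g (X i) (F a)))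
    (sdv (aa G (X i) p F) k₀)
  set ξ := cb 𝒪 X c with hξ
  have hkξ : Kill G.toLC ξ := kill_cb hk c
  have hz : G.ev p (G.g ξ ξ) = 0 := by
    rw [G.parseval p F hF.1]
    refine Finset.sum_eq_zero fun a _ => ?_
    have := hw a.castSucc
    simp only [Fin.snoc_castSucc] at this
    rw [hξ, ev_g_cb, this]
    ring
  have hs : sdv (aa G ξ p F) k₀ = 0 := by
    have := hw (Fin.last 4)
    simp only [Fin.snoc_last] at this
    rw [hξ, sdv_cb, this]
  have hsk := aa_skew hkξ p F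
  have hPS : ∀ i j, Pm (G.rr p F) i j - Sm (G.rr p F) i j = if i = j then 1 else 0 := hW p F hF
  have hrot : ∀ i j k l, a67_rot (aa G ξ p F) (einArr (Pm (G.rr p F)) (Sm (G.rr p F))) i j k l = 0 := by
    rw [← r1]
    exact kill_rot hkξ hz hF.1
  obtain ⟨t2, t0, t1⟩ := stab_alg r2 r3 hPS hd hsk hrot
  have hsd : ∀ k, sdv (aa G ξ p F) k = 0 := hk₀ _ hs t2 t0 t1
  -- the derivative is not zero
  have hex : ∃ i j, aa G ξ p F i j ≠ 0 := by
    by_contra hcon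
    push Not at hcon
    apply hc
    refine hli c fun q => kill_unique hB hkξ hz (fun Y => ?_) q
    have z : ∀ Z, G.ev p (G.g (G.nab Y ξ) Z) = 0 ↔ True := by
      intro Z
      refine ⟨fun _ => trivial, fun _ => ?_⟩
      rw [nab_exp hF.1]
      refine Finset.sum_eq_zero fun i _ => ?_
      have : G.ev p (G.g (G.nab (F i) ξ) (G.nab (F i) ξ)) = 0 := by
        rw [G.parseval p F hF.1]
        refine Finset.sum_eq_zero fun j _ => ?_
        have := hcon i j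
        unfold aa at this
        rw [this]; ring
      have h2 := G.ptwise p ⟨⟨fun A => G.g A Z, fun a b => G.g_add_left a b Z⟩,
        fun a b => G.g_smul_left a b Z⟩ _ this
      have h3 : G.ev p (G.g (G.nab (F i) ξ) Z) = 0 := h2
      rw [h3, mul_zero]
    exact (z _).2 trivial
  refine asd_inj hsk hsd hex (v := fun n => G.dd p F n i j k l) (fun m => ?_) n
  have h1 := kill_rot2 hkξ hz hF.1 m i j k l
  obtain ⟨d1, d2, -, d4, -⟩ := eq_einArr (c := 0) (Geom.algCurv_dd p F m) (fun j k => by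
    rw [dd_ein hE ho hF]; simp)
  have d5 : Sm (G.dd p F m) = Pm (G.dd p F m) := by
    funext i j
    exact (dd_asd ho hW hF m i j).symm
  rw [d5] at d1
  have h2 : a67_rot (aa G ξ p F) (G.dd p F m) i j k l = 0 := by
    rw [d1]
    exact kr_rot_zero d2 d4 hsk hsd i j k l
  rw [h2, add_zero] at h1
  exact h1

end Vale.Agent.P211.HK
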