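import Vale.Agent.P211.HK.KR4

set_option linter.all false

/-! P211 / HK, block KR (helper115): the rigidity theorem in the formal calculus. -/

namespace Vale.Agent.P211.HK

open Topology Filter Vale.Agent.P211 Vale.Agent.P211.S4

variable {M 𝒪 V : Type*} [TopologicalSpace M] [CommRing 𝒪] [Algebra ℝ 𝒪]
    [AddCommGroup V] [Module 𝒪 V] {G : Geo2 M 𝒪 V} {om : V → V → V → V → 𝒪}

theorem rr_eqv {p : M} {F F' : Fin 4 → V} (h : ∀ i, G.Eqv p (F i) (F' i)) : G.rr p F = G.rr p F' := by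
  funext i j k l
  exact G.congrAll G.isT4_Rm (h i) (h j) (h k) (h l)

theorem dd_eqv {p : M} {F F' : Fin 4 → V} (h : ∀ i, G.Eqv p (F i) (F' i)) : G.dd p F = G.dd p F' := by
  funext m i j k l
  exact G.congr5All (G.isT5_d1 G.isT4_Rm) (h m) (h i) (h j) (h k) (h l)

/-- a function all of whose derivatives vanish is constant -/
theorem const_of_D {a : 𝒪} (h : ∀ p X, G.ev p (G.D X a) = 0) (p q : M) : G.ev p a = G.ev q a := by
  set ρ : 𝒪 := (a - algebraMap ℝ 𝒪 (G.ev p a)) * (a - algebraMap ℝ 𝒪 (G.ev p a)) with hρ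
  have hev : ∀ x, G.ev x ρ = (G.ev x a - G.ev p a) ^ 2 := by
    intro x
    rw [hρ, map_mul, map_sub]
    simp only [AlgHom.commutes, Algebra.algebraMap_self, RingHom.id_apply]
    ring
  have hD : ∀ x X, G.ev x (G.D X ρ) = 0 := by
    intro x X
    have : G.D X (a - algebraMap ℝ 𝒪 (G.ev p a)) = G.D X a := by
      rw [G.D_sub, G.D_const, sub_zero]
    rw [hρ, G.D_mul, this, map_add, map_mul, map_mul, h x X]
    ring
  have key := G.gronwall (fun x => (G.ev x a - G.ev p a) ^ 2) 0 (fun x => sq_nonneg _)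
    (fun x => ⟨ρ, 0, Filter.Eventually.of_forall fun y => by rw [hev, sub_self, abs_zero, map_zero],
      map_zero _, fun X => by rw [hD]; simp⟩) p q (by simp)
  have h1 : (G.ev q a - G.ev p a) ^ 2 = 0 := key
  have h2 := pow_eq_zero_iff (two_ne_zero) |>.1 h1
  linarith

section
variable (hE : G.Einstein 3) (ho : Orient G om) (hW : AsdOne G om)
    (hB : ∃ C : ℝ, ∀ p (F : Fin 4 → V), G.ON p F → ∀ i j k l, |G.rr p F i j k l| ≤ C)
    {X : Fin 6 → V} (hk : ∀ i, Kill G.toLC (X i))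
    (hli : ∀ c : Fin 6 → ℝ, (∀ q, G.ev q (G.g (cb 𝒪 X c) (cb 𝒪 X c)) = 0) → c = 0)

theorem Ab_sum (hE : G.Einstein 3) {p : M} {F : Fin 4 → V} (hF : G.ON p F) :
    Ab (G.rr p F) 0 0 + Ab (G.rr p F) 1 1 + Ab (G.rr p F) 2 2 = 3 := by
  obtain ⟨-, -, -, h1, h2⟩ := eq_einArr (Geom.algCurv_rr p F) (rr_ein hE hF)
  unfold S4.Ab
  linarith

theorem nA_diag {r : Arr4} (hd : ∀ i j : Fin 3, i ≠ j → Ab r i j = 0) :
    nA r = Ab r 0 0 ^ 2 + Ab r 1 1 ^ 2 + Ab r 2 2 ^ 2 := by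
  unfold nA
  simp only [Fin.sum_univ_three, hd 0 1 (by decide), hd 0 2 (by decide), hd 1 2 (by decide),
    hd 1 0 (by decide), hd 2 0 (by decide), hd 2 1 (by decide)]
  ring

theorem ne_of_nA {x y z : ℝ} (hs : x + y + z = 3) (hn : x ^ 2 + y ^ 2 + z ^ 2 ≠ 3) :
    x ≠ y ∨ x ≠ z := by
  by_contra hc
  push Not at hc
  apply hn
  have h1 : x = 1 := by linarith [hc.1, hc.2]
  rw [← hc.1, ← hc.2, h1]
  norm_num

include hE ho hW hB hk hli in
theorem D_nA {a : 𝒪} (ha : ∀ p F, Pos G om p F → G.ev p a = nA (G.rr p F)) (p : M) (U : V) :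
    G.ev p (G.D U a) = 0 := by
  obtain ⟨F₀, hF₀, hd₀⟩ := exists_diag hE ho p
  obtain ⟨F, hS, he, hP⟩ := pos_sync ho hF₀
  have hr := rr_eqv he
  have hF : Pos G om p F := hP.self_of_nhds
  have hd : ∀ i j : Fin 3, i ≠ j → Ab (G.rr p F) i j = 0 := by rw [hr]; exact hd₀
  have key : ∀ m, G.ev p (G.D (F m) a) = 0 := by
    intro m
    rw [da_sync ha hS hP m]
    by_cases hn : Ab (G.rr p F) 0 0 ^ 2 + Ab (G.rr p F) 1 1 ^ 2 + Ab (G.rr p F) 2 2 ^ 2 = 3
    · have hs := Ab_sum hE hF.1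
      have e0 : Ab (G.rr p F) 0 0 = 1 := by
        nlinarith [sq_nonneg (Ab (G.rr p F) 0 0 - 1), sq_nonneg (Ab (G.rr p F) 1 1 - 1),
          sq_nonneg (Ab (G.rr p F) 2 2 - 1)]
      have e1 : Ab (G.rr p F) 1 1 = 1 := by
        nlinarith [sq_nonneg (Ab (G.rr p F) 0 0 - 1), sq_nonneg (Ab (G.rr p F) 1 1 - 1),
          sq_nonneg (Ab (G.rr p F) 2 2 - 1)]
      have e2 : Ab (G.rr p F) 2 2 = 1 := by linarith
      have ht := a14_tr (Geom.algCurv_dd p F m) (dd_ein hE ho hF m)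
      simp only [Fin.sum_univ_three, hd 0 1 (by decide), hd 0 2 (by decide), hd 1 2 (by decide),
        hd 1 0 (by decide), hd 2 0 (by decide), hd 2 1 (by decide), e0, e1, e2]
      linarith
    · have hz := nabla_zero hE ho hW hB hk hli hF hd (ne_of_nA (Ab_sum hE hF.1) hn)
      have h0 : ∀ i j, Ab (G.dd p F m) i j = 0 := by
        intro i j
        rw [a67_Ab, hz, hz, add_zero]
      simp only [h0, mul_zero, Finset.sum_const_zero]
  have hx := G.expand hF.1 ⟨⟨fun Z => G.D Z a, fun x y => G.D_add_left x y a⟩,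
    fun x y => G.D_smul_left x y a⟩ U
  have hx' : G.ev p (G.D U a) = ∑ i, G.ev p (G.g U (F i)) * G.ev p (G.D (F i) a) := hx
  rw [hx']
  exact Finset.sum_eq_zero fun i _ => by rw [key, mul_zero]

theorem d1_of_dd {p : M} {F : Fin 4 → V} (hF : G.ON p F) (h : ∀ m i j k l, G.dd p F m i j k l = 0)
    (U X Y Z W : V) : G.ev p (G.d1 G.Rm U X Y Z W) = 0 := by
  have h5 := G.isT5_d1 G.isT4_Rm
  rw [G.exp5_0 h5 hF]
  refine Finset.sum_eq_zero fun m _ => ?_
  rw [G.exp5_1 h5 hF]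
  refine mul_eq_zero_of_right _ (Finset.sum_eq_zero fun i _ => ?_)
  rw [G.exp5_2 h5 hF]
  refine mul_eq_zero_of_right _ (Finset.sum_eq_zero fun j _ => ?_)
  rw [G.exp5_3 h5 hF]
  refine mul_eq_zero_of_right _ (Finset.sum_eq_zero fun k _ => ?_)
  rw [G.exp5_4 h5 hF]
  refine mul_eq_zero_of_right _ (Finset.sum_eq_zero fun l _ => ?_)
  exact mul_eq_zero_of_right _ (h m i j k l)

/-- the blocks of the curvature of the complex projective plane -/
noncomputable def cpP : Fin 3 → Fin 3 → ℝ := ![![2, 0, 0], ![0, 1 / 2, 0], ![0, 0, 1 / 2]]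
/-- the blocks of the curvature of the complex projective plane -/
noncomputable def cpS : Fin 3 → Fin 3 → ℝ := ![![1, 0, 0], ![0, -1 / 2, 0], ![0, 0, -1 / 2]]

/-- cyclic rotation of the last three vectors of a frame -/
def cyc (F : Fin 4 → V) : Fin 4 → V := ![F 0, F 2, F 3, F 1]

theorem pos_cyc (ho : Orient G om) {p : M} {F : Fin 4 → V} (h : Pos G om p F) :
    Pos G om p (cyc F) := by
  refine ⟨fun i j => ?_, ?_⟩
  · fin_cases i <;> fin_cases j <;> simp [cyc, h.1 _ _]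
  · simp only [cyc, Matrix.cons_val_zero, Matrix.cons_val_one, Matrix.cons_val]
    rw [ho.a34, ho.a23, neg_neg]
    exact h.2

theorem Ab_cyc (p : M) (F : Fin 4 → V) :
    Ab (G.rr p (cyc F)) 0 0 = Ab (G.rr p F) 1 1 ∧ Ab (G.rr p (cyc F)) 1 1 = Ab (G.rr p F) 2 2 ∧
    Ab (G.rr p (cyc F)) 2 2 = Ab (G.rr p F) 0 0 := by
  refine ⟨?_, ?_, ?_⟩ <;>
    simp only [S4.Ab, Pm, Sm, Geom.rr, cyc, Matrix.cons_val_zero, Matrix.cons_val_one,
      Matrix.cons_val]

theorem Ab_cyc_off (p : M) (F : Fin 4 → V) (h : ∀ i j : Fin 3, i ≠ j → Ab (G.rr p F) i j = 0) :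
    ∀ i j : Fin 3, i ≠ j → Ab (G.rr p (cyc F)) i j = 0 := by
  have h01 := h 0 1 (by decide)
  have h02 := h 0 2 (by decide)
  have h12 := h 1 2 (by decide)
  have h10 := h 1 0 (by decide)
  have h20 := h 2 0 (by decide)
  have h21 := h 2 1 (by decide)
  simp only [S4.Ab, Pm, Sm, Geom.rr, Matrix.cons_val_zero, Matrix.cons_val_one,
      Matrix.cons_val] at h01 h02 h12 h10 h20 h21
  intro i j hij
  fin_cases i <;> fin_cases j <;>
    simp only [S4.Ab, Pm, Sm, Geom.rr, cyc, Matrix.cons_val_zero, Matrix.cons_val_one,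
      Matrix.cons_val, Fin.zero_eta, Fin.mk_one, Fin.reduceFinMk] at hij ⊢ <;>
    first
      | exact absurd rfl hij
      | assumption

include hE hW in
theorem rr_of_Ab {p : M} {F : Fin 4 → V} (hF : Pos G om p F)
    (hd : ∀ i j : Fin 3, i ≠ j → Ab (G.rr p F) i j = 0) (h0 : Ab (G.rr p F) 0 0 = 3)
    (h1 : Ab (G.rr p F) 1 1 = 0) (h2 : Ab (G.rr p F) 2 2 = 0) :
    G.rr p F = einArr cpP cpS := by
  obtain ⟨e, -, -, -, -⟩ := eq_einArr (Geom.algCurv_rr p F) (rr_ein hE hF.1)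
  have hPS := hW p F hF
  have hP : Pm (G.rr p F) = cpP := by
    funext i j
    have a1 := hPS i j
    fin_cases i <;> fin_cases j <;>
      simp only [cpP, Matrix.cons_val_zero, Matrix.cons_val_one, Matrix.cons_val, Fin.zero_eta,
        Fin.mk_one, Fin.reduceFinMk, Fin.isValue, if_true] at a1 ⊢
    · unfold S4.Ab at h0; linarith
    · have := hd 0 1 (by decide); unfold S4.Ab at this; simp at a1; linarith
    · have := hd 0 2 (by decide); unfold S4.Ab at this; simp at a1; linarith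
    · have := hd 1 0 (by decide); unfold S4.Ab at this; simp at a1; linarith
    · unfold S4.Ab at h1; linarith
    · have := hd 1 2 (by decide); unfold S4.Ab at this; simp at a1; linarith
    · have := hd 2 0 (by decide); unfold S4.Ab at this; simp at a1; linarith
    · have := hd 2 1 (by decide); unfold S4.Ab at this; simp at a1; linarith
    · unfold S4.Ab at h2; linarith
  have hS : Sm (G.rr p F) = cpS := by
    funext i j
    have a1 := hPS i j
    rw [hP] at a1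
    fin_cases i <;> fin_cases j <;>
      simp only [cpP, cpS, Matrix.cons_val_zero, Matrix.cons_val_one, Matrix.cons_val,
        Fin.zero_eta, Fin.mk_one, Fin.reduceFinMk, Fin.isValue, if_true] at a1 ⊢ <;>
      first
        | (simp at a1; linarith)
        | linarith
  rw [e, hP, hS]

theorem ein_round : einArr (fun i j => if i = j then 1 else 0) (fun _ _ => 0) =
    fun i j k l => (if j = k then (1 : ℝ) else 0) * (if i = l then 1 else 0) -
        (if i = k then 1 else 0) * (if j = l then 1 else 0) := by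
  refine ext_lt (einArr_anti12 _ _) (einArr_anti34 _ _) (fun _ _ _ _ => by ring)
    (fun _ _ _ _ => by ring) ?_
  intro i j k l hij hkl
  have f : ∀ i j : Fin 4, i < j → (i = 0 ∧ j = 1) ∨ (i = 0 ∧ j = 2) ∨ (i = 0 ∧ j = 3) ∨
    (i = 1 ∧ j = 2) ∨ (i = 1 ∧ j = 3) ∨ (i = 2 ∧ j = 3) := by decide
  rcases f i j hij with ⟨rfl, rfl⟩ | ⟨rfl, rfl⟩ | ⟨rfl, rfl⟩ | ⟨rfl, rfl⟩ | ⟨rfl, rfl⟩ | ⟨rfl, rfl⟩ <;>
  rcases f k l hkl with
    ⟨rfl, rfl⟩ | ⟨rfl, rfl⟩ | ⟨rfl, rfl⟩ | ⟨rfl, rfl⟩ | ⟨rfl, rfl⟩ | ⟨rfl, rfl⟩ <;>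
  simp [einArr, sk]

theorem eig_cases {x y z : ℝ} (hs : x + y + z = 3) (h1 : (y - z) * x = 0) (h2 : (z - x) * y = 0)
    (h3 : (x - y) * z = 0) (hn : x ^ 2 + y ^ 2 + z ^ 2 ≠ 3) :
    (x = 3 ∧ y = 0 ∧ z = 0) ∨ (x = 0 ∧ y = 3 ∧ z = 0) ∨ (x = 0 ∧ y = 0 ∧ z = 3) := by
  rcases mul_eq_zero.1 h1 with a | a
  · have hyz : y = z := by linarith
    rw [← hyz] at h2 h3 hn hs
    rcases mul_eq_zero.1 h2 with b | b
    · exfalso
      have : x = y := by linarith
      apply hn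
      have hx : y = 1 := by linarith
      rw [this, hx]; norm_num
    · left
      refine ⟨by linarith, b, by linarith⟩
  · rw [a] at h2 h3 hs
    rcases mul_eq_zero.1 h2 with b | b
    · right; left
      exact ⟨a, by linarith, by linarith⟩
    · right; right
      exact ⟨a, b, by linarith⟩

include hE ho hW hB hk hli in
/-- **Rigidity**: constant curvature or the curvature of the complex projective plane. -/
theorem kr_abs [Nonempty M] : (∀ p (X Y Z W : V), G.ev p (G.Rm X Y Z W) = G.ev p (G.Gt X Y Z W)) ∨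
    ((∀ U X Y Z W : V, G.d1 G.Rm U X Y Z W = 0) ∧
      ∀ p, ∃ F, Pos G om p F ∧ G.rr p F = einArr cpP cpS) := by
  obtain ⟨a, ha⟩ := exists_a hE ho
  have hD := D_nA hE ho hW hB hk hli ha
  obtain ⟨p₀⟩ := ‹Nonempty M›
  have hc : ∀ p, G.ev p a = G.ev p₀ a := fun p => const_of_D hD p p₀
  by_cases h3 : G.ev p₀ a = 3
  · left
    intro p X Y Z W
    obtain ⟨F, hF, hd⟩ := exists_diag hE ho p
    have hn : nA (G.rr p F) = 3 := by rw [← ha p F hF, hc, h3]
    rw [nA_diag hd] at hn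
    have hs := Ab_sum hE hF.1
    have e0 : Ab (G.rr p F) 0 0 = 1 := by
      nlinarith [sq_nonneg (Ab (G.rr p F) 0 0 - 1), sq_nonneg (Ab (G.rr p F) 1 1 - 1),
        sq_nonneg (Ab (G.rr p F) 2 2 - 1)]
    have e1 : Ab (G.rr p F) 1 1 = 1 := by
      nlinarith [sq_nonneg (Ab (G.rr p F) 0 0 - 1), sq_nonneg (Ab (G.rr p F) 1 1 - 1),
        sq_nonneg (Ab (G.rr p F) 2 2 - 1)]
    have e2 : Ab (G.rr p F) 2 2 = 1 := by linarith
    obtain ⟨e, -, -, -, -⟩ := eq_einArr (Geom.algCurv_rr p F) (rr_ein hE hF.1)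
    have hPS := hW p F hF
    have hP : ∀ i j, Pm (G.rr p F) i j = (if i = j then 1 else 0) ∧ Sm (G.rr p F) i j = 0 := by
      intro i j
      have a1 := hPS i j
      have a2 : Ab (G.rr p F) i j = if i = j then 1 else 0 := by
        split_ifs with hij
        · subst hij
          fin_cases i
          · exact e0
          · exact e1
          · exact e2
        · exact hd i j hij
      unfold S4.Ab at a2
      constructor <;> linarith
    have er : G.rr p F = fun i j k l => (if j = k then (1 : ℝ) else 0) * (if i = l then 1 else 0) -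
        (if i = k then 1 else 0) * (if j = l then 1 else 0) := by
      rw [e]
      have p1 : Pm (G.rr p F) = fun i j => if i = j then 1 else 0 := by
        funext i j; exact (hP i j).1
      have p2 : Sm (G.rr p F) = fun _ _ => 0 := by
        funext i j; exact (hP i j).2
      rw [p1, p2]
      exact ein_round
    rw [Geom.Rm_rf hF.1, er]
    have hg : G.ev p (G.Gt X Y Z W) = (∑ b, G.cf p F Y b * G.cf p F Z b) *
        (∑ b, G.cf p F X b * G.cf p F W b) - (∑ b, G.cf p F X b * G.cf p F Z b) *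
        (∑ b, G.cf p F Y b * G.cf p F W b) := by
      unfold LC.Gt
      rw [map_sub, map_mul, map_mul, Geom.g_cf hF.1, Geom.g_cf hF.1, Geom.g_cf hF.1,
        Geom.g_cf hF.1]
    rw [hg]
    simp only [rf, Fin.sum_univ_four]
    simp
    ring
  · right
    have hne : ∀ p F, Pos G om p F → (∀ i j : Fin 3, i ≠ j → Ab (G.rr p F) i j = 0) →
        Ab (G.rr p F) 0 0 ^ 2 + Ab (G.rr p F) 1 1 ^ 2 + Ab (G.rr p F) 2 2 ^ 2 ≠ 3 := by
      intro p F hF hd hn
      rw [← nA_diag hd, ← ha p F hF, hc] at hn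
      exact h3 hn
    have h1 : ∀ U X Y Z W : V, G.d1 G.Rm U X Y Z W = 0 := by
      intro U X' Y Z W
      apply G.ev_ext
      intro p
      rw [map_zero]
      obtain ⟨F, hF, hd⟩ := exists_diag hE ho p
      exact d1_of_dd hF.1 (fun m i j k l => nabla_zero hE ho hW hB hk hli hF hd
        (ne_of_nA (Ab_sum hE hF.1) (hne p F hF hd)) m i j k l) _ _ _ _ _
    refine ⟨h1, fun p => ?_⟩
    obtain ⟨F₀, hF₀, hd₀⟩ := exists_diag hE ho p
    obtain ⟨F, hS, he, hP⟩ := pos_sync ho hF₀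
    have hr := rr_eqv he
    have hF : Pos G om p F := hP.self_of_nhds
    have hd : ∀ i j : Fin 3, i ≠ j → Ab (G.rr p F) i j = 0 := by rw [hr]; exact hd₀
    have hJ := Geom.einsteinJet hE hS
    have hss : ∀ n m i j k l, G.ss p F n m i j k l = 0 := by
      intro n m i j k l
      unfold Geom.ss LC.d2
      simp only [h1, G.D_zero, sub_zero, map_zero]
    have hcomm : ∀ n m i j k l, a67_rot (G.rr p F n m) (G.rr p F) i j k l = 0 := by
      intro n m i j k l
      have := hJ.hsc n m i j k l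
      rw [hss, hss, sub_zero] at this
      unfold ricciComm at this
      unfold a67_rot
      linarith
    obtain ⟨r1, r2, r3, -, -⟩ := eq_einArr (Geom.algCurv_rr p F) (rr_ein hE hF.1)
    have hPS := hW p F hF
    have hsk : ∀ n m i j, G.rr p F n m i j = - G.rr p F n m j i := (Geom.algCurv_rr p F).anti34
    have hst : ∀ n m, _ := fun n m => stab_alg r2 r3 hPS hd (hsk n m) (by
      rw [← r1]; exact hcomm n m)
    have s0 := (hst 0 1).2.1
    have s1 := (hst 0 2).2.2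
    have s2 := (hst 0 3).1
    have v0 : sdv (G.rr p F 0 1) 0 = - Ab (G.rr p F) 0 0 := by
      simp only [sdv, S4.Ab, Pm, Sm, Matrix.cons_val_zero, Matrix.cons_val_one, Matrix.cons_val]
      rw [hsk 0 1 0 1, hsk 0 1 2 3]; ring
    have v1 : sdv (G.rr p F 0 2) 1 = - Ab (G.rr p F) 1 1 := by
      simp only [sdv, S4.Ab, Pm, Sm, Matrix.cons_val_zero, Matrix.cons_val_one, Matrix.cons_val]
      rw [hsk 0 2 0 2, hsk 0 2 3 1]; ring
    have v2 : sdv (G.rr p F 0 3) 2 = - Ab (G.rr p F) 2 2 := by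
      simp only [sdv, S4.Ab, Pm, Sm, Matrix.cons_val_zero, Matrix.cons_val_one, Matrix.cons_val]
      rw [hsk 0 3 0 3, hsk 0 3 1 2]; ring
    rw [v0] at s0
    rw [v1] at s1
    rw [v2] at s2
    have hcases := eig_cases (Ab_sum hE hF.1)
      (show (Ab (G.rr p F) 1 1 - Ab (G.rr p F) 2 2) * Ab (G.rr p F) 0 0 = 0 by
        unfold S4.Ab at s0 ⊢; linarith)
      (show (Ab (G.rr p F) 2 2 - Ab (G.rr p F) 0 0) * Ab (G.rr p F) 1 1 = 0 by
        unfold S4.Ab at s1 ⊢; linarith)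
      (show (Ab (G.rr p F) 0 0 - Ab (G.rr p F) 1 1) * Ab (G.rr p F) 2 2 = 0 by
        unfold S4.Ab at s2 ⊢; linarith) (hne p F hF hd)
    rcases hcases with ⟨c0, c1, c2⟩ | ⟨c0, c1, c2⟩ | ⟨c0, c1, c2⟩
    · exact ⟨F, hF, rr_of_Ab hE hW hF hd c0 c1 c2⟩
    · obtain ⟨b0, b1, b2⟩ := Ab_cyc (G := G) p F
      exact ⟨cyc F, pos_cyc ho hF, rr_of_Ab hE hW (pos_cyc ho hF) (Ab_cyc_off p F hd)
        (b0.trans c1) (b1.trans c2) (b2.trans c0)⟩
    · obtain ⟨b0, b1, b2⟩ := Ab_cyc (G := G) p F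
      obtain ⟨b0', b1', b2'⟩ := Ab_cyc (G := G) p (cyc F)
      exact ⟨cyc (cyc F), pos_cyc ho (pos_cyc ho hF), rr_of_Ab hE hW (pos_cyc ho (pos_cyc ho hF))
        (Ab_cyc_off p _ (Ab_cyc_off p F hd))
        (b0'.trans (b1.trans c2)) (b1'.trans (b2.trans c0)) (b2'.trans (b0.trans c1))⟩

end

end Vale.Agent.P211.HK
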