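import Vale.Agent.P211.HK.ANDefs

/-! P211 / HK, block LK1: bounded measurable kernels as operators on `Lp W 2 μ`. helper679. -/

set_option linter.unusedSectionVars false
set_option maxSynthPendingDepth 3

namespace Vale.Agent.P211.HK

open Filter Topology MeasureTheory Set
open scoped RealInnerProductSpace ENNReal

noncomputable section

/-! ### Cauchy-Schwarz -/

theorem ker_cs {X : Type*} [MeasurableSpace X] {μ : Measure X} {f g : X → ℝ}
    (hf : MemLp f 2 μ) (hg : MemLp g 2 μ) :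
    (∫ x, f x * g x ∂μ) ^ 2 ≤ (∫ x, f x ^ 2 ∂μ) * ∫ x, g x ^ 2 ∂μ := by
  have h1 := real_inner_mul_inner_self_le (hf.toLp f) (hg.toLp g)
  have e : ∀ {u v : X → ℝ} (hu : MemLp u 2 μ) (hv : MemLp v 2 μ),
      ⟪hu.toLp u, hv.toLp v⟫ = ∫ x, u x * v x ∂μ := by
    intro u v hu hv
    rw [L2.inner_def]
    refine integral_congr_ae ?_
    filter_upwards [hu.coeFn_toLp, hv.coeFn_toLp] with x h2 h3
    rw [h2, h3]
    simp [mul_comm]
  rw [e hf hg, e hf hf, e hg hg] at h1
  have e2 : ∀ u : X → ℝ, (∫ x, u x * u x ∂μ) = ∫ x, u x ^ 2 ∂μ := fun u => by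
    simp only [pow_two]
  rw [e2, e2] at h1
  nlinarith [h1]

variable {X : Type} [MeasurableSpace X] {μ : Measure X} [IsFiniteMeasure μ]
  {W : Type} [NormedAddCommGroup W] [InnerProductSpace ℝ W] [FiniteDimensional ℝ W]
  {W' : Type} [NormedAddCommGroup W'] [InnerProductSpace ℝ W'] [FiniteDimensional ℝ W']
  {W'' : Type} [NormedAddCommGroup W''] [InnerProductSpace ℝ W''] [FiniteDimensional ℝ W'']

omit [IsFiniteMeasure μ] [FiniteDimensional ℝ W] in
theorem l2_norm_sq (w : Lp W 2 μ) : ‖w‖ ^ 2 = ∫ x, ‖w x‖ ^ 2 ∂μ := by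
  rw [← real_inner_self_eq_norm_sq, L2.inner_def]
  refine integral_congr_ae (Eventually.of_forall fun x => ?_)
  simp only [real_inner_self_eq_norm_sq]

omit [IsFiniteMeasure μ] [FiniteDimensional ℝ W] in
theorem l2_integrable_sq (w : Lp W 2 μ) : Integrable (fun x => ‖w x‖ ^ 2) μ :=
  (memLp_two_iff_integrable_sq_norm (Lp.memLp w).1).1 (Lp.memLp w)

omit [FiniteDimensional ℝ W] in
theorem l2_integrable (w : Lp W 2 μ) : Integrable (fun x => w x) μ :=
  (Lp.memLp w).integrable (by norm_num)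

/-! ### bounded measurable kernels -/

/-- bounded measurable kernels -/
structure BK (k : X → X → W →L[ℝ] W') : Prop where
  meas : StronglyMeasurable (Function.uncurry k)
  bdd : ∃ C : ℝ, ∀ x y, ‖k x y‖ ≤ C

/-- the pointwise formula of a kernel operator -/
def kfun (μ : Measure X) (k : X → X → W →L[ℝ] W') (w : X → W) : X → W' :=
  fun x => ∫ y, k x y (w y) ∂μ

namespace BK

variable {k : X → X → W →L[ℝ] W'}

theorem exists_bound (h : BK k) : ∃ C : ℝ, 0 < C ∧ ∀ x y, ‖k x y‖ ≤ C := by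
  obtain ⟨C, hC⟩ := h.bdd
  exact ⟨max C 1, lt_of_lt_of_le one_pos (le_max_right _ _), fun x y => (hC x y).trans (le_max_left _ _)⟩

theorem row (h : BK k) (x : X) : StronglyMeasurable (k x) :=
  h.meas.comp_measurable (measurable_const.prodMk measurable_id)

theorem col (h : BK k) (y : X) : StronglyMeasurable (fun x => k x y) :=
  h.meas.comp_measurable (measurable_id.prodMk measurable_const)

theorem sm_apply (h : BK k) {w : X → W} (hw : StronglyMeasurable w) :
    StronglyMeasurable (fun p : X × X => k p.1 p.2 (w p.2)) :=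
  isBoundedBilinearMap_apply.continuous.comp_stronglyMeasurable
    (h.meas.prodMk (hw.comp_measurable measurable_snd))

theorem integrable_norm_row (h : BK k) (x : X) : Integrable (fun y => ‖k x y‖) μ := by
  obtain ⟨C, hC⟩ := h.bdd
  exact Integrable.of_bound (h.row x).norm.aestronglyMeasurable C
    (Eventually.of_forall fun y => by simpa using hC x y)

theorem integrable_norm_col (h : BK k) (y : X) : Integrable (fun x => ‖k x y‖) μ := by
  obtain ⟨C, hC⟩ := h.bdd
  exact Integrable.of_bound (h.col y).norm.aestronglyMeasurable C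
    (Eventually.of_forall fun x => by simpa using hC x y)

theorem integrable_apply (h : BK k) {w : X → W} (hw : Integrable w μ)
    (x : X) : Integrable (fun y => k x y (w y)) μ := by
  obtain ⟨C, hC⟩ := h.bdd
  refine (hw.norm.const_mul C).mono' ?_ (Eventually.of_forall fun y => ?_)
  · exact isBoundedBilinearMap_apply.continuous.comp_aestronglyMeasurable
      ((h.row x).aestronglyMeasurable.prodMk hw.1)
  · exact ((k x y).le_opNorm _).trans (mul_le_mul_of_nonneg_right (hC x y) (norm_nonneg _))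

theorem sm_kfun (h : BK k) {w : X → W} (hw : StronglyMeasurable w) :
    StronglyMeasurable (kfun μ k w) :=
  (h.sm_apply hw).integral_prod_right'

theorem kfun_congr {w w' : X → W} (hw : w =ᵐ[μ] w') : kfun μ k w = kfun μ k w' := by
  funext x
  refine integral_congr_ae ?_
  filter_upwards [hw] with y hy
  rw [hy]

/-- Cauchy-Schwarz -/
theorem kfun_sq_le (h : BK k) (w : Lp W 2 μ) (x : X) :
    ‖kfun μ k w x‖ ^ 2 ≤ (∫ y, ‖k x y‖ ^ 2 ∂μ) * ‖w‖ ^ 2 := by
  obtain ⟨C, hC⟩ := h.bdd
  have h1 : ‖kfun μ k w x‖ ≤ ∫ y, ‖k x y‖ * ‖w y‖ ∂μ := by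
    refine (norm_integral_le_integral_norm _).trans ?_
    refine integral_mono_of_nonneg (Eventually.of_forall fun y => norm_nonneg _) ?_
      (Eventually.of_forall fun y => (k x y).le_opNorm _)
    refine ((l2_integrable w).norm.const_mul C).mono' ?_ (Eventually.of_forall fun y => ?_)
    · exact ((h.row x).norm.aestronglyMeasurable).mul (Lp.aestronglyMeasurable w).norm
    · simp only [norm_mul, norm_norm]
      exact mul_le_mul_of_nonneg_right (hC x y) (norm_nonneg _)
  have h2 : MemLp (fun y => ‖k x y‖) 2 μ :=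
    MemLp.of_bound (h.row x).norm.aestronglyMeasurable C
      (Eventually.of_forall fun y => by simpa using hC x y)
  have h3 : MemLp (fun y => ‖w y‖) 2 μ := (Lp.memLp w).norm
  have h4 := ker_cs h2 h3
  rw [← l2_norm_sq] at h4
  exact (pow_le_pow_left₀ (norm_nonneg _) h1 2).trans h4

/-- Cauchy-Schwarz, Schur form -/
theorem kfun_sq_le_schur (h : BK k) (w : Lp W 2 μ) (x : X) :
    ‖kfun μ k w x‖ ^ 2 ≤ (∫ y, ‖k x y‖ ∂μ) * ∫ y, ‖k x y‖ * ‖w y‖ ^ 2 ∂μ := by
  obtain ⟨C, hC⟩ := h.bdd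
  have h1 : ‖kfun μ k w x‖ ≤ ∫ y, √‖k x y‖ * (√‖k x y‖ * ‖w y‖) ∂μ := by
    have e : ∀ y, √‖k x y‖ * (√‖k x y‖ * ‖w y‖) = ‖k x y‖ * ‖w y‖ := fun y => by
      rw [← mul_assoc, Real.mul_self_sqrt (norm_nonneg _)]
    simp only [e]
    refine (norm_integral_le_integral_norm _).trans ?_
    refine integral_mono_of_nonneg (Eventually.of_forall fun y => norm_nonneg _) ?_
      (Eventually.of_forall fun y => (k x y).le_opNorm _)
    refine ((l2_integrable w).norm.const_mul C).mono' ?_ (Eventually.of_forall fun y => ?_)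
    · exact ((h.row x).norm.aestronglyMeasurable).mul (Lp.aestronglyMeasurable w).norm
    · simp only [norm_mul, norm_norm]
      exact mul_le_mul_of_nonneg_right (hC x y) (norm_nonneg _)
  have hs : StronglyMeasurable (fun y => √‖k x y‖) :=
    Real.continuous_sqrt.comp_stronglyMeasurable (h.row x).norm
  have h2 : MemLp (fun y => √‖k x y‖) 2 μ :=
    MemLp.of_bound hs.aestronglyMeasurable (√C)
      (Eventually.of_forall fun y => by
        rw [Real.norm_of_nonneg (Real.sqrt_nonneg _)]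
        exact Real.sqrt_le_sqrt (hC x y))
  have h3 : MemLp (fun y => √‖k x y‖ * ‖w y‖) 2 μ := by
    refine ((Lp.memLp w).norm.const_mul (√C)).mono
      (hs.aestronglyMeasurable.mul (Lp.aestronglyMeasurable w).norm)
      (Eventually.of_forall fun y => ?_)
    simp only [norm_mul, norm_norm]
    refine mul_le_mul_of_nonneg_right ?_ (norm_nonneg _)
    rw [Real.norm_of_nonneg (Real.sqrt_nonneg _), Real.norm_of_nonneg (Real.sqrt_nonneg _)]
    exact Real.sqrt_le_sqrt (hC x y)
  have h4 := ker_cs h2 h3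
  have e1 : ∀ y, √‖k x y‖ ^ 2 = ‖k x y‖ := fun y => Real.sq_sqrt (norm_nonneg _)
  have e2 : ∀ y, (√‖k x y‖ * ‖w y‖) ^ 2 = ‖k x y‖ * ‖w y‖ ^ 2 := fun y => by
    rw [mul_pow, Real.sq_sqrt (norm_nonneg _)]
  simp only [e1, e2] at h4
  exact (pow_le_pow_left₀ (norm_nonneg _) h1 2).trans h4

theorem norm_kfun_le (h : BK k) {C : ℝ} (hC : ∀ x y, ‖k x y‖ ≤ C) {w : X → W}
    (hw : Integrable w μ) (x : X) : ‖kfun μ k w x‖ ≤ C * ∫ y, ‖w y‖ ∂μ := by
  rw [← integral_const_mul]
  exact norm_integral_le_of_norm_le (hw.norm.const_mul C) (Eventually.of_forall fun y =>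
    ((k x y).le_opNorm _).trans (mul_le_mul_of_nonneg_right (hC x y) (norm_nonneg _)))

theorem memLp_kfun (h : BK k) (w : Lp W 2 μ) : MemLp (kfun μ k w) 2 μ := by
  obtain ⟨C, hC⟩ := h.bdd
  exact MemLp.of_bound (h.sm_kfun (Lp.stronglyMeasurable w)).aestronglyMeasurable
    (C * ∫ y, ‖w y‖ ∂μ) (Eventually.of_forall fun x => h.norm_kfun_le hC (l2_integrable w) x)

theorem integrable_sq (h : BK k) : Integrable (fun p : X × X => ‖k p.1 p.2‖ ^ 2) (μ.prod μ) := by
  obtain ⟨C, hC⟩ := h.bdd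
  have h1 : StronglyMeasurable (fun p : X × X => ‖k p.1 p.2‖ ^ 2) := h.meas.norm.pow 2
  refine Integrable.of_bound h1.aestronglyMeasurable (C ^ 2) (Eventually.of_forall fun p => ?_)
  rw [norm_pow, norm_norm]
  exact pow_le_pow_left₀ (norm_nonneg _) (hC _ _) 2

theorem integrable_norm_prod (h : BK k) :
    Integrable (fun p : X × X => ‖k p.1 p.2‖) (μ.prod μ) := by
  obtain ⟨C, hC⟩ := h.bdd
  have h1 : StronglyMeasurable (fun p : X × X => ‖k p.1 p.2‖) := h.meas.norm
  exact Integrable.of_bound h1.aestronglyMeasurable C (Eventually.of_forall fun p => by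
    simpa using hC p.1 p.2)

end BK

open Classical in
/-- the operator with the bounded measurable kernel `k` -/
def kop (μ : Measure X) [IsFiniteMeasure μ] (k : X → X → W →L[ℝ] W') :
    Lp W 2 μ →L[ℝ] Lp W' 2 μ :=
  if h : BK k then
    LinearMap.mkContinuous
      { toFun := fun w => (h.memLp_kfun w).toLp _
        map_add' := fun w w' => by
          rw [← MemLp.toLp_add]
          refine MemLp.toLp_congr _ _ (Eventually.of_forall fun x => ?_)
          rw [BK.kfun_congr (Lp.coeFn_add w w')]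
          simp only [kfun, Pi.add_apply, map_add]
          exact integral_add (h.integrable_apply (l2_integrable w) x)
            (h.integrable_apply (l2_integrable w') x)
        map_smul' := fun c w => by
          rw [RingHom.id_apply, ← MemLp.toLp_const_smul]
          refine MemLp.toLp_congr _ _ (Eventually.of_forall fun x => ?_)
          rw [BK.kfun_congr (Lp.coeFn_smul c w)]
          simp only [kfun, Pi.smul_apply, map_smul]
          exact integral_smul c _ }
      (√(∫ x, ∫ y, ‖k x y‖ ^ 2 ∂μ ∂μ)) (fun w => by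
        have h0 : 0 ≤ ∫ x, ∫ y, ‖k x y‖ ^ 2 ∂μ ∂μ :=
          integral_nonneg fun x => integral_nonneg fun y => by positivity
        refine abs_le_of_sq_le_sq' ?_ (by positivity) |>.2
        rw [mul_pow, Real.sq_sqrt h0, l2_norm_sq]
        have e : ∫ x, ‖((h.memLp_kfun w).toLp _ : Lp W' 2 μ) x‖ ^ 2 ∂μ =
            ∫ x, ‖kfun μ k w x‖ ^ 2 ∂μ := by
          refine integral_congr_ae ?_
          filter_upwards [(h.memLp_kfun w).coeFn_toLp] with x hx
          rw [hx]
        change ∫ x, ‖((h.memLp_kfun w).toLp _ : Lp W' 2 μ) x‖ ^ 2 ∂μ ≤ _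
        rw [e, ← integral_mul_const]
        refine integral_mono_of_nonneg (Eventually.of_forall fun x => by positivity)
          ((h.integrable_sq (μ := μ)).integral_prod_left.mul_const _)
          (Eventually.of_forall fun x => h.kfun_sq_le w x))
  else 0

namespace BK

variable {k l : X → X → W →L[ℝ] W'}

theorem kop_apply (h : BK k) (w : Lp W 2 μ) : kop μ k w = (h.memLp_kfun w).toLp _ := by
  rw [kop, dif_pos h]
  rfl

/-- the pointwise formula -/
theorem kop_ae (h : BK k) (w : Lp W 2 μ) : kop μ k w =ᵐ[μ] kfun μ k w := by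
  rw [h.kop_apply]
  exact (h.memLp_kfun w).coeFn_toLp

theorem norm_kop_apply_sq (h : BK k) (w : Lp W 2 μ) :
    ‖kop μ k w‖ ^ 2 = ∫ x, ‖kfun μ k w x‖ ^ 2 ∂μ := by
  rw [l2_norm_sq]
  refine integral_congr_ae ?_
  filter_upwards [h.kop_ae w] with x hx
  rw [hx]

theorem integrable_kfun_sq (h : BK k) (w : Lp W 2 μ) :
    Integrable (fun x => ‖kfun μ k w x‖ ^ 2) μ :=
  (memLp_two_iff_integrable_sq_norm (h.memLp_kfun w).1).1 (h.memLp_kfun w)

/-- the operator norm is at most the `L²` norm of the kernel -/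
theorem norm_kop_apply_le (h : BK k) (w : Lp W 2 μ) :
    ‖kop μ k w‖ ^ 2 ≤ (∫ x, ∫ y, ‖k x y‖ ^ 2 ∂μ ∂μ) * ‖w‖ ^ 2 := by
  rw [h.norm_kop_apply_sq, ← integral_mul_const]
  exact integral_mono (h.integrable_kfun_sq w)
    ((h.integrable_sq (μ := μ)).integral_prod_left.mul_const _) (fun x => h.kfun_sq_le w x)

theorem norm_kop_le_of_sq (h : BK k) {c : ℝ} (hc : 0 ≤ c)
    (hk : ∫ x, ∫ y, ‖k x y‖ ^ 2 ∂μ ∂μ ≤ c ^ 2) : ‖kop μ k‖ ≤ c := by
  refine ContinuousLinearMap.opNorm_le_bound _ hc fun w => ?_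
  refine abs_le_of_sq_le_sq' ?_ (by positivity) |>.2
  rw [mul_pow]
  exact (h.norm_kop_apply_le w).trans (mul_le_mul_of_nonneg_right hk (by positivity))

theorem norm_kop_sq_le (h : BK k) : ‖kop μ k‖ ^ 2 ≤ ∫ x, ∫ y, ‖k x y‖ ^ 2 ∂μ ∂μ := by
  have h0 : 0 ≤ ∫ x, ∫ y, ‖k x y‖ ^ 2 ∂μ ∂μ :=
    integral_nonneg fun x => integral_nonneg fun y => by positivity
  have h1 := h.norm_kop_le_of_sq (μ := μ) (Real.sqrt_nonneg _) (Real.sq_sqrt h0).ge
  calc ‖kop μ k‖ ^ 2 ≤ √(∫ x, ∫ y, ‖k x y‖ ^ 2 ∂μ ∂μ) ^ 2 :=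
        pow_le_pow_left₀ (norm_nonneg (kop μ k)) h1 2
    _ = _ := Real.sq_sqrt h0

/-- sup bound -/
theorem norm_kop_le_sup (h : BK k) {C : ℝ} (h0 : 0 ≤ C) (hC : ∀ x y, ‖k x y‖ ≤ C) :
    ‖kop μ k‖ ≤ C * μ.real univ := by
  refine h.norm_kop_le_of_sq (by positivity) ?_
  have h1 : ∀ x, ∫ y, ‖k x y‖ ^ 2 ∂μ ≤ C ^ 2 * μ.real univ := by
    intro x
    calc ∫ y, ‖k x y‖ ^ 2 ∂μ ≤ ∫ _, C ^ 2 ∂μ := by
          refine integral_mono_of_nonneg (Eventually.of_forall fun y => by positivity)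
            (integrable_const _) (Eventually.of_forall fun y => ?_)
          exact pow_le_pow_left₀ (norm_nonneg _) (hC x y) 2
      _ = C ^ 2 * μ.real univ := by simp [mul_comm]
  calc ∫ x, ∫ y, ‖k x y‖ ^ 2 ∂μ ∂μ ≤ ∫ _, C ^ 2 * μ.real univ ∂μ :=
        integral_mono_of_nonneg (Eventually.of_forall fun x => integral_nonneg fun y => by positivity)
          (integrable_const _) (Eventually.of_forall h1)
    _ = (C * μ.real univ) ^ 2 := by simp; ring

/-- Schur test -/
theorem norm_kop_le_schur (h : BK k) {A B : ℝ} (hA0 : 0 ≤ A) (hB0 : 0 ≤ B)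
    (hA : ∀ x, ∫ y, ‖k x y‖ ∂μ ≤ A) (hB : ∀ y, ∫ x, ‖k x y‖ ∂μ ≤ B) :
    ‖kop μ k‖ ≤ √(A * B) := by
  obtain ⟨C, hC⟩ := h.bdd
  refine ContinuousLinearMap.opNorm_le_bound _ (Real.sqrt_nonneg _) fun w => ?_
  refine abs_le_of_sq_le_sq' ?_ (by positivity) |>.2
  rw [mul_pow, Real.sq_sqrt (mul_nonneg hA0 hB0), h.norm_kop_apply_sq]
  have hint : Integrable (fun p : X × X => ‖k p.1 p.2‖ * ‖w p.2‖ ^ 2) (μ.prod μ) := by
    have h1 : Integrable (fun p : X × X => (1 : ℝ) * ‖w p.2‖ ^ 2) (μ.prod μ) :=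
      Integrable.mul_prod (integrable_const (1 : ℝ)) (l2_integrable_sq w)
    refine (h1.const_mul C).mono' ?_ (Eventually.of_forall fun p => ?_)
    · exact h.meas.norm.aestronglyMeasurable.mul
        (((Lp.stronglyMeasurable w).norm.pow 2).comp_measurable measurable_snd).aestronglyMeasurable
    · rw [norm_mul, norm_norm, norm_pow, norm_norm, one_mul]
      exact mul_le_mul_of_nonneg_right (hC _ _) (by positivity)
  have h2 : ∫ x, ‖kfun μ k w x‖ ^ 2 ∂μ ≤ ∫ x, A * ∫ y, ‖k x y‖ * ‖w y‖ ^ 2 ∂μ ∂μ := by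
    refine integral_mono (h.integrable_kfun_sq w) (hint.integral_prod_left.const_mul A) fun x => ?_
    refine (h.kfun_sq_le_schur w x).trans (mul_le_mul_of_nonneg_right (hA x) ?_)
    exact integral_nonneg fun y => by positivity
  refine h2.trans ?_
  rw [integral_const_mul, mul_assoc]
  refine mul_le_mul_of_nonneg_left ?_ hA0
  have h3 : ∫ x, ∫ y, ‖k x y‖ * ‖w y‖ ^ 2 ∂μ ∂μ = ∫ y, ∫ x, ‖k x y‖ * ‖w y‖ ^ 2 ∂μ ∂μ :=
    integral_integral_swap hint
  rw [h3, l2_norm_sq, ← integral_const_mul]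
  refine integral_mono hint.integral_prod_right ((l2_integrable_sq w).const_mul B) fun y => ?_
  simp only [integral_mul_const]
  exact mul_le_mul_of_nonneg_right (hB y) (by positivity)

/-! ### algebra -/

theorem add (h : BK k) (h' : BK l) : BK fun x y => k x y + l x y := by
  refine ⟨h.meas.add h'.meas, ?_⟩
  obtain ⟨C, hC⟩ := h.bdd
  obtain ⟨C', hC'⟩ := h'.bdd
  exact ⟨C + C', fun x y => (norm_add_le _ _).trans (add_le_add (hC x y) (hC' x y))⟩

theorem const_smul (h : BK k) (c : ℝ) : BK fun x y => c • k x y := by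
  refine ⟨h.meas.const_smul c, ?_⟩
  obtain ⟨C, hC⟩ := h.bdd
  refine ⟨|c| * C, fun x y => ?_⟩
  rw [norm_smul, Real.norm_eq_abs]
  exact mul_le_mul_of_nonneg_left (hC x y) (abs_nonneg c)

theorem neg (h : BK k) : BK fun x y => - k x y := by
  have := h.const_smul (-1)
  simpa using this

theorem sub (h : BK k) (h' : BK l) : BK fun x y => k x y - l x y := by
  simpa [sub_eq_add_neg] using h.add h'.neg

theorem zero : BK (fun (_ : X) (_ : X) => (0 : W →L[ℝ] W')) :=
  ⟨stronglyMeasurable_const, 0, fun _ _ => by simp⟩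

theorem kfun_add (h : BK k) (h' : BK l) {w : X → W} (hw : Integrable w μ) (x : X) :
    kfun μ (fun x y => k x y + l x y) w x = kfun μ k w x + kfun μ l w x := by
  simp only [kfun, _root_.add_apply]
  exact integral_add (h.integrable_apply hw x) (h'.integrable_apply hw x)

theorem kfun_smul (c : ℝ) (w : X → W) (x : X) :
    kfun μ (fun x y => c • k x y) w x = c • kfun μ k w x := by
  simp only [kfun, _root_.smul_apply]
  exact integral_smul c _

theorem kop_add (h : BK k) (h' : BK l) : kop μ (fun x y => k x y + l x y) = kop μ k + kop μ l := by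
  ext1 w
  rw [_root_.add_apply, (h.add h').kop_apply, h.kop_apply, h'.kop_apply,
    ← MemLp.toLp_add]
  exact MemLp.toLp_congr _ _ (Eventually.of_forall fun x => kfun_add h h' (l2_integrable w) x)

theorem kop_smul (h : BK k) (c : ℝ) : kop μ (fun x y => c • k x y) = c • kop μ k := by
  ext1 w
  rw [_root_.smul_apply, (h.const_smul c).kop_apply, h.kop_apply,
    ← MemLp.toLp_const_smul]
  exact MemLp.toLp_congr _ _ (Eventually.of_forall fun x => kfun_smul c w x)

theorem kop_neg (h : BK k) : kop μ (fun x y => - k x y) = - kop μ k := by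
  have := h.kop_smul (μ := μ) (-1)
  simpa using this

theorem kop_sub (h : BK k) (h' : BK l) : kop μ (fun x y => k x y - l x y) = kop μ k - kop μ l := by
  have := h.kop_add (μ := μ) h'.neg
  simpa [sub_eq_add_neg, h'.kop_neg] using this

/-- the kernel matters only almost everywhere -/
theorem kop_congr (h : BK k) (h' : BK l) (he : ∀ᵐ p ∂(μ.prod μ), k p.1 p.2 = l p.1 p.2) :
    kop μ k = kop μ l := by
  ext1 w
  rw [h.kop_apply, h'.kop_apply]
  refine MemLp.toLp_congr _ _ ?_
  filter_upwards [Measure.ae_ae_of_ae_prod he] with x hx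
  refine integral_congr_ae ?_
  filter_upwards [hx] with y hy
  rw [hy]

/-- the transposed kernel -/
theorem adj (h : BK k) : BK fun x y => ContinuousLinearMap.adjoint (k y x) := by
  refine ⟨?_, ?_⟩
  · have h1 : StronglyMeasurable (fun p : X × X => k p.2 p.1) :=
      h.meas.comp_measurable measurable_swap
    exact (ContinuousLinearMap.adjoint (𝕜 := ℝ) (E := W) (F := W')).continuous.comp_stronglyMeasurable h1
  · obtain ⟨C, hC⟩ := h.bdd
    refine ⟨C, fun x y => ?_⟩
    rw [LinearIsometryEquiv.norm_map]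
    exact hC y x

theorem inner_kop (h : BK k) (w : Lp W 2 μ) (v : Lp W' 2 μ) :
    ⟪v, kop μ k w⟫ = ∫ x, ∫ y, ⟪v x, k x y (w y)⟫ ∂μ ∂μ := by
  rw [L2.inner_def]
  refine integral_congr_ae ?_
  filter_upwards [h.kop_ae w] with x hx
  rw [hx, kfun, ← integral_inner (h.integrable_apply (l2_integrable w) x)]

theorem integrable_inner_prod (h : BK k) {w : X → W} {v : X → W'}
    (hw : Integrable w μ) (hv : Integrable v μ) :
    Integrable (fun p : X × X => ⟪v p.1, k p.1 p.2 (w p.2)⟫) (μ.prod μ) := by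
  obtain ⟨C, hC⟩ := h.bdd
  have h1 : Integrable (fun p : X × X => ‖v p.1‖ * ‖w p.2‖) (μ.prod μ) :=
    hv.norm.mul_prod hw.norm
  refine (h1.const_mul C).mono' ?_ (Eventually.of_forall fun p => ?_)
  · refine AEStronglyMeasurable.inner (hv.1.comp_fst) ?_
    exact isBoundedBilinearMap_apply.continuous.comp_aestronglyMeasurable
      (h.meas.aestronglyMeasurable.prodMk hw.1.comp_snd)
  · calc ‖⟪v p.1, k p.1 p.2 (w p.2)⟫‖ ≤ ‖v p.1‖ * ‖k p.1 p.2 (w p.2)‖ := norm_inner_le_norm _ _
      _ ≤ ‖v p.1‖ * (C * ‖w p.2‖) := by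
        refine mul_le_mul_of_nonneg_left ?_ (norm_nonneg _)
        exact ((k p.1 p.2).le_opNorm _).trans
          (mul_le_mul_of_nonneg_right (hC _ _) (norm_nonneg _))
      _ = C * (‖v p.1‖ * ‖w p.2‖) := by ring

/-- the adjoint operator has the transposed kernel -/
theorem kop_adjoint (h : BK k) :
    ContinuousLinearMap.adjoint (kop μ k) =
      kop μ fun x y => ContinuousLinearMap.adjoint (k y x) := by
  symm
  rw [ContinuousLinearMap.eq_adjoint_iff]
  intro v w
  rw [real_inner_comm, h.adj.inner_kop, h.inner_kop]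
  have h1 : ∀ x y, ⟪w x, (ContinuousLinearMap.adjoint (k y x)) (v y)⟫ = ⟪v y, k y x (w x)⟫ := by
    intro x y
    rw [ContinuousLinearMap.adjoint_inner_right, real_inner_comm]
  simp only [h1]
  exact (integral_integral_swap (h.integrable_inner_prod (l2_integrable w) (l2_integrable v))).symm

end BK

end

end Vale.Agent.P211.HK
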