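import Vale.Agent.P211.HK.Ker

/-! P211 / HK, block LK1: Hilbert-Schmidt norms of kernel operators. helper679. -/

set_option linter.unusedSectionVars false
set_option maxSynthPendingDepth 3

namespace Vale.Agent.P211.HK

open Filter Topology MeasureTheory Set
open scoped RealInnerProductSpace ENNReal

noncomputable section

/-! ### the Hilbert-Schmidt norm of maps between finite-dimensional spaces -/

section fin

variable {W : Type} [NormedAddCommGroup W] [InnerProductSpace ℝ W] [FiniteDimensional ℝ W]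
  {W' : Type} [NormedAddCommGroup W'] [InnerProductSpace ℝ W'] [FiniteDimensional ℝ W']
  {W'' : Type} [NormedAddCommGroup W''] [InnerProductSpace ℝ W''] [FiniteDimensional ℝ W'']

/-- square of the Hilbert-Schmidt norm -/
def hs2 (A : W →L[ℝ] W') : ℝ := ∑ i, ‖A (stdOrthonormalBasis ℝ W i)‖ ^ 2

theorem hs2_nonneg (A : W →L[ℝ] W') : 0 ≤ hs2 A := Finset.sum_nonneg fun _ _ => by positivity

theorem hs2_aux {ι ι' : Type*} [Fintype ι] [Fintype ι'] (b : OrthonormalBasis ι ℝ W)
    (b' : OrthonormalBasis ι' ℝ W') (A : W →L[ℝ] W') :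
    ∑ i, ‖A (b i)‖ ^ 2 = ∑ j, ‖ContinuousLinearMap.adjoint A (b' j)‖ ^ 2 := by
  have h1 : ∀ i, ‖A (b i)‖ ^ 2 = ∑ j, ⟪b' j, A (b i)⟫ ^ 2 := fun i => by
    rw [← b'.sum_sq_norm_inner_right (A (b i))]
    simp
  have h2 : ∀ j, ‖ContinuousLinearMap.adjoint A (b' j)‖ ^ 2 = ∑ i, ⟪b' j, A (b i)⟫ ^ 2 := fun j => by
    rw [← b.sum_sq_norm_inner_right]
    refine Finset.sum_congr rfl fun i _ => ?_
    rw [ContinuousLinearMap.adjoint_inner_right, real_inner_comm]
    simp
  simp only [h1, h2]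
  exact Finset.sum_comm

theorem hs2_eq {ι : Type*} [Fintype ι] (b : OrthonormalBasis ι ℝ W) (A : W →L[ℝ] W') :
    hs2 A = ∑ i, ‖A (b i)‖ ^ 2 := by
  rw [hs2, hs2_aux _ (stdOrthonormalBasis ℝ W'), hs2_aux b (stdOrthonormalBasis ℝ W')]

theorem hs2_adjoint (A : W →L[ℝ] W') : hs2 (ContinuousLinearMap.adjoint A) = hs2 A := by
  rw [hs2, hs2, hs2_aux (stdOrthonormalBasis ℝ W) (stdOrthonormalBasis ℝ W')]

/-- invariance under isometries on the left -/
theorem hs2_comp_left (A : W →L[ℝ] W') (U : W' →L[ℝ] W'') (hU : ∀ w, ‖U w‖ = ‖w‖) :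
    hs2 (U.comp A) = hs2 A := by
  simp [hs2, hU]

/-- invariance under isometries on the right -/
theorem hs2_comp_right (A : W →L[ℝ] W') (U : W'' →L[ℝ] W) (hU : ∀ w, ‖U w‖ = ‖w‖)
    (hs : Function.Surjective U) : hs2 (A.comp U) = hs2 A := by
  let U' : W'' ≃ₗᵢ[ℝ] W := LinearIsometryEquiv.ofSurjective ⟨U.toLinearMap, hU⟩ hs
  rw [hs2_eq ((stdOrthonormalBasis ℝ W'').map U') A, hs2]
  refine Finset.sum_congr rfl fun i _ => ?_
  rw [OrthonormalBasis.map_apply]
  rfl

theorem hs2_id : hs2 (ContinuousLinearMap.id ℝ W) = Module.finrank ℝ W := by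
  simp [hs2]

theorem hs2_smul (c : ℝ) (A : W →L[ℝ] W') : hs2 (c • A) = c ^ 2 * hs2 A := by
  simp [hs2, norm_smul, mul_pow, Finset.mul_sum]

theorem norm_sq_le_hs2 (A : W →L[ℝ] W') : ‖A‖ ^ 2 ≤ hs2 A := by
  have h1 : ‖A‖ ≤ √(hs2 A) := by
    refine ContinuousLinearMap.opNorm_le_bound _ (Real.sqrt_nonneg _) fun w => ?_
    refine abs_le_of_sq_le_sq' ?_ (by positivity) |>.2
    rw [mul_pow, Real.sq_sqrt (hs2_nonneg A), ← hs2_adjoint, hs2,
      ← (stdOrthonormalBasis ℝ W').sum_sq_norm_inner_right (A w), Finset.sum_mul]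
    refine Finset.sum_le_sum fun i _ => ?_
    rw [← ContinuousLinearMap.adjoint_inner_left, ← mul_pow]
    exact pow_le_pow_left₀ (norm_nonneg _) (norm_inner_le_norm _ _) 2
  calc ‖A‖ ^ 2 ≤ √(hs2 A) ^ 2 := pow_le_pow_left₀ (norm_nonneg A) h1 2
    _ = hs2 A := Real.sq_sqrt (hs2_nonneg A)

theorem hs2_le (A : W →L[ℝ] W') : hs2 A ≤ Module.finrank ℝ W * ‖A‖ ^ 2 := by
  calc hs2 A ≤ ∑ _ : Fin (Module.finrank ℝ W), ‖A‖ ^ 2 := by
        refine Finset.sum_le_sum fun i _ => ?_
        refine pow_le_pow_left₀ (norm_nonneg _) ?_ 2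
        have := A.le_opNorm (stdOrthonormalBasis ℝ W i)
        simpa using this
    _ = _ := by simp

theorem continuous_hs2 : Continuous (hs2 : (W →L[ℝ] W') → ℝ) := by
  unfold hs2
  refine continuous_finsetSum _ fun i _ => ?_
  exact ((ContinuousLinearMap.apply ℝ W' (stdOrthonormalBasis ℝ W i)).continuous.norm).pow 2

end fin

/-! ### kernels -/

variable {X : Type} [MeasurableSpace X] {μ : Measure X} [IsFiniteMeasure μ]
  {W : Type} [NormedAddCommGroup W] [InnerProductSpace ℝ W] [FiniteDimensional ℝ W]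
  {W' : Type} [NormedAddCommGroup W'] [InnerProductSpace ℝ W'] [FiniteDimensional ℝ W']

/-- Hilbert bases of separable spaces are countable -/
theorem countable_of_hilbertBasis {H : Type*} [NormedAddCommGroup H] [InnerProductSpace ℝ H]
    [TopologicalSpace.SeparableSpace H] {κ : Type*} (b : HilbertBasis κ ℝ H) : Countable κ := by
  have h1 : ∀ i j : κ, i ≠ j → 1 < dist (b i) (b j) := by
    intro i j hij
    have h2 : ‖b i - b j‖ ^ 2 = 2 := by
      rw [@norm_sub_sq_real, b.orthonormal.1 i, b.orthonormal.1 j, b.orthonormal.2 hij]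
      norm_num
    rw [dist_eq_norm]
    nlinarith [norm_nonneg (b i - b j)]
  have h3 : (univ : Set κ).Countable := by
    refine Set.PairwiseDisjoint.countable_of_isOpen (s := fun i => Metric.ball (b i) (1 / 2)) ?_
      (fun i _ => Metric.isOpen_ball) (fun i _ => ⟨b i, Metric.mem_ball_self (by norm_num)⟩)
    intro i _ j _ hij
    refine Metric.ball_disjoint_ball ?_
    have := h1 i j hij
    linarith
  exact countable_univ_iff.1 h3

namespace BK

variable {k l : X → X → W →L[ℝ] W'}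

theorem integrable_hs2 (h : BK k) : Integrable (fun p : X × X => hs2 (k p.1 p.2)) (μ.prod μ) := by
  obtain ⟨C, hC⟩ := h.bdd
  have h1 : StronglyMeasurable (fun p : X × X => hs2 (k p.1 p.2)) :=
    continuous_hs2.comp_stronglyMeasurable h.meas
  refine Integrable.of_bound h1.aestronglyMeasurable (Module.finrank ℝ W * C ^ 2)
    (Eventually.of_forall fun p => ?_)
  rw [Real.norm_of_nonneg (hs2_nonneg _)]
  refine (hs2_le _).trans (mul_le_mul_of_nonneg_left ?_ (by positivity))
  exact pow_le_pow_left₀ (norm_nonneg _) (hC _ _) 2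

theorem integrable_hs2_row (h : BK k) (x : X) : Integrable (fun y => hs2 (k x y)) μ := by
  obtain ⟨C, hC⟩ := h.bdd
  have h1 : StronglyMeasurable (fun y : X => hs2 (k x y)) :=
    continuous_hs2.comp_stronglyMeasurable (h.row x)
  refine Integrable.of_bound h1.aestronglyMeasurable (Module.finrank ℝ W * C ^ 2)
    (Eventually.of_forall fun p => ?_)
  rw [Real.norm_of_nonneg (hs2_nonneg _)]
  refine (hs2_le _).trans (mul_le_mul_of_nonneg_left ?_ (by positivity))
  exact pow_le_pow_left₀ (norm_nonneg _) (hC _ _) 2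

/-- the element `y ↦ k(x,y)^* v` of `L²` -/
theorem memLp_row (h : BK k) (x : X) (v : W') :
    MemLp (fun y => ContinuousLinearMap.adjoint (k x y) v) 2 μ := by
  obtain ⟨C, hC⟩ := h.bdd
  have h1 : StronglyMeasurable (fun y => ContinuousLinearMap.adjoint (k x y) v) := by
    have h2 : StronglyMeasurable (fun y => ContinuousLinearMap.adjoint (k x y)) :=
      (ContinuousLinearMap.adjoint (𝕜 := ℝ) (E := W)
        (F := W')).continuous.comp_stronglyMeasurable (h.row x)
    exact (ContinuousLinearMap.apply ℝ W v).continuous.comp_stronglyMeasurable h2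
  refine MemLp.of_bound h1.aestronglyMeasurable (C * ‖v‖) (Eventually.of_forall fun y => ?_)
  refine (ContinuousLinearMap.le_opNorm _ _).trans (mul_le_mul_of_nonneg_right ?_ (norm_nonneg _))
  rw [LinearIsometryEquiv.norm_map]
  exact hC x y

theorem inner_row (h : BK k) (x : X) (v : W') (w : Lp W 2 μ) :
    ⟪(h.memLp_row (μ := μ) x v).toLp _, w⟫ = ⟪v, kfun μ k w x⟫ := by
  rw [L2.inner_def, kfun, ← integral_inner (h.integrable_apply (l2_integrable w) x)]
  refine integral_congr_ae ?_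
  filter_upwards [(h.memLp_row (μ := μ) x v).coeFn_toLp] with y hy
  rw [hy, ContinuousLinearMap.adjoint_inner_left]

theorem norm_row_sq (h : BK k) (x : X) (v : W') :
    ‖(h.memLp_row (μ := μ) x v).toLp _‖ ^ 2 =
      ∫ y, ‖ContinuousLinearMap.adjoint (k x y) v‖ ^ 2 ∂μ := by
  rw [l2_norm_sq]
  refine integral_congr_ae ?_
  filter_upwards [(h.memLp_row (μ := μ) x v).coeFn_toLp] with y hy
  rw [hy]

theorem hasSum_kfun_sq (h : BK k) {κ : Type*} (b : HilbertBasis κ ℝ (Lp W 2 μ)) (x : X) :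
    HasSum (fun i => ‖kfun μ k (b i) x‖ ^ 2) (∫ y, hs2 (k x y) ∂μ) := by
  have h1 : ∀ i, ‖kfun μ k (b i) x‖ ^ 2 =
      ∑ j, ⟪(h.memLp_row (μ := μ) x (stdOrthonormalBasis ℝ W' j)).toLp _, b i⟫ ^ 2 := by
    intro i
    rw [← (stdOrthonormalBasis ℝ W').sum_sq_norm_inner_right (kfun μ k (b i) x)]
    refine Finset.sum_congr rfl fun j _ => ?_
    rw [h.inner_row]
    simp
  have h2 : ∫ y, hs2 (k x y) ∂μ =
      ∑ j, ‖(h.memLp_row (μ := μ) x (stdOrthonormalBasis ℝ W' j)).toLp _‖ ^ 2 := by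
    simp only [h.norm_row_sq]
    rw [← integral_finsetSum]
    · refine integral_congr_ae (Eventually.of_forall fun y => ?_)
      simp only
      rw [← hs2_adjoint, hs2]
    · intro j _
      have := (memLp_two_iff_integrable_sq_norm (h.memLp_row (μ := μ) x
        (stdOrthonormalBasis ℝ W' j)).1).1 (h.memLp_row x (stdOrthonormalBasis ℝ W' j))
      exact this
  rw [h2]
  simp only [h1]
  refine hasSum_sum fun j _ => ?_
  have h3 := b.hasSum_inner_mul_inner
    ((h.memLp_row (μ := μ) x (stdOrthonormalBasis ℝ W' j)).toLp _)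
    ((h.memLp_row (μ := μ) x (stdOrthonormalBasis ℝ W' j)).toLp _)
  rw [real_inner_self_eq_norm_sq] at h3
  refine h3.congr_fun fun i => ?_
  rw [real_inner_comm, pow_two, real_inner_comm]

/-- the Hilbert-Schmidt norm of a kernel operator -/
theorem hsSq_kop [MeasurableSpace.CountablyGenerated X] (h : BK k) {κ : Type*}
    (b : HilbertBasis κ ℝ (Lp W 2 μ)) :
    hsSq b (kop μ k) = ENNReal.ofReal (∫ x, ∫ y, hs2 (k x y) ∂μ ∂μ) := by
  have hp : Fact ((2 : ℝ≥0∞) ≠ ∞) := ⟨by norm_num⟩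
  have hc : Countable κ := countable_of_hilbertBasis b
  have h1 : ∀ i, ENNReal.ofReal (‖kop μ k (b i)‖ ^ 2) =
      ∫⁻ x, ENNReal.ofReal (‖kfun μ k (b i) x‖ ^ 2) ∂μ := by
    intro i
    rw [h.norm_kop_apply_sq, ofReal_integral_eq_lintegral_ofReal (h.integrable_kfun_sq (b i))
      (Eventually.of_forall fun x => by positivity)]
  rw [hsSq]
  simp only [h1]
  rw [← lintegral_tsum]
  · rw [ofReal_integral_eq_lintegral_ofReal (h.integrable_hs2.integral_prod_left)
      (Eventually.of_forall fun x => integral_nonneg fun y => hs2_nonneg _)]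
    refine lintegral_congr fun x => ?_
    have h2 := h.hasSum_kfun_sq b x
    rw [← h2.tsum_eq, ENNReal.ofReal_tsum_of_nonneg (fun i => by positivity) h2.summable]
  · intro i
    exact (((h.sm_kfun (Lp.stronglyMeasurable (b i))).norm.pow 2).measurable.ennreal_ofReal).aemeasurable

/-- the Hilbert-Schmidt norm of the adjoint of a kernel operator -/
theorem hsSq_kop_adjoint [MeasurableSpace.CountablyGenerated X] (h : BK k) {κ : Type*}
    (b : HilbertBasis κ ℝ (Lp W' 2 μ)) :
    hsSq b (ContinuousLinearMap.adjoint (kop μ k)) =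
      ENNReal.ofReal (∫ x, ∫ y, hs2 (k x y) ∂μ ∂μ) := by
  rw [h.kop_adjoint, h.adj.hsSq_kop b]
  congr 1
  simp only [hs2_adjoint]
  exact (integral_integral_swap (h.integrable_hs2 (μ := μ))).symm

theorem hsLe_kop [MeasurableSpace.CountablyGenerated X] (h : BK k) {c : ℝ} (hc : 0 ≤ c)
    (hk : ∫ x, ∫ y, hs2 (k x y) ∂μ ∂μ ≤ c ^ 2) : HSLe (kop μ k) c := by
  refine ⟨hc, fun κ b => ?_⟩
  rw [h.hsSq_kop b]
  exact ENNReal.ofReal_le_ofReal hk

/-- sup bound -/
theorem hsLe_kop_sup [MeasurableSpace.CountablyGenerated X] (h : BK k) {C : ℝ} (h0 : 0 ≤ C)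
    (hC : ∀ x y, ‖k x y‖ ≤ C) : HSLe (kop μ k) (√(Module.finrank ℝ W) * C * μ.real univ) := by
  refine h.hsLe_kop (by positivity) ?_
  have h1 : ∀ x y, hs2 (k x y) ≤ Module.finrank ℝ W * C ^ 2 := fun x y =>
    (hs2_le _).trans (mul_le_mul_of_nonneg_left (pow_le_pow_left₀ (norm_nonneg _) (hC _ _) 2)
      (by positivity))
  calc ∫ x, ∫ y, hs2 (k x y) ∂μ ∂μ ≤ ∫ _ : X, ∫ _ : X, Module.finrank ℝ W * C ^ 2 ∂μ ∂μ := by
        refine integral_mono_of_nonneg
          (Eventually.of_forall fun x => integral_nonneg fun y => hs2_nonneg _)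
          (integrable_const _) (Eventually.of_forall fun x => ?_)
        exact integral_mono_of_nonneg (Eventually.of_forall fun y => hs2_nonneg _)
          (integrable_const _) (Eventually.of_forall fun y => h1 x y)
    _ = (√(Module.finrank ℝ W) * C * μ.real univ) ^ 2 := by
        rw [mul_pow, mul_pow, Real.sq_sqrt (by positivity)]
        simp only [integral_const, smul_eq_mul]
        ring

end BK

end

end Vale.Agent.P211.HK
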