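import Vale.Agent.P211.HK.KerHS

/-! P211 / HK, block LK1: families of kernel operators depending on a parameter. helper679. -/

set_option linter.unusedSectionVars false
set_option maxSynthPendingDepth 3

namespace Vale.Agent.P211.HK

open Filter Topology MeasureTheory Set
open scoped RealInnerProductSpace ENNReal

noncomputable section

variable {X : Type} [MeasurableSpace X] {μ : Measure X} [IsFiniteMeasure μ]
  {W : Type} [NormedAddCommGroup W] [InnerProductSpace ℝ W] [FiniteDimensional ℝ W]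
  {W' : Type} [NormedAddCommGroup W'] [InnerProductSpace ℝ W'] [FiniteDimensional ℝ W']
  {W'' : Type} [NormedAddCommGroup W''] [InnerProductSpace ℝ W''] [FiniteDimensional ℝ W'']

theorem kop_zero : kop μ (fun (_ : X) (_ : X) => (0 : W →L[ℝ] W')) = 0 := by
  have h : BK (fun (_ : X) (_ : X) => (0 : W →L[ℝ] W')) := BK.zero
  have h1 := h.norm_kop_le_sup (μ := μ) le_rfl (fun _ _ => by simp)
  rw [zero_mul] at h1
  exact norm_le_zero_iff.1 h1

/-! ### constant coefficient maps -/

/-- composition with a constant linear map, on the left -/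
theorem BK.comp_left {k : X → X → W →L[ℝ] W'} (h : BK k) (A : W' →L[ℝ] W'') :
    BK fun x y => A.comp (k x y) := by
  refine ⟨?_, ?_⟩
  · exact ((ContinuousLinearMap.compL ℝ W W' W'') A).continuous.comp_stronglyMeasurable h.meas
  · obtain ⟨C, hC⟩ := h.bdd
    exact ⟨‖A‖ * C, fun x y => (A.opNorm_comp_le _).trans
      (mul_le_mul_of_nonneg_left (hC x y) (norm_nonneg _))⟩

/-- composition with a constant linear map, on the right -/
theorem BK.comp_right {k : X → X → W' →L[ℝ] W''} (h : BK k) (A : W →L[ℝ] W') :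
    BK fun x y => (k x y).comp A := by
  refine ⟨?_, ?_⟩
  · exact ((ContinuousLinearMap.compL ℝ W W' W'').flip A).continuous.comp_stronglyMeasurable h.meas
  · obtain ⟨C, hC⟩ := h.bdd
    exact ⟨C * ‖A‖, fun x y => ((k x y).opNorm_comp_le _).trans
      (mul_le_mul_of_nonneg_right (hC x y) (norm_nonneg _))⟩

theorem BK.kop_comp_left {k : X → X → W →L[ℝ] W'} (h : BK k) (A : W' →L[ℝ] W'') :
    kop μ (fun x y => A.comp (k x y)) = (A.compLpL 2 μ).comp (kop μ k) := by
  ext1 w
  rw [ContinuousLinearMap.comp_apply]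
  apply Lp.ext
  filter_upwards [(h.comp_left A).kop_ae w, ContinuousLinearMap.coeFn_compLpL A (kop μ k w),
    h.kop_ae w] with x h1 h2 h3
  rw [h1, h2, h3, kfun, kfun, ← A.integral_comp_comm (h.integrable_apply (l2_integrable w) x)]
  rfl

theorem BK.kop_comp_right {k : X → X → W' →L[ℝ] W''} (h : BK k) (A : W →L[ℝ] W') :
    kop μ (fun x y => (k x y).comp A) = (kop μ k).comp (A.compLpL 2 μ) := by
  ext1 w
  rw [ContinuousLinearMap.comp_apply]
  apply Lp.ext
  filter_upwards [(h.comp_right A).kop_ae w, h.kop_ae (A.compLpL 2 μ w)] with x h1 h2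
  rw [h1, h2, BK.kfun_congr (ContinuousLinearMap.coeFn_compLpL A w)]
  rfl

/-! ### limits -/

/-- norm convergence of kernel operators by dominated convergence -/
theorem tendsto_kop {ι : Type*} {F : Filter ι} [F.IsCountablyGenerated]
    {k : ι → X → X → W →L[ℝ] W'} {k₀ : X → X → W →L[ℝ] W'} (hk : ∀ᶠ s in F, BK (k s))
    (h₀ : BK k₀) {C : ℝ} (hC : ∀ᶠ s in F, ∀ x y, ‖k s x y‖ ≤ C)
    (hlim : ∀ᵐ p ∂(μ.prod μ), Tendsto (fun s => k s p.1 p.2) F (𝓝 (k₀ p.1 p.2))) :
    Tendsto (fun s => kop μ (k s)) F (𝓝 (kop μ k₀)) := by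
  obtain ⟨C₀, hC₀, hb₀⟩ := h₀.exists_bound
  have h1 : Tendsto (fun s => ∫ p, ‖k s p.1 p.2 - k₀ p.1 p.2‖ ^ 2 ∂(μ.prod μ)) F (𝓝 0) := by
    have h2 : Tendsto (fun s => ∫ p, ‖k s p.1 p.2 - k₀ p.1 p.2‖ ^ 2 ∂(μ.prod μ)) F
        (𝓝 (∫ _ : X × X, (0 : ℝ) ∂(μ.prod μ))) := by
      refine tendsto_integral_filter_of_dominated_convergence (fun _ => (C + C₀) ^ 2) ?_ ?_
        (integrable_const _) ?_
      · filter_upwards [hk] with s hs
        exact ((hs.sub h₀).meas.norm.pow 2).aestronglyMeasurable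
      · filter_upwards [hC] with s hs
        refine Eventually.of_forall fun p => ?_
        rw [norm_pow, norm_norm]
        exact pow_le_pow_left₀ (norm_nonneg _)
          ((norm_sub_le _ _).trans (add_le_add (hs _ _) (hb₀ _ _))) 2
      · filter_upwards [hlim] with p hp
        have h3 := (tendsto_iff_norm_sub_tendsto_zero.1 hp).pow 2
        simpa using h3
    simpa using h2
  have h2 : ∀ᶠ s in F, ‖kop μ (k s) - kop μ k₀‖ ≤
      √(∫ p, ‖k s p.1 p.2 - k₀ p.1 p.2‖ ^ 2 ∂(μ.prod μ)) := by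
    filter_upwards [hk] with s hs
    rw [← hs.kop_sub h₀]
    have h3 := (hs.sub h₀).norm_kop_sq_le (μ := μ)
    have h4 : ∫ x, ∫ y, ‖k s x y - k₀ x y‖ ^ 2 ∂μ ∂μ =
        ∫ p, ‖k s p.1 p.2 - k₀ p.1 p.2‖ ^ 2 ∂(μ.prod μ) :=
      (integral_prod _ (hs.sub h₀).integrable_sq).symm
    rw [h4] at h3
    exact Real.le_sqrt_of_sq_le h3
  have h5 : Tendsto (fun s => √(∫ p, ‖k s p.1 p.2 - k₀ p.1 p.2‖ ^ 2 ∂(μ.prod μ))) F (𝓝 0) := by
    have h6 := (Real.continuous_sqrt.tendsto 0).comp h1
    rw [Real.sqrt_zero] at h6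
    exact h6
  rw [tendsto_iff_norm_sub_tendsto_zero]
  exact squeeze_zero' (Eventually.of_forall fun s => norm_nonneg _) h2 h5

theorem continuousOn_kop {S : Set ℝ} {k : ℝ → X → X → W →L[ℝ] W'} (hk : ∀ s ∈ S, BK (k s))
    (hC : ∀ s ∈ S, ∃ C, ∀ᶠ r in 𝓝[S] s, ∀ x y, ‖k r x y‖ ≤ C)
    (hcont : ∀ x y, ContinuousOn (fun s => k s x y) S) :
    ContinuousOn (fun s => kop μ (k s)) S := by
  intro s hs
  obtain ⟨C, hC⟩ := hC s hs
  exact tendsto_kop (by filter_upwards [self_mem_nhdsWithin] with r hr using hk r hr) (hk s hs)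
    hC (Eventually.of_forall fun p => hcont p.1 p.2 s hs)

/-- differentiability in the parameter, in operator norm -/
theorem hasDerivAt_kop {k k' : ℝ → X → X → W →L[ℝ] W'} {t : ℝ} (hk : ∀ᶠ s in 𝓝 t, BK (k s))
    (hk' : BK (k' t)) {C : ℝ}
    (hd : ∀ᶠ s in 𝓝 t, ∀ x y, HasDerivAt (fun r => k r x y) (k' s x y) s ∧ ‖k' s x y‖ ≤ C) :
    HasDerivAt (fun s => kop μ (k s)) (kop μ (k' t)) t := by
  rw [hasDerivAt_iff_tendsto_slope]
  have hkt : BK (k t) := hk.self_of_nhds
  obtain ⟨δ, hδ, hball⟩ := Metric.eventually_nhds_iff_ball.1 hd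
  have h1 : Tendsto (fun s => kop μ (fun x y => (s - t)⁻¹ • (k s x y - k t x y))) (𝓝[≠] t)
      (𝓝 (kop μ (k' t))) := by
    refine tendsto_kop (C := C) ?_ hk' ?_ (Eventually.of_forall fun p => ?_)
    · filter_upwards [mem_nhdsWithin_of_mem_nhds hk] with s hs
      exact (hs.sub hkt).const_smul _
    · have hb : Metric.ball t δ ∈ 𝓝[≠] t := mem_nhdsWithin_of_mem_nhds (Metric.ball_mem_nhds t hδ)
      filter_upwards [hb, self_mem_nhdsWithin] with s hs hne x y
      have h2 : ‖k s x y - k t x y‖ ≤ C * ‖s - t‖ := by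
        refine (convex_ball t δ).norm_image_sub_le_of_norm_hasDerivWithin_le
          (f := fun r => k r x y) (f' := fun r => k' r x y)
          (fun r hr => ((hball r hr) x y).1.hasDerivWithinAt) (fun r hr => ((hball r hr) x y).2)
          (Metric.mem_ball_self hδ) hs
      have hne' : 0 < ‖s - t‖ := norm_pos_iff.2 (sub_ne_zero.2 hne)
      rw [norm_smul, norm_inv]
      calc ‖s - t‖⁻¹ * ‖k s x y - k t x y‖ ≤ ‖s - t‖⁻¹ * (C * ‖s - t‖) :=
            mul_le_mul_of_nonneg_left h2 (by positivity)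
        _ = C := by field_simp
    · have h3 := ((hball t (Metric.mem_ball_self hδ)) p.1 p.2).1
      rw [hasDerivAt_iff_tendsto_slope] at h3
      exact h3
  refine h1.congr' ?_
  filter_upwards [mem_nhdsWithin_of_mem_nhds hk] with s hs
  rw [(hs.sub hkt).kop_smul, hs.kop_sub hkt, slope_def_module]

/-- strong convergence of a bounded family follows from convergence on a dense set -/
theorem tendsto_strong_of_dense {H H' : Type*} [NormedAddCommGroup H] [NormedSpace ℝ H]
    [NormedAddCommGroup H'] [NormedSpace ℝ H'] {ι : Type*} {F : Filter ι} {Z : ι → H →L[ℝ] H'}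
    {Z₀ : H →L[ℝ] H'} {C : ℝ} (hC : ∀ᶠ s in F, ‖Z s‖ ≤ C) {D : Set H} (hD : Dense D)
    (h : ∀ w ∈ D, Tendsto (fun s => Z s w) F (𝓝 (Z₀ w))) (w : H) :
    Tendsto (fun s => Z s w) F (𝓝 (Z₀ w)) := by
  rw [Metric.tendsto_nhds]
  intro ε hε
  obtain ⟨M, hM0, hMC, hMZ⟩ : ∃ M : ℝ, 0 < M ∧ C ≤ M ∧ ‖Z₀‖ ≤ M :=
    ⟨max (max C ‖Z₀‖) 1, lt_of_lt_of_le one_pos (le_max_right _ _),
      (le_max_left _ _).trans (le_max_left _ _), (le_max_right _ _).trans (le_max_left _ _)⟩
  obtain ⟨v, hv, hvw⟩ := Metric.dense_iff.1 hD w (ε / (3 * M)) (by positivity)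
  rw [Metric.mem_ball, dist_eq_norm] at hv
  have h1 := (Metric.tendsto_nhds.1 (h v hvw)) (ε / 3) (by positivity)
  filter_upwards [h1, hC] with s hs hs2
  rw [dist_eq_norm] at hs ⊢
  have e : Z s w - Z₀ w = Z s (w - v) + (Z s v - Z₀ v) + Z₀ (v - w) := by
    simp only [map_sub]
    abel
  have b1 : ‖Z s (w - v)‖ < ε / 3 := by
    calc ‖Z s (w - v)‖ ≤ ‖Z s‖ * ‖w - v‖ := (Z s).le_opNorm _
      _ ≤ M * ‖w - v‖ := mul_le_mul_of_nonneg_right (hs2.trans hMC) (norm_nonneg _)
      _ < M * (ε / (3 * M)) := by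
        refine mul_lt_mul_of_pos_left ?_ hM0
        rwa [norm_sub_rev]
      _ = ε / 3 := by field_simp
  have b2 : ‖Z₀ (v - w)‖ < ε / 3 := by
    calc ‖Z₀ (v - w)‖ ≤ ‖Z₀‖ * ‖v - w‖ := Z₀.le_opNorm _
      _ ≤ M * ‖v - w‖ := mul_le_mul_of_nonneg_right hMZ (norm_nonneg _)
      _ < M * (ε / (3 * M)) := mul_lt_mul_of_pos_left hv hM0
      _ = ε / 3 := by field_simp
  rw [e]
  calc ‖Z s (w - v) + (Z s v - Z₀ v) + Z₀ (v - w)‖
      ≤ ‖Z s (w - v)‖ + ‖Z s v - Z₀ v‖ + ‖Z₀ (v - w)‖ := norm_add₃_le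
    _ < ε / 3 + ε / 3 + ε / 3 := by linarith
    _ = ε := by ring

/-- uniform convergence of the functions `kfun` gives convergence in `L²` -/
theorem tendsto_kop_of_unif {ι : Type*} {F : Filter ι} {k : ι → X → X → W →L[ℝ] W'}
    (hk : ∀ᶠ s in F, BK (k s)) (w : Lp W 2 μ) (v : Lp W' 2 μ)
    (h : ∀ ε : ℝ, 0 < ε → ∀ᶠ s in F, ∀ᵐ x ∂μ, ‖kfun μ (k s) w x - v x‖ ≤ ε) :
    Tendsto (fun s => kop μ (k s) w) F (𝓝 v) := by
  rw [Metric.tendsto_nhds]
  intro ε hε
  obtain ⟨δ, hδ, hδε⟩ : ∃ δ : ℝ, 0 < δ ∧ δ ^ 2 * μ.real univ < ε ^ 2 := by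
    refine ⟨ε / (√(μ.real univ) + 1), by positivity, ?_⟩
    have h1 : √(μ.real univ) < √(μ.real univ) + 1 := by linarith
    have h2 : μ.real univ < (√(μ.real univ) + 1) ^ 2 := by
      calc μ.real univ = √(μ.real univ) ^ 2 := (Real.sq_sqrt (by positivity)).symm
        _ < _ := pow_lt_pow_left₀ h1 (by positivity) (by norm_num)
    rw [div_pow, div_mul_eq_mul_div, div_lt_iff₀ (by positivity)]
    exact mul_lt_mul_of_pos_left h2 (by positivity)
  filter_upwards [hk, h δ hδ] with s hs h1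
  rw [dist_eq_norm]
  refine abs_lt_of_sq_lt_sq' ?_ hε.le |>.2
  refine lt_of_le_of_lt ?_ hδε
  rw [l2_norm_sq]
  calc ∫ x, ‖(kop μ (k s) w - v : Lp W' 2 μ) x‖ ^ 2 ∂μ ≤ ∫ _, δ ^ 2 ∂μ := by
        refine integral_mono_of_nonneg (Eventually.of_forall fun x => by positivity)
          (integrable_const _) ?_
        filter_upwards [Lp.coeFn_sub (kop μ (k s) w) v, hs.kop_ae w, h1] with x h2 h3 h4
        rw [h2, Pi.sub_apply, h3]
        exact pow_le_pow_left₀ (norm_nonneg _) h4 2
    _ = δ ^ 2 * μ.real univ := by simp [mul_comm]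

/-! ### time integrals -/

section integral

variable {k : ℝ → X → X → W →L[ℝ] W'} {a b : ℝ}

theorem BK.sm_time (hab : a ≤ b) (hk : ∀ s ∈ Icc a b, BK (k s))
    (hcont : ∀ x y, ContinuousOn (fun s => k s x y) (Icc a b)) :
    StronglyMeasurable (fun q : ℝ × X × X => k (projIcc a b hab q.1) q.2.1 q.2.2) := by
  have h1 := stronglyMeasurable_uncurry_of_continuous_of_stronglyMeasurable
    (u := fun (s : ℝ) (p : X × X) => k (projIcc a b hab s) p.1 p.2)
    (fun p => (hcont p.1 p.2).comp_continuous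
      (continuous_subtype_val.comp continuous_projIcc) (fun s => (projIcc a b hab s).2))
    (fun s => (hk _ (projIcc a b hab s).2).meas)
  exact h1

theorem BK.timeIntegral (hab : a ≤ b) (hk : ∀ s ∈ Icc a b, BK (k s)) {C : ℝ}
    (hC : ∀ s ∈ Icc a b, ∀ x y, ‖k s x y‖ ≤ C)
    (hcont : ∀ x y, ContinuousOn (fun s => k s x y) (Icc a b)) :
    BK fun x y => ∫ s in a..b, k s x y := by
  have hsm := BK.sm_time hab hk hcont
  have e : ∀ x y, ∫ s in a..b, k s x y = ∫ s in a..b, k (projIcc a b hab s) x y := by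
    intro x y
    refine intervalIntegral.integral_congr fun s hs => ?_
    rw [uIcc_of_le hab] at hs
    rw [projIcc_of_mem hab hs]
  refine ⟨?_, C * |b - a|, fun x y => ?_⟩
  · have h1 : StronglyMeasurable (fun p : X × X =>
        ∫ s in Ioc a b, k (projIcc a b hab s) p.1 p.2) := by
      have h2 : StronglyMeasurable (fun q : (X × X) × ℝ => k (projIcc a b hab q.2) q.1.1 q.1.2) :=
        hsm.comp_measurable measurable_swap
      exact h2.integral_prod_right'
    have h3 : (Function.uncurry fun x y => ∫ s in a..b, k s x y) = fun p : X × X =>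
        ∫ s in Ioc a b, k (projIcc a b hab s) p.1 p.2 := by
      funext p
      rw [Function.uncurry, e, intervalIntegral.integral_of_le hab]
    rw [h3]
    exact h1
  · refine intervalIntegral.norm_integral_le_of_norm_le_const fun s hs => ?_
    rw [uIoc_of_le hab] at hs
    exact hC s (Ioc_subset_Icc_self hs) x y

/-- pointwise formula for time integrals -/
theorem kfun_timeIntegral (hab : a ≤ b) (hk : ∀ s ∈ Icc a b, BK (k s)) {C : ℝ}
    (hC : ∀ s ∈ Icc a b, ∀ x y, ‖k s x y‖ ≤ C)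
    (hcont : ∀ x y, ContinuousOn (fun s => k s x y) (Icc a b)) {w : X → W} (hw : Integrable w μ)
    (x : X) : kfun μ (fun x y => ∫ s in a..b, k s x y) w x = ∫ s in a..b, kfun μ (k s) w x := by
  have hsm := BK.sm_time hab hk hcont
  have e1 : ∀ y, (∫ s in a..b, k s x y) (w y) =
      ∫ s in Ioc a b, k (projIcc a b hab s) x y (w y) := by
    intro y
    rw [intervalIntegral.integral_of_le hab]
    have h1 : ∫ s in Ioc a b, k s x y = ∫ s in Ioc a b, k (projIcc a b hab s) x y := by
      refine setIntegral_congr_fun measurableSet_Ioc fun s hs => ?_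
      rw [projIcc_of_mem hab (Ioc_subset_Icc_self hs)]
    rw [h1, ← ContinuousLinearMap.integral_apply]
    refine Integrable.of_bound ?_ C (Eventually.of_forall fun s => ?_)
    · exact (hsm.comp_measurable (g := fun s : ℝ => (s, x, y)) (by fun_prop)).aestronglyMeasurable
    · exact hC _ (projIcc a b hab s).2 x y
  have e2 : ∫ s in a..b, kfun μ (k s) w x =
      ∫ s in Ioc a b, kfun μ (k (projIcc a b hab s)) w x := by
    rw [intervalIntegral.integral_of_le hab]
    refine setIntegral_congr_fun measurableSet_Ioc fun s hs => ?_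
    rw [projIcc_of_mem hab (Ioc_subset_Icc_self hs)]
  rw [e2, kfun]
  simp only [e1, kfun]
  refine integral_integral_swap (μ := μ) (ν := volume.restrict (Ioc a b))
    (f := fun y s => k (projIcc a b hab s) x y (w y)) ?_
  have h2 : Integrable (fun q : X × ℝ => ‖w q.1‖ * (C : ℝ)) (μ.prod (volume.restrict (Ioc a b))) :=
    hw.norm.mul_prod (integrable_const C)
  refine h2.mono' ?_ (Eventually.of_forall fun q => ?_)
  · refine isBoundedBilinearMap_apply.continuous.comp_aestronglyMeasurable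
      (AEStronglyMeasurable.prodMk ?_ hw.1.comp_fst)
    exact (hsm.comp_measurable (g := fun q : X × ℝ => (q.2, x, q.1))
      (by fun_prop)).aestronglyMeasurable
  · simp only [Function.uncurry]
    refine ((k _ x q.1).le_opNorm _).trans ?_
    rw [mul_comm]
    exact mul_le_mul_of_nonneg_left (hC _ (projIcc a b hab q.2).2 x q.1) (norm_nonneg _)

theorem continuousOn_kop_Icc (hk : ∀ s ∈ Icc a b, BK (k s)) {C : ℝ}
    (hC : ∀ s ∈ Icc a b, ∀ x y, ‖k s x y‖ ≤ C)
    (hcont : ∀ x y, ContinuousOn (fun s => k s x y) (Icc a b)) :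
    ContinuousOn (fun s => kop μ (k s)) (Icc a b) :=
  continuousOn_kop hk (fun s _ => ⟨C, by
    filter_upwards [self_mem_nhdsWithin] with r hr using hC r hr⟩) hcont

/-- time integrals of kernel operators are kernel operators -/
theorem integral_kop (hab : a ≤ b) (hk : ∀ s ∈ Icc a b, BK (k s)) {C : ℝ}
    (hC : ∀ s ∈ Icc a b, ∀ x y, ‖k s x y‖ ≤ C)
    (hcont : ∀ x y, ContinuousOn (fun s => k s x y) (Icc a b)) :
    ∫ s in a..b, kop μ (k s) = kop μ (fun x y => ∫ s in a..b, k s x y) := by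
  have hsm := BK.sm_time hab hk hcont
  have hT := BK.timeIntegral hab hk hC hcont
  have hci : IntervalIntegrable (fun s => kop μ (k s)) volume a b := by
    refine ContinuousOn.intervalIntegrable ?_
    rw [uIcc_of_le hab]
    exact continuousOn_kop_Icc hk hC hcont
  ext1 w
  rw [ContinuousLinearMap.intervalIntegral_apply hci]
  refine ext_inner_left ℝ fun v => ?_
  have hci2 : IntervalIntegrable (fun s => kop μ (k s) w) volume a b := by
    refine ContinuousOn.intervalIntegrable ?_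
    rw [uIcc_of_le hab]
    exact (continuousOn_kop_Icc hk hC hcont).clm_apply continuousOn_const
  have e1 : ⟪v, ∫ s in a..b, kop μ (k s) w⟫ = ∫ s in a..b, ⟪v, kop μ (k s) w⟫ := by
    have := (innerSL ℝ v).intervalIntegral_comp_comm hci2
    simpa using this.symm
  rw [e1, L2.inner_def]
  have e2 : ∫ x, ⟪v x, kop μ (fun x y => ∫ s in a..b, k s x y) w x⟫ ∂μ =
      ∫ x, (∫ (s : ℝ) in Ioc a b, ⟪v x, kfun μ (k (projIcc a b hab s)) w x⟫) ∂μ := by
    refine integral_congr_ae ?_
    filter_upwards [hT.kop_ae w] with x hx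
    rw [hx, kfun_timeIntegral hab hk hC hcont (l2_integrable w), intervalIntegral.integral_of_le hab]
    have h1 : ∫ s in Ioc a b, kfun μ (k s) w x =
        ∫ s in Ioc a b, kfun μ (k (projIcc a b hab s)) w x := by
      refine setIntegral_congr_fun measurableSet_Ioc fun s hs => ?_
      rw [projIcc_of_mem hab (Ioc_subset_Icc_self hs)]
    rw [h1, ← integral_inner]
    refine Integrable.of_bound ?_ (C * ∫ y, ‖w y‖ ∂μ) (Eventually.of_forall fun s => ?_)
    · have h2 : StronglyMeasurable (fun q : ℝ × X => k (projIcc a b hab q.1) x q.2 (w q.2)) :=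
        isBoundedBilinearMap_apply.continuous.comp_stronglyMeasurable
          ((hsm.comp_measurable (g := fun q : ℝ × X => (q.1, x, q.2)) (by fun_prop)).prodMk
            ((Lp.stronglyMeasurable w).comp_measurable measurable_snd))
      exact h2.integral_prod_right'.aestronglyMeasurable
    · exact (hk _ (projIcc a b hab s).2).norm_kfun_le (hC _ (projIcc a b hab s).2)
        (l2_integrable w) x
  rw [e2, integral_integral_swap, intervalIntegral.integral_of_le hab]
  · refine setIntegral_congr_fun measurableSet_Ioc fun s hs => ?_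
    rw [projIcc_of_mem hab (Ioc_subset_Icc_self hs), L2.inner_def]
    refine integral_congr_ae ?_
    filter_upwards [(hk s (Ioc_subset_Icc_self hs)).kop_ae w] with x hx
    rw [hx]
  · have h3 : Integrable (fun q : X × ℝ => ‖v q.1‖ * (C * ∫ y, ‖w y‖ ∂μ))
        (μ.prod (volume.restrict (Ioc a b))) :=
      (l2_integrable v).norm.mul_prod (integrable_const _)
    refine h3.mono' ?_ (Eventually.of_forall fun q => ?_)
    · refine AEStronglyMeasurable.inner (Lp.aestronglyMeasurable v).comp_fst ?_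
      have h4 : StronglyMeasurable (fun q : (X × ℝ) × X =>
          k (projIcc a b hab q.1.2) q.1.1 q.2 (w q.2)) :=
        isBoundedBilinearMap_apply.continuous.comp_stronglyMeasurable
          ((hsm.comp_measurable (g := fun q : (X × ℝ) × X => (q.1.2, q.1.1, q.2))
            (by fun_prop)).prodMk
            ((Lp.stronglyMeasurable w).comp_measurable measurable_snd))
      exact h4.integral_prod_right'.aestronglyMeasurable
    · simp only [Function.uncurry]
      refine (norm_inner_le_norm _ _).trans (mul_le_mul_of_nonneg_left ?_ (norm_nonneg _))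
      exact (hk _ (projIcc a b hab q.2).2).norm_kfun_le (hC _ (projIcc a b hab q.2).2)
        (l2_integrable w) q.1

end integral

end

end Vale.Agent.P211.HK
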