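import Vale.Agent.P211.HK.ANDefs
import Vale.Agent.P211.HK.HS

/-! P211 / HK / LK3 (helper249): operators on `L²` with bounded measurable kernels. -/

namespace Vale.Agent.P211.HK

open Filter Topology MeasureTheory Set
open scoped RealInnerProductSpace ENNReal

noncomputable section

set_option linter.unusedSectionVars false

variable {M W : Type} [MeasurableSpace M] [NormedAddCommGroup W] [InnerProductSpace ℝ W]
  [FiniteDimensional ℝ W] (μ : Measure M) [IsFiniteMeasure μ]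

/-- bounded measurable kernel -/
structure BKer (K : M → M → (W →L[ℝ] W)) : Prop where
  meas : StronglyMeasurable fun p : M × M => K p.1 p.2
  bdd : ∃ C : ℝ, ∀ x y, ‖K x y‖ ≤ C

theorem BKer.adj {K : M → M → (W →L[ℝ] W)} (hK : BKer K) :
    BKer fun y x => ContinuousLinearMap.adjoint (K x y) := by
  obtain ⟨C, hC⟩ := hK.bdd
  refine ⟨?_, C, fun y x => by rw [LinearIsometryEquiv.norm_map]; exact hC x y⟩
  exact (ContinuousLinearMap.adjoint (𝕜 := ℝ) (E := W) (F := W)).continuous.comp_stronglyMeasurable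
    (hK.meas.comp_measurable measurable_swap)

namespace KD

variable {μ}

theorem mL2 (w : Lp W 2 μ) : MemLp (fun y => ‖w y‖) 2 μ := (Lp.memLp w).norm

theorem iL2 (w : Lp W 2 μ) : Integrable w μ := (Lp.memLp w).integrable one_le_two

theorem iL2sq (w : Lp W 2 μ) : Integrable (fun y => ‖w y‖ ^ 2) μ := (mL2 w).integrable_sq

theorem norm_sq_L2 (w : Lp W 2 μ) : ‖w‖ ^ 2 = ∫ y, ‖w y‖ ^ 2 ∂μ := by
  rw [← real_inner_self_eq_norm_sq, L2.inner_def]
  simp_rw [real_inner_self_eq_norm_sq]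

theorem cs_real {f g : M → ℝ} (hf : MemLp f 2 μ) (hg : MemLp g 2 μ) :
    (∫ x, f x * g x ∂μ) ^ 2 ≤ (∫ x, f x ^ 2 ∂μ) * ∫ x, g x ^ 2 ∂μ := by
  have key : ∀ {a b : M → ℝ} (ha : MemLp a 2 μ) (hb : MemLp b 2 μ),
      ⟪ha.toLp a, hb.toLp b⟫ = ∫ x, a x * b x ∂μ := by
    intro a b ha hb
    rw [L2.inner_def]
    refine integral_congr_ae ?_
    filter_upwards [ha.coeFn_toLp, hb.coeFn_toLp] with x h1 h2
    rw [h1, h2]
    simp [mul_comm]
  have h := real_inner_mul_inner_self_le (hf.toLp f) (hg.toLp g)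
  rw [key hf hg, key hf hf, key hg hg] at h
  simpa [pow_two] using h

variable {K : M → M → (W →L[ℝ] W)}

theorem meas_row (hK : BKer K) (x : M) : StronglyMeasurable fun y => K x y :=
  hK.meas.comp_measurable (measurable_const.prodMk measurable_id)

theorem meas_col (hK : BKer K) (y : M) : StronglyMeasurable fun x => K x y :=
  hK.meas.comp_measurable (measurable_id.prodMk measurable_const)

theorem aesm_apply (hK : BKer K) (w : Lp W 2 μ) :
    AEStronglyMeasurable (fun p : M × M => K p.1 p.2 (w p.2)) (μ.prod μ) := by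
  have h1 : AEStronglyMeasurable (fun p : M × M => K p.1 p.2) (μ.prod μ) :=
    hK.meas.aestronglyMeasurable
  have h2 : AEStronglyMeasurable (fun p : M × M => w p.2) (μ.prod μ) :=
    (Lp.aestronglyMeasurable w).comp_snd
  exact (ContinuousLinearMap.apply ℝ W).isBoundedBilinearMap.continuous.comp_aestronglyMeasurable
    (h2.prodMk h1)

theorem int_apply (hK : BKer K) (w : Lp W 2 μ) (x : M) :
    Integrable (fun y => K x y (w y)) μ := by
  obtain ⟨C, hC⟩ := hK.bdd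
  have hw : Integrable w μ := iL2 w
  refine (hw.norm.const_mul C).mono' ?_ (ae_of_all _ fun y => ?_)
  · exact (ContinuousLinearMap.apply ℝ W).isBoundedBilinearMap.continuous.comp_aestronglyMeasurable
      (hw.aestronglyMeasurable.prodMk (meas_row hK x).aestronglyMeasurable)
  · exact ((K x y).le_opNorm _).trans (by gcongr; exact hC x y)

/-- the function `x ↦ ∫ K x y (w y)` -/
def kint (μ : Measure M) (K : M → M → (W →L[ℝ] W)) (w : M → W) (x : M) : W := ∫ y, K x y (w y) ∂μ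

theorem mL2row (hK : BKer K) (x : M) : MemLp (fun y => ‖K x y‖) 2 μ := by
  obtain ⟨C, hC⟩ := hK.bdd
  exact MemLp.of_bound (meas_row hK x).norm.aestronglyMeasurable C
    (ae_of_all _ fun y => by rw [norm_norm]; exact hC x y)

theorem kint_sq_le (hK : BKer K) (w : Lp W 2 μ) (x : M) :
    ‖kint μ K w x‖ ^ 2 ≤ (∫ y, ‖K x y‖ ^ 2 ∂μ) * ‖w‖ ^ 2 := by
  have h1 : ‖kint μ K w x‖ ≤ ∫ y, ‖K x y‖ * ‖w y‖ ∂μ := by
    refine norm_integral_le_of_norm_le ?_ (ae_of_all _ fun y => (K x y).le_opNorm _)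
    exact (mL2row hK x).integrable_mul (mL2 w)
  calc ‖kint μ K w x‖ ^ 2 ≤ (∫ y, ‖K x y‖ * ‖w y‖ ∂μ) ^ 2 :=
        pow_le_pow_left₀ (norm_nonneg _) h1 2
    _ ≤ (∫ y, ‖K x y‖ ^ 2 ∂μ) * ∫ y, ‖w y‖ ^ 2 ∂μ := cs_real (mL2row hK x) (mL2 w)
    _ = _ := by rw [norm_sq_L2]

theorem int_row_le (hK : BKer K) {C : ℝ} (hC : ∀ x y, ‖K x y‖ ≤ C) (x : M) :
    ∫ y, ‖K x y‖ ^ 2 ∂μ ≤ C ^ 2 * μ.real univ := by
  have : ∀ y, ‖K x y‖ ^ 2 ≤ C ^ 2 := fun y => pow_le_pow_left₀ (norm_nonneg _) (hC x y) 2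
  calc ∫ y, ‖K x y‖ ^ 2 ∂μ ≤ ∫ _y, C ^ 2 ∂μ :=
        integral_mono (mL2row hK x).integrable_sq (integrable_const _) this
    _ = _ := by rw [integral_const, smul_eq_mul, mul_comm]

theorem kint_memLp (hK : BKer K) (w : Lp W 2 μ) : MemLp (kint μ K w) 2 μ := by
  obtain ⟨C, hC⟩ := hK.bdd
  refine MemLp.of_bound ?_ (Real.sqrt (C ^ 2 * μ.real univ * ‖w‖ ^ 2)) (ae_of_all _ fun x => ?_)
  · exact (aesm_apply hK w).integral_prod_right'
  · refine Real.le_sqrt_of_sq_le ?_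
    exact (kint_sq_le hK w x).trans (by gcongr; exact int_row_le hK hC x)

/-- the linear map with kernel `K` -/
def kopL (hK : BKer K) : Lp W 2 μ →ₗ[ℝ] Lp W 2 μ where
  toFun w := (kint_memLp hK w).toLp _
  map_add' u v := by
    rw [← MemLp.toLp_add]
    refine MemLp.toLp_congr _ _ (ae_of_all _ fun x => ?_)
    rw [Pi.add_apply]
    unfold kint
    rw [← integral_add (int_apply hK u x) (int_apply hK v x)]
    refine integral_congr_ae ?_
    filter_upwards [Lp.coeFn_add u v] with y hy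
    rw [hy, Pi.add_apply, map_add]
  map_smul' c u := by
    rw [RingHom.id_apply, ← MemLp.toLp_const_smul]
    refine MemLp.toLp_congr _ _ (ae_of_all _ fun x => ?_)
    rw [Pi.smul_apply]
    unfold kint
    rw [← integral_smul]
    refine integral_congr_ae ?_
    filter_upwards [Lp.coeFn_smul c u] with y hy
    rw [hy, Pi.smul_apply, map_smul]

theorem kopL_ae (hK : BKer K) (w : Lp W 2 μ) : kopL hK w =ᵐ[μ] kint μ K w :=
  (kint_memLp hK w).coeFn_toLp

theorem int_prod_sq (hK : BKer K) : Integrable (fun p : M × M => ‖K p.1 p.2‖ ^ 2) (μ.prod μ) := by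
  obtain ⟨C, hC⟩ := hK.bdd
  refine Integrable.of_bound (hK.meas.norm.pow 2).aestronglyMeasurable (C ^ 2)
    (ae_of_all _ fun p => ?_)
  rw [Real.norm_of_nonneg (by positivity)]
  exact pow_le_pow_left₀ (norm_nonneg _) (hC _ _) 2

theorem kopL_norm_le (hK : BKer K) (w : Lp W 2 μ) :
    ‖kopL hK w‖ ≤ Real.sqrt (∫ p : M × M, ‖K p.1 p.2‖ ^ 2 ∂(μ.prod μ)) * ‖w‖ := by
  refine abs_le_of_sq_le_sq' ?_ (by positivity) |>.2
  rw [mul_pow, Real.sq_sqrt (integral_nonneg fun _ => by positivity), norm_sq_L2 (kopL hK w)]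
  have h1 : ∫ y, ‖kopL hK w y‖ ^ 2 ∂μ = ∫ y, ‖kint μ K w y‖ ^ 2 ∂μ := by
    refine integral_congr_ae ?_
    filter_upwards [kopL_ae hK w] with x hx
    rw [hx]
  rw [h1, integral_prod _ (int_prod_sq hK), ← integral_mul_const]
  refine integral_mono (kint_memLp hK w).norm.integrable_sq ?_ fun x => kint_sq_le hK w x
  exact ((int_prod_sq hK).integral_prod_left).mul_const _

end KD

open Classical in
/-- the operator with kernel `K` -/
def kopB (K : M → M → (W →L[ℝ] W)) : Lp W 2 μ →L[ℝ] Lp W 2 μ :=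
  if hK : BKer K then (KD.kopL hK).mkContinuous _ (KD.kopL_norm_le hK) else 0

variable {K K' : M → M → (W →L[ℝ] W)}

theorem kopB_eq (hK : BKer K) (w : Lp W 2 μ) : kopB μ K w = KD.kopL hK w := by
  rw [kopB, dif_pos hK]; rfl

theorem kopB_ae (hK : BKer K) (w : Lp W 2 μ) :
    ∀ᵐ x ∂μ, kopB μ K w x = ∫ y, K x y (w y) ∂μ := by
  rw [kopB_eq μ hK]; exact KD.kopL_ae hK w

theorem kopB_norm_le (hK : BKer K) :
    ‖kopB μ K‖ ≤ Real.sqrt (∫ p : M × M, ‖K p.1 p.2‖ ^ 2 ∂(μ.prod μ)) := by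
  refine ContinuousLinearMap.opNorm_le_bound _ (Real.sqrt_nonneg _) fun w => ?_
  rw [kopB_eq μ hK]; exact KD.kopL_norm_le hK w

theorem kopB_schur (hK : BKer K) {A : ℝ} (hA : 0 ≤ A)
    (h1 : ∀ y, ∫ x, ‖K x y‖ ∂μ ≤ A) (h2 : ∀ x, ∫ y, ‖K x y‖ ∂μ ≤ A) : ‖kopB μ K‖ ≤ A := by
  obtain ⟨C, hC⟩ := hK.bdd
  refine ContinuousLinearMap.opNorm_le_bound _ hA fun w => ?_
  refine abs_le_of_sq_le_sq' ?_ (by positivity) |>.2
  rw [mul_pow, KD.norm_sq_L2, KD.norm_sq_L2 w]
  -- the integrand on the product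
  have hprod : Integrable (fun p : M × M => ‖K p.1 p.2‖ * ‖w p.2‖ ^ 2) (μ.prod μ) := by
    have h0 : Integrable (fun p : M × M => ‖w p.2‖ ^ 2) (μ.prod μ) := (KD.iL2sq w).comp_snd μ
    refine (h0.const_mul C).mono' ?_ (ae_of_all _ fun p => ?_)
    · exact hK.meas.norm.aestronglyMeasurable.mul h0.aestronglyMeasurable
    · rw [norm_mul, norm_norm, norm_pow, norm_norm]
      gcongr; exact hC _ _
  have hrow : ∀ x, ‖KD.kint μ K w x‖ ^ 2 ≤ A * ∫ y, ‖K x y‖ * ‖w y‖ ^ 2 ∂μ := by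
    intro x
    have hm1 : MemLp (fun y => Real.sqrt ‖K x y‖) 2 μ := by
      refine MemLp.of_bound ?_ (Real.sqrt C) (ae_of_all _ fun y => ?_)
      · exact (Real.continuous_sqrt.comp_stronglyMeasurable (KD.meas_row hK x).norm).aestronglyMeasurable
      · rw [Real.norm_of_nonneg (Real.sqrt_nonneg _)]; exact Real.sqrt_le_sqrt (hC x y)
    have hm2 : MemLp (fun y => Real.sqrt ‖K x y‖ * ‖w y‖) 2 μ := by
      have : MemLp (fun y => Real.sqrt C * ‖w y‖) 2 μ := (KD.mL2 w).const_mul _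
      refine this.mono' ?_ (ae_of_all _ fun y => ?_)
      · exact ((Real.continuous_sqrt.comp_stronglyMeasurable
          (KD.meas_row hK x).norm).aestronglyMeasurable).mul (KD.mL2 w).aestronglyMeasurable
      · rw [norm_mul, norm_norm, Real.norm_of_nonneg (Real.sqrt_nonneg _)]
        gcongr; exact hC x y
    have hint : Integrable (fun y => ‖K x y‖ * ‖w y‖) μ := (KD.mL2row hK x).integrable_mul (KD.mL2 w)
    have e1 : ‖KD.kint μ K w x‖ ≤ ∫ y, Real.sqrt ‖K x y‖ * (Real.sqrt ‖K x y‖ * ‖w y‖) ∂μ := by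
      have : (fun y => Real.sqrt ‖K x y‖ * (Real.sqrt ‖K x y‖ * ‖w y‖)) =
          fun y => ‖K x y‖ * ‖w y‖ := by
        funext y; rw [← mul_assoc, Real.mul_self_sqrt (norm_nonneg _)]
      rw [this]
      exact norm_integral_le_of_norm_le hint (ae_of_all _ fun y => (K x y).le_opNorm _)
    calc ‖KD.kint μ K w x‖ ^ 2
        ≤ (∫ y, Real.sqrt ‖K x y‖ * (Real.sqrt ‖K x y‖ * ‖w y‖) ∂μ) ^ 2 :=
          pow_le_pow_left₀ (norm_nonneg _) e1 2
      _ ≤ (∫ y, Real.sqrt ‖K x y‖ ^ 2 ∂μ) * ∫ y, (Real.sqrt ‖K x y‖ * ‖w y‖) ^ 2 ∂μ :=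
          KD.cs_real hm1 hm2
      _ = (∫ y, ‖K x y‖ ∂μ) * ∫ y, ‖K x y‖ * ‖w y‖ ^ 2 ∂μ := by
          simp_rw [mul_pow, Real.sq_sqrt (norm_nonneg _)]
      _ ≤ A * ∫ y, ‖K x y‖ * ‖w y‖ ^ 2 ∂μ := by
          refine mul_le_mul_of_nonneg_right (h2 x) (integral_nonneg fun y => by positivity)
  have h3 : ∫ y, ‖kopB μ K w y‖ ^ 2 ∂μ = ∫ y, ‖KD.kint μ K w y‖ ^ 2 ∂μ := by
    refine integral_congr_ae ?_
    filter_upwards [kopB_ae μ hK w] with x hx
    rw [hx]; rfl
  rw [h3]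
  have hcol : ∀ y, ∫ x, ‖K x y‖ * ‖w y‖ ^ 2 ∂μ ≤ A * ‖w y‖ ^ 2 := by
    intro y
    rw [integral_mul_const]
    exact mul_le_mul_of_nonneg_right (h1 y) (by positivity)
  calc ∫ x, ‖KD.kint μ K w x‖ ^ 2 ∂μ ≤ ∫ x, A * ∫ y, ‖K x y‖ * ‖w y‖ ^ 2 ∂μ ∂μ :=
        integral_mono (KD.kint_memLp hK w).norm.integrable_sq
          (hprod.integral_prod_left.const_mul A) hrow
    _ = A * ∫ x, ∫ y, ‖K x y‖ * ‖w y‖ ^ 2 ∂μ ∂μ := integral_const_mul _ _
    _ = A * ∫ y, ∫ x, ‖K x y‖ * ‖w y‖ ^ 2 ∂μ ∂μ := by rw [integral_integral_swap hprod]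
    _ ≤ A * ∫ y, A * ‖w y‖ ^ 2 ∂μ := by
        refine mul_le_mul_of_nonneg_left (integral_mono hprod.integral_prod_right ?_ hcol) hA
        exact (KD.iL2sq w).const_mul A
    _ = A ^ 2 * ∫ y, ‖w y‖ ^ 2 ∂μ := by rw [integral_const_mul]; ring

theorem kopB_sub (hK : BKer K) (hK' : BKer K') :
    kopB μ (fun x y => K x y - K' x y) = kopB μ K - kopB μ K' := by
  obtain ⟨C, hC⟩ := hK.bdd
  obtain ⟨C', hC'⟩ := hK'.bdd
  have h3 : BKer fun x y => K x y - K' x y := ⟨hK.meas.sub hK'.meas, C + C', fun x y =>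
    (norm_sub_le _ _).trans (add_le_add (hC x y) (hC' x y))⟩
  ext1 w
  refine Lp.ext ?_
  rw [sub_apply]
  filter_upwards [kopB_ae μ hK w, kopB_ae μ hK' w, kopB_ae μ h3 w,
    Lp.coeFn_sub (kopB μ K w) (kopB μ K' w)] with x e1 e2 e3 e4
  rw [e4, Pi.sub_apply, e1, e2, e3, ← integral_sub (KD.int_apply hK w x) (KD.int_apply hK' w x)]
  rfl

theorem kopB_smul (c : ℝ) (hK : BKer K) :
    kopB μ (fun x y => c • K x y) = c • kopB μ K := by
  obtain ⟨C, hC⟩ := hK.bdd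
  have h3 : BKer fun x y => c • K x y := ⟨hK.meas.const_smul c, |c| * C, fun x y => by
    rw [norm_smul, Real.norm_eq_abs]; exact mul_le_mul_of_nonneg_left (hC x y) (abs_nonneg _)⟩
  ext1 w
  refine Lp.ext ?_
  rw [smul_apply]
  filter_upwards [kopB_ae μ hK w, kopB_ae μ h3 w, Lp.coeFn_smul c (kopB μ K w)] with x e1 e2 e3
  rw [e3, Pi.smul_apply, e1, e2, ← integral_smul]
  rfl

theorem kopB_adj (hK : BKer K) :
    ContinuousLinearMap.adjoint (kopB μ K) =
      kopB μ fun x y => ContinuousLinearMap.adjoint (K y x) := by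
  obtain ⟨C, hC⟩ := hK.bdd
  symm
  rw [ContinuousLinearMap.eq_adjoint_iff]
  intro u w
  -- integrability on the product
  have hprod : Integrable (fun p : M × M => ⟪u p.1, K p.1 p.2 (w p.2)⟫) (μ.prod μ) := by
    have h0 : Integrable (fun p : M × M => ‖u p.1‖ * ‖w p.2‖) (μ.prod μ) :=
      (KD.iL2 u).norm.mul_prod (KD.iL2 w).norm
    refine (h0.const_mul C).mono' ?_ (ae_of_all _ fun p => ?_)
    · exact ((Lp.aestronglyMeasurable u).comp_fst).inner (KD.aesm_apply hK w)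
    · refine (norm_inner_le_norm _ _).trans ?_
      calc ‖u p.1‖ * ‖K p.1 p.2 (w p.2)‖ ≤ ‖u p.1‖ * (C * ‖w p.2‖) := by
            gcongr
            exact ((K p.1 p.2).le_opNorm _).trans (by gcongr; exact hC _ _)
        _ = C * (‖u p.1‖ * ‖w p.2‖) := by ring
  have e1 : ⟪kopB μ (fun x y => ContinuousLinearMap.adjoint (K y x)) u, w⟫ =
      ∫ y, ∫ x, ⟪u x, K x y (w y)⟫ ∂μ ∂μ := by
    rw [L2.inner_def]
    refine integral_congr_ae ?_
    filter_upwards [kopB_ae μ hK.adj u] with y hy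
    rw [hy, real_inner_comm, ← integral_inner (KD.int_apply hK.adj u y)]
    refine integral_congr_ae (ae_of_all _ fun x => ?_)
    change ⟪w y, ContinuousLinearMap.adjoint (K x y) (u x)⟫ = ⟪u x, K x y (w y)⟫
    rw [ContinuousLinearMap.adjoint_inner_right, real_inner_comm]
  have e2 : ⟪u, kopB μ K w⟫ = ∫ x, ∫ y, ⟪u x, K x y (w y)⟫ ∂μ ∂μ := by
    rw [L2.inner_def]
    refine integral_congr_ae ?_
    filter_upwards [kopB_ae μ hK w] with x hx
    rw [hx, ← integral_inner (KD.int_apply hK w x)]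
  rw [e1, e2]
  exact (integral_integral_swap hprod).symm

/-! ### Hilbert-Schmidt norms -/

/-- the squared Hilbert-Schmidt norm of an endomorphism of `W` -/
def hsW (A : W →L[ℝ] W) : ℝ := ∑ j, ‖A (stdOrthonormalBasis ℝ W j)‖ ^ 2

theorem hsW_nonneg (A : W →L[ℝ] W) : 0 ≤ hsW A := Finset.sum_nonneg fun _ _ => by positivity

theorem hsW_basis {ι : Type*} [Fintype ι] (b : OrthonormalBasis ι ℝ W) (A : W →L[ℝ] W) :
    ∑ j, ‖A (b j)‖ ^ 2 = LinearMap.trace ℝ W (((ContinuousLinearMap.adjoint A).comp A :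
      W →L[ℝ] W) : W →ₗ[ℝ] W) := by
  rw [LinearMap.trace_eq_sum_inner _ b]
  refine Finset.sum_congr rfl fun j _ => ?_
  change _ = ⟪b j, ContinuousLinearMap.adjoint A (A (b j))⟫
  rw [ContinuousLinearMap.adjoint_inner_right, real_inner_self_eq_norm_sq]

theorem hsW_eq_trace (A : W →L[ℝ] W) : hsW A = LinearMap.trace ℝ W
    (((ContinuousLinearMap.adjoint A).comp A : W →L[ℝ] W) : W →ₗ[ℝ] W) := hsW_basis _ A

theorem hsW_eq_trace' (A : W →L[ℝ] W) : hsW A = LinearMap.trace ℝ W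
    ((A.comp (ContinuousLinearMap.adjoint A) : W →L[ℝ] W) : W →ₗ[ℝ] W) := by
  rw [hsW_eq_trace]
  exact LinearMap.trace_mul_comm ℝ _ _

theorem hsW_adj (A : W →L[ℝ] W) : hsW (ContinuousLinearMap.adjoint A) = hsW A := by
  rw [hsW_eq_trace', hsW_eq_trace, ContinuousLinearMap.adjoint_adjoint]

theorem hsW_le (A : W →L[ℝ] W) : hsW A ≤ Module.finrank ℝ W * ‖A‖ ^ 2 := by
  unfold hsW
  calc ∑ j, ‖A (stdOrthonormalBasis ℝ W j)‖ ^ 2 ≤ ∑ _j : Fin (Module.finrank ℝ W), ‖A‖ ^ 2 := by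
        refine Finset.sum_le_sum fun j _ => pow_le_pow_left₀ (norm_nonneg _) ?_ 2
        have := A.le_opNorm (stdOrthonormalBasis ℝ W j)
        rwa [(stdOrthonormalBasis ℝ W).norm_eq_one, mul_one] at this
    _ = _ := by simp

/-- Parseval for one row of the kernel -/
theorem KD.row_parseval {κ : Type} (hK : BKer K) (b : HilbertBasis κ ℝ (Lp W 2 μ)) (x : M) :
    HasSum (fun i => ‖KD.kint μ K (b i) x‖ ^ 2) (∫ y, hsW (K x y) ∂μ) := by
  obtain ⟨C, hC⟩ := hK.bdd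
  set e := stdOrthonormalBasis ℝ W
  -- the elements `y ↦ K x y ^* e j`
  have hg : ∀ j, MemLp (fun y => ContinuousLinearMap.adjoint (K x y) (e j)) 2 μ := by
    intro j
    refine MemLp.of_bound ?_ (C * ‖e j‖) (ae_of_all _ fun y => ?_)
    · have h1 : StronglyMeasurable fun y => ContinuousLinearMap.adjoint (K x y) :=
        (ContinuousLinearMap.adjoint (𝕜 := ℝ) (E := W) (F := W)).continuous.comp_stronglyMeasurable
          (KD.meas_row hK x)
      exact ((ContinuousLinearMap.apply ℝ W (e j)).continuous.comp_stronglyMeasurable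
        h1).aestronglyMeasurable
    · refine (ContinuousLinearMap.le_opNorm _ _).trans ?_
      rw [LinearIsometryEquiv.norm_map]
      gcongr; exact hC x y
  have hin : ∀ i j, ⟪b i, (hg j).toLp _⟫ = ⟪KD.kint μ K (b i) x, e j⟫ := by
    intro i j
    rw [L2.inner_def, real_inner_comm, KD.kint, ← integral_inner (KD.int_apply hK (b i) x)]
    refine integral_congr_ae ?_
    filter_upwards [(hg j).coeFn_toLp] with y hy
    rw [hy, ContinuousLinearMap.adjoint_inner_right, real_inner_comm]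
  have hnorm : ∀ i, ‖KD.kint μ K (b i) x‖ ^ 2 = ∑ j, ⟪b i, (hg j).toLp _⟫ ^ 2 := by
    intro i
    simp_rw [hin]
    rw [← e.sum_sq_norm_inner_right (KD.kint μ K (b i) x)]
    refine Finset.sum_congr rfl fun j _ => ?_
    rw [Real.norm_eq_abs, sq_abs, real_inner_comm]
  have hsum : HasSum (fun i => ∑ j, ⟪b i, (hg j).toLp _⟫ ^ 2) (∑ j, ‖(hg j).toLp _‖ ^ 2) :=
    hasSum_sum fun j _ => hasSum_sq_inner b ((hg j).toLp _)
  have hend : ∑ j, ‖(hg j).toLp _‖ ^ 2 = ∫ y, hsW (K x y) ∂μ := by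
    have h1 : ∀ j, ‖(hg j).toLp _‖ ^ 2 = ∫ y, ‖ContinuousLinearMap.adjoint (K x y) (e j)‖ ^ 2 ∂μ := by
      intro j
      rw [KD.norm_sq_L2]
      refine integral_congr_ae ?_
      filter_upwards [(hg j).coeFn_toLp] with y hy
      rw [hy]
    simp_rw [h1]
    rw [← integral_finsetSum _ fun j _ => (hg j).norm.integrable_sq]
    refine integral_congr_ae (ae_of_all _ fun y => ?_)
    change hsW (ContinuousLinearMap.adjoint (K x y)) = _
    rw [hsW_adj]
  rw [← hend]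
  simp_rw [hnorm]
  exact hsum

theorem KD.hs_meas (hK : BKer K) : StronglyMeasurable fun p : M × M => hsW (K p.1 p.2) := by
  unfold hsW
  refine Finset.stronglyMeasurable_fun_sum _ fun j _ => ?_
  exact (((ContinuousLinearMap.apply ℝ W (stdOrthonormalBasis ℝ W j)).continuous.comp_stronglyMeasurable
    hK.meas).norm.pow 2)

theorem KD.hs_bdd (hK : BKer K) : ∃ C : ℝ, 0 ≤ C ∧ ∀ x y, hsW (K x y) ≤ C := by
  obtain ⟨C, hC⟩ := hK.bdd
  refine ⟨Module.finrank ℝ W * C ^ 2, by positivity, fun x y => (hsW_le _).trans ?_⟩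
  gcongr; exact hC x y

theorem KD.hs_int (hK : BKer K) : Integrable (fun p : M × M => hsW (K p.1 p.2)) (μ.prod μ) := by
  obtain ⟨C, -, hC⟩ := KD.hs_bdd hK
  refine Integrable.of_bound (KD.hs_meas hK).aestronglyMeasurable C (ae_of_all _ fun p => ?_)
  rw [Real.norm_of_nonneg (hsW_nonneg _)]
  exact hC _ _

theorem KD.norm_kopB_sq (hK : BKer K) (w : Lp W 2 μ) :
    ‖kopB μ K w‖ ^ 2 = ∫ x, ‖KD.kint μ K w x‖ ^ 2 ∂μ := by
  rw [KD.norm_sq_L2]
  refine integral_congr_ae ?_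
  filter_upwards [kopB_ae μ hK w] with x hx
  rw [hx]; rfl

/-- Hilbert-Schmidt norm of a kernel operator, upper bound in every basis -/
theorem kopB_hsSq_le {κ : Type} (hK : BKer K) (b : HilbertBasis κ ℝ (Lp W 2 μ)) :
    hsSq b (kopB μ K) ≤ ENNReal.ofReal (∫ x, ∫ y, hsW (K x y) ∂μ ∂μ) := by
  unfold hsSq
  rw [ENNReal.tsum_eq_iSup_sum]
  refine iSup_le fun s => ?_
  rw [← ENNReal.ofReal_sum_of_nonneg fun _ _ => by positivity]
  refine ENNReal.ofReal_le_ofReal ?_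
  simp_rw [KD.norm_kopB_sq μ hK]
  rw [← integral_finsetSum _ fun i _ => (KD.kint_memLp hK (b i)).norm.integrable_sq]
  refine integral_mono (integrable_finsetSum _ fun i _ =>
    (KD.kint_memLp hK (b i)).norm.integrable_sq) (KD.hs_int μ hK).integral_prod_left fun x => ?_
  exact sum_le_hasSum s (fun i _ => by positivity) (KD.row_parseval μ hK b x)

/-- Hilbert-Schmidt norm of a kernel operator -/
theorem kopB_hsSq {κ : Type} [Countable κ] (hK : BKer K) (b : HilbertBasis κ ℝ (Lp W 2 μ)) :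
    hsSq b (kopB μ K) = ENNReal.ofReal (∫ x, ∫ y, hsW (K x y) ∂μ ∂μ) := by
  unfold hsSq
  have h1 : ∀ i, ENNReal.ofReal (‖kopB μ K (b i)‖ ^ 2) =
      ∫⁻ x, ENNReal.ofReal (‖KD.kint μ K (b i) x‖ ^ 2) ∂μ := by
    intro i
    rw [KD.norm_kopB_sq μ hK]
    exact ofReal_integral_eq_lintegral_ofReal (KD.kint_memLp hK (b i)).norm.integrable_sq
      (ae_of_all _ fun x => by positivity)
  simp_rw [h1]
  rw [← lintegral_tsum fun i =>
    (KD.kint_memLp hK (b i)).norm.integrable_sq.aestronglyMeasurable.aemeasurable.ennreal_ofReal]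
  rw [ofReal_integral_eq_lintegral_ofReal (KD.hs_int μ hK).integral_prod_left
    (ae_of_all _ fun x => integral_nonneg fun y => hsW_nonneg _)]
  refine lintegral_congr fun x => ?_
  have h := KD.row_parseval μ hK b x
  rw [← h.tsum_eq, ENNReal.ofReal_tsum_of_nonneg (fun i => by positivity) h.summable]

theorem kopB_hsle (hK : BKer K) {C : ℝ} (hC : ∀ x y, ‖K x y‖ ≤ C) (hC0 : 0 ≤ C) :
    HSLe (kopB μ K) (Real.sqrt (Module.finrank ℝ W) * μ.real univ * C) := by
  refine ⟨by positivity, fun κ b => (kopB_hsSq_le μ hK b).trans (ENNReal.ofReal_le_ofReal ?_)⟩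
  have h1 : ∀ x, ∫ y, hsW (K x y) ∂μ ≤ Module.finrank ℝ W * C ^ 2 * μ.real univ := by
    intro x
    have hi : Integrable (fun y => hsW (K x y)) μ := by
      obtain ⟨C', -, hC'⟩ := KD.hs_bdd hK
      refine Integrable.of_bound ((KD.hs_meas hK).comp_measurable
        (measurable_const.prodMk measurable_id)).aestronglyMeasurable C' (ae_of_all _ fun y => ?_)
      rw [Real.norm_of_nonneg (hsW_nonneg _)]
      exact hC' _ _
    calc ∫ y, hsW (K x y) ∂μ ≤ ∫ _y, Module.finrank ℝ W * C ^ 2 ∂μ := by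
          refine integral_mono hi (integrable_const _) fun y => (hsW_le _).trans ?_
          gcongr; exact hC x y
      _ = _ := by rw [integral_const, smul_eq_mul, mul_comm]
  calc ∫ x, ∫ y, hsW (K x y) ∂μ ∂μ ≤ ∫ _x, Module.finrank ℝ W * C ^ 2 * μ.real univ ∂μ :=
        integral_mono (KD.hs_int μ hK).integral_prod_left (integrable_const _) h1
    _ = (Real.sqrt (Module.finrank ℝ W) * μ.real univ * C) ^ 2 := by
        rw [integral_const, smul_eq_mul, mul_pow, mul_pow, Real.sq_sqrt (Nat.cast_nonneg _)]; ring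

end

end Vale.Agent.P211.HK
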