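import Vale.Agent.P211.HK.KernelDefs
import Vale.Agent.P211.HK.KDAbs
import Vale.Agent.P211.HK.Kop

/-! P211 / HK / LK3 (helper249): `KernelData.heat : HeatData (Lp W 2 μ)`. -/

namespace Vale.Agent.P211.HK

open Filter Topology MeasureTheory Set
open scoped RealInnerProductSpace ENNReal

noncomputable section

set_option linter.unusedSectionVars false

variable {M W : Type} [MeasurableSpace M] [NormedAddCommGroup W] [InnerProductSpace ℝ W]
  [FiniteDimensional ℝ W] {μ : Measure M} [IsFiniteMeasure μ]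

/-! ### bounded measurable functions in `L²` -/

theorem memLp_of_bdd {φ : M → W} (h : StronglyMeasurable φ) (hb : ∃ C : ℝ, ∀ x, ‖φ x‖ ≤ C) :
    MemLp φ 2 μ := by
  obtain ⟨C, hC⟩ := hb
  exact MemLp.of_bound h.aestronglyMeasurable C (ae_of_all _ hC)

theorem inner_toLp {φ ψ : M → W} (hφ : MemLp φ 2 μ) (hψ : MemLp ψ 2 μ) :
    ⟪hφ.toLp φ, hψ.toLp ψ⟫ = ∫ x, ⟪φ x, ψ x⟫ ∂μ := by
  rw [L2.inner_def]
  refine integral_congr_ae ?_
  filter_upwards [hφ.coeFn_toLp, hψ.coeFn_toLp] with x h1 h2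
  rw [h1, h2]

/-- the linear map to `L²` given by bounded measurable functions -/
def toL2 {S : Type} [AddCommGroup S] [Module ℝ S] (f : S →ₗ[ℝ] (M → W))
    (h : ∀ s, MemLp (f s) 2 μ) : S →ₗ[ℝ] Lp W 2 μ where
  toFun s := (h s).toLp (f s)
  map_add' s r := by
    rw [← MemLp.toLp_add (h s) (h r)]
    exact MemLp.toLp_congr _ _ (by rw [map_add])
  map_smul' c s := by
    rw [RingHom.id_apply, ← MemLp.toLp_const_smul c (h s)]
    exact MemLp.toLp_congr _ _ (by rw [map_smul])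

theorem toL2_ae {S : Type} [AddCommGroup S] [Module ℝ S] (f : S →ₗ[ℝ] (M → W))
    (h : ∀ s, MemLp (f s) 2 μ) (s : S) : toL2 f h s =ᵐ[μ] f s := (h s).coeFn_toLp

/-! ### continuity of `kopB` in the kernel -/

theorem BKer.sub {K K' : M → M → (W →L[ℝ] W)} (hK : BKer K) (hK' : BKer K') :
    BKer fun x y => K x y - K' x y := by
  obtain ⟨C, hC⟩ := hK.bdd
  obtain ⟨C', hC'⟩ := hK'.bdd
  exact ⟨hK.meas.sub hK'.meas, C + C', fun x y =>
    (norm_sub_le _ _).trans (add_le_add (hC x y) (hC' x y))⟩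

theorem BKer.smul {K : M → M → (W →L[ℝ] W)} (c : ℝ) (hK : BKer K) :
    BKer fun x y => c • K x y := by
  obtain ⟨C, hC⟩ := hK.bdd
  exact ⟨hK.meas.const_smul c, |c| * C, fun x y => by
    rw [norm_smul, Real.norm_eq_abs]; exact mul_le_mul_of_nonneg_left (hC x y) (abs_nonneg _)⟩

/-- dominated convergence for kernels: operator norm -/
theorem kopB_tendsto_zero {ι : Type*} {l : Filter ι} [l.IsCountablyGenerated]
    {K : ι → M → M → (W →L[ℝ] W)} {C : ℝ} (hK : ∀ᶠ i in l, BKer (K i))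
    (hC : ∀ᶠ i in l, ∀ x y, ‖K i x y‖ ≤ C)
    (hl : ∀ x y, Tendsto (fun i => K i x y) l (𝓝 0)) :
    Tendsto (fun i => kopB μ (K i)) l (𝓝 0) := by
  refine (tendsto_zero_iff_norm_tendsto_zero (E := Lp W 2 μ →L[ℝ] Lp W 2 μ)).2 ?_
  have h1 : Tendsto (fun i => ∫ p : M × M, ‖K i p.1 p.2‖ ^ 2 ∂(μ.prod μ)) l
      (𝓝 (∫ _p : M × M, (0 : ℝ) ∂(μ.prod μ))) := by
    refine tendsto_integral_filter_of_dominated_convergence (fun _ => C ^ 2) ?_ ?_
      (integrable_const _) ?_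
    · filter_upwards [hK] with i hi
      exact (hi.meas.norm.pow 2).aestronglyMeasurable
    · filter_upwards [hC] with i hi
      refine ae_of_all _ fun p => ?_
      rw [Real.norm_of_nonneg (by positivity)]
      exact pow_le_pow_left₀ (norm_nonneg _) (hi _ _) 2
    · refine ae_of_all _ fun p => ?_
      have := ((hl p.1 p.2).norm.pow 2)
      simpa using this
  have h2 := h1.sqrt
  simp only [integral_zero, Real.sqrt_zero] at h2
  refine squeeze_zero' (Eventually.of_forall fun _ => norm_nonneg _) ?_ h2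
  filter_upwards [hK] with i hi
  exact kopB_norm_le μ hi

theorem kopB_continuousOn {K : ℝ → M → M → (W →L[ℝ] W)} {s : Set ℝ} {C : ℝ}
    (hK : ∀ t ∈ s, BKer (K t)) (hC : ∀ t ∈ s, ∀ x y, ‖K t x y‖ ≤ C)
    (hc : ∀ x y, ContinuousOn (fun t => K t x y) s) :
    ContinuousOn (fun t => kopB μ (K t)) s := by
  intro t ht
  have h1 : Tendsto (fun r => kopB μ (fun x y => K r x y - K t x y)) (𝓝[s] t) (𝓝 0) := by
    refine kopB_tendsto_zero (C := C + C) ?_ ?_ ?_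
    · filter_upwards [self_mem_nhdsWithin] with r hr
      exact (hK r hr).sub (hK t ht)
    · filter_upwards [self_mem_nhdsWithin] with r hr x y
      exact (norm_sub_le _ _).trans (add_le_add (hC r hr x y) (hC t ht x y))
    · intro x y
      have h0 : Tendsto (fun r => K r x y) (𝓝[s] t) (𝓝 (K t x y)) := hc x y t ht
      have := h0.sub (tendsto_const_nhds (x := K t x y))
      simpa using this
  have h2 : Tendsto (fun r => kopB μ (K r) - kopB μ (K t)) (𝓝[s] t) (𝓝 0) := by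
    refine h1.congr' ?_
    filter_upwards [self_mem_nhdsWithin] with r hr
    exact kopB_sub μ (hK r hr) (hK t ht)
  have h3 := h2.add (tendsto_const_nhds (x := kopB μ (K t)))
  simpa [ContinuousWithinAt] using h3

theorem kopB_hasDerivAt {K K' : ℝ → M → M → (W →L[ℝ] W)} {t a b C : ℝ} (ht : t ∈ Ioo a b)
    (hK : ∀ s ∈ Ioo a b, BKer (K s)) (hK' : BKer (K' t))
    (hC : ∀ s ∈ Ioo a b, ∀ x y, ‖K' s x y‖ ≤ C)
    (hd : ∀ s ∈ Ioo a b, ∀ x y, HasDerivAt (fun r => K r x y) (K' s x y) s) :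
    HasDerivAt (fun s => kopB μ (K s)) (kopB μ (K' t)) t := by
  refine (hasDerivAt_iff_tendsto_slope (𝕜 := ℝ) (F := Lp W 2 μ →L[ℝ] Lp W 2 μ)).2 ?_
  have hmem : ∀ᶠ r in 𝓝[≠] t, r ∈ Ioo a b :=
    nhdsWithin_le_nhds (isOpen_Ioo.mem_nhds ht)
  have h1 : Tendsto (fun r => kopB μ (fun x y => (r - t)⁻¹ • (K r x y - K t x y) - K' t x y))
      (𝓝[≠] t) (𝓝 0) := by
    refine kopB_tendsto_zero (C := C + C) ?_ ?_ ?_
    · filter_upwards [hmem] with r hr
      exact (((hK r hr).sub (hK t ht)).smul _).sub hK'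
    · filter_upwards [hmem, self_mem_nhdsWithin] with r hr hne x y
      refine (norm_sub_le _ _).trans (add_le_add ?_ (hC t ht x y))
      have e1 : ‖K r x y - K t x y‖ ≤ C * ‖r - t‖ :=
        (convex_Ioo a b).norm_image_sub_le_of_norm_hasDerivWithin_le
          (fun s hs => (hd s hs x y).hasDerivWithinAt) (fun s hs => hC s hs x y) ht hr
      rw [norm_smul, norm_inv, inv_mul_le_iff₀ (norm_pos_iff.2 (sub_ne_zero.2 hne))]
      linarith [mul_comm C ‖r - t‖]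
    · intro x y
      have := hasDerivAt_iff_tendsto_slope.1 (hd t ht x y)
      have h3 := this.sub (tendsto_const_nhds (x := K' t x y))
      simpa [slope_def_module] using h3
  have h2 : Tendsto (fun r => slope (fun s => kopB μ (K s)) t r - kopB μ (K' t)) (𝓝[≠] t) (𝓝 0) := by
    refine h1.congr' ?_
    filter_upwards [hmem] with r hr
    rw [kopB_sub μ (((hK r hr).sub (hK t ht)).smul _) hK', kopB_smul μ _ ((hK r hr).sub (hK t ht)),
      kopB_sub μ (hK r hr) (hK t ht), slope_def_module]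
  have h3 := h2.add (tendsto_const_nhds (x := kopB μ (K' t)))
  simpa using h3

namespace KernelData

variable {S : Type} [AddCommGroup S] [Module ℝ S] (K : KernelData (W := W) (S := S) μ)

theorem bz {t : ℝ} (ht : 0 < t) : BKer (K.z t) := by
  obtain ⟨C, hC⟩ := K.bdd t t ht
  exact ⟨K.z_meas t ht, C, fun x y => (hC t ⟨le_rfl, le_rfl⟩ x y).1⟩

theorem blz {t : ℝ} (ht : 0 < t) : BKer (K.lz t) := by
  obtain ⟨C, hC⟩ := K.bdd t t ht
  exact ⟨K.lz_meas t ht, C, fun x y => (hC t ⟨le_rfl, le_rfl⟩ x y).2.2⟩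

theorem be {t : ℝ} (ht : 0 < t) : BKer (K.e t) := by
  obtain ⟨C, hC⟩ := K.bdd t t ht
  exact ⟨K.e_meas t ht.le, C, fun x y => (hC t ⟨le_rfl, le_rfl⟩ x y).2.1⟩

theorem be' {t : ℝ} (ht : t ∈ Icc (0 : ℝ) 1) : BKer (K.e t) := by
  obtain ⟨C, hC⟩ := K.e_small
  exact ⟨K.e_meas t ht.1, C * t, fun x y => hC t ht x y⟩

theorem mev (s : S) : MemLp (K.ev s) 2 μ := memLp_of_bdd (K.ev_meas s) (K.ev_bdd s)

theorem mLf (s : S) : MemLp (K.Lf s) 2 μ := memLp_of_bdd (K.Lf_meas s) (K.Lf_bdd s)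

/-- sections in `L²` -/
def T : S →ₗ[ℝ] Lp W 2 μ := toL2 K.ev K.mev

/-- `L` of sections in `L²` -/
def G : S →ₗ[ℝ] Lp W 2 μ := toL2 K.Lf K.mLf

theorem T_ae (s : S) : K.T s =ᵐ[μ] K.ev s := toL2_ae _ _ s

theorem G_ae (s : S) : K.G s =ᵐ[μ] K.Lf s := toL2_ae _ _ s

theorem inner_G_T (s r : S) : ⟪K.G s, K.T r⟫ = ∫ x, ⟪K.Lf s x, K.ev r x⟫ ∂μ :=
  inner_toLp (K.mLf s) (K.mev r)

theorem inner_T_G (s r : S) : ⟪K.T s, K.G r⟫ = ∫ x, ⟪K.ev s x, K.Lf r x⟫ ∂μ :=
  inner_toLp (K.mev s) (K.mLf r)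

theorem symm' (s r : S) : ⟪K.G s, K.T r⟫ = ⟪K.T s, K.G r⟫ := by
  rw [inner_G_T, inner_T_G, K.symm]

theorem norm_T_sq (s : S) : ‖K.T s‖ ^ 2 = ∫ x, ‖K.ev s x‖ ^ 2 ∂μ := by
  rw [← real_inner_self_eq_norm_sq]
  refine (inner_toLp (K.mev s) (K.mev s)).trans ?_
  simp_rw [real_inner_self_eq_norm_sq]

/-- the parametrix -/
def Z (t : ℝ) : Lp W 2 μ →L[ℝ] Lp W 2 μ := kopB μ (K.z t)

/-- the error -/
def E (t : ℝ) : Lp W 2 μ →L[ℝ] Lp W 2 μ := kopB μ (K.e t)

/-- `L` applied to the parametrix -/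
def LZ (t : ℝ) : Lp W 2 μ →L[ℝ] Lp W 2 μ := kopB μ (K.lz t)

theorem Z_ae {t : ℝ} (ht : 0 < t) (w : Lp W 2 μ) : ∀ᵐ x ∂μ, K.Z t w x = ∫ y, K.z t x y (w y) ∂μ :=
  kopB_ae μ (K.bz ht) w

theorem E_ae {t : ℝ} (ht : t ∈ Icc (0 : ℝ) 1) (w : Lp W 2 μ) :
    ∀ᵐ x ∂μ, K.E t w x = ∫ y, K.e t x y (w y) ∂μ :=
  kopB_ae μ (K.be' ht) w

theorem LZ_ae {t : ℝ} (ht : 0 < t) (w : Lp W 2 μ) :
    ∀ᵐ x ∂μ, K.LZ t w x = ∫ y, K.lz t x y (w y) ∂μ :=
  kopB_ae μ (K.blz ht) w

theorem exists_mem {t : ℝ} (ht : 0 < t) (w : Lp W 2 μ) : ∃ s, K.T s = K.Z t w ∧ K.G s = K.LZ t w := by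
  obtain ⟨s, h1, h2⟩ := K.z_mem t ht w
  refine ⟨s, Lp.ext ?_, Lp.ext ?_⟩
  · filter_upwards [K.T_ae s, h1, K.Z_ae ht w] with x e1 e2 e3
    rw [e1, e2, e3]
  · filter_upwards [K.G_ae s, h2, K.LZ_ae ht w] with x e1 e2 e3
    rw [e1, e2, e3]

theorem Z_schur {δ : ℝ} (hδ : 0 < δ) : ∀ᶠ t in 𝓝[>] (0 : ℝ), ‖K.Z t‖ ≤ 1 + δ := by
  filter_upwards [K.schur δ hδ, self_mem_nhdsWithin] with t ht ht0
  exact kopB_schur μ (K.bz ht0) (by positivity) ht.1 ht.2

theorem adj_lim {φ : M → W} (hφ : φ ∈ K.D) {f : Lp W 2 μ} (hf : f =ᵐ[μ] φ) :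
    Tendsto (fun t => ContinuousLinearMap.adjoint (K.Z t) f) (𝓝[>] 0) (𝓝 f) := by
  obtain ⟨C, hC⟩ := K.D_bdd φ hφ
  rw [tendsto_iff_norm_sub_tendsto_zero]
  -- the function `y ↦ ∫ x, z* φ`
  set g : ℝ → M → W := fun t y => ∫ x, (ContinuousLinearMap.adjoint (K.z t x y)) (φ x) ∂μ with hg
  have hbk : ∀ t : ℝ, 0 < t → BKer fun y x => ContinuousLinearMap.adjoint (K.z t x y) := fun t ht =>
    (K.bz ht).adj
  have hZf : ∀ t : ℝ, 0 < t → ContinuousLinearMap.adjoint (K.Z t) f =ᵐ[μ] g t := by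
    intro t ht
    have h1 : ContinuousLinearMap.adjoint (K.Z t) =
        kopB μ fun y x => ContinuousLinearMap.adjoint (K.z t x y) := kopB_adj μ (K.bz ht)
    rw [h1]
    filter_upwards [kopB_ae μ (hbk t ht) f] with y hy
    rw [hy]
    refine integral_congr_ae ?_
    filter_upwards [hf] with x hx
    rw [hx]
  have hgm : ∀ t : ℝ, 0 < t → AEStronglyMeasurable (g t) μ := fun t ht =>
    (Lp.aestronglyMeasurable _).congr (hZf t ht)
  have hnorm : ∀ t : ℝ, 0 < t → ‖ContinuousLinearMap.adjoint (K.Z t) f - f‖ ^ 2 =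
      ∫ y, ‖g t y - φ y‖ ^ 2 ∂μ := by
    intro t ht
    rw [← real_inner_self_eq_norm_sq, L2.inner_def]
    refine integral_congr_ae ?_
    filter_upwards [Lp.coeFn_sub (ContinuousLinearMap.adjoint (K.Z t) f) f, hZf t ht, hf]
      with y h1 h2 h3
    rw [real_inner_self_eq_norm_sq, h1, Pi.sub_apply, h2, h3]
  have hbound : ∀ᶠ t in 𝓝[>] (0 : ℝ), ∀ y, ‖g t y‖ ≤ 2 * |C| := by
    filter_upwards [K.schur 1 one_pos, self_mem_nhdsWithin] with t ht ht0 y
    have hb := hbk t ht0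
    obtain ⟨C₂, hC₂⟩ := (K.bz ht0).bdd
    have hint : Integrable (fun x => ‖K.z t x y‖ * |C|) μ := by
      refine Integrable.mul_const ?_ _
      refine Integrable.of_bound ?_ C₂ (ae_of_all _ fun x => ?_)
      · exact ((K.bz ht0).meas.comp_measurable (measurable_id.prodMk measurable_const)).norm.aestronglyMeasurable
      · rw [norm_norm]; exact hC₂ x y
    calc ‖g t y‖ ≤ ∫ x, ‖K.z t x y‖ * |C| ∂μ := by
          refine norm_integral_le_of_norm_le hint (ae_of_all _ fun x => ?_)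
          refine (ContinuousLinearMap.le_opNorm _ _).trans ?_
          rw [LinearIsometryEquiv.norm_map]
          exact mul_le_mul_of_nonneg_left ((hC x).trans (le_abs_self C)) (norm_nonneg _)
      _ = (∫ x, ‖K.z t x y‖ ∂μ) * |C| := integral_mul_const _ _
      _ ≤ (1 + 1) * |C| := by gcongr; exact ht.1 y
      _ = 2 * |C| := by ring
  have hmain : Tendsto (fun t => ∫ y, ‖g t y - φ y‖ ^ 2 ∂μ) (𝓝[>] (0 : ℝ))
      (𝓝 (∫ _y : M, (0 : ℝ) ∂μ)) := by
    refine tendsto_integral_filter_of_dominated_convergence (fun _ => (2 * |C| + |C|) ^ 2) ?_ ?_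
      (integrable_const _) ?_
    · filter_upwards [self_mem_nhdsWithin] with t ht
      exact ((hgm t ht).sub (K.D_meas φ hφ).aestronglyMeasurable).norm.pow 2
    · filter_upwards [hbound] with t ht
      refine ae_of_all _ fun y => ?_
      rw [Real.norm_of_nonneg (by positivity)]
      refine pow_le_pow_left₀ (norm_nonneg _) ?_ 2
      exact (norm_sub_le _ _).trans (add_le_add (ht y) ((hC y).trans (le_abs_self C)))
    · filter_upwards [K.lim φ hφ] with y hy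
      have h1 := (hy.sub (tendsto_const_nhds (x := φ y))).norm.pow 2
      simpa using h1
  rw [integral_zero] at hmain
  have h2 := hmain.sqrt
  rw [Real.sqrt_zero] at h2
  refine h2.congr' ?_
  filter_upwards [self_mem_nhdsWithin] with t ht
  rw [← hnorm t ht, Real.sqrt_sq (norm_nonneg _)]

theorem Z_lim (w : Lp W 2 μ) : Tendsto (fun t => K.Z t w) (𝓝[>] 0) (𝓝 w) := by
  refine strong_lim K.D_dense (fun δ hδ => K.Z_schur hδ) ?_ w
  rintro f ⟨φ, hφ, hf⟩
  exact K.adj_lim hφ hf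

theorem dense_T : (LinearMap.range K.T).topologicalClosure = ⊤ := by
  rw [← Submodule.dense_iff_topologicalClosure_eq_top]
  intro w
  refine mem_closure_of_tendsto (K.Z_lim w) ?_
  filter_upwards [self_mem_nhdsWithin] with t ht
  obtain ⟨s, hs, -⟩ := K.exists_mem ht w
  exact ⟨s, hs⟩

theorem exists_L : ∃ L : LinearMap.range K.T →ₗ[ℝ] Lp W 2 μ,
    ∀ s, L ⟨K.T s, LinearMap.mem_range_self K.T s⟩ = K.G s :=
  exists_opL K.T K.G (fun s hs => op_wellDefined K.T K.G K.symm' K.dense_T s hs)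

/-- the operator -/
def L : LinearMap.range K.T →ₗ[ℝ] Lp W 2 μ := K.exists_L.choose

theorem L_apply (s : S) : K.L ⟨K.T s, LinearMap.mem_range_self K.T s⟩ = K.G s :=
  K.exists_L.choose_spec s

theorem L_apply' {f : Lp W 2 μ} (hf : f ∈ LinearMap.range K.T) {s : S} (h : K.T s = f) :
    K.L ⟨f, hf⟩ = K.G s := by
  subst h; exact K.L_apply s

theorem Z_deriv {t : ℝ} (ht : 0 < t) : HasDerivAt K.Z (K.E t - K.LZ t) t := by
  obtain ⟨C, hC⟩ := K.bdd (t / 2) (t + 1) (by positivity)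
  have h1 : HasDerivAt (fun s => kopB μ (K.z s)) (kopB μ (fun x y => K.e t x y - K.lz t x y)) t := by
    refine kopB_hasDerivAt (K' := fun t x y => K.e t x y - K.lz t x y) (a := t / 2) (b := t + 1)
      (C := C + C) ⟨by linarith, by linarith⟩
      (fun s hs => K.bz (by linarith [hs.1])) ((K.be ht).sub (K.blz ht)) ?_ ?_
    · intro s hs x y
      have := hC s ⟨hs.1.le, hs.2.le⟩ x y
      exact (norm_sub_le _ _).trans (add_le_add this.2.1 this.2.2)
    · intro s hs x y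
      exact K.z_deriv s (by linarith [hs.1]) x y
  rw [kopB_sub μ (K.be ht) (K.blz ht)] at h1
  exact h1

theorem E_cont : ContinuousOn K.E (Icc 0 1) := by
  obtain ⟨C, hC⟩ := K.e_small
  refine kopB_continuousOn (C := |C|) (fun t ht => K.be' ht) (fun t ht x y => ?_) K.e_cont
  refine (hC t ht x y).trans ?_
  calc C * t ≤ |C| * t := mul_le_mul_of_nonneg_right (le_abs_self C) ht.1
    _ ≤ |C| * 1 := mul_le_mul_of_nonneg_left ht.2 (abs_nonneg _)
    _ = |C| := mul_one _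

/-- the constant of the error -/
def Ce : ℝ := |K.e_small.choose|

theorem e_le {t : ℝ} (ht : t ∈ Icc (0 : ℝ) 1) (x y : M) : ‖K.e t x y‖ ≤ K.Ce * t :=
  (K.e_small.choose_spec t ht x y).trans (mul_le_mul_of_nonneg_right (le_abs_self _) ht.1)

theorem Z_bdd : ∃ C : ℝ, ∀ t ∈ Ioc (0 : ℝ) 1, ‖K.Z t‖ ≤ C := by
  obtain ⟨a, ha, h1⟩ : ∃ a > 0, ∀ t ∈ Ioo (0 : ℝ) a, ‖K.Z t‖ ≤ 2 := by
    have := K.Z_schur one_pos
    rw [eventually_iff, mem_nhdsGT_iff_exists_Ioo_subset] at this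
    obtain ⟨a, ha, h⟩ := this
    exact ⟨a, ha, fun t ht => by have := h ht; simp only [Set.mem_ofPred_eq] at this; linarith⟩
  obtain ⟨C, hC⟩ := K.bdd a 1 ha
  refine ⟨max 2 (Real.sqrt (Module.finrank ℝ W) * μ.real univ * |C|), fun t ht => ?_⟩
  rcases lt_or_ge t a with h | h
  · exact (h1 t ⟨ht.1, h⟩).trans (le_max_left _ _)
  · refine le_trans ?_ (le_max_right _ _)
    refine HSLe.opNorm_le ?_
    exact kopB_hsle μ (K.bz ht.1) (fun x y => ((hC t ⟨h, ht.2⟩ x y).1).trans (le_abs_self C))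
      (abs_nonneg _)

/-- LK3: kernel data give heat data. -/
def heat : HeatData (Lp W 2 μ) where
  Dm := LinearMap.range K.T
  L := K.L
  symm := by
    rintro ⟨_, s, rfl⟩ ⟨_, r, rfl⟩
    rw [K.L_apply, K.L_apply]
    exact K.symm' s r
  lower := by
    obtain ⟨c, hc⟩ := K.lower
    refine ⟨c, ?_⟩
    rintro ⟨_, s, rfl⟩
    rw [K.L_apply]
    change -c * ‖K.T s‖ ^ 2 ≤ ⟪K.G s, K.T s⟫
    rw [K.norm_T_sq, K.inner_G_T]
    exact hc s
  Z := K.Z
  E := K.E
  Z_bdd := K.Z_bdd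
  Z_lim := K.Z_lim
  Z_mem := fun t ht w => by
    obtain ⟨s, hs, -⟩ := K.exists_mem ht.1 w
    exact ⟨s, hs⟩
  Z_deriv := fun t ht w => by
    obtain ⟨s, hs, hs2⟩ := K.exists_mem ht.1 w
    rw [K.L_apply' _ hs, hs2]
    have h := (K.Z_deriv ht.1).clm_apply (hasDerivAt_const t w)
    simpa using h
  Z_cont := fun w t ht => by
    have h := (K.Z_deriv ht.1).clm_apply (hasDerivAt_const t w)
    exact h.continuousAt.continuousWithinAt
  E_cont := fun w => K.E_cont.clm_apply continuousOn_const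
  Z_hs := fun t ht => by
    obtain ⟨C, hC⟩ := K.bdd t t ht.1
    exact ⟨_, kopB_hsle μ (K.bz ht.1)
      (fun x y => ((hC t ⟨le_rfl, le_rfl⟩ x y).1).trans (le_abs_self C)) (abs_nonneg _)⟩
  eps := fun t => Real.sqrt (Module.finrank ℝ W) * μ.real univ * (K.Ce * t)
  eps_bdd := ⟨Real.sqrt (Module.finrank ℝ W) * μ.real univ * K.Ce, fun t ht => by
    have h0 : 0 ≤ K.Ce := abs_nonneg _
    have : K.Ce * t ≤ K.Ce := mul_le_of_le_one_right h0 ht.2
    gcongr⟩
  eps_lim := by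
    have h : Tendsto (fun t : ℝ => Real.sqrt (Module.finrank ℝ W) * μ.real univ * (K.Ce * t))
        (𝓝 0) (𝓝 (Real.sqrt (Module.finrank ℝ W) * μ.real univ * (K.Ce * 0))) :=
      ((continuous_const.mul continuous_id).const_mul _).tendsto 0 
    simp only [mul_zero] at h
    exact h.mono_left nhdsWithin_le_nhds
  E_hs := fun t ht =>
    kopB_hsle μ (K.be' ht) (fun x y => K.e_le ht x y) (mul_nonneg (abs_nonneg _) ht.1)

end KernelData

end

end Vale.Agent.P211.HK
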