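import Vale.Agent.P211.HK.LK2Defs
import Vale.Agent.P211.HK.SC2
import Vale.Agent.P211.HK.SC1
import Mathlib.Geometry.Manifold.ContMDiffMFDeriv

/-! P211 / HK / LK2: smooth kernels, derivatives with parameters. helper339. -/

set_option maxSynthPendingDepth 3
set_option linter.unusedSectionVars false

namespace Vale.Agent.P211.HK.LK2

open scoped Manifold ContDiff Topology RealInnerProductSpace
open Bundle Filter VectorField MeasureTheory Set

noncomputable section

section param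

variable {E : Type} [NormedAddCommGroup E] [NormedSpace ℝ E]
  {M : Type} [TopologicalSpace M] [ChartedSpace E M] [IsManifold 𝓘(ℝ, E) ∞ M]
  {EN : Type} [NormedAddCommGroup EN] [NormedSpace ℝ EN] {HN : Type} [TopologicalSpace HN]
  {J : ModelWithCorners ℝ EN HN} {N : Type} [TopologicalSpace N] [ChartedSpace HN N]
  [IsManifold J ∞ N]
  {V : Type} [NormedAddCommGroup V] [NormedSpace ℝ V]

/-- derivative in the second variable along a smooth field, jointly smooth -/
theorem contMDiffAt_dir_param {f : N → M → V} {g : N → M} (X : VF E M) {z₀ : N}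
    {m n : WithTop ℕ∞}
    (hf : ContMDiffAt (J.prod 𝓘(ℝ, E)) 𝓘(ℝ, V) n (Function.uncurry f) (z₀, g z₀))
    (hg : ContMDiffAt J 𝓘(ℝ, E) m g z₀) (hmn : m + 1 ≤ n) (hm : m ≤ ∞) :
    ContMDiffAt J 𝓘(ℝ, V) m
      (fun z => (mfderiv 𝓘(ℝ, E) 𝓘(ℝ, V) (f z) (g z) (X (g z)) : V)) z₀ := by
  have h1 := ContMDiffAt.mfderiv f g hf hg hmn
  have hb2 : ContMDiffAt J 𝓘(ℝ, V) m (fun z => f z (g z)) z₀ := by
    have h3 := hf.of_le (le_trans (le_add_of_nonneg_right zero_le_one) hmn)
    exact h3.comp z₀ (contMDiffAt_id.prodMk hg)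
  have hX : ContMDiffAt J (𝓘(ℝ, E).prod 𝓘(ℝ, E)) m
      (fun z => (⟨g z, X (g z)⟩ : TotalSpace E (TangentSpace 𝓘(ℝ, E) : M → Type))) z₀ :=
    ((X.contMDiff (g z₀)).of_le hm).comp z₀ hg
  have h2 := ContMDiffAt.clm_apply_of_inCoordinates (F₁ := E) (F₂ := V)
    (E₁ := (TangentSpace 𝓘(ℝ, E) : M → Type)) (E₂ := (TangentSpace 𝓘(ℝ, V) : V → Type))
    (b₁ := g) (b₂ := fun z => f z (g z)) (v := fun z => X (g z))
    (ϕ := fun z => mfderiv 𝓘(ℝ, E) 𝓘(ℝ, V) (f z) (g z)) h1 hX hb2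
  have h4 := (contMDiffAt_totalSpace.mp h2).2
  simp only [trivializationAt_model_space_apply] at h4
  exact h4

end param

end

end Vale.Agent.P211.HK.LK2
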