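import Mathlib

/-! P211 / HK, block PI (helper545): integrals of smooth kernels on manifolds are smooth. -/

set_option linter.unusedSectionVars false

namespace Vale.Agent.P211.HK

open scoped Manifold ContDiff Topology
open Filter MeasureTheory Set

noncomputable section

/-! ### Euclidean parameter -/

section bdd

variable {X Y F : Type*} [TopologicalSpace X] [TopologicalSpace Y] [NormedAddCommGroup F]

/-- a continuous function near `{p} × K` is bounded near `{p} × K` -/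
theorem exists_bound_near {U : Set X} {V : Set Y} {f : X × Y → F} (hU : IsOpen U) (hV : IsOpen V)
    (hf : ContinuousOn f (U ×ˢ V)) {Kc : Set Y} (hK : IsCompact Kc) (hKV : Kc ⊆ V) {p : X}
    (hp : p ∈ U) : ∃ C : ℝ, ∀ᶠ q in 𝓝 p, q ∈ U ∧ ∀ y ∈ Kc, ‖f (q, y)‖ ≤ C := by
  have h1 : ∀ y ∈ Kc, ∃ C : ℝ, ∀ᶠ z : X × Y in 𝓝 (p, y), ‖f z‖ ≤ C := by
    intro y hy
    have h2 : ContinuousAt f (p, y) :=
      hf.continuousAt ((hU.prod hV).mem_nhds ⟨hp, hKV hy⟩)
    exact ⟨‖f (p, y)‖ + 1, h2.norm.eventually_le_const (lt_add_one _)⟩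
  choose! C hC using h1
  have h3 : ∃ C0 : ℝ, ∀ᶠ q in 𝓝 p, ∀ y ∈ Kc, ‖f (q, y)‖ ≤ C0 := by
    refine hK.induction_on (p := fun s => ∃ C0 : ℝ, ∀ᶠ q in 𝓝 p, ∀ y ∈ s, ‖f (q, y)‖ ≤ C0)
      ⟨0, by simp⟩ ?_ ?_ ?_
    · rintro s t hst ⟨c, hc⟩
      exact ⟨c, hc.mono fun q hq y hy => hq y (hst hy)⟩
    · rintro s t ⟨c, hc⟩ ⟨d, hd⟩
      refine ⟨max c d, ?_⟩
      filter_upwards [hc, hd] with q h1 h2 y hy
      rcases hy with hy | hy
      · exact (h1 y hy).trans (le_max_left _ _)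
      · exact (h2 y hy).trans (le_max_right _ _)
    · intro y hy
      have h4 := hC y hy
      rw [nhds_prod_eq] at h4
      obtain ⟨pa, hpa, pb, hpb, hab⟩ := Filter.eventually_prod_iff.1 h4
      refine ⟨{z | pb z}, mem_nhdsWithin_of_mem_nhds hpb, C y, ?_⟩
      filter_upwards [hpa] with q hq z hz
      exact hab hq hz
  obtain ⟨C0, hC0⟩ := h3
  exact ⟨C0, (hU.eventually_mem hp).and hC0⟩

end bdd

section eu

variable {E : Type} [NormedAddCommGroup E] [NormedSpace ℝ E]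
  {E' : Type} [NormedAddCommGroup E'] [NormedSpace ℝ E'] {H' : Type} [TopologicalSpace H']
  {I' : ModelWithCorners ℝ E' H'}
  {Y : Type} [TopologicalSpace Y] [ChartedSpace H' Y] [MeasurableSpace Y] [BorelSpace Y]
  {G : Type} [NormedAddCommGroup G] [NormedSpace ℝ G]

theorem contDiff_flip (E G F : Type) [NormedAddCommGroup E] [NormedSpace ℝ E]
    [NormedAddCommGroup G] [NormedSpace ℝ G] [NormedAddCommGroup F] [NormedSpace ℝ F]
    (n : WithTop ℕ∞) : ContDiff ℝ n fun L : E →L[ℝ] G →L[ℝ] F => L.flip := by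
  have h : IsBoundedLinearMap ℝ fun L : E →L[ℝ] G →L[ℝ] F => L.flip := by
    refine IsLinearMap.with_bound ⟨fun a b => rfl, fun c a => rfl⟩ 1 fun L => ?_
    rw [one_mul]
    have := ContinuousLinearMap.opNorm_flip L
    exact this.le
  exact h.contDiff

omit [MeasurableSpace Y] [BorelSpace Y] in
/-- joint smoothness of the partial derivative -/
theorem contMDiffOn_fderiv_left [IsManifold I' ∞ Y] {F : Type} [NormedAddCommGroup F]
    [NormedSpace ℝ F] {U : Set E} {V : Set Y} (hU : IsOpen U) (hV : IsOpen V) {n m : ℕ∞}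
    (hmn : m + 1 ≤ n) {k : E → Y → F}
    (hk : ContMDiffOn (𝓘(ℝ, E).prod I') 𝓘(ℝ, F) n (fun z : E × Y => k z.1 z.2) (U ×ˢ V)) :
    ContMDiffOn (𝓘(ℝ, E).prod I') 𝓘(ℝ, E →L[ℝ] F) m
      (fun z : E × Y => fderiv ℝ (fun p => k p z.2) z.1) (U ×ˢ V) := by
  intro z hz
  have h1 : ContMDiffAt (𝓘(ℝ, E).prod I') 𝓘(ℝ, F) n (fun z : E × Y => k z.1 z.2) z :=
    (hk z hz).contMDiffAt ((hU.prod hV).mem_nhds hz)
  have h2 : ContMDiffAt ((𝓘(ℝ, E).prod I').prod 𝓘(ℝ, E)) 𝓘(ℝ, F) n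
      (Function.uncurry fun (w : E × Y) (p : E) => k p w.2) (z, z.1) := by
    have h3 : ContMDiffAt ((𝓘(ℝ, E).prod I').prod 𝓘(ℝ, E)) (𝓘(ℝ, E).prod I') n
        (fun w : (E × Y) × E => (w.2, w.1.2)) (z, z.1) :=
      contMDiffAt_snd.prodMk (contMDiffAt_snd.comp _ contMDiffAt_fst)
    exact ContMDiffAt.comp (z, z.1) (g := fun z : E × Y => k z.1 z.2) h1 h3
  have h4 := ContMDiffAt.mfderiv (fun (w : E × Y) (p : E) => k p w.2) (fun w : E × Y => w.1) h2
    (m := m) contMDiffAt_fst (by exact_mod_cast hmn)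
  have e := inTangentCoordinates_model_space (I := 𝓘(ℝ, E)) (I' := 𝓘(ℝ, F))
    (fun w : E × Y => w.1) (fun x => k x.1 x.2)
    (fun x : E × Y => fderiv ℝ (fun p => k p x.2) x.1) z
  have h5 : ContMDiffAt (𝓘(ℝ, E).prod I') 𝓘(ℝ, E →L[ℝ] F) m
      (inTangentCoordinates 𝓘(ℝ, E) 𝓘(ℝ, F) (fun w : E × Y => w.1)
    (fun x => k x.1 x.2) (fun x : E × Y => fderiv ℝ (fun p => k p x.2) x.1) z) z := by
    simp only [mfderiv_eq_fderiv] at h4
    exact h4
  rw [e] at h5
  exact h5.contMDiffWithinAt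

omit [ChartedSpace H' Y] in
/-- integrability of the integrand -/
theorem integrableOn_kernel {X : Type} [TopologicalSpace X] [T2Space Y] {U : Set X} {V : Set Y}
    (hU : IsOpen U) (hV : IsOpen V) {Kc : Set Y} (hK : IsCompact Kc) (hKV : Kc ⊆ V)
    {μ : Measure Y} {g : Y → G} (hg : IntegrableOn g Kc μ) {F : Type} [NormedAddCommGroup F]
    [NormedSpace ℝ F] {k : X → Y → (G →L[ℝ] F)}
    (hk : ContinuousOn (fun z : X × Y => k z.1 z.2) (U ×ˢ V)) {p : X} (hp : p ∈ U) :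
    IntegrableOn (fun y => k p y (g y)) Kc μ := by
  have hKm : MeasurableSet Kc := hK.measurableSet
  have h1 : ContinuousOn (fun y => k p y) Kc :=
    hk.comp (f := fun y => (p, y)) (by fun_prop) fun y hy => ⟨hp, hKV hy⟩
  have h2 := h1.aestronglyMeasurable_of_isCompact hK hKm (μ := μ)
  obtain ⟨C, hC⟩ := exists_bound_near hU hV hk hK hKV hp
  refine Integrable.mono' (hg.norm.const_mul C)
    ((ContinuousLinearMap.id ℝ (G →L[ℝ] F)).aestronglyMeasurable_comp₂ h2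
      hg.aestronglyMeasurable) ?_
  refine (ae_restrict_iff' hKm).2 (Eventually.of_forall fun y hy => ?_)
  exact ((k p y).le_opNorm _).trans (mul_le_mul_of_nonneg_right
    (hC.self_of_nhds.2 y hy) (norm_nonneg _))

/-- **PI1, Euclidean parameter, finite order** -/
theorem contDiffOn_integral_nat [IsManifold I' ∞ Y] [T2Space Y] {U : Set E} {V : Set Y}
    (hU : IsOpen U) (hV : IsOpen V) {Kc : Set Y} (hK : IsCompact Kc) (hKV : Kc ⊆ V)
    {μ : Measure Y} {g : Y → G} (hg : IntegrableOn g Kc μ) (n : ℕ) :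
    ∀ (F : Type) [NormedAddCommGroup F] [NormedSpace ℝ F] (k : E → Y → (G →L[ℝ] F)),
    ContMDiffOn (𝓘(ℝ, E).prod I') 𝓘(ℝ, G →L[ℝ] F) n (fun z : E × Y => k z.1 z.2) (U ×ˢ V) →
    ContDiffOn ℝ n (fun p => ∫ y in Kc, k p y (g y) ∂μ) U ∧
    (1 ≤ n → ∀ p ∈ U, HasFDerivAt (fun p => ∫ y in Kc, k p y (g y) ∂μ)
      (∫ y in Kc, (fderiv ℝ (fun p => k p y) p).flip (g y) ∂μ) p) := by
  have hKm : MeasurableSet Kc := hK.measurableSet
  -- measurability and integrability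
  have meas : ∀ (F : Type) [NormedAddCommGroup F] [NormedSpace ℝ F] (k : E → Y → (G →L[ℝ] F)),
      ContinuousOn (fun z : E × Y => k z.1 z.2) (U ×ˢ V) → ∀ p ∈ U,
      AEStronglyMeasurable (fun y => k p y (g y)) (μ.restrict Kc) := by
    intro F _ _ k hk p hp
    have h1 : ContinuousOn (fun y => k p y) Kc :=
      hk.comp (f := fun y => (p, y)) (by fun_prop) fun y hy => ⟨hp, hKV hy⟩
    have h2 := h1.aestronglyMeasurable_of_isCompact hK hKm (μ := μ)
    exact (ContinuousLinearMap.id ℝ (G →L[ℝ] F)).aestronglyMeasurable_comp₂ h2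
      hg.aestronglyMeasurable
  induction n with
  | zero =>
    intro F _ _ k hk
    refine ⟨?_, fun h => absurd h (by norm_num)⟩
    have hk0 : ContinuousOn (fun z : E × Y => k z.1 z.2) (U ×ˢ V) := hk.continuousOn
    rw [Nat.cast_zero, contDiffOn_zero]
    intro p hp
    obtain ⟨C, hC⟩ := exists_bound_near hU hV hk0 hK hKV hp
    refine ContinuousAt.continuousWithinAt ?_
    refine continuousAt_of_dominated (bound := fun y => C * ‖g y‖) ?_ ?_ ?_ ?_
    · filter_upwards [hC] with q hq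
      exact meas F k hk0 q hq.1
    · filter_upwards [hC] with q hq
      refine (ae_restrict_iff' hKm).2 (Eventually.of_forall fun y hy => ?_)
      exact ((k q y).le_opNorm _).trans (mul_le_mul_of_nonneg_right (hq.2 y hy) (norm_nonneg _))
    · exact hg.norm.const_mul C
    · refine (ae_restrict_iff' hKm).2 (Eventually.of_forall fun y hy => ?_)
      have h1 : ContinuousAt (fun z : E × Y => k z.1 z.2) (p, y) :=
        hk0.continuousAt ((hU.prod hV).mem_nhds ⟨hp, hKV hy⟩)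
      have h2 : ContinuousAt (fun q : E => k q y) p :=
        ContinuousAt.comp (f := fun q : E => (q, y)) (g := fun z : E × Y => k z.1 z.2) h1
          (by fun_prop)
      exact h2.clm_apply continuousAt_const
  | succ n ih =>
    intro F _ _ k hk
    have hk0 : ContinuousOn (fun z : E × Y => k z.1 z.2) (U ×ˢ V) := hk.continuousOn
    have hkd := contMDiffOn_fderiv_left (n := ((n + 1 : ℕ) : ℕ∞)) (m := (n : ℕ∞)) hU hV
      (by push_cast; exact le_rfl) (k := k) (by exact_mod_cast hk)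
    have hkd0 := hkd.continuousOn
    have hk1 : ContMDiffOn (𝓘(ℝ, E).prod I') 𝓘(ℝ, G →L[ℝ] (E →L[ℝ] F)) n
        (fun z : E × Y => (fderiv ℝ (fun p => k p z.2) z.1).flip) (U ×ˢ V) := by
      exact (contMDiff_iff_contDiff.2 (contDiff_flip E G F n)).comp_contMDiffOn hkd
    have hder : ∀ p ∈ U, HasFDerivAt (fun p => ∫ y in Kc, k p y (g y) ∂μ)
        (∫ y in Kc, (fderiv ℝ (fun p => k p y) p).flip (g y) ∂μ) p := by
      intro p hp
      obtain ⟨C, hC⟩ := exists_bound_near hU hV hkd0 hK hKV hp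
      obtain ⟨C', hC'⟩ := exists_bound_near hU hV hk0 hK hKV hp
      refine hasFDerivAt_integral_of_dominated_of_fderiv_le (s := {q | q ∈ U ∧ ∀ y ∈ Kc,
          ‖fderiv ℝ (fun p => k p y) q‖ ≤ C}) (bound := fun y => C * ‖g y‖)
        (F' := fun q y => (fderiv ℝ (fun p => k p y) q).flip (g y)) hC ?_ ?_ ?_ ?_ ?_ ?_
      · filter_upwards [hC] with q hq
        exact meas F k hk0 q hq.1
      · refine Integrable.mono' (hg.norm.const_mul C') (meas F k hk0 p hp) ?_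
        refine (ae_restrict_iff' hKm).2 (Eventually.of_forall fun y hy => ?_)
        exact ((k p y).le_opNorm _).trans (mul_le_mul_of_nonneg_right
          (hC'.self_of_nhds.2 y hy) (norm_nonneg _))
      · exact meas (E →L[ℝ] F) (fun q y => (fderiv ℝ (fun p => k p y) q).flip) hk1.continuousOn p hp
      · refine (ae_restrict_iff' hKm).2 (Eventually.of_forall fun y hy q hq => ?_)
        refine (ContinuousLinearMap.le_opNorm _ _).trans ?_
        rw [ContinuousLinearMap.opNorm_flip]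
        exact mul_le_mul_of_nonneg_right (hq.2 y hy) (norm_nonneg _)
      · exact hg.norm.const_mul C
      · refine (ae_restrict_iff' hKm).2 (Eventually.of_forall fun y hy q hq => ?_)
        have h1 : ContMDiffAt (𝓘(ℝ, E).prod I') 𝓘(ℝ, G →L[ℝ] F) ((n + 1 : ℕ) : ℕ∞)
            (fun z : E × Y => k z.1 z.2) (q, y) := by
          exact_mod_cast (hk (q, y) ⟨hq.1, hKV hy⟩).contMDiffAt ((hU.prod hV).mem_nhds ⟨hq.1, hKV hy⟩)
        have h2 : ContMDiffAt 𝓘(ℝ, E) 𝓘(ℝ, G →L[ℝ] F) ((n + 1 : ℕ) : ℕ∞) (fun q : E => k q y) q :=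
          ContMDiffAt.comp q (g := fun z : E × Y => k z.1 z.2) (f := fun q : E => (q, y)) h1
            (contMDiffAt_id.prodMk contMDiffAt_const)
        have h3 : DifferentiableAt ℝ (fun q : E => k q y) q :=
          (contMDiffAt_iff_contDiffAt.1 h2).differentiableAt (by simp)
        have h4 := h3.hasFDerivAt.clm_apply (hasFDerivAt_const (g y) q)
        simpa using h4
    refine ⟨?_, fun _ => hder⟩
    rw [Nat.cast_add, Nat.cast_one, contDiffOn_succ_iff_fderiv_of_isOpen hU]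
    refine ⟨fun p hp => (hder p hp).differentiableAt.differentiableWithinAt, ?_, ?_⟩
    · intro h; exact absurd h (by simp)
    · have h1 := (ih (E →L[ℝ] F) (fun q y => (fderiv ℝ (fun p => k p y) q).flip) hk1).1
      refine h1.congr fun p hp => ?_
      exact (hder p hp).fderiv

/-- **PI1, Euclidean parameter** -/
theorem contDiffOn_integral [IsManifold I' ∞ Y] [T2Space Y] {U : Set E} {V : Set Y}
    (hU : IsOpen U) (hV : IsOpen V) {Kc : Set Y} (hK : IsCompact Kc) (hKV : Kc ⊆ V)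
    {μ : Measure Y} {g : Y → G} (hg : IntegrableOn g Kc μ) {n : ℕ∞}
    {F : Type} [NormedAddCommGroup F] [NormedSpace ℝ F] {k : E → Y → (G →L[ℝ] F)}
    (hk : ContMDiffOn (𝓘(ℝ, E).prod I') 𝓘(ℝ, G →L[ℝ] F) n (fun z : E × Y => k z.1 z.2)
      (U ×ˢ V)) :
    ContDiffOn ℝ n (fun p => ∫ y in Kc, k p y (g y) ∂μ) U := by
  induction n using ENat.recTopCoe with
  | top =>
    refine contDiffOn_infty.2 fun m => ?_
    exact (contDiffOn_integral_nat hU hV hK hKV hg m F k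
      (hk.of_le (by exact_mod_cast le_top))).1
  | coe m => exact (contDiffOn_integral_nat hU hV hK hKV hg m F k (by exact_mod_cast hk)).1

theorem hasFDerivAt_integral [IsManifold I' ∞ Y] [T2Space Y] {U : Set E} {V : Set Y}
    (hU : IsOpen U) (hV : IsOpen V) {Kc : Set Y} (hK : IsCompact Kc) (hKV : Kc ⊆ V)
    {μ : Measure Y} {g : Y → G} (hg : IntegrableOn g Kc μ) {n : ℕ∞} (hn : 1 ≤ n)
    {F : Type} [NormedAddCommGroup F] [NormedSpace ℝ F] {k : E → Y → (G →L[ℝ] F)}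
    (hk : ContMDiffOn (𝓘(ℝ, E).prod I') 𝓘(ℝ, G →L[ℝ] F) n (fun z : E × Y => k z.1 z.2)
      (U ×ˢ V)) {p : E} (hp : p ∈ U) :
    HasFDerivAt (fun p => ∫ y in Kc, k p y (g y) ∂μ)
      (∫ y in Kc, (fderiv ℝ (fun p => k p y) p).flip (g y) ∂μ) p :=
  (contDiffOn_integral_nat hU hV hK hKV hg 1 F k (hk.of_le (by exact_mod_cast hn))).2 le_rfl p hp

end eu

/-! ### parameter in a manifold -/

section mfd

variable {E : Type} [NormedAddCommGroup E] [NormedSpace ℝ E] {H : Type} [TopologicalSpace H]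
  {I : ModelWithCorners ℝ E H} [I.Boundaryless]
  {M : Type} [TopologicalSpace M] [ChartedSpace H M] [IsManifold I ∞ M]
  {E' : Type} [NormedAddCommGroup E'] [NormedSpace ℝ E'] {H' : Type} [TopologicalSpace H']
  {I' : ModelWithCorners ℝ E' H'}
  {Y : Type} [TopologicalSpace Y] [ChartedSpace H' Y] [MeasurableSpace Y] [BorelSpace Y]
  [IsManifold I' ∞ Y] [T2Space Y]
  {G : Type} [NormedAddCommGroup G] [NormedSpace ℝ G]
  {F : Type} [NormedAddCommGroup F] [NormedSpace ℝ F]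

omit [MeasurableSpace Y] [BorelSpace Y] [T2Space Y] in
/-- the kernel in the chart at `p₀` -/
theorem chart_kernel {O : Set M} {V : Set Y} (hO : IsOpen O) {n : ℕ∞} {k : M → Y → F}
    (hk : ContMDiffOn (I.prod I') 𝓘(ℝ, F) n (fun z : M × Y => k z.1 z.2) (O ×ˢ V)) (p₀ : M) :
    IsOpen ((extChartAt I p₀).target ∩ (extChartAt I p₀).symm ⁻¹' O) ∧
    ContMDiffOn (𝓘(ℝ, E).prod I') 𝓘(ℝ, F) n
      (fun z : E × Y => k ((extChartAt I p₀).symm z.1) z.2)
      (((extChartAt I p₀).target ∩ (extChartAt I p₀).symm ⁻¹' O) ×ˢ V) := by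
  refine ⟨(continuousOn_extChartAt_symm p₀).isOpen_inter_preimage
    (isOpen_extChartAt_target p₀) hO, ?_⟩
  have h1 : ContMDiffOn 𝓘(ℝ, E) I n (extChartAt I p₀).symm (extChartAt I p₀).target :=
    (contMDiffOn_extChartAt_symm (n := ∞) p₀).of_le (by exact_mod_cast le_top)
  have h2 : ContMDiffOn (𝓘(ℝ, E).prod I') (I.prod I') n
      (fun z : E × Y => ((extChartAt I p₀).symm z.1, z.2))
      (((extChartAt I p₀).target ∩ (extChartAt I p₀).symm ⁻¹' O) ×ˢ V) := by
    refine ContMDiffOn.prodMk ?_ contMDiffOn_snd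
    exact h1.comp contMDiffOn_fst fun z hz => hz.1.1
  exact hk.comp h2 fun z hz => ⟨hz.1.2, hz.2⟩

/-- **PI1**: integrals of smooth kernels are smooth -/
theorem contMDiffOn_integral {O : Set M} (hO : IsOpen O) {V : Set Y} (hV : IsOpen V)
    {Kc : Set Y} (hK : IsCompact Kc) (hKV : Kc ⊆ V) {μ : Measure Y} {g : Y → G}
    (hg : IntegrableOn g Kc μ) {n : ℕ∞} {k : M → Y → (G →L[ℝ] F)}
    (hk : ContMDiffOn (I.prod I') 𝓘(ℝ, G →L[ℝ] F) n (fun z : M × Y => k z.1 z.2) (O ×ˢ V)) :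
    ContMDiffOn I 𝓘(ℝ, F) n (fun p => ∫ y in Kc, k p y (g y) ∂μ) O := by
  intro p₀ hp₀
  obtain ⟨hU, hk'⟩ := chart_kernel hO hk p₀
  have h1 := contDiffOn_integral hU hV hK hKV hg
    (k := fun (ξ : E) y => k ((extChartAt I p₀).symm ξ) y) hk'
  have hmem : extChartAt I p₀ p₀ ∈ (extChartAt I p₀).target ∩ (extChartAt I p₀).symm ⁻¹' O :=
    ⟨mem_extChartAt_target p₀, by
      rw [mem_preimage, extChartAt_to_inv p₀]; exact hp₀⟩
  have h2 := (h1.contDiffAt (hU.mem_nhds hmem)).contMDiffAt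
  have h3 : ContMDiffAt I 𝓘(ℝ, E) n (extChartAt I p₀) p₀ :=
    (contMDiffAt_extChartAt (n := ∞)).of_le (by exact_mod_cast le_top)
  have h4 := h2.comp p₀ h3
  refine ContMDiffAt.contMDiffWithinAt (h4.congr_of_eventuallyEq ?_)
  filter_upwards [extChartAt_source_mem_nhds (I := I) p₀] with p hp
  simp only [Function.comp_apply, (extChartAt I p₀).left_inv hp]

omit [MeasurableSpace Y] [BorelSpace Y] [T2Space Y] [IsManifold I ∞ M] [IsManifold I' ∞ Y] in
/-- the partial derivative of the kernel in the chart at `p₀` -/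
theorem mfderiv_kernel {F : Type} [NormedAddCommGroup F] [NormedSpace ℝ F]
    {O : Set M} (hO : IsOpen O) {V : Set Y} (hV : IsOpen V)
    {n : ℕ∞} (hn : 1 ≤ n) {k : M → Y → F}
    (hk : ContMDiffOn (I.prod I') 𝓘(ℝ, F) n (fun z : M × Y => k z.1 z.2) (O ×ˢ V))
    {p₀ : M} (hp₀ : p₀ ∈ O) {y : Y} (hy : y ∈ V) :
    (show E →L[ℝ] F from mfderiv I 𝓘(ℝ, F) (fun p => k p y) p₀) =
        fderiv ℝ (fun p => k ((extChartAt I p₀).symm p) y) (extChartAt I p₀ p₀) := by
  have h4 : ContMDiffAt I 𝓘(ℝ, F) n (fun p => k p y) p₀ := by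
    have h5 : ContMDiffAt (I.prod I') 𝓘(ℝ, F) n (fun z : M × Y => k z.1 z.2)
        (p₀, y) := hk.contMDiffAt ((hO.prod hV).mem_nhds ⟨hp₀, hy⟩)
    exact ContMDiffAt.comp p₀ (g := fun z : M × Y => k z.1 z.2) (f := fun p : M => (p, y)) h5
      (contMDiffAt_id.prodMk contMDiffAt_const)
  have h6 : MDifferentiableAt I 𝓘(ℝ, F) (fun p => k p y) p₀ :=
    h4.mdifferentiableAt (by
      intro h
      have h' : n = 0 := by exact_mod_cast h
      rw [h'] at hn
      exact absurd hn (by simp))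
  have h8 := h6.mfderiv
  rw [I.range_eq_univ, fderivWithin_univ] at h8
  exact h8

/-- derivative under the integral -/
theorem hasMFDerivAt_integral {O : Set M} (hO : IsOpen O) {V : Set Y} (hV : IsOpen V)
    {Kc : Set Y} (hK : IsCompact Kc) (hKV : Kc ⊆ V) {μ : Measure Y} {g : Y → G}
    (hg : IntegrableOn g Kc μ) {n : ℕ∞} (hn : 1 ≤ n) {k : M → Y → (G →L[ℝ] F)}
    (hk : ContMDiffOn (I.prod I') 𝓘(ℝ, G →L[ℝ] F) n (fun z : M × Y => k z.1 z.2) (O ×ˢ V))
    {p₀ : M} (hp₀ : p₀ ∈ O) :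
    HasMFDerivAt I 𝓘(ℝ, F) (fun p => ∫ y in Kc, k p y (g y) ∂μ) p₀
      (∫ y in Kc, (show E →L[ℝ] (G →L[ℝ] F) from
        mfderiv I 𝓘(ℝ, G →L[ℝ] F) (fun p => k p y) p₀).flip (g y) ∂μ : E →L[ℝ] F) := by
  obtain ⟨hU, hk'⟩ := chart_kernel hO hk p₀
  have hmem : extChartAt I p₀ p₀ ∈ (extChartAt I p₀).target ∩ (extChartAt I p₀).symm ⁻¹' O :=
    ⟨mem_extChartAt_target p₀, by
      rw [mem_preimage, extChartAt_to_inv p₀]; exact hp₀⟩
  have h1 := hasFDerivAt_integral hU hV hK hKV hg hn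
    (k := fun (ξ : E) y => k ((extChartAt I p₀).symm ξ) y) hk' hmem
  have h0 := contMDiffOn_integral hO hV hK hKV hg hk
  refine ⟨(h0.contMDiffAt (hO.mem_nhds hp₀)).continuousAt, ?_⟩
  have h2 : HasFDerivWithinAt (writtenInExtChartAt I 𝓘(ℝ, F) p₀
      (fun p => ∫ y in Kc, k p y (g y) ∂μ))
      (∫ y in Kc, (fderiv ℝ (fun p => k ((extChartAt I p₀).symm p) y)
        (extChartAt I p₀ p₀)).flip (g y) ∂μ) (range I) (extChartAt I p₀ p₀) := by
    simp only [mfld_simps, writtenInExtChartAt] at h1 ⊢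
    exact h1.hasFDerivWithinAt
  have h3 : (∫ y in Kc, (fderiv ℝ (fun p => k ((extChartAt I p₀).symm p) y)
        (extChartAt I p₀ p₀)).flip (g y) ∂μ) = ∫ y in Kc, (show E →L[ℝ] (G →L[ℝ] F) from
        mfderiv I 𝓘(ℝ, G →L[ℝ] F) (fun p => k p y) p₀).flip (g y) ∂μ := by
    refine setIntegral_congr_fun hK.measurableSet fun y hy => ?_
    simp only [mfderiv_kernel hO hV hn hk hp₀ (hKV hy)]
  rw [← h3]
  exact h2

omit [MeasurableSpace Y] [BorelSpace Y] [T2Space Y] in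
/-- **PI4**: the derivative of a smooth kernel in the direction of a smooth vector field in the
first variable is a smooth kernel -/
theorem contMDiffOn_mfderiv_apply {F : Type} [NormedAddCommGroup F] [NormedSpace ℝ F]
    {O : Set M} (hO : IsOpen O) {V : Set Y} (hV : IsOpen V)
    {n m : ℕ∞} (hmn : m + 1 ≤ n) {k : M → Y → F}
    (hk : ContMDiffOn (I.prod I') 𝓘(ℝ, F) n (fun z : M × Y => k z.1 z.2) (O ×ˢ V))
    {X : (p : M) → TangentSpace I p}
    (hX : ContMDiffOn I I.tangent m (fun p => (⟨p, X p⟩ : TangentBundle I M)) O) :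
    ContMDiffOn (I.prod I') 𝓘(ℝ, F) m
      (fun z : M × Y => (mfderiv I 𝓘(ℝ, F) (fun p => k p z.2) z.1 (X z.1) : F)) (O ×ˢ V) := by
  have hn : 1 ≤ n := le_trans le_add_self hmn
  rintro ⟨p₀, y₀⟩ ⟨hp₀, hy₀⟩
  obtain ⟨hU, hk'⟩ := chart_kernel hO hk p₀
  have hd := contMDiffOn_fderiv_left hU hV hmn
    (k := fun (ξ : E) y => k ((extChartAt I p₀).symm ξ) y) hk'
  have hmem : extChartAt I p₀ p₀ ∈ (extChartAt I p₀).target ∩ (extChartAt I p₀).symm ⁻¹' O :=
    ⟨mem_extChartAt_target p₀, by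
      rw [mem_preimage, extChartAt_to_inv p₀]; exact hp₀⟩
  -- the derivative of the kernel in the chart
  have h1 : ContMDiffAt (I.prod I') 𝓘(ℝ, E →L[ℝ] F) m (fun z : M × Y =>
      fderiv ℝ (fun ξ => k ((extChartAt I p₀).symm ξ) z.2) (extChartAt I p₀ z.1)) (p₀, y₀) := by
    have h2 : ContMDiffAt (I.prod I') (𝓘(ℝ, E).prod I') m
        (fun z : M × Y => (extChartAt I p₀ z.1, z.2)) (p₀, y₀) := by
      refine ContMDiffAt.prodMk ?_ contMDiffAt_snd
      have h5 : ContMDiffAt I 𝓘(ℝ, E) m (extChartAt I p₀) p₀ :=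
        (contMDiffAt_extChartAt (n := ∞)).of_le (by exact_mod_cast le_top)
      exact ContMDiffAt.comp (p₀, y₀) (g := extChartAt I p₀) (f := Prod.fst) h5 contMDiffAt_fst
    exact ContMDiffAt.comp (p₀, y₀)
      (g := fun z : E × Y => fderiv ℝ (fun ξ => k ((extChartAt I p₀).symm ξ) z.2) z.1)
      (hd.contMDiffAt ((hU.prod hV).mem_nhds ⟨hmem, hy₀⟩)) h2
  -- the vector field in the chart
  have h3 : ContMDiffAt I 𝓘(ℝ, E) m
      (fun p => (trivializationAt E (TangentSpace I) p₀ ⟨p, X p⟩).2) p₀ :=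
    (Bundle.contMDiffAt_section (F := E) (E := (TangentSpace I : M → Type _)) (s := X) p₀).1
      (hX.contMDiffAt (hO.mem_nhds hp₀))
  have h4 : ContMDiffAt (I.prod I') 𝓘(ℝ, F) m (fun z : M × Y =>
      (fderiv ℝ (fun ξ => k ((extChartAt I p₀).symm ξ) z.2) (extChartAt I p₀ z.1))
        ((trivializationAt E (TangentSpace I) p₀ ⟨z.1, X z.1⟩).2)) (p₀, y₀) :=
    h1.clm_apply (ContMDiffAt.comp (p₀, y₀)
      (g := fun p => (trivializationAt E (TangentSpace I) p₀ ⟨p, X p⟩).2) (f := Prod.fst) h3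
      contMDiffAt_fst)
  refine ContMDiffAt.contMDiffWithinAt (h4.congr_of_eventuallyEq ?_)
  have hev : ∀ᶠ z : M × Y in 𝓝 (p₀, y₀), z.1 ∈ (chartAt H p₀).source ∧ z.1 ∈ O ∧ z.2 ∈ V := by
    have e1 : ∀ᶠ p in 𝓝 p₀, p ∈ (chartAt H p₀).source := (chartAt H p₀).open_source.mem_nhds
      (mem_chart_source H p₀)
    have e2 : ∀ᶠ p in 𝓝 p₀, p ∈ O := hO.mem_nhds hp₀
    have e3 : ∀ᶠ y in 𝓝 y₀, y ∈ V := hV.mem_nhds hy₀
    rw [nhds_prod_eq]
    filter_upwards [((e1.and e2).prod_inl _), (e3.prod_inr (𝓝 p₀))] with z h1 h2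
    exact ⟨h1.1, h1.2, h2⟩
  filter_upwards [hev] with z hz
  obtain ⟨hz1, hz2, hz3⟩ := hz
  -- chain rule
  have g1 : MDifferentiableAt I 𝓘(ℝ, E) (extChartAt I p₀) z.1 :=
    mdifferentiableAt_extChartAt hz1
  have hzU : extChartAt I p₀ z.1 ∈ (extChartAt I p₀).target ∩ (extChartAt I p₀).symm ⁻¹' O := by
    have hs : z.1 ∈ (extChartAt I p₀).source := by rw [extChartAt_source]; exact hz1
    exact ⟨(extChartAt I p₀).map_source hs, by
      rw [mem_preimage, (extChartAt I p₀).left_inv hs]; exact hz2⟩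
  have g2 : DifferentiableAt ℝ (fun ξ => k ((extChartAt I p₀).symm ξ) z.2)
      (extChartAt I p₀ z.1) := by
    have h5 : ContMDiffAt (𝓘(ℝ, E).prod I') 𝓘(ℝ, F) n
        (fun z : E × Y => k ((extChartAt I p₀).symm z.1) z.2) (extChartAt I p₀ z.1, z.2) :=
      hk'.contMDiffAt ((hU.prod hV).mem_nhds ⟨hzU, hz3⟩)
    have h6 : ContMDiffAt 𝓘(ℝ, E) 𝓘(ℝ, F) n (fun ξ : E => k ((extChartAt I p₀).symm ξ) z.2)
        (extChartAt I p₀ z.1) :=
      ContMDiffAt.comp _ (g := fun z : E × Y => k ((extChartAt I p₀).symm z.1) z.2)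
        (f := fun ξ : E => (ξ, z.2)) h5 (contMDiffAt_id.prodMk contMDiffAt_const)
    refine (contMDiffAt_iff_contDiffAt.1 h6).differentiableAt (fun h => ?_)
    have h' : n = 0 := by exact_mod_cast h
    rw [h'] at hn
    exact absurd hn (by simp)
  have g3 : (fun p => k p z.2) =ᶠ[𝓝 z.1]
      (fun ξ => k ((extChartAt I p₀).symm ξ) z.2) ∘ (extChartAt I p₀) := by
    filter_upwards [(chartAt H p₀).open_source.mem_nhds hz1] with p hp
    have hs : p ∈ (extChartAt I p₀).source := by rw [extChartAt_source]; exact hp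
    simp only [Function.comp_apply, (extChartAt I p₀).left_inv hs]
  have g4 := g2.mdifferentiableAt.hasMFDerivAt.comp z.1 g1.hasMFDerivAt
  have g5 := (g4.congr_of_eventuallyEq g3).mfderiv
  rw [g5, mfderiv_eq_fderiv, ← TangentBundle.continuousLinearMapAt_trivializationAt hz1]
  have hb : z.1 ∈ (trivializationAt E (TangentSpace I) p₀).baseSet := hz1
  have g6 := congrFun (Bundle.Trivialization.coe_linearMapAt_of_mem (R := ℝ)
    (trivializationAt E (TangentSpace I) p₀) hb) (X z.1)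
  exact congrArg _ g6

/-- the derivative of the integral in the direction `v` -/
theorem mfderiv_integral_apply [CompleteSpace F] {O : Set M} (hO : IsOpen O) {V : Set Y}
    (hV : IsOpen V)
    {Kc : Set Y} (hK : IsCompact Kc) (hKV : Kc ⊆ V) {μ : Measure Y} {g : Y → G}
    (hg : IntegrableOn g Kc μ) {n : ℕ∞} (hn : 1 ≤ n) {k : M → Y → (G →L[ℝ] F)}
    (hk : ContMDiffOn (I.prod I') 𝓘(ℝ, G →L[ℝ] F) n (fun z : M × Y => k z.1 z.2) (O ×ˢ V))
    {p₀ : M} (hp₀ : p₀ ∈ O) (v : TangentSpace I p₀) :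
    (mfderiv I 𝓘(ℝ, F) (fun p => ∫ y in Kc, k p y (g y) ∂μ) p₀ v : F) =
      ∫ y in Kc, (show G →L[ℝ] F from mfderiv I 𝓘(ℝ, G →L[ℝ] F) (fun p => k p y) p₀ v) (g y) ∂μ := by
  rw [(hasMFDerivAt_integral hO hV hK hKV hg hn hk hp₀).mfderiv]
  obtain ⟨hU, hk'⟩ := chart_kernel hO hk p₀
  have hmem : extChartAt I p₀ p₀ ∈ (extChartAt I p₀).target ∩ (extChartAt I p₀).symm ⁻¹' O :=
    ⟨mem_extChartAt_target p₀, by
      rw [mem_preimage, extChartAt_to_inv p₀]; exact hp₀⟩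
  have hd := contMDiffOn_fderiv_left hU hV (n := n) (m := 0) (by simpa using hn)
    (k := fun (ξ : E) y => k ((extChartAt I p₀).symm ξ) y) hk'
  have hd1 : ContinuousOn (fun z : E × Y => (fderiv ℝ (fun ξ =>
      k ((extChartAt I p₀).symm ξ) z.2) z.1).flip)
      (((extChartAt I p₀).target ∩ (extChartAt I p₀).symm ⁻¹' O) ×ˢ V) :=
    (contDiff_flip E G F 0).continuous.comp_continuousOn hd.continuousOn
  have hint := integrableOn_kernel hU hV hK hKV hg
    (k := fun (ξ : E) y => (fderiv ℝ (fun ξ => k ((extChartAt I p₀).symm ξ) y) ξ).flip) hd1 hmem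
  have hint2 : IntegrableOn (fun y => (show E →L[ℝ] (G →L[ℝ] F) from
        mfderiv I 𝓘(ℝ, G →L[ℝ] F) (fun p => k p y) p₀).flip (g y)) Kc μ := by
    refine hint.congr_fun (fun y hy => ?_) hK.measurableSet
    simp only [mfderiv_kernel hO hV hn hk hp₀ (hKV hy)]
  have h9 := ContinuousLinearMap.integral_apply hint2 (show E from v)
  exact h9

/-- **PI3**: time integrals -/
theorem contMDiffOn_intervalIntegral {O : Set M} (hO : IsOpen O) {T : Set ℝ} (hT : IsOpen T)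
    {a b : ℝ} (hab : a ≤ b) (hab' : Icc a b ⊆ T) {n : ℕ∞} {h : M → ℝ → F}
    (hh : ContMDiffOn (I.prod 𝓘(ℝ, ℝ)) 𝓘(ℝ, F) n (fun z : M × ℝ => h z.1 z.2) (O ×ˢ T)) :
    ContMDiffOn I 𝓘(ℝ, F) n (fun p => ∫ s in a..b, h p s) O := by
  have h1 : ContMDiffOn (I.prod 𝓘(ℝ, ℝ)) 𝓘(ℝ, ℝ →L[ℝ] F) n
      (fun z : M × ℝ => (ContinuousLinearMap.toSpanSingleton ℝ (h z.1 z.2))) (O ×ˢ T) := by
    have h2 : ContDiff ℝ n fun w : F => ContinuousLinearMap.toSpanSingleton ℝ w := by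
      have h3 : IsBoundedLinearMap ℝ fun w : F => ContinuousLinearMap.toSpanSingleton ℝ w := by
        refine IsLinearMap.with_bound ⟨fun a b => ?_, fun c a => ?_⟩ 1 fun L => ?_
        · ext; simp
        · ext; simp
        · rw [one_mul, ContinuousLinearMap.norm_toSpanSingleton]
      exact h3.contDiff
    exact (contMDiff_iff_contDiff.2 h2).comp_contMDiffOn hh
  have h2 := contMDiffOn_integral (I' := 𝓘(ℝ, ℝ)) hO hT (isCompact_Icc (a := a) (b := b)) hab'
    (μ := volume) (g := fun _ => (1 : ℝ)) (by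
      exact continuousOn_const.integrableOn_compact isCompact_Icc)
    (k := fun p s => ContinuousLinearMap.toSpanSingleton ℝ (h p s)) h1
  refine h2.congr fun p hp => ?_
  rw [intervalIntegral.integral_of_le hab, integral_Icc_eq_integral_Ioc]
  simp

end mfd

end

end Vale.Agent.P211.HK
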