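import Vale.Agent.P211.HK.LK2a
import Vale.Agent.P211.HK.SC0
import Vale.Agent.P211.HK.ParInt
import Vale.Agent.P211.HK.Reps

/-! P211 / HK / LK2a: operators with smooth kernels map into sections. helper339. -/

set_option maxSynthPendingDepth 3
set_option linter.unusedSectionVars false

namespace Vale.Agent.P211.HK.LK2

open scoped Manifold ContDiff Topology RealInnerProductSpace
open Bundle Filter VectorField MeasureTheory Set

noncomputable section

variable {W W' : Type} [NormedAddCommGroup W] [InnerProductSpace ℝ W] [FiniteDimensional ℝ W]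
  [NormedAddCommGroup W'] [InnerProductSpace ℝ W'] [FiniteDimensional ℝ W']

variable {E : Type} [NormedAddCommGroup E] [NormedSpace ℝ E] [FiniteDimensional ℝ E]
  {M : Type} [TopologicalSpace M] [ChartedSpace E M] [IsManifold 𝓘(ℝ, E) ∞ M] [T2Space M]
  [RiemannianBundle fun p : M => TangentSpace 𝓘(ℝ, E) p]
  [IsContMDiffRiemannianBundle 𝓘(ℝ, E) ∞ E fun p : M => TangentSpace 𝓘(ℝ, E) p]

variable {cov : CovariantDerivative 𝓘(ℝ, E) E (TangentSpace 𝓘(ℝ, E) : M → Type)}
  {om : Form4 E M} {R' : Rep W'} {n : ℕ∞} {O : Set ℝ} {U B : Set M} {K : ℝ → PreK E M W W'}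

theorem isOpen_PONnear (F : Fin 4 → VF E M) : IsOpen {q | PONnear om q F} := by
  rw [isOpen_iff_mem_nhds]
  intro q hq
  exact SC2.PONnear.eventually hq

theorem PONnear.pon {F : Fin 4 → VF E M} {p : M} (h : PONnear om p F) :
    PON om p fun i => F i p := h.self_of_nhds

/-- smoothness on open sets, in all variables -/
theorem SmK.on (hK : SmK om R' n O U K) (F : Fin 4 → VF E M) :
    ContMDiffOn (𝓘(ℝ, ℝ).prod (𝓘(ℝ, E).prod 𝓘(ℝ, E))) 𝓘(ℝ, W →L[ℝ] W') n
      (fun z : ℝ × M × M => K z.1 z.2.1 (fun i => F i z.2.1) z.2.2)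
      (O ×ˢ {q | PONnear om q F} ×ˢ U) := by
  rintro ⟨t, p, q⟩ ⟨ht, hp, hq⟩
  exact (hK.smooth F t p q ht hq hp).contMDiffWithinAt

/-- smoothness in `((p, t), q)` -/
theorem SmK.on_pt (hK : SmK om R' n O U K) (F : Fin 4 → VF E M) :
    ContMDiffOn ((𝓘(ℝ, E).prod 𝓘(ℝ, ℝ)).prod 𝓘(ℝ, E)) 𝓘(ℝ, W →L[ℝ] W') n
      (fun z : (M × ℝ) × M => K z.1.2 z.1.1 (fun i => F i z.1.1) z.2)
      (({q | PONnear om q F} ×ˢ O) ×ˢ U) := by
  have h : ContMDiff ((𝓘(ℝ, E).prod 𝓘(ℝ, ℝ)).prod 𝓘(ℝ, E))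
      (𝓘(ℝ, ℝ).prod (𝓘(ℝ, E).prod 𝓘(ℝ, E))) n
      (fun z : (M × ℝ) × M => (z.1.2, z.1.1, z.2)) :=
    (contMDiff_snd.comp contMDiff_fst).prodMk
      ((contMDiff_fst.comp contMDiff_fst).prodMk contMDiff_snd)
  exact (SmK.on hK F).comp h.contMDiffOn (by
    rintro ⟨⟨p, t⟩, q⟩ ⟨⟨hp, ht⟩, hq⟩
    exact ⟨ht, hp, hq⟩)

/-- smoothness in `(p, q)` at a fixed time -/
theorem SmK.on_t (hK : SmK om R' n O U K) (F : Fin 4 → VF E M) {t : ℝ} (ht : t ∈ O) :
    ContMDiffOn (𝓘(ℝ, E).prod 𝓘(ℝ, E)) 𝓘(ℝ, W →L[ℝ] W') n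
      (fun z : M × M => K t z.1 (fun i => F i z.1) z.2)
      ({q | PONnear om q F} ×ˢ U) := by
  have h : ContMDiff (𝓘(ℝ, E).prod 𝓘(ℝ, E))
      (𝓘(ℝ, ℝ).prod (𝓘(ℝ, E).prod 𝓘(ℝ, E))) n
      (fun z : M × M => (t, z.1, z.2)) :=
    contMDiff_const.prodMk (contMDiff_fst.prodMk contMDiff_snd)
  exact (SmK.on hK F).comp h.contMDiffOn (by
    rintro ⟨p, q⟩ ⟨hp, hq⟩
    exact ⟨ht, hp, hq⟩)

/-- smoothness in `(t, q)` at a fixed target point -/
theorem SmK.on_p (hK : SmK om R' n O U K) (F : Fin 4 → VF E M) {p : M} (hp : PONnear om p F) :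
    ContMDiffOn (𝓘(ℝ, ℝ).prod 𝓘(ℝ, E)) 𝓘(ℝ, W →L[ℝ] W') n
      (fun z : ℝ × M => K z.1 p (fun i => F i p) z.2) (O ×ˢ U) := by
  have h : ContMDiff (𝓘(ℝ, ℝ).prod 𝓘(ℝ, E))
      (𝓘(ℝ, ℝ).prod (𝓘(ℝ, E).prod 𝓘(ℝ, E))) n
      (fun z : ℝ × M => (z.1, p, z.2)) :=
    contMDiff_fst.prodMk (contMDiff_const.prodMk contMDiff_snd)
  exact (SmK.on hK F).comp h.contMDiffOn (by
    rintro ⟨t, q⟩ ⟨ht, hq⟩
    exact ⟨ht, hp, hq⟩)

section meas

variable [MeasurableSpace M] [BorelSpace M] [CompactSpace M] {μ : Measure M}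

theorem int_closure {F : Type*} [NormedAddCommGroup F] [NormedSpace ℝ F] (hB : MeasurableSet B)
    (k : M → (W →L[ℝ] F)) (w : M → W) :
    ∫ y in B, k y (w y) ∂μ = ∫ y in closure B, k y (B.indicator w y) ∂μ := by
  have h1 : (fun y => k y (B.indicator w y)) = B.indicator fun y => k y (w y) := by
    funext y
    by_cases hy : y ∈ B
    · simp [hy]
    · simp [hy]
  rw [h1, setIntegral_indicator hB]
  congr 2
  rw [inter_eq_right.2 subset_closure]

theorem ind_int {w : M → W} (hB : MeasurableSet B) (hw : IntegrableOn w B μ) :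
    IntegrableOn (B.indicator w) (closure B) μ :=
  ((integrable_indicator_iff hB).2 hw).integrableOn

theorem compact_cl : IsCompact (closure B) := isClosed_closure.isCompact

/-- integrability -/
theorem integrableOn_app (h0 : SC0Stmt cov om) (hg : Geo4 cov om) (hK : SmK om R' n O U K)
    (hU : IsOpen U) (hB : MeasurableSet B) (hBU : closure B ⊆ U) {w : M → W}
    (hw : IntegrableOn w B μ) {t : ℝ} (ht : t ∈ O) (p : M)
    (f : Fin 4 → TangentSpace 𝓘(ℝ, E) p) : IntegrableOn (fun q => K t p f q (w q)) B μ := by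
  by_cases hf : PON om p f
  · obtain ⟨F, hF, hFf, -⟩ := (h0 hg).1 p f hf
    have hFf' : (fun i => F i p) = f := funext hFf
    subst hFf'
    have h1 := integrableOn_kernel (X := M) (isOpen_PONnear (om := om) F) hU (compact_cl (B := B))
      hBU (ind_int hB hw) (k := fun p q => K t p (fun i => F i p) q)
      (SmK.on_t hK F ht).continuousOn (p := p) hF
    have h2 : IntegrableOn (B.indicator fun q => K t p (fun i => F i p) q (w q)) (closure B) μ := by
      refine h1.congr_fun (fun y _ => ?_) isClosed_closure.measurableSet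
      by_cases hy : y ∈ B
      · simp [hy]
      · simp [hy]
    have h3 := h2.mono_set (subset_closure (s := B))
    exact h3.congr_fun (fun y hy => by simp [hy]) hB
  · refine (integrableOn_zero).congr_fun (fun q hq => ?_) hB
    rw [hK.zero t ht p f q (hBU (subset_closure hq)) hf]
    simp

theorem appK_zero (hK : SmK om R' n O U K) (hB : MeasurableSet B) (hBU : closure B ⊆ U)
    (w : M → W) {t : ℝ} (ht : t ∈ O) (p : M) {f : Fin 4 → TangentSpace 𝓘(ℝ, E) p}
    (hf : ¬ PON om p f) : appK μ B (K t) w p f = 0 := by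
  unfold appK
  refine setIntegral_eq_zero_of_forall_eq_zero fun q hq => ?_
  rw [hK.zero t ht p f q (hBU (subset_closure hq)) hf]
  simp

theorem appK_equiv (h0 : SC0Stmt cov om) (hg : Geo4 cov om) (hK : SmK om R' n O U K)
    (hU : IsOpen U) (hB : MeasurableSet B) (hBU : closure B ⊆ U) {w : M → W}
    (hw : IntegrableOn w B μ) {t : ℝ} (ht : t ∈ O) (p : M)
    {f : Fin 4 → TangentSpace 𝓘(ℝ, E) p} {g : Mat4} (hf : PON om p f) (hgS : IsSO g) :
    appK μ B (K t) w p (fact f g) = R'.ρ (trM g) (appK μ B (K t) w p f) := by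
  unfold appK
  rw [← ContinuousLinearMap.integral_comp_comm _ (integrableOn_app h0 hg hK hU hB hBU hw ht p f)]
  refine setIntegral_congr_fun hB fun q hq => ?_
  rw [hK.equiv t ht p f q (hBU (subset_closure hq)) g hf hgS]
  rfl

/-- joint smoothness in `(p, t)` -/
theorem appK_on (hK : SmK om R' n O U K) (hO : IsOpen O)
    (hU : IsOpen U) (hB : MeasurableSet B) (hBU : closure B ⊆ U) {w : M → W}
    (hw : IntegrableOn w B μ) (F : Fin 4 → VF E M) :
    ContMDiffOn (𝓘(ℝ, E).prod 𝓘(ℝ, ℝ)) 𝓘(ℝ, W') n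
      (fun z : M × ℝ => appK μ B (K z.2) w z.1 fun i => F i z.1)
      ({q | PONnear om q F} ×ˢ O) := by
  have h := contMDiffOn_integral (I := 𝓘(ℝ, E).prod 𝓘(ℝ, ℝ)) (I' := 𝓘(ℝ, E))
    ((isOpen_PONnear (om := om) F).prod hO) hU (compact_cl (B := B)) hBU (ind_int hB hw)
    (k := fun (z : M × ℝ) q => K z.2 z.1 (fun i => F i z.1) q) (SmK.on_pt hK F)
  refine h.congr fun z _ => ?_
  exact int_closure hB _ w

theorem lk2a (h0 : SC0Stmt cov om) : LK2aStmt cov om μ := by
  intro hg hfin W W' _ _ _ _ _ _ R' n O U B K hO hU hB hBU hK w hw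
  constructor
  · intro t ht
    refine ⟨fun p f hf => appK_zero hK hB hBU w ht p hf,
      fun p f g hf hgS => appK_equiv h0 hg hK hU hB hBU hw ht p hf hgS, fun F p hF => ?_⟩
    have h := appK_on hK hO hU hB hBU hw F
    have h1 : ContMDiffAt (𝓘(ℝ, E).prod 𝓘(ℝ, ℝ)) 𝓘(ℝ, W') n
        (fun z : M × ℝ => appK μ B (K z.2) w z.1 fun i => F i z.1) (p, t) :=
      h.contMDiffAt (((isOpen_PONnear (om := om) F).prod hO).mem_nhds ⟨hF, ht⟩)
    exact ContMDiffAt.comp (I' := 𝓘(ℝ, E).prod 𝓘(ℝ, ℝ)) p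
      (g := fun z : M × ℝ => appK μ B (K z.2) w z.1 fun i => F i z.1)
      (f := fun q : M => (q, t)) h1 (contMDiffAt_id.prodMk contMDiffAt_const)
  · intro a b hab hab' c hc
    have hint : ∀ p f, IntervalIntegrable (fun s => c s • appK μ B (K s) w p f) volume a b := by
      intro p f
      by_cases hf : PON om p f
      · obtain ⟨F, hF, hFf, -⟩ := (h0 hg).1 p f hf
        have hFf' : (fun i => F i p) = f := funext hFf
        subst hFf'
        refine ContinuousOn.intervalIntegrable ?_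
        rw [uIcc_of_le hab]
        refine (hc.continuous.continuousOn).smul ?_
        have h1 := (appK_on hK hO hU hB hBU hw F).continuousOn
        exact h1.comp (f := fun s : ℝ => ((p : M), s)) (by fun_prop) fun s hs => ⟨hF, hab' hs⟩
      · refine (intervalIntegrable_const (c := (0 : W'))).congr fun s hs => ?_
        rw [uIoc_of_le hab] at hs
        rw [appK_zero hK hB hBU w (hab' ⟨hs.1.le, hs.2⟩) p hf, smul_zero]
    refine ⟨fun p f hf => ?_, fun p f g hf hgS => ?_, fun F p hF => ?_⟩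
    · refine intervalIntegral.integral_zero_ae ?_
      refine Eventually.of_forall fun s hs => ?_
      rw [uIoc_of_le hab] at hs
      rw [appK_zero hK hB hBU w (hab' ⟨hs.1.le, hs.2⟩) p hf, smul_zero]
    · rw [← ContinuousLinearMap.intervalIntegral_comp_comm _ (hint p f)]
      refine intervalIntegral.integral_congr fun s hs => ?_
      rw [uIcc_of_le hab] at hs
      rw [appK_equiv h0 hg hK hU hB hBU hw (hab' hs) p hf hgS, map_smul]
    · have h := appK_on hK hO hU hB hBU hw F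
      have hc' : ContMDiff (𝓘(ℝ, E).prod 𝓘(ℝ, ℝ)) 𝓘(ℝ, ℝ) n (fun z : M × ℝ => c z.2) :=
        ((contMDiff_iff_contDiff.2 hc).of_le (by exact_mod_cast le_top)).comp contMDiff_snd
      have h2 := contMDiffOn_intervalIntegral (I := 𝓘(ℝ, E)) (isOpen_PONnear (om := om) F) hO hab
        hab' (h := fun (p : M) s => c s • appK μ B (K s) w p fun i => F i p)
        (hc'.contMDiffOn.smul h)
      exact h2.contMDiffAt ((isOpen_PONnear (om := om) F).mem_nhds hF)

end meas

end

end Vale.Agent.P211.HK.LK2
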