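import Vale.Agent.P211.HK.LK2b

/-! P211 / HK / LK2b, LK2c: derivatives of smooth kernels; differentiation under the integral.
helper339. -/

set_option maxSynthPendingDepth 3
set_option linter.unusedSectionVars false

namespace Vale.Agent.P211.HK.LK2

open scoped Manifold ContDiff Topology RealInnerProductSpace
open Bundle Filter VectorField MeasureTheory Set

noncomputable section

variable {W W' : Type} [NormedAddCommGroup W] [InnerProductSpace ℝ W] [FiniteDimensional ℝ W]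
  [NormedAddCommGroup W'] [InnerProductSpace ℝ W'] [FiniteDimensional ℝ W']

/-- the inclusion of the `k`-th component -/
def incT (W' : Type) [NormedAddCommGroup W'] [InnerProductSpace ℝ W'] (k : Fin 4) :
    W' →L[ℝ] Tn W' :=
  ((PiLp.continuousLinearEquiv 2 ℝ fun _ : Fin 4 => W').symm : (Fin 4 → W') →L[ℝ] Tn W').comp
    (ContinuousLinearMap.single ℝ (fun _ : Fin 4 => W') k)

/-- the projection to the `k`-th component -/
def prT (W' : Type) [NormedAddCommGroup W'] [InnerProductSpace ℝ W'] (k : Fin 4) :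
    Tn W' →L[ℝ] W' := PiLp.proj 2 (fun _ : Fin 4 => W') k

theorem prT_apply (w : Tn W') (k : Fin 4) : prT W' k w = w k := rfl

theorem sum_incT_apply (A : Fin 4 → (W →L[ℝ] W')) (w : W) :
    (∑ k, (incT W' k).comp (A k)) w = mkT fun k => A k w := by
  ext j
  simp only [sum_apply, ContinuousLinearMap.comp_apply, incT, WithLp.ofLp_sum,
    Finset.sum_apply]
  rw [Finset.sum_eq_single j]
  · simp [mkT]
  · intro b _ hb
    simp [hb.symm]
  · simp

theorem mkT_add (a b : Fin 4 → W') : mkT (fun k => a k + b k) = mkT a + mkT b := rfl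

theorem mkT_smul (c : ℝ) (a : Fin 4 → W') : mkT (fun k => c • a k) = c • mkT a := rfl

variable {E : Type} [NormedAddCommGroup E] [NormedSpace ℝ E] [FiniteDimensional ℝ E]
  {M : Type} [TopologicalSpace M] [ChartedSpace E M] [IsManifold 𝓘(ℝ, E) ∞ M] [T2Space M]

/-- derivative of an operator valued function applied to a vector -/
theorem dirW_clm_apply {A : M → (W →L[ℝ] W')} {p : M}
    (hA : MDifferentiableAt 𝓘(ℝ, E) 𝓘(ℝ, W →L[ℝ] W') A p) (w : W)
    (v : TangentSpace 𝓘(ℝ, E) p) :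
    dirW (fun q => A q w) p v = (show W →L[ℝ] W' from
      mfderiv 𝓘(ℝ, E) 𝓘(ℝ, W →L[ℝ] W') A p v) w := by
  have h1 := mfd_comp (E := E) (ρ := fun L : W →L[ℝ] W' => L w) (w := A) (p := p)
    (ContinuousLinearMap.apply ℝ W' w).differentiableAt hA v
  have h2 : fderiv ℝ (fun L : W →L[ℝ] W' => L w) (A p) = ContinuousLinearMap.apply ℝ W' w :=
    (ContinuousLinearMap.apply ℝ W' w).fderiv
  rw [h2] at h1
  exact h1

variable [RiemannianBundle fun p : M => TangentSpace 𝓘(ℝ, E) p]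
  [IsContMDiffRiemannianBundle 𝓘(ℝ, E) ∞ E fun p : M => TangentSpace 𝓘(ℝ, E) p]

variable {cov : CovariantDerivative 𝓘(ℝ, E) E (TangentSpace 𝓘(ℝ, E) : M → Type)}
  {om : Form4 E M} {R' : Rep W'} {O : Set ℝ} {U B : Set M} {K : ℝ → PreK E M W W'}

/-- derivative of a kernel in a smooth frame along the fields of the frame -/
def dFK (F : Fin 4 → VF E M) (Kt : PreK E M W W') (p q : M) (k : Fin 4) : W →L[ℝ] W' :=
  (mfd (fun p' => Kt p' (fun i => F i p') q) p : E →L[ℝ] (W →L[ℝ] W')) (F k p)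

/-- smoothness in the target point -/
theorem SmK.at_p (hK : SmK om R' ∞ O U K) (F : Fin 4 → VF E M) {p : M} (hF : PONnear om p F)
    {t : ℝ} (ht : t ∈ O) {q : M} (hq : q ∈ U) :
    ContMDiffAt 𝓘(ℝ, E) 𝓘(ℝ, W →L[ℝ] W') ∞ (fun p' => K t p' (fun i => F i p') q) p :=
  ContMDiffAt.comp (I' := 𝓘(ℝ, ℝ).prod (𝓘(ℝ, E).prod 𝓘(ℝ, E))) p
    (g := fun z : ℝ × M × M => K z.1 z.2.1 (fun i => F i z.2.1) z.2.2)
    (f := fun p' : M => (t, p', q)) (hK.smooth F t p q ht hq hF)
    (contMDiffAt_const.prodMk (contMDiffAt_id.prodMk contMDiffAt_const))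

/-- a smooth kernel gives a smooth section for each source vector -/
theorem SmK.sec (hK : SmK om R' ∞ O U K) {t : ℝ} (ht : t ∈ O) {q : M} (hq : q ∈ U) (w : W) :
    (fun p f => K t p f q w) ∈ Sec om R' := by
  refine ⟨fun p f hf => ?_, fun p f g hf hgS => ?_, fun F p hF => ?_⟩
  · beta_reduce
    rw [hK.zero t ht p f q hq hf]; rfl
  · beta_reduce
    rw [hK.equiv t ht p f q hq g hf hgS]; rfl
  · exact (SmK.at_p hK F hF ht hq).clm_apply contMDiffAt_const

theorem nabS_of_not (u : PreS E M W') {p : M} {f : Fin 4 → TangentSpace 𝓘(ℝ, E) p}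
    (hf : ¬ PON om p f) : nabS cov om u p f = 0 := by
  unfold nabS
  rw [dif_neg fun h => hf h.1]

/-- the covariant derivative of a kernel in a smooth frame -/
theorem nabS_frame (h1 : SC1Stmt cov om) (hg : Geo4 cov om) (hK : SmK om R' ∞ O U K) {t : ℝ}
    (ht : t ∈ O) {q : M} (hq : q ∈ U) (w : W) (F : Fin 4 → VF E M) {p : M}
    (hF : PONnear om p F) :
    (nabS cov om (fun p f => K t p f q w) p fun i => F i p) = mkT fun k =>
      dFK F (K t) p q k w + R'.d (GaF cov F p k) (K t p (fun i => F i p) q w) := by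
  ext k
  rw [h1 hg W' R' _ (SmK.sec hK ht hq w) p F hF k]
  have h2 := dirW_clm_apply (A := fun p' => K t p' (fun i => F i p') q) (p := p)
    ((SmK.at_p hK F hF ht hq).mdifferentiableAt (by simp)) w (F k p)
  exact congrArg (· + R'.d (GaF cov F p k) (K t p (fun i => F i p) q w)) h2

theorem isLin_nabS (h0 : SC0Stmt cov om) (h1 : SC1Stmt cov om) (hg : Geo4 cov om)
    (hK : SmK om R' ∞ O U K) {t : ℝ} (ht : t ∈ O) {q : M} (hq : q ∈ U) (p : M)
    (f : Fin 4 → TangentSpace 𝓘(ℝ, E) p) :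
    IsLinearMap ℝ (fun w : W => nabS cov om (fun p' f' => K t p' f' q w) p f) := by
  by_cases hf : PON om p f
  · obtain ⟨F, hF, hFf, -⟩ := (h0 hg).1 p f hf
    have hFf' : (fun i => F i p) = f := funext hFf
    subst hFf'
    constructor
    · intro x y
      rw [nabS_frame h1 hg hK ht hq _ F hF, nabS_frame h1 hg hK ht hq _ F hF,
        nabS_frame h1 hg hK ht hq _ F hF, ← mkT_add]
      congr 1
      funext k
      simp only [map_add]
      abel
    · intro c x
      rw [nabS_frame h1 hg hK ht hq _ F hF, nabS_frame h1 hg hK ht hq _ F hF, ← mkT_smul]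
      congr 1
      funext k
      simp only [map_smul, smul_add]
  · constructor
    · intro x y
      rw [nabS_of_not _ hf, nabS_of_not _ hf, nabS_of_not _ hf, add_zero]
    · intro c x
      rw [nabS_of_not _ hf, nabS_of_not _ hf, smul_zero]

theorem nabK_apply (h0 : SC0Stmt cov om) (h1 : SC1Stmt cov om) (hg : Geo4 cov om)
    (hK : SmK om R' ∞ O U K) {t : ℝ} (ht : t ∈ O) {q : M} (hq : q ∈ U) (p : M)
    (f : Fin 4 → TangentSpace 𝓘(ℝ, E) p) (w : W) :
    nabK cov om (K t) p f q w = nabS cov om (fun p' f' => K t p' f' q w) p f := by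
  unfold nabK liftK
  rw [dif_pos (isLin_nabS h0 h1 hg hK ht hq p f)]
  rfl

/-- the kernel of the covariant derivative in a smooth frame -/
theorem nabK_frame (h0 : SC0Stmt cov om) (h1 : SC1Stmt cov om) (hg : Geo4 cov om)
    (hK : SmK om R' ∞ O U K) {t : ℝ} (ht : t ∈ O) {q : M} (hq : q ∈ U)
    (F : Fin 4 → VF E M) {p : M} (hF : PONnear om p F) :
    (nabK cov om (K t) p (fun i => F i p) q) = ∑ k, (incT W' k).comp
      (dFK F (K t) p q k + (R'.d (GaF cov F p k)).comp (K t p (fun i => F i p) q)) := by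
  ext1 w
  rw [nabK_apply h0 h1 hg hK ht hq, nabS_frame h1 hg hK ht hq w F hF, sum_incT_apply]
  rfl

/-- joint smoothness of the kernel of the covariant derivative -/
theorem nabK_smooth (h0 : SC0Stmt cov om) (h1 : SC1Stmt cov om) (hg : Geo4 cov om)
    (hK : SmK om R' ∞ O U K) (hO : IsOpen O) (hU : IsOpen U) (F : Fin 4 → VF E M) {t : ℝ}
    {p q : M} (ht : t ∈ O) (hq : q ∈ U) (hF : PONnear om p F) :
    ContMDiffAt (𝓘(ℝ, ℝ).prod (𝓘(ℝ, E).prod 𝓘(ℝ, E))) 𝓘(ℝ, W →L[ℝ] Tn W') ∞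
      (fun z : ℝ × M × M => nabK cov om (K z.1) z.2.1 (fun i => F i z.2.1) z.2.2) (t, p, q) := by
  have hev : (fun z : ℝ × M × M => nabK cov om (K z.1) z.2.1 (fun i => F i z.2.1) z.2.2)
      =ᶠ[𝓝 (t, p, q)] fun z => ∑ k, (incT W' k).comp
      (dFK F (K z.1) z.2.1 z.2.2 k +
          (R'.d (GaF cov F z.2.1 k)).comp (K z.1 z.2.1 (fun i => F i z.2.1) z.2.2)) := by
    have hn : O ×ˢ {q | PONnear om q F} ×ˢ U ∈ 𝓝 (t, p, q) :=
      (hO.prod ((isOpen_PONnear (om := om) F).prod hU)).mem_nhds ⟨ht, hF, hq⟩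
    filter_upwards [hn] with z hz
    exact nabK_frame h0 h1 hg hK hz.1 hz.2.2 F hz.2.1
  refine ContMDiffAt.congr_of_eventuallyEq ?_ hev
  refine ContMDiffAt.sum fun k _ => contMDiffAt_const.clm_comp (ContMDiffAt.add ?_ ?_)
  · refine contMDiffAt_dir_param (J := 𝓘(ℝ, ℝ).prod (𝓘(ℝ, E).prod 𝓘(ℝ, E)))
      (f := fun (z : ℝ × M × M) p' => K z.1 p' (fun i => F i p') z.2.2)
      (g := fun z : ℝ × M × M => z.2.1) (F k) (z₀ := (t, p, q)) (m := ∞) (n := ∞) ?_
      (contMDiffAt_snd.fst) (by simp) le_rfl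
    exact ContMDiffAt.comp (I' := 𝓘(ℝ, ℝ).prod (𝓘(ℝ, E).prod 𝓘(ℝ, E))) ((t, p, q), p)
      (g := fun z : ℝ × M × M => K z.1 z.2.1 (fun i => F i z.2.1) z.2.2)
      (f := fun z : (ℝ × M × M) × M => (z.1.1, z.2, z.1.2.2)) (hK.smooth F t p q ht hq hF)
      ((contMDiffAt_fst.fst).prodMk (contMDiffAt_snd.prodMk (contMDiffAt_fst.snd.snd)))
  · refine ContMDiffAt.clm_comp ?_ (hK.smooth F t p q ht hq hF)
    have h5 : ContMDiffAt 𝓘(ℝ, E) 𝓘(ℝ, W' →L[ℝ] W') ∞ (fun q => R'.d (GaF cov F q k)) p :=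
      (fderiv ℝ R'.ρ idM).contMDiff.contMDiffAt.comp p (SC2.contMDiff_GaF hg.lc F k p)
    exact ContMDiffAt.comp (I' := 𝓘(ℝ, E)) (t, p, q)
      (g := fun p : M => R'.d (GaF cov F p k)) (f := fun z : ℝ × M × M => z.2.1) h5
      (contMDiffAt_snd.fst)

/-- the kernel of the covariant derivative is a smooth kernel -/
theorem nabK_smK (h0 : SC0Stmt cov om) (h1 : SC1Stmt cov om) (h2 : SC2Stmt cov om)
    (hg : Geo4 cov om) (hK : SmK om R' ∞ O U K) (hO : IsOpen O) (hU : IsOpen U)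
    {R'' : Rep (Tn W')} (hT : Tens R' R'') :
    SmK om R'' ∞ O U (fun t => nabK cov om (K t)) := by
  refine ⟨fun t ht p f q hq hf => ?_, fun t ht p f q hq a hf ha => ?_,
    fun F t p q ht hq hF => nabK_smooth h0 h1 hg hK hO hU F ht hq hF⟩
  · ext1 w
    rw [nabK_apply h0 h1 hg hK ht hq, nabS_of_not _ hf]
    rfl
  · ext1 w
    have h3 := (h2 hg W' R' R'' hT _ (SmK.sec hK ht hq w)).2.1 p f a hf ha
    rw [nabK_apply h0 h1 hg hK ht hq, h3, ContinuousLinearMap.comp_apply,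
      nabK_apply h0 h1 hg hK ht hq]

/-- `nabS` twice -/
theorem nabS_nabS (h0 : SC0Stmt cov om) (h1 : SC1Stmt cov om) (h2 : SC2Stmt cov om)
    (hg : Geo4 cov om) (hK : SmK om R' ∞ O U K) (hO : IsOpen O) (hU : IsOpen U)
    {R'' : Rep (Tn W')} (hT : Tens R' R'') {t : ℝ} (ht : t ∈ O) {q : M} (hq : q ∈ U) (p : M)
    (f : Fin 4 → TangentSpace 𝓘(ℝ, E) p) (w : W) :
    nabS cov om (nabS cov om (fun p' f' => K t p' f' q w)) p f =
      nabK cov om (nabK cov om (K t)) p f q w := by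
  rw [nabK_apply (K := fun t => nabK cov om (K t)) h0 h1 hg
    (nabK_smK h0 h1 h2 hg hK hO hU hT) ht hq]
  congr 1
  funext p' f'
  exact (nabK_apply h0 h1 hg hK ht hq p' f' w).symm

/-- `-∑ k, (·)_{kk}` -/
def trT (W' : Type) [NormedAddCommGroup W'] [InnerProductSpace ℝ W'] : Tn (Tn W') →L[ℝ] W' :=
  -∑ k, (prT W' k).comp (prT (Tn W') k)

theorem trT_apply (x : Tn (Tn W')) : trT W' x = - ∑ k, x k k := by
  simp [trT, prT]

theorem lapK_eq (h0 : SC0Stmt cov om) (h1 : SC1Stmt cov om) (h2 : SC2Stmt cov om)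
    (hg : Geo4 cov om) (hK : SmK om R' ∞ O U K) (hO : IsOpen O) (hU : IsOpen U)
    {R'' : Rep (Tn W')} (hT : Tens R' R'') {t : ℝ} (ht : t ∈ O) {q : M} (hq : q ∈ U) (p : M)
    (f : Fin 4 → TangentSpace 𝓘(ℝ, E) p) :
    (∀ w, lapK cov om (K t) p f q w = lapS cov om (fun p' f' => K t p' f' q w) p f) ∧
    lapK cov om (K t) p f q = (trT W').comp (nabK cov om (nabK cov om (K t)) p f q) := by
  have e : ∀ w, lapS cov om (fun p' f' => K t p' f' q w) p f =
      (trT W').comp (nabK cov om (nabK cov om (K t)) p f q) w := by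
    intro w
    rw [ContinuousLinearMap.comp_apply, ← nabS_nabS h0 h1 h2 hg hK hO hU hT ht hq p f w, trT_apply]
    rfl
  have hl : IsLinearMap ℝ (fun w : W => lapS cov om (fun p' f' => K t p' f' q w) p f) := by
    simp only [e]
    exact ⟨fun x y => map_add _ _ _, fun c x => map_smul _ _ _⟩
  have h3 : ∀ w, lapK cov om (K t) p f q w = lapS cov om (fun p' f' => K t p' f' q w) p f := by
    intro w
    unfold lapK liftK
    rw [dif_pos hl]
    rfl
  refine ⟨h3, ?_⟩
  ext1 w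
  rw [h3, e]

theorem lapS_of_not (u : PreS E M W') {p : M} {f : Fin 4 → TangentSpace 𝓘(ℝ, E) p}
    (hf : ¬ PON om p f) : lapS cov om u p f = 0 := by
  unfold lapS
  rw [nabS_of_not _ hf]
  simp

/-- `H` maps sections to sections -/
theorem lapS_mem (h2 : SC2Stmt cov om) (hg : Geo4 cov om) {u : PreS E M W'}
    (hu : u ∈ Sec om R') : lapS cov om u ∈ Sec om R' := by
  have a1 := h2 hg W' R' R'.tn R'.tens_tn u hu
  have a2 := h2 hg (Tn W') R'.tn R'.tn.tn R'.tn.tens_tn _ a1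
  refine ⟨fun p f hf => lapS_of_not u hf, fun p f g hf hgS => ?_, fun F p hF => ?_⟩
  · have a3 := a2.2.1 p f g hf hgS
    have hS := SC2.isSO_trM hgS
    unfold lapS
    rw [a3, map_neg, map_sum]
    congr 1
    have a4 : ∀ k, (R'.tn.tn.ρ (trM g) (nabS cov om (nabS cov om u) p f)) k k =
        ∑ l, ∑ m, (g l k * g m k) • R'.ρ (trM g) ((nabS cov om (nabS cov om u) p f) l m) := by
      intro k
      rw [Rep.tn_ρ, SC2.tnMap_apply]
      simp only [WithLp.ofLp_sum, WithLp.ofLp_smul, Finset.sum_apply, Pi.smul_apply]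
      refine Finset.sum_congr rfl fun l _ => ?_
      rw [Rep.tn_ρ, SC2.tnMap_apply, Finset.smul_sum]
      refine Finset.sum_congr rfl fun m _ => ?_
      rw [smul_smul]
      rfl
    simp only [a4]
    rw [Finset.sum_comm]
    refine Finset.sum_congr rfl fun l _ => ?_
    rw [Finset.sum_comm]
    have a5 : ∀ m, ∑ k, (g l k * g m k) = idM l m := by
      intro m
      have := congrFun (congrFun (IsSO.right hgS) l) m
      exact this
    simp only [← Finset.sum_smul, a5]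
    rw [Finset.sum_eq_single l]
    · simp [idM]
    · intro b _ hb
      simp [idM, hb.symm]
    · simp
  · have a3 := a2.2.2 F p hF
    have a4 := (trT W').contMDiff.contMDiffAt.comp p a3
    refine a4.congr_of_eventuallyEq (Eventually.of_forall fun q => ?_)
    rw [Function.comp_apply, trT_apply]
    rfl

theorem lk2b (h0 : SC0Stmt cov om) (h1 : SC1Stmt cov om) (h2 : SC2Stmt cov om) :
    LK2bStmt cov om := by
  intro hg W W' _ _ _ _ _ _ R' R'' hT O U K hO hU hK
  refine ⟨⟨fun t ht p f q hq hf => ?_, fun t ht p f q hq a hf ha => ?_,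
    fun F t p q ht hq hF => ?_⟩, ⟨nabK_smK h0 h1 h2 hg hK hO hU hT,
      fun t ht q hq p f w => nabK_apply h0 h1 hg hK ht hq p f w⟩,
      ⟨fun t ht p f q hq hf => ?_, fun t ht p f q hq a hf ha => ?_,
        fun F t p q ht hq hF => ?_⟩, fun t ht q hq p f w =>
          (lapK_eq h0 h1 h2 hg hK hO hU hT ht hq p f).1 w⟩
  · have h3 : (fun s => K s p f q) =ᶠ[𝓝 t] fun _ => 0 := by
      filter_upwards [hO.mem_nhds ht] with s hs using hK.zero s hs p f q hq hf
    unfold dtK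
    rw [h3.deriv_eq, deriv_const]
  · have h3 : (fun s => K s p (fact f a) q) =ᶠ[𝓝 t]
        fun s => (R'.ρ (trM a)).comp (K s p f q) := by
      filter_upwards [hO.mem_nhds ht] with s hs using hK.equiv s hs p f q hq a hf ha
    unfold dtK
    rw [h3.deriv_eq]
    obtain ⟨F, hF, hFf, -⟩ := (h0 hg).1 p f hf
    have hFf' : (fun i => F i p) = f := funext hFf
    subst hFf'
    have h4 : ContMDiffAt 𝓘(ℝ, ℝ) 𝓘(ℝ, W →L[ℝ] W') ∞ (fun s => K s p (fun i => F i p) q) t :=
      ContMDiffAt.comp (I' := 𝓘(ℝ, ℝ).prod (𝓘(ℝ, E).prod 𝓘(ℝ, E))) t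
        (g := fun z : ℝ × M × M => K z.1 z.2.1 (fun i => F i z.2.1) z.2.2)
        (f := fun s : ℝ => (s, p, q)) (hK.smooth F t p q ht hq hF)
        (contMDiffAt_id.prodMk contMDiffAt_const)
    have h5 : DifferentiableAt ℝ (fun s => K s p (fun i => F i p) q) t :=
      (contMDiffAt_iff_contDiffAt.1 h4).differentiableAt (by simp)
    exact ((ContinuousLinearMap.compL ℝ W W' W' (R'.ρ (trM a))).hasFDerivAt.comp_hasDerivAt t
      h5.hasDerivAt).deriv
  · have h6 := contMDiffOn_fderiv_left (E := ℝ) (I' := 𝓘(ℝ, E).prod 𝓘(ℝ, E)) (Y := M × M)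
      (n := ⊤) (m := ⊤) hO ((isOpen_PONnear (om := om) F).prod hU) (by simp)
      (k := fun s (y : M × M) => K s y.1 (fun i => F i y.1) y.2) (SmK.on (n := ⊤) hK F)
    have h7 := h6.contMDiffAt (x := (t, p, q))
      ((hO.prod ((isOpen_PONnear (om := om) F).prod hU)).mem_nhds ⟨ht, hF, hq⟩)
    have h8 := h7.clm_apply (contMDiffAt_const (c := (1 : ℝ)))
    refine h8.congr_of_eventuallyEq (Eventually.of_forall fun z => ?_)
    simp only [dtK]
    exact (fderiv_apply_one_eq_deriv).symm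
  · rw [(lapK_eq h0 h1 h2 hg hK hO hU hT ht hq p f).2]
    have h3 := (nabK_smK (K := fun t => nabK cov om (K t)) h0 h1 h2 hg
      (nabK_smK h0 h1 h2 hg hK hO hU hT) hO hU (Rep.tens_tn R'')).zero t ht p f q hq hf
    rw [h3, ContinuousLinearMap.comp_zero]
  · ext1 w
    rw [(lapK_eq h0 h1 h2 hg hK hO hU hT ht hq p (fact f a)).1 w, ContinuousLinearMap.comp_apply,
      (lapK_eq h0 h1 h2 hg hK hO hU hT ht hq p f).1 w]
    exact (lapS_mem h2 hg (SmK.sec hK ht hq w)).2.1 p f a hf ha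
  · have hn : O ×ˢ {q | PONnear om q F} ×ˢ U ∈ 𝓝 (t, p, q) :=
      (hO.prod ((isOpen_PONnear (om := om) F).prod hU)).mem_nhds ⟨ht, hF, hq⟩
    have h3 := nabK_smooth (K := fun t => nabK cov om (K t)) h0 h1 hg
      (nabK_smK h0 h1 h2 hg hK hO hU hT) hO hU F ht hq hF
    refine (contMDiffAt_const (c := trT W').clm_comp h3).congr_of_eventuallyEq ?_
    filter_upwards [hn] with z hz
    exact (lapK_eq h0 h1 h2 hg hK hO hU hT hz.1 hz.2.2 z.2.1 _).2

end

end Vale.Agent.P211.HK.LK2
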