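import Vale.Agent.P211.HK.LK2c

/-! P211 / HK / LK2c: differentiation under the integral. helper339. -/

set_option maxSynthPendingDepth 3
set_option linter.unusedSectionVars false

namespace Vale.Agent.P211.HK.LK2

open scoped Manifold ContDiff Topology RealInnerProductSpace
open Bundle Filter VectorField MeasureTheory Set

noncomputable section

variable {W W' : Type} [NormedAddCommGroup W] [InnerProductSpace ℝ W] [FiniteDimensional ℝ W]
  [NormedAddCommGroup W'] [InnerProductSpace ℝ W'] [FiniteDimensional ℝ W']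

variable {E : Type} [NormedAddCommGroup E] [NormedSpace ℝ E] [FiniteDimensional ℝ E]
  {M : Type} [TopologicalSpace M] [ChartedSpace E M] [IsManifold 𝓘(ℝ, E) ∞ M] [T2Space M]
  [RiemannianBundle fun p : M => TangentSpace 𝓘(ℝ, E) p]
  [IsContMDiffRiemannianBundle 𝓘(ℝ, E) ∞ E fun p : M => TangentSpace 𝓘(ℝ, E) p]

variable {cov : CovariantDerivative 𝓘(ℝ, E) E (TangentSpace 𝓘(ℝ, E) : M → Type)}
  {om : Form4 E M} {R' : Rep W'} {O : Set ℝ} {U B : Set M} {K : ℝ → PreK E M W W'}

variable [MeasurableSpace M] [BorelSpace M] [CompactSpace M] {μ : Measure M}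

theorem nabS_appK (h0 : SC0Stmt cov om) (h1 : SC1Stmt cov om) (h2 : SC2Stmt cov om)
    (hg : Geo4 cov om) (hK : SmK om R' ∞ O U K) (hO : IsOpen O) (hU : IsOpen U)
    (hB : MeasurableSet B) (hBU : closure B ⊆ U) {R'' : Rep (Tn W')} (hT : Tens R' R'')
    {w : M → W} (hw : IntegrableOn w B μ) {t : ℝ} (ht : t ∈ O)
    (hmem : appK μ B (K t) w ∈ Sec om R') :
    nabS cov om (appK μ B (K t) w) = appK μ B (nabK cov om (K t)) w := by
  funext p f
  by_cases hf : PON om p f
  swap
  · rw [nabS_of_not _ hf]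
    exact (appK_zero (n := ⊤) (nabK_smK h0 h1 h2 hg hK hO hU hT) hB hBU w ht p hf).symm
  obtain ⟨F, hF, hFf, hF0⟩ := (h0 hg).1 p f hf
  have hFf' : (fun i => F i p) = f := funext hFf
  subst hFf'
  have hint : IntegrableOn (fun q => nabK cov om (K t) p (fun i => F i p) q (w q)) B μ :=
    integrableOn_app (n := ⊤) h0 hg (nabK_smK h0 h1 h2 hg hK hO hU hT) hU hB hBU hw ht p _
  have hG0 : ∀ k, GaF cov F p k = 0 := by
    intro k
    funext i j
    unfold GaF
    rw [hF0, inner_zero_left]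
    rfl
  ext k
  rw [h1 hg W' R' _ hmem p F hF k, hG0, SC2.d_zero, zero_apply, add_zero]
  have e1 : (appK μ B (nabK cov om (K t)) w p fun i => F i p) k =
      ∫ q in B, (prT W' k) (nabK cov om (K t) p (fun i => F i p) q (w q)) ∂μ := by
    rw [ContinuousLinearMap.integral_comp_comm _ hint]
    rfl
  rw [e1]
  have e2 : ∀ q ∈ B, (prT W' k) (nabK cov om (K t) p (fun i => F i p) q (w q)) =
      dFK F (K t) p q k (w q) := by
    intro q hq
    rw [nabK_frame h0 h1 hg hK ht (hBU (subset_closure hq)) F hF, sum_incT_apply, prT_apply]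
    rw [SC2.mkT_apply, hG0, SC2.d_zero]
    simp
  rw [setIntegral_congr_fun hB e2]
  have h3 := mfderiv_integral_apply (I := 𝓘(ℝ, E)) (I' := 𝓘(ℝ, E)) (isOpen_PONnear (om := om) F)
    hU (compact_cl (B := B)) hBU (ind_int (μ := μ) hB hw) (n := ⊤) le_top
    (k := fun (p : M) q => K t p (fun i => F i p) q) (SmK.on_t (n := ⊤) hK F ht) hF (F k p)
  rw [int_closure hB (fun q => dFK F (K t) p q k) w]
  refine Eq.trans ?_ h3
  unfold dirW
  have e4 : (fun q => appK μ B (K t) w q fun i => F i q) =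
      fun p => ∫ y in closure B, K t p (fun i => F i p) y (B.indicator w y) ∂μ := by
    funext p
    exact int_closure hB _ w
  rw [e4]

theorem secN_top {u : PreS E M W'} : u ∈ SecN om R' ((⊤ : ℕ∞) : WithTop ℕ∞) ↔ u ∈ Sec om R' :=
  Iff.rfl

theorem appK_mem (h0 : SC0Stmt cov om) (hg : Geo4 cov om) [IsFiniteMeasure μ]
    (hK : SmK om R' ∞ O U K) (hO : IsOpen O) (hU : IsOpen U)
    (hB : MeasurableSet B) (hBU : closure B ⊆ U)
    {w : M → W} (hw : IntegrableOn w B μ) {t : ℝ} (ht : t ∈ O) :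
    appK μ B (K t) w ∈ Sec om R' :=
  (lk2a h0 hg inferInstance W W' R' ⊤ O U B K hO hU hB hBU hK w hw).1 t ht

theorem lapS_appK (h0 : SC0Stmt cov om) (h1 : SC1Stmt cov om) (h2 : SC2Stmt cov om)
    (hg : Geo4 cov om) [IsFiniteMeasure μ]
    (hK : SmK om R' ∞ O U K) (hO : IsOpen O) (hU : IsOpen U)
    (hB : MeasurableSet B) (hBU : closure B ⊆ U) {R'' : Rep (Tn W')} (hT : Tens R' R'')
    {w : M → W} (hw : IntegrableOn w B μ) {t : ℝ} (ht : t ∈ O) :
    lapS cov om (appK μ B (K t) w) = appK μ B (lapK cov om (K t)) w := by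
  have hK1 := nabK_smK h0 h1 h2 hg hK hO hU hT
  have hK2 := nabK_smK (K := fun t => nabK cov om (K t)) h0 h1 h2 hg hK1 hO hU
    (Rep.tens_tn R'')
  have e1 := nabS_appK h0 h1 h2 hg hK hO hU hB hBU hT hw ht
    (appK_mem h0 hg hK hO hU hB hBU hw ht)
  have e2 := nabS_appK (K := fun t => nabK cov om (K t)) h0 h1 h2 hg hK1 hO hU hB hBU
    (Rep.tens_tn R'') hw ht (appK_mem (K := fun t => nabK cov om (K t)) h0 hg hK1 hO hU hB hBU hw ht)
  funext p f
  have hint : IntegrableOn (fun q => nabK cov om (nabK cov om (K t)) p f q (w q)) B μ :=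
    integrableOn_app (n := ⊤) h0 hg hK2 hU hB hBU hw ht p f
  have e3 : lapS cov om (appK μ B (K t) w) p f =
      trT W' (nabS cov om (nabS cov om (appK μ B (K t) w)) p f) := by
    rw [trT_apply]
    rfl
  rw [e3, e1, e2]
  have e4 : trT W' (appK μ B (nabK cov om (nabK cov om (K t))) w p f) =
      ∫ q in B, (trT W') (nabK cov om (nabK cov om (K t)) p f q (w q)) ∂μ := by
    rw [ContinuousLinearMap.integral_comp_comm _ hint]
    rfl
  refine e4.trans ?_
  refine setIntegral_congr_fun hB fun q hq => ?_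
  have e5 := (lapK_eq h0 h1 h2 hg hK hO hU hT ht (hBU (subset_closure hq)) p f).2
  beta_reduce
  rw [e5]
  rfl

theorem dt_appK (h0 : SC0Stmt cov om) (hg : Geo4 cov om)
    (hK : SmK om R' ∞ O U K) (hO : IsOpen O) (hU : IsOpen U)
    (hB : MeasurableSet B) (hBU : closure B ⊆ U)
    {w : M → W} (hw : IntegrableOn w B μ) {t : ℝ} (ht : t ∈ O) (p : M)
    (f : Fin 4 → TangentSpace 𝓘(ℝ, E) p) :
    HasDerivAt (fun s => appK μ B (K s) w p f) (appK μ B (dtK K t) w p f) t := by
  by_cases hf : PON om p f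
  · obtain ⟨F, hF, hFf, hF0⟩ := (h0 hg).1 p f hf
    have hFf' : (fun i => F i p) = f := funext hFf
    subst hFf'
    have hk := SmK.on_p (n := ⊤) hK F hF
    have h3 := hasFDerivAt_integral (E := ℝ) (I' := 𝓘(ℝ, E)) hO hU (compact_cl (B := B)) hBU
      (ind_int (μ := μ) hB hw) (n := ⊤) le_top
      (k := fun (s : ℝ) q => K s p (fun i => F i p) q) hk ht
    have h4 := mfderiv_integral_apply (I := 𝓘(ℝ, ℝ)) (I' := 𝓘(ℝ, E)) hO hU
      (compact_cl (B := B)) hBU (ind_int (μ := μ) hB hw) (n := ⊤) le_top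
      (k := fun (s : ℝ) q => K s p (fun i => F i p) q) hk ht (1 : ℝ)
    have h5 := h3.differentiableAt.hasDerivAt
    have e1 : (fun s => appK μ B (K s) w p fun i => F i p) =
        fun s => ∫ y in closure B, K s p (fun i => F i p) y (B.indicator w y) ∂μ := by
      funext s
      exact int_closure hB _ w
    rw [e1]
    convert! h5 using 1
    rw [← fderiv_apply_one_eq_deriv, ← mfderiv_eq_fderiv]
    refine Eq.trans ?_ h4.symm
    refine (int_closure hB (fun q => dtK K t p (fun i => F i p) q) w).trans ?_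
    refine setIntegral_congr_fun isClosed_closure.measurableSet fun q _ => ?_
    simp only [mfderiv_eq_fderiv]
    congr 1
  · have h3 : (fun s => appK μ B (K s) w p f) =ᶠ[𝓝 t] fun _ => 0 := by
      filter_upwards [hO.mem_nhds ht] with s hs
      exact appK_zero (n := ⊤) hK hB hBU w hs p hf
    have h4 : appK μ B (dtK K t) w p f = 0 := by
      unfold appK
      refine setIntegral_eq_zero_of_forall_eq_zero fun q hq => ?_
      have h5 : (fun s => K s p f q) =ᶠ[𝓝 t] fun _ => 0 := by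
        filter_upwards [hO.mem_nhds ht] with s hs using
          hK.zero s hs p f q (hBU (subset_closure hq)) hf
      unfold dtK
      rw [h5.deriv_eq, deriv_const]
      rfl
    rw [h4]
    exact (hasDerivAt_const t (0 : W')).congr_of_eventuallyEq h3

theorem lk2c (h0 : SC0Stmt cov om) (h1 : SC1Stmt cov om) (h2 : SC2Stmt cov om) :
    LK2cStmt cov om μ := by
  intro hg hfin W W' _ _ _ _ _ _ R' R'' hT O U B K hO hU hB hBU hK w hw t ht
  exact ⟨nabS_appK h0 h1 h2 hg hK hO hU hB hBU hT hw ht (appK_mem h0 hg hK hO hU hB hBU hw ht),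
    lapS_appK h0 h1 h2 hg hK hO hU hB hBU hT hw ht,
    fun p f => dt_appK h0 hg hK hO hU hB hBU hw ht p f⟩

end

end Vale.Agent.P211.HK.LK2
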