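import Vale.Agent.P211.HK.LK2d

/-! P211 / HK / LK2e: the transposed operator. helper339. -/

set_option maxSynthPendingDepth 3
set_option linter.unusedSectionVars false

namespace Vale.Agent.P211.HK.LK2

open scoped Manifold ContDiff Topology RealInnerProductSpace
open Bundle Filter VectorField MeasureTheory Set

noncomputable section

variable {W W' : Type} [NormedAddCommGroup W] [InnerProductSpace ℝ W] [FiniteDimensional ℝ W]
  [NormedAddCommGroup W'] [InnerProductSpace ℝ W'] [FiniteDimensional ℝ W']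

theorem contDiff_adjoint (n : WithTop ℕ∞) :
    ContDiff ℝ n fun L : W →L[ℝ] W' => ContinuousLinearMap.adjoint L := by
  have h : IsBoundedLinearMap ℝ fun L : W →L[ℝ] W' => ContinuousLinearMap.adjoint L := by
    refine IsLinearMap.with_bound ⟨fun a b => map_add _ a b, fun c a => ?_⟩ 1 fun L => ?_
    · exact map_smul (ContinuousLinearMap.adjoint (𝕜 := ℝ) (E := W) (F := W')) c a
    · rw [one_mul, LinearIsometryEquiv.norm_map]
  exact h.contDiff

variable {E : Type} [NormedAddCommGroup E] [NormedSpace ℝ E] [FiniteDimensional ℝ E]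
  {M : Type} [TopologicalSpace M] [ChartedSpace E M] [IsManifold 𝓘(ℝ, E) ∞ M] [T2Space M]
  [RiemannianBundle fun p : M => TangentSpace 𝓘(ℝ, E) p]
  [IsContMDiffRiemannianBundle 𝓘(ℝ, E) ∞ E fun p : M => TangentSpace 𝓘(ℝ, E) p]

variable {cov : CovariantDerivative 𝓘(ℝ, E) E (TangentSpace 𝓘(ℝ, E) : M → Type)}
  {om : Form4 E M} {R' : Rep W'} {n : ℕ∞} {O : Set ℝ} {U B : Set M} {K : ℝ → PreK E M W W'}

variable [MeasurableSpace M] [BorelSpace M] [CompactSpace M] {μ : Measure M}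

/-- smoothness of the adjoint kernel in `((y, t), x)` -/
theorem SmK.on_adj (hK : SmK om R' n O U K) (F : Fin 4 → VF E M) :
    ContMDiffOn ((𝓘(ℝ, E).prod 𝓘(ℝ, ℝ)).prod 𝓘(ℝ, E)) 𝓘(ℝ, W' →L[ℝ] W) n
      (fun z : (M × ℝ) × M => ContinuousLinearMap.adjoint (K z.1.2 z.2 (fun i => F i z.2) z.1.1))
      ((U ×ˢ O) ×ˢ {q | PONnear om q F}) := by
  have h : ContMDiff ((𝓘(ℝ, E).prod 𝓘(ℝ, ℝ)).prod 𝓘(ℝ, E))
      (𝓘(ℝ, ℝ).prod (𝓘(ℝ, E).prod 𝓘(ℝ, E))) n
      (fun z : (M × ℝ) × M => (z.1.2, z.2, z.1.1)) :=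
    (contMDiff_snd.comp contMDiff_fst).prodMk
      (contMDiff_snd.prodMk (contMDiff_fst.comp contMDiff_fst))
  have h1 := (SmK.on hK F).comp (h.contMDiffOn (s := (U ×ˢ O) ×ˢ {q | PONnear om q F}))
    fun z hz => ⟨hz.1.2, hz.2, hz.1.1⟩
  exact (contMDiff_iff_contDiff.2 (contDiff_adjoint n)).comp_contMDiffOn h1

/-- one piece of the transposed operator -/
theorem adj_piece (hK : SmK om R' n O U K) (hO : IsOpen O) (hU : IsOpen U)
    {S : Set M} (hS : MeasurableSet S) {F : Fin 4 → VF E M}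
    (hF : ∀ p ∈ closure S, PONnear om p F) {b : M → W'} (hb : IntegrableOn b S μ) :
    (∀ y ∈ U, ∀ t ∈ O, IntegrableOn (fun x =>
      ContinuousLinearMap.adjoint (K t x (fun i => F i x) y) (b x)) S μ) ∧
    ContMDiffOn (𝓘(ℝ, E).prod 𝓘(ℝ, ℝ)) 𝓘(ℝ, W) n
      (fun z : M × ℝ => ∫ x in S,
        ContinuousLinearMap.adjoint (K z.2 x (fun i => F i x) z.1) (b x) ∂μ) (U ×ˢ O) := by
  have hk := SmK.on_adj hK F
  constructor
  · intro y hy t ht
    have h1 := integrableOn_kernel (X := M × ℝ) (hU.prod hO) (isOpen_PONnear (om := om) F)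
      (compact_cl (B := S)) hF (ind_int (μ := μ) hS hb)
      (k := fun (z : M × ℝ) x => ContinuousLinearMap.adjoint (K z.2 x (fun i => F i x) z.1))
      hk.continuousOn (p := (y, t)) ⟨hy, ht⟩
    have h3 := h1.mono_set (subset_closure (s := S))
    exact h3.congr_fun (fun y hy => by simp [hy]) hS
  · have h := contMDiffOn_integral (I := 𝓘(ℝ, E).prod 𝓘(ℝ, ℝ)) (I' := 𝓘(ℝ, E))
      (hU.prod hO) (isOpen_PONnear (om := om) F) (compact_cl (B := S)) hF (ind_int (μ := μ) hS hb)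
      (k := fun (z : M × ℝ) x => ContinuousLinearMap.adjoint (K z.2 x (fun i => F i x) z.1)) hk
    refine h.congr fun z _ => ?_
    exact int_closure hS _ b

/-- the transposed operator, jointly smooth in the source point and in time -/
theorem adj_on (hK : SmK om R' n O U K) (hO : IsOpen O) (hU : IsOpen U)
    {fr : (p : M) → Fin 4 → TangentSpace 𝓘(ℝ, E) p} (S : FrSel om fr)
    {b : M → W'} (hb : Integrable b μ) :
    ContMDiffOn (𝓘(ℝ, E).prod 𝓘(ℝ, ℝ)) 𝓘(ℝ, W) n
      (fun z : M × ℝ => ∫ x, ContinuousLinearMap.adjoint (K z.2 x (fr x) z.1) (b x) ∂μ)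
      (U ×ˢ O) := by
  have hp := fun i => adj_piece (μ := μ) hK hO hU (S.meas i) (S.pon i) (hb.integrableOn (s := S.S i))
  have h1 : ∀ z ∈ U ×ˢ O, (∫ x, ContinuousLinearMap.adjoint (K z.2 x (fr x) z.1) (b x) ∂μ) =
      ∑ i, ∫ x in S.S i,
        ContinuousLinearMap.adjoint (K z.2 x (fun j => S.F i j x) z.1) (b x) ∂μ := by
    intro z hz
    have e : ∀ i, ∫ x in S.S i,
        ContinuousLinearMap.adjoint (K z.2 x (fun j => S.F i j x) z.1) (b x) ∂μ =
        ∫ x in S.S i, ContinuousLinearMap.adjoint (K z.2 x (fr x) z.1) (b x) ∂μ := by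
      intro i
      refine setIntegral_congr_fun (S.meas i) fun x hx => ?_
      beta_reduce
      rw [S.eq i x hx]
    simp only [e]
    rw [← integral_iUnion_fintype S.meas S.disj, S.cover, setIntegral_univ]
    intro i
    refine ((hp i).1 z.1 hz.1 z.2 hz.2).congr_fun (fun x hx => ?_) (S.meas i)
    beta_reduce
    rw [S.eq i x hx]
  refine (contMDiffOn_finsetSum (t := Finset.univ) fun i _ => (hp i).2).congr fun z hz => ?_
  rw [h1 z hz]

theorem lk2e : LK2eStmt cov om μ := by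
  intro hg hfin W W' _ _ _ _ _ _ R' fr hS n O U K hO hU hK b hb
  obtain ⟨S⟩ := hS
  have h := adj_on hK hO hU S hb
  constructor
  · intro t ht
    exact h.comp (I := 𝓘(ℝ, E)) (f := fun y : M => (y, t))
      (contMDiff_id.prodMk contMDiff_const).contMDiffOn fun y hy => ⟨hy, ht⟩
  · intro a a' haa hI c hc
    have hc' : ContMDiff (𝓘(ℝ, E).prod 𝓘(ℝ, ℝ)) 𝓘(ℝ, ℝ) n (fun z : M × ℝ => c z.2) :=
      ((contMDiff_iff_contDiff.2 hc).of_le (by exact_mod_cast le_top)).comp contMDiff_snd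
    exact contMDiffOn_intervalIntegral (I := 𝓘(ℝ, E)) hU hO haa hI
      (h := fun (y : M) s => c s • ∫ x, ContinuousLinearMap.adjoint (K s x (fr x) y) (b x) ∂μ)
      (hc'.contMDiffOn.smul h)

end

end Vale.Agent.P211.HK.LK2
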