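import Mathlib

set_option linter.all false
set_option maxSynthPendingDepth 3

/-! P211 / HK (helper961): linear differential equations with smooth parameters.

`U' = A U` in a Banach algebra `W` (for instance `V →L[ℝ] V`), the coefficient `A (p, s)` depending
smoothly on a parameter `p`: the solution with `U (p, 0) = 1` is smooth in `(p, s)`. -/

namespace Vale.Agent.P211.HK

open Set Filter Topology Metric MeasureTheory
open scoped ContDiff

noncomputable section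

namespace LinOde

section Nem

variable {K : Type*} [TopologicalSpace K] [CompactSpace K]
  {E F : Type*} [NormedAddCommGroup E] [NormedSpace ℝ E] [NormedAddCommGroup F] [NormedSpace ℝ F]

/-- The composition operator `u ↦ f ∘ u`. -/
def nem (f : E → F) (hf : Continuous f) (u : C(K, E)) : C(K, F) :=
  ⟨fun t => f (u t), hf.comp u.continuous⟩

/-- Pointwise application of operators, as a bilinear map. -/
def exNemLin (K : Type*) [TopologicalSpace K] [CompactSpace K]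
    (E F : Type*) [NormedAddCommGroup E] [NormedSpace ℝ E] [NormedAddCommGroup F]
    [NormedSpace ℝ F] : C(K, E →L[ℝ] F) →ₗ[ℝ] C(K, E) →ₗ[ℝ] C(K, F) :=
  LinearMap.mk₂ ℝ (fun g h => ⟨fun t => g t (h t), g.continuous.clm_apply h.continuous⟩)
    (fun g g' h => by ext t; simp) (fun c g h => by ext t; simp)
    (fun g h h' => by ext t; simp) (fun c g h => by ext t; simp)

lemma exNemLin_bound (g : C(K, E →L[ℝ] F)) (h : C(K, E)) :
    ‖exNemLin K E F g h‖ ≤ 1 * ‖g‖ * ‖h‖ := by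
  have h0 : 0 ≤ 1 * ‖g‖ * ‖h‖ := by positivity
  refine (ContinuousMap.norm_le _ h0).2 fun t => ?_
  calc ‖g t (h t)‖ ≤ ‖g t‖ * ‖h t‖ := (g t).le_opNorm _
    _ ≤ ‖g‖ * ‖h‖ := mul_le_mul (g.norm_coe_le_norm t) (h.norm_coe_le_norm t)
        (norm_nonneg _) (norm_nonneg g)
    _ = 1 * ‖g‖ * ‖h‖ := by ring

/-- Pointwise application of operators, as a continuous bilinear map. -/
def exNemB (K : Type*) [TopologicalSpace K] [CompactSpace K]
    (E F : Type*) [NormedAddCommGroup E] [NormedSpace ℝ E] [NormedAddCommGroup F]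
    [NormedSpace ℝ F] : C(K, E →L[ℝ] F) →L[ℝ] C(K, E) →L[ℝ] C(K, F) :=
  LinearMap.mkContinuous₂ (E := C(K, E →L[ℝ] F)) (F := C(K, E)) (G := C(K, F))
    (σ₁₃ := RingHom.id ℝ) (σ₂₃ := RingHom.id ℝ) (exNemLin K E F) 1 exNemLin_bound

lemma hasFDerivAt_nem' {f : E → F} (hf : ContDiff ℝ 1 f) (u : C(K, E)) :
    HasFDerivAt (nem (K := K) f hf.continuous)
      (exNemB K E F (nem (fderiv ℝ f) (hf.continuous_fderiv one_ne_zero) u)) u := by
  have hc : Continuous (fderiv ℝ f) := hf.continuous_fderiv one_ne_zero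
  rw [hasFDerivAt_iff_isLittleO_nhds_zero, Asymptotics.isLittleO_iff]
  intro ε hε
  have hK : IsCompact (range u) := isCompact_range u.continuous
  have hun := hK.uniformContinuousAt_of_continuousAt (fderiv ℝ f)
    (fun a _ => hc.continuousAt) (Metric.dist_mem_uniformity hε)
  obtain ⟨δ, hδ, hδu⟩ := Metric.mem_uniformity_dist.1 hun
  filter_upwards [Metric.ball_mem_nhds (0 : C(K, E)) hδ] with h hh
  rw [mem_ball_zero_iff] at hh
  refine (ContinuousMap.norm_le _ (by (clear f hf u hc hK hun δ hδ hδu hh; positivity))).2 fun t => ?_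
  have hht : ‖h t‖ < δ := (h.norm_coe_le_norm t).trans_lt hh
  have key : ‖f (u t + h t) - f (u t) - fderiv ℝ f (u t) (u t + h t - u t)‖ ≤
      ε * ‖u t + h t - u t‖ := by
    refine Convex.norm_image_sub_le_of_norm_hasFDerivWithin_le' (s := ball (u t) δ)
      (f' := fderiv ℝ f) (fun x _ => (hf.differentiable one_ne_zero x).hasFDerivAt.hasFDerivWithinAt)
      (fun x hx => ?_) (convex_ball _ _) (mem_ball_self hδ) (by simpa only [mem_ball, dist_eq_norm, add_sub_cancel_left] using hht)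
    have h1 : dist (u t) x < δ := by rw [dist_comm]; exact hx
    have h2 := hδu h1 (mem_range_self t)
    have h3 : dist (fderiv ℝ f (u t)) (fderiv ℝ f x) < ε := h2
    rw [dist_comm, dist_eq_norm] at h3
    exact h3.le
  have h4 : ‖f (u t + h t) - f (u t) - fderiv ℝ f (u t) (h t)‖ ≤ ε * ‖h t‖ := by
    simpa only [add_sub_cancel_left] using key
  calc ‖(nem f hf.continuous (u + h) - nem f hf.continuous u -
        exNemB K E F (nem (fderiv ℝ f) hc u) h) t‖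
      = ‖f (u t + h t) - f (u t) - fderiv ℝ f (u t) (h t)‖ := rfl
    _ ≤ ε * ‖h t‖ := h4
    _ ≤ ε * ‖h‖ := by gcongr; exact h.norm_coe_le_norm t

/-- Derivative of the composition operator. -/
theorem hasFDerivAt_nem {f : E → F} (hf : ContDiff ℝ 1 f) (u : C(K, E)) :
    ∃ A : C(K, E) →L[ℝ] C(K, F), (∀ (h : C(K, E)) (t : K), A h t = fderiv ℝ f (u t) (h t)) ∧
      HasFDerivAt (nem (K := K) f hf.continuous) A u :=
  ⟨_, fun _ _ => rfl, hasFDerivAt_nem' hf u⟩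

universe uK uE uF

/-- Finite order smoothness, with a universe restriction. -/
lemma exNem_contDiff_nat (K : Type uK) [TopologicalSpace K] [CompactSpace K] (E : Type uE)
    [NormedAddCommGroup E] [NormedSpace ℝ E] (n : ℕ) :
    ∀ (F : Type (max uE uF)) [NormedAddCommGroup F] [NormedSpace ℝ F] (f : E → F)
      (hf : ContDiff ℝ ∞ f), ContDiff ℝ n (nem (K := K) f hf.continuous) := by
  induction n with
  | zero =>
    intro F _ _ f hf
    have h1 : ContDiff ℝ 1 f := hf.of_le (by exact_mod_cast le_top)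
    have h2 : Differentiable ℝ (nem (K := K) f hf.continuous) :=
      fun u => (hasFDerivAt_nem' h1 u).differentiableAt
    exact contDiff_zero.2 h2.continuous
  | succ n ih =>
    intro F _ _ f hf
    have h1 : ContDiff ℝ 1 f := hf.of_le (by exact_mod_cast le_top)
    have hd : ContDiff ℝ ∞ (fderiv ℝ f) := (contDiff_infty_iff_fderiv.1 hf).2
    have h3 := ih (E →L[ℝ] F) (fderiv ℝ f) hd
    have h40 : ContDiff ℝ n fun g : C(K, E →L[ℝ] F) => exNemB K E F g :=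
      ContinuousLinearMap.contDiff (𝕜 := ℝ) (E := C(K, E →L[ℝ] F))
        (F := C(K, E) →L[ℝ] C(K, F)) (n := (n : WithTop ℕ∞)) (exNemB K E F)
    have h4 : ContDiff ℝ n fun u : C(K, E) =>
        exNemB K E F (nem (fderiv ℝ f) hd.continuous u) := h40.comp h3
    have h5 : ((n + 1 : ℕ) : WithTop ℕ∞) = (n : WithTop ℕ∞) + 1 := by push_cast; rfl
    rw [h5, contDiff_succ_iff_hasFDerivAt]
    exact ⟨_, h4, fun u => hasFDerivAt_nem' h1 u⟩

/-- The composition operator with a smooth function is smooth. -/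
theorem contDiff_nem {K : Type uK} [TopologicalSpace K] [CompactSpace K] {E : Type uE}
    {F : Type uF} [NormedAddCommGroup E] [NormedSpace ℝ E] [NormedAddCommGroup F]
    [NormedSpace ℝ F] {f : E → F} (hf : ContDiff ℝ ∞ f) :
    ContDiff ℝ ∞ (nem (K := K) f hf.continuous) := by
  have hup : ContDiff ℝ ∞ fun x => (ULift.up.{uE, uF} (f x)) :=
    (LinearIsometryEquiv.ulift ℝ F).symm.contDiff.comp hf
  rw [contDiff_infty]
  intro n
  have h1 := exNem_contDiff_nat.{uK, uE, uF} K E n (ULift.{uE, uF} F) _ hup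
  let L0 : ULift.{uE, uF} F →L[ℝ] F :=
    (LinearIsometryEquiv.ulift ℝ F : ULift.{uE, uF} F ≃ₗᵢ[ℝ] F).toContinuousLinearEquiv
  let L : C(K, ULift.{uE, uF} F) →L[ℝ] C(K, F) := L0.compLeftContinuous ℝ K
  have h3 : ContDiff ℝ n fun g : C(K, ULift.{uE, uF} F) => L g := L.contDiff
  exact h3.comp h1


end Nem

section Prim

variable {E : Type*} [NormedAddCommGroup E] [NormedSpace ℝ E] [CompleteSpace E]

/-- Extension of a continuous function on the unit interval by constants. -/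
def ext01 (u : C(Icc (0 : ℝ) 1, E)) (s : ℝ) : E := u (projIcc 0 1 zero_le_one s)

omit [NormedSpace ℝ E] [CompleteSpace E] in
lemma continuous_ext01 (u : C(Icc (0 : ℝ) 1, E)) : Continuous (ext01 u) :=
  u.continuous.comp continuous_projIcc

omit [NormedSpace ℝ E] [CompleteSpace E] in
lemma ext01_of_mem (u : C(Icc (0 : ℝ) 1, E)) {s : ℝ} (hs : s ∈ Icc (0 : ℝ) 1) :
    ext01 u s = u ⟨s, hs⟩ := by
  unfold ext01
  rw [projIcc_of_mem zero_le_one hs]

omit [NormedSpace ℝ E] [CompleteSpace E] in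
lemma ExPrim_norm_ext01_le (u : C(Icc (0 : ℝ) 1, E)) (s : ℝ) : ‖ext01 u s‖ ≤ ‖u‖ :=
  u.norm_coe_le_norm _

lemma ExPrim_norm_integral_le (u : C(Icc (0 : ℝ) 1, E)) (t : Icc (0 : ℝ) 1) :
    ‖∫ s in (0 : ℝ)..t, ext01 u s‖ ≤ ‖u‖ := by
  have h := intervalIntegral.norm_integral_le_of_norm_le_const (a := (0 : ℝ)) (b := (t : ℝ))
    (f := ext01 u) (C := ‖u‖) (fun s _ => ExPrim_norm_ext01_le u s)
  have h2 : |(t : ℝ) - 0| ≤ 1 := by
    rw [sub_zero, abs_of_nonneg t.2.1]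
    exact t.2.2
  calc ‖∫ s in (0 : ℝ)..t, ext01 u s‖ ≤ ‖u‖ * |(t : ℝ) - 0| := h
    _ ≤ ‖u‖ * 1 := by gcongr
    _ = ‖u‖ := mul_one _

lemma ExPrim_intervalIntegrable (u : C(Icc (0 : ℝ) 1, E)) (a b : ℝ) :
    IntervalIntegrable (ext01 u) volume a b :=
  (continuous_ext01 u).intervalIntegrable a b

/-- Existence of the primitive operator. -/
theorem exists_prim (E : Type*) [NormedAddCommGroup E] [NormedSpace ℝ E] [CompleteSpace E] :
    ∃ J : C(Icc (0 : ℝ) 1, E) →L[ℝ] C(Icc (0 : ℝ) 1, E),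
      ∀ (u : C(Icc (0 : ℝ) 1, E)) (t : Icc (0 : ℝ) 1), J u t = ∫ s in (0 : ℝ)..t, ext01 u s := by
  have hc : ∀ u : C(Icc (0 : ℝ) 1, E),
      Continuous (fun t : Icc (0 : ℝ) 1 => ∫ s in (0 : ℝ)..t, ext01 u s) := by
    intro u
    exact (intervalIntegral.continuous_primitive
      (fun a b => ExPrim_intervalIntegrable u a b) 0).comp continuous_subtype_val
  let L : C(Icc (0 : ℝ) 1, E) →ₗ[ℝ] C(Icc (0 : ℝ) 1, E) :=
    { toFun := fun u => ⟨fun t => ∫ s in (0 : ℝ)..t, ext01 u s, hc u⟩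
      map_add' := by
        intro u v
        ext t
        simp only [ContinuousMap.coe_mk, ContinuousMap.add_apply]
        rw [← intervalIntegral.integral_add (ExPrim_intervalIntegrable u _ _)
          (ExPrim_intervalIntegrable v _ _)]
        rfl
      map_smul' := by
        intro c u
        ext t
        simp only [ContinuousMap.coe_mk, ContinuousMap.smul_apply, RingHom.id_apply]
        rw [← intervalIntegral.integral_smul]
        rfl }
  refine ⟨L.mkContinuous 1 ?_, ?_⟩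
  · intro u
    rw [one_mul, ContinuousMap.norm_le _ (norm_nonneg u)]
    intro t
    exact ExPrim_norm_integral_le u t
  · intro u t
    rfl

/-- The primitive operator. -/
def prim (E : Type*) [NormedAddCommGroup E] [NormedSpace ℝ E] [CompleteSpace E] :
    C(Icc (0 : ℝ) 1, E) →L[ℝ] C(Icc (0 : ℝ) 1, E) := Classical.choose (exists_prim E)

lemma prim_apply (u : C(Icc (0 : ℝ) 1, E)) (t : Icc (0 : ℝ) 1) :
    prim E u t = ∫ s in (0 : ℝ)..t, ext01 u s := Classical.choose_spec (exists_prim E) u t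

lemma prim_zero_time (u : C(Icc (0 : ℝ) 1, E)) : prim E u ⟨0, by simp⟩ = 0 := by
  rw [prim_apply]
  simp

lemma norm_prim_le (u : C(Icc (0 : ℝ) 1, E)) (t : Icc (0 : ℝ) 1) : ‖prim E u t‖ ≤ ‖u‖ := by
  rw [prim_apply]
  exact ExPrim_norm_integral_le u t

lemma ExPrim_hasDerivAt_integral (u : C(Icc (0 : ℝ) 1, E)) (t : ℝ) :
    HasDerivAt (fun t : ℝ => ∫ s in (0 : ℝ)..t, ext01 u s) (ext01 u t) t :=
  intervalIntegral.integral_hasDerivAt_right (ExPrim_intervalIntegrable u 0 t)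
    ((continuous_ext01 u).stronglyMeasurableAtFilter _ _) (continuous_ext01 u).continuousAt

lemma ExPrim_ext01_prim (u : C(Icc (0 : ℝ) 1, E)) {t : ℝ} (ht : t ∈ Icc (0 : ℝ) 1) :
    ext01 (prim E u) t = ∫ s in (0 : ℝ)..t, ext01 u s := by
  rw [ext01_of_mem _ ht, prim_apply]

/-- Derivative of the primitive inside the interval. -/
lemma hasDerivAt_prim (u : C(Icc (0 : ℝ) 1, E)) {t : ℝ} (ht : t ∈ Ioo (0 : ℝ) 1) :
    HasDerivAt (ext01 (prim E u)) (ext01 u t) t := by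
  refine (ExPrim_hasDerivAt_integral u t).congr_of_eventuallyEq ?_
  filter_upwards [Ioo_mem_nhds ht.1 ht.2] with s hs
  exact ExPrim_ext01_prim u ⟨hs.1.le, hs.2.le⟩

/-- Right derivative of the primitive at `0`. -/
lemma hasDerivWithinAt_prim_zero (u : C(Icc (0 : ℝ) 1, E)) :
    HasDerivWithinAt (ext01 (prim E u)) (ext01 u 0) (Ici 0) 0 := by
  refine (ExPrim_hasDerivAt_integral u 0).hasDerivWithinAt.congr_of_eventuallyEq ?_ ?_
  · have : Iio (1 : ℝ) ∈ 𝓝 (0 : ℝ) := Iio_mem_nhds one_pos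
    filter_upwards [inter_mem_nhdsWithin (Ici (0 : ℝ)) this] with s hs
    exact ExPrim_ext01_prim u ⟨hs.1, hs.2.le⟩
  · exact ExPrim_ext01_prim u ⟨le_refl _, zero_le_one⟩

/-- Rescaling of time: if `w s = l * u (l * s)` then the primitive of `w` at `s` is the primitive of
`u` at `l * s`. -/
lemma prim_scale (u w : C(Icc (0 : ℝ) 1, E)) {l : ℝ} (hl : l ∈ Icc (0 : ℝ) 1)
    (h : ∀ s : Icc (0 : ℝ) 1, w s = l • ext01 u (l * s)) (s : Icc (0 : ℝ) 1) :
    prim E w s = ext01 (prim E u) (l * s) := by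
  have hls : l * (s : ℝ) ∈ Icc (0 : ℝ) 1 :=
    ⟨mul_nonneg hl.1 s.2.1, mul_le_one₀ hl.2 s.2.1 s.2.2⟩
  rw [prim_apply, ExPrim_ext01_prim u hls]
  have h1 : ∫ r in (0 : ℝ)..s, ext01 w r = ∫ r in (0 : ℝ)..s, l • ext01 u (l * r) := by
    refine intervalIntegral.integral_congr ?_
    intro r hr
    rw [uIcc_of_le s.2.1] at hr
    have hr' : r ∈ Icc (0 : ℝ) 1 := ⟨hr.1, hr.2.trans s.2.2⟩
    show ext01 w r = l • ext01 u (l * r)
    rw [ext01_of_mem _ hr', h]
  rw [h1, intervalIntegral.integral_smul, intervalIntegral.smul_integral_comp_mul_left, mul_zero]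


end Prim

/-! ### Volterra operators in a Banach algebra -/

section Volterra

variable {W : Type*} [NormedRing W] [NormedAlgebra ℝ W] [CompleteSpace W]


/-- the Volterra operator `w ↦ ∫ a w` -/
def vol (a : C((Icc (0 : ℝ) 1), W)) : C((Icc (0 : ℝ) 1), W) →L[ℝ] C((Icc (0 : ℝ) 1), W) :=
  (prim W).comp (ContinuousLinearMap.mul ℝ C((Icc (0 : ℝ) 1), W) a)

lemma vol_apply (a w : C((Icc (0 : ℝ) 1), W)) : vol a w = prim W (a * w) := rfl

lemma contDiff_vol : ContDiff ℝ ∞ (vol : C((Icc (0 : ℝ) 1), W) → _) := by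
  have : (vol : C((Icc (0 : ℝ) 1), W) → C((Icc (0 : ℝ) 1), W) →L[ℝ] C((Icc (0 : ℝ) 1), W)) = fun a =>
      (ContinuousLinearMap.compL ℝ C((Icc (0 : ℝ) 1), W) C((Icc (0 : ℝ) 1), W) C((Icc (0 : ℝ) 1), W) (prim W))
        (ContinuousLinearMap.mul ℝ C((Icc (0 : ℝ) 1), W) a) := rfl
  rw [this]
  have h1 : ContDiff ℝ ∞ fun a : C((Icc (0 : ℝ) 1), W) => ContinuousLinearMap.mul ℝ C((Icc (0 : ℝ) 1), W) a :=
    (ContinuousLinearMap.mul ℝ C((Icc (0 : ℝ) 1), W)).contDiff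
  have h2 : ContDiff ℝ ∞ fun L : C((Icc (0 : ℝ) 1), W) →L[ℝ] C((Icc (0 : ℝ) 1), W) =>
      (ContinuousLinearMap.compL ℝ C((Icc (0 : ℝ) 1), W) C((Icc (0 : ℝ) 1), W) C((Icc (0 : ℝ) 1), W) (prim W)) L :=
    (ContinuousLinearMap.compL ℝ C((Icc (0 : ℝ) 1), W) C((Icc (0 : ℝ) 1), W) C((Icc (0 : ℝ) 1), W) (prim W)).contDiff
  exact h2.comp h1

lemma vol_pow_bound (a w : C((Icc (0 : ℝ) 1), W)) (n : ℕ) (t : (Icc (0 : ℝ) 1)) :
    ‖((vol a) ^ n) w t‖ ≤ ‖a‖ ^ n * (t : ℝ) ^ n / n.factorial * ‖w‖ := by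
  induction n generalizing t with
  | zero => simpa using w.norm_coe_le_norm t
  | succ n ih =>
    rw [pow_succ']
    show ‖(vol a (((vol a) ^ n) w)) t‖ ≤ _
    rw [vol_apply, prim_apply]
    have h1 : ∀ s ∈ Ioc (0 : ℝ) t, ‖ext01 (a * ((vol a) ^ n) w) s‖ ≤
        ‖a‖ ^ (n + 1) * s ^ n / n.factorial * ‖w‖ := by
      intro s hs
      have hs' : s ∈ Icc (0 : ℝ) 1 := ⟨hs.1.le, hs.2.trans t.2.2⟩
      rw [ext01_of_mem _ hs']
      calc ‖(a * ((vol a) ^ n) w) ⟨s, hs'⟩‖ ≤ ‖a ⟨s, hs'⟩‖ * ‖((vol a) ^ n) w ⟨s, hs'⟩‖ :=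
            norm_mul_le _ _
        _ ≤ ‖a‖ * (‖a‖ ^ n * s ^ n / n.factorial * ‖w‖) :=
            mul_le_mul (a.norm_coe_le_norm _) (ih ⟨s, hs'⟩) (norm_nonneg _) (norm_nonneg _)
        _ = ‖a‖ ^ (n + 1) * s ^ n / n.factorial * ‖w‖ := by ring
    have h2 : ‖∫ s in (0 : ℝ)..t, ext01 (a * ((vol a) ^ n) w) s‖ ≤
        ∫ s in (0 : ℝ)..t, ‖a‖ ^ (n + 1) * s ^ n / n.factorial * ‖w‖ := by
      refine intervalIntegral.norm_integral_le_of_norm_le t.2.1 ?_ ?_
      · exact Filter.Eventually.of_forall fun s hs => h1 s hs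
      · exact (Continuous.intervalIntegrable (by fun_prop) _ _)
    refine h2.trans (le_of_eq ?_)
    have h3 : ∀ s : ℝ, ‖a‖ ^ (n + 1) * s ^ n / n.factorial * ‖w‖ =
        (‖a‖ ^ (n + 1) / n.factorial * ‖w‖) * s ^ n := fun s => by ring
    simp_rw [h3]
    rw [intervalIntegral.integral_const_mul, integral_pow, Nat.factorial_succ]
    have h4 : ((n : ℝ) + 1) ≠ 0 := by positivity
    have h5 : (n.factorial : ℝ) ≠ 0 := by positivity
    push_cast
    field_simp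
    simp

lemma norm_vol_pow_le (a : C((Icc (0 : ℝ) 1), W)) (n : ℕ) : ‖(vol a) ^ n‖ ≤ ‖a‖ ^ n / n.factorial := by
  refine ContinuousLinearMap.opNorm_le_bound _ (by positivity) fun w => ?_
  refine (ContinuousMap.norm_le _ (by positivity)).2 fun t => ?_
  refine (vol_pow_bound a w n t).trans ?_
  have h1 : (t : ℝ) ^ n ≤ 1 := pow_le_one₀ t.2.1 t.2.2
  have h2 : ‖a‖ ^ n * (t : ℝ) ^ n ≤ ‖a‖ ^ n * 1 := by gcongr
  rw [mul_one] at h2
  gcongr

lemma isUnit_one_sub_vol (a : C((Icc (0 : ℝ) 1), W)) : IsUnit (1 - vol a) := by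
  have h1 : Tendsto (fun n : ℕ => ‖a‖ ^ n / n.factorial) atTop (𝓝 0) :=
    FloorSemiring.tendsto_pow_div_factorial_atTop _
  obtain ⟨N, hN⟩ := (h1.eventually (gt_mem_nhds one_pos)).exists
  have h2 : ‖(vol a) ^ N‖ < 1 := (norm_vol_pow_le a N).trans_lt hN
  have h3 : IsUnit (1 - (vol a) ^ N) :=
    isUnit_one_sub_of_norm_lt_one (R := C((Icc (0 : ℝ) 1), W) →L[ℝ] C((Icc (0 : ℝ) 1), W)) h2
  rw [← mul_neg_geom_sum] at h3
  have hc : Commute (1 - vol a) (∑ i ∈ Finset.range N, (vol a) ^ i) := by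
    refine Commute.sub_left (Commute.one_left _) ?_
    exact Commute.sum_right _ _ _ fun i _ => (Commute.refl _).pow_right i
  exact (hc.isUnit_mul_iff.1 h3).1

/-- the solution of `w = 1 + ∫ a w` -/
def sol (a : C((Icc (0 : ℝ) 1), W)) : C((Icc (0 : ℝ) 1), W) := Ring.inverse (1 - vol a) 1

lemma sol_spec (a : C((Icc (0 : ℝ) 1), W)) : sol a = 1 + vol a (sol a) := by
  have h1 : (1 - vol a) (sol a) = 1 := by
    have h2 := Ring.mul_inverse_cancel _ (isUnit_one_sub_vol a)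
    have h3 := congrArg (fun L : C((Icc (0 : ℝ) 1), W) →L[ℝ] C((Icc (0 : ℝ) 1), W) => L 1) h2
    exact h3
  have h4 : sol a - vol a (sol a) = 1 := h1
  rw [← h4]
  abel

lemma sol_unique {a w : C((Icc (0 : ℝ) 1), W)} (h : w = 1 + vol a w) : w = sol a := by
  have h1 : (1 - vol a) w = 1 := by
    show w - vol a w = 1
    nth_rw 1 [h]
    abel
  have h2 := Ring.inverse_mul_cancel _ (isUnit_one_sub_vol a)
  have h3 := congrArg (fun L : C((Icc (0 : ℝ) 1), W) →L[ℝ] C((Icc (0 : ℝ) 1), W) => L w) h2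
  have h4 : Ring.inverse (1 - vol a) ((1 - vol a) w) = w := h3
  rw [h1] at h4
  exact h4.symm

lemma contDiff_sol : ContDiff ℝ ∞ (sol : C((Icc (0 : ℝ) 1), W) → C((Icc (0 : ℝ) 1), W)) := by
  rw [contDiff_iff_contDiffAt]
  intro a
  have h1 : ContDiffAt ℝ ∞ (fun a : C((Icc (0 : ℝ) 1), W) => (1 : C((Icc (0 : ℝ) 1), W) →L[ℝ] C((Icc (0 : ℝ) 1), W)) - vol a) a :=
    contDiffAt_const.sub contDiff_vol.contDiffAt
  obtain ⟨u, hu⟩ := isUnit_one_sub_vol a
  have h2 : ContDiffAt ℝ ∞ Ring.inverse ((1 : C((Icc (0 : ℝ) 1), W) →L[ℝ] C((Icc (0 : ℝ) 1), W)) - vol a) := by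
    rw [← hu]
    exact contDiffAt_ringInverse ℝ (R := C((Icc (0 : ℝ) 1), W) →L[ℝ] C((Icc (0 : ℝ) 1), W)) u
  have h3 := h2.comp a h1
  exact h3.clm_apply contDiffAt_const

end Volterra

section Main

variable {P : Type*} [NormedAddCommGroup P] [NormedSpace ℝ P]
  {W : Type*} [NormedRing W] [NormedAlgebra ℝ W] [CompleteSpace W]


/-- the curve `t ↦ (p, s t, s)` -/
def crvLin : (P × ℝ) →ₗ[ℝ] C((Icc (0 : ℝ) 1), P × ℝ × ℝ) where
  toFun q := ⟨fun t => (q.1, q.2 * t, q.2), by fun_prop⟩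
  map_add' q q' := by
    ext t <;> simp [add_mul]
  map_smul' c q := by
    ext t <;> simp [mul_assoc]

/-- the curve `t ↦ (p, s t, s)` -/
def crv : (P × ℝ) →L[ℝ] C((Icc (0 : ℝ) 1), P × ℝ × ℝ) :=
  crvLin.mkContinuous 1 fun q => by
    rw [one_mul]
    refine (ContinuousMap.norm_le _ (norm_nonneg _)).2 fun t => ?_
    show ‖(q.1, q.2 * (t : ℝ), q.2)‖ ≤ ‖q‖
    have h1 : ‖q.2 * (t : ℝ)‖ ≤ ‖q‖ := by
      rw [norm_mul, Real.norm_of_nonneg t.2.1]
      calc ‖q.2‖ * (t : ℝ) ≤ ‖q.2‖ * 1 := by gcongr; exact t.2.2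
        _ = ‖q.2‖ := mul_one _
        _ ≤ ‖q‖ := norm_snd_le q
    exact max_le (norm_fst_le q) (max_le h1 (norm_snd_le q))

lemma crv_apply (q : P × ℝ) (t : (Icc (0 : ℝ) 1)) : crv q t = (q.1, q.2 * (t : ℝ), q.2) := rfl

variable {A : P × ℝ → W}

/-- the coefficient, rescaled to the unit interval -/
def sc (A : P × ℝ → W) (x : P × ℝ × ℝ) : W := x.2.2 • A (x.1, x.2.1)

lemma contDiff_sc (hA : ContDiff ℝ ∞ A) : ContDiff ℝ ∞ (sc A) := by
  unfold sc
  exact (contDiff_snd.comp contDiff_snd).smul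
    (hA.comp (contDiff_fst.prodMk (contDiff_fst.comp contDiff_snd)))

/-- coefficient on the unit interval -/
def coef (hA : ContDiff ℝ ∞ A) (q : P × ℝ) : C((Icc (0 : ℝ) 1), W) :=
  nem (sc A) (contDiff_sc hA).continuous (crv q)

lemma coef_apply (hA : ContDiff ℝ ∞ A) (q : P × ℝ) (t : (Icc (0 : ℝ) 1)) :
    coef hA q t = q.2 • A (q.1, q.2 * (t : ℝ)) := rfl

/-- the solution -/
def Usol (hA : ContDiff ℝ ∞ A) (q : P × ℝ) : W := sol (coef hA q) ⟨1, by simp⟩

lemma contDiff_Usol (hA : ContDiff ℝ ∞ A) : ContDiff ℝ ∞ (Usol hA) := by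
  have h0 : ContDiff ℝ ∞ (crv : P × ℝ → C((Icc (0 : ℝ) 1), P × ℝ × ℝ)) :=
    ContinuousLinearMap.contDiff (crv (P := P))
  have h1 : ContDiff ℝ ∞ (coef hA) := (contDiff_nem (contDiff_sc hA)).comp h0
  have h2 : ContDiff ℝ ∞ fun q => sol (coef hA q) := contDiff_sol.comp h1
  exact (ContinuousMap.evalCLM ℝ (⟨1, by simp⟩ : (Icc (0 : ℝ) 1))).contDiff.comp h2

/-- rescaling -/
lemma sol_scale (hA : ContDiff ℝ ∞ A) (p : P) (s : ℝ) {l : ℝ} (hl : l ∈ (Icc (0 : ℝ) 1)) (t : (Icc (0 : ℝ) 1)) :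
    sol (coef hA (p, l * s)) t = ext01 (sol (coef hA (p, s))) (l * t) := by
  set w := sol (coef hA (p, s)) with hw
  let w' : C((Icc (0 : ℝ) 1), W) := ⟨fun t => ext01 w (l * t),
    (continuous_ext01 w).comp (by fun_prop)⟩
  have h1 : w' = 1 + vol (coef hA (p, l * s)) w' := by
    ext t
    have hlt : l * (t : ℝ) ∈ (Icc (0 : ℝ) 1) := ⟨mul_nonneg hl.1 t.2.1, mul_le_one₀ hl.2 t.2.1 t.2.2⟩
    have h2 := prim_scale (coef hA (p, s) * w) (coef hA (p, l * s) * w') hl (fun r => by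
      have hlr : l * (r : ℝ) ∈ (Icc (0 : ℝ) 1) := ⟨mul_nonneg hl.1 r.2.1, mul_le_one₀ hl.2 r.2.1 r.2.2⟩
      rw [ext01_of_mem _ hlr]
      show coef hA (p, l * s) r * ext01 w (l * r) = l • (coef hA (p, s) ⟨_, hlr⟩ * w ⟨_, hlr⟩)
      rw [ext01_of_mem _ hlr, coef_apply, coef_apply]
      simp only [smul_mul_assoc, smul_smul]
      rw [show l * s * (r : ℝ) = s * (l * r) by ring]) t
    show ext01 w (l * t) = 1 + prim W (coef hA (p, l * s) * w') t
    rw [h2]
    nth_rw 1 [hw]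
    rw [sol_spec, ← hw, ext01_of_mem _ hlt, ext01_of_mem _ hlt]
    rfl
  exact (congrArg (fun f : C((Icc (0 : ℝ) 1), W) => f t) (sol_unique h1)).symm

lemma Usol_mul (hA : ContDiff ℝ ∞ A) (p : P) (s : ℝ) {l : ℝ} (hl : l ∈ (Icc (0 : ℝ) 1)) :
    Usol hA (p, l * s) = ext01 (sol (coef hA (p, s))) l := by
  have := sol_scale hA p s hl ⟨1, by simp⟩
  simpa [Usol] using this

lemma Usol_zero (hA : ContDiff ℝ ∞ A) (p : P) : Usol hA (p, 0) = 1 := by
  have h1 := Usol_mul hA p 0 (l := 0) (by simp)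
  rw [zero_mul] at h1
  rw [h1, sol_spec, ext01_of_mem _ (by simp)]
  show (1 : W) + prim W _ ⟨0, _⟩ = 1
  rw [prim_zero_time]
  simp

lemma hasDerivAt_Usol_ne (hA : ContDiff ℝ ∞ A) (p : P) {s : ℝ} (hs : s ≠ 0) :
    HasDerivAt (fun s => Usol hA (p, s)) (A (p, s) * Usol hA (p, s)) s := by
  set S := 2 * s with hS
  set w := sol (coef hA (p, S)) with hw
  have hSne : S ≠ 0 := by simp [hS, hs]
  have h1 : ∀ᶠ r in 𝓝 s, Usol hA (p, r) = 1 + ext01 (prim W (coef hA (p, S) * w)) (r / S) := by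
    have h2 : Tendsto (fun r : ℝ => r / S) (𝓝 s) (𝓝 (s / S)) :=
      (continuous_id.div_const S).tendsto s
    have h3 : s / S = 1 / 2 := by
      rw [hS]; field_simp
    have h4 : Ioo (0 : ℝ) 1 ∈ 𝓝 (s / S) := by
      rw [h3]; exact Ioo_mem_nhds (by norm_num) (by norm_num)
    filter_upwards [h2 h4] with r hr
    have hr' : r / S ∈ (Icc (0 : ℝ) 1) := ⟨hr.1.le, hr.2.le⟩
    have h5 := Usol_mul hA p S hr'
    rw [div_mul_cancel₀ _ hSne] at h5
    rw [h5, sol_spec, ← hw, ext01_of_mem _ hr', ext01_of_mem _ hr']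
    rfl
  have h3 : s / S = 1 / 2 := by
    rw [hS]; field_simp
  have h6 : HasDerivAt (fun r : ℝ => 1 + ext01 (prim W (coef hA (p, S) * w)) (r / S))
      (S⁻¹ • ext01 (coef hA (p, S) * w) (s / S)) s := by
    have h7 : HasDerivAt (ext01 (prim W (coef hA (p, S) * w)))
        (ext01 (coef hA (p, S) * w) (s / S)) (s / S) :=
      hasDerivAt_prim _ (by rw [h3]; constructor <;> norm_num)
    have h8 : HasDerivAt (fun r : ℝ => r / S) S⁻¹ s := by
      simpa using (hasDerivAt_id s).div_const S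
    exact (h7.scomp s h8).const_add 1
  refine (h6.congr_of_eventuallyEq h1).congr_deriv ?_
  have h9 : (1 / 2 : ℝ) ∈ (Icc (0 : ℝ) 1) := by constructor <;> norm_num
  rw [h3, ext01_of_mem _ h9]
  show S⁻¹ • (coef hA (p, S) ⟨_, h9⟩ * w ⟨_, h9⟩) = _
  have h10 := Usol_mul hA p S h9
  rw [ext01_of_mem _ h9] at h10
  rw [← h10, coef_apply]
  have h11 : S * (1 / 2) = s := by rw [hS]; ring
  have h12 : 1 / 2 * S = s := by rw [hS]; ring
  simp only [h11, h12, smul_mul_assoc, smul_smul]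
  rw [inv_mul_cancel₀ hSne, one_smul]

lemma hasDerivAt_Usol (hA : ContDiff ℝ ∞ A) (p : P) (s : ℝ) :
    HasDerivAt (fun s => Usol hA (p, s)) (A (p, s) * Usol hA (p, s)) s := by
  have hU : ContDiff ℝ ∞ fun s => Usol hA (p, s) :=
    (contDiff_Usol hA).comp (contDiff_const.prodMk contDiff_id)
  have hd : Differentiable ℝ fun s => Usol hA (p, s) := hU.differentiable (by simp)
  have hc : Continuous (deriv fun s => Usol hA (p, s)) := hU.continuous_deriv (by simp)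
  have hc' : Continuous fun s => A (p, s) * Usol hA (p, s) :=
    (hA.continuous.comp (by fun_prop)).mul hU.continuous
  have h1 : (deriv fun s => Usol hA (p, s)) = fun s => A (p, s) * Usol hA (p, s) := by
    have hdense : Dense {s : ℝ | s ≠ 0} := dense_compl_singleton 0
    exact Continuous.ext_on hdense hc hc' fun s hs => (hasDerivAt_Usol_ne hA p hs).deriv
  have h2 := (hd s).hasDerivAt
  rw [h1] at h2
  exact h2

end Main

/-! ### uniqueness, inverse -/

section Uniq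

variable {V : Type*} [NormedAddCommGroup V] [NormedSpace ℝ V]

/-- a solution of a homogeneous linear equation with value zero at `0` vanishes (forward) -/
lemma eq_zero_fwd {L : ℝ → V →L[ℝ] V} {f : ℝ → V} {b : ℝ} (hL : ContinuousOn L (Icc 0 b))
    (hf : ContinuousOn f (Icc 0 b)) (hd : ∀ s ∈ Ico 0 b, HasDerivWithinAt f (L s (f s)) (Ici s) s)
    (h0 : f 0 = 0) : ∀ s ∈ Icc 0 b, f s = 0 := by
  obtain ⟨C, hC⟩ := isCompact_Icc.exists_bound_of_continuousOn hL
  have h1 := norm_le_gronwallBound_of_norm_deriv_right_le (f := f) (f' := fun s => L s (f s))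
    (δ := 0) (K := C) (ε := 0) (a := 0) (b := b) hf hd (by simp [h0]) (fun s hs => by
      rw [add_zero]
      exact (L s).le_of_opNorm_le (hC s ⟨hs.1, hs.2.le⟩) _)
  intro s hs
  have h2 := h1 s hs
  rw [gronwallBound_ε0_δ0] at h2
  exact norm_le_zero_iff.1 h2

/-- a solution of a homogeneous linear equation with value zero at `0` vanishes -/
lemma eq_zero_of_deriv {L : ℝ → V →L[ℝ] V} {f : ℝ → V} (hL : Continuous L)
    (hd : ∀ s, HasDerivAt f (L s (f s)) s) (h0 : f 0 = 0) (s : ℝ) : f s = 0 := by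
  have hc : Continuous f := continuous_iff_continuousAt.2 fun s => (hd s).continuousAt
  rcases le_total 0 s with h | h
  · exact eq_zero_fwd (b := s) hL.continuousOn hc.continuousOn
      (fun r _ => (hd r).hasDerivWithinAt) h0 s ⟨h, le_rfl⟩
  · have h1 : ∀ r, HasDerivAt (fun r => f (-r)) ((-(L (-r))) (f (-r))) r := by
      intro r
      have h3 := (hd (-r)).scomp r (hasDerivAt_neg r)
      rw [neg_one_smul] at h3
      exact h3
    have hL' : Continuous fun r => -(L (-r)) := (hL.comp continuous_neg).neg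
    have h2 := eq_zero_fwd (b := -s) (L := fun r => -(L (-r))) (f := fun r => f (-r))
      hL'.continuousOn (hc.comp continuous_neg).continuousOn
      (fun r _ => (h1 r).hasDerivWithinAt) (by simpa using h0) (-s) ⟨by linarith, le_rfl⟩
    simpa using h2

end Uniq

section Inverse

variable {P : Type*} [NormedAddCommGroup P] [NormedSpace ℝ P]
  {W : Type*} [NormedRing W] [NormedAlgebra ℝ W] [CompleteSpace W] {A : P × ℝ → W}

lemma contDiff_opneg (hA : ContDiff ℝ ∞ A) :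
    ContDiff ℝ ∞ fun q => MulOpposite.op (-(A q)) :=
  (MulOpposite.opContinuousLinearEquiv ℝ : W ≃L[ℝ] Wᵐᵒᵖ).contDiff.comp hA.neg

/-- the inverse of the solution -/
def Uinv (hA : ContDiff ℝ ∞ A) (q : P × ℝ) : W := MulOpposite.unop (Usol (contDiff_opneg hA) q)

lemma contDiff_Uinv (hA : ContDiff ℝ ∞ A) : ContDiff ℝ ∞ (Uinv hA) :=
  (MulOpposite.opContinuousLinearEquiv ℝ : W ≃L[ℝ] Wᵐᵒᵖ).symm.contDiff.comp
    (contDiff_Usol (contDiff_opneg hA))

lemma Uinv_zero (hA : ContDiff ℝ ∞ A) (p : P) : Uinv hA (p, 0) = 1 := by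
  unfold Uinv
  rw [Usol_zero, MulOpposite.unop_one]

lemma hasDerivAt_Uinv (hA : ContDiff ℝ ∞ A) (p : P) (s : ℝ) :
    HasDerivAt (fun s => Uinv hA (p, s)) (-(Uinv hA (p, s) * A (p, s))) s := by
  have h1 := hasDerivAt_Usol (contDiff_opneg hA) p s
  have h2 := ((MulOpposite.opContinuousLinearEquiv ℝ : W ≃L[ℝ] Wᵐᵒᵖ).symm :
    Wᵐᵒᵖ →L[ℝ] W).hasFDerivAt.comp_hasDerivAt s h1
  refine (h2.congr_deriv ?_)
  show MulOpposite.unop (MulOpposite.op (-(A (p, s))) * Usol (contDiff_opneg hA) (p, s)) = _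
  rw [MulOpposite.unop_mul, MulOpposite.unop_op, mul_neg]
  rfl

lemma Uinv_mul_Usol (hA : ContDiff ℝ ∞ A) (q : P × ℝ) : Uinv hA q * Usol hA q = 1 := by
  obtain ⟨p, s⟩ := q
  have h1 : ∀ s, HasDerivAt (fun s => Uinv hA (p, s) * Usol hA (p, s)) 0 s := by
    intro s
    refine ((hasDerivAt_Uinv hA p s).mul (hasDerivAt_Usol hA p s)).congr_deriv ?_
    rw [neg_mul, mul_assoc, neg_add_cancel]
  have h2 := is_const_of_deriv_eq_zero (fun s => (h1 s).differentiableAt)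
    (fun s => (h1 s).deriv) s 0
  rw [h2, Uinv_zero, Usol_zero, mul_one]

lemma Usol_mul_Uinv (hA : ContDiff ℝ ∞ A) (q : P × ℝ) : Usol hA q * Uinv hA q = 1 := by
  obtain ⟨p, s⟩ := q
  let f : ℝ → W := fun s => Usol hA (p, s) * Uinv hA (p, s) - 1
  have h1 : ∀ s, HasDerivAt f ((ContinuousLinearMap.mul ℝ W (A (p, s)) -
      (ContinuousLinearMap.mul ℝ W).flip (A (p, s))) (f s)) s := by
    intro s
    refine (((hasDerivAt_Usol hA p s).mul (hasDerivAt_Uinv hA p s)).sub_const 1).congr_deriv ?_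
    simp only [f, ContinuousLinearMap.sub_apply, ContinuousLinearMap.mul_apply',
      ContinuousLinearMap.flip_apply]
    noncomm_ring
  have hL : Continuous fun s => (ContinuousLinearMap.mul ℝ W (A (p, s)) -
      (ContinuousLinearMap.mul ℝ W).flip (A (p, s))) := by
    have hc : Continuous fun s => A (p, s) := hA.continuous.comp (by fun_prop)
    exact ((ContinuousLinearMap.mul ℝ W).continuous.comp hc).sub
      ((ContinuousLinearMap.mul ℝ W).flip.continuous.comp hc)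
  have h0 : f 0 = 0 := by simp [f, Usol_zero, Uinv_zero]
  have h2 := eq_zero_of_deriv hL h1 h0 s
  exact sub_eq_zero.1 h2

end Inverse

end LinOde

open LinOde

/-- **Linear differential equations with smooth parameters**, in a Banach algebra. -/
theorem exists_linFlow {P : Type*} [NormedAddCommGroup P] [NormedSpace ℝ P]
    {W : Type*} [NormedRing W] [NormedAlgebra ℝ W] [CompleteSpace W] {A : P × ℝ → W}
    (hA : ContDiff ℝ ∞ A) :
    ∃ U Y : P × ℝ → W, ContDiff ℝ ∞ U ∧ ContDiff ℝ ∞ Y ∧ (∀ p, U (p, 0) = 1) ∧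
      (∀ p, Y (p, 0) = 1) ∧
      (∀ p s, HasDerivAt (fun s => U (p, s)) (A (p, s) * U (p, s)) s) ∧
      (∀ p s, HasDerivAt (fun s => Y (p, s)) (-(Y (p, s) * A (p, s))) s) ∧
      (∀ q, Y q * U q = 1) ∧ ∀ q, U q * Y q = 1 :=
  ⟨Usol hA, Uinv hA, contDiff_Usol hA, contDiff_Uinv hA, Usol_zero hA, Uinv_zero hA,
    hasDerivAt_Usol hA, hasDerivAt_Uinv hA, Uinv_mul_Usol hA, Usol_mul_Uinv hA⟩

/-- **Linear differential equations with smooth parameters**, local version: the coefficient is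
smooth on an open set containing `K × [0, 1]`, `K` a compact set of parameters. -/
theorem exists_linFlow_local {P : Type*} [NormedAddCommGroup P] [NormedSpace ℝ P]
    [FiniteDimensional ℝ P]
    {W : Type*} [NormedRing W] [NormedAlgebra ℝ W] [CompleteSpace W] {A : P × ℝ → W}
    {Ω : Set (P × ℝ)} (hΩ : IsOpen Ω) (hA : ContDiffOn ℝ ∞ A Ω) {K : Set P} (hK : IsCompact K)
    (h : ∀ p ∈ K, ∀ s ∈ Icc (0 : ℝ) 1, (p, s) ∈ Ω) :
    ∃ U Y : P × ℝ → W, ContDiff ℝ ∞ U ∧ ContDiff ℝ ∞ Y ∧ (∀ p, U (p, 0) = 1) ∧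
      (∀ p, Y (p, 0) = 1) ∧ (∀ q, Y q * U q = 1) ∧ (∀ q, U q * Y q = 1) ∧
      ∃ O : Set P, IsOpen O ∧ K ⊆ O ∧ ∃ δ > 0, ∀ p ∈ O, ∀ s ∈ Ioo (-δ) (1 + δ), (p, s) ∈ Ω ∧
        HasDerivAt (fun s => U (p, s)) (A (p, s) * U (p, s)) s ∧
        HasDerivAt (fun s => Y (p, s)) (-(Y (p, s) * A (p, s))) s := by
  have hKI : IsCompact (K ×ˢ Icc (0 : ℝ) 1) := hK.prod isCompact_Icc
  have hsub : K ×ˢ Icc (0 : ℝ) 1 ⊆ Ω := fun q hq => h q.1 hq.1 q.2 hq.2
  obtain ⟨V, hVo, hKV, hVΩ, hVc⟩ := exists_open_between_and_isCompact_closure hKI hΩ hsub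
  obtain ⟨χ, hχ1, hχ0, -⟩ := exists_contMDiffMap_one_nhds_of_subset_interior
    (n := ⊤) (I := modelWithCornersSelf ℝ (P × ℝ)) (s := K ×ˢ Icc (0 : ℝ) 1) (t := V)
    hKI.isClosed (by rw [hVo.interior_eq]; exact hKV)
  have hχs : ContDiff ℝ ∞ χ := χ.contMDiff.contDiff
  have hA' : ContDiff ℝ ∞ fun q => χ q • A q := by
    rw [contDiff_iff_contDiffAt]
    intro q
    by_cases hq : q ∈ Ω
    · exact hχs.contDiffAt.smul (hA.contDiffAt (hΩ.mem_nhds hq))
    · have h1 : q ∉ closure V := fun hh => hq (hVΩ hh)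
      have h2 : (fun q => χ q • A q) =ᶠ[𝓝 q] fun _ => 0 := by
        filter_upwards [isClosed_closure.isOpen_compl.mem_nhds h1] with r hr
        rw [hχ0 r fun hh => hr (subset_closure hh), zero_smul]
      exact contDiffAt_const.congr_of_eventuallyEq h2
  obtain ⟨U, Y, hU, hY, hU0, hY0, hUd, hYd, hYU, hUY⟩ := exists_linFlow hA'
  refine ⟨U, Y, hU, hY, hU0, hY0, hYU, hUY, ?_⟩
  obtain ⟨T, hTo, hKT, hT⟩ : ∃ T : Set (P × ℝ), IsOpen T ∧ K ×ˢ Icc (0 : ℝ) 1 ⊆ T ∧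
      ∀ q ∈ T, q ∈ Ω ∧ χ q = 1 := by
    have h1 : ∀ᶠ q in 𝓝ˢ (K ×ˢ Icc (0 : ℝ) 1), q ∈ Ω ∧ χ q = 1 :=
      Filter.Eventually.and (hΩ.mem_nhdsSet.2 hsub) hχ1
    obtain ⟨T, hT1, hT2⟩ := (hasBasis_nhdsSet (K ×ˢ Icc (0 : ℝ) 1)).mem_iff.1 h1
    exact ⟨T, hT1.1, hT1.2, hT2⟩
  obtain ⟨O, J, hO, hJ, hKO, hIJ, hOJ⟩ := generalized_tube_lemma hK isCompact_Icc hTo hKT
  obtain ⟨δ, hδ, hδJ⟩ : ∃ δ > 0, Ioo (-δ) (1 + δ) ⊆ J := by
    obtain ⟨δ, hδ, hth⟩ := isCompact_Icc.exists_thickening_subset_open hJ hIJ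
    refine ⟨δ, hδ, fun s hs => hth ?_⟩
    rw [Metric.mem_thickening_iff]
    rcases le_total s 0 with h0 | h0
    · exact ⟨0, by simp, by rw [Real.dist_eq, sub_zero, abs_of_nonpos h0]; linarith [hs.1]⟩
    · rcases le_total s 1 with h1 | h1
      · exact ⟨s, ⟨h0, h1⟩, by simpa using hδ⟩
      · exact ⟨1, by simp, by rw [Real.dist_eq, abs_of_nonneg (by linarith)]; linarith [hs.2]⟩
  refine ⟨O, hO, hKO, δ, hδ, fun p hp s hs => ?_⟩
  have h3 := hT (p, s) (hOJ ⟨hp, hδJ hs⟩)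
  have h4 := hUd p s
  have h5 := hYd p s
  have h6 : χ (p, s) • A (p, s) = A (p, s) := by rw [h3.2, one_smul]
  rw [h6] at h4 h5
  exact ⟨h3.1, h4, h5⟩

/-- uniqueness: every solution on `[0, b]` is obtained from the propagator -/
theorem linFlow_unique {V : Type*} [NormedAddCommGroup V] [NormedSpace ℝ V]
    {a U Y : ℝ → V →L[ℝ] V} {b : ℝ}
    (hU : ∀ s ∈ Icc 0 b, HasDerivAt Y (-((Y s).comp (a s))) s)
    (hYU : ∀ s, (U s).comp (Y s) = ContinuousLinearMap.id ℝ V)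
    (hY0 : Y 0 = ContinuousLinearMap.id ℝ V) {y : ℝ → V} (hy : ContinuousOn y (Icc 0 b))
    (hd : ∀ s ∈ Ico 0 b, HasDerivWithinAt y (a s (y s)) (Ici s) s) {s : ℝ} (hs : s ∈ Icc 0 b) :
    y s = U s (y 0) := by
  have hYc : ContinuousOn Y (Icc 0 b) := fun s hs => (hU s hs).continuousAt.continuousWithinAt
  have h1 : ∀ s ∈ Icc 0 b, (fun s => Y s (y s)) s = (fun s => Y s (y s)) 0 := by
    refine constant_of_has_deriv_right_zero (f := fun s => Y s (y s)) (hYc.clm_apply hy) ?_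
    intro r hr
    have h2 := (hU r ⟨hr.1, hr.2.le⟩).hasDerivWithinAt (s := Ici r)
    refine (h2.clm_apply (hd r hr)).congr_deriv ?_
    simp
  have h3 : Y s (y s) = y 0 := by
    have := h1 s hs
    simp only [hY0] at this
    exact this
  rw [← h3, ← ContinuousLinearMap.comp_apply, hYU]
  rfl

/-- the propagator of a skew coefficient preserves the norm -/
theorem linFlow_norm {V : Type*} [NormedAddCommGroup V] [InnerProductSpace ℝ V]
    {a U : ℝ → V →L[ℝ] V} {b c : ℝ} (h0 : U 0 = ContinuousLinearMap.id ℝ V)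
    (hc : (0 : ℝ) ∈ Ioo b c)
    (hd : ∀ s ∈ Ioo b c, HasDerivAt U ((a s).comp (U s)) s)
    (hskew : ∀ s ∈ Ioo b c, ∀ v, inner ℝ (a s v) v = 0) {s : ℝ} (hs : s ∈ Ioo b c) (v : V) :
    ‖U s v‖ = ‖v‖ := by
  have h1 : ∀ r ∈ Ioo b c, HasDerivAt (fun r => inner ℝ (U r v) (U r v)) (0 : ℝ) r := by
    intro r hr
    have h2 : HasDerivAt (fun r => U r v) (a r (U r v)) r := by
      have := (hd r hr).clm_apply (hasDerivAt_const r v)
      simpa using this
    refine (h2.inner ℝ h2).congr_deriv ?_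
    rw [hskew r hr, real_inner_comm, hskew r hr, add_zero]
  have h3 : (fun r => inner ℝ (U r v) (U r v)) s = (fun r => inner ℝ (U r v) (U r v)) 0 :=
    (isOpen_Ioo.is_const_of_deriv_eq_zero isPreconnected_Ioo
      (fun r hr => (h1 r hr).differentiableAt.differentiableWithinAt)
      (fun r hr => (h1 r hr).deriv) hs hc)
  simp only [h0, ContinuousLinearMap.id_apply, real_inner_self_eq_norm_sq] at h3
  exact (sq_eq_sq₀ (norm_nonneg _) (norm_nonneg _)).1 h3

end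

end Vale.Agent.P211.HK
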