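import Vale.Agent.P211.H555.Defs
import Vale.Agent.P211.Bdl.B1

/-! P211 / HK: FROZEN interface of the section calculus. captain helper423.

Sections of the vector bundle associated with a representation `R` of `SO(4)` on a Euclidean space
`W` are functions `u p f ∈ W` of a point `p` and a positively oriented orthonormal frame `f` at `p`
(components in that frame). -/

set_option maxSynthPendingDepth 3
set_option linter.unusedSectionVars false

namespace Vale.Agent.P211.HK

open scoped Manifold ContDiff Topology RealInnerProductSpace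
open Bundle Filter VectorField

noncomputable section

/-! ### matrices and representations -/

/-- four by four matrices (with the sup norm) -/
abbrev Mat4 : Type := Fin 4 → Fin 4 → ℝ

/-- unit matrix -/
def idM : Mat4 := fun i j => if i = j then 1 else 0

/-- transposed matrix -/
def trM (g : Mat4) : Mat4 := fun i j => g j i

/-- product -/
def mulM (g h : Mat4) : Mat4 := fun i j => ∑ k, g i k * h k j

/-- special orthogonal matrices -/
def IsSO (g : Mat4) : Prop := mulM (trM g) g = idM ∧ (Matrix.of g).det = 1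

/-- skew matrices -/
def IsSkew (A : Mat4) : Prop := ∀ i j, A i j = - A j i

/-- a smooth orthogonal representation of `SO(4)`, given by a smooth function of all matrices -/
structure Rep (W : Type) [NormedAddCommGroup W] [InnerProductSpace ℝ W] where
  ρ : Mat4 → W →L[ℝ] W
  smooth : ContDiff ℝ ∞ ρ
  one : ρ idM = ContinuousLinearMap.id ℝ W
  mul : ∀ g h, IsSO g → IsSO h → ρ (mulM g h) = (ρ g).comp (ρ h)
  inner : ∀ g, IsSO g → ∀ v w : W, ⟪ρ g v, ρ g w⟫ = ⟪v, w⟫

variable {W W' : Type} [NormedAddCommGroup W] [InnerProductSpace ℝ W]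
  [NormedAddCommGroup W'] [InnerProductSpace ℝ W']

/-- the representation of the Lie algebra -/
def Rep.d (R : Rep W) (A : Mat4) : W →L[ℝ] W := fderiv ℝ R.ρ idM A

/-- `C` commutes with the action of `SO(4)` -/
def Intertwines (R : Rep W) (R' : Rep W') (C : W →L[ℝ] W') : Prop :=
  ∀ g, IsSO g → ∀ w, C (R.ρ g w) = R'.ρ g (C w)

/-- `T ⊗ W`: four elements of `W` -/
abbrev Tn (W : Type) [NormedAddCommGroup W] : Type := PiLp 2 fun _ : Fin 4 => W

/-- the element of `T ⊗ W` with components `w k` -/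
def mkT (w : Fin 4 → W) : Tn W := WithLp.toLp 2 w

/-- the operator on `T ⊗ W` given by a matrix and an operator on `W` -/
def tnMap (m : Mat4) (a : W →L[ℝ] W) : Tn W →L[ℝ] Tn W :=
  ∑ k, ∑ l, m k l • (((PiLp.continuousLinearEquiv 2 ℝ fun _ : Fin 4 => W).symm :
      (Fin 4 → W) →L[ℝ] Tn W).comp ((ContinuousLinearMap.single ℝ (fun _ : Fin 4 => W) k).comp
        (a.comp (PiLp.proj 2 (fun _ : Fin 4 => W) l))))

/-! ### frames and sections -/

variable {E : Type} [NormedAddCommGroup E] [NormedSpace ℝ E] [FiniteDimensional ℝ E]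
  {M : Type} [TopologicalSpace M] [ChartedSpace E M] [IsManifold 𝓘(ℝ, E) ∞ M] [T2Space M]
  [RiemannianBundle fun p : M => TangentSpace 𝓘(ℝ, E) p]
  [IsContMDiffRiemannianBundle 𝓘(ℝ, E) ∞ E fun p : M => TangentSpace 𝓘(ℝ, E) p]

/-- a field of alternating 4-forms -/
abbrev Form4 (E M : Type) [NormedAddCommGroup E] [NormedSpace ℝ E] [TopologicalSpace M]
    [ChartedSpace E M] [IsManifold 𝓘(ℝ, E) ∞ M] : Type :=
  (p : M) → TangentSpace 𝓘(ℝ, E) p [⋀^Fin 4]→ₗ[ℝ] ℝ

/-- `f` is a positively oriented orthonormal frame at `p` -/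
def PON (om : Form4 E M) (p : M) (f : Fin 4 → TangentSpace 𝓘(ℝ, E) p) : Prop :=
  Orthonormal ℝ f ∧ 0 < om p f

/-- the smooth fields `F` form a positively oriented orthonormal frame near `p` -/
def PONnear (om : Form4 E M) (p : M) (F : Fin 4 → VF E M) : Prop :=
  ∀ᶠ q in 𝓝 p, PON om q fun i => F i q

/-- change of the frame `f` by the matrix `g`: `(f g)_j = ∑ i, g i j f_i` -/
def fact {p : M} (f : Fin 4 → TangentSpace 𝓘(ℝ, E) p) (g : Mat4) :
    Fin 4 → TangentSpace 𝓘(ℝ, E) p := fun j => ∑ i, g i j • f i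

/-- functions of points and frames -/
abbrev PreS (E M W : Type) [NormedAddCommGroup E] [NormedSpace ℝ E] [TopologicalSpace M]
    [ChartedSpace E M] [IsManifold 𝓘(ℝ, E) ∞ M] : Type :=
  (p : M) → (Fin 4 → TangentSpace 𝓘(ℝ, E) p) → W

/-- smooth sections of the bundle given by the representation `R` (oriented by `om`) -/
def Sec (om : Form4 E M) (R : Rep W) : Submodule ℝ (PreS E M W) where
  carrier := {u | (∀ p f, ¬ PON om p f → u p f = 0) ∧
    (∀ p f g, PON om p f → IsSO g → u p (fact f g) = R.ρ (trM g) (u p f)) ∧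
    ∀ (F : Fin 4 → VF E M) (p : M), PONnear om p F →
      ContMDiffAt 𝓘(ℝ, E) 𝓘(ℝ, W) ∞ (fun q => u q fun i => F i q) p}
  zero_mem' := ⟨fun _ _ _ => rfl, fun p f g _ _ => by simp, fun F p _ => contMDiffAt_const⟩
  add_mem' := by
    rintro a b ⟨a1, a2, a3⟩ ⟨b1, b2, b3⟩
    refine ⟨fun p f h => by simp [a1 p f h, b1 p f h], fun p f g h hg => ?_, fun F p h => ?_⟩
    · simp [a2 p f g h hg, b2 p f g h hg]
    · exact (a3 F p h).add (b3 F p h)
  smul_mem' := by
    rintro c a ⟨a1, a2, a3⟩
    refine ⟨fun p f h => by simp [a1 p f h], fun p f g h hg => ?_, fun F p h => ?_⟩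
    · simp [a2 p f g h hg]
    · exact ((c • ContinuousLinearMap.id ℝ W).contMDiff.contMDiffAt.comp p (a3 F p h) :)

/-- derivative of a `W`-valued function in the direction `v` -/
def dirW (u : M → W) (p : M) (v : TangentSpace 𝓘(ℝ, E) p) : W :=
  mfderiv 𝓘(ℝ, E) 𝓘(ℝ, W) u p v

variable (cov : CovariantDerivative 𝓘(ℝ, E) E (TangentSpace 𝓘(ℝ, E) : M → Type))

/-- `F` is a synchronous frame at `p` extending `f` -/
def SyncExt (om : Form4 E M) (p : M) (f : Fin 4 → TangentSpace 𝓘(ℝ, E) p)
    (F : Fin 4 → VF E M) : Prop :=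
  PONnear om p F ∧ (∀ i, F i p = f i) ∧ ∀ i v, cov (F i) p v = 0

open Classical in
/-- the covariant derivative: `(∇u)_k` is the derivative of the components of `u` in a synchronous
frame in the direction `f k` -/
def nabS (om : Form4 E M) (u : PreS E M W) : PreS E M (Tn W) := fun p f =>
  if h : PON om p f ∧ ∃ F : Fin 4 → VF E M, SyncExt cov om p f F then
    mkT fun k => dirW (fun q => u q fun i => h.2.choose i q) p (f k)
  else 0

/-- `H u = ∇* ∇ u = - ∑ (∇∇u)_{kk}` -/
def lapS (om : Form4 E M) (u : PreS E M W) : PreS E M W := fun p f =>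
  - ∑ k, (nabS cov om (nabS cov om u) p f) k k

/-- image of a section under a constant coefficient map -/
def mapS (C : W →L[ℝ] W') (u : PreS E M W) : PreS E M W' := fun p f => C (u p f)

/-- the curvature matrices `Ω_kl = R(f_k, f_l)` in the frame `f`, `(Ω_kl)_ij = ⟨R(f_k,f_l)f_j, f_i⟩`
(here for smooth fields `F` through `f`) -/
def OmF (F : Fin 4 → VF E M) (p : M) (k l : Fin 4) : Mat4 := fun i j =>
  NN.Rm cov (F k) (F l) (F j) (F i) p

/-- connection matrices of a frame of smooth fields: `∇_{F k} F j = ∑ i, (Γ_k)_ij F i` -/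
def GaF (F : Fin 4 → VF E M) (p : M) (k : Fin 4) : Mat4 := fun i j =>
  inner ℝ (cov (F j) p (F k p)) (F i p)

open Classical in
/-- the curvature matrices as a function of the frame `f` at `p` -/
def Om (p : M) (f : Fin 4 → TangentSpace 𝓘(ℝ, E) p) (k l : Fin 4) : Mat4 :=
  if h : ∃ F : Fin 4 → VF E M, ∀ i, F i p = f i then OmF cov h.choose p k l else 0

end

end Vale.Agent.P211.HK
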