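import Vale.Agent.P211.HK.LinOde
import Vale.Agent.P211.HK.SecDefs

set_option linter.all false
set_option maxSynthPendingDepth 3

/-! P211 / HK (helper961): linear differential equations for four by four matrices (frames), with
smooth parameters. -/

namespace Vale.Agent.P211.HK

open Set Filter Topology Metric MeasureTheory
open scoped ContDiff

noncomputable section

namespace LinOde

/-- operators on `ℝ⁴` -/
abbrev Op4 : Type := (Fin 4 → ℝ) →L[ℝ] (Fin 4 → ℝ)

/-- the operator given by a matrix -/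
def matOp : Mat4 →L[ℝ] Op4 :=
  LinearMap.toContinuousLinearMap
    { toFun := fun m => LinearMap.toContinuousLinearMap
        { toFun := fun x i => ∑ j, m i j * x j
          map_add' := fun x y => by ext i; simp [mul_add, Finset.sum_add_distrib]
          map_smul' := fun c x => by ext i; simp [Finset.mul_sum, mul_left_comm] }
      map_add' := fun m m' => by ext x i; simp [add_mul, Finset.sum_add_distrib]
      map_smul' := fun c m => by ext x i; simp [Finset.mul_sum, mul_assoc] }

lemma matOp_apply (m : Mat4) (x : Fin 4 → ℝ) (i : Fin 4) : matOp m x i = ∑ j, m i j * x j := rfl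

/-- the matrix of an operator -/
def opMat : Op4 →L[ℝ] Mat4 :=
  LinearMap.toContinuousLinearMap
    { toFun := fun L i j => L (Pi.single j 1) i
      map_add' := fun L L' => by ext i j; simp
      map_smul' := fun c L => by ext i j; simp }

lemma opMat_apply (L : Op4) (i j : Fin 4) : opMat L i j = L (Pi.single j 1) i := rfl

lemma opMat_mul (m : Mat4) (L : Op4) : opMat (matOp m * L) = mulM m (opMat L) := by
  ext i j
  rw [opMat_apply]
  show matOp m (L (Pi.single j 1)) i = _
  rw [matOp_apply]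
  rfl

lemma opMat_one : opMat (1 : Op4) = idM := by
  ext i j
  rw [opMat_apply]
  show (Pi.single j (1 : ℝ) : Fin 4 → ℝ) i = _
  rw [Pi.single_apply]
  rfl

lemma mulM_assoc (a b c : Mat4) : mulM (mulM a b) c = mulM a (mulM b c) := by
  ext i j
  simp only [mulM, Finset.sum_mul, Finset.mul_sum]
  rw [Finset.sum_comm]
  exact Finset.sum_congr rfl fun k _ => Finset.sum_congr rfl fun l _ => mul_assoc _ _ _

lemma hasDerivAt_mulM {a b : ℝ → Mat4} {a' b' : Mat4} {s : ℝ} (ha : HasDerivAt a a' s)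
    (hb : HasDerivAt b b' s) :
    HasDerivAt (fun s => mulM (a s) (b s)) (mulM a' (b s) + mulM (a s) b') s := by
  rw [hasDerivAt_pi]
  intro i
  rw [hasDerivAt_pi]
  intro j
  have h1 : ∀ k, HasDerivAt (fun s => a s i k * b s k j) (a' i k * b s k j + a s i k * b' k j) s :=
    fun k => ((hasDerivAt_pi.1 (hasDerivAt_pi.1 ha i) k).mul
      (hasDerivAt_pi.1 (hasDerivAt_pi.1 hb k) j))
  have h2 := HasDerivAt.fun_sum (u := Finset.univ) fun k _ => h1 k
  refine h2.congr_deriv ?_
  simp [mulM, Finset.sum_add_distrib]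

lemma hasDerivAt_trM {a : ℝ → Mat4} {a' : Mat4} {s : ℝ} (ha : HasDerivAt a a' s) :
    HasDerivAt (fun s => trM (a s)) (trM a') s := by
  rw [hasDerivAt_pi]
  intro i
  rw [hasDerivAt_pi]
  intro j
  exact hasDerivAt_pi.1 (hasDerivAt_pi.1 ha j) i

lemma trM_mulM (a b : Mat4) : trM (mulM a b) = mulM (trM b) (trM a) := by
  ext i j
  simp only [trM, mulM]
  exact Finset.sum_congr rfl fun k _ => mul_comm _ _

lemma mulM_add_left (a b c : Mat4) : mulM (a + b) c = mulM a c + mulM b c := by
  ext i j; simp [mulM, add_mul, Finset.sum_add_distrib]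

lemma mulM_add_right (a b c : Mat4) : mulM a (b + c) = mulM a b + mulM a c := by
  ext i j; simp [mulM, mul_add, Finset.sum_add_distrib]

lemma mulM_zero_left (c : Mat4) : mulM 0 c = 0 := by
  ext i j; simp [mulM]

lemma mulM_idM (a : Mat4) : mulM a idM = a := by
  ext i j; simp [mulM, idM]

lemma idM_mulM (a : Mat4) : mulM idM a = a := by
  ext i j; simp [mulM, idM]

lemma trM_idM : trM idM = idM := by
  ext i j; simp [trM, idM, eq_comm]

lemma isSO_idM : IsSO idM := by
  refine ⟨by rw [trM_idM, mulM_idM], ?_⟩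
  have : Matrix.of idM = (1 : Matrix (Fin 4) (Fin 4) ℝ) := by
    ext i j; simp [idM, Matrix.one_apply]
  rw [this, Matrix.det_one]

lemma trM_add_self {A : Mat4} (h : IsSkew A) : trM A + A = 0 := by
  ext i j
  show A j i + A i j = 0
  rw [h i j, add_neg_cancel]

lemma det_sq_of_orth {g : Mat4} (h : mulM (trM g) g = idM) : (Matrix.of g).det ^ 2 = 1 := by
  have h1 : (Matrix.of g).transpose * Matrix.of g = 1 := by
    ext i j
    have := congrFun (congrFun h i) j
    simp only [mulM, trM, idM] at this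
    simp only [Matrix.mul_apply, Matrix.transpose_apply, Matrix.of_apply, Matrix.one_apply]
    exact this
  have h2 := congrArg Matrix.det h1
  rw [Matrix.det_mul, Matrix.det_transpose, Matrix.det_one] at h2
  rw [sq]
  exact h2

end LinOde

open LinOde

/-- a solution of `g' = Γ g`, `Γ` skew, is special orthogonal -/
theorem isSO_of_flow {g Γ : ℝ → Mat4} {b c : ℝ} (h0 : g 0 = idM) (hc : (0 : ℝ) ∈ Ioo b c)
    (hd : ∀ s ∈ Ioo b c, HasDerivAt g (mulM (Γ s) (g s)) s) (hs : ∀ s ∈ Ioo b c, IsSkew (Γ s)) :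
    ∀ s ∈ Ioo b c, IsSO (g s) := by
  have h1 : ∀ s ∈ Ioo b c, HasDerivAt (fun s => mulM (trM (g s)) (g s)) 0 s := by
    intro s hs'
    refine (hasDerivAt_mulM (hasDerivAt_trM (hd s hs')) (hd s hs')).congr_deriv ?_
    rw [trM_mulM, mulM_assoc, ← mulM_add_right, ← mulM_add_left, trM_add_self (hs s hs'),
      mulM_zero_left]
    ext i j; simp [mulM]
  have h2 : ∀ s ∈ Ioo b c, mulM (trM (g s)) (g s) = idM := by
    intro s hs'
    have h3 : (fun s => mulM (trM (g s)) (g s)) s = (fun s => mulM (trM (g s)) (g s)) 0 :=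
      (isOpen_Ioo.is_const_of_deriv_eq_zero isPreconnected_Ioo
        (fun r hr => (h1 r hr).differentiableAt.differentiableWithinAt)
        (fun r hr => (h1 r hr).deriv) hs' hc)
    simp only [h0, trM_idM, mulM_idM] at h3
    exact h3
  intro s hs'
  refine ⟨h2 s hs', ?_⟩
  have hcont : ContinuousOn (fun s => (Matrix.of (g s)).det) (Ioo b c) := by
    have hg : ContinuousOn g (Ioo b c) := fun r hr => (hd r hr).continuousAt.continuousWithinAt
    have h4 : Continuous fun m : Mat4 => (Matrix.of m).det := by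
      exact Continuous.matrix_det (continuous_id (X := Matrix (Fin 4) (Fin 4) ℝ))
    exact h4.comp_continuousOn hg
  have h5 : ∀ s ∈ Ioo b c, (Matrix.of (g s)).det = 1 ∨ (Matrix.of (g s)).det = -1 := fun s hs' =>
    by
      have h := det_sq_of_orth (h2 s hs')
      have h' : ((Matrix.of (g s)).det - 1) * ((Matrix.of (g s)).det + 1) = 0 := by linear_combination h
      rcases mul_eq_zero.1 h' with h | h
      · left; linarith
      · right; linarith
  by_contra hne
  have h6 : (Matrix.of (g s)).det = -1 := (h5 s hs').resolve_left hne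
  have h7 : (Matrix.of (g 0)).det = 1 := by
    rw [h0]; exact isSO_idM.2
  have h8 := isPreconnected_Ioo.intermediate_value hs' hc hcont
  have h9 : (0 : ℝ) ∈ Icc ((Matrix.of (g s)).det) ((Matrix.of (g 0)).det) := by
    rw [h6, h7]; constructor <;> norm_num
  obtain ⟨r, hr, hr0⟩ := h8 h9
  rcases h5 r hr with h | h <;> simp only [h] at hr0 <;> norm_num at hr0

/-- **The frame equation** `g' = Γ g` with smooth parameters. -/
theorem exists_frameFlow {P : Type*} [NormedAddCommGroup P] [NormedSpace ℝ P]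
    [FiniteDimensional ℝ P] {Γ : P × ℝ → Mat4}
    {Ω : Set (P × ℝ)} (hΩ : IsOpen Ω) (hΓ : ContDiffOn ℝ ∞ Γ Ω) {K : Set P} (hK : IsCompact K)
    (h : ∀ p ∈ K, ∀ s ∈ Icc (0 : ℝ) 1, (p, s) ∈ Ω) :
    ∃ g : P × ℝ → Mat4, ContDiff ℝ ∞ g ∧ (∀ p, g (p, 0) = idM) ∧
      ∃ O : Set P, IsOpen O ∧ K ⊆ O ∧ ∃ δ > 0, ∀ p ∈ O, ∀ s ∈ Ioo (-δ) (1 + δ), (p, s) ∈ Ω ∧
        HasDerivAt (fun s => g (p, s)) (mulM (Γ (p, s)) (g (p, s))) s ∧
        ((∀ q ∈ Ω, IsSkew (Γ q)) → IsSO (g (p, s))) := by
  obtain ⟨U, Y, hU, -, hU0, -, -, -, O, hO, hKO, δ, hδ, hd⟩ := exists_linFlow_local (W := Op4)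
    (A := fun q => matOp (Γ q)) hΩ (matOp.contDiff.comp_contDiffOn hΓ) hK h
  have hg : ∀ p ∈ O, ∀ s ∈ Ioo (-δ) (1 + δ),
      HasDerivAt (fun s => opMat (U (p, s))) (mulM (Γ (p, s)) (opMat (U (p, s)))) s := by
    intro p hp s hs
    have h1 := opMat.hasFDerivAt.comp_hasDerivAt s (hd p hp s hs).2.1
    refine h1.congr_deriv ?_
    exact opMat_mul _ _
  refine ⟨fun q => opMat (U q), opMat.contDiff.comp hU, fun p => by simp only [hU0]; exact opMat_one,
    O, hO, hKO, δ, hδ, fun p hp s hs => ⟨(hd p hp s hs).1, hg p hp s hs, fun hsk => ?_⟩⟩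
  exact isSO_of_flow (g := fun s => opMat (U (p, s))) (Γ := fun s => Γ (p, s))
    (by simp only [hU0]; exact opMat_one) (b := -δ) (c := 1 + δ) ⟨by linarith, by linarith⟩
    (fun r hr => hg p hp r hr) (fun r hr => hsk _ (hd p hp r hr).1) s hs

end

end Vale.Agent.P211.HK
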