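import Vale.Agent.P211.HK.PatchInt
import Vale.Agent.P211.HK.EUT1
import Vale.Agent.P211.HK.Gauss

/-! P211 / HK: uniform bounds of the parametrix on compact sets of centres. helper679. -/

set_option maxSynthPendingDepth 3
set_option linter.unusedSectionVars false
set_option linter.unusedVariables false

namespace Vale.Agent.P211.HK

open scoped Manifold ContDiff Topology RealInnerProductSpace
open Bundle Filter VectorField MeasureTheory Set

noncomputable section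

namespace ParBd

theorem gau_eq (t : ℝ) (v : Eu4) : gau t v = Gauss.G t v := by
  unfold gau Gauss.G
  congr 2
  ring

theorem gau_nonneg (t : ℝ) (v : Eu4) : 0 ≤ gau t v := by
  unfold gau
  positivity

section

variable {P W : Type} [NormedAddCommGroup P] [NormedSpace ℝ P] [FiniteDimensional ℝ P]
  [NormedAddCommGroup W] [InnerProductSpace ℝ W] [FiniteDimensional ℝ W] {U : Set P} {D : ℝ}

/-- uniform bounds for the parametrix -/
theorem par_bound (h2 : EU2Stmt) (Q : RadData P W U D) (N : ℕ) {K : Set P} (hK : IsCompact K)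
    (hKU : K ⊆ U) : ∃ C : ℝ, 0 ≤ C ∧ ∀ y ∈ K, ∀ v : Eu4, ‖v‖ ≤ D / 2 →
      Q.J (y, v) ≤ 1 + C * ‖v‖ ∧ ∀ t ∈ Ioc (0 : ℝ) 1,
        ‖Q.par N t (y, v) - gau t v • ContinuousLinearMap.id ℝ W‖ ≤
          gau t v * (C * (t + ‖v‖)) := by
  have hD := Q.D_pos
  obtain ⟨C1, hC1, hb1⟩ := EU4.lip_unif Q.U_open hD Q.J_smooth hK hKU
  obtain ⟨C2, hC2, hb2⟩ := EU4.lip_unif Q.U_open hD (EU5.contDiffOn_uu h2 Q 0) hK hKU
  have hall : ∀ k, ∃ C : ℝ, 0 ≤ C ∧ ∀ y ∈ K, ∀ v : Eu4, ‖v‖ ≤ D / 2 → ‖Q.uu k (y, v)‖ ≤ C :=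
    fun k => EU4.exists_bound hD (EU5.contDiffOn_uu h2 Q k).continuousOn hK hKU
  choose C3 hC3 hb3 using hall
  have hS : 0 ≤ ∑ k ∈ Finset.range N, C3 (k + 1) := Finset.sum_nonneg fun k _ => hC3 _
  refine ⟨C1 + C2 + ∑ k ∈ Finset.range N, C3 (k + 1), by positivity, fun y hy v hv => ⟨?_, ?_⟩⟩
  · have h1 := hb1 y hy v hv
    rw [Q.J_zero y (hKU hy)] at h1
    have h3 := (le_abs_self _).trans h1
    have h4 : C1 * ‖v‖ ≤ (C1 + C2 + ∑ k ∈ Finset.range N, C3 (k + 1)) * ‖v‖ :=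
      mul_le_mul_of_nonneg_right (by linarith) (norm_nonneg v)
    linarith
  · intro t ht
    have h0 : Q.uu 0 (y, 0) = ContinuousLinearMap.id ℝ W := by
      unfold RadData.uu
      rw [Q.J_zero y (hKU hy)]
      simp [RadData.cc]
    have e : Q.par N t (y, v) - gau t v • ContinuousLinearMap.id ℝ W =
        gau t v • ((Q.uu 0 (y, v) - Q.uu 0 (y, 0)) +
          ∑ k ∈ Finset.range N, t ^ (k + 1) • Q.uu (k + 1) (y, v)) := by
      unfold RadData.par
      rw [Finset.sum_range_succ', h0, ← smul_sub]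
      congr 1
      simp only [pow_zero, one_smul]
      abel
    rw [e, norm_smul, Real.norm_of_nonneg (gau_nonneg t v)]
    refine mul_le_mul_of_nonneg_left ?_ (gau_nonneg t v)
    refine (norm_add_le _ _).trans ?_
    have h3 : ‖∑ k ∈ Finset.range N, t ^ (k + 1) • Q.uu (k + 1) (y, v)‖ ≤
        (∑ k ∈ Finset.range N, C3 (k + 1)) * t := by
      rw [Finset.sum_mul]
      refine norm_sum_le_of_le _ fun k _ => ?_
      rw [norm_smul, norm_pow, Real.norm_of_nonneg ht.1.le, mul_comm]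
      refine mul_le_mul (hb3 _ y hy v hv) ?_ (by positivity [ht.1.le]) (hC3 _)
      calc t ^ (k + 1) = t ^ k * t := pow_succ _ _
        _ ≤ 1 * t := mul_le_mul_of_nonneg_right (pow_le_one₀ ht.1.le ht.2) ht.1.le
        _ = t := one_mul t
    have h4 := hb2 y hy v hv
    have hv0 := norm_nonneg v
    have ht0 := ht.1.le
    nlinarith [mul_nonneg hC1 hv0, mul_nonneg hC1 ht0, mul_nonneg hC2 ht0, mul_nonneg hS hv0]

end

/-- Gaussian integral of `1 + C ‖v‖`-type factors -/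
theorem integral_gau_le {C : ℝ} (hC : 0 ≤ C) : ∃ C' : ℝ, 0 ≤ C' ∧ ∀ t ∈ Ioc (0 : ℝ) 1,
    Integrable (fun v : Eu4 => (1 + C * ‖v‖) * (gau t v * (1 + C * (t + ‖v‖)))) ∧
    ∫ v : Eu4, (1 + C * ‖v‖) * (gau t v * (1 + C * (t + ‖v‖))) ≤ 1 + C' * Real.sqrt t := by
  refine ⟨C * (1 + C) * (4 * Gauss.Kp 1 * 2 ^ 1) + C + C * (4 * Gauss.Kp 1 * 2 ^ 1) +
    C ^ 2 * (4 * Gauss.Kp 2 * 2 ^ 2), ?_, fun t ht => ?_⟩
  · have h1 := Gauss.Kp_pos 1
    have h2 := Gauss.Kp_pos 2
    positivity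
  · have ht0 := ht.1
    have hst : 0 ≤ Real.sqrt t := Real.sqrt_nonneg t
    have hts : t ≤ Real.sqrt t := by
      have h1 : Real.sqrt t ≤ 1 := Real.sqrt_le_one.2 ht.2
      calc t = Real.sqrt t * Real.sqrt t := (Real.mul_self_sqrt ht0.le).symm
        _ ≤ 1 * Real.sqrt t := mul_le_mul_of_nonneg_right h1 hst
        _ = Real.sqrt t := one_mul _
    have e : ∀ v : Eu4, (1 + C * ‖v‖) * (gau t v * (1 + C * (t + ‖v‖))) =
        (1 + C * t) * Gauss.G t v + (C * (1 + C * t) + C) * (‖v‖ ^ 1 * Gauss.G t v) +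
          C ^ 2 * (‖v‖ ^ 2 * Gauss.G t v) := by
      intro v
      rw [gau_eq]
      ring
    simp only [e]
    have i0 := Gauss.integrable_G ht0
    have i1 := Gauss.integrable_pow_G 1 ht0
    have i2 := Gauss.integrable_pow_G 2 ht0
    refine ⟨((i0.const_mul _).add (i1.const_mul _)).add (i2.const_mul _), ?_⟩
    have j0 : Integrable (fun v : Eu4 => (1 + C * t) * Gauss.G t v) := i0.const_mul _
    have j1 : Integrable (fun v : Eu4 => (C * (1 + C * t) + C) * (‖v‖ ^ 1 * Gauss.G t v)) :=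
      i1.const_mul _
    have j2 : Integrable (fun v : Eu4 => C ^ 2 * (‖v‖ ^ 2 * Gauss.G t v)) := i2.const_mul _
    have j01 : Integrable (fun v : Eu4 => (1 + C * t) * Gauss.G t v +
      (C * (1 + C * t) + C) * (‖v‖ ^ 1 * Gauss.G t v)) := j0.add j1
    rw [integral_add j01 j2, integral_add j0 j1, integral_const_mul, integral_const_mul,
      integral_const_mul, Gauss.integral_G ht0]
    have b1 := Gauss.integral_pow_G_le 1 ht0
    have b2 := Gauss.integral_pow_G_le 2 ht0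
    have n1 : 0 ≤ ∫ v : Eu4, ‖v‖ ^ 1 * Gauss.G t v :=
      integral_nonneg fun v => mul_nonneg (by positivity) (Gauss.G_nonneg t v)
    have n2 : 0 ≤ ∫ v : Eu4, ‖v‖ ^ 2 * Gauss.G t v :=
      integral_nonneg fun v => mul_nonneg (by positivity) (Gauss.G_nonneg t v)
    have k1 := Gauss.Kp_pos 1
    have k2 := Gauss.Kp_pos 2
    have c1 : (C * (1 + C * t) + C) * ∫ v : Eu4, ‖v‖ ^ 1 * Gauss.G t v ≤
        (C * (1 + C) + C) * (4 * Gauss.Kp 1 * 2 ^ 1 * Real.sqrt t ^ 1) := by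
      refine mul_le_mul ?_ b1 n1 (by positivity)
      have : C * t ≤ C * 1 := mul_le_mul_of_nonneg_left ht.2 hC
      nlinarith
    have c2 : C ^ 2 * ∫ v : Eu4, ‖v‖ ^ 2 * Gauss.G t v ≤
        C ^ 2 * (4 * Gauss.Kp 2 * 2 ^ 2 * Real.sqrt t) := by
      refine mul_le_mul_of_nonneg_left (b2.trans ?_) (by positivity)
      rw [Real.sq_sqrt ht0.le]
      exact mul_le_mul_of_nonneg_left hts (by positivity)
    have c3 : C * t ≤ C * Real.sqrt t := mul_le_mul_of_nonneg_left hts hC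
    rw [pow_one] at c1
    nlinarith

end ParBd

end

end Vale.Agent.P211.HK
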