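import Vale.Agent.P211.HK.LK2Defs
import Vale.Agent.P211.HK.EUDefs
import Vale.Agent.P211.HK.EU5
import Vale.Agent.P211.HK.RepD

/-! P211 / HK: FROZEN interface between RG (radial gauge) and LK (kernels). deputy helper287.

A `Patch cov om μ D` is everything the kernel part knows about the geometry: centres `y ∈ O` in a
chart, one smooth frame `F` over the centres, normal coordinates `ex (y, ·)` of radius `D` with
inverse `lg y`, the radially parallel frame `pf y`, and the coefficients `gi`, `J`, `a` of the metric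
and of the connection. Nothing else is used. RG proves `PatchStmt`. Names of RGDefs: `q₀ = L.p0`,
`F = L.Fr`, `O = L.U`, `ex = L.ex e`, `lg = L.co e`, `pf = T.eq`, `gi = L.gi e`, `J = L.Jd e`,
`a = T.A`. -/

set_option maxSynthPendingDepth 3
set_option linter.unusedSectionVars false
set_option linter.unusedVariables false

namespace Vale.Agent.P211.HK

open scoped Manifold ContDiff Topology RealInnerProductSpace
open Bundle Filter VectorField MeasureTheory Set

noncomputable section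

/-- `∇*∇` in coordinates (same formula as `RadData.lapW`) -/
def lapF {W : Type} [NormedAddCommGroup W] [InnerProductSpace ℝ W] (J : Eu4 → ℝ)
    (gi : Eu4 → Fin 4 → Fin 4 → ℝ) (B : Eu4 → Fin 4 → W →L[ℝ] W) (f : Eu4 → W) (v : Eu4) : W :=
  - (J v)⁻¹ • ∑ i, (fderiv ℝ (fun v' => ∑ j, (J v' * gi v' i j) •
      (fderiv ℝ f v' (ev4 j) + B v' j (f v'))) v (ev4 i) +
    B v i (∑ j, (J v * gi v i j) • (fderiv ℝ f v (ev4 j) + B v j (f v))))

variable {E : Type} [NormedAddCommGroup E] [NormedSpace ℝ E] [FiniteDimensional ℝ E]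
  {M : Type} [MetricSpace M] [ChartedSpace E M] [IsManifold 𝓘(ℝ, E) ∞ M]
  [RiemannianBundle fun p : M => TangentSpace 𝓘(ℝ, E) p]
  [IsContMDiffRiemannianBundle 𝓘(ℝ, E) ∞ E fun p : M => TangentSpace 𝓘(ℝ, E) p]

/-- the point with coordinates `y` in the chart at `q₀` -/
def ptc (q₀ : M) (y : E) : M := (extChartAt 𝓘(ℝ, E) q₀).symm y

/-- Radial gauge on a patch, with radius `D`. -/
structure Patch [MeasurableSpace M]
    (cov : CovariantDerivative 𝓘(ℝ, E) E (TangentSpace 𝓘(ℝ, E) : M → Type))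
    (om : Form4 E M) (μ : Measure M) (D : ℝ) where
  /-- base point of the chart -/
  q₀ : M
  /-- frame at the centres -/
  F : Fin 4 → VF E M
  /-- coordinates of the centres -/
  O : Set E
  /-- normal coordinates: `ex (y, v) = exp_y (∑ v_i F_i)` -/
  ex : E × Eu4 → M
  /-- inverse of `ex (y, ·)` -/
  lg : E → M → Eu4
  /-- the frame `F` at the centre `y` transported along the radius to the point `x` -/
  pf : E → (x : M) → Fin 4 → TangentSpace 𝓘(ℝ, E) x
  /-- inverse metric -/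
  gi : E × Eu4 → Fin 4 → Fin 4 → ℝ
  /-- volume density -/
  J : E × Eu4 → ℝ
  /-- connection matrices of the frame `pf` in the coordinate directions -/
  a : E × Eu4 → Fin 4 → Mat4
  O_open : IsOpen O
  O_sub : O ⊆ (extChartAt 𝓘(ℝ, E) q₀).target
  D_pos : 0 < D
  F_pon : ∀ y ∈ O, PONnear om (ptc q₀ y) F
  ex_smooth : ContMDiffOn 𝓘(ℝ, E × Eu4) 𝓘(ℝ, E) ∞ ex (O ×ˢ Metric.ball 0 D)
  dist_ex : ∀ y ∈ O, ∀ v : Eu4, ‖v‖ < D → dist (ptc q₀ y) (ex (y, v)) = ‖v‖
  lg_ex : ∀ y ∈ O, ∀ v : Eu4, ‖v‖ < D → lg y (ex (y, v)) = v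
  ex_lg : ∀ y ∈ O, ∀ x, dist (ptc q₀ y) x < D → ex (y, lg y x) = x
  lg_norm : ∀ y ∈ O, ∀ x, dist (ptc q₀ y) x < D → ‖lg y x‖ = dist (ptc q₀ y) x
  lg_smooth : ∀ y ∈ O, ∀ x, dist (ptc q₀ y) x < D →
    ContMDiffAt (𝓘(ℝ, E).prod 𝓘(ℝ, E)) 𝓘(ℝ, Eu4) ∞ (fun z : E × M => lg z.1 z.2) (y, x)
  pf_pon : ∀ y ∈ O, ∀ x, dist (ptc q₀ y) x < D → PON om x (pf y x)
  pf_zero : ∀ y ∈ O, ∀ i, pf y (ptc q₀ y) i = F i (ptc q₀ y)
  pf_smooth : ∀ (G : Fin 4 → VF E M), ∀ y ∈ O, ∀ x, dist (ptc q₀ y) x < D → PONnear om x G →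
    ContMDiffAt (𝓘(ℝ, E).prod 𝓘(ℝ, E)) 𝓘(ℝ, Mat4) ∞
      (fun z : E × M => (fun i j => inner ℝ (G i z.2) (pf z.1 z.2 j) : Mat4)) (y, x)
  gi_smooth : ContDiffOn ℝ ∞ gi (O ×ˢ Metric.ball 0 D)
  J_smooth : ContDiffOn ℝ ∞ J (O ×ˢ Metric.ball 0 D)
  a_smooth : ContDiffOn ℝ ∞ a (O ×ˢ Metric.ball 0 D)
  J_pos : ∀ z ∈ O ×ˢ Metric.ball (0 : Eu4) D, 0 < J z
  gi_symm : ∀ z ∈ O ×ˢ Metric.ball (0 : Eu4) D, ∀ i j, gi z i j = gi z j i
  a_skew : ∀ z ∈ O ×ˢ Metric.ball (0 : Eu4) D, ∀ i, IsSkew (a z i)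
  gauss : ∀ z ∈ O ×ˢ Metric.ball (0 : Eu4) D, ∀ i, ∑ j, gi z i j * z.2 j = z.2 i
  radial : ∀ z ∈ O ×ˢ Metric.ball (0 : Eu4) D, ∑ i, z.2 i • a z i = 0
  gi_zero : ∀ y ∈ O, ∀ i j, gi (y, 0) i j = if i = j then 1 else 0
  J_zero : ∀ y ∈ O, J (y, 0) = 1
  gi_crit : ∀ y ∈ O, fderiv ℝ (fun v => gi (y, v)) 0 = 0
  J_crit : ∀ y ∈ O, fderiv ℝ (fun v => J (y, v)) 0 = 0
  /-- `∇*∇` of a smooth section in these coordinates -/
  lap : ∀ (W : Type) [NormedAddCommGroup W] [InnerProductSpace ℝ W] [FiniteDimensional ℝ W]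
    (R : Rep W), ∀ u ∈ Sec (E := E) om R, ∀ y ∈ O, ∀ v : Eu4, ‖v‖ < D →
      lapS cov om u (ex (y, v)) (pf y (ex (y, v))) =
        lapF (fun v' => J (y, v')) (fun v' => gi (y, v')) (fun v' i => R.d (a (y, v') i))
          (fun v' => u (ex (y, v')) (pf y (ex (y, v')))) v
  /-- change of variables -/
  vol : ∀ y ∈ O, μ.restrict (Metric.ball (ptc q₀ y) D) =
    ((volume.restrict (Metric.ball (0 : Eu4) D)).withDensity
      fun v => ENNReal.ofReal (J (y, v))).map fun v => ex (y, v)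
  /-- curvature at the centre -/
  curv : ∀ y ∈ O, ∀ j i, (2 : ℝ) • fderiv ℝ (fun v => a (y, v) i) 0 (ev4 j) =
    Om cov (ptc q₀ y) (fun i => F i (ptc q₀ y)) j i

/-- RG: patches exist around every point, with a prescribed frame at the centres; the set of centres
does not depend on the radius. (`μ` = Riemannian volume.) -/
def PatchStmt [IsRiemannianManifold 𝓘(ℝ, E) M] [CompactSpace M] [ConnectedSpace M]
    [MeasurableSpace M] [BorelSpace M]
    (cov : CovariantDerivative 𝓘(ℝ, E) E (TangentSpace 𝓘(ℝ, E) : M → Type))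
    (om : Form4 E M) (μ : Measure M) : Prop :=
  Geo4 cov om → ∀ (q₀ : M) (F : Fin 4 → VF E M), PONnear om q₀ F →
    ∃ (D₀ : ℝ) (O : Set E), 0 < D₀ ∧ extChartAt 𝓘(ℝ, E) q₀ q₀ ∈ O ∧ ∀ D : ℝ, 0 < D → D ≤ D₀ →
      ∃ P : Patch cov om μ D, P.q₀ = q₀ ∧ P.F = F ∧ P.O = O

variable [MeasurableSpace M]
  {cov : CovariantDerivative 𝓘(ℝ, E) E (TangentSpace 𝓘(ℝ, E) : M → Type)}
  {om : Form4 E M} {μ : Measure M} {D : ℝ}

namespace Patch

variable (P : Patch cov om μ D)

/-- coordinates of a point -/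
def co (q : M) : E := extChartAt 𝓘(ℝ, E) P.q₀ q

/-- the open set of centres -/
def dom : Set M := (extChartAt 𝓘(ℝ, E) P.q₀).source ∩ (extChartAt 𝓘(ℝ, E) P.q₀) ⁻¹' P.O

variable {W : Type} [NormedAddCommGroup W] [InnerProductSpace ℝ W] [FiniteDimensional ℝ W]

/-- the radial data with values in a representation -/
def rad (R : Rep W) : RadData E W P.O D where
  gi := P.gi
  J := P.J
  B := fun z i => R.d (P.a z i)
  U_open := P.O_open
  D_pos := P.D_pos
  gi_smooth := P.gi_smooth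
  J_smooth := P.J_smooth
  B_smooth := by
    rw [contDiffOn_pi]
    intro i
    exact (fderiv ℝ R.ρ idM).contDiff.comp_contDiffOn (contDiffOn_pi.1 P.a_smooth i)
  J_pos := P.J_pos
  gi_symm := P.gi_symm
  B_skew := fun z hz i a b => R.d_skew (P.a_skew z hz i) a b
  gauss := P.gauss
  radial := fun z hz => by
    have h := congrArg (fderiv ℝ R.ρ idM) (P.radial z hz)
    rw [map_sum, map_zero] at h
    simp only [map_smul] at h
    exact h
  gi_zero := P.gi_zero
  J_zero := P.J_zero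
  gi_crit := P.gi_crit
  J_crit := P.J_crit

/-- rotation from the radially parallel frame to the frame `h` at `x` -/
def rot (y : E) (x : M) (h : Fin 4 → TangentSpace 𝓘(ℝ, E) x) : Mat4 := fun i j =>
  inner ℝ (h i) (P.pf y x j)

open Classical in
/-- Sections supported near a centre: `w v` is the value at `ex (y, v)` in the frame `pf`. -/
def locSec (R : Rep W) (y : E) (w : Eu4 → W) : PreS E M W := fun x h =>
  if PON om x h ∧ dist (ptc P.q₀ y) x < D then R.ρ (P.rot y x h) (w (P.lg y x)) else 0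

open Classical in
/-- Kernels supported near the diagonal, one-sided: `k (y, v)` is the value at target point
`ex (y, v)` with frame `pf` and source point `y` with frame `F`. -/
def lift (R : Rep W) (k : E × Eu4 → W →L[ℝ] W) : PreK E M W W := fun x h q =>
  if PON om x h ∧ q ∈ P.dom ∧ dist q x < D then
    (R.ρ (P.rot (P.co q) x h)).comp (k (P.co q, P.lg (P.co q) x))
  else 0

/-- the kernel of the parametrix -/
def zK (R : Rep W) (χ : Eu4 → ℝ) (N : ℕ) (t : ℝ) : PreK E M W W :=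
  P.lift R fun z => χ z.2 • (P.rad R).par N t z

/-- the kernel of the error -/
def eK (R : Rep W) (χ : Eu4 → ℝ) (N : ℕ) (t : ℝ) : PreK E M W W :=
  P.lift R fun z => (P.rad R).err χ N t z

/-- the kernel of `H` applied to the parametrix -/
def lzK (R : Rep W) (χ : Eu4 → ℝ) (N : ℕ) (t : ℝ) : PreK E M W W :=
  P.lift R fun z => (P.rad R).lapE z.1 (fun v => χ v • (P.rad R).par N t (z.1, v)) z.2

end Patch

end

end Vale.Agent.P211.HK
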