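import Vale.Agent.P211.HK.Patch
import Vale.Agent.P211.HK.LapMem

/-! P211 / HK: sections from functions of the normal coordinates of a patch (helper972). -/

set_option maxSynthPendingDepth 3
set_option linter.unusedSectionVars false

namespace Vale.Agent.P211.HK

open scoped Manifold ContDiff Topology RealInnerProductSpace
open Bundle Filter VectorField MeasureTheory Set

noncomputable section

namespace PatchSec

section lapW

variable {P W : Type} [NormedAddCommGroup P] [NormedSpace ℝ P] [NormedAddCommGroup W]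
    [InnerProductSpace ℝ W] {U : Set P} {D : ℝ} (Q : RadData P W U D)

theorem dW_congr (y : P) {f g : Eu4 → W} {v : Eu4} (h : f =ᶠ[𝓝 v] g) (i : Fin 4) :
    Q.dW y f i v = Q.dW y g i v := by
  unfold RadData.dW
  rw [h.fderiv_eq, h.self_of_nhds]

theorem dW_congr_nhds (y : P) {f g : Eu4 → W} {v : Eu4} (h : f =ᶠ[𝓝 v] g) (i : Fin 4) :
    Q.dW y f i =ᶠ[𝓝 v] Q.dW y g i := by
  filter_upwards [h.eventuallyEq_nhds] with w hw
  exact dW_congr Q y hw i

/-- the operator `lapW` is local -/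
theorem lapW_congr (y : P) {f g : Eu4 → W} {v : Eu4} (h : f =ᶠ[𝓝 v] g) :
    Q.lapW y f v = Q.lapW y g v := by
  unfold RadData.lapW
  congr 1
  refine Finset.sum_congr rfl fun i _ => ?_
  refine dW_congr Q y ?_ i
  have h1 : ∀ᶠ w in 𝓝 v, ∀ j, Q.dW y f j w = Q.dW y g j w :=
    eventually_all.2 fun j => dW_congr_nhds Q y h j
  filter_upwards [h1] with w hw
  refine Finset.sum_congr rfl fun j _ => ?_
  rw [hw j]

end lapW

end PatchSec

namespace Patch

open PatchSec

variable {E : Type} [NormedAddCommGroup E] [NormedSpace ℝ E] [FiniteDimensional ℝ E]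
  {M : Type} [MetricSpace M] [ChartedSpace E M] [IsManifold 𝓘(ℝ, E) ∞ M]
  [RiemannianBundle fun p : M => TangentSpace 𝓘(ℝ, E) p]
  [IsContMDiffRiemannianBundle 𝓘(ℝ, E) ∞ E fun p : M => TangentSpace 𝓘(ℝ, E) p]
  [MeasurableSpace M]
  {cov : CovariantDerivative 𝓘(ℝ, E) E (TangentSpace 𝓘(ℝ, E) : M → Type)}
  {om : Form4 E M} {μ : Measure M} {D : ℝ} (P : Patch cov om μ D)
  {W : Type} [NormedAddCommGroup W] [InnerProductSpace ℝ W]

theorem rot_fact1 (y : E) (p : M) (f : Fin 4 → TangentSpace 𝓘(ℝ, E) p) (g : Mat4) :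
    P.rot y p (fact f g) = mulM (trM g) (P.rot y p f) := by
  funext i j
  simp only [Patch.rot, fact, mulM, trM, sum_inner, real_inner_smul_left]

theorem rot_so1 (hG : Geo4 cov om) {y : E} (hy : y ∈ P.O) {p : M}
    (hp : dist (ptc P.q₀ y) p < D) {f : Fin 4 → TangentSpace 𝓘(ℝ, E) p}
    (hf : PON om p f) : IsSO (P.rot y p f) :=
  (pon_matrix hG hf (P.pf_pon y hy p hp)).1

theorem rot_pf {y : E} (hy : y ∈ P.O) {p : M} (hp : dist (ptc P.q₀ y) p < D) :
    P.rot y p (P.pf y p) = idM := by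
  funext i j
  exact orthonormal_iff_ite.1 (P.pf_pon y hy p hp).1 i j

/-- the rotation to the frame `F` is the transposed matrix of `F` in the frame `pf` -/
theorem rot_eq_trM (y : E) (p : M) (F : Fin 4 → TangentSpace 𝓘(ℝ, E) p) :
    P.rot y p F = trM fun i j => (inner ℝ (P.pf y p i) (F j) : ℝ) := by
  funext i j
  exact real_inner_comm _ _

theorem locSec_zero {R : Rep W} {f : Eu4 → W} {y : E} {p : M}
    (h : dist (ptc P.q₀ y) p < D → f (P.lg y p) = 0) (F : Fin 4 → TangentSpace 𝓘(ℝ, E) p) :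
    P.locSec R y f p F = 0 := by
  unfold Patch.locSec
  split_ifs with h'
  · rw [h h'.2, map_zero]
  · rfl

theorem locSec_far {R : Rep W} {f : Eu4 → W} {y : E} {p : M} (h : ¬ dist (ptc P.q₀ y) p < D)
    (F : Fin 4 → TangentSpace 𝓘(ℝ, E) p) : P.locSec R y f p F = 0 :=
  P.locSec_zero (fun h' => absurd h' h) F

theorem locSec_of_pon {R : Rep W} {f : Eu4 → W} {y : E} {p : M}
    (h : dist (ptc P.q₀ y) p < D) {F : Fin 4 → TangentSpace 𝓘(ℝ, E) p} (hF : PON om p F) :
    P.locSec R y f p F = R.ρ (P.rot y p F) (f (P.lg y p)) := by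
  unfold Patch.locSec
  rw [if_pos ⟨hF, h⟩]

theorem locSec_not_pon {R : Rep W} {f : Eu4 → W} {y : E} {p : M}
    {F : Fin 4 → TangentSpace 𝓘(ℝ, E) p} (hF : ¬ PON om p F) : P.locSec R y f p F = 0 := by
  unfold Patch.locSec
  rw [if_neg fun h => hF h.1]

theorem locSec_near_zero {R : Rep W} {f : Eu4 → W} {y : E} (hy : y ∈ P.O) {r : ℝ}
    (hf0 : ∀ v, r ≤ ‖v‖ → f v = 0) {p : M} (hp : r < dist (ptc P.q₀ y) p) :
    ∀ᶠ q in 𝓝 p, ∀ F, P.locSec R y f q F = 0 := by
  have h1 : ∀ᶠ q in 𝓝 p, r < dist (ptc P.q₀ y) q :=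
    (continuous_const.dist continuous_id).continuousAt.eventually (lt_mem_nhds hp)
  filter_upwards [h1] with q hq F
  refine P.locSec_zero (fun hd => hf0 _ ?_) F
  rw [P.lg_norm y hy q hd]
  exact hq.le

/-- `locSec` of a smooth compactly supported function is a smooth section -/
theorem locSec_mem (hG : Geo4 cov om) (R : Rep W) {y : E} (hy : y ∈ P.O) {f : Eu4 → W} {r : ℝ}
    (hf : ContDiffOn ℝ ∞ f (Metric.ball 0 D)) (hr : r < D) (hf0 : ∀ v, r ≤ ‖v‖ → f v = 0) :
    P.locSec R y f ∈ Sec om R := by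
  refine ⟨fun p F hF => P.locSec_not_pon hF, fun p F g hF hg => ?_, fun F p hF => ?_⟩
  · by_cases hd : dist (ptc P.q₀ y) p < D
    · rw [P.locSec_of_pon hd (pon_fact hG hF hg), P.locSec_of_pon hd hF, P.rot_fact1,
        R.mul _ _ (IsSO.tr hg) (P.rot_so1 hG hy hd hF)]
      rfl
    · rw [P.locSec_far hd, P.locSec_far hd, map_zero]
  · by_cases hd : dist (ptc P.q₀ y) p < D
    · have c1 := P.lg_norm y hy p hd
      have c3 := P.lg_smooth y hy p hd
      have d3 := P.pf_smooth F y hy p hd hF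
      have hι : ContMDiffAt 𝓘(ℝ, E) (𝓘(ℝ, E).prod 𝓘(ℝ, E)) ∞ (fun q : M => (y, q)) p :=
        contMDiffAt_const.prodMk contMDiffAt_id
      have a1 : ContMDiffAt 𝓘(ℝ, E) 𝓘(ℝ, Mat4) ∞ (fun q => P.rot y q fun i => F i q) p :=
        (ContMDiffAt.comp (x := p) (g := fun z : E × M => P.rot z.1 z.2 fun i => F i z.2)
          (f := fun q : M => (y, q)) d3 hι :)
      have a2 : ContMDiffAt 𝓘(ℝ, E) 𝓘(ℝ, Eu4) ∞ (fun q => P.lg y q) p :=
        (ContMDiffAt.comp (x := p) (g := fun z : E × M => P.lg z.1 z.2)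
          (f := fun q : M => (y, q)) c3 hι :)
      have a3 : ContMDiffAt 𝓘(ℝ, E) 𝓘(ℝ, W →L[ℝ] W) ∞
          (fun q => R.ρ (P.rot y q fun i => F i q)) p :=
        (R.smooth.contMDiff.contMDiffAt.comp p a1 :)
      have a4 : ContDiffAt ℝ ∞ f (P.lg y p) := by
        refine hf.contDiffAt (Metric.isOpen_ball.mem_nhds ?_)
        rw [mem_ball_zero_iff, c1]
        exact hd
      have a5 : ContMDiffAt 𝓘(ℝ, E) 𝓘(ℝ, W) ∞ (fun q => f (P.lg y q)) p :=
        (a4.contMDiffAt.comp p a2 :)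
      refine (a3.clm_apply a5).congr_of_eventuallyEq ?_
      have h1 : ∀ᶠ q in 𝓝 p, dist (ptc P.q₀ y) q < D :=
        (continuous_const.dist continuous_id).continuousAt.eventually (gt_mem_nhds hd)
      filter_upwards [h1, hF] with q hq1 hq2
      exact P.locSec_of_pon hq1 hq2
    · have h1 := P.locSec_near_zero (R := R) hy hf0 (lt_of_lt_of_le hr (not_lt.1 hd))
      refine (contMDiffAt_const (c := (0 : W))).congr_of_eventuallyEq ?_
      filter_upwards [h1] with q hq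
      exact hq _

/-- `locSec` in normal coordinates and the radially parallel frame -/
theorem locSec_ex (R : Rep W) {y : E} (hy : y ∈ P.O) (f : Eu4 → W) {v : Eu4}
    (hv : ‖v‖ < D) : P.locSec R y f (P.ex (y, v)) (P.pf y (P.ex (y, v))) = f v := by
  have e2 : dist (ptc P.q₀ y) (P.ex (y, v)) < D := by
    rw [P.dist_ex y hy v hv]
    exact hv
  rw [P.locSec_of_pon e2 (P.pf_pon y hy _ e2), P.rot_pf hy e2, R.one, P.lg_ex y hy v hv]
  rfl

variable [FiniteDimensional ℝ W]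

/-- `∇*∇` of a section in normal coordinates -/
theorem lap' (R : Rep W) {u : PreS E M W} (hu : u ∈ Sec om R) {y : E} (hy : y ∈ P.O) {v : Eu4}
    (hv : ‖v‖ < D) : lapS cov om u (P.ex (y, v)) (P.pf y (P.ex (y, v))) =
      (P.rad R).lapW y (fun v' => u (P.ex (y, v')) (P.pf y (P.ex (y, v')))) v :=
  P.lap W R u hu y hy v hv

/-- `∇*∇` of `locSec` -/
theorem lapS_locSec (hG : Geo4 cov om) (R : Rep W) {y : E} (hy : y ∈ P.O) {f : Eu4 → W} {r : ℝ}
    (hf : ContDiffOn ℝ ∞ f (Metric.ball 0 D)) (hr : r < D) (hf0 : ∀ v, r ≤ ‖v‖ → f v = 0) :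
    lapS cov om (P.locSec R y f) = P.locSec R y ((P.rad R).lapW y f) := by
  have hm := P.locSec_mem hG R hy hf hr hf0
  have hlm : lapS cov om (P.locSec R y f) ∈ Sec om R :=
    lapS_mem_of hG R.tens_tn R.tn.tens_tn hm
  funext p F
  by_cases hF : PON om p F
  swap
  · rw [lapS_of_not_pon hF, P.locSec_not_pon hF]
  by_cases hd : dist (ptc P.q₀ y) p < D
  swap
  · rw [lapS_of_zero (P.locSec_near_zero hy hf0 (lt_of_lt_of_le hr (not_lt.1 hd))),
      P.locSec_far hd]
  obtain ⟨v, hv, rfl⟩ : ∃ v, ‖v‖ < D ∧ P.ex (y, v) = p :=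
    ⟨P.lg y p, by rw [P.lg_norm y hy p hd]; exact hd, P.ex_lg y hy p hd⟩
  have e1 := P.pf_pon y hy _ hd
  have e3 := P.lg_ex y hy v hv
  obtain ⟨g1, g2⟩ := pon_matrix hG e1 hF
  have e6 := P.rot_eq_trM y (P.ex (y, v)) F
  have e7 : lapS cov om (P.locSec R y f) (P.ex (y, v)) (P.pf y (P.ex (y, v))) =
      (P.rad R).lapW y f v := by
    rw [P.lap' R hm hy hv]
    refine lapW_congr (P.rad R) y ?_
    have : Metric.ball (0 : Eu4) D ∈ 𝓝 v :=
      Metric.isOpen_ball.mem_nhds (by rw [mem_ball_zero_iff]; exact hv)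
    filter_upwards [this] with w hw
    exact P.locSec_ex R hy f (by rw [mem_ball_zero_iff] at hw; exact hw)
  have e8 := hlm.2.1 _ _ _ e1 g1
  rw [← g2] at e8
  rw [e8, P.locSec_of_pon hd hF, e6, e3, ← e7]

end Patch

end

end Vale.Agent.P211.HK
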