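import Mathlib

/-! P211 / HK / R4: the Euclidean part of blueprint 7.2 (no manifold): operator in the radial gauge at one
centre, transport recursion, parametrix identity.  helper638 -/

namespace Vale.Agent.P211.HK

open Set Filter Topology MeasureTheory
open scoped ContDiff

noncomputable section

/-- normal coordinates -/
abbrev R4 := EuclideanSpace ℝ (Fin 4)

/-- coordinate vector -/
abbrev e4 (i : Fin 4) : R4 := EuclideanSpace.single i 1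

variable {B : Type*} [NormedAddCommGroup B] [NormedSpace ℝ B]

/-- partial derivative -/
def dd (i : Fin 4) (U : R4 → B) (v : R4) : B := fderiv ℝ U v (e4 i)

/-- Data of a connection Laplacian in coordinates: density `J`, inverse metric `gi`,
connection coefficients `A` (acting on the fibre `B`). -/
structure Rad (B : Type*) [NormedAddCommGroup B] [NormedSpace ℝ B] where
  J : R4 → ℝ
  gi : Fin 4 → Fin 4 → R4 → ℝ
  A : Fin 4 → R4 → (B →L[ℝ] B)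

/-- covariant derivative `∂_j + A_j` -/
def Rad.cd (R : Rad B) (j : Fin 4) (U : R4 → B) (v : R4) : B := dd j U v + R.A j v (U v)

/-- flux `J g^{ij} (∂_j + A_j) U` -/
def Rad.fl (R : Rad B) (U : R4 → B) (i : Fin 4) (v : R4) : B :=
  R.J v • ∑ j, R.gi i j v • R.cd j U v

/-- `H U = - J⁻¹ (∂_i + A_i) (J g^{ij} (∂_j + A_j) U)` -/
def Rad.H (R : Rad B) (U : R4 → B) (v : R4) : B :=
  -(R.J v)⁻¹ • ∑ i, R.cd i (R.fl U i) v

/-- `M = J^{1/2} H J^{-1/2}` -/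
def Rad.M (R : Rad B) (U : R4 → B) (v : R4) : B :=
  √(R.J v) • R.H (fun v => (√(R.J v))⁻¹ • U v) v

/-- transport coefficients -/
def Rad.c (R : Rad B) (β : B) : ℕ → R4 → B
  | 0 => fun _ => β
  | k + 1 => fun v => -∫ s in (0 : ℝ)..1, s ^ k • R.M (Rad.c R β k) (s • v)

/-- `u_k = J^{-1/2} c_k` -/
def Rad.u (R : Rad B) (β : B) (k : ℕ) (v : R4) : B := (√(R.J v))⁻¹ • R.c β k v

/-- Gaussian -/
def G4 (t : ℝ) (v : R4) : ℝ := ((4 * Real.pi * t) ^ 2)⁻¹ * Real.exp (-‖v‖ ^ 2 / (4 * t))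

/-- The hypotheses on the data: smooth on the ball, `J > 0`, Gauss lemma, radial gauge. -/
structure Rad.OK (R : Rad B) (r : ℝ) : Prop where
  r_pos : 0 < r
  J_smooth : ContDiffOn ℝ ∞ R.J (Metric.ball 0 r)
  gi_smooth : ∀ i j, ContDiffOn ℝ ∞ (R.gi i j) (Metric.ball 0 r)
  A_smooth : ∀ i, ContDiffOn ℝ ∞ (R.A i) (Metric.ball 0 r)
  J_pos : ∀ v ∈ Metric.ball (0 : R4) r, 0 < R.J v
  J_zero : R.J 0 = 1
  gi_zero : ∀ i j, R.gi i j 0 = if i = j then 1 else 0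
  gi_symm : ∀ i j v, v ∈ Metric.ball (0 : R4) r → R.gi i j v = R.gi j i v
  gauss : ∀ i v, v ∈ Metric.ball (0 : R4) r → ∑ j, R.gi i j v * v j = v i
  radial : ∀ v ∈ Metric.ball (0 : R4) r, ∑ j, v j • R.A j v = 0

/-- exact parametrix identity -/
def R4IdStmt : Prop :=
  ∀ (B : Type) [NormedAddCommGroup B] [NormedSpace ℝ B] [CompleteSpace B] (R : Rad B) (r : ℝ),
    R.OK r → ∀ (β : B) (N : ℕ) (t : ℝ), 0 < t → ∀ v ∈ Metric.ball (0 : R4) r,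
      deriv (fun t => G4 t v • ∑ k ∈ Finset.range (N + 1), t ^ k • R.u β k v) t
        + R.H (fun v => G4 t v • ∑ k ∈ Finset.range (N + 1), t ^ k • R.u β k v) v
        = (G4 t v * t ^ N) • R.H (R.u β N) v

/-- joint smoothness in the centre and the coordinate -/
def R4SmoothStmt : Prop :=
  ∀ (Y B : Type) [NormedAddCommGroup Y] [NormedSpace ℝ Y] [NormedAddCommGroup B] [NormedSpace ℝ B]
    [CompleteSpace B] (O : Set Y) (r : ℝ) (R : Y → Rad B), IsOpen O →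
    (∀ y ∈ O, (R y).OK r) →
    ContDiffOn ℝ ∞ (fun z : Y × R4 => (R z.1).J z.2) (O ×ˢ Metric.ball 0 r) →
    (∀ i j, ContDiffOn ℝ ∞ (fun z : Y × R4 => (R z.1).gi i j z.2) (O ×ˢ Metric.ball 0 r)) →
    (∀ i, ContDiffOn ℝ ∞ (fun z : Y × R4 => (R z.1).A i z.2) (O ×ˢ Metric.ball 0 r)) →
    ∀ (β : B) (k : ℕ),
      ContDiffOn ℝ ∞ (fun z : Y × R4 => (R z.1).c β k z.2) (O ×ˢ Metric.ball 0 r) ∧
      ContDiffOn ℝ ∞ (fun z : Y × R4 => (R z.1).u β k z.2) (O ×ˢ Metric.ball 0 r) ∧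
      ContDiffOn ℝ ∞ (fun z : Y × R4 => (R z.1).H ((R z.1).u β k) z.2) (O ×ˢ Metric.ball 0 r)

/-- the scalar operator with the same metric -/
def Rad.sc (R : Rad B) : Rad ℝ := ⟨R.J, R.gi, fun _ _ => 0⟩

/-- Taylor data of the traces (`W` Euclidean, `w` an orthonormal basis, `A` skew,
`∂_i A_j (0) = (1/2) Om i j`). -/
def R4TraceStmt : Prop :=
  ∀ (W : Type) [NormedAddCommGroup W] [InnerProductSpace ℝ W] [FiniteDimensional ℝ W]
    (ι : Type) [Fintype ι] (w : OrthonormalBasis ι ℝ W) (R : Rad W) (r : ℝ), R.OK r →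
    (∀ i, ∀ v ∈ Metric.ball (0 : R4) r, ∀ a : W, inner ℝ (R.A i v a) a = (0 : ℝ)) →
    ∀ Om : Fin 4 → Fin 4 → (W →L[ℝ] W), (∀ i j, dd i (R.A j) 0 = (1 / 2 : ℝ) • Om i j) →
    (∀ a, R.c a 1 0 = R.sc.c 1 1 0 • a) ∧
    ∑ a, inner ℝ (w a) (R.c (w a) 2 0) - Fintype.card ι * R.sc.c 1 2 0 =
      (1 / 12 : ℝ) * ∑ i, ∑ j, ∑ a, inner ℝ (w a) (Om i j (Om i j (w a)))

/-- Taylor expansion of `tr c_1 - rk s_1`, locally uniform in the centre -/
def R4TaylorStmt : Prop :=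
  ∀ (Y W : Type) [NormedAddCommGroup Y] [NormedSpace ℝ Y] [NormedAddCommGroup W]
    [InnerProductSpace ℝ W] [FiniteDimensional ℝ W]
    (ι : Type) [Fintype ι] (w : OrthonormalBasis ι ℝ W) (O : Set Y) (r : ℝ) (R : Y → Rad W),
    IsOpen O → (∀ y ∈ O, (R y).OK r) →
    ContDiffOn ℝ ∞ (fun z : Y × R4 => (R z.1).J z.2) (O ×ˢ Metric.ball 0 r) →
    (∀ i j, ContDiffOn ℝ ∞ (fun z : Y × R4 => (R z.1).gi i j z.2) (O ×ˢ Metric.ball 0 r)) →
    (∀ i, ContDiffOn ℝ ∞ (fun z : Y × R4 => (R z.1).A i z.2) (O ×ˢ Metric.ball 0 r)) →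
    (∀ y ∈ O, ∀ i, ∀ v ∈ Metric.ball (0 : R4) r, ∀ a : W, inner ℝ ((R y).A i v a) a = (0 : ℝ)) →
    ∀ Om : Y → Fin 4 → Fin 4 → (W →L[ℝ] W),
    (∀ y ∈ O, ∀ i j, dd i ((R y).A j) 0 = (1 / 2 : ℝ) • Om y i j) →
    ∀ K : Set Y, IsCompact K → K ⊆ O → ∃ C : ℝ, ∀ y ∈ K, ∀ v ∈ Metric.closedBall (0 : R4) (r / 2),
      |∑ a, inner ℝ (w a) ((R y).c (w a) 1 v) - Fintype.card ι * (R y).sc.c 1 1 v -
        (1 / 12 : ℝ) * ∑ i, ∑ k, ∑ j, v i * v k *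
          ∑ a, inner ℝ (w a) (Om y i j (Om y k j (w a)))| ≤ C * ‖v‖ ^ 3

end

end Vale.Agent.P211.HK
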