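import Vale.Agent.P211.HK.R4Defs
import Vale.Agent.P231.Fm.Param

/-! P211 / HK / R4: joint smoothness of the transport coefficients.  helper638 -/

namespace Vale.Agent.P211.HK

open Set Filter Topology MeasureTheory
open scoped ContDiff

noncomputable section

namespace R4S

set_option linter.unusedSectionVars false

/-- integrals over `[0, 1]` of smooth functions depend smoothly on parameters (local version) -/
theorem contDiffOn_int01 {P V : Type*} [NormedAddCommGroup P] [NormedSpace ℝ P]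
    [NormedAddCommGroup V] [NormedSpace ℝ V] [CompleteSpace V] {U : Set P} (hU : IsOpen U)
    {D : Set (P × ℝ)} (hD : IsOpen D) {g : P × ℝ → V} (hg : ContDiffOn ℝ ∞ g D)
    (hUD : ∀ x ∈ U, ∀ t ∈ Icc (0 : ℝ) 1, (x, t) ∈ D) :
    ContDiffOn ℝ ∞ (fun x => ∫ t in (0 : ℝ)..1, g (x, t)) U := by
  intro x₀ hx₀
  obtain ⟨u, v, hu, hv, hxu, hIv, huv⟩ := generalized_tube_lemma (isCompact_singleton (x := x₀))
    (isCompact_Icc (a := (0 : ℝ)) (b := 1)) hD (by
      rintro ⟨x, t⟩ ⟨hx, ht⟩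
      rw [mem_singleton_iff] at hx
      subst hx
      exact hUD _ hx₀ t ht)
  obtain ⟨ε, hε, hεv⟩ := (isCompact_Icc (a := (0 : ℝ)) (b := 1)).exists_thickening_subset_open hv hIv
  let b : ContDiffBump (1 / 2 : ℝ) := ⟨1 / 2, 1 / 2 + ε / 2, by norm_num, by linarith⟩
  have hb1 : ∀ t ∈ Icc (0 : ℝ) 1, b t = 1 := fun t ht => by
    refine b.one_of_mem_closedBall ?_
    rw [Metric.mem_closedBall, Real.dist_eq, abs_le]
    change -(1 / 2) ≤ _ ∧ _ ≤ 1 / 2
    constructor <;> linarith [ht.1, ht.2]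
  have hb2 : ∀ t ∉ Metric.closedBall (1 / 2 : ℝ) (1 / 2 + ε / 2), b t = 0 := fun t ht => by
    refine b.zero_of_le_dist ?_
    rw [Metric.mem_closedBall, not_le] at ht
    exact ht.le
  have hv2 : Metric.closedBall (1 / 2 : ℝ) (1 / 2 + ε / 2) ⊆ v := by
    intro t ht
    refine hεv ?_
    rw [Metric.mem_closedBall, Real.dist_eq, abs_le] at ht
    rw [Metric.mem_thickening_iff]
    by_cases h0 : t < 0
    · refine ⟨0, ⟨le_refl _, zero_le_one⟩, ?_⟩
      rw [Real.dist_eq, sub_zero, abs_of_neg h0]; linarith [ht.1]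
    · by_cases h1 : 1 < t
      · refine ⟨1, ⟨zero_le_one, le_refl _⟩, ?_⟩
        rw [Real.dist_eq, abs_of_pos (by linarith)]; linarith [ht.2]
      · exact ⟨t, ⟨not_lt.1 h0, not_lt.1 h1⟩, by simpa using hε⟩
  have hU' : IsOpen (u ∩ U) := hu.inter hU
  have hsm : ContDiffOn ℝ ∞ (fun q : P × ℝ => b q.2 • g q) ((u ∩ U) ×ˢ univ) := by
    rintro ⟨x, t⟩ ⟨hx, -⟩
    refine ContDiffAt.contDiffWithinAt ?_
    by_cases ht : t ∈ v
    · have h1 : ContDiffAt ℝ ∞ g (x, t) := hg.contDiffAt (hD.mem_nhds (huv ⟨hx.1, ht⟩))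
      exact ((b.contDiff.comp contDiff_snd).contDiffAt).smul h1
    · have h1 : t ∉ Metric.closedBall (1 / 2 : ℝ) (1 / 2 + ε / 2) := fun h => ht (hv2 h)
      have h2 : (fun q : P × ℝ => b q.2 • g q) =ᶠ[𝓝 (x, t)] fun _ => 0 := by
        have h3 : ∀ᶠ q : P × ℝ in 𝓝 (x, t),
            q.2 ∈ (Metric.closedBall (1 / 2 : ℝ) (1 / 2 + ε / 2))ᶜ :=
          continuous_snd.continuousAt.eventually
            (Metric.isClosed_closedBall.isOpen_compl.mem_nhds h1)
        filter_upwards [h3] with q hq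
        rw [hb2 q.2 hq, zero_smul]
      exact contDiffAt_const.congr_of_eventuallyEq h2
  have hloc : LocallyIntegrable ((Ioc (0 : ℝ) 1).indicator fun _ => (1 : ℝ)) volume :=
    (locallyIntegrable_const (1 : ℝ)).indicator measurableSet_Ioc
  have h1 := P231.Fm.contDiffOn_param (n := ⊤) volume hU'
    (isCompact_closedBall (1 / 2 : ℝ) (1 / 2 + ε / 2)) hloc
    hsm (fun x _ y hy => by simp only [hb2 y hy, zero_smul])
  have h2 : ContDiffOn ℝ ∞ (fun x => ∫ t in (0 : ℝ)..1, g (x, t)) (u ∩ U) := by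
    refine ContDiffOn.congr h1 fun x _ => ?_
    rw [intervalIntegral.integral_of_le zero_le_one, ← integral_indicator measurableSet_Ioc]
    refine integral_congr_ae (Filter.Eventually.of_forall fun t => ?_)
    by_cases ht : t ∈ Ioc (0 : ℝ) 1
    · simp only [indicator_of_mem ht, hb1 t ⟨ht.1.le, ht.2⟩, one_smul]
    · simp only [indicator_of_notMem ht, zero_smul]
  exact (h2.contDiffAt (hU'.mem_nhds ⟨hxu rfl, hx₀⟩)).contDiffWithinAt

section Fam

variable {Y B C : Type*} [NormedAddCommGroup Y] [NormedSpace ℝ Y] [NormedAddCommGroup B]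
  [NormedSpace ℝ B] [NormedAddCommGroup C] [NormedSpace ℝ C]

/-- smooth families of functions on the ball -/
def Sm (O : Set Y) (r : ℝ) (U : Y → R4 → B) : Prop :=
  ContDiffOn ℝ ∞ (fun z : Y × R4 => U z.1 z.2) (O ×ˢ Metric.ball 0 r)

variable {O : Set Y} {r : ℝ}

theorem isOpen_S (hO : IsOpen O) : IsOpen (O ×ˢ Metric.ball (0 : R4) r) :=
  hO.prod Metric.isOpen_ball

theorem Sm.const (β : B) : Sm O r (fun _ _ => β) := contDiffOn_const

theorem Sm.add {U V : Y → R4 → B} (hU : Sm O r U) (hV : Sm O r V) :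
    Sm O r (fun y v => U y v + V y v) := ContDiffOn.add hU hV

theorem Sm.neg {U : Y → R4 → B} (hU : Sm O r U) :
    Sm O r (fun y v => -U y v) := ContDiffOn.neg hU

theorem Sm.smul {f : Y → R4 → ℝ} {U : Y → R4 → B} (hf : Sm O r f) (hU : Sm O r U) :
    Sm O r (fun y v => f y v • U y v) := ContDiffOn.smul hf hU

theorem Sm.clm {A : Y → R4 → (B →L[ℝ] C)} {U : Y → R4 → B} (hA : Sm O r A) (hU : Sm O r U) :
    Sm O r (fun y v => A y v (U y v)) := ContDiffOn.clm_apply hA hU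

theorem Sm.sum {ι : Type*} (s : Finset ι) {U : ι → Y → R4 → B} (hU : ∀ i ∈ s, Sm O r (U i)) :
    Sm O r (fun y v => ∑ i ∈ s, U i y v) :=
  ContDiffOn.sum (f := fun i (z : Y × R4) => U i z.1 z.2) hU

theorem Sm.slice {U : Y → R4 → B} (hU : Sm O r U) {y : Y} (hy : y ∈ O) :
    ContDiffOn ℝ ∞ (U y) (Metric.ball 0 r) := by
  have h : ContDiffOn ℝ ∞ (fun v : R4 => (y, v)) (Metric.ball 0 r) :=
    (contDiff_const.prodMk contDiff_id).contDiffOn
  exact ContDiffOn.comp (g := fun z : Y × R4 => U z.1 z.2) hU h fun v hv => ⟨hy, hv⟩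

theorem Sm.dd (hO : IsOpen O) {U : Y → R4 → B} (hU : Sm O r U) (i : Fin 4) :
    Sm O r (fun y => HK.dd i (U y)) := by
  have h1 : ContDiffOn ℝ ∞ (fun z : Y × R4 =>
      fderiv ℝ (fun z : Y × R4 => U z.1 z.2) z (0, e4 i)) (O ×ˢ Metric.ball 0 r) :=
    ((hU.fderiv_of_isOpen (isOpen_S hO) (m := ∞) (by norm_num)).clm_apply contDiffOn_const)
  refine h1.congr fun z hz => ?_
  have h2 : DifferentiableAt ℝ (fun z : Y × R4 => U z.1 z.2) z :=
    (hU.differentiableOn (by norm_num)).differentiableAt ((isOpen_S hO).mem_nhds hz)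
  have h3 : HasFDerivAt (fun v : R4 => (z.1, v)) (ContinuousLinearMap.inr ℝ Y R4) z.2 :=
    hasFDerivAt_prodMk_right z.1 z.2
  have h4 := HasFDerivAt.comp (g := fun z : Y × R4 => U z.1 z.2) z.2
    (by simpa using h2.hasFDerivAt) h3
  change fderiv ℝ (U z.1) z.2 (e4 i) = _
  have h5 : fderiv ℝ (U z.1) z.2 =
      (fderiv ℝ (fun z : Y × R4 => U z.1 z.2) z).comp (ContinuousLinearMap.inr ℝ Y R4) := h4.fderiv
  rw [h5]
  simp

variable {R : Y → Rad B}

/-- smooth families of data -/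
structure FamOK (O : Set Y) (r : ℝ) (R : Y → Rad B) : Prop where
  isOpen : IsOpen O
  ok : ∀ y ∈ O, (R y).OK r
  J : Sm O r (fun y => (R y).J)
  gi : ∀ i j, Sm O r (fun y => (R y).gi i j)
  A : ∀ i, Sm O r (fun y => (R y).A i)

theorem FamOK.cd (h : FamOK O r R) {U : Y → R4 → B} (hU : Sm O r U) (j : Fin 4) :
    Sm O r (fun y => (R y).cd j (U y)) :=
  (hU.dd h.isOpen j).add ((h.A j).clm hU)

theorem FamOK.fl (h : FamOK O r R) {U : Y → R4 → B} (hU : Sm O r U) (i : Fin 4) :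
    Sm O r (fun y => (R y).fl (U y) i) :=
  h.J.smul (Sm.sum _ fun j _ => (h.gi i j).smul (h.cd hU j))

theorem FamOK.Jinv (h : FamOK O r R) : Sm O r (fun y v => ((R y).J v)⁻¹) :=
  ContDiffOn.inv h.J fun z hz => ((h.ok z.1 hz.1).J_pos z.2 hz.2).ne'

theorem FamOK.sqrtJ (h : FamOK O r R) : Sm O r (fun y v => √((R y).J v)) :=
  ContDiffOn.sqrt h.J fun z hz => ((h.ok z.1 hz.1).J_pos z.2 hz.2).ne'

theorem FamOK.sqrtJinv (h : FamOK O r R) : Sm O r (fun y v => (√((R y).J v))⁻¹) :=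
  ContDiffOn.inv h.sqrtJ fun z hz =>
    (Real.sqrt_pos.2 ((h.ok z.1 hz.1).J_pos z.2 hz.2)).ne'

theorem FamOK.H (h : FamOK O r R) {U : Y → R4 → B} (hU : Sm O r U) :
    Sm O r (fun y => (R y).H (U y)) :=
  h.Jinv.neg.smul (Sm.sum _ fun i _ => h.cd (h.fl hU i) i)

theorem FamOK.M (h : FamOK O r R) {U : Y → R4 → B} (hU : Sm O r U) :
    Sm O r (fun y => (R y).M (U y)) :=
  h.sqrtJ.smul (h.H (h.sqrtJinv.smul hU))

theorem smul_mem_ball {r : ℝ} {v : R4} (hv : v ∈ Metric.ball (0 : R4) r) {s : ℝ}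
    (hs : s ∈ Icc (0 : ℝ) 1) : s • v ∈ Metric.ball (0 : R4) r := by
  rw [mem_ball_zero_iff] at hv ⊢
  rw [norm_smul, Real.norm_eq_abs, abs_of_nonneg hs.1]
  nlinarith [norm_nonneg v, hs.1, hs.2]

variable [CompleteSpace B]

theorem c_zero {B : Type*} [NormedAddCommGroup B] [NormedSpace ℝ B] (R : Rad B) (β : B) :
    R.c β 0 = fun _ => β := rfl

theorem c_succ {B : Type*} [NormedAddCommGroup B] [NormedSpace ℝ B] (R : Rad B) (β : B) (k : ℕ) :
    R.c β (k + 1) = fun v => -∫ s in (0 : ℝ)..1, s ^ k • R.M (R.c β k) (s • v) := rfl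

theorem FamOK.c (h : FamOK O r R) (β : B) (k : ℕ) : Sm O r (fun y => (R y).c β k) := by
  induction k with
  | zero => exact Sm.const β
  | succ k ih =>
    have h1 := h.M ih
    let D : Set ((Y × R4) × ℝ) := {q | (q.1.1, q.2 • q.1.2) ∈ O ×ˢ Metric.ball (0 : R4) r}
    have hc : ContDiff ℝ ∞ (fun q : (Y × R4) × ℝ => (q.1.1, q.2 • q.1.2)) :=
      (contDiff_fst.comp contDiff_fst).prodMk (contDiff_snd.smul (contDiff_snd.comp contDiff_fst))
    have hD : IsOpen D := (isOpen_S h.isOpen).preimage hc.continuous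
    have h2 : ContDiffOn ℝ ∞ (fun q : (Y × R4) × ℝ =>
        q.2 ^ k • (R q.1.1).M ((R q.1.1).c β k) (q.2 • q.1.2)) D := by
      refine ContDiffOn.smul ((contDiff_snd.pow k).contDiffOn) ?_
      exact ContDiffOn.comp
        (g := fun z : Y × R4 => (R z.1).M ((R z.1).c β k) z.2) h1 hc.contDiffOn fun q hq => hq
    have h3 : ContDiffOn ℝ ∞ (fun z : Y × R4 => ∫ s in (0 : ℝ)..1,
        s ^ k • (R z.1).M ((R z.1).c β k) (s • z.2)) (O ×ˢ Metric.ball 0 r) :=
      contDiffOn_int01 (isOpen_S (r := r) h.isOpen) hD h2 fun z hz s hs =>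
        (⟨hz.1, smul_mem_ball hz.2 hs⟩ : (z.1, s • z.2) ∈ O ×ˢ Metric.ball (0 : R4) r)
    have h4 := h3.neg
    refine ContDiffOn.congr h4 fun z _ => ?_
    simp only [c_succ]

theorem FamOK.u (h : FamOK O r R) (β : B) (k : ℕ) : Sm O r (fun y => (R y).u β k) := by
  have h1 : Sm O r (fun y v => (√((R y).J v))⁻¹ • (R y).c β k v) := h.sqrtJinv.smul (h.c β k)
  exact h1

end Fam

end R4S

theorem r4Smooth : R4SmoothStmt := by
  intro Y B _ _ _ _ _ O r R hO hok hJ hg hA β k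
  have h : R4S.FamOK O r R := ⟨hO, hok, hJ, hg, hA⟩
  have h1 := h.c β k
  have h2 := h.u β k
  have h3 := h.H h2
  refine ⟨h1, h2, ?_⟩
  exact h3

end

end Vale.Agent.P211.HK
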