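import Vale.Agent.P211.HK.RGDefs
import Vale.Agent.P211.HK.SC0

/-! P211 / HK: block RG0, finitely many local data cover `M` (helper972). -/

set_option maxSynthPendingDepth 3
set_option linter.unusedSectionVars false

namespace Vale.Agent.P211.HK

open scoped Manifold ContDiff Topology RealInnerProductSpace
open Bundle Filter VectorField MeasureTheory Set
open Vale.Agent.P234 Vale.Agent.P231

noncomputable section

variable {E : Type} [NormedAddCommGroup E] [NormedSpace ℝ E] [FiniteDimensional ℝ E]
  {M : Type} [MetricSpace M] [ChartedSpace E M] [IsManifold 𝓘(ℝ, E) ∞ M]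
  [RiemannianBundle fun p : M => TangentSpace 𝓘(ℝ, E) p]
  [IsContMDiffRiemannianBundle 𝓘(ℝ, E) ∞ E fun p : M => TangentSpace 𝓘(ℝ, E) p]
  {cov : CovariantDerivative 𝓘(ℝ, E) E (TangentSpace 𝓘(ℝ, E) : M → Type)} {om : Form4 E M}

/-- local data of every point, before the choice of the radius -/
theorem exists_pre (h : Geo4 cov om) (p : M) : ∃ (F : Fin 4 → VF E M) (r : ℝ), 0 < r ∧
    Metric.ball p (2 * r) ⊆ (chartAt E p).source ∧
    ∀ q ∈ Metric.ball p (2 * r), PON om q fun i => F i q := by
  obtain ⟨f, hf⟩ := exists_pon h p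
  obtain ⟨F, hF⟩ := sc0_sync h p f hf
  have h1 : {q | PON om q fun i => F i q} ∩ (chartAt E p).source ∈ 𝓝 p :=
    inter_mem hF.1 ((chartAt E p).open_source.mem_nhds (mem_chart_source E p))
  obtain ⟨s, hs, hs2⟩ := Metric.mem_nhds_iff.1 h1
  refine ⟨F, s / 2, by positivity, ?_, ?_⟩
  · rw [mul_div_cancel₀ s (two_ne_zero)]
    exact fun q hq => (hs2 hq).2
  · rw [mul_div_cancel₀ s (two_ne_zero)]
    exact fun q hq => (hs2 hq).1

theorem exists_small (t : Finset M) (r : M → ℝ) (hr : ∀ x, 0 < r x) {D0 : ℝ} (h0 : 0 < D0) :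
    ∃ D, 0 < D ∧ D < D0 ∧ ∀ x ∈ t, D ≤ r x := by
  classical
  induction t using Finset.induction_on with
  | empty => exact ⟨D0 / 2, by positivity, by linarith, by simp⟩
  | insert a s _ ih =>
    obtain ⟨D, h1, h2, h3⟩ := ih
    refine ⟨min D (r a), lt_min h1 (hr a), (min_le_left _ _).trans_lt h2, fun x hx => ?_⟩
    rcases Finset.mem_insert.1 hx with rfl | hx
    · exact min_le_right _ _
    · exact (min_le_left _ _).trans (h3 x hx)

/-- RG0 -/
theorem rg0 [CompactSpace M] : RG0Stmt cov om := by
  intro h D0 h0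
  choose F r hr hch hpon using exists_pre (cov := cov) (om := om) h
  obtain ⟨t, ht⟩ := CompactSpace.elim_nhds_subcover (fun p : M => Metric.ball p (r p))
    fun p => Metric.ball_mem_nhds p (hr p)
  obtain ⟨D, hD, hD0, hD1⟩ := exists_small t r hr h0
  refine ⟨D, t.card, fun i => ?_, hD, hD0, ?_⟩
  · let p : M := (t.equivFin.symm i).1
    have hp : p ∈ t := (t.equivFin.symm i).2
    exact
      { p0 := p
        Fr := F p
        O := Metric.ball p (r p)
        O' := Metric.ball p (2 * r p)
        D_pos := hD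
        mem := Metric.mem_ball_self (hr p)
        O_open := Metric.isOpen_ball
        O'_open := Metric.isOpen_ball
        chart := hch p
        pon := hpon p
        near := fun q hq q' hq' => by
          have h1 := hD1 p hp
          rw [Metric.mem_ball] at hq ⊢
          rw [dist_comm] at hq'
          linarith [dist_triangle q' q p] }
  · intro p
    have hp : p ∈ ⋃ x ∈ t, Metric.ball x (r x) := by rw [ht]; trivial
    simp only [mem_iUnion] at hp
    obtain ⟨x, hx, hpx⟩ := hp
    refine ⟨t.equivFin ⟨x, hx⟩, ?_⟩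
    simpa using hpx

end

end Vale.Agent.P211.HK
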