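import Vale.Agent.P211.HK.RGDefs
import Vale.Agent.P211.HK.SC0b

/-! P211 / HK: RG1, smoothness and positivity of the data in normal coordinates. helper184. -/

set_option maxSynthPendingDepth 3
set_option linter.unusedSectionVars false

namespace Vale.Agent.P211.HK

open scoped Manifold ContDiff Topology RealInnerProductSpace
open Bundle Filter VectorField MeasureTheory Set
open Vale.Agent.P234 Vale.Agent.P231

noncomputable section

/-! ### matrices -/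

theorem contDiffOn_mat4 {F : Type*} [NormedAddCommGroup F] [NormedSpace ℝ F] {n : WithTop ℕ∞}
    {A : F → Mat4} {s : Set F} (h : ∀ i j, ContDiffOn ℝ n (fun x => A x i j) s) :
    ContDiffOn ℝ n A s :=
  contDiffOn_pi.2 fun i => contDiffOn_pi.2 fun j => h i j

theorem contDiffOn_mat4_apply {F : Type*} [NormedAddCommGroup F] [NormedSpace ℝ F]
    {n : WithTop ℕ∞} {A : F → Mat4} {s : Set F} (h : ContDiffOn ℝ n A s) (i j : Fin 4) :
    ContDiffOn ℝ n (fun x => A x i j) s :=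
  contDiffOn_pi.1 (contDiffOn_pi.1 h i) j

theorem contDiffOn_det4 {F : Type*} [NormedAddCommGroup F] [NormedSpace ℝ F] {n : WithTop ℕ∞}
    {A : F → Matrix (Fin 4) (Fin 4) ℝ} {s : Set F}
    (h : ∀ i j, ContDiffOn ℝ n (fun x => A x i j) s) :
    ContDiffOn ℝ n (fun x => (A x).det) s := by
  simp only [Matrix.det_apply]
  refine ContDiffOn.sum fun σ _ => ?_
  refine ContDiffOn.const_smul (c := (Equiv.Perm.sign σ : ℤˣ)) ?_
  exact contDiffOn_prod fun i _ => h _ _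

theorem contDiffOn_inv4 {F : Type*} [NormedAddCommGroup F] [NormedSpace ℝ F] {n : WithTop ℕ∞}
    {A : F → Matrix (Fin 4) (Fin 4) ℝ} {s : Set F}
    (h : ∀ i j, ContDiffOn ℝ n (fun x => A x i j) s) (h0 : ∀ x ∈ s, (A x).det ≠ 0) (i j : Fin 4) :
    ContDiffOn ℝ n (fun x => (A x)⁻¹ i j) s := by
  have h1 : ∀ x, (A x)⁻¹ i j = ((A x).det)⁻¹ * ((A x).updateRow j (Pi.single i 1)).det := by
    intro x
    rw [Matrix.inv_def, Ring.inverse_eq_inv', Matrix.smul_apply, smul_eq_mul,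
      Matrix.adjugate_apply]
  simp only [h1]
  refine ContDiffOn.mul ((contDiffOn_det4 h).inv h0) (contDiffOn_det4 fun k l => ?_)
  simp only [Matrix.updateRow_apply]
  by_cases hk : k = j
  · simp only [hk, if_true]
    exact contDiffOn_const
  · simp only [hk, if_false]
    exact h k l

variable {E : Type} [NormedAddCommGroup E] [NormedSpace ℝ E] [FiniteDimensional ℝ E]
  {M : Type} [MetricSpace M] [ChartedSpace E M] [IsManifold 𝓘(ℝ, E) ∞ M]
  [RiemannianBundle fun p : M => TangentSpace 𝓘(ℝ, E) p]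
  [IsContMDiffRiemannianBundle 𝓘(ℝ, E) ∞ E fun p : M => TangentSpace 𝓘(ℝ, E) p]

theorem dE_sum (e : ∀ x : M, TangentSpace 𝓘(ℝ, E) x → M) (x : M) (V : E) (v : Fin 4 → ℝ)
    (A : Fin 4 → E) : dE e x V (∑ k, v k • A k) = ∑ k, v k • dE e x V (A k) := by
  have h := map_sum (dEl e x V) (fun k => v k • A k) Finset.univ
  simp only [map_smul] at h
  exact h

namespace LocD

variable {om : Form4 E M} {D : ℝ} (L : LocD om D)
  {e : ∀ x : M, TangentSpace 𝓘(ℝ, E) x → M}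
  {cov : CovariantDerivative 𝓘(ℝ, E) E (TangentSpace 𝓘(ℝ, E) : M → Type)}

theorem isOpen_U : IsOpen L.U :=
  (continuousOn_extChartAt_symm L.p0).isOpen_inter_preimage (isOpen_extChartAt_target L.p0)
    L.O_open

theorem isOpen_UB : IsOpen L.UB := L.isOpen_U.prod Metric.isOpen_ball

theorem isOpen_UE : IsOpen (L.U ×ˢ (univ : Set Eu4)) := L.isOpen_U.prod isOpen_univ

theorem UB_sub : L.UB ⊆ L.U ×ˢ (univ : Set Eu4) := prod_mono Subset.rfl (subset_univ _)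

theorem O_sub : L.O ⊆ L.O' := fun p hp => L.near p hp p (by rw [dist_self]; exact L.D_pos)

theorem q_mem {y : E} (hy : y ∈ L.U) : L.q y ∈ L.O' := L.O_sub hy.2

theorem ponnear {p : M} (hp : p ∈ L.O') : PONnear om p L.Fr :=
  Filter.mem_of_superset (L.O'_open.mem_nhds hp) fun q hq => L.pon q hq

theorem norm_vec {x : E × Eu4} (hx : x.1 ∈ L.U) : ‖L.vec x‖ = ‖x.2‖ := by
  have h1 := (L.pon _ (L.q_mem hx)).1
  have h2 : ‖L.vec x‖ ^ 2 = ‖x.2‖ ^ 2 := by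
    rw [← real_inner_self_eq_norm_sq, vec, h1.inner_sum, EuclideanSpace.norm_sq_eq]
    refine Finset.sum_congr rfl fun i _ => ?_
    rw [Real.norm_eq_abs, sq_abs, sq]
    rfl
  exact (sq_eq_sq₀ (norm_nonneg _) (norm_nonneg _)).1 h2

theorem dist_ex (h : InjGE e D) {x : E × Eu4} (hx : x ∈ L.UB) :
    dist (L.q x.1) (L.ex e x) = ‖x.2‖ := by
  have h1 := h (L.q x.1) (L.vec x) (by rw [L.norm_vec hx.1]; exact (mem_ball_zero_iff.1 hx.2).le)
  rw [L.norm_vec hx.1] at h1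
  exact h1

theorem ex_mem (h : InjGE e D) {x : E × Eu4} (hx : x ∈ L.UB) : L.ex e x ∈ L.O' :=
  L.near _ hx.1.2 _ (by rw [L.dist_ex h hx]; exact mem_ball_zero_iff.1 hx.2)

theorem contMDiffOn_q : ContMDiffOn 𝓘(ℝ, E) 𝓘(ℝ, E) ∞ L.q (extChartAt 𝓘(ℝ, E) L.p0).target :=
  contMDiffOn_extChartAt_symm L.p0

theorem contMDiffOn_q_fst : ContMDiffOn 𝓘(ℝ, E × Eu4) 𝓘(ℝ, E) ∞ (fun x : E × Eu4 => L.q x.1)
    ((extChartAt 𝓘(ℝ, E) L.p0).target ×ˢ univ) :=
  L.contMDiffOn_q.comp (contDiff_fst.contMDiff.contMDiffOn) fun _ hx => hx.1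

theorem contMDiffOn_vec : ContMDiffOn 𝓘(ℝ, E × Eu4) 𝓘(ℝ, E).tangent ∞
    (fun x : E × Eu4 => (⟨L.q x.1, L.vec x⟩ : TangentBundle 𝓘(ℝ, E) M))
    ((extChartAt 𝓘(ℝ, E) L.p0).target ×ˢ univ) := by
  set T0 := trivializationAt E (TangentSpace 𝓘(ℝ, E) : M → Type) L.p0 with hT0
  have hb : ∀ x ∈ (extChartAt 𝓘(ℝ, E) L.p0).target ×ˢ (univ : Set Eu4),
      L.q x.1 ∈ T0.baseSet := by
    intro x hx
    have h := (extChartAt 𝓘(ℝ, E) L.p0).map_target hx.1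
    rw [extChartAt_source] at h
    exact h
  have hmaps : MapsTo (fun x : E × Eu4 => (⟨L.q x.1, L.vec x⟩ : TangentBundle 𝓘(ℝ, E) M))
      ((extChartAt 𝓘(ℝ, E) L.p0).target ×ˢ univ) T0.source := by
    intro x hx
    rw [T0.mem_source]
    exact hb x hx
  refine (Trivialization.contMDiffOn_iff hmaps).2 ⟨L.contMDiffOn_q_fst, ?_⟩
  have h3 : ∀ i, ContMDiffOn 𝓘(ℝ, E × Eu4) 𝓘(ℝ, E) ∞
      (fun x : E × Eu4 => (T0 (⟨L.q x.1, L.Fr i (L.q x.1)⟩ : TangentBundle 𝓘(ℝ, E) M)).2)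
      ((extChartAt 𝓘(ℝ, E) L.p0).target ×ˢ univ) := by
    intro i
    have h4 : ContMDiffOn 𝓘(ℝ, E × Eu4) 𝓘(ℝ, E).tangent ∞
        (fun x : E × Eu4 => (⟨L.q x.1, L.Fr i (L.q x.1)⟩ : TangentBundle 𝓘(ℝ, E) M))
        ((extChartAt 𝓘(ℝ, E) L.p0).target ×ˢ univ) :=
      (L.Fr i).contMDiff.comp_contMDiffOn L.contMDiffOn_q_fst
    have hmaps' : MapsTo (fun x : E × Eu4 =>
        (⟨L.q x.1, L.Fr i (L.q x.1)⟩ : TangentBundle 𝓘(ℝ, E) M))
        ((extChartAt 𝓘(ℝ, E) L.p0).target ×ˢ univ) T0.source := by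
      intro x hx
      rw [T0.mem_source]
      exact hb x hx
    exact ((Trivialization.contMDiffOn_iff hmaps').1 h4).2
  have h5 : ∀ i : Fin 4, ContDiff ℝ ∞ (fun x : E × Eu4 => x.2 i) := fun i =>
    (EuclideanSpace.proj i : Eu4 →L[ℝ] ℝ).contDiff.comp contDiff_snd
  have h6 : ContDiffOn ℝ ∞ (fun x : E × Eu4 => ∑ i, x.2 i •
      (T0 (⟨L.q x.1, L.Fr i (L.q x.1)⟩ : TangentBundle 𝓘(ℝ, E) M)).2)
      ((extChartAt 𝓘(ℝ, E) L.p0).target ×ˢ univ) :=
    ContDiffOn.sum fun i _ => (h5 i).contDiffOn.smul (contMDiffOn_iff_contDiffOn.1 (h3 i))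
  refine (contMDiffOn_iff_contDiffOn.2 h6).congr fun x hx => ?_
  have h7 : ∀ w : TangentSpace 𝓘(ℝ, E) (L.q x.1),
      (T0 (⟨L.q x.1, w⟩ : TangentBundle 𝓘(ℝ, E) M)).2 = T0.linearMapAt ℝ (L.q x.1) w := by
    intro w
    rw [Trivialization.coe_linearMapAt_of_mem _ (hb x hx)]
  simp only [h7, vec, map_sum, map_smul]

theorem contMDiffOn_ex (he : IsExp e) : ContMDiffOn 𝓘(ℝ, E × Eu4) 𝓘(ℝ, E) ∞ (L.ex e)
    ((extChartAt 𝓘(ℝ, E) L.p0).target ×ˢ univ) :=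
  he.smooth.comp_contMDiffOn L.contMDiffOn_vec

theorem contMDiffOn_ex' (he : IsExp e) : ContMDiffOn 𝓘(ℝ, E × Eu4) 𝓘(ℝ, E) ∞ (L.ex e)
    (L.U ×ˢ univ) :=
  (L.contMDiffOn_ex he).mono (prod_mono (fun _ h => h.1) Subset.rfl)

/-- the vectors `∑ v_i F_i` at `q y` as a linear map of `v` -/
def vecL (y : E) : Eu4 →L[ℝ] TangentSpace 𝓘(ℝ, E) (L.q y) :=
  ∑ i, (EuclideanSpace.proj i : Eu4 →L[ℝ] ℝ).smulRight (L.Fr i (L.q y))

theorem vecL_apply (y : E) (v : Eu4) : L.vecL y v = L.vec (y, v) := by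
  simp only [vecL, vec, sum_apply, ContinuousLinearMap.smulRight_apply]
  rfl

theorem vecL_ev4 (y : E) (k : Fin 4) : L.vecL y (ev4 k) = L.Fr k (L.q y) := by
  rw [vecL_apply, vec, Finset.sum_eq_single k]
  · simp [ev4]
  · intro i _ hi
    simp [ev4, hi]
  · simp

theorem dk_eq (he : IsExp e) (x : E × Eu4) (k : Fin 4) :
    L.dk e x k = (dE e (L.q x.1) (L.vec x) (L.Fr k (L.q x.1)) : E) := by
  have h1 : MDifferentiableAt 𝓘(ℝ, TangentSpace 𝓘(ℝ, E) (L.q x.1)) 𝓘(ℝ, E) (e (L.q x.1))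
      (L.vecL x.1 x.2) :=
    (contMDiff_exp_fiber he (L.q x.1)).contMDiffAt.mdifferentiableAt (by simp)
  have h2 : MDifferentiableAt 𝓘(ℝ, Eu4) 𝓘(ℝ, TangentSpace 𝓘(ℝ, E) (L.q x.1)) (L.vecL x.1) x.2 :=
    (L.vecL x.1).contDiff.contMDiff.contMDiffAt.mdifferentiableAt (n := ∞) (by simp)
  have h3 := mfderiv_comp_apply x.2 (I'' := 𝓘(ℝ, E)) h1 h2 (ev4 k)
  have h4 : mfderiv 𝓘(ℝ, Eu4) 𝓘(ℝ, TangentSpace 𝓘(ℝ, E) (L.q x.1)) (L.vecL x.1) x.2 (ev4 k) =
      L.Fr k (L.q x.1) := by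
    rw [mfderiv_eq_fderiv, (L.vecL x.1).hasFDerivAt.fderiv]
    exact L.vecL_ev4 x.1 k
  rw [h4] at h3
  have h5 : (fun v => L.ex e (x.1, v)) = e (L.q x.1) ∘ L.vecL x.1 := by
    funext v
    rw [Function.comp_apply, vecL_apply]
    rfl
  have h6 : (L.dk e x k : E) = mfderiv 𝓘(ℝ, Eu4) 𝓘(ℝ, E) (e (L.q x.1) ∘ L.vecL x.1) x.2 (ev4 k) := by
    rw [← h5]
    rfl
  rw [h6, h3, vecL_apply]
  rfl

theorem mfderiv_ex_snd {x : E × Eu4}
    (hx : MDifferentiableAt 𝓘(ℝ, E × Eu4) 𝓘(ℝ, E) (L.ex e) x) (k : Fin 4) :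
    mfderiv 𝓘(ℝ, E × Eu4) 𝓘(ℝ, E) (L.ex e) x ((0 : E), ev4 k) = L.dk e x k := by
  have hf : HasFDerivAt (fun v : Eu4 => ((x.1, v) : E × Eu4))
      (ContinuousLinearMap.inr ℝ E Eu4) x.2 := hasFDerivAt_prodMk_right x.1 x.2
  have h1 : MDifferentiableAt 𝓘(ℝ, Eu4) 𝓘(ℝ, E × Eu4) (fun v : Eu4 => ((x.1, v) : E × Eu4)) x.2 :=
    hf.differentiableAt.mdifferentiableAt
  have h2 := mfderiv_comp_apply x.2 (I' := 𝓘(ℝ, E × Eu4)) (I'' := 𝓘(ℝ, E)) (g := L.ex e)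
    (f := fun v : Eu4 => ((x.1, v) : E × Eu4)) hx h1 (ev4 k)
  have h3 : mfderiv 𝓘(ℝ, Eu4) 𝓘(ℝ, E × Eu4) (fun v : Eu4 => ((x.1, v) : E × Eu4)) x.2 (ev4 k) =
      ((0 : E), ev4 k) := by
    rw [mfderiv_eq_fderiv, hf.fderiv]
    rfl
  rw [h3] at h2
  exact h2.symm

theorem contMDiffOn_dk (he : IsExp e) (k : Fin 4) :
    ContMDiffOn 𝓘(ℝ, E × Eu4) 𝓘(ℝ, E).tangent ∞
      (fun x : E × Eu4 => (⟨L.ex e x, L.dk e x k⟩ : TangentBundle 𝓘(ℝ, E) M))
      (L.U ×ˢ univ) := by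
  have h1 := (L.contMDiffOn_ex' he).contMDiffOn_tangentMapWithin (m := ∞) (by simp)
    L.isOpen_UE.uniqueMDiffOn
  have h2 : ContMDiff 𝓘(ℝ, E × Eu4) 𝓘(ℝ, E × Eu4).tangent ∞
      (fun x : E × Eu4 => (⟨x, ((0 : E), ev4 k)⟩ : TangentBundle 𝓘(ℝ, E × Eu4) (E × Eu4))) := by
    intro x
    rw [contMDiffAt_totalSpace]
    refine ⟨contMDiffAt_id, ?_⟩
    simp only [trivializationAt_model_space_apply]
    exact contMDiffAt_const
  have h3 := h1.comp (h2.contMDiffOn (s := L.U ×ˢ (univ : Set Eu4))) (fun x hx => hx)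
  refine h3.congr fun x hx => ?_
  have h4 : MDifferentiableAt 𝓘(ℝ, E × Eu4) 𝓘(ℝ, E) (L.ex e) x :=
    ((L.contMDiffOn_ex' he).contMDiffAt (L.isOpen_UE.mem_nhds hx)).mdifferentiableAt (by simp)
  simp only [Function.comp_apply, tangentMapWithin]
  rw [mfderivWithin_of_isOpen L.isOpen_UE hx, L.mfderiv_ex_snd h4 k]

theorem contDiffOn_inner_dk (he : IsExp e) (X : VF E M) (k : Fin 4) :
    ContDiffOn ℝ ∞ (fun x => (inner ℝ (L.dk e x k) (X (L.ex e x)) : ℝ)) (L.U ×ˢ univ) := by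
  have h1 := L.contMDiffOn_dk he k
  have h2 : ContMDiffOn 𝓘(ℝ, E × Eu4) 𝓘(ℝ, E).tangent ∞
      (fun x : E × Eu4 => (⟨L.ex e x, X (L.ex e x)⟩ : TangentBundle 𝓘(ℝ, E) M)) (L.U ×ˢ univ) :=
    X.contMDiff.comp_contMDiffOn (L.contMDiffOn_ex' he)
  exact contMDiffOn_iff_contDiffOn.1 (ContMDiffOn.inner_bundle h1 h2)

theorem contDiffOn_th (he : IsExp e) : ContDiffOn ℝ ∞ (L.th e) L.UB :=
  contDiffOn_mat4 fun k l => (L.contDiffOn_inner_dk he (L.Fr l) k).mono L.UB_sub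

theorem contDiffOn_Jd (he : IsExp e) : ContDiffOn ℝ ∞ (L.Jd e) L.UB :=
  contDiffOn_det4 fun k l => contDiffOn_mat4_apply (L.contDiffOn_th he) k l

theorem contDiffOn_Gk (hg : Geo4 cov om) (he : IsExp e) (k : Fin 4) :
    ContDiffOn ℝ ∞ (fun x => L.Gk e cov x k) L.UB := by
  refine contDiffOn_mat4 fun i j => ?_
  refine ContDiffOn.sum fun l _ => (contDiffOn_mat4_apply (L.contDiffOn_th he) k l).mul ?_
  have h1 : ContMDiffOn 𝓘(ℝ, E × Eu4) 𝓘(ℝ, Mat4) ∞ (fun x => GaF cov L.Fr (L.ex e x) l) L.UB :=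
    (GaF_smooth hg L.Fr l).comp_contMDiffOn ((L.contMDiffOn_ex' he).mono L.UB_sub)
  exact contDiffOn_mat4_apply (contMDiffOn_iff_contDiffOn.1 h1) i j

theorem gm_eq (hg : Geo4 cov om) (h : InjGE e D) {x : E × Eu4} (hx : x ∈ L.UB) :
    L.gm e x = mulM (L.th e x) (trM (L.th e x)) := by
  obtain ⟨b, hb⟩ := exists_onb (T := TangentSpace 𝓘(ℝ, E) (L.ex e x)) hg.dim
    (L.pon _ (L.ex_mem h hx)).1
  funext i j
  have h1 := b.sum_inner_mul_inner (L.dk e x i) (L.dk e x j)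
  rw [hb] at h1
  simp only [gm, mulM, trM, th]
  rw [← h1]
  refine Finset.sum_congr rfl fun l _ => ?_
  rw [real_inner_comm (L.dk e x j)]

variable [IsRiemannianManifold 𝓘(ℝ, E) M] [CompactSpace M] [ConnectedSpace M]

theorem Jd_ne (hg : Geo4 cov om) (F : Facts e) (h : InjGE e D) {x : E × Eu4} (hx : x ∈ L.UB) :
    L.Jd e x ≠ 0 := by
  intro h0
  obtain ⟨v, hv, hv0⟩ := Matrix.exists_vecMul_eq_zero_iff.2 h0
  have h1 : ∑ k, v k • L.dk e x k = 0 := by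
    have h2 := pon_expand hg (L.pon _ (L.ex_mem h hx)).1 (∑ k, v k • L.dk e x k)
    rw [h2]
    refine Finset.sum_eq_zero fun l _ => ?_
    have h3 := congrFun hv0 l
    simp only [Matrix.vecMul, dotProduct, Matrix.of_apply, th, Pi.zero_apply] at h3
    rw [inner_sum]
    simp only [real_inner_smul_right]
    have h4 : ∑ k, v k * (inner ℝ (L.Fr l (L.ex e x)) (L.dk e x k) : ℝ) = 0 := by
      rw [← h3]
      refine Finset.sum_congr rfl fun k _ => ?_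
      rw [real_inner_comm]
    rw [h4, zero_smul]
  have h5 : dE (E := E) e (L.q x.1) (L.vec x : E) (L.vec (x.1, WithLp.toLp 2 v) : E) = 0 := by
    have h6 := dE_sum (E := E) e (L.q x.1) (L.vec x : E) v (fun k => (L.Fr k (L.q x.1) : E))
    have h7 : ∀ k, (dE (E := E) e (L.q x.1) (L.vec x : E) (L.Fr k (L.q x.1) : E) : E) =
        (L.dk e x k : E) :=
      fun k => (L.dk_eq F.isExp x k).symm
    have h8 : (∑ k, v k • dE (E := E) e (L.q x.1) (L.vec x : E) (L.Fr k (L.q x.1) : E) : E) =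
        ∑ k, v k • (L.dk e x k : E) :=
      Finset.sum_congr rfl fun k _ => congrArg (fun w : E => v k • w) (h7 k)
    exact (h6.trans h8).trans h1
  have h8 : nm (E := E) (L.q x.1) (L.vec x : E) < D :=
    lt_of_eq_of_lt (L.norm_vec hx.1) (mem_ball_zero_iff.1 hx.2)
  have h9 := dE_injective F h h8 h5
  have h10 : ‖L.vec (x.1, WithLp.toLp 2 v)‖ = 0 := by
    rw [show L.vec (x.1, WithLp.toLp 2 v) = 0 from h9, norm_zero]
  rw [L.norm_vec (x := (x.1, WithLp.toLp 2 v)) hx.1, norm_eq_zero] at h10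
  exact hv (by simpa using congrArg WithLp.ofLp h10)

theorem ex_zero (he : IsExp e) (y : E) : L.ex e (y, 0) = L.q y := by
  have h1 : L.vec (y, 0) = 0 := by simp [vec]
  rw [ex, h1]
  exact he.map_zero _

theorem th_zero (he : IsExp e) {y : E} (hy : y ∈ L.U) : L.th e (y, 0) = idM := by
  funext k l
  have h1 : L.vec (y, 0) = 0 := by simp [vec]
  have h2 : (L.dk e (y, 0) k : E) = L.Fr k (L.q y) := by
    rw [L.dk_eq he]
    have h3 : (L.vec (y, 0) : E) = 0 := h1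
    have h4 := dE_zero_base he (L.q y) (L.Fr k (L.q y) : E)
    exact (congrArg (fun w : E => dE e (L.q y) w (L.Fr k (L.q y) : E)) h3).trans h4
  have h5 : ∀ (p : M) (hp : p = L.q y) (w : E), w = (L.Fr k (L.q y) : E) →
      @inner ℝ (TangentSpace 𝓘(ℝ, E) p) _ w (L.Fr l p) = idM k l := by
    intro p hp w hw
    subst hp
    subst hw
    exact orthonormal_iff_ite.1 (L.pon _ (L.q_mem hy)).1 k l
  exact h5 _ (L.ex_zero he y) _ h2

theorem Jd_pos (hg : Geo4 cov om) (F : Facts e) (h : InjGE e D) {x : E × Eu4} (hx : x ∈ L.UB) :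
    0 < L.Jd e x := by
  by_contra hneg
  push Not at hneg
  have h0 : L.Jd e (x.1, 0) = 1 := by
    rw [Jd, L.th_zero F.isExp hx.1, of_idM, Matrix.det_one]
  have hmem : ∀ t ∈ Icc (0 : ℝ) 1, ((x.1, t • x.2) : E × Eu4) ∈ L.UB := by
    intro t ht
    refine ⟨hx.1, ?_⟩
    rw [mem_ball_zero_iff, norm_smul, Real.norm_eq_abs, abs_of_nonneg ht.1]
    have h1 := mem_ball_zero_iff.1 hx.2
    have h2 := norm_nonneg x.2
    nlinarith [ht.2]
  have hc : ContinuousOn (fun t : ℝ => L.Jd e (x.1, t • x.2)) (Icc 0 1) := by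
    refine (L.contDiffOn_Jd F.isExp).continuousOn.comp ?_ hmem
    exact (continuous_const.prodMk (continuous_id.smul continuous_const)).continuousOn
  have h1 := intermediate_value_Icc' (zero_le_one (α := ℝ)) hc
  have h2 : (0 : ℝ) ∈ Icc (L.Jd e (x.1, (1 : ℝ) • x.2)) (L.Jd e (x.1, (0 : ℝ) • x.2)) := by
    rw [one_smul, zero_smul, h0]
    exact ⟨hneg, zero_le_one⟩
  obtain ⟨t, ht, ht0⟩ := h1 h2
  exact L.Jd_ne hg F h (hmem t ht) ht0

theorem det_gm_ne (hg : Geo4 cov om) (F : Facts e) (h : InjGE e D) {x : E × Eu4}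
    (hx : x ∈ L.UB) : (Matrix.of (L.gm e x)).det ≠ 0 := by
  rw [L.gm_eq hg h hx, of_mulM, Matrix.det_mul, of_trM, Matrix.det_transpose]
  exact mul_ne_zero (L.Jd_ne hg F h hx) (L.Jd_ne hg F h hx)

end LocD

/-- RG1 -/
theorem rg1 (e : ∀ x : M, TangentSpace 𝓘(ℝ, E) x → M)
    (cov : CovariantDerivative 𝓘(ℝ, E) E (TangentSpace 𝓘(ℝ, E) : M → Type)) (om : Form4 E M)
    [IsRiemannianManifold 𝓘(ℝ, E) M] [CompactSpace M] [ConnectedSpace M] :
    RG1Stmt e cov om := by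
  intro D H L
  have he := H.facts.isExp
  have hgmS : ContDiffOn ℝ ∞ (L.gm e) L.UB := by
    have h1 : ContDiffOn ℝ ∞ (fun x => mulM (L.th e x) (trM (L.th e x))) L.UB := by
      refine contDiffOn_mat4 fun i j => ?_
      refine ContDiffOn.sum fun k _ => ?_
      exact (contDiffOn_mat4_apply (L.contDiffOn_th he) i k).mul
        (contDiffOn_mat4_apply (L.contDiffOn_th he) j k)
    exact h1.congr fun x hx => L.gm_eq H.geo H.inj hx
  refine ⟨L.isOpen_U, fun x hx => ⟨L.ex_mem H.inj hx, L.dist_ex H.inj hx⟩, L.contMDiffOn_ex' he,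
    fun X k => L.contDiffOn_inner_dk he X k, fun x _ k => L.dk_eq he x k, L.contDiffOn_th he, hgmS,
    ?_, L.contDiffOn_Jd he, fun k => L.contDiffOn_Gk H.geo he k, ?_⟩
  · refine contDiffOn_mat4 fun i j => ?_
    exact contDiffOn_inv4 (fun i j => contDiffOn_mat4_apply hgmS i j)
      (fun x hx => L.det_gm_ne H.geo H.facts H.inj hx) i j
  · intro x hx
    have hdet : IsUnit (Matrix.of (L.gm e x)).det := isUnit_iff_ne_zero.2
      (L.det_gm_ne H.geo H.facts H.inj hx)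
    have hsymm : (Matrix.of (L.gm e x)).transpose = Matrix.of (L.gm e x) := by
      ext i j
      exact real_inner_comm (L.dk e x i) (L.dk e x j)
    refine ⟨L.Jd_pos H.geo H.facts H.inj hx, L.gm_eq H.geo H.inj hx, ?_, ?_, ?_, ?_⟩
    · have h1 := Matrix.nonsing_inv_mul _ hdet
      funext i j
      have h2 := congrFun (congrFun h1 i) j
      rw [← of_idM] at h2
      exact h2
    · have h1 := Matrix.mul_nonsing_inv _ hdet
      funext i j
      have h2 := congrFun (congrFun h1 i) j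
      rw [← of_idM] at h2
      exact h2
    · intro i j
      have h1 := Matrix.transpose_nonsing_inv (Matrix.of (L.gm e x))
      rw [hsymm] at h1
      exact congrFun (congrFun h1 j) i
    · intro k i j
      have h1 : ∀ l, GaF cov L.Fr (L.ex e x) l i j = - GaF cov L.Fr (L.ex e x) l j i := fun l =>
        GaF_skew H.geo (L.ponnear (L.ex_mem H.inj hx)) l i j
      simp only [LocD.Gk, h1, mul_neg, Finset.sum_neg_distrib]

end

end Vale.Agent.P211.HK
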