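import Vale.Agent.P211.HK.EUDefs
import Vale.Agent.P211.HK.SecDefs

/-! P211 / HK (helper853): the metric coefficients of normal coordinates, abstract part.

`th` = matrix of the coordinate vectors in an orthonormal frame; `g = th thᵀ`, `gi = g⁻¹`,
`J = det th`. From the Gauss lemma `g v = v` and `th(y,0) = 1` all properties needed in `RadData`. -/

set_option linter.unusedSectionVars false
set_option linter.unusedVariables false

namespace Vale.Agent.P211.HK.RadCoef

open Filter Topology Set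
open scoped ContDiff

noncomputable section

/-- the Gram matrix `th thᵀ` -/
def gram (A : Mat4) : Mat4 := fun k l => ∑ m, A k m * A l m

/-- inverse Gram matrix -/
def ginv (A : Mat4) : Mat4 := fun i j => ((Matrix.of (gram A))⁻¹ : Matrix (Fin 4) (Fin 4) ℝ) i j

/-- determinant -/
def dt (A : Mat4) : ℝ := (Matrix.of A).det

theorem of_gram (A : Mat4) : Matrix.of (gram A) = Matrix.of A * (Matrix.of A).transpose := by
  ext i j
  simp [gram, Matrix.mul_apply]

theorem det_gram (A : Mat4) : (Matrix.of (gram A)).det = dt A ^ 2 := by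
  rw [of_gram, Matrix.det_mul, Matrix.det_transpose, dt, sq]

theorem gram_symm (A : Mat4) (i j : Fin 4) : gram A i j = gram A j i := by
  unfold gram
  exact Finset.sum_congr rfl fun m _ => mul_comm _ _

theorem ginv_mul (A : Mat4) (h : dt A ≠ 0) (i j : Fin 4) :
    ∑ k, ginv A i k * gram A k j = if i = j then 1 else 0 := by
  have h1 : IsUnit (Matrix.of (gram A)).det := by
    rw [det_gram]; exact (pow_ne_zero 2 h).isUnit
  have h2 := Matrix.nonsing_inv_mul (Matrix.of (gram A)) h1
  have h3 := congrFun (congrFun h2 i) j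
  rw [Matrix.mul_apply, Matrix.one_apply] at h3
  exact h3

theorem mul_ginv (A : Mat4) (h : dt A ≠ 0) (i j : Fin 4) :
    ∑ k, gram A i k * ginv A k j = if i = j then 1 else 0 := by
  have h1 : IsUnit (Matrix.of (gram A)).det := by
    rw [det_gram]; exact (pow_ne_zero 2 h).isUnit
  have h2 := Matrix.mul_nonsing_inv (Matrix.of (gram A)) h1
  have h3 := congrFun (congrFun h2 i) j
  rw [Matrix.mul_apply, Matrix.one_apply] at h3
  exact h3

theorem ginv_symm (A : Mat4) (i j : Fin 4) : ginv A i j = ginv A j i := by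
  have h1 : (Matrix.of (gram A)).transpose = Matrix.of (gram A) := by
    ext a b; exact gram_symm A b a
  have h2 : ((Matrix.of (gram A))⁻¹).transpose = (Matrix.of (gram A))⁻¹ := by
    rw [Matrix.transpose_nonsing_inv, h1]
  exact congrFun (congrFun h2 j) i

theorem ginv_gauss (A : Mat4) (h : dt A ≠ 0) (v : Fin 4 → ℝ)
    (hg : ∀ k, ∑ l, gram A k l * v l = v k) (i : Fin 4) : ∑ j, ginv A i j * v j = v i := by
  calc ∑ j, ginv A i j * v j = ∑ j, ginv A i j * ∑ l, gram A j l * v l := by
        exact Finset.sum_congr rfl fun j _ => by rw [hg j]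
    _ = ∑ l, (∑ j, ginv A i j * gram A j l) * v l := by
        simp_rw [Finset.mul_sum, Finset.sum_mul]
        rw [Finset.sum_comm]
        exact Finset.sum_congr rfl fun l _ => Finset.sum_congr rfl fun j _ => by ring
    _ = v i := by
        simp_rw [ginv_mul A h]
        simp

theorem gram_id : gram idM = idM := by
  funext i j
  unfold gram idM
  simp

theorem dt_id : dt idM = 1 := by
  have h : Matrix.of idM = (1 : Matrix (Fin 4) (Fin 4) ℝ) := by
    ext i j; simp [idM, Matrix.one_apply]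
  rw [dt, h, Matrix.det_one]

theorem ginv_id (i j : Fin 4) : ginv idM i j = if i = j then 1 else 0 := by
  have h : Matrix.of idM = (1 : Matrix (Fin 4) (Fin 4) ℝ) := by
    ext i j; simp [idM, Matrix.one_apply]
  rw [ginv, gram_id, h, inv_one, Matrix.one_apply]

/-! ### smoothness -/

section smooth

variable {X : Type*} [NormedAddCommGroup X] [NormedSpace ℝ X] {S : Set X} {f : X → Mat4} {n : ℕ∞ω}

theorem entry (hf : ContDiffOn ℝ n f S) (i j : Fin 4) : ContDiffOn ℝ n (fun x => f x i j) S :=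
  (contDiffOn_pi.1 (contDiffOn_pi.1 hf i) j)

theorem of_entries (hf : ∀ i j, ContDiffOn ℝ n (fun x => f x i j) S) : ContDiffOn ℝ n f S :=
  contDiffOn_pi.2 fun i => contDiffOn_pi.2 fun j => hf i j

theorem smooth_det {A : X → Matrix (Fin 4) (Fin 4) ℝ}
    (hA : ∀ i j, ContDiffOn ℝ n (fun x => A x i j) S) : ContDiffOn ℝ n (fun x => (A x).det) S := by
  simp_rw [Matrix.det_apply]
  refine ContDiffOn.sum fun σ _ => ?_
  have h : ∀ x, Equiv.Perm.sign σ • ∏ i, A x (σ i) i = ((Equiv.Perm.sign σ : ℤˣ) : ℤ) •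
      ∏ i, A x (σ i) i := fun x => rfl
  simp_rw [h, zsmul_eq_mul]
  exact contDiffOn_const.mul (contDiffOn_prod fun i _ => hA _ _)

theorem smooth_gram (hf : ContDiffOn ℝ n f S) : ContDiffOn ℝ n (fun x => gram (f x)) S :=
  of_entries fun i j => ContDiffOn.sum fun m _ => (entry hf i m).mul (entry hf j m)

theorem smooth_dt (hf : ContDiffOn ℝ n f S) : ContDiffOn ℝ n (fun x => dt (f x)) S :=
  smooth_det fun i j => entry hf i j

theorem smooth_ginv (hf : ContDiffOn ℝ n f S) (h0 : ∀ x ∈ S, dt (f x) ≠ 0) :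
    ContDiffOn ℝ n (fun x => ginv (f x)) S := by
  have hg := smooth_gram hf
  refine of_entries fun i j => ?_
  have h1 : ∀ x, ginv (f x) i j = (dt (f x) ^ 2)⁻¹ *
      ((Matrix.of (gram (f x))).updateRow j (Pi.single i 1)).det := by
    intro x
    rw [ginv, Matrix.inv_def, Matrix.smul_apply, Ring.inverse_eq_inv', det_gram,
      Matrix.adjugate_apply, smul_eq_mul]
  simp_rw [h1]
  refine ((smooth_dt hf).pow 2).inv (fun x hx => pow_ne_zero 2 (h0 x hx)) |>.mul ?_
  refine smooth_det fun a b => ?_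
  by_cases ha : a = j
  · subst ha
    have : ∀ x, (Matrix.of (gram (f x))).updateRow a (Pi.single i 1) a b =
        (Pi.single i 1 : Fin 4 → ℝ) b := fun x => by rw [Matrix.updateRow_self]
    simp_rw [this]
    exact contDiffOn_const
  · have : ∀ x, (Matrix.of (gram (f x))).updateRow j (Pi.single i 1) a b = gram (f x) a b :=
      fun x => by rw [Matrix.updateRow_ne ha]; rfl
    simp_rw [this]
    exact entry hg a b

end smooth

/-! ### the derivative at the centre -/

/-- a symmetric matrix function with `g(v) v = v` has vanishing derivative at the centre -/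
theorem crit {g : Eu4 → Fin 4 → Fin 4 → ℝ} (hd : DifferentiableAt ℝ g 0)
    (hs : ∀ᶠ v in 𝓝 (0 : Eu4), ∀ i j, g v i j = g v j i)
    (hg : ∀ᶠ v in 𝓝 (0 : Eu4), ∀ k, ∑ l, g v k l * v l = v k) : fderiv ℝ g 0 = 0 := by
  set c : Fin 4 → Fin 4 → Fin 4 → ℝ := fun k l m => fderiv ℝ g 0 (ev4 m) k l with hc
  have hcomp : ∀ k l, HasFDerivAt (fun v => g v k l)
      ((ContinuousLinearMap.proj l).comp ((ContinuousLinearMap.proj k).comp (fderiv ℝ g 0))) 0 := by
    intro k l
    have h1 := hasFDerivAt_pi'.1 hd.hasFDerivAt k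
    exact hasFDerivAt_pi'.1 h1 l
  -- symmetry
  have h1 : ∀ k l m, c k l m = c l k m := by
    intro k l m
    have e1 := (hcomp k l).fderiv
    have e2 := (hcomp l k).fderiv
    have e3 : (fun v => g v k l) =ᶠ[𝓝 0] fun v => g v l k := by
      filter_upwards [hs] with v hv using hv k l
    rw [e3.fderiv_eq, e2] at e1
    have := congrArg (fun A : Eu4 →L[ℝ] ℝ => A (ev4 m)) e1
    simpa [hc] using this.symm
  -- the Gauss lemma along a line
  have h2 : ∀ (w : Eu4) (k : Fin 4), ∑ l, fderiv ℝ g 0 w k l * w l = 0 := by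
    intro w k
    have hline : HasDerivAt (fun s : ℝ => s • w) w 0 := by
      simpa using (hasDerivAt_id (0 : ℝ)).smul_const w
    have hl0 : (0 : ℝ) • w = 0 := zero_smul _ _
    have e1 : HasDerivAt (fun s : ℝ => ∑ l, g (s • w) k l * w l)
        (∑ l, fderiv ℝ g 0 w k l * w l) 0 := by
      refine HasDerivAt.fun_sum fun l _ => ?_
      have h3 : HasFDerivAt (fun v => g v k l)
          ((ContinuousLinearMap.proj l).comp ((ContinuousLinearMap.proj k).comp (fderiv ℝ g 0)))
          ((0 : ℝ) • w) := by rw [hl0]; exact hcomp k l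
      have h4 := h3.comp_hasDerivAt (0 : ℝ) hline
      exact h4.mul_const (w l)
    have hev : ∀ᶠ s : ℝ in 𝓝[≠] 0, ∑ l, g (s • w) k l * w l = w k := by
      have ht : Tendsto (fun s : ℝ => s • w) (𝓝[≠] 0) (𝓝 (0 : Eu4)) := by
        have : Tendsto (fun s : ℝ => s • w) (𝓝 0) (𝓝 ((0 : ℝ) • w)) :=
          (continuous_id.smul continuous_const).tendsto 0
        rw [hl0] at this
        exact this.mono_left nhdsWithin_le_nhds
      filter_upwards [ht.eventually hg, self_mem_nhdsWithin] with s hs' hs0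
      have h5 := hs' k
      have h6 : (s • w) k = s * w k := rfl
      have h7 : ∀ l, g (s • w) k l * (s • w) l = s * (g (s • w) k l * w l) := fun l => by
        change g (s • w) k l * (s * w l) = _
        ring
      rw [Finset.sum_congr rfl fun l _ => h7 l, ← Finset.mul_sum, h6] at h5
      exact mul_left_cancel₀ hs0 h5
    have hcont : ContinuousAt (fun s : ℝ => ∑ l, g (s • w) k l * w l) 0 := e1.continuousAt
    have hval : (∑ l, g ((0 : ℝ) • w) k l * w l) = w k := by
      have ht := hcont.tendsto.mono_left (nhdsWithin_le_nhds (s := {0}ᶜ))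
      have ht2 : Tendsto (fun s : ℝ => ∑ l, g (s • w) k l * w l) (𝓝[≠] 0) (𝓝 (w k)) :=
        tendsto_const_nhds.congr' (by filter_upwards [hev] with s hs' using hs'.symm)
      exact tendsto_nhds_unique ht ht2
    have hev2 : (fun s : ℝ => ∑ l, g (s • w) k l * w l) =ᶠ[𝓝 0] fun _ => w k := by
      rw [eventually_nhdsWithin_iff] at hev
      filter_upwards [hev] with s hs'
      by_cases h0 : s = 0
      · subst h0; exact hval
      · exact hs' h0
    have e2 := e1.deriv
    rw [hev2.deriv_eq, deriv_const] at e2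
    exact e2.symm
  -- antisymmetry in the last two indices
  have h3 : ∀ k l m, c k l m = - c k m l := by
    intro k l m
    have hB : ∀ w w' : Eu4, (∑ j, fderiv ℝ g 0 w k j * w' j) + ∑ j, fderiv ℝ g 0 w' k j * w j
        = 0 := by
      intro w w'
      have e1 := h2 (w + w') k
      have e2 := h2 w k
      have e3 := h2 w' k
      have e4 : ∑ j, fderiv ℝ g 0 (w + w') k j * (w + w') j =
          (∑ j, fderiv ℝ g 0 w k j * w j) + (∑ j, fderiv ℝ g 0 w' k j * w' j) +
          ((∑ j, fderiv ℝ g 0 w k j * w' j) + ∑ j, fderiv ℝ g 0 w' k j * w j) := by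
        rw [← Finset.sum_add_distrib, ← Finset.sum_add_distrib, ← Finset.sum_add_distrib]
        refine Finset.sum_congr rfl fun j _ => ?_
        rw [map_add]
        change (fderiv ℝ g 0 w k j + fderiv ℝ g 0 w' k j) * (w j + w' j) = _
        ring
      rw [e4, e2, e3] at e1
      linarith
    have e := hB (ev4 m) (ev4 l)
    have e5 : ∀ (a b : Fin 4), (∑ j, fderiv ℝ g 0 (ev4 a) k j * (ev4 b) j) = c k b a := by
      intro a b
      rw [Finset.sum_eq_single b]
      · simp [hc, ev4]
      · intro j _ hj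
        simp [ev4, hj]
      · intro h; exact absurd (Finset.mem_univ _) h
    rw [e5, e5] at e
    linarith
  have h4 : ∀ k l m, c k l m = 0 := by
    intro k l m
    have a1 := h3 k l m
    have a2 := h1 k m l
    have a3 := h3 m k l
    have a4 := h1 m l k
    have a5 := h3 l m k
    have a6 := h1 l k m
    linarith
  ext v k l
  have hv : v = ∑ m, v m • ev4 m := by
    ext j
    have h5 : ∀ m, (v m • ev4 m) j = if j = m then v m else 0 := by
      intro m
      change v m * (ev4 m) j = _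
      by_cases h : j = m
      · subst h; simp [ev4]
      · simp [ev4, h]
    have h6 : (∑ m, v m • ev4 m) j = ∑ m, (v m • ev4 m) j := by
      simp [Finset.sum_apply]
    rw [h6, Finset.sum_congr rfl fun m _ => h5 m]
    simp
  rw [hv, map_sum]
  simp only [map_smul, Finset.sum_apply, Pi.smul_apply, smul_eq_mul]
  have : ∀ m, fderiv ℝ g 0 (ev4 m) k l = 0 := fun m => h4 k l m
  simp [this]

theorem differentiable_det : Differentiable ℝ fun A : Mat4 => (Matrix.of A).det := by
  have h : ContDiffOn ℝ 1 (fun A : Mat4 => (Matrix.of A).det) univ :=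
    smooth_det (n := 1) fun i j => entry (f := fun A : Mat4 => A) contDiffOn_id i j
  exact (contDiffOn_univ.1 h).differentiable (by simp)

/-- derivative of the determinant at the identity -/
theorem crit_dt {g : Eu4 → Mat4} (hd : DifferentiableAt ℝ g 0) (hg0 : g 0 = idM)
    (hgr : DifferentiableAt ℝ (fun v => gram (g v)) 0)
    (hcrit : fderiv ℝ (fun v => gram (g v)) 0 = 0) : fderiv ℝ (fun v => dt (g v)) 0 = 0 := by
  have h1 : DifferentiableAt ℝ (fun v => dt (g v)) 0 :=
    (differentiable_det (g 0)).comp (0 : Eu4) hd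
  have h2 : HasFDerivAt (fun v => (Matrix.of (gram (g v))).det)
      ((fderiv ℝ (fun A : Mat4 => (Matrix.of A).det) (gram (g 0))).comp
        (fderiv ℝ (fun v => gram (g v)) 0)) 0 :=
    (differentiable_det (gram (g 0))).hasFDerivAt.comp (0 : Eu4) hgr.hasFDerivAt
  rw [hcrit, ContinuousLinearMap.comp_zero] at h2
  have h3 : (fun v => (Matrix.of (gram (g v))).det) = fun v => dt (g v) * dt (g v) := by
    funext v; rw [det_gram, sq]
  rw [h3] at h2
  have h4 := h1.hasFDerivAt.mul h1.hasFDerivAt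
  have h5 := h4.unique h2
  rw [hg0, dt_id, one_smul] at h5
  have h6 : (2 : ℝ) • fderiv ℝ (fun v => dt (g v)) 0 = 0 := by
    rw [two_smul]; exact h5
  exact (smul_eq_zero.1 h6).resolve_left two_ne_zero

/-! ### the radial coefficients -/

section rad

variable {P : Type} [NormedAddCommGroup P] [NormedSpace ℝ P] {O : Set P} {D : ℝ}
  {th : P × Eu4 → Mat4}

/-- all metric fields of `RadData` -/
structure Coef (O : Set P) (D : ℝ) (gi : P × Eu4 → Mat4) (J : P × Eu4 → ℝ) : Prop where
  gi_smooth : ContDiffOn ℝ ∞ gi (O ×ˢ Metric.ball 0 D)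
  J_smooth : ContDiffOn ℝ ∞ J (O ×ˢ Metric.ball 0 D)
  J_pos : ∀ x ∈ O ×ˢ Metric.ball (0 : Eu4) D, 0 < J x
  gi_symm : ∀ x ∈ O ×ˢ Metric.ball (0 : Eu4) D, ∀ i j, gi x i j = gi x j i
  gauss : ∀ x ∈ O ×ˢ Metric.ball (0 : Eu4) D, ∀ i, ∑ j, gi x i j * x.2 j = x.2 i
  gi_zero : ∀ y ∈ O, ∀ i j, gi (y, 0) i j = if i = j then 1 else 0
  J_zero : ∀ y ∈ O, J (y, 0) = 1
  gi_crit : ∀ y ∈ O, fderiv ℝ (fun v => gi (y, v)) 0 = 0
  J_crit : ∀ y ∈ O, fderiv ℝ (fun v => J (y, v)) 0 = 0

theorem coef (hO : IsOpen O) (hD : 0 < D) (hs : ContDiffOn ℝ ∞ th (O ×ˢ Metric.ball 0 D))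
    (hp : ∀ x ∈ O ×ˢ Metric.ball (0 : Eu4) D, 0 < dt (th x))
    (hz : ∀ y ∈ O, th (y, 0) = idM)
    (hg : ∀ x ∈ O ×ˢ Metric.ball (0 : Eu4) D, ∀ k, ∑ l, gram (th x) k l * x.2 l = x.2 k) :
    Coef O D (fun x => ginv (th x)) (fun x => dt (th x)) := by
  have hopen : IsOpen (O ×ˢ Metric.ball (0 : Eu4) D) := hO.prod Metric.isOpen_ball
  have h0 : ∀ y ∈ O, ((y, 0) : P × Eu4) ∈ O ×ˢ Metric.ball (0 : Eu4) D := fun y hy =>
    ⟨hy, Metric.mem_ball_self hD⟩
  -- differentiability in `v` at the centre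
  have hdiff : ∀ {F : Type} [NormedAddCommGroup F] [NormedSpace ℝ F] {f : P × Eu4 → F}
      (_ : ContDiffOn ℝ ∞ f (O ×ˢ Metric.ball 0 D)), ∀ y ∈ O,
      DifferentiableAt ℝ (fun v => f (y, v)) 0 := by
    intro F _ _ f hf y hy
    have h1 : DifferentiableAt ℝ f (y, 0) :=
      (hf.contDiffAt (hopen.mem_nhds (h0 y hy))).differentiableAt (by simp)
    have h2 : DifferentiableAt ℝ (fun v : Eu4 => (y, v)) 0 :=
      (differentiableAt_const y).prodMk differentiableAt_id
    exact h1.comp (0 : Eu4) h2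
  have hev : ∀ y ∈ O, ∀ᶠ v in 𝓝 (0 : Eu4), ((y, v) : P × Eu4) ∈ O ×ˢ Metric.ball (0 : Eu4) D := by
    intro y hy
    filter_upwards [Metric.ball_mem_nhds (0 : Eu4) hD] with v hv using ⟨hy, hv⟩
  refine ⟨smooth_ginv hs fun x hx => (hp x hx).ne', smooth_dt hs, hp,
    fun x hx => ginv_symm _, fun x hx => ginv_gauss _ (hp x hx).ne' _ (hg x hx),
    fun y hy i j => ?_, fun y hy => ?_, fun y hy => ?_, fun y hy => ?_⟩
  · simp only [hz y hy]
    exact ginv_id i j
  · simp only [hz y hy]
    exact dt_id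
  · refine crit (hdiff (smooth_ginv hs fun x hx => (hp x hx).ne') y hy) ?_ ?_
    · exact Eventually.of_forall fun v i j => ginv_symm _ i j
    · filter_upwards [hev y hy] with v hv k
      exact ginv_gauss _ (hp _ hv).ne' _ (hg _ hv) k
  · refine crit_dt (hdiff hs y hy) (hz y hy) (hdiff (smooth_gram hs) y hy) ?_
    refine crit (hdiff (smooth_gram hs) y hy) ?_ ?_
    · exact Eventually.of_forall fun v i j => gram_symm _ i j
    · filter_upwards [hev y hy] with v hv k
      exact hg _ hv k

end rad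

end

end Vale.Agent.P211.HK.RadCoef
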