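import Vale.Agent.P211.HK.RGDefs
import Vale.Agent.P211.HK.RadCoef

/-! P211 / HK: RG2 (helper853). Gauss lemma and normalisation at the centre. -/

set_option maxSynthPendingDepth 3
set_option linter.unusedSectionVars false

namespace Vale.Agent.P211.HK

open scoped Manifold ContDiff Topology RealInnerProductSpace
open Bundle Filter VectorField MeasureTheory Set
open Vale.Agent.P234 Vale.Agent.P231

noncomputable section

variable {E : Type} [NormedAddCommGroup E] [NormedSpace ℝ E] [FiniteDimensional ℝ E]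
  {M : Type} [MetricSpace M] [ChartedSpace E M] [IsManifold 𝓘(ℝ, E) ∞ M]
  [RiemannianBundle fun p : M => TangentSpace 𝓘(ℝ, E) p]
  [IsContMDiffRiemannianBundle 𝓘(ℝ, E) ∞ E fun p : M => TangentSpace 𝓘(ℝ, E) p]

namespace RG2

variable {e : ∀ x : M, TangentSpace 𝓘(ℝ, E) x → M} {om : Form4 E M} {D : ℝ}

/-- Gauss lemma, product form -/
theorem gauss_dE [CompactSpace M] (F : Facts e) (x : M) (v w : E) :
    P231.ip (e x v) (dE e x v w) (dE e x v v) = P231.ip x w v := by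
  by_cases hv : nm x v = 0
  · have hv0 : v = 0 := norm_eq_zero (E := TangentSpace 𝓘(ℝ, E) x).1 hv
    subst hv0
    have h0 : e x (0 : E) = x := F.isExp.map_zero x
    rw [h0, dE_zero_base F.isExp, dE_zero_base F.isExp]
  · obtain ⟨r, hr⟩ : ∃ r, r = nm x v := ⟨_, rfl⟩
    rw [← hr] at hv
    have hr0 : 0 < r := lt_of_le_of_ne (hr ▸ nm_nonneg x v) (Ne.symm hv)
    obtain ⟨u, hu1, hvu⟩ : ∃ u : E, nm x u = 1 ∧ r • u = v := by
      refine ⟨r⁻¹ • v, ?_, ?_⟩
      · rw [nm_smul, ← hr, abs_of_pos (inv_pos.2 hr0), inv_mul_cancel₀ hv]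
      · rw [smul_smul, mul_inv_cancel₀ hv, one_smul]
    have h1 := gauss F x u hu1 0 r w
    rw [gam_zero F.isExp, vel_zero F.isExp, sub_zero] at h1
    have h2 : jf e x u 0 r w = r • dE e x (r • u) w := by
      unfold jf
      rw [gam_zero F.isExp, vel_zero F.isExp, sub_zero]
    rw [h2, asm_ip_smul_left] at h1
    have h3 := mul_left_cancel₀ hv h1
    unfold vel gam at h3
    rw [hvu] at h3
    have h5 : dE e x v v = r • dE e x v u := by
      rw [← dE_smul, hvu]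
    rw [h5, asm_ip_smul_right, h3, ← asm_ip_smul_right, hvu]

variable (L : LocD om D)

theorem q_mem {y : E} (hy : y ∈ L.U) : L.q y ∈ L.O' :=
  L.near _ hy.2 _ (by rw [dist_self]; exact L.D_pos)

theorem on_q {y : E} (hy : y ∈ L.U) : Orthonormal ℝ fun i => L.Fr i (L.q y) :=
  (L.pon _ (q_mem L hy)).1

theorem vec_zero (y : E) : L.vec (y, 0) = 0 := by
  unfold LocD.vec
  exact Finset.sum_eq_zero fun i _ => zero_smul ℝ _

theorem ex_zero (F : Facts e) (y : E) : L.ex e (y, 0) = L.q y := by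
  unfold LocD.ex
  rw [vec_zero]
  exact F.isExp.map_zero _

theorem ip_vec {x : E × Eu4} (hx : x.1 ∈ L.U) (i : Fin 4) :
    P231.ip (E := E) (L.q x.1) (L.Fr i (L.q x.1)) (L.vec x) = x.2 i :=
  (on_q L hx).inner_right_fintype (fun j => x.2 j) i

theorem dE_vec (x : E × Eu4) : (dE e (L.q x.1) (L.vec x) (L.vec x) : E) =
    ∑ j, x.2 j • (dE e (L.q x.1) (L.vec x) (L.Fr j (L.q x.1)) : E) := by
  have h := map_sum (dEl e (L.q x.1) (L.vec x)) (fun j => (x.2 j • L.Fr j (L.q x.1) : E))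
    Finset.univ
  refine (h.trans ?_)
  exact Finset.sum_congr rfl fun j _ => (dEl e (L.q x.1) (L.vec x)).map_smul _ _

/-- the Gauss lemma for the metric coefficients -/
theorem gauss_gm [CompactSpace M] (F : Facts e) {x : E × Eu4} (hx : x.1 ∈ L.U)
    (hd : ∀ k, L.dk e x k = (dE e (L.q x.1) (L.vec x) (L.Fr k (L.q x.1)) : E)) (i : Fin 4) :
    ∑ j, L.gm e x i j * x.2 j = x.2 i := by
  have h1 := gauss_dE F (L.q x.1) (L.vec x) (L.Fr i (L.q x.1))
  rw [ip_vec L hx, dE_vec L x, asm_ip_sum_right] at h1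
  rw [← h1]
  refine Finset.sum_congr rfl fun j _ => ?_
  rw [asm_ip_smul_right, mul_comm]
  congr 1
  change P231.ip (E := E) (L.ex e x) (L.dk e x i) (L.dk e x j) = _
  rw [hd i, hd j]
  rfl

theorem th_zero (F : Facts e) {y : E} (hy : y ∈ L.U)
    (hd : ∀ k, L.dk e (y, 0) k = (dE e (L.q y) (L.vec (y, 0)) (L.Fr k (L.q y)) : E)) :
    L.th e (y, 0) = idM := by
  funext k l
  have h1 : (L.dk e (y, 0) k : E) = L.Fr k (L.q y) := by
    rw [hd k, vec_zero]
    exact dE_zero_base F.isExp _ _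
  change P231.ip (E := E) (L.ex e (y, 0)) (L.dk e (y, 0) k) (L.Fr l (L.ex e (y, 0))) = _
  rw [h1]
  have h2 := ex_zero (e := e) L F y
  have h3 : P231.ip (E := E) (L.ex e (y, 0)) (L.Fr k (L.q y)) (L.Fr l (L.ex e (y, 0))) =
      P231.ip (E := E) (L.q y) (L.Fr k (L.q y)) (L.Fr l (L.q y)) := by
    rw [h2]
  rw [h3]
  have h4 := orthonormal_iff_ite.1 (on_q L hy) k l
  exact h4

end RG2

variable {e : ∀ x : M, TangentSpace 𝓘(ℝ, E) x → M}
  {cov : CovariantDerivative 𝓘(ℝ, E) E (TangentSpace 𝓘(ℝ, E) : M → Type)} {om : Form4 E M}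

/-- all metric fields of the radial data -/
theorem RG2.coefL [CompactSpace M] (h1 : RG1Stmt e cov om) {D : ℝ} (H : RGH e cov om D)
    (L : LocD om D) : RadCoef.Coef L.U D (fun x => RadCoef.ginv (L.th e x))
      (fun x => RadCoef.dt (L.th e x)) ∧ ∀ x ∈ L.UB, L.gi e x = RadCoef.ginv (L.th e x) := by
  obtain ⟨hU, -, -, -, hdk, hth, -, -, -, -, hall⟩ := h1 D H L
  have hgm : ∀ x ∈ L.UB, L.gm e x = RadCoef.gram (L.th e x) := fun x hx => (hall x hx).2.1
  refine ⟨RadCoef.coef hU L.D_pos hth (fun x hx => (hall x hx).1) (fun y hy => ?_)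
    (fun x hx k => ?_), fun x hx => ?_⟩
  · exact RG2.th_zero L H.facts hy fun k => hdk (y, 0) ⟨hy, trivial⟩ k
  · rw [← hgm x hx]
    exact RG2.gauss_gm L H.facts hx.1 (fun k => hdk x ⟨hx.1, trivial⟩ k) k
  · unfold LocD.gi RadCoef.ginv
    rw [hgm x hx]

/-- RG2 -/
theorem rg2 [CompactSpace M] (h1 : RG1Stmt e cov om) : RG2Stmt e cov om := by
  intro D H L
  obtain ⟨hC, hgi⟩ := RG2.coefL h1 H L
  have hmem : ∀ y ∈ L.U, ((y, 0) : E × Eu4) ∈ L.UB := fun y hy =>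
    ⟨hy, Metric.mem_ball_self L.D_pos⟩
  have hev : ∀ y ∈ L.U, ∀ᶠ v in 𝓝 (0 : Eu4), ((y, v) : E × Eu4) ∈ L.UB := fun y hy => by
    filter_upwards [Metric.ball_mem_nhds (0 : Eu4) L.D_pos] with v hv using ⟨hy, hv⟩
  have hdk := (h1 D H L).2.2.2.2.1
  refine ⟨fun x hx i => ⟨?_, ?_⟩, fun y hy => ⟨RG2.ex_zero L H.facts y, ?_, ?_, ?_, ?_, ?_⟩⟩
  · rw [hgi x hx]
    exact hC.gauss x hx i
  · exact RG2.gauss_gm L H.facts hx.1 (fun k => hdk x ⟨hx.1, trivial⟩ k) i
  · exact RG2.th_zero L H.facts hy fun k => hdk (y, 0) ⟨hy, trivial⟩ k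
  · rw [hgi _ (hmem y hy)]
    funext i j
    exact hC.gi_zero y hy i j
  · exact hC.J_zero y hy
  · have : (fun v => L.gi e (y, v)) =ᶠ[𝓝 0] fun v => RadCoef.ginv (L.th e (y, v)) := by
      filter_upwards [hev y hy] with v hv using hgi _ hv
    rw [this.fderiv_eq]
    exact hC.gi_crit y hy
  · exact hC.J_crit y hy

end

end Vale.Agent.P211.HK
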