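import Vale.Agent.P211.HK.SecStmt
import Vale.Agent.P211.HK.EUDefs
import Vale.Agent.P231.Bd3.B3

/-! P211 / HK: FROZEN interface of the radial gauge part RG (normal coordinates with a moving centre,
radially parallel frame). architect helper184.

One chart, one frame: the centre `q y` runs over a chart domain on which one smooth positively
oriented orthonormal frame `Fr` is given. -/

set_option maxSynthPendingDepth 3
set_option linter.unusedSectionVars false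

namespace Vale.Agent.P211.HK

open scoped Manifold ContDiff Topology RealInnerProductSpace
open Bundle Filter VectorField MeasureTheory Set
open Vale.Agent.P234 Vale.Agent.P231

noncomputable section

variable {E : Type} [NormedAddCommGroup E] [NormedSpace ℝ E] [FiniteDimensional ℝ E]
  {M : Type} [MetricSpace M] [ChartedSpace E M] [IsManifold 𝓘(ℝ, E) ∞ M]
  [RiemannianBundle fun p : M => TangentSpace 𝓘(ℝ, E) p]
  [IsContMDiffRiemannianBundle 𝓘(ℝ, E) ∞ E fun p : M => TangentSpace 𝓘(ℝ, E) p]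

/-- a chart, a frame `Fr` on the open set `O'`, and an open set `O` of centres -/
structure LocD (om : Form4 E M) (D : ℝ) where
  p0 : M
  Fr : Fin 4 → VF E M
  O : Set M
  O' : Set M
  D_pos : 0 < D
  mem : p0 ∈ O
  O_open : IsOpen O
  O'_open : IsOpen O'
  chart : O' ⊆ (chartAt E p0).source
  pon : ∀ p ∈ O', PON om p fun i => Fr i p
  near : ∀ p ∈ O, ∀ p', dist p p' < D → p' ∈ O'

namespace LocD

variable {om : Form4 E M} {D : ℝ} (L : LocD om D)
  (e : ∀ x : M, TangentSpace 𝓘(ℝ, E) x → M)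
  (cov : CovariantDerivative 𝓘(ℝ, E) E (TangentSpace 𝓘(ℝ, E) : M → Type))

/-- the point with chart coordinates `y` -/
def q (y : E) : M := (extChartAt 𝓘(ℝ, E) L.p0).symm y

/-- the open set of parameters (chart coordinates of the centre) -/
def U : Set E := {y | y ∈ (extChartAt 𝓘(ℝ, E) L.p0).target ∧ L.q y ∈ L.O}

/-- `U × ball D` -/
def UB : Set (E × Eu4) := L.U ×ˢ Metric.ball (0 : Eu4) D

/-- the tangent vector `∑ v_i F_i` at the centre -/
def vec (x : E × Eu4) : TangentSpace 𝓘(ℝ, E) (L.q x.1) := ∑ i, x.2 i • L.Fr i (L.q x.1)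

/-- normal coordinates with centre `q y` -/
def ex (x : E × Eu4) : M := e (L.q x.1) (L.vec x)

/-- the coordinate vectors -/
def dk (x : E × Eu4) (k : Fin 4) : TangentSpace 𝓘(ℝ, E) (L.ex e x) :=
  mfderiv 𝓘(ℝ, Eu4) 𝓘(ℝ, E) (fun v => L.ex e (x.1, v)) x.2 (ev4 k)

/-- components of the coordinate vectors in the frame `Fr` -/
def th (x : E × Eu4) : Mat4 := fun k l => inner ℝ (L.dk e x k) (L.Fr l (L.ex e x))

/-- the metric -/
def gm (x : E × Eu4) : Mat4 := fun i j => inner ℝ (L.dk e x i) (L.dk e x j)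

/-- the inverse metric -/
def gi (x : E × Eu4) : Mat4 := fun i j => (Matrix.of (L.gm e x))⁻¹ i j

/-- the volume density -/
def Jd (x : E × Eu4) : ℝ := (Matrix.of (L.th e x)).det

/-- matrices of the connection along the coordinate vectors, in the frame `Fr` -/
def Gk (x : E × Eu4) (k : Fin 4) : Mat4 := fun i j =>
  ∑ l, L.th e x k l * GaF cov L.Fr (L.ex e x) l i j

/-- the rotation `a` from the frame `Fr` to the radially parallel frame `fact Fr a` -/
structure Rot where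
  a : E × Eu4 → Mat4
  smooth : ContDiffOn ℝ ∞ a L.UB
  so : ∀ x ∈ L.UB, IsSO (a x)
  one : ∀ y ∈ L.U, a (y, 0) = idM
  rad : ∀ x ∈ L.UB, fderiv ℝ (fun v => a (x.1, v)) x.2 x.2 =
    - mulM (∑ k, x.2 k • L.Gk e cov x k) (a x)

variable {L e cov} (T : L.Rot e cov)

/-- the radially parallel frame at `ex x` -/
def Rot.eh (x : E × Eu4) : Fin 4 → TangentSpace 𝓘(ℝ, E) (L.ex e x) :=
  fact (fun i => L.Fr i (L.ex e x)) (T.a x)

/-- connection matrices of the radially parallel frame -/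
def Rot.A (x : E × Eu4) (k : Fin 4) : Mat4 :=
  mulM (trM (T.a x)) (mulM (L.Gk e cov x k) (T.a x)) +
    mulM (trM (T.a x)) (fderiv ℝ (fun v => T.a (x.1, v)) x.2 (ev4 k))

variable {W : Type} [NormedAddCommGroup W] [InnerProductSpace ℝ W]

/-- `Q` is the radial data of the representation `R` -/
structure Rot.IsRad (T : L.Rot e cov) (R : Rep W) (Q : RadData E W L.U D) : Prop where
  gi : ∀ x ∈ L.UB, Q.gi x = L.gi e x
  J : ∀ x ∈ L.UB, Q.J x = L.Jd e x
  B : ∀ x ∈ L.UB, ∀ k, Q.B x k = R.d (T.A x k)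

/-- a section in normal coordinates and radial gauge -/
def Rot.pull (T : L.Rot e cov) (u : PreS E M W) (x : E × Eu4) : W := u (L.ex e x) (T.eh x)

variable (L e) in
/-- normal coordinates of the point `p` (centre `q y`) -/
def co (y : E) (p : M) : Eu4 :=
  WithLp.toLp 2 fun i => inner ℝ (logMap e (L.q y) p) (L.Fr i (L.q y))

/-- the radially parallel frame (centre `q y`) at the point `p` -/
def Rot.eq (y : E) (p : M) : Fin 4 → TangentSpace 𝓘(ℝ, E) p :=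
  fact (fun i => L.Fr i p) (T.a (y, L.co e y p))

/-- the rotation from the radially parallel frame to the frame `F` (transposed) -/
def Rot.h (y : E) (p : M) (F : Fin 4 → TangentSpace 𝓘(ℝ, E) p) : Mat4 := fun i j =>
  inner ℝ (F i) (T.eq y p j)

open Classical in
/-- the section with components `f` in normal coordinates and radial gauge -/
def Rot.push (R : Rep W) (T : L.Rot e cov) (y : E) (f : Eu4 → W) : PreS E M W := fun p F =>
  if PON om p F ∧ dist (L.q y) p < D then R.ρ (T.h y p F) (f (L.co e y p)) else 0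

end LocD

variable (e : ∀ x : M, TangentSpace 𝓘(ℝ, E) x → M)
  (cov : CovariantDerivative 𝓘(ℝ, E) E (TangentSpace 𝓘(ℝ, E) : M → Type)) (om : Form4 E M)

/-- standing hypotheses -/
structure RGH (D : ℝ) : Prop where
  geo : Geo4 cov om
  facts : Facts e
  inj : InjGE e D

/-- RG0: finitely many local data cover `M`. -/
def RG0Stmt : Prop := Geo4 cov om → ∀ D0 : ℝ, 0 < D0 → ∃ (D : ℝ) (n : ℕ) (L : Fin n → LocD om D),
  0 < D ∧ D < D0 ∧ ∀ p : M, ∃ i, p ∈ (L i).O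

/-- RG1: smoothness and positivity. -/
def RG1Stmt : Prop := ∀ D : ℝ, RGH e cov om D → ∀ L : LocD om D,
  IsOpen L.U ∧
  (∀ x ∈ L.UB, L.ex e x ∈ L.O' ∧ dist (L.q x.1) (L.ex e x) = ‖x.2‖) ∧
  ContMDiffOn 𝓘(ℝ, E × Eu4) 𝓘(ℝ, E) ∞ (L.ex e) (L.U ×ˢ univ) ∧
  (∀ X : VF E M, ∀ k, ContDiffOn ℝ ∞
    (fun x => (inner ℝ (L.dk e x k) (X (L.ex e x)) : ℝ)) (L.U ×ˢ univ)) ∧
  (∀ x ∈ L.U ×ˢ (univ : Set Eu4), ∀ k, L.dk e x k =
    (dE e (L.q x.1) (L.vec x) (L.Fr k (L.q x.1)) : E)) ∧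
  ContDiffOn ℝ ∞ (L.th e) L.UB ∧ ContDiffOn ℝ ∞ (L.gm e) L.UB ∧ ContDiffOn ℝ ∞ (L.gi e) L.UB ∧
  ContDiffOn ℝ ∞ (L.Jd e) L.UB ∧ (∀ k, ContDiffOn ℝ ∞ (fun x => L.Gk e cov x k) L.UB) ∧
  (∀ x ∈ L.UB, 0 < L.Jd e x ∧ L.gm e x = mulM (L.th e x) (trM (L.th e x)) ∧
    mulM (L.gi e x) (L.gm e x) = idM ∧ mulM (L.gm e x) (L.gi e x) = idM ∧
    (∀ i j, L.gi e x i j = L.gi e x j i) ∧ ∀ k i j, L.Gk e cov x k i j = - L.Gk e cov x k j i)

/-- RG2: Gauss lemma and normalisation at the centre. -/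
def RG2Stmt : Prop := ∀ D : ℝ, RGH e cov om D → ∀ L : LocD om D,
  (∀ x ∈ L.UB, ∀ i, ∑ j, L.gi e x i j * x.2 j = x.2 i ∧ ∑ j, L.gm e x i j * x.2 j = x.2 i) ∧
  (∀ y ∈ L.U, L.ex e (y, 0) = L.q y ∧ L.th e (y, 0) = idM ∧ L.gi e (y, 0) = idM ∧
    L.Jd e (y, 0) = 1 ∧ fderiv ℝ (fun v => L.gi e (y, v)) 0 = 0 ∧
    fderiv ℝ (fun v => L.Jd e (y, v)) 0 = 0)

/-- RG3: the rotation exists. -/
def RG3Stmt : Prop := ∀ D : ℝ, RGH e cov om D → ∀ L : LocD om D, Nonempty (L.Rot e cov)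

/-- RG3b: the radial gauge. -/
def RG3bStmt : Prop := ∀ D : ℝ, RGH e cov om D → ∀ (L : LocD om D) (T : L.Rot e cov),
  (∀ k, ContDiffOn ℝ ∞ (fun x => T.A x k) L.UB) ∧
  (∀ x ∈ L.UB, (∀ k i j, T.A x k i j = - T.A x k j i) ∧ ∑ k, x.2 k • T.A x k = 0) ∧
  ∀ x ∈ L.UB, PON om (L.ex e x) (T.eh x)

/-- RGQ: the radial data of a representation. -/
def RGQStmt : Prop := ∀ D : ℝ, RGH e cov om D → ∀ (L : LocD om D) (T : L.Rot e cov)
  (W : Type) [NormedAddCommGroup W] [InnerProductSpace ℝ W] [FiniteDimensional ℝ W] (R : Rep W),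
  ∃ Q : RadData E W L.U D, T.IsRad R Q

/-- RG4: covariant derivatives in normal coordinates and radial gauge. -/
def RG4Stmt : Prop := ∀ D : ℝ, RGH e cov om D → ∀ (L : LocD om D) (T : L.Rot e cov)
  (W : Type) [NormedAddCommGroup W] [InnerProductSpace ℝ W] [FiniteDimensional ℝ W] (R : Rep W)
  (Q : RadData E W L.U D), T.IsRad R Q → ∀ u ∈ Sec (E := E) (M := M) om R,
  ContDiffOn ℝ ∞ (T.pull u) L.UB ∧
  ∀ x ∈ L.UB, ∀ k, Q.dW x.1 (fun v => T.pull u (x.1, v)) k x.2 =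
    ∑ l, mulM (L.th e x) (T.a x) k l • (nabS cov om u (L.ex e x) (T.eh x)) l

/-- RG5: curvature at the centre. -/
def RG5Stmt : Prop := ∀ D : ℝ, RGH e cov om D → ∀ (L : LocD om D) (T : L.Rot e cov)
  (W : Type) [NormedAddCommGroup W] [InnerProductSpace ℝ W] [FiniteDimensional ℝ W] (R : Rep W)
  (Q : RadData E W L.U D), T.IsRad R Q → ∀ y ∈ L.U, ∀ i j,
  Q.Omg y i j = R.d (Om cov (L.q y) (fun m => L.Fr m (L.q y)) i j)

/-- RG6: the Laplacian in normal coordinates and radial gauge. -/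
def RG6Stmt : Prop := ∀ D : ℝ, RGH e cov om D → ∀ (L : LocD om D) (T : L.Rot e cov)
  (W : Type) [NormedAddCommGroup W] [InnerProductSpace ℝ W] [FiniteDimensional ℝ W] (R : Rep W)
  (Q : RadData E W L.U D), T.IsRad R Q → ∀ u ∈ Sec (E := E) (M := M) om R, ∀ x ∈ L.UB,
  T.pull (lapS cov om u) x = Q.lapW x.1 (fun v => T.pull u (x.1, v)) x.2

/-- RG7: inverse of the normal coordinates, jointly smooth. -/
def RG7Stmt : Prop := ∀ D : ℝ, RGH e cov om D → ∀ L : LocD om D,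
  (∀ y ∈ L.U, ∀ p, dist (L.q y) p < D → ‖L.co e y p‖ = dist (L.q y) p ∧
    L.ex e (y, L.co e y p) = p ∧
    ContMDiffAt (𝓘(ℝ, E).prod 𝓘(ℝ, E)) 𝓘(ℝ, Eu4) ∞ (fun z : E × M => L.co e z.1 z.2) (y, p)) ∧
  (∀ x ∈ L.UB, L.co e x.1 (L.ex e x) = x.2) ∧
  (∀ (T : L.Rot e cov) (F : Fin 4 → VF E M), ∀ y ∈ L.U, ∀ p, dist (L.q y) p < D →
    PONnear om p F → PON om p (T.eq y p) ∧ IsSO (T.h y p fun i => F i p) ∧
    ContMDiffAt (𝓘(ℝ, E).prod 𝓘(ℝ, E)) 𝓘(ℝ, Mat4) ∞
      (fun z : E × M => T.h z.1 z.2 fun i => F i z.2) (y, p))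

/-- RG7b: sections from functions of the normal coordinates. -/
def RG7bStmt : Prop := ∀ D : ℝ, RGH e cov om D → ∀ (L : LocD om D) (T : L.Rot e cov)
  (W : Type) [NormedAddCommGroup W] [InnerProductSpace ℝ W] [FiniteDimensional ℝ W] (R : Rep W)
  (Q : RadData E W L.U D), T.IsRad R Q → ∀ y ∈ L.U, ∀ (f : Eu4 → W) (r : ℝ),
  ContDiffOn ℝ ∞ f (Metric.ball 0 D) → r < D → (∀ v, r ≤ ‖v‖ → f v = 0) →
  T.push R y f ∈ Sec om R ∧ (∀ v, ‖v‖ < D → T.pull (T.push R y f) (y, v) = f v) ∧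
  lapS cov om (T.push R y f) = T.push R y (Q.lapW y f)

/-- RG8: change of variables. -/
def RG8Stmt [MeasurableSpace M] [BorelSpace M] : Prop :=
  ∀ D : ℝ, RGH e cov om D → ∀ L : LocD om D, ∀ y ∈ L.U,
  Measure.map (fun v : Eu4 => L.ex e (y, v))
    ((volume.restrict (Metric.ball (0 : Eu4) D)).withDensity
      fun v => ENNReal.ofReal (L.Jd e (y, v))) =
  (riemVol 4 M).restrict {p | dist (L.q y) p < D}

end

end Vale.Agent.P211.HK
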