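import Vale.Agent.P211.HK.RadGauge
import Vale.Agent.P211.HK.RGDefs
import Vale.Agent.P211.HK.SC0

set_option linter.all false
set_option maxSynthPendingDepth 3

/-! P211 / HK (helper961): RG3, RG3b, the rotation and the radial gauge. -/

namespace Vale.Agent.P211.HK

open scoped Manifold ContDiff Topology RealInnerProductSpace
open Bundle Filter VectorField MeasureTheory Set
open Vale.Agent.P234 Vale.Agent.P231

noncomputable section

variable {E : Type} [NormedAddCommGroup E] [NormedSpace ℝ E] [FiniteDimensional ℝ E]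
  {M : Type} [MetricSpace M] [ChartedSpace E M] [IsManifold 𝓘(ℝ, E) ∞ M]
  [RiemannianBundle fun p : M => TangentSpace 𝓘(ℝ, E) p]
  [IsContMDiffRiemannianBundle 𝓘(ℝ, E) ∞ E fun p : M => TangentSpace 𝓘(ℝ, E) p]
  (e : ∀ x : M, TangentSpace 𝓘(ℝ, E) x → M)
  (cov : CovariantDerivative 𝓘(ℝ, E) E (TangentSpace 𝓘(ℝ, E) : M → Type)) (om : Form4 E M)

variable {e cov om} in
lemma rot_A_eq {D : ℝ} {L : LocD om D} (T : L.Rot e cov) : T.A = radA (L.Gk e cov) T.a := rfl

/-- **RG3.** The rotation exists. -/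
theorem rg3 (h1 : RG1Stmt e cov om) : RG3Stmt e cov om := by
  intro D hD L
  obtain ⟨hU, -, -, -, -, -, -, -, -, hG, hx⟩ := h1 D hD L
  obtain ⟨a, ha, hso, h0, hrad⟩ := exists_radGauge_global (G := L.Gk e cov) hU L.D_pos
    (contDiffOn_pi.2 hG) (fun z hz k i j => (hx z hz).2.2.2.2.2 k i j)
  exact ⟨⟨a, ha, hso, h0, hrad⟩⟩

/-- **RG3b.** The radial gauge. -/
theorem rg3b (h1 : RG1Stmt e cov om) : RG3bStmt e cov om := by
  intro D hD L T
  obtain ⟨hU, hO, -, -, -, -, -, -, -, hG, hx⟩ := h1 D hD L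
  have hB : IsOpen L.UB := hU.prod Metric.isOpen_ball
  refine ⟨fun k => radA_smooth hB hG T.smooth k, fun x hxU => ⟨fun k i j => ?_, ?_⟩, fun x hxU => ?_⟩
  · exact radA_skew hB (fun z hz k i j => (hx z hz).2.2.2.2.2 k i j) T.smooth T.so hxU k i j
  · exact radA_radial (T.rad x hxU)
  · exact (sc0 hD.geo).2.2.1 _ _ _ (L.pon _ (hO x hxU).1) (T.so x hxU)

/-- the connection of the radial gauge vanishes at the centre -/
theorem rg3_zero (h1 : RG1Stmt e cov om) {D : ℝ} (hD : RGH e cov om D) (L : LocD om D)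
    (T : L.Rot e cov) {y : E} (hy : y ∈ L.U) (k : Fin 4) : T.A (y, 0) k = 0 := by
  obtain ⟨hU, hO, -, -, -, -, -, -, -, hG, hx⟩ := h1 D hD L
  exact radA_zero hU L.D_pos hG T.smooth T.rad hy k

end

end Vale.Agent.P211.HK
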