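import Vale.Agent.P211.HK.ExSec
import Vale.Agent.P211.HK.SC5
import Vale.Agent.P211.HK.EUDefs
import Vale.Agent.P211.HK.SC2
import Vale.Agent.P211.HK.Reps

/-! P211 / HK: curvature at the centre of the radial gauge (helper702). -/

set_option maxSynthPendingDepth 3
set_option linter.unusedSectionVars false

namespace Vale.Agent.P211.HK.RGCurv

open scoped Manifold ContDiff Topology RealInnerProductSpace
open Bundle Filter VectorField

noncomputable section

/-! ### one-variable arguments at the centre -/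

theorem line_zero {X : Type*} [NormedAddCommGroup X] [NormedSpace ℝ X] {φ : Eu4 → X}
    (hφ : DifferentiableAt ℝ φ 0) (e : Eu4) (h : ∀ᶠ t : ℝ in 𝓝 0, t ≠ 0 → φ (t • e) = 0) :
    φ 0 = 0 ∧ fderiv ℝ φ 0 e = 0 := by
  have hl : HasDerivAt (fun t : ℝ => t • e) e 0 := by
    simpa using (hasDerivAt_id (0 : ℝ)).smul_const e
  have h0 : (0 : ℝ) • e = 0 := zero_smul ℝ e
  have hd : HasDerivAt (fun t : ℝ => φ (t • e)) (fderiv ℝ φ 0 e) 0 := by
    have h1 : HasFDerivAt φ (fderiv ℝ φ 0) ((0 : ℝ) • e) := by rw [h0]; exact hφ.hasFDerivAt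
    exact h1.comp_hasDerivAt 0 hl
  have hc : ContinuousAt (fun t : ℝ => φ (t • e)) 0 := hd.continuousAt
  have hz : φ 0 = 0 := by
    have h1 : Tendsto (fun t : ℝ => φ (t • e)) (𝓝[≠] 0) (𝓝 (φ ((0 : ℝ) • e))) :=
      hc.tendsto.mono_left nhdsWithin_le_nhds
    have h2 : Tendsto (fun t : ℝ => φ (t • e)) (𝓝[≠] 0) (𝓝 0) := by
      refine tendsto_const_nhds.congr' ?_
      rw [EventuallyEq, eventually_nhdsWithin_iff]
      filter_upwards [h] with t ht h0 using (ht h0).symm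
    have h3 := tendsto_nhds_unique h1 h2
    rwa [h0] at h3
  refine ⟨hz, ?_⟩
  have h1 : (fun t : ℝ => φ (t • e)) =ᶠ[𝓝 0] fun _ => 0 := by
    filter_upwards [h] with t ht
    by_cases h2 : t = 0
    · rw [h2, h0, hz]
    · exact ht h2
  have h2 := h1.hasDerivAt_iff.mp hd
  exact h2.unique (hasDerivAt_const 0 0)

theorem ev4_apply (i k : Fin 4) : (ev4 i) k = if k = i then 1 else 0 := by
  simp [ev4]

/-- a radial field of matrices vanishes at the centre and has a skew derivative there -/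
theorem radial_centre {X : Type*} [NormedAddCommGroup X] [NormedSpace ℝ X] {A : Eu4 → Fin 4 → X}
    (hA : DifferentiableAt ℝ A 0) (hr : ∀ᶠ v in 𝓝 (0 : Eu4), ∑ k, v k • A v k = 0) :
    (∀ k, A 0 k = 0) ∧ ∀ i j, fderiv ℝ (fun v => A v j) 0 (ev4 i) =
      - fderiv ℝ (fun v => A v i) 0 (ev4 j) := by
  have hk : ∀ k, DifferentiableAt ℝ (fun v => A v k) 0 := fun k =>
    (differentiableAt_pi.mp hA) k
  have hline : ∀ e : Eu4, ∀ᶠ t : ℝ in 𝓝 0, ∑ k, (t • e) k • A (t • e) k = 0 := by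
    intro e
    have h1 : ContinuousAt (fun t : ℝ => t • e) 0 := by fun_prop
    have h2 : Tendsto (fun t : ℝ => t • e) (𝓝 0) (𝓝 (0 : Eu4)) := by
      have := h1.tendsto
      simpa using this
    exact h2.eventually hr
  have h1 : ∀ k, A 0 k = 0 ∧ fderiv ℝ (fun v => A v k) 0 (ev4 k) = 0 := by
    intro k
    refine line_zero (hk k) (ev4 k) ?_
    filter_upwards [hline (ev4 k)] with t ht h0
    have : ∑ l, (t • ev4 k) l • A (t • ev4 k) l = t • A (t • ev4 k) k := by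
      rw [Finset.sum_eq_single k]
      · simp [ev4_apply]
      · intro l _ hl; simp [ev4_apply, hl]
      · simp
    rw [this] at ht
    exact (smul_eq_zero.mp ht).resolve_left h0
  refine ⟨fun k => (h1 k).1, fun i j => ?_⟩
  by_cases hij : i = j
  · subst hij; rw [(h1 i).2, neg_zero]
  have h2 : fderiv ℝ (fun v => A v i + A v j) 0 (ev4 i + ev4 j) = 0 := by
    refine (line_zero ((hk i).add (hk j)) (ev4 i + ev4 j) ?_).2
    filter_upwards [hline (ev4 i + ev4 j)] with t ht h0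
    have : ∑ l, (t • (ev4 i + ev4 j)) l • A (t • (ev4 i + ev4 j)) l =
        t • (A (t • (ev4 i + ev4 j)) i + A (t • (ev4 i + ev4 j)) j) := by
      rw [← Finset.sum_subset (Finset.subset_univ {i, j}), Finset.sum_pair hij]
      · simp [ev4_apply, hij, Ne.symm hij, smul_add]
      · intro l _ hl
        simp only [Finset.mem_insert, Finset.mem_singleton, not_or] at hl
        simp [ev4_apply, hl.1, hl.2]
    rw [this] at ht
    exact (smul_eq_zero.mp ht).resolve_left h0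
  have h3 : fderiv ℝ (fun v => A v i + A v j) 0 =
      fderiv ℝ (fun v => A v i) 0 + fderiv ℝ (fun v => A v j) 0 := fderiv_add (hk i) (hk j)
  rw [h3, map_add] at h2
  simp only [_root_.add_apply, (h1 i).2, (h1 j).2, zero_add, add_zero] at h2
  exact eq_neg_of_add_eq_zero_left h2

theorem hasDerivAt_line {X : Type*} [NormedAddCommGroup X] [NormedSpace ℝ X] {φ : Eu4 → X}
    (hφ : DifferentiableAt ℝ φ 0) (e : Eu4) :
    HasDerivAt (fun t : ℝ => φ (t • e)) (fderiv ℝ φ 0 e) 0 := by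
  have hl : HasDerivAt (fun t : ℝ => t • e) e 0 := by
    simpa using (hasDerivAt_id (0 : ℝ)).smul_const e
  have h0 : (0 : ℝ) • e = 0 := zero_smul ℝ e
  have h1 : HasFDerivAt φ (fderiv ℝ φ 0) ((0 : ℝ) • e) := by rw [h0]; exact hφ.hasFDerivAt
  exact h1.comp_hasDerivAt 0 hl

/-! ### the gauge law and the curvature -/

variable {W : Type} [NormedAddCommGroup W] [InnerProductSpace ℝ W]

variable {E : Type} [NormedAddCommGroup E] [NormedSpace ℝ E] [FiniteDimensional ℝ E]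
  {M : Type} [TopologicalSpace M] [ChartedSpace E M] [IsManifold 𝓘(ℝ, E) ∞ M] [T2Space M]
  [RiemannianBundle fun p : M => TangentSpace 𝓘(ℝ, E) p]
  [IsContMDiffRiemannianBundle 𝓘(ℝ, E) ∞ E fun p : M => TangentSpace 𝓘(ℝ, E) p]

/-- the gauge law near the centre: `(∂_k + A_k) U = ∑_l th_kl (∇ u)_l` -/
def Gauge (cov : CovariantDerivative 𝓘(ℝ, E) E (TangentSpace 𝓘(ℝ, E) : M → Type))
    (om : Form4 E M) (ψ : Eu4 → M) (eh : (v : Eu4) → Fin 4 → TangentSpace 𝓘(ℝ, E) (ψ v))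
    (A : Eu4 → Fin 4 → Mat4) (th : Eu4 → Mat4) (R : Rep W) : Prop :=
  ∀ u ∈ Sec (E := E) om R, ContDiffAt ℝ ∞ (fun v => u (ψ v) (eh v)) 0 ∧
    ∀ᶠ v in 𝓝 (0 : Eu4), ∀ k, fderiv ℝ (fun v' => u (ψ v') (eh v')) v (ev4 k) +
      R.d (A v k) (u (ψ v) (eh v)) = ∑ l, th v k l • (nabS cov om u (ψ v) (eh v)) l

variable {cov : CovariantDerivative 𝓘(ℝ, E) E (TangentSpace 𝓘(ℝ, E) : M → Type)}
  {om : Form4 E M} {ψ : Eu4 → M} {eh : (v : Eu4) → Fin 4 → TangentSpace 𝓘(ℝ, E) (ψ v)}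
  {A : Eu4 → Fin 4 → Mat4} {th : Eu4 → Mat4}

theorem curv_core (hG : Geo4 cov om) (h2 : SC2Stmt cov om) [FiniteDimensional ℝ W] (R : Rep W)
    (R' : Rep (Tn W)) (hT : Tens R R') (hp : PON om (ψ 0) (eh 0)) (hA : DifferentiableAt ℝ A 0)
    (hr : ∀ᶠ v in 𝓝 (0 : Eu4), ∑ k, v k • A v k = 0) (hth : DifferentiableAt ℝ th 0)
    (h0 : th 0 = idM) (g1 : Gauge cov om ψ eh A th R) (g2 : Gauge cov om ψ eh A th R')
    (i j : Fin 4) :
    R.d ((2 : ℝ) • fderiv ℝ (fun v => A v j) 0 (ev4 i)) = R.d (Om cov (ψ 0) (eh 0) i j) := by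
  obtain ⟨hA0, hAs⟩ := radial_centre hA hr
  have hAk : ∀ k, DifferentiableAt ℝ (fun v => A v k) 0 := fun k => (differentiableAt_pi.mp hA) k
  have hthk : ∀ k l, DifferentiableAt ℝ (fun v => th v k l) 0 := fun k l =>
    (differentiableAt_pi.mp ((differentiableAt_pi.mp hth) k)) l
  ext w
  obtain ⟨u, hu, huw, hun⟩ := Ex.exists_sec hG R hp w
  have hu' := h2 hG W R R' hT u hu
  obtain ⟨hU, gU⟩ := g1 u hu
  obtain ⟨hN, gN⟩ := g2 (nabS cov om u) hu'
  set U : Eu4 → W := fun v => u (ψ v) (eh v) with hUdef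
  set N : Eu4 → Tn W := fun v => nabS cov om u (ψ v) (eh v) with hNdef
  have hU0 : U 0 = w := huw
  have hN0 : N 0 = 0 := hun
  have hUd : DifferentiableAt ℝ U 0 := hU.differentiableAt (by simp)
  have hNd : DifferentiableAt ℝ N 0 := hN.differentiableAt (by simp)
  have hNl : ∀ l, DifferentiableAt ℝ (fun v => N v l) 0 := fun l =>
    ((PiLp.proj (𝕜 := ℝ) 2 (fun _ : Fin 4 => W) l).differentiableAt).comp (0 : Eu4) hNd
  have hNl' : ∀ l (e : Eu4), fderiv ℝ (fun v => N v l) 0 e = (fderiv ℝ N 0 e) l := by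
    intro l e
    have h3 : HasFDerivAt (fun v => N v l)
        ((PiLp.proj (𝕜 := ℝ) 2 (fun _ : Fin 4 => W) l).comp (fderiv ℝ N 0)) 0 :=
      (PiLp.proj (𝕜 := ℝ) 2 (fun _ : Fin 4 => W) l).hasFDerivAt.comp (0 : Eu4) hNd.hasFDerivAt
    rw [h3.fderiv]
    rfl
  -- the derivative of `N` at the centre
  have hdN : ∀ k, fderiv ℝ N 0 (ev4 k) = (nabS cov om (nabS cov om u) (ψ 0) (eh 0)) k := by
    intro k
    have h3 := gN.self_of_nhds k
    change fderiv ℝ N 0 (ev4 k) + R'.d (A 0 k) (N 0) = _ at h3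
    rw [hN0, map_zero, add_zero] at h3
    rw [h3, h0, Finset.sum_eq_single k]
    · simp [idM]
    · intro l _ hl; simp [idM, Ne.symm hl]
    · simp
  -- second derivatives
  let L : Mat4 →L[ℝ] (W →L[ℝ] W) := fderiv ℝ R.ρ idM
  have hL : ∀ X, R.d X = L X := fun X => rfl
  have key : ∀ a b : Fin 4, fderiv ℝ (fderiv ℝ U) 0 (ev4 a) (ev4 b) =
      (nabS cov om (nabS cov om u) (ψ 0) (eh 0)) a b -
        L (fderiv ℝ (fun v => A v b) 0 (ev4 a)) w := by
    intro a b
    have hU2 : DifferentiableAt ℝ (fderiv ℝ U) 0 :=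
      (hU.fderiv_right (m := 1) (by norm_cast)).differentiableAt (by simp)
    have e1 : HasDerivAt (fun t : ℝ => fderiv ℝ U (t • ev4 a) (ev4 b))
        (fderiv ℝ (fderiv ℝ U) 0 (ev4 a) (ev4 b)) 0 :=
      (hasDerivAt_line hU2 (ev4 a)).clm_apply (hasDerivAt_const (0 : ℝ) (ev4 b)) |>.congr_deriv
        (by simp)
    have z0 : (0 : ℝ) • ev4 a = 0 := zero_smul ℝ _
    have e2 : HasDerivAt (fun t : ℝ => ∑ l, th (t • ev4 a) b l • N (t • ev4 a) l -
        L (A (t • ev4 a) b) (U (t • ev4 a)))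
        ((nabS cov om (nabS cov om u) (ψ 0) (eh 0)) a b -
        L (fderiv ℝ (fun v => A v b) 0 (ev4 a)) w) 0 := by
      have e3 : ∀ l, HasDerivAt (fun t : ℝ => th (t • ev4 a) b l • N (t • ev4 a) l)
          (th 0 b l • (fderiv ℝ N 0 (ev4 a)) l) 0 := by
        intro l
        have := (hasDerivAt_line (hthk b l) (ev4 a)).smul (hasDerivAt_line (hNl l) (ev4 a))
        refine this.congr_deriv ?_
        rw [z0, hN0, hNl']
        simp
      have e4 := HasDerivAt.fun_sum (u := Finset.univ) fun l _ => e3 l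
      have e5 : HasDerivAt (fun t : ℝ => L (A (t • ev4 a) b) (U (t • ev4 a)))
          (L (fderiv ℝ (fun v => A v b) 0 (ev4 a)) w) 0 := by
        have h5 : HasDerivAt (fun t : ℝ => L (A (t • ev4 a) b))
            (L (fderiv ℝ (fun v => A v b) 0 (ev4 a))) 0 :=
          L.hasFDerivAt.comp_hasDerivAt 0 (hasDerivAt_line (hAk b) (ev4 a))
        have := h5.clm_apply (hasDerivAt_line hUd (ev4 a))
        refine this.congr_deriv ?_
        rw [z0, hA0, map_zero, hU0]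
        simp
      refine (e4.sub e5).congr_deriv ?_
      congr 1
      rw [h0, Finset.sum_eq_single b, hdN]
      · simp [idM]
      · intro l _ hl; simp [idM, Ne.symm hl]
      · simp
    have e6 : (fun t : ℝ => fderiv ℝ U (t • ev4 a) (ev4 b)) =ᶠ[𝓝 0]
        fun t : ℝ => ∑ l, th (t • ev4 a) b l • N (t • ev4 a) l -
        L (A (t • ev4 a) b) (U (t • ev4 a)) := by
      have h1 : ContinuousAt (fun t : ℝ => t • ev4 a) 0 := by fun_prop
      have h3 : Tendsto (fun t : ℝ => t • ev4 a) (𝓝 0) (𝓝 (0 : Eu4)) := by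
        have := h1.tendsto
        simpa using this
      filter_upwards [h3.eventually gU] with t ht
      exact eq_sub_of_add_eq (ht b)
    exact e1.unique (e6.hasDerivAt_iff.mpr e2)
  have hsym : fderiv ℝ (fderiv ℝ U) 0 (ev4 i) (ev4 j) = fderiv ℝ (fderiv ℝ U) 0 (ev4 j) (ev4 i) :=
    (hU.isSymmSndFDerivAt (by
      rw [minSmoothness_of_isRCLikeNormedField]
      exact (by norm_cast : ((2 : ℕ∞) : WithTop ℕ∞) ≤ ((⊤ : ℕ∞) : WithTop ℕ∞)))).eq _ _
  rw [key, key, hAs j i] at hsym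
  have h5 := ((C5.sc5u cov om) hG W R u hu (ψ 0) (eh 0) hp).2 i j
  have h6 : u (ψ 0) (eh 0) = w := huw
  rw [h6] at h5
  rw [← h5, hL, map_smul, two_smul, _root_.add_apply]
  rw [map_neg, _root_.neg_apply, sub_neg_eq_add] at hsym
  rw [sub_eq_iff_eq_add] at hsym
  rw [eq_comm, sub_eq_iff_eq_add, hsym]
  abel

/-! ### the tangent representation is faithful on the Lie algebra -/

/-- `tnMap g 1` as a linear map of `g` -/
def tnL : Mat4 →ₗ[ℝ] (Tn ℝ →L[ℝ] Tn ℝ) where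
  toFun g := tnMap g (ContinuousLinearMap.id ℝ ℝ)
  map_add' g h := by
    refine ContinuousLinearMap.ext fun w => ?_
    ext k
    simp only [tnMap_apply, _root_.add_apply, PiLp.add_apply, Pi.add_apply, add_smul,
      Finset.sum_add_distrib]
  map_smul' c g := by
    refine ContinuousLinearMap.ext fun w => ?_
    ext k
    simp only [tnMap_apply, _root_.smul_apply, PiLp.smul_apply, Pi.smul_apply, smul_eq_mul,
      Finset.mul_sum, RingHom.id_apply, mul_assoc]

theorem tn_triv_d (A : Mat4) (w : Tn ℝ) (k : Fin 4) :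
    ((Rep.tn Rep.triv).d A w) k = ∑ l, A k l * w l := by
  have h1 : (Rep.tn Rep.triv).ρ = fun g => (LinearMap.toContinuousLinearMap tnL) g := by
    funext g
    rfl
  have h2 : (Rep.tn Rep.triv).d A = (LinearMap.toContinuousLinearMap tnL) A := by
    unfold Rep.d
    rw [h1]
    have := (LinearMap.toContinuousLinearMap tnL).fderiv (x := idM)
    rw [this]
  rw [h2]
  change (tnMap A (ContinuousLinearMap.id ℝ ℝ) w) k = _
  rw [tnMap_apply]
  rfl

theorem tn_triv_inj {A B : Mat4} (h : (Rep.tn Rep.triv).d A = (Rep.tn Rep.triv).d B) : A = B := by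
  funext k l
  have h1 := congrArg (fun T : Tn ℝ →L[ℝ] Tn ℝ => (T (mkT (Pi.single l 1))) k) h
  simp only [tn_triv_d, mkT_apply] at h1
  simpa [Pi.single_apply] using h1

/-- field `A_curv` of the radial gauge: `2 ∂_i A_j (0) = Ω_ij` -/
theorem a_curv (hG : Geo4 cov om) (hp : PON om (ψ 0) (eh 0)) (hA : DifferentiableAt ℝ A 0)
    (hr : ∀ᶠ v in 𝓝 (0 : Eu4), ∑ k, v k • A v k = 0) (hth : DifferentiableAt ℝ th 0)
    (h0 : th 0 = idM)
    (hg : ∀ (W : Type) [NormedAddCommGroup W] [InnerProductSpace ℝ W] [FiniteDimensional ℝ W]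
      (R : Rep W), Gauge cov om ψ eh A th R) (i j : Fin 4) :
    (2 : ℝ) • fderiv ℝ (fun v => A v j) 0 (ev4 i) = Om cov (ψ 0) (eh 0) i j :=
  tn_triv_inj (curv_core hG (sc2_of cov om sc0 (sc1 cov om)) _ _ (Rep.tens_tn _) hp hA hr hth h0
    (hg _ _) (hg _ _) i j)

/-- the same in every representation: `2 ∂_i B_j (0) = R.d Ω_ij` for `B_j = R.d A_j` -/
theorem b_curv (hG : Geo4 cov om) (hp : PON om (ψ 0) (eh 0)) (hA : DifferentiableAt ℝ A 0)
    (hr : ∀ᶠ v in 𝓝 (0 : Eu4), ∑ k, v k • A v k = 0) (hth : DifferentiableAt ℝ th 0)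
    (h0 : th 0 = idM)
    (hg : ∀ (W : Type) [NormedAddCommGroup W] [InnerProductSpace ℝ W] [FiniteDimensional ℝ W]
      (R : Rep W), Gauge cov om ψ eh A th R)
    (R : Rep W) (i j : Fin 4) :
    (2 : ℝ) • fderiv ℝ (fun v => R.d (A v j)) 0 (ev4 i) = R.d (Om cov (ψ 0) (eh 0) i j) := by
  rw [← a_curv hG hp hA hr hth h0 hg i j]
  have h1 : DifferentiableAt ℝ (fun v => A v j) 0 := (differentiableAt_pi.mp hA) j
  have h2 : HasFDerivAt (fun v => R.d (A v j))
      ((fderiv ℝ R.ρ idM).comp (fderiv ℝ (fun v => A v j) 0)) 0 :=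
    (fderiv ℝ R.ρ idM).hasFDerivAt.comp (0 : Eu4) h1.hasFDerivAt
  rw [h2.fderiv]
  exact (map_smul (fderiv ℝ R.ρ idM) (2 : ℝ) _).symm

end
end Vale.Agent.P211.HK.RGCurv
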