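import Vale.Agent.P211.HK.RGDefs
import Vale.Agent.P211.HK.RGCurv

/-! P211 / HK: block RG5, curvature at the centre of the radial gauge (helper702). -/

set_option maxSynthPendingDepth 3
set_option linter.unusedSectionVars false

namespace Vale.Agent.P211.HK

open scoped Manifold ContDiff Topology RealInnerProductSpace
open Bundle Filter VectorField MeasureTheory Set
open Vale.Agent.P234 Vale.Agent.P231

noncomputable section

variable {E : Type} [NormedAddCommGroup E] [NormedSpace ℝ E] [FiniteDimensional ℝ E]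
  {M : Type} [MetricSpace M] [ChartedSpace E M] [IsManifold 𝓘(ℝ, E) ∞ M]
  [RiemannianBundle fun p : M => TangentSpace 𝓘(ℝ, E) p]
  [IsContMDiffRiemannianBundle 𝓘(ℝ, E) ∞ E fun p : M => TangentSpace 𝓘(ℝ, E) p]

variable {e : ∀ x : M, TangentSpace 𝓘(ℝ, E) x → M}
  {cov : CovariantDerivative 𝓘(ℝ, E) E (TangentSpace 𝓘(ℝ, E) : M → Type)} {om : Form4 E M}

theorem slice_contDiffAt {X : Type*} [NormedAddCommGroup X] [NormedSpace ℝ X] {D : ℝ}
    {L : LocD om D} (hU : IsOpen L.U) {g : E × Eu4 → X} (hg : ContDiffOn ℝ ∞ g L.UB) {y : E}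
    (hy : y ∈ L.U) {v : Eu4} (hv : v ∈ Metric.ball (0 : Eu4) D) :
    ContDiffAt ℝ ∞ (fun v => g (y, v)) v := by
  have h1 : L.UB ∈ 𝓝 (y, v) := (hU.prod Metric.isOpen_ball).mem_nhds ⟨hy, hv⟩
  have h2 : ContDiffAt ℝ ∞ g (y, v) := hg.contDiffAt h1
  have h3 : ContDiffAt ℝ ∞ (fun v : Eu4 => (y, v)) v := contDiffAt_const.prodMk contDiffAt_id
  exact h2.comp v h3

theorem rg5_of (h1 : RG1Stmt e cov om) (h2 : RG2Stmt e cov om) (h3 : RG3bStmt e cov om)
    (hQ : RGQStmt e cov om) (h4 : RG4Stmt e cov om) : RG5Stmt e cov om := by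
  intro D hH L T W _ _ _ R Q hRad y hy i j
  obtain ⟨hU, -, -, -, -, hth, -⟩ := h1 D hH L
  obtain ⟨-, hc⟩ := h2 D hH L
  obtain ⟨hex, hth0, -⟩ := hc y hy
  obtain ⟨hA, hAr, hpon⟩ := h3 D hH L T
  have h0 : (0 : Eu4) ∈ Metric.ball (0 : Eu4) D := Metric.mem_ball_self L.D_pos
  have hB : Metric.ball (0 : Eu4) D ∈ 𝓝 (0 : Eu4) := Metric.ball_mem_nhds _ L.D_pos
  have hgauge : ∀ (W : Type) [NormedAddCommGroup W] [InnerProductSpace ℝ W]
      [FiniteDimensional ℝ W] (R : Rep W),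
      RGCurv.Gauge cov om (fun v => L.ex e (y, v)) (fun v => T.eh (y, v))
        (fun v k => T.A (y, v) k) (fun v => mulM (L.th e (y, v)) (T.a (y, v))) R := by
    intro W _ _ _ R u hu
    obtain ⟨Q, hQ'⟩ := hQ D hH L T W R
    obtain ⟨hs, hl⟩ := h4 D hH L T W R Q hQ' u hu
    refine ⟨slice_contDiffAt hU hs hy h0, ?_⟩
    filter_upwards [hB] with v hv k
    have h5 := hl (y, v) ⟨hy, hv⟩ k
    unfold RadData.dW at h5
    rw [hQ'.B (y, v) ⟨hy, hv⟩ k] at h5
    exact h5
  have hAd : DifferentiableAt ℝ (fun v => fun k => T.A (y, v) k) 0 := by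
    rw [differentiableAt_pi]
    intro k
    exact (slice_contDiffAt hU (hA k) hy h0).differentiableAt (by simp)
  have hthd : DifferentiableAt ℝ (fun v => mulM (L.th e (y, v)) (T.a (y, v))) 0 := by
    have e1 := (slice_contDiffAt hU hth hy h0).differentiableAt (by simp)
    have e2 := (slice_contDiffAt hU T.smooth hy h0).differentiableAt (by simp)
    rw [differentiableAt_pi]
    intro a
    rw [differentiableAt_pi]
    intro b
    unfold mulM
    refine DifferentiableAt.fun_sum fun c _ => ?_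
    exact ((differentiableAt_pi.mp ((differentiableAt_pi.mp e1) a)) c).mul
      ((differentiableAt_pi.mp ((differentiableAt_pi.mp e2) c)) b)
  have key := RGCurv.b_curv (ψ := fun v => L.ex e (y, v)) (eh := fun v => T.eh (y, v))
    (A := fun v k => T.A (y, v) k) (th := fun v => mulM (L.th e (y, v)) (T.a (y, v)))
    hH.geo (hpon (y, 0) ⟨hy, h0⟩) hAd
    (by filter_upwards [hB] with v hv using (hAr (y, v) ⟨hy, hv⟩).2) hthd
    (by rw [hth0, T.one y hy, mulM_idM]) hgauge R i j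
  have hOm : Om cov (L.ex e (y, 0)) (T.eh (y, 0)) i j =
      Om cov (L.q y) (fun m => L.Fr m (L.q y)) i j := by
    rw [C5.Om_eq hH.geo.lc (F := L.Fr) (f := fun m => L.Fr m (L.q y)) (fun m => rfl) i j,
      C5.Om_eq hH.geo.lc (F := L.Fr) (f := T.eh (y, 0)) (fun m => by
        unfold LocD.Rot.eh
        rw [T.one y hy, fact_idM]) i j, hex]
  have hB2 : (fun v => R.d (T.A (y, v) j)) =ᶠ[𝓝 0] fun v => Q.B (y, v) j := by
    filter_upwards [hB] with v hv
    exact (hRad.B (y, v) ⟨hy, hv⟩ j).symm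
  unfold RadData.Omg
  rw [← hB2.fderiv_eq, ← hOm]
  exact key

end

end Vale.Agent.P211.HK
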