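import Vale.Agent.P211.HK.EUDefs

/-! P211 / HK / RGLap (helper767), manifold-free part of RG: the Laplacian in a moving frame.

`θ v k l` = components of the coordinate vector `∂_k` in an orthonormal frame, `A v k` the connection
matrices of that frame along `∂_k`; the connection is torsion free. Then `-Σ_l N_ll` (the trace of the
second covariant derivative in the frame) is `RadData.lapW`. -/

set_option linter.unusedSectionVars false

namespace Vale.Agent.P211.HK

open Filter Topology
open scoped ContDiff RealInnerProductSpace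

noncomputable section

namespace RGLap

/-! ### derivative of the determinant -/

/-- the determinant as a continuous multilinear map of the rows -/
def detC : ContinuousMultilinearMap ℝ (fun _ : Fin 4 => Fin 4 → ℝ) ℝ :=
  { (Matrix.detRowAlternating : (Fin 4 → ℝ) [⋀^Fin 4]→ₗ[ℝ] ℝ).toMultilinearMap with
    cont := by
      change Continuous fun A : Fin 4 → Fin 4 → ℝ => (Matrix.of A).det
      exact Continuous.matrix_det continuous_id }

theorem detC_apply (A : Fin 4 → Fin 4 → ℝ) : detC A = (Matrix.of A).det := rfl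

variable {V : Type*} [NormedAddCommGroup V] [NormedSpace ℝ V]

theorem hasFDerivAt_det {θ : V → Fin 4 → Fin 4 → ℝ} {θ' : Fin 4 → Fin 4 → V →L[ℝ] ℝ} {v : V}
    (h : ∀ i j, HasFDerivAt (fun w => θ w i j) (θ' i j) v) :
    HasFDerivAt (fun w => (Matrix.of (θ w)).det)
      (∑ i, ∑ j, (Matrix.of (θ v)).adjugate j i • θ' i j) v := by
  have h1 : HasFDerivAt θ (ContinuousLinearMap.pi fun i => ContinuousLinearMap.pi fun j => θ' i j)
      v := by
    rw [hasFDerivAt_pi]
    intro i
    rw [hasFDerivAt_pi]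
    intro j
    exact h i j
  have h2 := (detC.hasFDerivAt (θ v)).comp v h1
  refine h2.congr_fderiv ?_
  ext w
  rw [ContinuousLinearMap.comp_apply, ContinuousMultilinearMap.linearDeriv_apply]
  simp only [FunLike.coe_sum, Finset.sum_apply, FunLike.coe_smul, Pi.smul_apply, smul_eq_mul]
  refine Finset.sum_congr rfl fun i _ => ?_
  have h3 : detC (Function.update (θ v) i
      ((ContinuousLinearMap.pi fun i => ContinuousLinearMap.pi fun j => θ' i j) w i)) =
      ((Matrix.of (θ v)).updateRow i fun j => θ' i j w).det := rfl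
  rw [h3, ← Matrix.cramer_transpose_apply, Matrix.cramer_eq_adjugate_mulVec,
    ← Matrix.adjugate_transpose]
  simp [Matrix.mulVec, dotProduct, Matrix.transpose_apply]

theorem differentiableAt_det {θ : V → Fin 4 → Fin 4 → ℝ} {v : V}
    (h : ∀ i j, DifferentiableAt ℝ (fun w => θ w i j) v) :
    DifferentiableAt ℝ (fun w => (Matrix.of (θ w)).det) v :=
  (hasFDerivAt_det fun i j => (h i j).hasFDerivAt).differentiableAt

theorem differentiableAt_adj {θ : V → Fin 4 → Fin 4 → ℝ} {v : V}
    (h : ∀ i j, DifferentiableAt ℝ (fun w => θ w i j) v) (n i : Fin 4) :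
    DifferentiableAt ℝ (fun w => (Matrix.of (θ w)).adjugate n i) v := by
  simp only [Matrix.adjugate_apply]
  refine differentiableAt_det (θ := fun w => (Matrix.of (θ w)).updateRow i (Pi.single n 1))
    fun a b => ?_
  by_cases hai : a = i
  · subst hai
    simp only [Matrix.updateRow_self]
    exact differentiableAt_const _
  · simp only [Matrix.updateRow_ne hai, Matrix.of_apply]
    exact h a b

/-! ### algebra -/

/-- the divergence of the frame fields -/
theorem frame_div (θ ψ : Fin 4 → Fin 4 → ℝ) (J : ℝ) (adj : Fin 4 → Fin 4 → ℝ)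
    (T : Fin 4 → Fin 4 → Fin 4 → ℝ) (A : Fin 4 → Fin 4 → Fin 4 → ℝ)
    (DJ : Fin 4 → ℝ) (DC : Fin 4 → Fin 4 → Fin 4 → ℝ)
    (h1 : ∀ l m, ∑ k, ψ l k * θ k m = if l = m then 1 else 0)
    (h2 : ∀ k m, ∑ l, θ k l * ψ l m = if k = m then 1 else 0)
    (ha : ∀ n i, adj n i = J * ψ n i)
    (hJ : ∀ k, DJ k = ∑ i, ∑ j, adj j i * T k i j)
    (hC : ∀ k n m, (∑ i, DC k n i * θ i m) + ∑ i, adj n i * T k i m =
      if n = m then DJ k else 0)
    (hsk : ∀ k i j, A k i j = - A k j i)
    (htor : ∀ i j l, T i j l - T j i l + ∑ n, (A i l n * θ j n - A j l n * θ i n) = 0)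
    (n : Fin 4) : ∑ i, DC i n i = J * ∑ l, ∑ k, ψ l k * A k l n := by
  -- the derivative of the cofactors
  have hDC : ∀ k n i, DC k n i = DJ k * ψ n i - ∑ m, (∑ j, adj n j * T k j m) * ψ m i := by
    intro k n i
    have e1 : ∑ m, ((∑ j, DC k n j * θ j m) + ∑ j, adj n j * T k j m) * ψ m i =
        ∑ m, (if n = m then DJ k else 0) * ψ m i :=
      Finset.sum_congr rfl fun m _ => by rw [hC]
    have e2 : ∑ m, (if n = m then DJ k else 0) * ψ m i = DJ k * ψ n i := by
      simp
    have e3 : ∑ m, (∑ j, DC k n j * θ j m) * ψ m i = DC k n i := by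
      simp only [Finset.sum_mul]
      rw [Finset.sum_comm]
      have e4 : ∀ j, ∑ m, DC k n j * θ j m * ψ m i = DC k n j * if j = i then 1 else 0 := by
        intro j
        rw [← h2 j i, Finset.mul_sum]
        exact Finset.sum_congr rfl fun m _ => by ring
      simp only [e4]
      simp
    simp only [add_mul, Finset.sum_add_distrib] at e1
    rw [e3, e2] at e1
    linarith
  have hA0 : ∀ i l, A i l l = 0 := fun i l => by
    have := hsk i l l
    linarith
  -- sum
  have s1 : ∑ i, DC i n i =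
      J * (∑ i, ∑ a, ∑ b, ψ n i * ψ b a * T i a b - ∑ i, ∑ a, ∑ b, ψ n i * ψ b a * T a i b) := by
    simp only [hDC, Finset.sum_sub_distrib, mul_sub]
    congr 1
    · rw [Finset.mul_sum]
      refine Finset.sum_congr rfl fun i _ => ?_
      rw [hJ, Finset.sum_mul, Finset.mul_sum]
      refine Finset.sum_congr rfl fun a _ => ?_
      rw [Finset.sum_mul, Finset.mul_sum]
      refine Finset.sum_congr rfl fun b _ => ?_
      rw [ha]
      ring
    · have e1 : ∀ i, ∑ m, (∑ j, adj n j * T i j m) * ψ m i =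
          ∑ j, ∑ m, J * (ψ n j * ψ m i * T i j m) := by
        intro i
        rw [Finset.sum_comm]
        refine Finset.sum_congr rfl fun m _ => ?_
        rw [Finset.sum_mul]
        refine Finset.sum_congr rfl fun j _ => ?_
        rw [ha]
        ring
      simp only [e1]
      rw [Finset.sum_comm, Finset.mul_sum]
      refine Finset.sum_congr rfl fun j _ => ?_
      rw [Finset.mul_sum]
      refine Finset.sum_congr rfl fun i _ => ?_
      rw [Finset.mul_sum]
  have s2 : ∑ i, ∑ a, ∑ b, ψ n i * ψ b a * T i a b - ∑ i, ∑ a, ∑ b, ψ n i * ψ b a * T a i b =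
      ∑ i, ∑ a, ∑ b, ψ n i * ψ b a * (-∑ c, (A i b c * θ a c - A a b c * θ i c)) := by
    rw [← Finset.sum_sub_distrib]
    refine Finset.sum_congr rfl fun i _ => ?_
    rw [← Finset.sum_sub_distrib]
    refine Finset.sum_congr rfl fun a _ => ?_
    rw [← Finset.sum_sub_distrib]
    refine Finset.sum_congr rfl fun b _ => ?_
    have := htor i a b
    rw [← mul_sub]
    congr 1
    linarith
  have s3 : ∑ i, ∑ a, ∑ b, ψ n i * ψ b a * (-∑ c, (A i b c * θ a c - A a b c * θ i c)) =
      (∑ i, ∑ a, ∑ b, ∑ c, ψ b a * A a b c * (ψ n i * θ i c)) -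
        ∑ i, ∑ a, ∑ b, ∑ c, ψ n i * A i b c * (ψ b a * θ a c) := by
    rw [← Finset.sum_sub_distrib]
    refine Finset.sum_congr rfl fun i _ => ?_
    rw [← Finset.sum_sub_distrib]
    refine Finset.sum_congr rfl fun a _ => ?_
    rw [← Finset.sum_sub_distrib]
    refine Finset.sum_congr rfl fun b _ => ?_
    rw [← Finset.sum_sub_distrib, mul_neg, Finset.mul_sum, ← Finset.sum_neg_distrib]
    refine Finset.sum_congr rfl fun c _ => ?_
    ring
  have s4 : ∑ i, ∑ a, ∑ b, ∑ c, ψ n i * A i b c * (ψ b a * θ a c) = 0 := by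
    refine Finset.sum_eq_zero fun i _ => ?_
    rw [Finset.sum_comm]
    refine Finset.sum_eq_zero fun b _ => ?_
    rw [Finset.sum_comm]
    refine Finset.sum_eq_zero fun c _ => ?_
    rw [← Finset.mul_sum, h1]
    by_cases hbc : b = c
    · subst hbc
      rw [hA0]
      simp
    · simp [hbc]
  have s5 : ∑ i, ∑ a, ∑ b, ∑ c, ψ b a * A a b c * (ψ n i * θ i c) =
      ∑ l, ∑ k, ψ l k * A k l n := by
    rw [Finset.sum_comm, Finset.sum_comm (s := (Finset.univ : Finset (Fin 4))) (t := Finset.univ)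
      (f := fun l k => ψ l k * A k l n)]
    refine Finset.sum_congr rfl fun a _ => ?_
    rw [Finset.sum_comm]
    refine Finset.sum_congr rfl fun b _ => ?_
    rw [Finset.sum_comm]
    have e1 : ∀ c, ∑ i, ψ b a * A a b c * (ψ n i * θ i c) =
        ψ b a * A a b c * if n = c then 1 else 0 := by
      intro c
      rw [← Finset.mul_sum, h1]
    simp only [e1]
    simp
  rw [s1, s2, s3, s4, s5, sub_zero]

/-- torsion freeness is preserved under a change of the frame: if `θ' = θ a` and
`A'_k = aᵀ A_k a + aᵀ ∂_k a` with `a aᵀ = aᵀ a = 1`. -/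
theorem tor_gauge (θ a : Fin 4 → Fin 4 → ℝ) (T : Fin 4 → Fin 4 → Fin 4 → ℝ)
    (A Da : Fin 4 → Fin 4 → Fin 4 → ℝ) (θ' : Fin 4 → Fin 4 → ℝ) (A' T' : Fin 4 → Fin 4 → Fin 4 → ℝ)
    (ha : ∀ i j, ∑ k, a i k * a j k = if i = j then 1 else 0)
    (hθ' : ∀ k l, θ' k l = ∑ m, θ k m * a m l)
    (hT' : ∀ i j l, T' i j l = ∑ m, (T i j m * a m l + θ j m * Da i m l))
    (hA' : ∀ k i j, A' k i j = (∑ m, ∑ n, a m i * A k m n * a n j) + ∑ m, a m i * Da k m j)
    (hsk : ∀ k i j, A' k i j = - A' k j i)
    (htor : ∀ i j l, T i j l - T j i l + ∑ n, (A i l n * θ j n - A j l n * θ i n) = 0)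
    (hskA : ∀ k i j, A k i j = - A k j i)
    (i j l : Fin 4) :
    T' i j l - T' j i l + ∑ n, (A' i l n * θ' j n - A' j l n * θ' i n) = 0 := by
  -- `∑ n, A'_{i, l n} θ'_{j n} = ∑ m, a m l (A_i θ_j)_m - ∑ m, θ_j m Da_i m l`
  have key : ∀ i j, ∑ n, A' i l n * θ' j n =
      (∑ m, a m l * ∑ n, A i m n * θ j n) - ∑ m, θ j m * Da i m l := by
    intro i j
    have e1 : ∑ n, A' i l n * θ' j n = - ∑ n, A' i n l * θ' j n := by
      rw [← Finset.sum_neg_distrib]
      refine Finset.sum_congr rfl fun n _ => ?_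
      rw [hsk i l n]
      ring
    have e2 : ∀ X : Fin 4 → ℝ, ∑ n, (∑ m, a m n * X m) * θ' j n = ∑ m, X m * θ j m := by
      intro X
      have e3 : ∀ n, (∑ m, a m n * X m) * θ' j n = ∑ m, ∑ p, X m * θ j p * (a m n * a p n) := by
        intro n
        rw [hθ', Finset.sum_mul]
        refine Finset.sum_congr rfl fun m _ => ?_
        rw [Finset.mul_sum]
        refine Finset.sum_congr rfl fun p _ => ?_
        ring
      simp only [e3]
      rw [Finset.sum_comm]
      refine Finset.sum_congr rfl fun m _ => ?_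
      rw [Finset.sum_comm]
      have e4 : ∀ p, ∑ n, X m * θ j p * (a m n * a p n) =
          X m * θ j p * if m = p then 1 else 0 := by
        intro p
        rw [← Finset.mul_sum, ha]
      simp only [e4]
      simp
    have e5 : ∀ n, A' i n l = ∑ m, a m n * ((∑ p, A i m p * a p l) + Da i m l) := by
      intro n
      rw [hA', ← Finset.sum_add_distrib]
      refine Finset.sum_congr rfl fun m _ => ?_
      rw [mul_add, Finset.mul_sum]
      congr 1
      refine Finset.sum_congr rfl fun p _ => ?_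
      ring
    rw [e1]
    simp only [e5]
    rw [e2]
    have e6 : ∑ m, ((∑ p, A i m p * a p l) + Da i m l) * θ j m =
        (∑ m, ∑ p, A i m p * a p l * θ j m) + ∑ m, θ j m * Da i m l := by
      rw [← Finset.sum_add_distrib]
      refine Finset.sum_congr rfl fun m _ => ?_
      rw [add_mul, Finset.sum_mul]
      ring
    have e7 : (∑ m, a m l * ∑ n, A i m n * θ j n) = - ∑ m, ∑ p, A i m p * a p l * θ j m := by
      rw [Finset.sum_comm, ← Finset.sum_neg_distrib]
      refine Finset.sum_congr rfl fun p _ => ?_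
      rw [Finset.mul_sum, ← Finset.sum_neg_distrib]
      refine Finset.sum_congr rfl fun m _ => ?_
      rw [hskA i p m]
      ring
    rw [e6, e7]
    ring
  have s1 : ∑ n, (A' i l n * θ' j n - A' j l n * θ' i n) =
      ((∑ m, a m l * ∑ n, A i m n * θ j n) - ∑ m, θ j m * Da i m l) -
      ((∑ m, a m l * ∑ n, A j m n * θ i n) - ∑ m, θ i m * Da j m l) := by
    rw [Finset.sum_sub_distrib, key, key]
  have s2 : ∑ m, a m l * ∑ n, A i m n * θ j n - ∑ m, a m l * ∑ n, A j m n * θ i n =
      ∑ m, a m l * (T j i m - T i j m) := by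
    rw [← Finset.sum_sub_distrib]
    refine Finset.sum_congr rfl fun m _ => ?_
    rw [← mul_sub]
    congr 1
    have := htor i j m
    rw [Finset.sum_sub_distrib] at this
    linarith
  have s3 : T' i j l - T' j i l = ∑ m, a m l * (T i j m - T j i m) +
      (∑ m, θ j m * Da i m l - ∑ m, θ i m * Da j m l) := by
    rw [hT', hT', ← Finset.sum_sub_distrib, ← Finset.sum_sub_distrib, ← Finset.sum_add_distrib]
    refine Finset.sum_congr rfl fun m _ => ?_
    ring
  have s4 : ∑ m, a m l * (T j i m - T i j m) = - ∑ m, a m l * (T i j m - T j i m) := by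
    rw [← Finset.sum_neg_distrib]
    refine Finset.sum_congr rfl fun m _ => ?_
    ring
  rw [s1, s3]
  linarith

/-- the torsion free equation, tested with a scalar function `P` with derivatives `G` in the frame and
symmetric second covariant derivative `Hs` -/
theorem tor_scalar (θ : Eu4 → Fin 4 → Fin 4 → ℝ) (A : Fin 4 → Fin 4 → Fin 4 → ℝ) (v : Eu4)
    (hθ : ∀ i j, DifferentiableAt ℝ (fun w => θ w i j) v)
    (hsk : ∀ k i j, A k i j = - A k j i) (P : Eu4 → ℝ) (hP : ContDiffAt ℝ ∞ P v)
    (G : Eu4 → Fin 4 → ℝ) (hG : ∀ l, DifferentiableAt ℝ (fun w => G w l) v)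
    (Hs : Fin 4 → Fin 4 → ℝ)
    (hP1 : ∀ᶠ w in 𝓝 v, ∀ k, fderiv ℝ P w (ev4 k) = ∑ l, θ w k l * G w l)
    (hG1 : ∀ k m, fderiv ℝ (fun w => G w m) v (ev4 k) + ∑ n, A k m n * G v n =
      ∑ l, θ v k l * Hs l m)
    (hHs : ∀ l m, Hs l m = Hs m l) (i j : Fin 4) :
    ∑ n, G v n * (fderiv ℝ (fun w => θ w j n) v (ev4 i) - fderiv ℝ (fun w => θ w i n) v (ev4 j) +
      ∑ l, (A i n l * θ v j l - A j n l * θ v i l)) = 0 := by
  have hsym : fderiv ℝ (fun w => fderiv ℝ P w (ev4 j)) v (ev4 i) =
      fderiv ℝ (fun w => fderiv ℝ P w (ev4 i)) v (ev4 j) := by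
    have h2 : IsSymmSndFDerivAt ℝ P v := hP.isSymmSndFDerivAt
      (by simp only [minSmoothness_of_isRCLikeNormedField]; exact WithTop.coe_le_coe.2 le_top)
    have h3 : DifferentiableAt ℝ (fderiv ℝ P) v :=
      (hP.fderiv_right (m := ∞) (by simp)).differentiableAt (by simp)
    have h4 : ∀ a b : Eu4, fderiv ℝ (fun w => fderiv ℝ P w a) v b =
        fderiv ℝ (fderiv ℝ P) v b a := by
      intro a b
      have h5 : HasFDerivAt (fun w => fderiv ℝ P w a)
          ((ContinuousLinearMap.apply ℝ ℝ a).comp (fderiv ℝ (fderiv ℝ P) v)) v :=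
        (ContinuousLinearMap.apply ℝ ℝ a).hasFDerivAt.comp v h3.hasFDerivAt
      rw [h5.fderiv]
      rfl
    rw [h4, h4]
    exact h2 _ _
  have hP2 : ∀ k a, fderiv ℝ (fun w => fderiv ℝ P w (ev4 k)) v (ev4 a) =
      ∑ l, (θ v k l * fderiv ℝ (fun w => G w l) v (ev4 a) +
        G v l * fderiv ℝ (fun w => θ w k l) v (ev4 a)) := by
    intro k a
    have hk : (fun w => fderiv ℝ P w (ev4 k)) =ᶠ[𝓝 v] fun w => ∑ l, θ w k l * G w l := by
      filter_upwards [hP1] with w hw
      exact hw k
    rw [hk.fderiv_eq]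
    have e3 : HasFDerivAt (fun w => ∑ l, θ w k l * G w l)
        (∑ l, (θ v k l • fderiv ℝ (fun w => G w l) v +
          G v l • fderiv ℝ (fun w => θ w k l) v)) v :=
      HasFDerivAt.fun_sum fun l _ => (hθ k l).hasFDerivAt.mul (hG l).hasFDerivAt
    rw [e3.fderiv]
    simp only [FunLike.coe_sum, Finset.sum_apply, FunLike.coe_add, Pi.add_apply,
      FunLike.coe_smul, Pi.smul_apply, smul_eq_mul]
  have hG2 : ∀ k m, fderiv ℝ (fun w => G w m) v (ev4 k) =
      (∑ l, θ v k l * Hs l m) - ∑ n, A k m n * G v n := by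
    intro k m
    rw [← hG1 k m]
    ring
  rw [hP2, hP2] at hsym
  simp only [hG2] at hsym
  have s1 : ∀ a b, ∑ l, (θ v a l * ((∑ m, θ v b m * Hs m l) - ∑ n, A b l n * G v n) +
        G v l * fderiv ℝ (fun w => θ w a l) v (ev4 b)) =
      (∑ l, ∑ m, θ v a l * θ v b m * Hs m l) +
        ∑ n, G v n * (fderiv ℝ (fun w => θ w a n) v (ev4 b) + ∑ l, A b n l * θ v a l) := by
    intro a b
    have t1 : ∀ l, θ v a l * ((∑ m, θ v b m * Hs m l) - ∑ n, A b l n * G v n) +
        G v l * fderiv ℝ (fun w => θ w a l) v (ev4 b) =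
        (∑ m, θ v a l * θ v b m * Hs m l) + ((∑ n, G v n * (A b n l * θ v a l)) +
          G v l * fderiv ℝ (fun w => θ w a l) v (ev4 b)) := by
      intro l
      rw [mul_sub, Finset.mul_sum, Finset.mul_sum]
      have t2 : ∑ n, G v n * (A b n l * θ v a l) = - ∑ n, θ v a l * (A b l n * G v n) := by
        rw [← Finset.sum_neg_distrib]
        refine Finset.sum_congr rfl fun n _ => ?_
        rw [hsk b n l]
        ring
      rw [t2]
      have t3 : ∑ m, θ v a l * (θ v b m * Hs m l) = ∑ m, θ v a l * θ v b m * Hs m l :=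
        Finset.sum_congr rfl fun m _ => by ring
      rw [t3]
      ring
    simp only [t1, Finset.sum_add_distrib, mul_add]
    rw [Finset.sum_comm (s := Finset.univ) (t := Finset.univ)
      (f := fun l n => G v n * (A b n l * θ v a l))]
    simp only [Finset.mul_sum]
    ring
  rw [s1, s1] at hsym
  have s2 : ∑ l, ∑ m, θ v j l * θ v i m * Hs m l = ∑ l, ∑ m, θ v i l * θ v j m * Hs m l := by
    rw [Finset.sum_comm]
    refine Finset.sum_congr rfl fun m _ => Finset.sum_congr rfl fun l _ => ?_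
    rw [hHs m l]
    ring
  rw [s2] at hsym
  have s3 := add_left_cancel hsym
  rw [← sub_eq_zero, ← Finset.sum_sub_distrib] at s3
  rw [← s3]
  refine Finset.sum_congr rfl fun n _ => ?_
  simp only [Finset.sum_sub_distrib]
  ring

/-! ### the Laplacian -/

section lap

variable {P W : Type} [NormedAddCommGroup P] [NormedSpace ℝ P] [NormedAddCommGroup W]
    [InnerProductSpace ℝ W] {U : Set P} {D : ℝ}

/-- The trace of the second covariant derivative in a moving frame is `- lapW`. -/
theorem lapW_eq (Q : RadData P W U D) (y : P) (f : Eu4 → W) (η : Eu4 → Fin 4 → W)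
    (N : Fin 4 → Fin 4 → W) (θ : Eu4 → Fin 4 → Fin 4 → ℝ) (A : Fin 4 → Fin 4 → Fin 4 → ℝ) (v : Eu4)
    (hθ : ∀ i j, DifferentiableAt ℝ (fun w => θ w i j) v)
    (hη : ∀ i, DifferentiableAt ℝ (fun w => η w i) v)
    (hJ : ∀ᶠ w in 𝓝 v, Q.J (y, w) = (Matrix.of (θ w)).det)
    (hJ0 : ∀ᶠ w in 𝓝 v, (Matrix.of (θ w)).det ≠ 0)
    (hgi : ∀ᶠ w in 𝓝 v, ∀ i k, ∑ j, Q.gi (y, w) i j * ∑ l, θ w j l * θ w k l =
      if i = k then 1 else 0)
    (hsk : ∀ k i j, A k i j = - A k j i)
    (htor : ∀ i j l, fderiv ℝ (fun w => θ w j l) v (ev4 i) - fderiv ℝ (fun w => θ w i l) v (ev4 j) +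
      ∑ n, (A i l n * θ v j n - A j l n * θ v i n) = 0)
    (h1 : ∀ᶠ w in 𝓝 v, ∀ k, Q.dW y f k w = ∑ l, θ w k l • η w l)
    (h2 : ∀ k m, Q.dW y (fun w => η w m) k v + ∑ n, A k m n • η v n = ∑ l, θ v k l • N l m) :
    Q.lapW y f v = - ∑ l, N l l := by
  -- the inverse matrix
  have hdet : IsUnit (Matrix.of (θ v)).det := isUnit_iff_ne_zero.2 hJ0.self_of_nhds
  set J : ℝ := (Matrix.of (θ v)).det with hJdef
  have hJne : J ≠ 0 := hJ0.self_of_nhds
  set ψ : Fin 4 → Fin 4 → ℝ := fun l k => (Matrix.of (θ v))⁻¹ l k with hψ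
  have hψ1 : ∀ l m, ∑ k, ψ l k * θ v k m = if l = m then 1 else 0 := by
    intro l m
    have := congrFun (congrFun (Matrix.nonsing_inv_mul (Matrix.of (θ v)) hdet) l) m
    rw [Matrix.mul_apply, Matrix.one_apply] at this
    exact this
  have hψ2 : ∀ k m, ∑ l, θ v k l * ψ l m = if k = m then 1 else 0 := by
    intro l m
    have := congrFun (congrFun (Matrix.mul_nonsing_inv (Matrix.of (θ v)) hdet) l) m
    rw [Matrix.mul_apply, Matrix.one_apply] at this
    exact this
  set adj : Eu4 → Fin 4 → Fin 4 → ℝ := fun w n i => (Matrix.of (θ w)).adjugate n i with hadj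
  have hadj1 : ∀ n i, adj v n i = J * ψ n i := by
    intro n i
    simp only [hadj, hψ, hJdef]
    rw [Matrix.inv_def, Matrix.smul_apply, smul_eq_mul, ← mul_assoc,
      Ring.mul_inverse_cancel _ hdet, one_mul]
  have hadj2 : ∀ w n m, ∑ i, adj w n i * θ w i m =
      if n = m then (Matrix.of (θ w)).det else 0 := by
    intro w n m
    have := congrFun (congrFun (Matrix.adjugate_mul (Matrix.of (θ w))) n) m
    rw [Matrix.mul_apply, Matrix.smul_apply, Matrix.one_apply] at this
    rw [show (∑ i, adj w n i * θ w i m) = ∑ j, (Matrix.of (θ w)).adjugate n j *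
      (Matrix.of (θ w)) j m from rfl, this]
    split_ifs <;> simp
  have hadjd : ∀ n i, DifferentiableAt ℝ (fun w => adj w n i) v := fun n i =>
    differentiableAt_adj hθ n i
  have hdd := hasFDerivAt_det fun i j => (hθ i j).hasFDerivAt
  -- the frame divergence
  have hdiv : ∀ n, ∑ i, fderiv ℝ (fun w => adj w n i) v (ev4 i) =
      J * ∑ l, ∑ k, ψ l k * A k l n := by
    intro n
    refine frame_div (θ v) ψ J (adj v)
      (fun i j l => fderiv ℝ (fun w => θ w j l) v (ev4 i)) A
      (fun k => fderiv ℝ (fun w => (Matrix.of (θ w)).det) v (ev4 k))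
      (fun k n i => fderiv ℝ (fun w => adj w n i) v (ev4 k))
      hψ1 hψ2 hadj1 (fun k => ?_) (fun k n m => ?_) hsk htor n
    · rw [hdd.fderiv]
      simp [hadj]
    · have e1 : (fun w => ∑ i, adj w n i * θ w i m) =
          fun w => if n = m then (Matrix.of (θ w)).det else 0 := by
        funext w
        exact hadj2 w n m
      have e2 : fderiv ℝ (fun w => ∑ i, adj w n i * θ w i m) v =
          ∑ i, (adj v n i • fderiv ℝ (fun w => θ w i m) v +
            θ v i m • fderiv ℝ (fun w => adj w n i) v) := by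
        have e3 : HasFDerivAt (fun w => ∑ i, adj w n i * θ w i m)
            (∑ i, (adj v n i • fderiv ℝ (fun w => θ w i m) v +
            θ v i m • fderiv ℝ (fun w => adj w n i) v)) v :=
          HasFDerivAt.fun_sum fun i _ =>
            (hadjd n i).hasFDerivAt.mul (hθ i m).hasFDerivAt
        exact e3.fderiv
      have e4 : fderiv ℝ (fun w => if n = m then (Matrix.of (θ w)).det else 0) v (ev4 k) =
          if n = m then fderiv ℝ (fun w => (Matrix.of (θ w)).det) v (ev4 k) else 0 := by
        split_ifs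
        · rfl
        · simp
      rw [← e4, ← e1, e2]
      simp only [FunLike.coe_sum, Finset.sum_apply, FunLike.coe_add, Pi.add_apply,
        FunLike.coe_smul, Pi.smul_apply, smul_eq_mul]
      rw [← Finset.sum_add_distrib]
      refine Finset.sum_congr rfl fun i _ => ?_
      ring
  -- the inner field
  have hin : ∀ i, (fun w => ∑ j, (Q.J (y, w) * Q.gi (y, w) i j) • Q.dW y f j w) =ᶠ[𝓝 v]
      fun w => ∑ l, adj w l i • η w l := by
    intro i
    filter_upwards [hJ, hJ0, hgi, h1] with w w1 w2 w3 w4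
    have hdw : IsUnit (Matrix.of (θ w)).det := isUnit_iff_ne_zero.2 w2
    -- `gi θ = (θᵀ)⁻¹`
    have m1 : (Matrix.of (Q.gi (y, w))) * (Matrix.of (θ w) * (Matrix.of (θ w)).transpose) = 1 := by
      ext a b
      rw [Matrix.mul_apply, Matrix.one_apply, ← w3 a b]
      refine Finset.sum_congr rfl fun j _ => ?_
      rw [Matrix.mul_apply]
      rfl
    have m2 : (Matrix.of (Q.gi (y, w))) * Matrix.of (θ w) =
        ((Matrix.of (θ w)).transpose)⁻¹ := by
      have hdt : IsUnit ((Matrix.of (θ w)).transpose).det := by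
        rw [Matrix.det_transpose]
        exact hdw
      have := congrArg (fun X => X * ((Matrix.of (θ w)).transpose)⁻¹) m1
      simp only [one_mul] at this
      rw [← this, ← mul_assoc, mul_assoc (Matrix.of (Q.gi (y, w)) * Matrix.of (θ w)),
        Matrix.mul_nonsing_inv _ hdt, mul_one]
    have m3 : ∀ l, ∑ j, (Q.J (y, w) * Q.gi (y, w) i j) * θ w j l = adj w l i := by
      intro l
      have := congrFun (congrFun m2 i) l
      rw [Matrix.mul_apply, ← Matrix.transpose_nonsing_inv, Matrix.transpose_apply,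
        Matrix.inv_def, Matrix.smul_apply, smul_eq_mul] at this
      have e1 : ∑ j, (Q.J (y, w) * Q.gi (y, w) i j) * θ w j l =
          (Matrix.of (θ w)).det * ∑ j, (Matrix.of (Q.gi (y, w))) i j * (Matrix.of (θ w)) j l := by
        rw [w1, Finset.mul_sum]
        refine Finset.sum_congr rfl fun j _ => ?_
        simp only [Matrix.of_apply]
        ring
      rw [e1, this, ← mul_assoc, Ring.mul_inverse_cancel _ hdw, one_mul]
    simp only [w4, Finset.smul_sum, smul_smul]
    rw [Finset.sum_comm]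
    refine Finset.sum_congr rfl fun l _ => ?_
    rw [← m3 l, Finset.sum_smul]
  have hd : ∀ i, Q.dW y (fun w => ∑ j, (Q.J (y, w) * Q.gi (y, w) i j) • Q.dW y f j w) i v =
      ∑ l, (fderiv ℝ (fun w => adj w l i) v (ev4 i) • η v l +
        adj v l i • Q.dW y (fun w => η w l) i v) := by
    intro i
    have hc : Q.dW y (fun w => ∑ j, (Q.J (y, w) * Q.gi (y, w) i j) • Q.dW y f j w) i v =
        Q.dW y (fun w => ∑ l, adj w l i • η w l) i v := by
      have e0 : ∀ g : Eu4 → W, Q.dW y g i v = fderiv ℝ g v (ev4 i) + Q.B (y, v) i (g v) :=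
        fun g => rfl
      have e1 : ∑ j, (Q.J (y, v) * Q.gi (y, v) i j) • Q.dW y f j v = ∑ l, adj v l i • η v l :=
        (hin i).self_of_nhds
      rw [e0, e0, (hin i).fderiv_eq, e1]
    rw [hc]
    have e3 : HasFDerivAt (fun w => ∑ l, adj w l i • η w l)
        (∑ l, (adj v l i • fderiv ℝ (fun w => η w l) v +
          (fderiv ℝ (fun w => adj w l i) v).smulRight (η v l))) v :=
      HasFDerivAt.fun_sum fun l _ => (hadjd l i).hasFDerivAt.smul (hη l).hasFDerivAt
    unfold RadData.dW
    rw [e3.fderiv, map_sum]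
    simp only [FunLike.coe_sum, Finset.sum_apply, FunLike.coe_add, Pi.add_apply,
        FunLike.coe_smul, Pi.smul_apply, ContinuousLinearMap.smulRight_apply]
    rw [← Finset.sum_add_distrib]
    refine Finset.sum_congr rfl fun l _ => ?_
    rw [map_smul, smul_add]
    abel
  unfold RadData.lapW
  rw [hJ.self_of_nhds]
  simp only [hd]
  have f1 : ∑ i, ∑ l, (fderiv ℝ (fun w => adj w l i) v (ev4 i) • η v l +
        adj v l i • Q.dW y (fun w => η w l) i v) = J • ∑ l, N l l := by
    simp only [Finset.sum_add_distrib]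
    rw [Finset.sum_comm]
    have g1 : ∀ l, ∑ i, fderiv ℝ (fun w => adj w l i) v (ev4 i) • η v l =
        (J * ∑ m, ∑ k, ψ m k * A k m l) • η v l := by
      intro l
      rw [← Finset.sum_smul, hdiv]
    simp only [g1, hadj1]
    have g2 : ∀ k m, Q.dW y (fun w => η w m) k v =
        (∑ l, θ v k l • N l m) - ∑ n, A k m n • η v n := fun k m => by
      rw [← h2 k m]
      abel
    simp only [g2, smul_sub, Finset.sum_sub_distrib]
    have g3 : ∑ i, ∑ l, (J * ψ l i) • ∑ n, A i l n • η v n =
        ∑ l, (J * ∑ m, ∑ k, ψ m k * A k m l) • η v l := by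
      simp only [Finset.smul_sum, smul_smul]
      have g4 : ∀ i, ∑ l, ∑ n, (J * ψ l i * A i l n) • η v n =
          ∑ n, (∑ l, J * ψ l i * A i l n) • η v n := by
        intro i
        rw [Finset.sum_comm]
        refine Finset.sum_congr rfl fun n _ => ?_
        rw [Finset.sum_smul]
      simp only [g4]
      rw [Finset.sum_comm]
      refine Finset.sum_congr rfl fun n _ => ?_
      rw [← Finset.sum_smul]
      congr 1
      rw [Finset.mul_sum, Finset.sum_comm]
      refine Finset.sum_congr rfl fun l _ => ?_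
      rw [Finset.mul_sum]
      refine Finset.sum_congr rfl fun k _ => ?_
      ring
    have g5 : ∑ i, ∑ l, (J * ψ l i) • ∑ n, θ v i n • N n l = J • ∑ l, N l l := by
      simp only [Finset.smul_sum, smul_smul]
      rw [Finset.sum_comm]
      refine Finset.sum_congr rfl fun l _ => ?_
      rw [Finset.sum_comm]
      have g6 : ∀ n, ∑ i, (J * ψ l i * θ v i n) • N n l = (if l = n then J else 0) • N n l := by
        intro n
        rw [← Finset.sum_smul]
        congr 1
        have := hψ1 l n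
        rw [show ∑ i, J * ψ l i * θ v i n = J * ∑ i, ψ l i * θ v i n by
          rw [Finset.mul_sum]; exact Finset.sum_congr rfl fun i _ => by ring, this]
        split_ifs <;> simp
      simp only [g6]
      simp
    rw [g3, g5]
    abel
  rw [f1, neg_smul, smul_smul, inv_mul_cancel₀ hJne, one_smul]

end lap

end RGLap

end

end Vale.Agent.P211.HK
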