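import Vale.Agent.P211.HK.RGDefs
import Vale.Agent.P211.HK.RGLap
import Vale.Agent.P211.HK.Reps
import Vale.Agent.P211.HK.SC4
import Vale.Agent.P211.HK.SC5
import Vale.Agent.P211.HK.SC1

/-! P211 / HK / RG6 (helper767): the Laplacian in normal coordinates and radial gauge.

The connection in the radially parallel frame is torsion free: this follows from the covariant
derivatives of scalar functions (RG4 for the trivial representation) and the symmetry of second
covariant derivatives (SC5). -/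

set_option maxSynthPendingDepth 3
set_option linter.unusedSectionVars false

namespace Vale.Agent.P211.HK

open scoped Manifold ContDiff Topology RealInnerProductSpace
open Bundle Filter VectorField MeasureTheory Set
open Vale.Agent.P234 Vale.Agent.P231

noncomputable section

namespace RG6

/-! ### representations -/

section reps

variable {W : Type} [NormedAddCommGroup W] [InnerProductSpace ℝ W]

theorem triv_d (A : Mat4) : Rep.triv.d A = 0 := by
  unfold Rep.d
  have h : Rep.triv.ρ = fun _ : Mat4 => ContinuousLinearMap.id ℝ ℝ := rfl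
  rw [h]
  simp

theorem tn_d (R : Rep W) (A : Mat4) (w : Tn W) (k : Fin 4) :
    (R.tn.d A w) k = ∑ l, A k l • w l + R.d A (w k) := by
  have hR : HasFDerivAt R.ρ (fderiv ℝ R.ρ idM) idM :=
    (R.smooth.contDiffAt.differentiableAt (by simp)).hasFDerivAt
  have hT : HasFDerivAt R.tn.ρ (fderiv ℝ R.tn.ρ idM) idM :=
    (R.tn.smooth.contDiffAt.differentiableAt (by simp)).hasFDerivAt
  -- the component map
  let pr : (Tn W →L[ℝ] Tn W) →L[ℝ] W :=
    (PiLp.proj 2 (fun _ : Fin 4 => W) k : Tn W →L[ℝ] W).comp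
      (ContinuousLinearMap.apply ℝ (Tn W) w)
  have h1 : HasFDerivAt (fun g => (R.tn.ρ g w) k) (pr.comp (fderiv ℝ R.tn.ρ idM)) idM :=
    pr.hasFDerivAt.comp idM hT
  have hco : ∀ l, HasFDerivAt (fun g : Mat4 => g k l)
      ((ContinuousLinearMap.proj l : (Fin 4 → ℝ) →L[ℝ] ℝ).comp
        (ContinuousLinearMap.proj k : Mat4 →L[ℝ] (Fin 4 → ℝ))) idM := fun l =>
    ((ContinuousLinearMap.proj l : (Fin 4 → ℝ) →L[ℝ] ℝ).comp
        (ContinuousLinearMap.proj k : Mat4 →L[ℝ] (Fin 4 → ℝ))).hasFDerivAt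
  have hap : ∀ l, HasFDerivAt (fun g : Mat4 => R.ρ g (w l))
      ((ContinuousLinearMap.apply ℝ W (w l)).comp (fderiv ℝ R.ρ idM)) idM := fun l =>
    (ContinuousLinearMap.apply ℝ W (w l)).hasFDerivAt.comp idM hR
  have h2 : HasFDerivAt (fun g : Mat4 => ∑ l, g k l • R.ρ g (w l))
      (∑ l, (idM k l • (ContinuousLinearMap.apply ℝ W (w l)).comp (fderiv ℝ R.ρ idM) +
        ((ContinuousLinearMap.proj l : (Fin 4 → ℝ) →L[ℝ] ℝ).comp
        (ContinuousLinearMap.proj k : Mat4 →L[ℝ] (Fin 4 → ℝ))).smulRight (R.ρ idM (w l)))) idM :=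
    HasFDerivAt.fun_sum fun l _ => (hco l).smul (hap l)
  have h3 : (fun g : Mat4 => (R.tn.ρ g w) k) = fun g : Mat4 => ∑ l, g k l • R.ρ g (w l) := by
    funext g
    rw [Rep.tn_ρ, tnMap_apply]
  rw [h3] at h1
  have h4 := congrArg (fun L : Mat4 →L[ℝ] W => L A) (h1.unique h2)
  have h5 : pr.comp (fderiv ℝ R.tn.ρ idM) A = (R.tn.d A w) k := rfl
  rw [← h5]
  refine h4.trans ?_
  simp only [FunLike.coe_sum, Finset.sum_apply, FunLike.coe_add, Pi.add_apply,
    FunLike.coe_smul, Pi.smul_apply, ContinuousLinearMap.smulRight_apply,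
    ContinuousLinearMap.comp_apply, ContinuousLinearMap.apply_apply,
    ContinuousLinearMap.proj_apply, Finset.sum_add_distrib, R.one,
    ContinuousLinearMap.id_apply]
  rw [add_comm]
  congr 1
  rw [Finset.sum_eq_single k]
  · simp [idM, Rep.d]
  · intro b _ hb
    simp [idM, hb.symm]
  · simp

end reps

/-! ### scalar functions -/

section scal

variable {E : Type} [NormedAddCommGroup E] [NormedSpace ℝ E] [FiniteDimensional ℝ E]
  {M : Type} [TopologicalSpace M] [ChartedSpace E M] [IsManifold 𝓘(ℝ, E) ∞ M] [T2Space M]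
  [RiemannianBundle fun p : M => TangentSpace 𝓘(ℝ, E) p]
  [IsContMDiffRiemannianBundle 𝓘(ℝ, E) ∞ E fun p : M => TangentSpace 𝓘(ℝ, E) p]
  {cov : CovariantDerivative 𝓘(ℝ, E) E (TangentSpace 𝓘(ℝ, E) : M → Type)}
  {om : Form4 E M}

open Classical in
/-- a smooth function as a section of the trivial line bundle -/
def scS (om : Form4 E M) (φ : SF E M) : PreS E M ℝ := fun p f => if PON om p f then φ p else 0

theorem scS_pon {φ : SF E M} {p : M} {f : Fin 4 → TangentSpace 𝓘(ℝ, E) p} (h : PON om p f) :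
    scS om φ p f = φ p := if_pos h

theorem scS_mem (hg : Geo4 cov om) (φ : SF E M) : scS om φ ∈ Sec om Rep.triv := by
  refine ⟨fun p f h => if_neg h, fun p f g h hS => ?_, fun F p hF => ?_⟩
  · rw [scS_pon h, scS_pon ((sc0 hg).2.2.1 p f g h hS)]
    rfl
  · refine (φ.contMDiff p).congr_of_eventuallyEq ?_
    filter_upwards [hF] with q hq
    exact scS_pon hq

theorem nabS_scS (hg : Geo4 cov om) (φ : SF E M) {p : M}
    {f : Fin 4 → TangentSpace 𝓘(ℝ, E) p} (hf : PON om p f) (k : Fin 4) :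
    (nabS cov om (scS om φ) p f) k = (mvfderiv 𝓘(ℝ, E) φ p (f k) : ℝ) := by
  obtain ⟨F, hF, hn⟩ := SC4.exists_sync hg hf
  rw [hn]
  change dirW (fun q => scS om φ q fun i => F i q) p (f k) = _
  rw [← SC4.dirW_eq]
  refine SC2.dirW_congr ?_ _
  filter_upwards [hF.1] with q hq
  exact scS_pon hq

/-- functions with given differential -/
theorem exists_grad' (hg : Geo4 cov om) {p : M} {f : Fin 4 → TangentSpace 𝓘(ℝ, E) p}
    (hf : PON om p f) (c : Fin 4 → ℝ) :
    ∃ φ : SF E M, ∀ k, (mvfderiv 𝓘(ℝ, E) φ p (f k) : ℝ) = c k := by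
  obtain ⟨F, hF, -⟩ := SC4.exists_sync hg hf
  have h1 : ∀ i j, gVF (F i) (F j) p = if i = j then 1 else 0 := by
    intro i j
    rw [gVF_apply, hF.2.1 i, hF.2.1 j]
    exact (orthonormal_iff_ite.1 hf.1) i j
  obtain ⟨φ, -, h2⟩ := jetsVF p F h1 c
  refine ⟨φ, fun k => ?_⟩
  have := h2 k
  rw [DVF_apply, hF.2.1 k] at this
  exact this

end scal

end RG6

open RG6

variable {E : Type} [NormedAddCommGroup E] [NormedSpace ℝ E] [FiniteDimensional ℝ E]
  {M : Type} [MetricSpace M] [ChartedSpace E M] [IsManifold 𝓘(ℝ, E) ∞ M]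
  [RiemannianBundle fun p : M => TangentSpace 𝓘(ℝ, E) p]
  [IsContMDiffRiemannianBundle 𝓘(ℝ, E) ∞ E fun p : M => TangentSpace 𝓘(ℝ, E) p]

variable {e : ∀ x : M, TangentSpace 𝓘(ℝ, E) x → M}
  {cov : CovariantDerivative 𝓘(ℝ, E) E (TangentSpace 𝓘(ℝ, E) : M → Type)} {om : Form4 E M}

namespace RG6

variable {D : ℝ} {L : LocD om D}

/-- slices of smooth functions -/
theorem slice {X : Type*} [NormedAddCommGroup X] [NormedSpace ℝ X] (hU : IsOpen L.U)
    {F : E × Eu4 → X} (hF : ContDiffOn ℝ ∞ F L.UB) {y : E} {v : Eu4} (hx : (y, v) ∈ L.UB) :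
    ContDiffAt ℝ ∞ (fun w => F (y, w)) v := by
  have h1 : ContDiffAt ℝ ∞ F (y, v) :=
    hF.contDiffAt ((hU.prod Metric.isOpen_ball).mem_nhds hx)
  exact h1.comp v (contDiffAt_const.prodMk contDiffAt_id)

variable (T : L.Rot e cov)

/-- components of the coordinate vectors in the radially parallel frame -/
def tha (T : L.Rot e cov) (y : E) (w : Eu4) : Fin 4 → Fin 4 → ℝ :=
  mulM (L.th e (y, w)) (T.a (y, w))

theorem tha_diff (h1 : RG1Stmt e cov om) (H : RGH e cov om D) {y : E} {v : Eu4}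
    (hx : (y, v) ∈ L.UB) (i j : Fin 4) :
    DifferentiableAt ℝ (fun w => tha T y w i j) v := by
  obtain ⟨hU, hex, -, -, -, hth, -, -, -, -, hpos⟩ := h1 D H L
  have a1 := slice hU hth hx
  have a2 := slice hU T.smooth hx
  have b1 : ∀ k, ContDiffAt ℝ ∞ (fun w => L.th e (y, w) i k) v := fun k =>
    (contDiffAt_pi.1 ((contDiffAt_pi.1 a1) i)) k
  have b2 : ∀ k, ContDiffAt ℝ ∞ (fun w => T.a (y, w) k j) v := fun k =>
    (contDiffAt_pi.1 ((contDiffAt_pi.1 a2) k)) j
  have h3 : ContDiffAt ℝ ∞ (fun w => ∑ k, L.th e (y, w) i k * T.a (y, w) k j) v :=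
    ContDiffAt.sum fun k _ => (b1 k).mul (b2 k)
  exact h3.differentiableAt (by simp)

/-- components of functions with values in `T ⊗ W` -/
theorem fderiv_comp_tn {W : Type} [NormedAddCommGroup W] [InnerProductSpace ℝ W]
    {F : Eu4 → Tn W} {v : Eu4} (hF : DifferentiableAt ℝ F v) (m : Fin 4) :
    HasFDerivAt (fun w => F w m)
      ((PiLp.proj 2 (fun _ : Fin 4 => W) m : Tn W →L[ℝ] W).comp (fderiv ℝ F v)) v :=
  (PiLp.proj 2 (fun _ : Fin 4 => W) m : Tn W →L[ℝ] W).hasFDerivAt.comp v hF.hasFDerivAt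

/-- RG4 for `∇u`, componentwise -/
theorem second_comp {W : Type} [NormedAddCommGroup W] [InnerProductSpace ℝ W]
    {R : Rep W} {Q : RadData E W L.U D} (hR : T.IsRad R Q)
    {Q1 : RadData E (Tn W) L.U D} (hQ1 : T.IsRad R.tn Q1) {y : E} {v : Eu4}
    (hx : (y, v) ∈ L.UB) (F : E × Eu4 → Tn W) (hF : DifferentiableAt ℝ (fun w => F (y, w)) v)
    (N : Tn (Tn W)) (k m : Fin 4)
    (h : Q1.dW y (fun w => F (y, w)) k v = ∑ l, tha T y v k l • N l) :
    Q.dW y (fun w => F (y, w) m) k v + ∑ n, T.A (y, v) k m n • F (y, v) n =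
      ∑ l, tha T y v k l • N l m := by
  have h5 := congrArg (fun z : Tn W => z m) h
  unfold RadData.dW at h5 ⊢
  rw [hQ1.B (y, v) hx] at h5
  rw [hR.B (y, v) hx]
  have h6 : fderiv ℝ (fun w => F (y, w) m) v (ev4 k) = (fderiv ℝ (fun w => F (y, w)) v (ev4 k)) m :=
    by rw [(fderiv_comp_tn hF m).fderiv]; rfl
  rw [h6]
  simp only [PiLp.add_apply] at h5
  rw [tn_d] at h5
  simp only [WithLp.ofLp_sum, Finset.sum_apply, WithLp.ofLp_smul, Pi.smul_apply] at h5
  rw [← h5]
  abel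

theorem near_ball {y : E} {v : Eu4} (hx : (y, v) ∈ L.UB) : ∀ᶠ w in 𝓝 v, (y, w) ∈ L.UB := by
  filter_upwards [Metric.isOpen_ball.mem_nhds hx.2] with w hw
  exact ⟨hx.1, hw⟩

end RG6

namespace RG6

variable {D : ℝ} {L : LocD om D} (T : L.Rot e cov)

/-- the radially parallel frame is torsion free -/
theorem torsion (hS1 : SC1Stmt cov om) (h1 : RG1Stmt e cov om) (h3b : RG3bStmt e cov om)
    (hQ : RGQStmt e cov om) (h4 : RG4Stmt e cov om) (H : RGH e cov om D) {y : E} {v : Eu4}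
    (hx : (y, v) ∈ L.UB) (i j l : Fin 4) :
    fderiv ℝ (fun w => tha T y w j l) v (ev4 i) - fderiv ℝ (fun w => tha T y w i l) v (ev4 j) +
      ∑ n, (T.A (y, v) i l n * tha T y v j n - T.A (y, v) j l n * tha T y v i n) = 0 := by
  have hU := (h1 D H L).1
  obtain ⟨-, hA, hpon⟩ := h3b D H L T
  have hg := H.geo
  obtain ⟨φ, hφ⟩ := exists_grad' hg (hpon (y, v) hx) (Pi.single l 1)
  obtain ⟨Q0, hQ0⟩ := hQ D H L T ℝ Rep.triv
  obtain ⟨Q1, hQ1⟩ := hQ D H L T (Tn ℝ) (Rep.tn Rep.triv)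
  have hs := scS_mem hg φ
  have hs' : nabS cov om (scS om φ) ∈ Sec om (Rep.tn Rep.triv) :=
    sc2_of cov om sc0 hS1 hg ℝ Rep.triv (Rep.tn Rep.triv) (Rep.tens_tn _) _ hs
  obtain ⟨p1, p2⟩ := h4 D H L T ℝ Rep.triv Q0 hQ0 _ hs
  obtain ⟨q1, q2⟩ := h4 D H L T (Tn ℝ) (Rep.tn Rep.triv) Q1 hQ1 _ hs'
  have hP : ContDiffAt ℝ ∞ (fun w => T.pull (scS om φ) (y, w)) v := slice hU p1 hx
  have hG0 : DifferentiableAt ℝ (fun w => T.pull (nabS cov om (scS om φ)) (y, w)) v :=
    (slice hU q1 hx).differentiableAt (by simp)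
  have hGx : ∀ m, T.pull (nabS cov om (scS om φ)) (y, v) m = (Pi.single l 1 : Fin 4 → ℝ) m := by
    intro m
    have := nabS_scS hg φ (hpon (y, v) hx) m
    exact this.trans (hφ m)
  have hP1 : ∀ᶠ w in 𝓝 v, ∀ k, fderiv ℝ (fun w => T.pull (scS om φ) (y, w)) w (ev4 k) =
      ∑ l, tha T y w k l * T.pull (nabS cov om (scS om φ)) (y, w) l := by
    filter_upwards [near_ball hx] with w hw k
    have h5 := p2 (y, w) hw k
    unfold RadData.dW at h5
    rw [hQ0.B (y, w) hw, triv_d] at h5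
    simp only [zero_apply, add_zero, smul_eq_mul] at h5
    exact h5
  have hG1 : ∀ k m, fderiv ℝ (fun w => T.pull (nabS cov om (scS om φ)) (y, w) m) v (ev4 k) +
      ∑ n, T.A (y, v) k m n * T.pull (nabS cov om (scS om φ)) (y, v) n =
      ∑ l, tha T y v k l *
        (nabS cov om (nabS cov om (scS om φ)) (L.ex e (y, v)) (T.eh (y, v))) l m := by
    intro k m
    have h5 := second_comp T hQ0 hQ1 hx (T.pull (nabS cov om (scS om φ))) hG0 _ k m
      (q2 (y, v) hx k)
    unfold RadData.dW at h5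
    rw [hQ0.B (y, v) hx, triv_d] at h5
    simp only [zero_apply, add_zero, smul_eq_mul] at h5
    exact h5
  have hHs : ∀ l m, (nabS cov om (nabS cov om (scS om φ)) (L.ex e (y, v)) (T.eh (y, v))) l m =
      (nabS cov om (nabS cov om (scS om φ)) (L.ex e (y, v)) (T.eh (y, v))) m l := by
    intro l m
    have h5 := (C5.sc5 om sc0 hS1 hg ℝ Rep.triv _ hs (L.ex e (y, v)) (T.eh (y, v))
      (hpon (y, v) hx)).2 l m
    rw [triv_d] at h5
    simp only [zero_apply] at h5
    exact sub_eq_zero.1 h5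
  have key := RGLap.tor_scalar (tha T y) (T.A (y, v)) v (tha_diff T h1 H hx)
    (fun k i j => (hA (y, v) hx).1 k i j) (fun w => T.pull (scS om φ) (y, w)) hP
    (fun w m => T.pull (nabS cov om (scS om φ)) (y, w) m)
    (fun m => (fderiv_comp_tn hG0 m).differentiableAt)
    (fun l m => (nabS cov om (nabS cov om (scS om φ)) (L.ex e (y, v)) (T.eh (y, v))) l m)
    hP1 hG1 hHs i j
  simp only [hGx] at key
  rw [Finset.sum_eq_single l] at key
  · rw [Pi.single_eq_same, one_mul] at key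
    exact key
  · intro b _ hb
    rw [Pi.single_eq_of_ne hb, zero_mul]
  · intro h
    exact absurd (Finset.mem_univ l) h

end RG6

variable (e cov om)

theorem rg6_of (hS1 : SC1Stmt cov om) (h1 : RG1Stmt e cov om) (h3b : RG3bStmt e cov om)
    (hQ : RGQStmt e cov om) (h4 : RG4Stmt e cov om) : RG6Stmt e cov om := by
  intro D H L T W _ _ _ R Q hR u hu x hx
  have hg := H.geo
  obtain ⟨y, v⟩ := x
  have hU := (h1 D H L).1
  have hA := (h3b D H L T).2.1
  have hu' : nabS cov om u ∈ Sec om (Rep.tn R) :=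
    sc2_of cov om sc0 hS1 hg W R (Rep.tn R) (Rep.tens_tn _) _ hu
  obtain ⟨Q1, hQ1⟩ := hQ D H L T (Tn W) (Rep.tn R)
  obtain ⟨p1, p2⟩ := h4 D H L T W R Q hR _ hu
  obtain ⟨q1, q2⟩ := h4 D H L T (Tn W) (Rep.tn R) Q1 hQ1 _ hu'
  have hG0 : DifferentiableAt ℝ (fun w => T.pull (nabS cov om u) (y, w)) v :=
    (slice hU q1 hx).differentiableAt (by simp)
  have hJ : ∀ᶠ w in 𝓝 v, (Matrix.of (tha T y w)).det = L.Jd e (y, w) := by
    filter_upwards [near_ball hx] with w hw
    unfold tha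
    rw [of_mulM, Matrix.det_mul, (T.so _ hw).2, mul_one]
    rfl
  have key := RGLap.lapW_eq Q y (fun w => T.pull u (y, w))
    (fun w m => T.pull (nabS cov om u) (y, w) m)
    (fun l m => (nabS cov om (nabS cov om u) (L.ex e (y, v)) (T.eh (y, v))) l m) (tha T y)
    (T.A (y, v)) v (tha_diff T h1 H hx) (fun m => (fderiv_comp_tn hG0 m).differentiableAt)
    (by
      filter_upwards [near_ball hx, hJ] with w hw hw2
      rw [hR.J _ hw, hw2])
    (by
      filter_upwards [near_ball hx, hJ] with w hw hw2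
      rw [hw2]
      exact ((h1 D H L).2.2.2.2.2.2.2.2.2.2 _ hw).1.ne')
    (by
      filter_upwards [near_ball hx] with w hw i k
      obtain ⟨-, h6, h7, -, -, -⟩ := (h1 D H L).2.2.2.2.2.2.2.2.2.2 _ hw
      rw [hR.gi _ hw]
      have h8 : ∀ j, ∑ l, tha T y w j l * tha T y w k l = L.gm e (y, w) j k := by
        intro j
        have h9 : mulM (tha T y w) (trM (tha T y w)) = L.gm e (y, w) := by
          rw [h6]
          unfold tha
          rw [trM_mulM, mulM_assoc, ← mulM_assoc (T.a (y, w)), (T.so _ hw).right, one_mulM]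
        exact congrFun (congrFun h9 j) k
      simp only [h8]
      exact congrFun (congrFun h7 i) k)
    (fun k i j => (hA (y, v) hx).1 k i j) (torsion T hS1 h1 h3b hQ h4 H hx)
    (by
      filter_upwards [near_ball hx] with w hw k
      exact p2 (y, w) hw k)
    (fun k m => second_comp T hR hQ1 hx (T.pull (nabS cov om u)) hG0 _ k m (q2 (y, v) hx k))
  exact key.symm

theorem rg6 (h1 : RG1Stmt e cov om) (h3b : RG3bStmt e cov om)
    (hQ : RGQStmt e cov om) (h4 : RG4Stmt e cov om) : RG6Stmt e cov om :=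
  rg6_of e cov om (sc1 cov om) h1 h3b hQ h4

end

end Vale.Agent.P211.HK
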