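import Vale.Agent.P211.HK.RG8
import Vale.Agent.P211.HK.SC0b

/-! P211 / HK, RG7: the inverse of the normal coordinates is jointly smooth in the centre and the
point. helper866. -/

set_option maxSynthPendingDepth 3
set_option linter.unusedSectionVars false

namespace Vale.Agent.P211.HK

open scoped Manifold ContDiff Topology RealInnerProductSpace
open Bundle Filter VectorField MeasureTheory Set
open Vale.Agent.P234 Vale.Agent.P231

noncomputable section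

variable {E : Type} [NormedAddCommGroup E] [NormedSpace ℝ E] [FiniteDimensional ℝ E]
  {M : Type} [MetricSpace M] [ChartedSpace E M] [IsManifold 𝓘(ℝ, E) ∞ M]
  [RiemannianBundle fun p : M => TangentSpace 𝓘(ℝ, E) p]
  [IsContMDiffRiemannianBundle 𝓘(ℝ, E) ∞ E fun p : M => TangentSpace 𝓘(ℝ, E) p]
  {e : ∀ x : M, TangentSpace 𝓘(ℝ, E) x → M}
  {cov : CovariantDerivative 𝓘(ℝ, E) E (TangentSpace 𝓘(ℝ, E) : M → Type)} {om : Form4 E M} {D : ℝ}

namespace RG7

variable {L : LocD om D}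

/-- the linear map `v ↦ ∑ v_i F_i` at the centre -/
def vecL (L : LocD om D) (y : E) : Eu4 →L[ℝ] TangentSpace 𝓘(ℝ, E) (L.q y) :=
  ∑ i, (EuclideanSpace.proj i : Eu4 →L[ℝ] ℝ).smulRight (L.Fr i (L.q y))

theorem vecL_apply (L : LocD om D) (y : E) (v : Eu4) : vecL L y v = L.vec (y, v) := by
  simp only [vecL, LocD.vec, FunLike.coe_sum, Finset.sum_apply]
  rfl

theorem vec_zero (L : LocD om D) (y : E) : L.vec (y, 0) = 0 := by
  rw [← vecL_apply, map_zero]

theorem vecL_single (L : LocD om D) (y : E) (i : Fin 4) : vecL L y (ev4 i) = L.Fr i (L.q y) := by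
  rw [vecL_apply]
  simp only [LocD.vec, ev4]
  rw [Finset.sum_eq_single i]
  · simp
  · intro j _ hj
    simp [hj]
  · simp

theorem onb (L : LocD om D) {y : E} (hy : y ∈ L.U) : PON om (L.q y) fun i => L.Fr i (L.q y) :=
  L.pon (L.q y) (L.near _ hy.2 _ (by simpa using L.D_pos))

/-- the logarithm inside the injectivity radius -/
theorem log_spec (H : RGH e cov om D) {x p : M} (hd : dist x p < D) :
    ∃ v : TangentSpace 𝓘(ℝ, E) x, e x v = p ∧ ‖v‖ = dist x p ∧ logMap e x p = v ∧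
      v ∈ injDomain e x := by
  obtain ⟨v, hv, hn⟩ := H.facts.hopfRinow x p
  have hvD : ‖v‖ < D := by rw [← hn]; exact hd
  have hi := H.inj.mem_injDomain hvD
  refine ⟨v, hv, hn.symm, ?_, hi⟩
  have h1 := logMap_eq H.facts.isExp (H.inj x v hvD.le) (H.facts.smooth_cost x v hi)
  rwa [hv] at h1

theorem log_exp (H : RGH e cov om D) {x : M} {v : TangentSpace 𝓘(ℝ, E) x} (hv : ‖v‖ < D) :
    logMap e x (e x v) = v :=
  logMap_eq H.facts.isExp (H.inj x v hv.le) (H.facts.smooth_cost x v (H.inj.mem_injDomain hv))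

theorem norm_vec (L : LocD om D) {y : E} (hy : y ∈ L.U) (v : Eu4) : ‖L.vec (y, v)‖ = ‖v‖ := by
  have h3 : (inner ℝ (L.vec (y, v)) (L.vec (y, v)) : ℝ) = inner ℝ v v :=
    RG8.ip_vf (L.q y) (onb L hy).1 v v
  rw [real_inner_self_eq_norm_sq, real_inner_self_eq_norm_sq] at h3
  exact (sq_eq_sq₀ (norm_nonneg _) (norm_nonneg _)).1 h3

theorem inner_vec (L : LocD om D) {y : E} (hy : y ∈ L.U) (v : Eu4) (i : Fin 4) :
    (inner ℝ (L.vec (y, v)) (L.Fr i (L.q y)) : ℝ) = v i := by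
  have h := onb L hy
  rw [real_inner_comm]
  exact h.1.inner_right_fintype _ _

/-- the vector with components `co` -/
theorem vec_co (H : RGH e cov om D) (L : LocD om D) {y : E} (hy : y ∈ L.U) (p : M) :
    L.vec (y, L.co e y p) = logMap e (L.q y) p := by
  have h := pon_expand H.geo (onb L hy).1 (logMap e (L.q y) p)
  conv_rhs => rw [h]
  simp only [LocD.vec, LocD.co]
  refine Finset.sum_congr rfl fun i _ => ?_
  rw [real_inner_comm]

theorem co_spec (H : RGH e cov om D) (L : LocD om D) {y : E} (hy : y ∈ L.U) {p : M}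
    (hd : dist (L.q y) p < D) : ‖L.co e y p‖ = dist (L.q y) p ∧ L.ex e (y, L.co e y p) = p := by
  obtain ⟨v, hv, hn, hl, hi⟩ := log_spec H hd
  have h1 := vec_co H L hy p
  constructor
  · rw [← norm_vec L hy, h1, hl, hn]
  · unfold LocD.ex
    change e (L.q y) (L.vec (y, L.co e y p)) = p
    rw [h1, hl, hv]

theorem co_ex (H : RGH e cov om D) (L : LocD om D) {x : E × Eu4} (hx : x ∈ L.UB) :
    L.co e x.1 (L.ex e x) = x.2 := by
  have hv : ‖L.vec x‖ < D := by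
    have h := norm_vec L hx.1 x.2
    have h2 := hx.2
    rw [mem_ball_zero_iff] at h2
    exact h.trans_lt h2
  have h1 : logMap e (L.q x.1) (L.ex e x) = L.vec x := log_exp H hv
  ext i
  simp only [LocD.co, h1]
  exact inner_vec L hx.1 x.2 i

/-- the components of the logarithm are partial derivatives of the cost -/
theorem fderiv_cost (H : RGH e cov om D) (L : LocD om D) {y : E} {p : M}
    (hd : dist (L.q y) p < D) (i : Fin 4) :
    L.co e y p i = -(fderiv ℝ (fun w : Eu4 => cost (L.ex e (y, w)) p) 0 (ev4 i)) := by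
  obtain ⟨v, hv, hn, hl, hi⟩ := log_spec H hd
  have h0 := hasFDerivAt_cost_zero H.facts.isExp (L.q y) v
    (injDomain_subset_segMin H.facts.isExp _ hi) (H.facts.smooth_cost _ v hi)
  rw [hv] at h0
  have h1 : HasFDerivAt (fun w : Eu4 => vecL L y w) (vecL L y) 0 := (vecL L y).hasFDerivAt
  have h2 : vecL L y 0 = 0 := map_zero _
  rw [← h2] at h0
  have h3 := h0.comp (0 : Eu4) h1
  have h4 : (fun w : Eu4 => cost (L.ex e (y, w)) p) =
      (fun a : TangentSpace 𝓘(ℝ, E) (L.q y) => cost (e (L.q y) a) p) ∘ fun w => vecL L y w := by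
    funext w
    simp only [Function.comp_apply, vecL_apply]
    rfl
  rw [h4, h3.fderiv]
  simp only [ContinuousLinearMap.comp_apply, neg_apply, innerSL_apply_apply,
    vecL_single, neg_neg, LocD.co, hl]

theorem cont_q (L : LocD om D) {y : E} (hy : y ∈ L.U) : ContinuousAt L.q y :=
  (continuousOn_extChartAt_symm L.p0).continuousAt
    ((isOpen_extChartAt_target L.p0).mem_nhds hy.1)

/-- the cost in normal coordinates in the first variable is smooth in all variables -/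
theorem smooth_cost (H : RGH e cov om D) (L : LocD om D) (hU : IsOpen L.U)
    (hsm : ContMDiffOn 𝓘(ℝ, E × Eu4) 𝓘(ℝ, E) ∞ (L.ex e) (L.U ×ˢ univ)) {y : E} (hy : y ∈ L.U)
    {p : M} (hd : dist (L.q y) p < D) :
    ContMDiffAt ((𝓘(ℝ, E).prod 𝓘(ℝ, E)).prod 𝓘(ℝ, Eu4)) 𝓘(ℝ, ℝ) ∞
      (Function.uncurry fun (z : E × M) (w : Eu4) => cost (L.ex e (z.1, w)) z.2) ((y, p), 0) := by
  obtain ⟨v, hv, hn, hl, hi⟩ := log_spec H hd
  have h0 : L.ex e (y, 0) = L.q y := by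
    change e (L.q y) (L.vec (y, 0)) = L.q y
    rw [vec_zero]
    exact H.facts.isExp.map_zero _
  have h1 : ContMDiffAt (𝓘(ℝ, E).prod 𝓘(ℝ, E)) 𝓘(ℝ, ℝ) ∞ (fun p : M × M => cost p.1 p.2)
      (L.ex e (y, 0), p) := by
    have := (H.facts.smooth_cost _ v hi).contMDiffAt
    rwa [hv, ← h0] at this
  have h2 : ContMDiffAt ((𝓘(ℝ, E).prod 𝓘(ℝ, E)).prod 𝓘(ℝ, Eu4)) 𝓘(ℝ, E × Eu4) ∞
      (fun z : (E × M) × Eu4 => (z.1.1, z.2)) ((y, p), 0) :=
    (contMDiffAt_fst.comp _ contMDiffAt_fst).prodMk_space contMDiffAt_snd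
  have h3 : ContMDiffAt 𝓘(ℝ, E × Eu4) 𝓘(ℝ, E) ∞ (L.ex e) (y, 0) :=
    hsm.contMDiffAt ((hU.prod isOpen_univ).mem_nhds ⟨hy, mem_univ _⟩)
  have h4 : ContMDiffAt ((𝓘(ℝ, E).prod 𝓘(ℝ, E)).prod 𝓘(ℝ, Eu4)) 𝓘(ℝ, E) ∞
      (fun z : (E × M) × Eu4 => L.ex e (z.1.1, z.2)) ((y, p), 0) :=
    ContMDiffAt.comp (x := ((y, p), (0 : Eu4))) (g := L.ex e)
      (f := fun z : (E × M) × Eu4 => (z.1.1, z.2)) h3 h2
  have h5 : ContMDiffAt ((𝓘(ℝ, E).prod 𝓘(ℝ, E)).prod 𝓘(ℝ, Eu4)) 𝓘(ℝ, E) ∞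
      (fun z : (E × M) × Eu4 => z.1.2) ((y, p), 0) :=
    contMDiffAt_snd.comp _ contMDiffAt_fst
  exact ContMDiffAt.comp (x := ((y, p), (0 : Eu4))) (g := fun p : M × M => cost p.1 p.2)
    (f := fun z : (E × M) × Eu4 => (L.ex e (z.1.1, z.2), z.1.2)) h1 (h4.prodMk h5)

/-- the map from linear functionals to vectors with the opposite sign -/
def negV : (Eu4 →L[ℝ] ℝ) →L[ℝ] Eu4 :=
  ((EuclideanSpace.equiv (Fin 4) ℝ).symm : (Fin 4 → ℝ) →L[ℝ] Eu4).comp
    (ContinuousLinearMap.pi fun i => -(ContinuousLinearMap.apply ℝ ℝ (ev4 i)))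

theorem negV_apply (l : Eu4 →L[ℝ] ℝ) (i : Fin 4) : negV l i = -(l (ev4 i)) := rfl

/-- normal coordinates are jointly smooth in the centre and the point -/
theorem co_smooth (H : RGH e cov om D) (L : LocD om D) (hU : IsOpen L.U)
    (hsm : ContMDiffOn 𝓘(ℝ, E × Eu4) 𝓘(ℝ, E) ∞ (L.ex e) (L.U ×ˢ univ)) {y : E} (hy : y ∈ L.U)
    {p : M} (hd : dist (L.q y) p < D) :
    ContMDiffAt (𝓘(ℝ, E).prod 𝓘(ℝ, E)) 𝓘(ℝ, Eu4) ∞ (fun z : E × M => L.co e z.1 z.2) (y, p) := by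
  have h1 := smooth_cost H L hU hsm hy hd
  have h2 := ContMDiffAt.mfderiv (fun (z : E × M) (w : Eu4) => cost (L.ex e (z.1, w)) z.2)
    (fun _ : E × M => (0 : Eu4)) (x₀ := (y, p)) (m := ∞) h1 contMDiffAt_const (by simp)
  have h3 : ContMDiffAt (𝓘(ℝ, E).prod 𝓘(ℝ, E)) 𝓘(ℝ, Eu4 →L[ℝ] ℝ) ∞
      (fun z : E × M => fderiv ℝ (fun w : Eu4 => cost (L.ex e (z.1, w)) z.2) 0) (y, p) := by
    refine h2.congr_of_eventuallyEq (Filter.Eventually.of_forall fun z => ?_)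
    have h6 := congrFun (inTangentCoordinates_model_space (I := 𝓘(ℝ, Eu4)) (I' := 𝓘(ℝ, ℝ))
      (fun _ : E × M => (0 : Eu4)) (fun x : E × M => cost (L.ex e (x.1, 0)) x.2)
      (fun x : E × M => fderiv ℝ (fun w : Eu4 => cost (L.ex e (x.1, w)) x.2) 0) (y, p)) z
    simp only [mfderiv_eq_fderiv]
    exact h6.symm
  have h4 : ContMDiffAt (𝓘(ℝ, E).prod 𝓘(ℝ, E)) 𝓘(ℝ, Eu4) ∞
      (fun z : E × M => negV (fderiv ℝ (fun w : Eu4 => cost (L.ex e (z.1, w)) z.2) 0)) (y, p) :=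
    ContMDiffAt.comp (x := (y, p)) (g := fun l => negV l) negV.contMDiff.contMDiffAt h3
  refine h4.congr_of_eventuallyEq ?_
  have h5 : ContinuousAt (fun z : E × M => dist (L.q z.1) z.2) (y, p) := by
    have h6 : ContinuousAt (fun z : E × M => L.q z.1) (y, p) :=
      ContinuousAt.comp (x := (y, p)) (g := L.q) (f := Prod.fst) (cont_q L hy) continuousAt_fst
    exact ContinuousAt.comp (x := (y, p)) (g := fun a : M × M => dist a.1 a.2)
      (f := fun z : E × M => (L.q z.1, z.2)) continuous_dist.continuousAt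
      (h6.prodMk continuousAt_snd)
  filter_upwards [h5.eventually (Iio_mem_nhds hd)] with z hz
  ext i
  rw [negV_apply]
  exact fderiv_cost H L hz i

/-- the rotation `h` in terms of the frame fields -/
theorem h_eq (T : L.Rot e cov) (y : E) (p : M) (F : Fin 4 → TangentSpace 𝓘(ℝ, E) p) (i j : Fin 4) :
    T.h y p F i j = ∑ k, T.a (y, L.co e y p) k j * inner ℝ (F i) (L.Fr k p) := by
  simp only [LocD.Rot.h, LocD.Rot.eq, fact, inner_sum, real_inner_smul_right]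

end RG7

theorem rg7 (h1 : RG1Stmt e cov om) : RG7Stmt e cov om := by
  intro D H L
  obtain ⟨hU, hmem, hsm, hdk, hdE, hth, hgm, hgi, hJ, hG, halg⟩ := h1 D H L
  refine ⟨fun y hy p hd => ⟨(RG7.co_spec H L hy hd).1, (RG7.co_spec H L hy hd).2,
    RG7.co_smooth H L hU hsm hy hd⟩, fun x hx => RG7.co_ex H L hx, ?_⟩
  intro T F y hy p hd hF
  have hUB : (y, L.co e y p) ∈ L.UB := by
    refine ⟨hy, ?_⟩
    rw [mem_ball_zero_iff, (RG7.co_spec H L hy hd).1]
    exact hd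
  have hp : p ∈ L.O' := L.near _ hy.2 p hd
  have hpon : PON om p (T.eq y p) := pon_fact H.geo (L.pon p hp) (T.so _ hUB)
  refine ⟨hpon, ?_, ?_⟩
  · exact (pon_matrix H.geo hF.pon hpon).1
  · have hUBo : IsOpen L.UB := hU.prod Metric.isOpen_ball
    have h2 : ContMDiffAt (𝓘(ℝ, E).prod 𝓘(ℝ, E)) 𝓘(ℝ, E × Eu4) ∞
        (fun z : E × M => (z.1, L.co e z.1 z.2)) (y, p) :=
      contMDiffAt_fst.prodMk_space (RG7.co_smooth H L hU hsm hy hd)
    have h3 : ContMDiffAt 𝓘(ℝ, E × Eu4) 𝓘(ℝ, Mat4) ∞ T.a (y, L.co e y p) :=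
      (T.smooth.contDiffAt (hUBo.mem_nhds hUB)).contMDiffAt
    have h4 : ContMDiffAt (𝓘(ℝ, E).prod 𝓘(ℝ, E)) 𝓘(ℝ, Mat4) ∞
        (fun z : E × M => T.a (z.1, L.co e z.1 z.2)) (y, p) :=
      ContMDiffAt.comp (x := (y, p)) (g := T.a) (f := fun z : E × M => (z.1, L.co e z.1 z.2)) h3 h2
    rw [contMDiffAt_pi_space]
    intro i
    rw [contMDiffAt_pi_space]
    intro j
    simp only [RG7.h_eq]
    have h5 : ∀ k : Fin 4, ContMDiffAt (𝓘(ℝ, E).prod 𝓘(ℝ, E)) 𝓘(ℝ, ℝ) ∞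
        (fun z : E × M => T.a (z.1, L.co e z.1 z.2) k j) (y, p) := by
      intro k
      have h6 := contMDiffAt_pi_space.1 h4 k
      exact contMDiffAt_pi_space.1 h6 j
    have h7 : ∀ k : Fin 4, ContMDiffAt (𝓘(ℝ, E).prod 𝓘(ℝ, E)) 𝓘(ℝ, ℝ) ∞
        (fun z : E × M => (inner ℝ (F i z.2) (L.Fr k z.2) : ℝ)) (y, p) := by
      intro k
      exact ContMDiffAt.comp (x := (y, p)) (g := fun q : M => gVF (F i) (L.Fr k) q)
        (f := Prod.snd) (gVF (F i) (L.Fr k)).contMDiff.contMDiffAt contMDiffAt_snd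
    exact contMDiffAt_finsetSum fun k _ => (h5 k).mul (h7 k)

end

end Vale.Agent.P211.HK
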