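import Vale.Agent.P211.HK.RGDefs
import Vale.Agent.P211.HK.LapMem
import Vale.Agent.P211.HK.Reps

/-! P211 / HK: block RG7b, sections from functions of the normal coordinates (helper972). -/

set_option maxSynthPendingDepth 3
set_option linter.unusedSectionVars false

namespace Vale.Agent.P211.HK

open scoped Manifold ContDiff Topology RealInnerProductSpace
open Bundle Filter VectorField MeasureTheory Set
open Vale.Agent.P234 Vale.Agent.P231

noncomputable section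

namespace RG7b

section lapW

variable {P W : Type} [NormedAddCommGroup P] [NormedSpace ℝ P] [NormedAddCommGroup W]
    [InnerProductSpace ℝ W] {U : Set P} {D : ℝ} (Q : RadData P W U D)

theorem dW_congr (y : P) {f g : Eu4 → W} {v : Eu4} (h : f =ᶠ[𝓝 v] g) (i : Fin 4) :
    Q.dW y f i v = Q.dW y g i v := by
  unfold RadData.dW
  rw [h.fderiv_eq, h.self_of_nhds]

theorem dW_congr_nhds (y : P) {f g : Eu4 → W} {v : Eu4} (h : f =ᶠ[𝓝 v] g) (i : Fin 4) :
    Q.dW y f i =ᶠ[𝓝 v] Q.dW y g i := by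
  filter_upwards [h.eventuallyEq_nhds] with w hw
  exact dW_congr Q y hw i

/-- the operator `lapW` is local -/
theorem lapW_congr (y : P) {f g : Eu4 → W} {v : Eu4} (h : f =ᶠ[𝓝 v] g) :
    Q.lapW y f v = Q.lapW y g v := by
  unfold RadData.lapW
  congr 1
  refine Finset.sum_congr rfl fun i _ => ?_
  refine dW_congr Q y ?_ i
  have h1 : ∀ᶠ w in 𝓝 v, ∀ j, Q.dW y f j w = Q.dW y g j w :=
    eventually_all.2 fun j => dW_congr_nhds Q y h j
  filter_upwards [h1] with w hw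
  refine Finset.sum_congr rfl fun j _ => ?_
  rw [hw j]

end lapW

variable {E : Type} [NormedAddCommGroup E] [NormedSpace ℝ E] [FiniteDimensional ℝ E]
  {M : Type} [MetricSpace M] [ChartedSpace E M] [IsManifold 𝓘(ℝ, E) ∞ M]
  [RiemannianBundle fun p : M => TangentSpace 𝓘(ℝ, E) p]
  [IsContMDiffRiemannianBundle 𝓘(ℝ, E) ∞ E fun p : M => TangentSpace 𝓘(ℝ, E) p]
  {e : ∀ x : M, TangentSpace 𝓘(ℝ, E) x → M}
  {cov : CovariantDerivative 𝓘(ℝ, E) E (TangentSpace 𝓘(ℝ, E) : M → Type)} {om : Form4 E M}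
  {D : ℝ} {L : LocD om D} {T : L.Rot e cov}
  {W : Type} [NormedAddCommGroup W] [InnerProductSpace ℝ W]

theorem h_fact (y : E) (p : M) (f : Fin 4 → TangentSpace 𝓘(ℝ, E) p) (g : Mat4) :
    T.h y p (fact f g) = mulM (trM g) (T.h y p f) := by
  funext i j
  simp only [LocD.Rot.h, fact, mulM, trM, sum_inner, real_inner_smul_left]

theorem h_so (hG : Geo4 cov om) (h7 : RG7Stmt e cov om) (hD : RGH e cov om D) {y : E}
    (hy : y ∈ L.U) {p : M} (hp : dist (L.q y) p < D) {f : Fin 4 → TangentSpace 𝓘(ℝ, E) p}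
    (hf : PON om p f) : IsSO (T.h y p f) := by
  obtain ⟨F, hF, hFf⟩ := exists_ponnear hG hf
  have h1 := ((h7 D hD L).2.2 T F y hy p hp hF).2.1
  have h2 : (fun i => F i p) = f := funext hFf
  rw [h2] at h1
  exact h1

theorem push_zero {R : Rep W} {f : Eu4 → W} {y : E} {p : M}
    (h : dist (L.q y) p < D → f (L.co e y p) = 0) (F : Fin 4 → TangentSpace 𝓘(ℝ, E) p) :
    T.push R y f p F = 0 := by
  unfold LocD.Rot.push
  split_ifs with h'
  · rw [h h'.2, map_zero]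
  · rfl

theorem push_near_zero (h7 : RG7Stmt e cov om) (hD : RGH e cov om D) {R : Rep W} {f : Eu4 → W}
    {y : E} (hy : y ∈ L.U) {r : ℝ} (hf0 : ∀ v, r ≤ ‖v‖ → f v = 0) {p : M}
    (hp : r < dist (L.q y) p) : ∀ᶠ q in 𝓝 p, ∀ F, T.push R y f q F = 0 := by
  have h1 : ∀ᶠ q in 𝓝 p, r < dist (L.q y) q :=
    (continuous_const.dist continuous_id).continuousAt.eventually (lt_mem_nhds hp)
  filter_upwards [h1] with q hq F
  refine push_zero (fun hd => hf0 _ ?_) F
  rw [((h7 D hD L).1 y hy q hd).1]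
  exact hq.le

theorem push_mem (hG : Geo4 cov om) (h7 : RG7Stmt e cov om) (hD : RGH e cov om D)
    [FiniteDimensional ℝ W] (R : Rep W) {y : E} (hy : y ∈ L.U) {f : Eu4 → W} {r : ℝ}
    (hf : ContDiffOn ℝ ∞ f (Metric.ball 0 D)) (hr : r < D) (hf0 : ∀ v, r ≤ ‖v‖ → f v = 0) :
    T.push R y f ∈ Sec om R := by
  refine ⟨fun p F hF => ?_, fun p F g hF hg => ?_, fun F p hF => ?_⟩
  · unfold LocD.Rot.push
    rw [if_neg fun h => hF h.1]
  · unfold LocD.Rot.push
    have hF' := pon_fact hG hF hg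
    by_cases hd : dist (L.q y) p < D
    · rw [if_pos ⟨hF', hd⟩, if_pos ⟨hF, hd⟩, h_fact, R.mul _ _ (IsSO.tr hg) (h_so hG h7 hD hy hd hF)]
      rfl
    · rw [if_neg fun h => hd h.2, if_neg fun h => hd h.2, map_zero]
  · by_cases hd : dist (L.q y) p < D
    · obtain ⟨c1, c2, c3⟩ := (h7 D hD L).1 y hy p hd
      obtain ⟨d1, d2, d3⟩ := (h7 D hD L).2.2 T F y hy p hd hF
      have hι : ContMDiffAt 𝓘(ℝ, E) (𝓘(ℝ, E).prod 𝓘(ℝ, E)) ∞ (fun q : M => (y, q)) p :=
        contMDiffAt_const.prodMk contMDiffAt_id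
      have a1 : ContMDiffAt 𝓘(ℝ, E) 𝓘(ℝ, Mat4) ∞ (fun q => T.h y q fun i => F i q) p :=
        (ContMDiffAt.comp (x := p) (g := fun z : E × M => T.h z.1 z.2 fun i => F i z.2)
          (f := fun q : M => (y, q)) d3 hι :)
      have a2 : ContMDiffAt 𝓘(ℝ, E) 𝓘(ℝ, Eu4) ∞ (fun q => L.co e y q) p :=
        (ContMDiffAt.comp (x := p) (g := fun z : E × M => L.co e z.1 z.2)
          (f := fun q : M => (y, q)) c3 hι :)
      have a3 : ContMDiffAt 𝓘(ℝ, E) 𝓘(ℝ, W →L[ℝ] W) ∞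
          (fun q => R.ρ (T.h y q fun i => F i q)) p :=
        (R.smooth.contMDiff.contMDiffAt.comp p a1 :)
      have a4 : ContDiffAt ℝ ∞ f (L.co e y p) := by
        refine hf.contDiffAt (Metric.isOpen_ball.mem_nhds ?_)
        rw [mem_ball_zero_iff, c1]
        exact hd
      have a5 : ContMDiffAt 𝓘(ℝ, E) 𝓘(ℝ, W) ∞ (fun q => f (L.co e y q)) p :=
        (a4.contMDiffAt.comp p a2 :)
      refine (a3.clm_apply a5).congr_of_eventuallyEq ?_
      have h1 : ∀ᶠ q in 𝓝 p, dist (L.q y) q < D :=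
        (continuous_const.dist continuous_id).continuousAt.eventually (gt_mem_nhds hd)
      filter_upwards [h1, hF] with q hq1 hq2
      unfold LocD.Rot.push
      rw [if_pos ⟨hq2, hq1⟩]
    · have h1 := push_near_zero (T := T) (R := R) h7 hD hy hf0 (lt_of_lt_of_le hr (not_lt.1 hd))
      refine (contMDiffAt_const (c := (0 : W))).congr_of_eventuallyEq ?_
      filter_upwards [h1] with q hq
      exact hq _

theorem pull_push (h1 : RG1Stmt e cov om) (h3b : RG3bStmt e cov om) (h7 : RG7Stmt e cov om)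
    (hD : RGH e cov om D) (R : Rep W) {y : E} (hy : y ∈ L.U) (f : Eu4 → W) {v : Eu4}
    (hv : ‖v‖ < D) : T.pull (T.push R y f) (y, v) = f v := by
  have hx : (y, v) ∈ L.UB := ⟨hy, by rw [mem_ball_zero_iff]; exact hv⟩
  have e1 := (h3b D hD L T).2.2 (y, v) hx
  have e2 : dist (L.q y) (L.ex e (y, v)) < D := by
    rw [((h1 D hD L).2.1 (y, v) hx).2]
    exact hv
  have e3 : L.co e y (L.ex e (y, v)) = v := (h7 D hD L).2.1 (y, v) hx
  have e4 : T.h y (L.ex e (y, v)) (T.eh (y, v)) = idM := by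
    funext i j
    have e5 : T.eq y (L.ex e (y, v)) = T.eh (y, v) := by
      unfold LocD.Rot.eq LocD.Rot.eh
      rw [e3]
    unfold LocD.Rot.h
    rw [e5]
    exact orthonormal_iff_ite.1 e1.1 i j
  unfold LocD.Rot.pull LocD.Rot.push
  rw [if_pos ⟨e1, e2⟩, e4, R.one, e3]
  rfl

end RG7b

open RG7b in
/-- RG7b -/
theorem rg7b_of {E : Type} [NormedAddCommGroup E] [NormedSpace ℝ E] [FiniteDimensional ℝ E]
    {M : Type} [MetricSpace M] [ChartedSpace E M] [IsManifold 𝓘(ℝ, E) ∞ M]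
    [RiemannianBundle fun p : M => TangentSpace 𝓘(ℝ, E) p]
    [IsContMDiffRiemannianBundle 𝓘(ℝ, E) ∞ E fun p : M => TangentSpace 𝓘(ℝ, E) p]
    {e : ∀ x : M, TangentSpace 𝓘(ℝ, E) x → M}
    {cov : CovariantDerivative 𝓘(ℝ, E) E (TangentSpace 𝓘(ℝ, E) : M → Type)} {om : Form4 E M}
    (h1 : RG1Stmt e cov om) (h3b : RG3bStmt e cov om) (h6 : RG6Stmt e cov om)
    (h7 : RG7Stmt e cov om) : RG7bStmt e cov om := by
  intro D hD L T W _ _ _ R Q hQ y hy f r hf hr hf0
  have hG : Geo4 cov om := hD.geo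
  have hm : T.push R y f ∈ Sec om R := push_mem hG h7 hD R hy hf hr hf0
  have hpp : ∀ v, ‖v‖ < D → T.pull (T.push R y f) (y, v) = f v := fun v hv =>
    pull_push h1 h3b h7 hD R hy f hv
  refine ⟨hm, hpp, ?_⟩
  funext p F
  by_cases hF : PON om p F
  swap
  · rw [lapS_of_not_pon hF]
    unfold LocD.Rot.push
    rw [if_neg fun h => hF h.1]
  by_cases hd : dist (L.q y) p < D
  swap
  · rw [lapS_of_zero (push_near_zero h7 hD hy hf0 (lt_of_lt_of_le hr (not_lt.1 hd)))]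
    unfold LocD.Rot.push
    rw [if_neg fun h => hd h.2]
  obtain ⟨v, hv, rfl⟩ : ∃ v, ‖v‖ < D ∧ L.ex e (y, v) = p := by
    obtain ⟨c1, c2, _⟩ := (h7 D hD L).1 y hy p hd
    exact ⟨_, by rw [c1]; exact hd, c2⟩
  have hx : (y, v) ∈ L.UB := ⟨hy, by rw [mem_ball_zero_iff]; exact hv⟩
  have e1 := (h3b D hD L T).2.2 (y, v) hx
  have e3 : L.co e y (L.ex e (y, v)) = v := (h7 D hD L).2.1 (y, v) hx
  have hlm : lapS cov om (T.push R y f) ∈ Sec om R :=
    lapS_mem_of hG R.tens_tn R.tn.tens_tn hm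
  obtain ⟨g1, g2⟩ := pon_matrix hG e1 hF
  have e5 : T.eq y (L.ex e (y, v)) = T.eh (y, v) := by
    unfold LocD.Rot.eq LocD.Rot.eh
    rw [e3]
  have e6 : T.h y (L.ex e (y, v)) F =
      trM fun i j => (inner ℝ (T.eh (y, v) i) (F j) : ℝ) := by
    funext i j
    unfold LocD.Rot.h trM
    rw [e5]
    exact real_inner_comm _ _
  have e7 : T.pull (lapS cov om (T.push R y f)) (y, v) = Q.lapW y f v := by
    rw [h6 D hD L T W R Q hQ _ hm _ hx]
    refine lapW_congr Q y ?_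
    have : Metric.ball (0 : Eu4) D ∈ 𝓝 v :=
      Metric.isOpen_ball.mem_nhds (by rw [mem_ball_zero_iff]; exact hv)
    filter_upwards [this] with w hw
    exact hpp w (by rw [mem_ball_zero_iff] at hw; exact hw)
  have e8 := hlm.2.1 _ _ _ e1 g1
  rw [← g2] at e8
  rw [e8]
  unfold LocD.Rot.push
  rw [if_pos ⟨hF, hd⟩, e6, e3, ← e7]
  rfl

end

end Vale.Agent.P211.HK
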