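import Vale.Agent.P211.HK.RGDefs

/-! P211 / HK, RG8: change of variables in normal coordinates. helper866. -/

set_option maxSynthPendingDepth 3
set_option linter.unusedSectionVars false

namespace Vale.Agent.P211.HK

open scoped Manifold ContDiff Topology RealInnerProductSpace
open Bundle Filter VectorField MeasureTheory Set
open Vale.Agent.P234 Vale.Agent.P231

noncomputable section

variable {E : Type} [NormedAddCommGroup E] [NormedSpace ℝ E] [FiniteDimensional ℝ E]
  {M : Type} [MetricSpace M] [ChartedSpace E M] [IsManifold 𝓘(ℝ, E) ∞ M]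
  [RiemannianBundle fun p : M => TangentSpace 𝓘(ℝ, E) p]
  [IsContMDiffRiemannianBundle 𝓘(ℝ, E) ∞ E fun p : M => TangentSpace 𝓘(ℝ, E) p]

namespace RG8

/-- the vector with components `v` in the frame `f` -/
def vf (f : Fin 4 → E) (v : Eu4) : E := ∑ i, v i • f i

omit [FiniteDimensional ℝ E] in
theorem vf_add (f : Fin 4 → E) (v w : Eu4) : vf f (v + w) = vf f v + vf f w := by
  simp only [vf, PiLp.add_apply, add_smul, Finset.sum_add_distrib]

omit [FiniteDimensional ℝ E] in
theorem vf_smul (f : Fin 4 → E) (c : ℝ) (v : Eu4) : vf f (c • v) = c • vf f v := by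
  simp only [vf, PiLp.smul_apply, smul_eq_mul, Finset.smul_sum, mul_smul]

theorem ip_vf (y : M) {f : Fin 4 → TangentSpace 𝓘(ℝ, E) y} (hf : Orthonormal ℝ f) (v w : Eu4) :
    Vale.Agent.P231.ip y (vf (E := E) f v) (vf (E := E) f w) = inner ℝ v w := by
  have h1 : Vale.Agent.P231.ip y (vf (E := E) f v) (vf (E := E) f w) =
      inner ℝ (∑ i, v i • f i) (∑ i, w i • f i) := rfl
  rw [h1, hf.inner_sum, PiLp.inner_apply]
  simp [mul_comm]

/-- comparison with the frame `fr y` -/
theorem exists_iso (hE : Module.finrank ℝ E = 4) (y : M) {f : Fin 4 → TangentSpace 𝓘(ℝ, E) y}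
    (hf : Orthonormal ℝ f) : ∃ L : Eu4 ≃ₗᵢ[ℝ] Eu E, ∀ v, (fr y (L v) : E) = vf (E := E) f v := by
  let A : Eu4 →ₗ[ℝ] Eu E :=
    { toFun := fun v => (fr (E := E) y).symm (vf (E := E) f v)
      map_add' := fun v w =>
        (congrArg (fr (E := E) y).symm (vf_add (E := E) f v w)).trans (map_add _ _ _)
      map_smul' := fun c v =>
        (congrArg (fr (E := E) y).symm (vf_smul (E := E) f c v)).trans (map_smul _ _ _) }
  have hA : ∀ v, ‖A v‖ = ‖v‖ := by
    intro v
    have h1 : inner ℝ (A v) (A v) = inner ℝ v v := by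
      rw [← ip_fr (E := E) y]
      change Vale.Agent.P231.ip y (fr (E := E) y ((fr (E := E) y).symm (vf (E := E) f v)))
        (fr (E := E) y ((fr (E := E) y).symm (vf (E := E) f v))) = _
      rw [ContinuousLinearEquiv.apply_symm_apply]
      exact ip_vf y hf v v
    rw [real_inner_self_eq_norm_sq, real_inner_self_eq_norm_sq] at h1
    exact (sq_eq_sq₀ (norm_nonneg _) (norm_nonneg _)).1 h1
  let Li : Eu4 →ₗᵢ[ℝ] Eu E := ⟨A, hA⟩
  have hfin : Module.finrank ℝ Eu4 = Module.finrank ℝ (Eu E) := by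
    rw [finrank_euclideanSpace_fin, finrank_euclideanSpace_fin, hE]
  refine ⟨Li.toLinearIsometryEquiv hfin, fun v => ?_⟩
  exact (fr (E := E) y).apply_symm_apply (vf (E := E) f v)

/-- the Jacobian in terms of orthonormal frames at both ends -/
theorem jac_frame (hE : Module.finrank ℝ E = 4) {e : ∀ x : M, TangentSpace 𝓘(ℝ, E) x → M} (y : M)
    {f : Fin 4 → TangentSpace 𝓘(ℝ, E) y} (hf : Orthonormal ℝ f) (w : TangentSpace 𝓘(ℝ, E) y)
    {b : Fin 4 → TangentSpace 𝓘(ℝ, E) (e y w)} (hb : Orthonormal ℝ b) :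
    jac e y w = |(Matrix.of fun k l => Vale.Agent.P231.ip (e y w) (dE e y w (f k)) (b l)).det| := by
  have h1 := jac_eq (e := e) (ι := Fin 4) (by rw [hE]; simp) y w (p := fun i => f i)
    (q := fun i => b i) (fun i j => (orthonormal_iff_ite.1 hf) i j)
    (fun i j => (orthonormal_iff_ite.1 hb) i j)
  rw [h1, ← Matrix.det_transpose]
  congr 2
  ext i j
  simp only [Matrix.transpose_apply, Matrix.of_apply]
  exact real_inner_comm (F := TangentSpace 𝓘(ℝ, E) (e y w)) _ _

end RG8

variable {e : ∀ x : M, TangentSpace 𝓘(ℝ, E) x → M}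
  {cov : CovariantDerivative 𝓘(ℝ, E) E (TangentSpace 𝓘(ℝ, E) : M → Type)} {om : Form4 E M}

/-- the density is the Jacobian -/
theorem RG8.Jd_eq (h1 : RG1Stmt e cov om) {D : ℝ} (H : RGH e cov om D) (L : LocD om D) {x : E × Eu4}
    (hx : x ∈ L.UB) : L.Jd e x = jac e (L.q x.1) (L.vec x) := by
  obtain ⟨hU, hmem, hsm, hdk, hdE, hth, hgm, hgi, hJ, hG, halg⟩ := h1 D H L
  have hx' : x ∈ L.U ×ˢ (univ : Set Eu4) := ⟨hx.1, mem_univ _⟩
  have hf : Orthonormal ℝ (fun i => L.Fr i (L.q x.1)) :=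
    (L.pon (L.q x.1) (L.near _ hx.1.2 _ (by simpa using L.D_pos))).1
  have hb : Orthonormal ℝ (fun i => L.Fr i (e (L.q x.1) (L.vec x))) :=
    (L.pon _ (hmem x hx).1).1
  rw [RG8.jac_frame H.geo.dim (L.q x.1) hf (L.vec x) hb]
  have h3 : (Matrix.of fun k l => Vale.Agent.P231.ip (e (L.q x.1) (L.vec x))
      (dE e (L.q x.1) (L.vec x) (L.Fr k (L.q x.1))) (L.Fr l (e (L.q x.1) (L.vec x)))) =
      Matrix.of (L.th e x) := by
    ext k l
    simp only [Matrix.of_apply, LocD.th]
    rw [hdE x hx' k]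
    rfl
  rw [h3]
  exact (abs_of_pos (halg x hx).1).symm

theorem rg8 [IsRiemannianManifold 𝓘(ℝ, E) M] [CompactSpace M] [ConnectedSpace M]
    [MeasurableSpace M] [BorelSpace M] (h1 : RG1Stmt e cov om) : RG8Stmt e cov om := by
  intro D H L y hy
  obtain ⟨hU, hmem, hsm, hdk, hdE, hth, hgm, hgi, hJ, hG, halg⟩ := h1 D H L
  have hE := H.geo.dim
  have hf : Orthonormal ℝ (fun i => L.Fr i (L.q y)) :=
    (L.pon (L.q y) (L.near _ hy.2 _ (by simpa using L.D_pos))).1
  obtain ⟨I, hI⟩ := RG8.exists_iso hE (L.q y) hf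
  have hm := log_map_eq H.facts L.D_pos H.inj (L.q y)
  rw [log_image_ball H.facts H.inj] at hm
  have h4 : riemVol (Module.finrank ℝ E) M = riemVol 4 M := by rw [hE]
  rw [h4] at hm
  rw [← hm]
  have hef : ∀ v, ef e (L.q y) (I v) = L.ex e (y, v) := by
    intro v
    exact congrArg (e (L.q y)) (hI v)
  have hφ : Measurable (ef e (L.q y)) := (log_continuous_ef H.facts.isExp (L.q y)).measurable
  have hψ : Measurable (fun v : Eu4 => L.ex e (y, v)) := by
    have h5 : (fun v : Eu4 => L.ex e (y, v)) = fun v => ef e (L.q y) (I v) :=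
      funext fun v => (hef v).symm
    rw [h5]
    exact hφ.comp I.continuous.measurable
  refine Measure.ext fun T hT => ?_
  rw [Measure.map_apply hφ hT, Measure.map_apply hψ hT, withDensity_apply _ (hφ hT),
    withDensity_apply _ (hψ hT), Measure.restrict_restrict (hφ hT),
    Measure.restrict_restrict (hψ hT)]
  have hI1 := I.measurePreserving.setLIntegral_comp_preimage_emb
    I.toHomeomorph.measurableEmbedding (fun ξ => ENNReal.ofReal (jac e (L.q y) (fr (L.q y) ξ)))
    (ef e (L.q y) ⁻¹' T ∩ Metric.ball 0 D)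
  rw [← hI1]
  have h6 : I ⁻¹' (ef e (L.q y) ⁻¹' T ∩ Metric.ball 0 D) =
      (fun v : Eu4 => L.ex e (y, v)) ⁻¹' T ∩ Metric.ball 0 D := by
    ext v
    simp only [mem_preimage, mem_inter_iff, Metric.mem_ball, dist_zero_right,
      LinearIsometryEquiv.norm_map, hef]
  rw [h6]
  refine setLIntegral_congr_fun ((hψ hT).inter measurableSet_ball) fun v hv => ?_
  have hx : (y, v) ∈ L.UB := ⟨hy, hv.2⟩
  change ENNReal.ofReal (L.Jd e (y, v)) = ENNReal.ofReal (jac e (L.q y) (fr (L.q y) (I v)))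
  rw [RG8.Jd_eq h1 H L hx, hI v]
  rfl

namespace RG8

theorem cont_ex (h1 : RG1Stmt e cov om) {D : ℝ} (H : RGH e cov om D) (L : LocD om D) {y : E}
    (hy : y ∈ L.U) : Continuous fun v : Eu4 => L.ex e (y, v) := by
  obtain ⟨hU, hmem, hsm, -⟩ := h1 D H L
  rw [continuous_iff_continuousAt]
  intro v
  have h2 : ContinuousAt (L.ex e) (y, v) :=
    (hsm.continuousOn (y, v) ⟨hy, mem_univ _⟩).continuousAt
      ((hU.prod isOpen_univ).mem_nhds ⟨hy, mem_univ _⟩)
  exact ContinuousAt.comp (x := v) (g := L.ex e) (f := fun v : Eu4 => (y, v)) h2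
    (Continuous.prodMk_right y).continuousAt

theorem inj_ex [CompactSpace M] {D : ℝ} (H : RGH e cov om D) (L : LocD om D) {y : E}
    (hy : y ∈ L.U) : InjOn (fun v : Eu4 => L.ex e (y, v)) (Metric.ball 0 D) := by
  have hf : Orthonormal ℝ (fun i => L.Fr i (L.q y)) :=
    (L.pon (L.q y) (L.near _ hy.2 _ (by simpa using L.D_pos))).1
  have hn : ∀ v : Eu4, ‖L.vec (y, v)‖ = ‖v‖ := by
    intro v
    have h3 : (inner ℝ (L.vec (y, v)) (L.vec (y, v)) : ℝ) = inner ℝ v v := ip_vf (L.q y) hf v v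
    rw [real_inner_self_eq_norm_sq, real_inner_self_eq_norm_sq] at h3
    exact (sq_eq_sq₀ (norm_nonneg _) (norm_nonneg _)).1 h3
  intro v hv w hw h
  rw [mem_ball_zero_iff] at hv hw
  have h2 := H.inj.mem_injDomain (x := L.q y) (v := L.vec (y, v)) ((hn v).trans_lt hv)
  have h3 := H.inj.mem_injDomain (x := L.q y) (v := L.vec (y, w)) ((hn w).trans_lt hw)
  have h4 : L.vec (y, v) = L.vec (y, w) :=
    H.facts.injDomain_unique h3 (injDomain_subset_segMin H.facts.isExp _ h2) h
  ext i
  have h5 := congrArg (fun a => (inner ℝ (L.Fr i (L.q y)) a : ℝ)) h4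
  simp only [LocD.vec] at h5
  rwa [hf.inner_right_fintype, hf.inner_right_fintype] at h5

/-- the integral of a function in normal coordinates (no measurability hypothesis) -/
theorem integral_ex [CompactSpace M] [MeasurableSpace M] [BorelSpace M] (h1 : RG1Stmt e cov om)
    (h8 : RG8Stmt e cov om) {D : ℝ} (H : RGH e cov om D) (L : LocD om D) {y : E} (hy : y ∈ L.U)
    {V : Type*} [NormedAddCommGroup V] [NormedSpace ℝ V] (h : M → V) :
    ∫ p in {p | dist (L.q y) p < D}, h p ∂(riemVol 4 M) =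
      ∫ v in Metric.ball (0 : Eu4) D, L.Jd e (y, v) • h (L.ex e (y, v)) := by
  obtain ⟨hU, hmem, hsm, hdk, hdE, hth, hgm, hgi, hJ, hG, halg⟩ := h1 D H L
  rw [← h8 D H L y hy]
  set f : Eu4 → ENNReal := fun v => ENNReal.ofReal (L.Jd e (y, v)) with hf
  set ν : Measure Eu4 := (volume.restrict (Metric.ball (0 : Eu4) D)).withDensity f with hν
  have hs : MeasurableSet (Metric.ball (0 : Eu4) D) := measurableSet_ball
  have hJc : ContinuousOn (fun v : Eu4 => L.Jd e (y, v)) (Metric.ball 0 D) :=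
    hJ.continuousOn.comp (Continuous.prodMk_right y).continuousOn fun v hv => ⟨hy, hv⟩
  have hfm : AEMeasurable f (volume.restrict (Metric.ball (0 : Eu4) D)) :=
    (hJc.aemeasurable hs).ennreal_ofReal
  have hνr : ν.restrict (Metric.ball (0 : Eu4) D) = ν := by
    rw [hν, restrict_withDensity hs, Measure.restrict_restrict hs, inter_self]
  have hcont := cont_ex h1 H L hy
  set φ : Metric.ball (0 : Eu4) D → M := fun v => L.ex e (y, v.1) with hφ
  have hφe : MeasurableEmbedding φ := by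
    have : PolishSpace (Metric.ball (0 : Eu4) D) := Metric.isOpen_ball.polishSpace
    refine Continuous.measurableEmbedding (hcont.comp continuous_subtype_val) ?_
    intro v w hvw
    exact Subtype.ext (inj_ex H L hy v.2 w.2 hvw)
  have h3 : Measure.map (fun v : Eu4 => L.ex e (y, v)) ν =
      Measure.map φ (ν.comap Subtype.val) := by
    have h4 : ν = Measure.map Subtype.val (ν.comap (Subtype.val : Metric.ball (0 : Eu4) D → Eu4)) := by
      rw [map_comap_subtype_coe hs, hνr]
    conv_lhs => rw [h4]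
    rw [Measure.map_map hcont.measurable measurable_subtype_coe]
    rfl
  rw [h3, hφe.integral_map, integral_subtype_comap hs (fun v => h (L.ex e (y, v))), hνr, hν,
    integral_withDensity_eq_integral_toReal_smul₀ hfm (ae_of_all _ fun _ => ENNReal.ofReal_lt_top)]
  refine setIntegral_congr_fun hs fun v hv => ?_
  have h5 : 0 ≤ L.Jd e (y, v) := (halg (y, v) ⟨hy, hv⟩).1.le
  simp only [hf, ENNReal.toReal_ofReal h5]

/-- the integral over `M` of a function with support in the normal ball -/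
theorem integral_ex' [CompactSpace M] [MeasurableSpace M] [BorelSpace M] (h1 : RG1Stmt e cov om)
    (h8 : RG8Stmt e cov om) {D : ℝ} (H : RGH e cov om D) (L : LocD om D) {y : E} (hy : y ∈ L.U)
    {V : Type*} [NormedAddCommGroup V] [NormedSpace ℝ V] (h : M → V)
    (h0 : ∀ p, D ≤ dist (L.q y) p → h p = 0) :
    ∫ p, h p ∂(riemVol 4 M) =
      ∫ v in Metric.ball (0 : Eu4) D, L.Jd e (y, v) • h (L.ex e (y, v)) := by
  rw [← integral_ex h1 h8 H L hy h]
  refine (setIntegral_eq_integral_of_forall_compl_eq_zero fun p hp => h0 p ?_).symm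
  simpa using hp

/-- the lower integral in normal coordinates -/
theorem lintegral_ex [MeasurableSpace M] [BorelSpace M] (h1 : RG1Stmt e cov om)
    (h8 : RG8Stmt e cov om) {D : ℝ} (H : RGH e cov om D) (L : LocD om D) {y : E} (hy : y ∈ L.U)
    {h : M → ENNReal} (hh : Measurable h) :
    ∫⁻ p in {p | dist (L.q y) p < D}, h p ∂(riemVol 4 M) =
      ∫⁻ v in Metric.ball (0 : Eu4) D, ENNReal.ofReal (L.Jd e (y, v)) * h (L.ex e (y, v)) := by
  obtain ⟨hU, hmem, hsm, hdk, hdE, hth, hgm, hgi, hJ, hG, halg⟩ := h1 D H L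
  rw [← h8 D H L y hy]
  have hs : MeasurableSet (Metric.ball (0 : Eu4) D) := measurableSet_ball
  have hJc : ContinuousOn (fun v : Eu4 => L.Jd e (y, v)) (Metric.ball 0 D) :=
    hJ.continuousOn.comp (Continuous.prodMk_right y).continuousOn fun v hv => ⟨hy, hv⟩
  have hfm : AEMeasurable (fun v : Eu4 => ENNReal.ofReal (L.Jd e (y, v)))
      (volume.restrict (Metric.ball (0 : Eu4) D)) := (hJc.aemeasurable hs).ennreal_ofReal
  have hcont := cont_ex h1 H L hy
  rw [lintegral_map hh hcont.measurable]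
  exact lintegral_withDensity_eq_lintegral_mul₀ hfm (hh.comp hcont.measurable).aemeasurable

end RG8

end

end Vale.Agent.P211.HK
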