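import Vale.Agent.P211.HK.RG2
import Vale.Agent.P211.HK.RG3
import Vale.Agent.P211.HK.RepD

/-! P211 / HK: RGQ (helper853). The radial data of a representation. -/

set_option maxSynthPendingDepth 3
set_option linter.unusedSectionVars false

namespace Vale.Agent.P211.HK

open scoped Manifold ContDiff Topology RealInnerProductSpace
open Bundle Filter VectorField MeasureTheory Set
open Vale.Agent.P234 Vale.Agent.P231

noncomputable section

variable {E : Type} [NormedAddCommGroup E] [NormedSpace ℝ E] [FiniteDimensional ℝ E]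
  {M : Type} [MetricSpace M] [ChartedSpace E M] [IsManifold 𝓘(ℝ, E) ∞ M]
  [RiemannianBundle fun p : M => TangentSpace 𝓘(ℝ, E) p]
  [IsContMDiffRiemannianBundle 𝓘(ℝ, E) ∞ E fun p : M => TangentSpace 𝓘(ℝ, E) p]
  {e : ∀ x : M, TangentSpace 𝓘(ℝ, E) x → M}
  {cov : CovariantDerivative 𝓘(ℝ, E) E (TangentSpace 𝓘(ℝ, E) : M → Type)} {om : Form4 E M}

/-- the radial data of the representation `R` -/
def RGQ.data [CompactSpace M] (h1 : RG1Stmt e cov om) {D : ℝ} (H : RGH e cov om D) (L : LocD om D)
    (T : L.Rot e cov) {W : Type} [NormedAddCommGroup W] [InnerProductSpace ℝ W] (R : Rep W) :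
    RadData E W L.U D :=
  { gi := fun x => RadCoef.ginv (L.th e x)
    J := fun x => RadCoef.dt (L.th e x)
    B := fun x k => R.d (T.A x k)
    U_open := (h1 D H L).1
    D_pos := L.D_pos
    gi_smooth := (RG2.coefL h1 H L).1.gi_smooth
    J_smooth := (RG2.coefL h1 H L).1.J_smooth
    B_smooth := contDiffOn_pi.2 fun k =>
      R.dL.contDiff.comp_contDiffOn ((rg3b e cov om h1 D H L T).1 k)
    J_pos := (RG2.coefL h1 H L).1.J_pos
    gi_symm := (RG2.coefL h1 H L).1.gi_symm
    B_skew := fun x hx k a b => R.d_skew (((rg3b e cov om h1 D H L T).2.1 x hx).1 k) a b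
    gauss := (RG2.coefL h1 H L).1.gauss
    radial := fun x hx => by
      have h := ((rg3b e cov om h1 D H L T).2.1 x hx).2
      simp only [← Rep.d_smul, ← Rep.d_sum, h, Rep.d_zero]
    gi_zero := (RG2.coefL h1 H L).1.gi_zero
    J_zero := (RG2.coefL h1 H L).1.J_zero
    gi_crit := (RG2.coefL h1 H L).1.gi_crit
    J_crit := (RG2.coefL h1 H L).1.J_crit }

/-- RGQ -/
theorem rgQ [CompactSpace M] (h1 : RG1Stmt e cov om) : RGQStmt e cov om := by
  intro D H L T W _ _ _ R
  exact ⟨RGQ.data h1 H L T R, fun x hx => ((RG2.coefL h1 H L).2 x hx).symm, fun x _ => rfl,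
    fun x _ k => rfl⟩

end

end Vale.Agent.P211.HK
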