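import Vale.Agent.P211.HK.RG1
import Vale.Agent.P211.HK.RGQ
import Vale.Agent.P211.HK.RG5
import Vale.Agent.P211.HK.RG6
import Vale.Agent.P211.HK.RG7
import Vale.Agent.P211.HK.Patch
import Vale.Agent.P211.HK.VolGlue

/-! P211 / HK: RGAll, assembly of the radial gauge part: patches exist (`PatchStmt`). helper184. -/

set_option maxSynthPendingDepth 3
set_option linter.unusedSectionVars false

namespace Vale.Agent.P211.HK

open scoped Manifold ContDiff Topology RealInnerProductSpace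
open Bundle Filter VectorField MeasureTheory Set
open Vale.Agent.P234 Vale.Agent.P231 Vale.Agent.P211.S4

noncomputable section

variable {E : Type} [NormedAddCommGroup E] [NormedSpace ℝ E] [FiniteDimensional ℝ E]
  {M : Type} [MetricSpace M] [ChartedSpace E M] [IsManifold 𝓘(ℝ, E) ∞ M]
  [RiemannianBundle fun p : M => TangentSpace 𝓘(ℝ, E) p]
  [IsContMDiffRiemannianBundle 𝓘(ℝ, E) ∞ E fun p : M => TangentSpace 𝓘(ℝ, E) p]
  [IsRiemannianManifold 𝓘(ℝ, E) M] [CompactSpace M] [ConnectedSpace M]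
  [MeasurableSpace M] [BorelSpace M]
  {e : ∀ x : M, TangentSpace 𝓘(ℝ, E) x → M}
  {cov : CovariantDerivative 𝓘(ℝ, E) E (TangentSpace 𝓘(ℝ, E) : M → Type)} {om : Form4 E M}

namespace RGAll

theorem injGE_mono {D D' : ℝ} (h : InjGE e D') (hD : D ≤ D') : InjGE e D :=
  fun x v hv => h x v (hv.trans hD)

/-- local data around a point, with a prescribed frame; the set of centres does not depend on the
radius -/
theorem exists_loc (q₀ : M) (F : Fin 4 → VF E M) (hF : PONnear om q₀ F) :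
    ∃ (ρ : ℝ) (O O' : Set M), 0 < ρ ∧ q₀ ∈ O ∧ IsOpen O ∧ IsOpen O' ∧
      O' ⊆ (chartAt E q₀).source ∧ (∀ p ∈ O', PON om p fun i => F i p) ∧
      ∀ p ∈ O, ∀ p', dist p p' < ρ → p' ∈ O' := by
  have h1 : {p | PON om p fun i => F i p} ∩ (chartAt E q₀).source ∈ 𝓝 q₀ :=
    inter_mem hF ((chartAt E q₀).open_source.mem_nhds (mem_chart_source E q₀))
  obtain ⟨S, hS, hSo, hqS⟩ := mem_nhds_iff.1 h1
  obtain ⟨r, hr, hb⟩ := Metric.isOpen_iff.1 hSo q₀ hqS
  refine ⟨r / 2, Metric.ball q₀ (r / 2), S, by linarith, Metric.mem_ball_self (by linarith),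
    Metric.isOpen_ball, hSo, fun p hp => (hS hp).2, fun p hp => (hS hp).1, ?_⟩
  intro p hp p' hpp'
  refine hb ?_
  rw [Metric.mem_ball] at hp ⊢
  have h2 := dist_triangle p' p q₀
  rw [dist_comm p' p] at h2
  linarith

variable {D : ℝ}

theorem co_center (h7 : RG7Stmt e cov om) (H : RGH e cov om D) (L : LocD om D) {y : E}
    (hy : y ∈ L.U) : L.co e y (L.q y) = 0 := by
  have h := ((h7 D H L).1 y hy (L.q y) (by rw [dist_self]; exact L.D_pos)).1
  rw [dist_self] at h
  exact norm_eq_zero.1 h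

/-- the radially parallel frame at the point `ex x` -/
theorem eq_ex (h7 : RG7Stmt e cov om) (H : RGH e cov om D) (L : LocD om D) (T : L.Rot e cov)
    {x : E × Eu4} (hx : x ∈ L.UB) : T.eq x.1 (L.ex e x) = T.eh x := by
  unfold LocD.Rot.eq LocD.Rot.eh
  rw [(h7 D H L).2.1 x hx]

/-- curvature at the centre, matrix form -/
theorem curv (h4 : RG4Stmt e cov om) (H : RGH e cov om D) (L : LocD om D)
    (T : L.Rot e cov) {y : E} (hy : y ∈ L.U) (j i : Fin 4) :
    (2 : ℝ) • fderiv ℝ (fun v => T.A (y, v) i) 0 (ev4 j) =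
      Om cov (L.q y) (fun m => L.Fr m (L.q y)) j i := by
  have h1 := rg1 e cov om
  have h2 := rg2 h1
  obtain ⟨hU, -, -, -, -, hth, -⟩ := h1 D H L
  obtain ⟨-, hc⟩ := h2 D H L
  obtain ⟨hex, hth0, -⟩ := hc y hy
  obtain ⟨hA, hAr, hpon⟩ := rg3b e cov om h1 D H L T
  have h0 : (0 : Eu4) ∈ Metric.ball (0 : Eu4) D := Metric.mem_ball_self L.D_pos
  have hB : Metric.ball (0 : Eu4) D ∈ 𝓝 (0 : Eu4) := Metric.ball_mem_nhds _ L.D_pos
  have hgauge : ∀ (W : Type) [NormedAddCommGroup W] [InnerProductSpace ℝ W]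
      [FiniteDimensional ℝ W] (R : Rep W),
      RGCurv.Gauge cov om (fun v => L.ex e (y, v)) (fun v => T.eh (y, v))
        (fun v k => T.A (y, v) k) (fun v => mulM (L.th e (y, v)) (T.a (y, v))) R := by
    intro W _ _ _ R u hu
    obtain ⟨Q, hQ'⟩ := rgQ h1 D H L T W R
    obtain ⟨hs, hl⟩ := h4 D H L T W R Q hQ' u hu
    refine ⟨slice_contDiffAt hU hs hy h0, ?_⟩
    filter_upwards [hB] with v hv k
    have h5 := hl (y, v) ⟨hy, hv⟩ k
    unfold RadData.dW at h5
    rw [hQ'.B (y, v) ⟨hy, hv⟩ k] at h5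
    exact h5
  have hAd : DifferentiableAt ℝ (fun v => fun k => T.A (y, v) k) 0 := by
    rw [differentiableAt_pi]
    intro k
    exact (slice_contDiffAt hU (hA k) hy h0).differentiableAt (by simp)
  have hthd : DifferentiableAt ℝ (fun v => mulM (L.th e (y, v)) (T.a (y, v))) 0 := by
    have e1 := (slice_contDiffAt hU hth hy h0).differentiableAt (by simp)
    have e2 := (slice_contDiffAt hU T.smooth hy h0).differentiableAt (by simp)
    rw [differentiableAt_pi]
    intro a
    rw [differentiableAt_pi]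
    intro b
    unfold mulM
    refine DifferentiableAt.fun_sum fun c _ => ?_
    exact ((differentiableAt_pi.mp ((differentiableAt_pi.mp e1) a)) c).mul
      ((differentiableAt_pi.mp ((differentiableAt_pi.mp e2) c)) b)
  have key := RGCurv.a_curv (ψ := fun v => L.ex e (y, v)) (eh := fun v => T.eh (y, v))
    (A := fun v k => T.A (y, v) k) (th := fun v => mulM (L.th e (y, v)) (T.a (y, v)))
    H.geo (hpon (y, 0) ⟨hy, h0⟩) hAd
    (by filter_upwards [hB] with v hv using (hAr (y, v) ⟨hy, hv⟩).2) hthd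
    (by rw [hth0, T.one y hy, mulM_idM]) hgauge j i
  have hOm : Om cov (L.ex e (y, 0)) (T.eh (y, 0)) j i =
      Om cov (L.q y) (fun m => L.Fr m (L.q y)) j i := by
    rw [C5.Om_eq H.geo.lc (F := L.Fr) (f := fun m => L.Fr m (L.q y)) (fun m => rfl) j i,
      C5.Om_eq H.geo.lc (F := L.Fr) (f := T.eh (y, 0)) (fun m => by
        unfold LocD.Rot.eh
        rw [T.one y hy, fact_idM]) j i, hex]
  rw [← hOm]
  exact key

/-- the patch given by local data -/
def patch (F : Facts e) (h4 : RG4Stmt e cov om) (H : RGH e cov om D) (L : LocD om D)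
    (T : L.Rot e cov) : Patch cov om (riemVol 4 M) D where
  q₀ := L.p0
  F := L.Fr
  O := L.U
  ex := L.ex e
  lg := L.co e
  pf := T.eq
  gi := (RGQ.data (rg1 e cov om) H L T Rep.triv).gi
  J := (RGQ.data (rg1 e cov om) H L T Rep.triv).J
  a := T.A
  O_open := L.isOpen_U
  O_sub := fun y hy => hy.1
  D_pos := L.D_pos
  F_pon := fun y hy => L.ponnear (L.q_mem hy)
  ex_smooth := (L.contMDiffOn_ex' F.isExp).mono L.UB_sub
  dist_ex := fun y hy v hv => L.dist_ex H.inj (x := (y, v)) ⟨hy, mem_ball_zero_iff.2 hv⟩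
  lg_ex := fun y hy v hv => (rg7 (rg1 e cov om) D H L).2.1 (y, v) ⟨hy, mem_ball_zero_iff.2 hv⟩
  ex_lg := fun y hy x hx => ((rg7 (rg1 e cov om) D H L).1 y hy x hx).2.1
  lg_norm := fun y hy x hx => ((rg7 (rg1 e cov om) D H L).1 y hy x hx).1
  lg_smooth := fun y hy x hx => ((rg7 (rg1 e cov om) D H L).1 y hy x hx).2.2
  pf_pon := fun y hy x hx => ((rg7 (rg1 e cov om) D H L).2.2 T L.Fr y hy x hx
    (L.ponnear (L.near _ hy.2 x hx))).1
  pf_zero := by
    intro y hy i
    have h1 : T.eq y (L.q y) = fun i => L.Fr i (L.q y) := by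
      unfold LocD.Rot.eq
      rw [co_center (rg7 (rg1 e cov om)) H L hy, T.one y hy, fact_idM]
    exact congrFun h1 i
  pf_smooth := fun G y hy x hx hG => ((rg7 (rg1 e cov om) D H L).2.2 T G y hy x hx hG).2.2
  gi_smooth := (RGQ.data (rg1 e cov om) H L T Rep.triv).gi_smooth
  J_smooth := (RGQ.data (rg1 e cov om) H L T Rep.triv).J_smooth
  a_smooth := contDiffOn_pi.2 fun k => (rg3b e cov om (rg1 e cov om) D H L T).1 k
  J_pos := (RGQ.data (rg1 e cov om) H L T Rep.triv).J_pos
  gi_symm := (RGQ.data (rg1 e cov om) H L T Rep.triv).gi_symm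
  a_skew := fun z hz k => ((rg3b e cov om (rg1 e cov om) D H L T).2.1 z hz).1 k
  gauss := (RGQ.data (rg1 e cov om) H L T Rep.triv).gauss
  radial := fun z hz => ((rg3b e cov om (rg1 e cov om) D H L T).2.1 z hz).2
  gi_zero := (RGQ.data (rg1 e cov om) H L T Rep.triv).gi_zero
  J_zero := (RGQ.data (rg1 e cov om) H L T Rep.triv).J_zero
  gi_crit := (RGQ.data (rg1 e cov om) H L T Rep.triv).gi_crit
  J_crit := (RGQ.data (rg1 e cov om) H L T Rep.triv).J_crit
  lap := by
    intro W _ _ _ R u hu y hy v hv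
    have hx : ((y, v) : E × Eu4) ∈ L.UB := ⟨hy, mem_ball_zero_iff.2 hv⟩
    have hQ : T.IsRad R (RGQ.data (rg1 e cov om) H L T R) :=
      ⟨fun x hx => ((RG2.coefL (rg1 e cov om) H L).2 x hx).symm, fun x _ => rfl, fun x _ k => rfl⟩
    have h6 := rg6_of e cov om (sc1 cov om) (rg1 e cov om) (rg3b e cov om (rg1 e cov om))
      (rgQ (rg1 e cov om)) h4 D H L T W R _ hQ u hu (y, v) hx
    have h7 : T.eq y (L.ex e (y, v)) = T.eh (y, v) :=
      eq_ex (rg7 (rg1 e cov om)) H L T hx
    rw [h7]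
    have h8 : (fun v' => T.pull u (y, v')) =ᶠ[𝓝 v]
        fun v' => u (L.ex e (y, v')) (T.eq y (L.ex e (y, v'))) := by
      have hB : Metric.ball (0 : Eu4) D ∈ 𝓝 v :=
        Metric.isOpen_ball.mem_nhds (mem_ball_zero_iff.2 hv)
      filter_upwards [hB] with w hw
      rw [eq_ex (rg7 (rg1 e cov om)) H L T (x := (y, w)) ⟨hy, hw⟩]
      rfl
    refine Eq.trans h6 ?_
    have h9 : ∀ (f g : Eu4 → W), f =ᶠ[𝓝 v] g →
        (RGQ.data (rg1 e cov om) H L T R).lapW y f v =
          lapF (fun v' => (RGQ.data (rg1 e cov om) H L T Rep.triv).J (y, v'))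
            (fun v' => (RGQ.data (rg1 e cov om) H L T Rep.triv).gi (y, v'))
            (fun v' i => R.d (T.A (y, v') i)) g v := by
      intro f g hfg
      have hd : ∀ᶠ w in 𝓝 v, ∀ j, (RGQ.data (rg1 e cov om) H L T R).dW y f j w =
          fderiv ℝ g w (ev4 j) + R.d (T.A (y, w) j) (g w) := by
        filter_upwards [eventually_eventually_nhds.2 hfg] with w hw j
        unfold RadData.dW
        rw [Filter.EventuallyEq.fderiv_eq hw, hw.self_of_nhds]
        rfl
      unfold RadData.lapW lapF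
      congr 1
      refine Finset.sum_congr rfl fun i _ => ?_
      have hs : (fun v' => ∑ j, ((RGQ.data (rg1 e cov om) H L T R).J (y, v') *
          (RGQ.data (rg1 e cov om) H L T R).gi (y, v') i j) •
            (RGQ.data (rg1 e cov om) H L T R).dW y f j v') =ᶠ[𝓝 v]
          fun v' => ∑ j, ((RGQ.data (rg1 e cov om) H L T Rep.triv).J (y, v') *
            (RGQ.data (rg1 e cov om) H L T Rep.triv).gi (y, v') i j) •
              (fderiv ℝ g v' (ev4 j) + R.d (T.A (y, v') j) (g v')) := by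
        filter_upwards [hd] with w hw
        refine Finset.sum_congr rfl fun j _ => ?_
        rw [hw j]
        rfl
      unfold RadData.dW at hs ⊢
      rw [Filter.EventuallyEq.fderiv_eq hs, hs.self_of_nhds]
      rfl
    exact h9 _ _ h8
  vol := by
    intro y hy
    have h8 := rg8 (rg1 e cov om) D H L y hy
    have hset : Metric.ball (ptc L.p0 y) D = {p | dist (L.q y) p < D} := by
      ext p
      rw [Metric.mem_ball, dist_comm]
      rfl
    rw [hset]
    exact h8.symm
  curv := fun y hy j i => curv h4 H L T hy j i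

end RGAll

/-- RG: patches exist. -/
theorem patchStmt_of (h4 : ∀ e : ∀ x : M, TangentSpace 𝓘(ℝ, E) x → M, RG4Stmt e cov om) :
    PatchStmt cov om (riemVol 4 M) := by
  intro hG q₀ F hF
  obtain ⟨e, he⟩ := exists_facts E M
  obtain ⟨D₁, hD₁, hinj⟩ := injGE_small he
  obtain ⟨ρ, O, O', hρ, hq, hO, hO', hch, hpon, hnear⟩ := RGAll.exists_loc (om := om) q₀ F hF
  refine ⟨min ρ D₁, {y | y ∈ (extChartAt 𝓘(ℝ, E) q₀).target ∧
    (extChartAt 𝓘(ℝ, E) q₀).symm y ∈ O}, lt_min hρ hD₁,
    ⟨mem_extChartAt_target q₀, by rw [extChartAt_to_inv]; exact hq⟩, ?_⟩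
  intro D hD hDle
  let L : LocD om D :=
    { p0 := q₀, Fr := F, O := O, O' := O', D_pos := hD, mem := hq, O_open := hO, O'_open := hO'
      chart := hch, pon := hpon
      near := fun p hp p' h => hnear p hp p' (h.trans_le (hDle.trans (min_le_left _ _))) }
  have H : RGH e cov om D :=
    ⟨hG, he, RGAll.injGE_mono hinj (hDle.trans (min_le_right _ _))⟩
  obtain ⟨T⟩ := rg3 e cov om (rg1 e cov om) D H L
  exact ⟨RGAll.patch he (h4 e) H L T, rfl, rfl, rfl⟩

end

end Vale.Agent.P211.HK
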