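import Vale.Agent.P211.HK.LinOde4
import Vale.Agent.P211.HK.EUDefs

set_option linter.all false
set_option maxSynthPendingDepth 3

/-! P211 / HK (helper961): the radial gauge, manifold-free.

`G (y, v) k` are the matrices of a connection in the coordinates `v`, smooth in `(y, v)` and skew;
`a (y, v)` is the solution at time one of `a' = - (∑ v_k G_k (y, s v)) a`, `a = 1` at time zero, and
`radA` the connection in the new gauge. -/

namespace Vale.Agent.P211.HK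

open Set Filter Topology Metric
open scoped ContDiff

noncomputable section

namespace LinOde

/-- left multiplication by a matrix -/
def mulL (m : Mat4) : Mat4 →L[ℝ] Mat4 :=
  LinearMap.toContinuousLinearMap
    { toFun := fun x => mulM m x
      map_add' := fun x y => mulM_add_right m x y
      map_smul' := fun c x => by ext i j; simp [mulM, Finset.mul_sum, mul_left_comm] }

lemma mulL_apply (m x : Mat4) : mulL m x = mulM m x := rfl

lemma continuous_mulL : Continuous mulL := by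
  let L : Mat4 →ₗ[ℝ] (Mat4 →L[ℝ] Mat4) :=
    { toFun := mulL
      map_add' := fun m m' => by ext x i j; simp [mulL_apply, mulM, add_mul, Finset.sum_add_distrib]
      map_smul' := fun c m => by
        ext x i j; simp [mulL_apply, mulM, Finset.mul_sum, mul_assoc] }
  exact L.continuous_of_finiteDimensional

variable {X : Type*} [NormedAddCommGroup X] [NormedSpace ℝ X]

lemma contDiffOn_mulM {f g : X → Mat4} {s : Set X} (hf : ContDiffOn ℝ ∞ f s)
    (hg : ContDiffOn ℝ ∞ g s) : ContDiffOn ℝ ∞ (fun x => mulM (f x) (g x)) s := by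
  rw [contDiffOn_pi]
  intro i
  rw [contDiffOn_pi]
  intro j
  exact ContDiffOn.sum fun k _ => ((contDiffOn_pi.1 (contDiffOn_pi.1 hf i) k).mul
    (contDiffOn_pi.1 (contDiffOn_pi.1 hg k) j))

lemma contDiffOn_trM {f : X → Mat4} {s : Set X} (hf : ContDiffOn ℝ ∞ f s) :
    ContDiffOn ℝ ∞ (fun x => trM (f x)) s := by
  rw [contDiffOn_pi]
  intro i
  rw [contDiffOn_pi]
  intro j
  exact contDiffOn_pi.1 (contDiffOn_pi.1 hf j) i

lemma smul_mulM (c : ℝ) (a b : Mat4) : mulM (c • a) b = c • mulM a b := by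
  ext i j; simp [mulM, Finset.mul_sum, mul_assoc]

lemma mulM_smul (c : ℝ) (a b : Mat4) : mulM a (c • b) = c • mulM a b := by
  ext i j; simp [mulM, Finset.mul_sum, mul_left_comm]

lemma mulM_neg (a b : Mat4) : mulM a (-b) = -mulM a b := by
  ext i j; simp [mulM]

lemma neg_mulM (a b : Mat4) : mulM (-a) b = -mulM a b := by
  ext i j; simp [mulM]

lemma mulM_sum {ι : Type*} (s : Finset ι) (a : Mat4) (b : ι → Mat4) :
    mulM a (∑ k ∈ s, b k) = ∑ k ∈ s, mulM a (b k) := by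
  exact map_sum (mulL a) b s

lemma sum_mulM {ι : Type*} (s : Finset ι) (a : ι → Mat4) (b : Mat4) :
    mulM (∑ k ∈ s, a k) b = ∑ k ∈ s, mulM (a k) b := by
  induction s using Finset.cons_induction with
  | empty => simp [mulM_zero_left]
  | cons i s hi ih => rw [Finset.sum_cons, Finset.sum_cons, mulM_add_left, ih]

lemma trM_neg (a : Mat4) : trM (-a) = -trM a := rfl

lemma trM_add (a b : Mat4) : trM (a + b) = trM a + trM b := rfl

lemma trM_trM (a : Mat4) : trM (trM a) = a := rfl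

lemma isSkew_iff {A : Mat4} : IsSkew A ↔ trM A = -A := by
  constructor
  · intro h
    ext i j
    exact h j i
  · intro h i j
    have := congrFun (congrFun h j) i
    simpa [trM] using this

end LinOde

open LinOde

/-- the connection `G` in the gauge `a` -/
def radA {P : Type*} [NormedAddCommGroup P] [NormedSpace ℝ P]
    (G : P × Eu4 → Fin 4 → Mat4) (a : P × Eu4 → Mat4) (z : P × Eu4) (k : Fin 4) : Mat4 :=
  mulM (trM (a z)) (mulM (G z k) (a z)) +
    mulM (trM (a z)) (fderiv ℝ (fun v => a (z.1, v)) z.2 (ev4 k))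

lemma eu4_sum (v : Eu4) : v = ∑ k, v k • ev4 k := by
  ext i
  simp only [WithLp.ofLp_sum, Finset.sum_apply, PiLp.smul_apply, ev4,
    EuclideanSpace.single_apply, smul_eq_mul, mul_ite, mul_one, mul_zero, Finset.sum_ite_eq,
    Finset.mem_univ, if_true]

/-- **Existence of the radial gauge.** -/
theorem exists_radGauge {P : Type*} [NormedAddCommGroup P] [NormedSpace ℝ P]
    [FiniteDimensional ℝ P] {G : P × Eu4 → Fin 4 → Mat4} {Ω : Set (P × Eu4)} (hΩ : IsOpen Ω)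
    (hG : ContDiffOn ℝ ∞ G Ω) (hskew : ∀ z ∈ Ω, ∀ k, IsSkew (G z k)) {K : Set P}
    (hK : IsCompact K) {D : ℝ} (hD : 0 ≤ D) (hsub : K ×ˢ closedBall (0 : Eu4) D ⊆ Ω) :
    ∃ a : P × Eu4 → Mat4, ContDiff ℝ ∞ a ∧
      ∃ (U : Set P) (D₁ : ℝ), IsOpen U ∧ K ⊆ U ∧ D < D₁ ∧ U ×ˢ ball (0 : Eu4) D₁ ⊆ Ω ∧
        (∀ y ∈ U, a (y, 0) = idM) ∧
        (∀ z ∈ U ×ˢ ball (0 : Eu4) D₁, IsSO (a z)) ∧
        (∀ z ∈ U ×ˢ ball (0 : Eu4) D₁, ∀ s ∈ Ioo (0 : ℝ) 1,
          HasDerivAt (fun s => a (z.1, s • z.2))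
            (-mulM (∑ k, z.2 k • G (z.1, s • z.2) k) (a (z.1, s • z.2))) s) ∧
        (∀ z ∈ U ×ˢ ball (0 : Eu4) D₁, fderiv ℝ (fun v => a (z.1, v)) z.2 z.2 =
            -mulM (∑ k, z.2 k • G z k) (a z)) ∧
        ContDiffOn ℝ ∞ (radA G a) (U ×ˢ ball (0 : Eu4) D₁) ∧
        (∀ z ∈ U ×ˢ ball (0 : Eu4) D₁, ∀ k, IsSkew (radA G a z k)) ∧
        (∀ z ∈ U ×ˢ ball (0 : Eu4) D₁, ∑ k, z.2 k • radA G a z k = 0) ∧
        ∀ y ∈ U, ∀ k, radA G a (y, 0) k = 0 := by
  -- the coefficient of the radial equation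
  let Γ : (P × Eu4) × ℝ → Mat4 := fun q => -∑ k, q.1.2 k • G (q.1.1, q.2 • q.1.2) k
  let m : (P × Eu4) × ℝ → P × Eu4 := fun q => (q.1.1, q.2 • q.1.2)
  have hm : ContDiff ℝ ∞ m := by
    exact (contDiff_fst.comp contDiff_fst).prodMk (contDiff_snd.smul (contDiff_snd.comp contDiff_fst))
  let Ω' : Set ((P × Eu4) × ℝ) := m ⁻¹' Ω
  have hΩ' : IsOpen Ω' := hΩ.preimage hm.continuous
  have hGm : ContDiffOn ℝ ∞ (fun q => G (m q)) Ω' := hG.comp hm.contDiffOn (fun q hq => hq)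
  have hcoord : ∀ k : Fin 4, ContDiff ℝ ∞ fun q : (P × Eu4) × ℝ => q.1.2 k := by
    intro k
    have h1 : ContDiff ℝ ∞ fun v : Eu4 => v k :=
      (EuclideanSpace.proj k : Eu4 →L[ℝ] ℝ).contDiff
    exact h1.comp (contDiff_snd.comp contDiff_fst)
  have hΓ : ContDiffOn ℝ ∞ Γ Ω' := by
    refine ContDiffOn.neg (ContDiffOn.sum fun k _ => ?_)
    exact (hcoord k).contDiffOn.smul (contDiffOn_pi.1 hGm k)
  have hΓskew : ∀ q ∈ Ω', IsSkew (Γ q) := by
    intro q hq i j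
    have h1 : ∀ k, G (m q) k i j = -G (m q) k j i := fun k => hskew _ hq k i j
    show (-∑ k, q.1.2 k • G (m q) k) i j = -((-∑ k, q.1.2 k • G (m q) k) j i)
    simp only [Pi.neg_apply, Finset.sum_apply, Pi.smul_apply, smul_eq_mul, h1, mul_neg,
      Finset.sum_neg_distrib]
  have hK' : IsCompact (K ×ˢ closedBall (0 : Eu4) D) := hK.prod (isCompact_closedBall _ _)
  have hK'Ω : ∀ p ∈ K ×ˢ closedBall (0 : Eu4) D, ∀ s ∈ Icc (0 : ℝ) 1, (p, s) ∈ Ω' := by
    intro p hp s hs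
    refine hsub ⟨hp.1, ?_⟩
    show s • p.2 ∈ closedBall (0 : Eu4) D
    rw [mem_closedBall_zero_iff, norm_smul, Real.norm_of_nonneg hs.1]
    have h1 := mem_closedBall_zero_iff.1 hp.2
    calc s * ‖p.2‖ ≤ 1 * ‖p.2‖ := by gcongr; exact hs.2
      _ ≤ D := by rw [one_mul]; exact h1
  obtain ⟨g, hg, hg0, O, hO, hKO, δ, hδ, hd⟩ := exists_frameFlow hΩ' hΓ hK' hK'Ω
  obtain ⟨U, B, hU, hB, hKU, hDB, hUB⟩ := generalized_tube_lemma hK
    (isCompact_closedBall (0 : Eu4) D) hO hKO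
  obtain ⟨ε, hε, hth⟩ := (isCompact_closedBall (0 : Eu4) D).exists_thickening_subset_open hB hDB
  rw [thickening_closedBall hε hD] at hth
  have hsubO : U ×ˢ ball (0 : Eu4) (ε + D) ⊆ O := fun z hz => hUB ⟨hz.1, hth hz.2⟩
  have h01 : ∀ s ∈ Icc (0 : ℝ) 1, s ∈ Ioo (-δ) (1 + δ) := fun s hs =>
    ⟨by linarith [hs.1], by linarith [hs.2]⟩
  have hball : ∀ v ∈ ball (0 : Eu4) (ε + D), ∀ s ∈ Icc (0 : ℝ) 1, s • v ∈ ball (0 : Eu4) (ε + D) := by
    intro v hv s hs
    rw [mem_ball_zero_iff] at hv ⊢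
    rw [norm_smul, Real.norm_of_nonneg hs.1]
    calc s * ‖v‖ ≤ 1 * ‖v‖ := by gcongr; exact hs.2
      _ < ε + D := by rw [one_mul]; exact hv
  -- scaling
  have hscale : ∀ z ∈ U ×ˢ ball (0 : Eu4) (ε + D), ∀ s ∈ Icc (0 : ℝ) 1,
      g (z, s) = g ((z.1, s • z.2), 1) := by
    intro z hz s hs
    have hz' : (z.1, s • z.2) ∈ U ×ˢ ball (0 : Eu4) (ε + D) := ⟨hz.1, hball _ hz.2 s hs⟩
    let f : ℝ → Mat4 := fun r => g (z, s * r) - g ((z.1, s • z.2), r)
    have hΓs : ∀ r, s • Γ (z, s * r) = Γ ((z.1, s • z.2), r) := by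
      intro r
      show s • (-∑ k, z.2 k • G (z.1, (s * r) • z.2) k) =
        -∑ k, (s • z.2) k • G (z.1, r • s • z.2) k
      rw [smul_neg, Finset.smul_sum]
      congr 1
      refine Finset.sum_congr rfl fun k _ => ?_
      rw [smul_smul, smul_smul, mul_comm s r]
      rfl
    have hder : ∀ r ∈ Icc (0 : ℝ) 1, HasDerivAt f (mulL (Γ ((z.1, s • z.2), r)) (f r)) r := by
      intro r hr
      have hsr : s * r ∈ Icc (0 : ℝ) 1 := ⟨mul_nonneg hs.1 hr.1, mul_le_one₀ hs.2 hr.1 hr.2⟩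
      have h1 := (hd z (hsubO hz) (s * r) (h01 _ hsr)).2.1
      have h2 : HasDerivAt (fun r : ℝ => s * r) s r := by
        simpa using (hasDerivAt_id r).const_mul s
      have h3 := h1.scomp r h2
      have h4 := (hd _ (hsubO hz') r (h01 _ hr)).2.1
      refine (h3.sub h4).congr_deriv ?_
      rw [mulL_apply, ← smul_mulM, hΓs]
      ext i j
      simp [f, mulM, mul_sub, Finset.sum_sub_distrib]
    have hL : ContinuousOn (fun r => mulL (Γ ((z.1, s • z.2), r))) (Icc 0 1) := by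
      refine continuous_mulL.comp_continuousOn ?_
      intro r hr
      have h5 : ((z.1, s • z.2), r) ∈ Ω' := (hd _ (hsubO hz') r (h01 _ hr)).1
      have h6 : ContinuousAt Γ ((z.1, s • z.2), r) :=
        (hΓ.continuousOn.continuousAt (hΩ'.mem_nhds h5))
      have h7 : ContinuousAt (fun r : ℝ => ((z.1, s • z.2), r)) r := by fun_prop
      exact (ContinuousAt.comp (f := fun r : ℝ => ((z.1, s • z.2), r)) h6 h7).continuousWithinAt
    have hf0 : f 0 = 0 := by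
      show g (z, s * 0) - g ((z.1, s • z.2), 0) = 0
      rw [mul_zero, hg0, hg0, sub_self]
    have h8 := eq_zero_fwd (b := 1) hL
      (fun r hr => (hder r hr).continuousAt.continuousWithinAt)
      (fun r hr => (hder r ⟨hr.1, hr.2.le⟩).hasDerivWithinAt) hf0 1 ⟨zero_le_one, le_rfl⟩
    have h9 : g (z, s * 1) - g ((z.1, s • z.2), 1) = 0 := h8
    rw [mul_one] at h9
    exact sub_eq_zero.1 h9
  let a : P × Eu4 → Mat4 := fun z => g (z, 1)
  have ha : ContDiff ℝ ∞ a := hg.comp (contDiff_id.prodMk contDiff_const)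
  have hGat : ∀ z ∈ U ×ˢ ball (0 : Eu4) (ε + D), z ∈ Ω := by
    intro z hz
    have h1 := (hd z (hsubO hz) 1 (h01 1 ⟨zero_le_one, le_rfl⟩)).1
    have h2 : (z.1, (1 : ℝ) • z.2) ∈ Ω := h1
    rw [one_smul] at h2
    exact h2
  have ha0 : ∀ y ∈ U, a (y, 0) = idM := by
    intro y hy
    have h1 := hscale (y, 0) ⟨hy, mem_ball_self (by linarith)⟩ 0 ⟨le_rfl, zero_le_one⟩
    rw [hg0, smul_zero] at h1
    exact h1.symm
  have hSO : ∀ z ∈ U ×ˢ ball (0 : Eu4) (ε + D), IsSO (a z) := fun z hz =>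
    (hd z (hsubO hz) 1 (h01 1 ⟨zero_le_one, le_rfl⟩)).2.2 hΓskew
  have hray : ∀ z ∈ U ×ˢ ball (0 : Eu4) (ε + D), ∀ s ∈ Ioo (0 : ℝ) 1,
      HasDerivAt (fun s => a (z.1, s • z.2))
        (-mulM (∑ k, z.2 k • G (z.1, s • z.2) k) (a (z.1, s • z.2))) s := by
    intro z hz s hs
    have h1 := (hd z (hsubO hz) s (h01 s ⟨hs.1.le, hs.2.le⟩)).2.1
    have h2 : (fun s => a (z.1, s • z.2)) =ᶠ[𝓝 s] fun s => g (z, s) := by
      filter_upwards [Ioo_mem_nhds hs.1 hs.2] with r hr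
      exact (hscale z hz r ⟨hr.1.le, hr.2.le⟩).symm
    refine (h1.congr_of_eventuallyEq h2).congr_deriv ?_
    rw [hscale z hz s ⟨hs.1.le, hs.2.le⟩]
    show mulM (-∑ k, z.2 k • G (z.1, s • z.2) k) _ = _
    rw [neg_mulM]
  have hdiff : ∀ y, Differentiable ℝ fun v => a (y, v) := fun y =>
    (ha.comp (contDiff_const.prodMk contDiff_id)).differentiable (by simp)
  have hrad : ∀ z ∈ U ×ˢ ball (0 : Eu4) (ε + D), fderiv ℝ (fun v => a (z.1, v)) z.2 z.2 =
      -mulM (∑ k, z.2 k • G z k) (a z) := by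
    intro z hz
    obtain ⟨l, hl1, hl⟩ : ∃ l : ℝ, 1 < l ∧ l * ‖z.2‖ < ε + D := by
      have h1 := mem_ball_zero_iff.1 hz.2
      rcases (norm_nonneg z.2).eq_or_lt with h0 | h0
      · exact ⟨2, by norm_num, by rw [← h0]; simp; linarith⟩
      · obtain ⟨r, hr1, hr2⟩ := exists_between h1
        exact ⟨r / ‖z.2‖, by rw [lt_div_iff₀ h0]; simpa using hr1,
          by rw [div_mul_cancel₀ _ h0.ne']; exact hr2⟩
    have hl0 : 0 < l := by linarith
    have hw : (z.1, l • z.2) ∈ U ×ˢ ball (0 : Eu4) (ε + D) := by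
      refine ⟨hz.1, ?_⟩
      rw [mem_ball_zero_iff, norm_smul, Real.norm_of_nonneg hl0.le]
      exact hl
    have hs : l⁻¹ ∈ Ioo (0 : ℝ) 1 := ⟨inv_pos.2 hl0, inv_lt_one_of_one_lt₀ hl1⟩
    have h1 := hray _ hw l⁻¹ hs
    simp only [] at h1
    have h2 : l⁻¹ • l • z.2 = z.2 := by rw [smul_smul, inv_mul_cancel₀ hl0.ne', one_smul]
    have h3 : HasDerivAt (fun s : ℝ => s • l • z.2) (l • z.2) l⁻¹ := by
      simpa using (hasDerivAt_id l⁻¹).smul_const (l • z.2)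
    have h4 : HasDerivAt (fun s : ℝ => a (z.1, s • l • z.2))
        (fderiv ℝ (fun v => a (z.1, v)) (l⁻¹ • l • z.2) (l • z.2)) l⁻¹ := by
      have h7 := (hdiff z.1 (l⁻¹ • l • z.2)).hasFDerivAt
      exact HasFDerivAt.comp_hasDerivAt (f := fun s : ℝ => s • l • z.2) l⁻¹ h7 h3
    have h5 := h4.unique h1
    rw [h2, map_smul] at h5
    have h6 : ∑ k, (l • z.2) k • G (z.1, z.2) k = l • ∑ k, z.2 k • G z k := by
      rw [Finset.smul_sum]
      refine Finset.sum_congr rfl fun k _ => ?_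
      rw [smul_smul]
      rfl
    rw [h6, smul_mulM, ← smul_neg] at h5
    exact smul_right_injective _ hl0.ne' h5
  have hO1 : IsOpen (U ×ˢ ball (0 : Eu4) (ε + D)) := hU.prod isOpen_ball
  have hfd : ∀ z : P × Eu4, ∀ w, fderiv ℝ (fun v => a (z.1, v)) z.2 w =
      fderiv ℝ a z ((0 : P), w) := by
    intro z w
    have h1 : HasFDerivAt (fun v : Eu4 => (z.1, v)) (ContinuousLinearMap.inr ℝ P Eu4) z.2 :=
      hasFDerivAt_prodMk_right z.1 z.2
    have h2 : HasFDerivAt a (fderiv ℝ a z) (z.1, z.2) :=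
      (ha.differentiable (by simp) z).hasFDerivAt
    have h3 := (h2.comp z.2 h1).fderiv
    have h4 : (a ∘ fun v : Eu4 => (z.1, v)) = fun v => a (z.1, v) := rfl
    rw [h4] at h3
    rw [h3]
    rfl
  have hAs : ContDiffOn ℝ ∞ (radA G a) (U ×ˢ ball (0 : Eu4) (ε + D)) := by
    rw [contDiffOn_pi]
    intro k
    have h1 : ContDiffOn ℝ ∞ (fun z => G z k) (U ×ˢ ball (0 : Eu4) (ε + D)) :=
      contDiffOn_pi.1 (hG.mono fun z hz => hGat z hz) k
    have h2 : ContDiff ℝ ∞ fun z => fderiv ℝ a z ((0 : P), ev4 k) :=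
      (ha.fderiv_right (m := ∞) (by simp)).clm_apply contDiff_const
    have h3 : ContDiffOn ℝ ∞ (fun z : P × Eu4 => fderiv ℝ (fun v => a (z.1, v)) z.2 (ev4 k))
        (U ×ˢ ball (0 : Eu4) (ε + D)) := by
      refine h2.contDiffOn.congr fun z _ => hfd z _
    exact (contDiffOn_mulM (contDiffOn_trM ha.contDiffOn)
      (contDiffOn_mulM h1 ha.contDiffOn)).add (contDiffOn_mulM (contDiffOn_trM ha.contDiffOn) h3)
  have hAskew : ∀ z ∈ U ×ˢ ball (0 : Eu4) (ε + D), ∀ k, IsSkew (radA G a z k) := by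
    intro z hz k
    rw [isSkew_iff]
    have h1 : trM (G z k) = -G z k := isSkew_iff.1 (hskew z (hGat z hz) k)
    -- derivative of `aᵀ a = 1`
    have h2 : HasDerivAt (fun s : ℝ => a (z.1, z.2 + s • ev4 k))
        (fderiv ℝ (fun v => a (z.1, v)) z.2 (ev4 k)) 0 := by
      have h3 : HasDerivAt (fun s : ℝ => z.2 + s • ev4 k) (ev4 k) 0 := by
        simpa using ((hasDerivAt_id (0 : ℝ)).smul_const (ev4 k)).const_add z.2
      have h4 : HasFDerivAt (fun v => a (z.1, v)) (fderiv ℝ (fun v => a (z.1, v)) z.2)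
          (z.2 + (0 : ℝ) • ev4 k) := by
        rw [zero_smul, add_zero]
        exact (hdiff z.1 z.2).hasFDerivAt
      exact h4.comp_hasDerivAt (0 : ℝ) h3
    have h5 := hasDerivAt_mulM (hasDerivAt_trM h2) h2
    have h6 : (fun s : ℝ => mulM (trM (a (z.1, z.2 + s • ev4 k))) (a (z.1, z.2 + s • ev4 k)))
        =ᶠ[𝓝 0] fun _ => idM := by
      have h7 : ContinuousAt (fun s : ℝ => (z.1, z.2 + s • ev4 k)) 0 := by fun_prop
      have h8 : (U ×ˢ ball (0 : Eu4) (ε + D)) ∈ 𝓝 ((fun s : ℝ => (z.1, z.2 + s • ev4 k)) 0) := by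
        refine hO1.mem_nhds ?_
        simpa using hz
      filter_upwards [h7 h8] with s hs
      exact (hSO _ hs).1
    have h9 := h5.unique ((hasDerivAt_const (0 : ℝ) idM).congr_of_eventuallyEq h6)
    simp only [zero_smul, add_zero] at h9
    have h10 : mulM (trM (fderiv ℝ (fun v => a (z.1, v)) z.2 (ev4 k))) (a z) =
        -mulM (trM (a z)) (fderiv ℝ (fun v => a (z.1, v)) z.2 (ev4 k)) :=
      eq_neg_of_add_eq_zero_left h9
    unfold radA
    rw [trM_add, trM_mulM, trM_mulM, trM_mulM, trM_trM, h1, h10, mulM_assoc, neg_mulM, mulM_neg,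
      neg_add]
  have hArad : ∀ z ∈ U ×ˢ ball (0 : Eu4) (ε + D), ∑ k, z.2 k • radA G a z k = 0 := by
    intro z hz
    have h1 : ∑ k, z.2 k • fderiv ℝ (fun v => a (z.1, v)) z.2 (ev4 k) =
        fderiv ℝ (fun v => a (z.1, v)) z.2 z.2 := by
      conv_rhs => rw [eu4_sum z.2]
      simp only [map_sum, map_smul]
      rw [← eu4_sum z.2]
    have h2 : ∑ k, z.2 k • radA G a z k = mulM (trM (a z)) (mulM (∑ k, z.2 k • G z k) (a z)) +
        mulM (trM (a z)) (∑ k, z.2 k • fderiv ℝ (fun v => a (z.1, v)) z.2 (ev4 k)) := by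
      rw [sum_mulM, mulM_sum, mulM_sum, ← Finset.sum_add_distrib]
      refine Finset.sum_congr rfl fun k _ => ?_
      rw [smul_mulM, mulM_smul, mulM_smul, ← smul_add]
      rfl
    rw [h2, h1, hrad z hz, ← mulM_add_right, add_neg_cancel]
    ext i j; simp [mulM]
  refine ⟨a, ha, U, ε + D, hU, hKU, by linarith, fun z hz => hGat z hz, ha0, hSO, hray, hrad,
    hAs, hAskew, hArad, fun y hy k => ?_⟩
  have hy0 : (y, (0 : Eu4)) ∈ U ×ˢ ball (0 : Eu4) (ε + D) := ⟨hy, mem_ball_self (by linarith)⟩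
  have h1 : ContinuousAt (fun z => radA G a z k) (y, 0) :=
    ((contDiffOn_pi.1 hAs k).continuousOn).continuousAt (hO1.mem_nhds hy0)
  have h2 : Tendsto (fun t : ℝ => (y, t • ev4 k)) (𝓝[>] 0) (𝓝 (y, (0 : Eu4))) := by
    have h3 : Continuous fun t : ℝ => (y, t • ev4 k) := by fun_prop
    have h4 := h3.tendsto 0
    simp only [zero_smul] at h4
    exact h4.mono_left nhdsWithin_le_nhds
  have h5 : Tendsto (fun t : ℝ => radA G a (y, t • ev4 k) k) (𝓝[>] 0) (𝓝 (radA G a (y, 0) k)) :=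
    h1.tendsto.comp h2
  have h6 : (fun t : ℝ => radA G a (y, t • ev4 k) k) =ᶠ[𝓝[>] 0] fun _ => 0 := by
    filter_upwards [h2 (hO1.mem_nhds hy0), self_mem_nhdsWithin] with t ht ht0
    have h7 := hArad _ ht
    have h8 : ∀ j, (t • ev4 k : Eu4) j = if j = k then t else 0 := by
      intro j
      simp [ev4, EuclideanSpace.single_apply]
    simp only [h8, ite_smul, zero_smul, Finset.sum_ite_eq', Finset.mem_univ, if_true] at h7
    exact (smul_eq_zero.1 h7).resolve_left (ne_of_gt ht0)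
  exact tendsto_nhds_unique h5 ((tendsto_congr' h6).2 tendsto_const_nhds)

/-! ### consequences of the radial equation -/

section Props

variable {P : Type*} [NormedAddCommGroup P] [NormedSpace ℝ P]
  {G : P × Eu4 → Fin 4 → Mat4} {a : P × Eu4 → Mat4} {B : Set (P × Eu4)}

lemma hasFDerivAt_slice {a : P × Eu4 → Mat4} {z : P × Eu4} (ha : DifferentiableAt ℝ a z) :
    HasFDerivAt (fun v => a (z.1, v))
      ((fderiv ℝ a z).comp (ContinuousLinearMap.inr ℝ P Eu4)) z.2 := by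
  have h1 : HasFDerivAt (fun v : Eu4 => (z.1, v)) (ContinuousLinearMap.inr ℝ P Eu4) z.2 :=
    hasFDerivAt_prodMk_right z.1 z.2
  have h2 : HasFDerivAt a (fderiv ℝ a z) (z.1, z.2) := ha.hasFDerivAt
  exact h2.comp z.2 h1

lemma fderiv_slice {a : P × Eu4 → Mat4} {z : P × Eu4} (ha : DifferentiableAt ℝ a z) (w : Eu4) :
    fderiv ℝ (fun v => a (z.1, v)) z.2 w = fderiv ℝ a z ((0 : P), w) := by
  rw [(hasFDerivAt_slice ha).fderiv]
  rfl

lemma radA_smooth (hB : IsOpen B) (hG : ∀ k, ContDiffOn ℝ ∞ (fun z => G z k) B)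
    (ha : ContDiffOn ℝ ∞ a B) (k : Fin 4) : ContDiffOn ℝ ∞ (fun z => radA G a z k) B := by
  have h2 : ContDiffOn ℝ ∞ (fun z => fderiv ℝ a z ((0 : P), ev4 k)) B :=
    (ha.fderiv_of_isOpen hB (m := ∞) (by simp)).clm_apply contDiffOn_const
  have h3 : ContDiffOn ℝ ∞ (fun z : P × Eu4 => fderiv ℝ (fun v => a (z.1, v)) z.2 (ev4 k)) B :=
    h2.congr fun z hz => fderiv_slice ((ha.contDiffAt (hB.mem_nhds hz)).differentiableAt (by simp)) _
  exact (contDiffOn_mulM (contDiffOn_trM ha) (contDiffOn_mulM (hG k) ha)).add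
    (contDiffOn_mulM (contDiffOn_trM ha) h3)

lemma radA_skew (hB : IsOpen B) (hskew : ∀ z ∈ B, ∀ k, IsSkew (G z k))
    (ha : ContDiffOn ℝ ∞ a B) (hso : ∀ z ∈ B, IsSO (a z)) {z : P × Eu4} (hz : z ∈ B) (k : Fin 4) :
    IsSkew (radA G a z k) := by
  rw [isSkew_iff]
  have h1 : trM (G z k) = -G z k := isSkew_iff.1 (hskew z hz k)
  have h0 : HasFDerivAt (fun v => a (z.1, v)) (fderiv ℝ (fun v => a (z.1, v)) z.2) z.2 :=
    (hasFDerivAt_slice ((ha.contDiffAt (hB.mem_nhds hz)).differentiableAt (by simp))).differentiableAt.hasFDerivAt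
  have h2 : HasDerivAt (fun s : ℝ => a (z.1, z.2 + s • ev4 k))
      (fderiv ℝ (fun v => a (z.1, v)) z.2 (ev4 k)) 0 := by
    have h3 : HasDerivAt (fun s : ℝ => z.2 + s • ev4 k) (ev4 k) 0 := by
      simpa using ((hasDerivAt_id (0 : ℝ)).smul_const (ev4 k)).const_add z.2
    have h4 : HasFDerivAt (fun v => a (z.1, v)) (fderiv ℝ (fun v => a (z.1, v)) z.2)
        (z.2 + (0 : ℝ) • ev4 k) := by
      rw [zero_smul, add_zero]
      exact h0
    exact h4.comp_hasDerivAt (0 : ℝ) h3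
  have h5 := hasDerivAt_mulM (hasDerivAt_trM h2) h2
  have h6 : (fun s : ℝ => mulM (trM (a (z.1, z.2 + s • ev4 k))) (a (z.1, z.2 + s • ev4 k)))
      =ᶠ[𝓝 0] fun _ => idM := by
    have h7 : ContinuousAt (fun s : ℝ => (z.1, z.2 + s • ev4 k)) 0 := by fun_prop
    have h8 : B ∈ 𝓝 ((fun s : ℝ => (z.1, z.2 + s • ev4 k)) 0) := by
      refine hB.mem_nhds ?_
      simpa using hz
    filter_upwards [h7 h8] with s hs
    exact (hso _ hs).1
  have h9 := h5.unique ((hasDerivAt_const (0 : ℝ) idM).congr_of_eventuallyEq h6)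
  simp only [zero_smul, add_zero] at h9
  have h10 : mulM (trM (fderiv ℝ (fun v => a (z.1, v)) z.2 (ev4 k))) (a z) =
      -mulM (trM (a z)) (fderiv ℝ (fun v => a (z.1, v)) z.2 (ev4 k)) :=
    eq_neg_of_add_eq_zero_left h9
  unfold radA
  rw [trM_add, trM_mulM, trM_mulM, trM_mulM, trM_trM, h1, h10, mulM_assoc, neg_mulM, mulM_neg,
    neg_add]

lemma radA_radial {z : P × Eu4} (hrad : fderiv ℝ (fun v => a (z.1, v)) z.2 z.2 =
      -mulM (∑ k, z.2 k • G z k) (a z)) : ∑ k, z.2 k • radA G a z k = 0 := by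
  have h1 : ∑ k, z.2 k • fderiv ℝ (fun v => a (z.1, v)) z.2 (ev4 k) =
      fderiv ℝ (fun v => a (z.1, v)) z.2 z.2 := by
    conv_rhs => rw [eu4_sum z.2]
    simp only [map_sum, map_smul]
    rw [← eu4_sum z.2]
  have h2 : ∑ k, z.2 k • radA G a z k = mulM (trM (a z)) (mulM (∑ k, z.2 k • G z k) (a z)) +
      mulM (trM (a z)) (∑ k, z.2 k • fderiv ℝ (fun v => a (z.1, v)) z.2 (ev4 k)) := by
    rw [sum_mulM, mulM_sum, mulM_sum, ← Finset.sum_add_distrib]
    refine Finset.sum_congr rfl fun k _ => ?_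
    rw [smul_mulM, mulM_smul, mulM_smul, ← smul_add]
    rfl
  rw [h2, h1, hrad, ← mulM_add_right, add_neg_cancel]
  ext i j; simp [mulM]

lemma radA_zero {U : Set P} (hU : IsOpen U) {D : ℝ} (hD : 0 < D)
    (hG : ∀ k, ContDiffOn ℝ ∞ (fun z => G z k) (U ×ˢ ball (0 : Eu4) D))
    (ha : ContDiffOn ℝ ∞ a (U ×ˢ ball (0 : Eu4) D))
    (hrad : ∀ z ∈ U ×ˢ ball (0 : Eu4) D, fderiv ℝ (fun v => a (z.1, v)) z.2 z.2 =
      -mulM (∑ k, z.2 k • G z k) (a z)) {y : P} (hy : y ∈ U) (k : Fin 4) :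
    radA G a (y, 0) k = 0 := by
  have hO1 : IsOpen (U ×ˢ ball (0 : Eu4) D) := hU.prod isOpen_ball
  have hy0 : (y, (0 : Eu4)) ∈ U ×ˢ ball (0 : Eu4) D := ⟨hy, mem_ball_self hD⟩
  have h1 : ContinuousAt (fun z => radA G a z k) (y, 0) :=
    ((radA_smooth hO1 hG ha k).continuousOn).continuousAt (hO1.mem_nhds hy0)
  have h2 : Tendsto (fun t : ℝ => (y, t • ev4 k)) (𝓝[>] 0) (𝓝 (y, (0 : Eu4))) := by
    have h3 : Continuous fun t : ℝ => (y, t • ev4 k) := by fun_prop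
    have h4 := h3.tendsto 0
    simp only [zero_smul] at h4
    exact h4.mono_left nhdsWithin_le_nhds
  have h5 : Tendsto (fun t : ℝ => radA G a (y, t • ev4 k) k) (𝓝[>] 0) (𝓝 (radA G a (y, 0) k)) :=
    h1.tendsto.comp h2
  have h6 : (fun t : ℝ => radA G a (y, t • ev4 k) k) =ᶠ[𝓝[>] 0] fun _ => 0 := by
    filter_upwards [h2 (hO1.mem_nhds hy0), self_mem_nhdsWithin] with t ht ht0
    have h7 := radA_radial (hrad _ ht)
    have h8 : ∀ j, (t • ev4 k : Eu4) j = if j = k then t else 0 := by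
      intro j
      simp [ev4, EuclideanSpace.single_apply]
    simp only [h8, ite_smul, zero_smul, Finset.sum_ite_eq', Finset.mem_univ, if_true] at h7
    exact (smul_eq_zero.1 h7).resolve_left (ne_of_gt ht0)
  exact tendsto_nhds_unique h5 ((tendsto_congr' h6).2 tendsto_const_nhds)

end Props

/-! ### uniqueness and global existence -/

/-- a solution of a homogeneous linear equation on `(0, b]` with limit zero at `0` vanishes -/
lemma LinOde.eq_zero_open {V : Type*} [NormedAddCommGroup V] [NormedSpace ℝ V]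
    {L : ℝ → V →L[ℝ] V} {f : ℝ → V} {b : ℝ} (hL : ContinuousOn L (Icc 0 b))
    (hf : ContinuousOn f (Icc 0 b)) (hd : ∀ s ∈ Ioo 0 b, HasDerivAt f (L s (f s)) s)
    (h0 : f 0 = 0) : ∀ s ∈ Ioc 0 b, f s = 0 := by
  obtain ⟨C, hC⟩ := isCompact_Icc.exists_bound_of_continuousOn hL
  intro s hs
  have h1 : ∀ ε ∈ Ioo 0 s, ‖f s‖ ≤ ‖f ε‖ * Real.exp (C * (s - ε)) := by
    intro ε hε
    have h2 := norm_le_gronwallBound_of_norm_deriv_right_le (f := f) (f' := fun s => L s (f s))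
      (δ := ‖f ε‖) (K := C) (ε := 0) (a := ε) (b := s)
      (hf.mono (Icc_subset_Icc hε.1.le hs.2))
      (fun r hr => (hd r ⟨hε.1.trans_le hr.1, hr.2.trans_le hs.2⟩).hasDerivWithinAt) le_rfl
      (fun r hr => by
        rw [add_zero]
        exact (L r).le_of_opNorm_le (hC r ⟨hε.1.le.trans hr.1, (hr.2.trans_le hs.2).le⟩) _) s
      ⟨hε.2.le, le_rfl⟩
    rwa [gronwallBound_ε0] at h2
  have h3 : Tendsto (fun ε => ‖f ε‖ * Real.exp (C * (s - ε))) (𝓝[>] 0)
      (𝓝 (‖f 0‖ * Real.exp (C * (s - 0)))) := by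
    have h4 : Tendsto f (𝓝[>] 0) (𝓝 (f 0)) := by
      have h5 : Tendsto f (𝓝[Icc 0 b] 0) (𝓝 (f 0)) := hf 0 ⟨le_rfl, hs.1.le.trans hs.2⟩
      refine h5.mono_left ?_
      rw [← nhdsWithin_Ioo_eq_nhdsGT (hs.1.trans_le hs.2)]
      exact nhdsWithin_mono _ Ioo_subset_Icc_self
    refine h4.norm.mul ?_
    have h6 : Continuous fun ε : ℝ => Real.exp (C * (s - ε)) := by fun_prop
    exact (h6.tendsto 0).mono_left nhdsWithin_le_nhds
  rw [h0, norm_zero, zero_mul] at h3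
  have h7 : ∀ᶠ ε in 𝓝[>] (0 : ℝ), ‖f s‖ ≤ ‖f ε‖ * Real.exp (C * (s - ε)) := by
    filter_upwards [Ioo_mem_nhdsGT hs.1] with ε hε
    exact h1 ε hε
  exact norm_le_zero_iff.1 (ge_of_tendsto h3 h7)

/-- uniqueness for the radial equation -/
theorem radial_unique {g : Eu4 → Fin 4 → Mat4} {R : ℝ} (hg : ContinuousOn g (ball 0 R))
    {a b : Eu4 → Mat4} (ha : DifferentiableOn ℝ a (ball 0 R)) (hb : DifferentiableOn ℝ b (ball 0 R))
    (ha' : ∀ v ∈ ball (0 : Eu4) R, fderiv ℝ a v v = -mulM (∑ k, v k • g v k) (a v))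
    (hb' : ∀ v ∈ ball (0 : Eu4) R, fderiv ℝ b v v = -mulM (∑ k, v k • g v k) (b v))
    (h0 : a 0 = b 0) : ∀ v ∈ ball (0 : Eu4) R, a v = b v := by
  intro v hv
  have hball : ∀ s ∈ Icc (0 : ℝ) 1, s • v ∈ ball (0 : Eu4) R := by
    intro s hs
    rw [mem_ball_zero_iff] at hv ⊢
    rw [norm_smul, Real.norm_of_nonneg hs.1]
    calc s * ‖v‖ ≤ 1 * ‖v‖ := by gcongr; exact hs.2
      _ < R := by rw [one_mul]; exact hv
  have hder : ∀ c : Eu4 → Mat4, DifferentiableOn ℝ c (ball 0 R) →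
      (∀ v ∈ ball (0 : Eu4) R, fderiv ℝ c v v = -mulM (∑ k, v k • g v k) (c v)) →
      ∀ s ∈ Ioo (0 : ℝ) 1, HasDerivAt (fun s => c (s • v))
        (-mulM (∑ k, v k • g (s • v) k) (c (s • v))) s := by
    intro c hc hc' s hs
    have hs' := hball s ⟨hs.1.le, hs.2.le⟩
    have h1 : HasDerivAt (fun s : ℝ => s • v) v s := by
      simpa using (hasDerivAt_id s).smul_const v
    have h2 : HasFDerivAt c (fderiv ℝ c (s • v)) (s • v) :=
      (hc.differentiableAt (isOpen_ball.mem_nhds hs')).hasFDerivAt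
    have h3 : HasDerivAt (fun s : ℝ => c (s • v)) (fderiv ℝ c (s • v) v) s :=
      HasFDerivAt.comp_hasDerivAt (f := fun s : ℝ => s • v) s h2 h1
    refine h3.congr_deriv ?_
    have h4 := hc' _ hs'
    rw [map_smul] at h4
    have h5 : ∑ k, (s • v) k • g (s • v) k = s • ∑ k, v k • g (s • v) k := by
      rw [Finset.smul_sum]
      refine Finset.sum_congr rfl fun k _ => ?_
      rw [smul_smul]
      rfl
    rw [h5, smul_mulM, ← smul_neg] at h4
    exact smul_right_injective _ hs.1.ne' h4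
  have hcont : ∀ c : Eu4 → Mat4, DifferentiableOn ℝ c (ball 0 R) →
      ContinuousOn (fun s : ℝ => c (s • v)) (Icc 0 1) := by
    intro c hc
    exact hc.continuousOn.comp (Continuous.continuousOn (by fun_prop)) hball
  have hL : ContinuousOn (fun s : ℝ => mulL (-∑ k, v k • g (s • v) k)) (Icc 0 1) := by
    refine continuous_mulL.comp_continuousOn ?_
    have h1 : ContinuousOn (fun s : ℝ => g (s • v)) (Icc 0 1) :=
      hg.comp (Continuous.continuousOn (by fun_prop)) hball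
    refine ContinuousOn.neg (continuousOn_finset_sum _ fun k _ => ?_)
    exact (continuousOn_const (c := v k)).smul (continuousOn_pi.1 h1 k)
  have h1 := LinOde.eq_zero_open (f := fun s : ℝ => a (s • v) - b (s • v)) (b := 1) hL
    ((hcont a ha).sub (hcont b hb)) (fun s hs => by
      refine ((hder a ha ha' s hs).sub (hder b hb hb' s hs)).congr_deriv ?_
      rw [map_sub, mulL_apply, mulL_apply, neg_mulM, neg_mulM]) (by simp [h0]) 1 ⟨zero_lt_one, le_rfl⟩
  simp only [one_smul] at h1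
  exact sub_eq_zero.1 h1

/-- **Existence of the radial gauge**, on all of `U × ball D`. -/
theorem exists_radGauge_global {P : Type*} [NormedAddCommGroup P] [NormedSpace ℝ P]
    [FiniteDimensional ℝ P] {G : P × Eu4 → Fin 4 → Mat4} {U : Set P} (hU : IsOpen U) {D : ℝ}
    (hD : 0 < D) (hG : ContDiffOn ℝ ∞ G (U ×ˢ ball (0 : Eu4) D))
    (hskew : ∀ z ∈ U ×ˢ ball (0 : Eu4) D, ∀ k, IsSkew (G z k)) :
    ∃ a : P × Eu4 → Mat4, ContDiffOn ℝ ∞ a (U ×ˢ ball (0 : Eu4) D) ∧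
      (∀ z ∈ U ×ˢ ball (0 : Eu4) D, IsSO (a z)) ∧ (∀ y ∈ U, a (y, 0) = idM) ∧
      ∀ z ∈ U ×ˢ ball (0 : Eu4) D, fderiv ℝ (fun v => a (z.1, v)) z.2 z.2 =
        -mulM (∑ k, z.2 k • G z k) (a z) := by
  classical
  have hΩ : IsOpen (U ×ˢ ball (0 : Eu4) D) := hU.prod isOpen_ball
  have key : ∀ z : P × Eu4, z ∈ U ×ˢ ball (0 : Eu4) D →
      ∃ (a : P × Eu4 → Mat4) (V : Set P) (D₁ : ℝ), ContDiff ℝ ∞ a ∧ IsOpen V ∧ z.1 ∈ V ∧
        ‖z.2‖ < D₁ ∧ V ×ˢ ball (0 : Eu4) D₁ ⊆ U ×ˢ ball (0 : Eu4) D ∧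
        (∀ y ∈ V, a (y, 0) = idM) ∧ (∀ z ∈ V ×ˢ ball (0 : Eu4) D₁, IsSO (a z)) ∧
        ∀ z ∈ V ×ˢ ball (0 : Eu4) D₁, fderiv ℝ (fun v => a (z.1, v)) z.2 z.2 =
          -mulM (∑ k, z.2 k • G z k) (a z) := by
    intro z hz
    have hsub : ({z.1} : Set P) ×ˢ closedBall (0 : Eu4) ‖z.2‖ ⊆ U ×ˢ ball (0 : Eu4) D := by
      rintro ⟨y, v⟩ ⟨hy, hv⟩
      refine ⟨?_, ?_⟩
      · rw [mem_singleton_iff.1 hy]; exact hz.1
      · rw [mem_ball_zero_iff]
        exact (mem_closedBall_zero_iff.1 hv).trans_lt (mem_ball_zero_iff.1 hz.2)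
    obtain ⟨a, ha, V, D₁, hV, hKV, hD₁, hVD, ha0, hso, -, hrad, -⟩ := exists_radGauge hΩ hG hskew
      (isCompact_singleton (x := z.1)) (norm_nonneg z.2) hsub
    exact ⟨a, V, D₁, ha, hV, hKV rfl, hD₁, hVD, ha0, hso, hrad⟩
  choose! a V D₁ ha hV hzV hzD hVD ha0 hso hrad using key
  -- two local solutions agree
  have agree : ∀ z ∈ U ×ˢ ball (0 : Eu4) D, ∀ w ∈ U ×ˢ ball (0 : Eu4) D,
      w ∈ V z ×ˢ ball (0 : Eu4) (D₁ z) → a w w = a z w := by
    intro z hz w hw hwz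
    let R := min (D₁ w) (D₁ z)
    have hwR : w.2 ∈ ball (0 : Eu4) R := by
      rw [mem_ball_zero_iff]
      exact lt_min (hzD w hw) (mem_ball_zero_iff.1 hwz.2)
    have hsl : ∀ b : P × Eu4 → Mat4, ContDiff ℝ ∞ b → Differentiable ℝ fun v => b (w.1, v) :=
      fun b hb => (hb.comp (contDiff_const.prodMk contDiff_id)).differentiable (by simp)
    have hgc : ContinuousOn (fun v => G (w.1, v)) (ball (0 : Eu4) R) := by
      refine hG.continuousOn.comp (Continuous.continuousOn (by fun_prop)) fun v hv => ?_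
      exact hVD w hw ⟨hzV w hw, ball_subset_ball (min_le_left _ _) hv⟩
    have h1 := radial_unique hgc (a := fun v => a w (w.1, v)) (b := fun v => a z (w.1, v))
      (hsl _ (ha w hw)).differentiableOn (hsl _ (ha z hz)).differentiableOn
      (fun v hv => hrad w hw (w.1, v) ⟨hzV w hw, ball_subset_ball (min_le_left _ _) hv⟩)
      (fun v hv => hrad z hz (w.1, v) ⟨hwz.1, ball_subset_ball (min_le_right _ _) hv⟩)
      (by rw [ha0 w hw _ (hzV w hw), ha0 z hz _ hwz.1]) w.2 hwR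
    exact h1
  let A : P × Eu4 → Mat4 := fun z => a z z
  have hloc : ∀ z ∈ U ×ˢ ball (0 : Eu4) D, ∀ w ∈ V z ×ˢ ball (0 : Eu4) (D₁ z), A w = a z w :=
    fun z hz w hw => agree z hz w (hVD z hz hw) hw
  have hnhds : ∀ z ∈ U ×ˢ ball (0 : Eu4) D, V z ×ˢ ball (0 : Eu4) (D₁ z) ∈ 𝓝 z := fun z hz =>
    ((hV z hz).prod isOpen_ball).mem_nhds ⟨hzV z hz, mem_ball_zero_iff.2 (hzD z hz)⟩
  refine ⟨A, fun z hz => ?_, fun z hz => ?_, fun y hy => ?_, fun z hz => ?_⟩
  · have h1 : A =ᶠ[𝓝 z] a z := by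
      filter_upwards [hnhds z hz] with w hw
      exact hloc z hz w hw
    exact ((ha z hz).contDiffAt.congr_of_eventuallyEq h1).contDiffWithinAt
  · exact hso z hz z ⟨hzV z hz, mem_ball_zero_iff.2 (hzD z hz)⟩
  · have h0 : (y, (0 : Eu4)) ∈ U ×ˢ ball (0 : Eu4) D := ⟨hy, mem_ball_self hD⟩
    exact ha0 _ h0 y (hzV _ h0)
  · have h1 : (fun v => A (z.1, v)) =ᶠ[𝓝 z.2] fun v => a z (z.1, v) := by
      have h2 : ContinuousAt (fun v : Eu4 => (z.1, v)) z.2 := by fun_prop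
      filter_upwards [h2 (hnhds z hz)] with v hv
      exact hloc z hz _ hv
    rw [h1.fderiv_eq]
    exact hrad z hz z ⟨hzV z hz, mem_ball_zero_iff.2 (hzD z hz)⟩

end

end Vale.Agent.P211.HK
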