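import Mathlib

/-! P211 / HK / REG, part 2 (helper674): from the integrated Duhamel formula to a formula almost
everywhere (measure theory only). -/

namespace Vale.Agent.P211.HK

open Filter Topology MeasureTheory Set
open scoped RealInnerProductSpace

noncomputable section

set_option linter.unusedSectionVars false

namespace RegAe

variable {M W : Type*} [MeasurableSpace M] [NormedAddCommGroup W] [InnerProductSpace ℝ W]
  [FiniteDimensional ℝ W] {μ : Measure M} [IsFiniteMeasure μ]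

theorem measurable_adj {X : Type*} [MeasurableSpace X] {k : X → W →L[ℝ] W} {b : X → W}
    (hk : StronglyMeasurable k) (hb : StronglyMeasurable b) :
    StronglyMeasurable fun x => ContinuousLinearMap.adjoint (k x) (b x) := by
  have h1 : StronglyMeasurable fun x => ContinuousLinearMap.adjoint (k x) :=
    ((ContinuousLinearMap.adjoint (𝕜 := ℝ) (E := W) (F := W)).continuous).comp_stronglyMeasurable hk
  have h2 : Continuous fun z : (W →L[ℝ] W) × W => z.1 z.2 := by fun_prop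
  exact h2.comp_stronglyMeasurable (h1.prodMk hb)

theorem norm_adj_le (k : W →L[ℝ] W) (b : W) {C : ℝ} (h : ‖k‖ ≤ C) : ‖ContinuousLinearMap.adjoint k b‖ ≤ C * ‖b‖ := by
  calc ‖ContinuousLinearMap.adjoint k b‖ ≤ ‖ContinuousLinearMap.adjoint k‖ * ‖b‖ := ContinuousLinearMap.le_opNorm _ _
    _ = ‖k‖ * ‖b‖ := by rw [LinearIsometryEquiv.norm_map]
    _ ≤ C * ‖b‖ := by gcongr

/-- one bounded kernel: Fubini -/
theorem fubini {k : M → M → W →L[ℝ] W} (hk : StronglyMeasurable fun p : M × M => k p.1 p.2)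
    {C : ℝ} (hC : ∀ x y, ‖k x y‖ ≤ C) {b w : M → W} (hb : StronglyMeasurable b)
    (hbi : Integrable b μ) (hw : AEStronglyMeasurable w μ) (hwi : Integrable w μ) :
    ∫ x, ⟪b x, ∫ y, k x y (w y) ∂μ⟫ ∂μ = ∫ y, ⟪∫ x, ContinuousLinearMap.adjoint (k x y) (b x) ∂μ, w y⟫ ∂μ := by
  have hm : AEStronglyMeasurable (fun p : M × M => ⟪b p.1, k p.1 p.2 (w p.2)⟫) (μ.prod μ) := by
    have h2 : Continuous fun z : W × (W →L[ℝ] W) × W => ⟪z.1, z.2.1 z.2.2⟫ := by fun_prop
    have hb1 : AEStronglyMeasurable (fun p : M × M => b p.1) (μ.prod μ) :=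
      (hb.comp_measurable measurable_fst).aestronglyMeasurable
    have hw1 : AEStronglyMeasurable (fun p : M × M => w p.2) (μ.prod μ) :=
      hw.comp_quasiMeasurePreserving Measure.quasiMeasurePreserving_snd
    exact h2.comp_aestronglyMeasurable (hb1.prodMk (hk.aestronglyMeasurable.prodMk hw1))
  have hi : Integrable (fun p : M × M => ⟪b p.1, k p.1 p.2 (w p.2)⟫) (μ.prod μ) := by
    refine Integrable.mono' ((hbi.norm.mul_prod hwi.norm).const_mul C) hm
      (Filter.Eventually.of_forall fun p => ?_)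
    rw [Real.norm_eq_abs]
    calc |⟪b p.1, k p.1 p.2 (w p.2)⟫| ≤ ‖b p.1‖ * ‖k p.1 p.2 (w p.2)‖ := abs_real_inner_le_norm _ _
      _ ≤ ‖b p.1‖ * (C * ‖w p.2‖) := by
          gcongr
          exact ContinuousLinearMap.le_of_opNorm_le _ (hC _ _) _
      _ = C * (‖b p.1‖ * ‖w p.2‖) := by ring
  have hwy : ∀ x, Integrable (fun y => k x y (w y)) μ := by
    intro x
    have h2 : Continuous fun z : (W →L[ℝ] W) × W => z.1 z.2 := by fun_prop
    refine Integrable.mono' (hwi.norm.const_mul C) ?_ (Filter.Eventually.of_forall fun y =>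
      ContinuousLinearMap.le_of_opNorm_le _ (hC _ _) _)
    exact h2.comp_aestronglyMeasurable
      ((hk.comp_measurable measurable_prodMk_left).aestronglyMeasurable.prodMk hw)
  have hbx : ∀ y, Integrable (fun x => ContinuousLinearMap.adjoint (k x y) (b x)) μ := by
    intro y
    refine Integrable.mono' (hbi.norm.const_mul C) ?_ (Filter.Eventually.of_forall fun x =>
      norm_adj_le _ _ (hC _ _))
    exact (measurable_adj (hk.comp_measurable measurable_prodMk_right) hb).aestronglyMeasurable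
  calc ∫ x, ⟪b x, ∫ y, k x y (w y) ∂μ⟫ ∂μ
      = ∫ x, ∫ y, ⟪b x, k x y (w y)⟫ ∂μ ∂μ :=
        integral_congr_ae (Filter.Eventually.of_forall fun x =>
          (integral_inner (𝕜 := ℝ) (hwy x) (b x)).symm)
    _ = ∫ y, ∫ x, ⟪b x, k x y (w y)⟫ ∂μ ∂μ := integral_integral_swap hi
    _ = ∫ y, ⟪∫ x, ContinuousLinearMap.adjoint (k x y) (b x) ∂μ, w y⟫ ∂μ := by
        refine integral_congr_ae (Filter.Eventually.of_forall fun y => ?_)
        simp only
        rw [real_inner_comm, ← integral_inner (𝕜 := ℝ) (hbx y) (w y)]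
        refine integral_congr_ae (Filter.Eventually.of_forall fun x => ?_)
        simp only
        rw [ContinuousLinearMap.adjoint_inner_right, real_inner_comm]

/-- the transposed kernel applied to `b` -/
def bet (μ : Measure M) (z : M → M → W →L[ℝ] W) (b : M → W) (y : M) : W :=
  ∫ x, ContinuousLinearMap.adjoint (z x y) (b x) ∂μ

theorem bet_meas {z : M → M → W →L[ℝ] W} {b : M → W}
    (hz : StronglyMeasurable fun p : M × M => z p.1 p.2) (hb : StronglyMeasurable b) :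
    StronglyMeasurable (bet μ z b) := by
  have h1 : StronglyMeasurable fun p : M × M => ContinuousLinearMap.adjoint (z p.2 p.1) (b p.2) :=
    measurable_adj (hz.comp_measurable measurable_swap) (hb.comp_measurable measurable_snd)
  exact h1.integral_prod_right'

theorem bet_meas2 {e : ℝ → M → M → W →L[ℝ] W} {b : M → W}
    (he : StronglyMeasurable fun q : ℝ × M × M => e q.1 q.2.1 q.2.2)
    (hb : StronglyMeasurable b) :
    StronglyMeasurable fun q : ℝ × M => bet μ (e q.1) b q.2 := by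
  have h1 : StronglyMeasurable fun p : (ℝ × M) × M => ContinuousLinearMap.adjoint (e p.1.1 p.2 p.1.2) (b p.2) := by
    refine measurable_adj ?_ (hb.comp_measurable measurable_snd)
    exact he.comp_measurable (g := fun p : (ℝ × M) × M => (p.1.1, p.2, p.1.2)) (by fun_prop)
  exact h1.integral_prod_right'

theorem bet_le {z : M → M → W →L[ℝ] W} {b : M → W} (hbi : Integrable b μ) {C : ℝ}
    (hz : ∀ x y, ‖z x y‖ ≤ C) (y : M) : ‖bet μ z b y‖ ≤ C * ∫ x, ‖b x‖ ∂μ := by
  calc ‖∫ x, ContinuousLinearMap.adjoint (z x y) (b x) ∂μ‖ ≤ ∫ x, C * ‖b x‖ ∂μ :=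
        norm_integral_le_of_norm_le (hbi.norm.const_mul C)
          (Filter.Eventually.of_forall fun x => norm_adj_le _ _ (hz x y))
    _ = C * ∫ x, ‖b x‖ ∂μ := by rw [integral_const_mul]

/-- pairing of a bounded function with an integrable one -/
theorem integrable_pair {g w : M → W} {B : ℝ} (hg : StronglyMeasurable g) (hgB : ∀ y, ‖g y‖ ≤ B)
    (hw : Integrable w μ) : Integrable (fun y => ⟪g y, w y⟫) μ := by
  refine Integrable.mono' (hw.norm.const_mul B)
    (hg.aestronglyMeasurable.inner (𝕜 := ℝ) hw.aestronglyMeasurable)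
    (Filter.Eventually.of_forall fun y => ?_)
  rw [Real.norm_eq_abs]
  exact (abs_real_inner_le_norm _ _).trans (by gcongr; exact hgB y)

/-- measurability and bound of the time integral -/
theorem time_int {ε : ℝ → M → W} (hε : StronglyMeasurable fun q : ℝ × M => ε q.1 q.2) {B : ℝ}
    (hεB : ∀ s y, ‖ε s y‖ ≤ B) {t : ℝ} (ht : t ∈ Ioo (0 : ℝ) 1) {k : ℝ → ℝ} (hk : Continuous k)
    {K : ℝ} (hK : ∀ s ∈ Icc (0 : ℝ) 1, ‖k s‖ ≤ K) :
    (StronglyMeasurable fun y => ∫ s in (0 : ℝ)..t, k s • ε s y) ∧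
    (∀ y, ‖∫ s in (0 : ℝ)..t, k s • ε s y‖ ≤ K * B * |t - 0|) ∧
    (∀ y, Integrable (fun s => k s • ε s y) (volume.restrict (Ioc 0 t))) := by
  have hK0 : 0 ≤ K := (norm_nonneg _).trans (hK 0 (by norm_num))
  refine ⟨?_, fun y => ?_, fun y => ?_⟩
  · have h1 : StronglyMeasurable fun q : M × ℝ => k q.2 • ε q.2 q.1 :=
      (hk.stronglyMeasurable.comp_measurable measurable_snd).smul
        (hε.comp_measurable measurable_swap)
    have h2 : StronglyMeasurable fun y => ∫ s, k s • ε s y ∂(volume.restrict (Ioc 0 t)) :=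
      h1.integral_prod_right'
    have h3 : (fun y => ∫ s in (0 : ℝ)..t, k s • ε s y) =
        fun y => ∫ s, k s • ε s y ∂(volume.restrict (Ioc 0 t)) := by
      funext y
      rw [intervalIntegral.integral_of_le ht.1.le]
    rw [h3]
    exact h2
  · refine intervalIntegral.norm_integral_le_of_norm_le_const fun s hs => ?_
    rw [uIoc_of_le ht.1.le] at hs
    rw [norm_smul]
    exact mul_le_mul (hK s ⟨hs.1.le, hs.2.trans ht.2.le⟩) (hεB s y) (norm_nonneg _) hK0
  · refine Integrable.mono' (integrable_const (K * B)) ?_ ?_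
    · exact (hk.stronglyMeasurable.smul
        (hε.comp_measurable (g := fun s : ℝ => (s, y)) (by fun_prop))).aestronglyMeasurable
    · filter_upwards [ae_restrict_mem measurableSet_Ioc] with s hs
      rw [norm_smul]
      exact mul_le_mul (hK s ⟨hs.1.le, hs.2.trans ht.2.le⟩) (hεB s y) (norm_nonneg _) hK0

/-- Fubini in time -/
theorem time_fubini {ε : ℝ → M → W} (hε : StronglyMeasurable fun q : ℝ × M => ε q.1 q.2) {B : ℝ}
    (hεB : ∀ s y, ‖ε s y‖ ≤ B) {t : ℝ} (ht : t ∈ Ioo (0 : ℝ) 1) {k : ℝ → ℝ} (hk : Continuous k)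
    {K : ℝ} (hK : ∀ s ∈ Icc (0 : ℝ) 1, ‖k s‖ ≤ K) {w : M → W} (hw : Integrable w μ) :
    (∫ s in (0 : ℝ)..t, k s * ∫ y, ⟪ε s y, w y⟫ ∂μ) =
      ∫ y, ⟪∫ s in (0 : ℝ)..t, k s • ε s y, w y⟫ ∂μ := by
  have hK0 : 0 ≤ K := (norm_nonneg _).trans (hK 0 (by norm_num))
  have h3 : Integrable (fun q : ℝ × M => k q.1 * ⟪ε q.1 q.2, w q.2⟫)
      ((volume.restrict (Ioc 0 t)).prod μ) := by
    have hwm2 : AEStronglyMeasurable (fun q : ℝ × M => w q.2)
        ((volume.restrict (Ioc 0 t)).prod μ) :=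
      hw.aestronglyMeasurable.comp_quasiMeasurePreserving Measure.quasiMeasurePreserving_snd
    have hmm : AEStronglyMeasurable (fun q : ℝ × M => k q.1 * ⟪ε q.1 q.2, w q.2⟫)
        ((volume.restrict (Ioc 0 t)).prod μ) :=
      ((hk.stronglyMeasurable.comp_measurable measurable_fst).aestronglyMeasurable).mul
        (hε.aestronglyMeasurable.inner (𝕜 := ℝ) hwm2)
    have hone : Integrable (fun _ : ℝ => K * B) (volume.restrict (Ioc 0 t)) :=
      integrable_const _
    refine Integrable.mono' (hone.mul_prod hw.norm) hmm ?_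
    have hae : ∀ᵐ q : ℝ × M ∂((volume.restrict (Ioc 0 t)).prod μ), q.1 ∈ Ioc (0 : ℝ) t :=
      Measure.quasiMeasurePreserving_fst.ae (ae_restrict_mem measurableSet_Ioc)
    filter_upwards [hae] with q hq
    rw [norm_mul, Real.norm_eq_abs ⟪_, _⟫]
    calc ‖k q.1‖ * |⟪ε q.1 q.2, w q.2⟫| ≤ K * (B * ‖w q.2‖) := by
          refine mul_le_mul (hK _ ⟨hq.1.le, hq.2.trans ht.2.le⟩) ?_ (abs_nonneg _) hK0
          exact (abs_real_inner_le_norm _ _).trans (by gcongr; exact hεB _ _)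
      _ = K * B * ‖w q.2‖ := by ring
  have h5 : ∀ s, k s * (∫ y, ⟪ε s y, w y⟫ ∂μ) = ∫ y, k s * ⟪ε s y, w y⟫ ∂μ := fun s =>
    (integral_const_mul _ _).symm
  simp_rw [h5]
  rw [intervalIntegral.integral_of_le ht.1.le, integral_integral_swap h3]
  refine integral_congr_ae (Filter.Eventually.of_forall fun y => ?_)
  simp only
  rw [real_inner_comm, intervalIntegral.integral_of_le ht.1.le,
    ← integral_inner (𝕜 := ℝ) ((time_int hε hεB ht hk hK).2.2 y) (w y)]
  refine integral_congr_ae (Filter.Eventually.of_forall fun s => ?_)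
  simp only
  rw [real_inner_smul_right, real_inner_comm]

/-- an `L²` function is determined by its pairings -/
theorem eq_of_pair (b : Lp W 2 μ) {G : M → W} (hGm : StronglyMeasurable G) {B : ℝ}
    (hGB : ∀ y, ‖G y‖ ≤ B) (H : ∀ w : Lp W 2 μ, ⟪b, w⟫ = ∫ y, ⟪G y, w y⟫ ∂μ) :
    (b : M → W) =ᵐ[μ] G := by
  have hGL : MemLp G 2 μ :=
    MemLp.of_bound hGm.aestronglyMeasurable _ (Filter.Eventually.of_forall hGB)
  have hGb : b = hGL.toLp G := by
    have h1 : ∀ w : Lp W 2 μ, ⟪b - hGL.toLp G, w⟫ = 0 := by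
      intro w
      rw [inner_sub_left, H w, L2.inner_def, sub_eq_zero]
      refine integral_congr_ae ?_
      filter_upwards [hGL.coeFn_toLp] with y hy
      rw [hy]
    have h2 := h1 (b - hGL.toLp G)
    rw [inner_self_eq_zero (𝕜 := ℝ), sub_eq_zero] at h2
    exact h2
  have := hGL.coeFn_toLp
  rwa [← hGb] at this

/-- version with a jointly measurable bounded error kernel -/
theorem ae_rep_aux (b : Lp W 2 μ) {z : M → M → W →L[ℝ] W} {e : ℝ → M → M → W →L[ℝ] W}
    (hz : StronglyMeasurable fun p : M × M => z p.1 p.2)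
    (he : StronglyMeasurable fun q : ℝ × M × M => e q.1 q.2.1 q.2.2)
    {C : ℝ} (hzC : ∀ x y, ‖z x y‖ ≤ C) (heC : ∀ s x y, ‖e s x y‖ ≤ C)
    (c : ℝ) {t : ℝ} (ht : t ∈ Ioo (0 : ℝ) 1) {k : ℝ → ℝ} (hk : Continuous k)
    (H : ∀ w : Lp W 2 μ, ⟪b, w⟫ = c * (∫ x, ⟪b x, ∫ y, z x y (w y) ∂μ⟫ ∂μ) -
      ∫ s in (0 : ℝ)..t, k s * ∫ x, ⟪b x, ∫ y, e s x y (w y) ∂μ⟫ ∂μ) :
    ∀ᵐ y ∂μ, b y = c • bet μ z b y - ∫ s in (0 : ℝ)..t, k s • bet μ (e s) b y := by
  have hbm : StronglyMeasurable (b : M → W) := Lp.stronglyMeasurable b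
  have hbi : Integrable (b : M → W) μ := (Lp.memLp b).integrable (by norm_num)
  have hβm := bet_meas (μ := μ) hz hbm
  have hεm := bet_meas2 (μ := μ) he hbm
  have hβB := bet_le hbi hzC
  have hεB : ∀ s y, ‖bet μ (e s) b y‖ ≤ C * ∫ x, ‖b x‖ ∂μ := fun s => bet_le hbi (heC s)
  obtain ⟨K, hK⟩ := (isCompact_Icc (a := (0 : ℝ)) (b := 1)).exists_bound_of_continuousOn
    hk.continuousOn
  obtain ⟨hIm, hIB, -⟩ := time_int hεm hεB ht hk hK
  refine eq_of_pair b ((hβm.const_smul c).sub hIm)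
    (B := |c| * (C * ∫ x, ‖b x‖ ∂μ) + K * (C * ∫ x, ‖b x‖ ∂μ) * |t - 0|) (fun y => ?_)
    fun w => ?_
  · refine (norm_sub_le _ _).trans (add_le_add ?_ (hIB y))
    rw [norm_smul, Real.norm_eq_abs]
    exact mul_le_mul_of_nonneg_left (hβB y) (abs_nonneg _)
  · have hwi : Integrable (w : M → W) μ := (Lp.memLp w).integrable (by norm_num)
    have h1 : (∫ x, ⟪b x, ∫ y, z x y (w y) ∂μ⟫ ∂μ) = ∫ y, ⟪bet μ z b y, w y⟫ ∂μ :=
      fubini hz hzC hbm hbi hwi.aestronglyMeasurable hwi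
    rw [H w, h1]
    have h2 : ∀ s, (∫ x, ⟪b x, ∫ y, e s x y (w y) ∂μ⟫ ∂μ) =
        ∫ y, ⟪bet μ (e s) b y, w y⟫ ∂μ := fun s =>
      fubini (he.comp_measurable (g := fun p : M × M => (s, p.1, p.2)) (by fun_prop)) (heC s)
        hbm hbi hwi.aestronglyMeasurable hwi
    simp_rw [h2]
    rw [time_fubini hεm hεB ht hk hK hwi, ← integral_const_mul,
      ← integral_sub ((integrable_pair hβm hβB hwi).const_mul c) (integrable_pair hIm hIB hwi)]
    refine integral_congr_ae (Filter.Eventually.of_forall fun y => ?_)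
    simp only
    rw [inner_sub_left, real_inner_smul_left]

/-- From the integrated Duhamel formula to a formula almost everywhere. -/
theorem ae_rep (b : Lp W 2 μ) {z : M → M → W →L[ℝ] W} {e : ℝ → M → M → W →L[ℝ] W}
    (hz : StronglyMeasurable fun p : M × M => z p.1 p.2)
    (he : ∀ s ∈ Icc (0 : ℝ) 1, StronglyMeasurable fun p : M × M => e s p.1 p.2)
    (hec : ∀ x y, ContinuousOn (fun s => e s x y) (Icc 0 1))
    {C : ℝ} (hzC : ∀ x y, ‖z x y‖ ≤ C) (heC : ∀ s ∈ Icc (0 : ℝ) 1, ∀ x y, ‖e s x y‖ ≤ C)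
    (c : ℝ) {t : ℝ} (ht : t ∈ Ioo (0 : ℝ) 1) {k : ℝ → ℝ} (hk : Continuous k)
    (H : ∀ w : Lp W 2 μ, ⟪b, w⟫ = c * (∫ x, ⟪b x, ∫ y, z x y (w y) ∂μ⟫ ∂μ) -
      ∫ s in (0 : ℝ)..t, k s * ∫ x, ⟪b x, ∫ y, e s x y (w y) ∂μ⟫ ∂μ) :
    ∀ᵐ y ∂μ, b y = c • (∫ x, ContinuousLinearMap.adjoint (z x y) (b x) ∂μ) -
      ∫ s in (0 : ℝ)..t, k s • ∫ x, ContinuousLinearMap.adjoint (e s x y) (b x) ∂μ := by
  have hpe : ∀ s ∈ uIcc (0 : ℝ) t, e (projIcc (0 : ℝ) 1 zero_le_one s) = e s := by
    intro s hs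
    rw [uIcc_of_le ht.1.le] at hs
    rw [projIcc_of_mem zero_le_one ⟨hs.1, hs.2.trans ht.2.le⟩]
  have hjoint : StronglyMeasurable fun q : ℝ × M × M =>
      e (projIcc (0 : ℝ) 1 zero_le_one q.1) q.2.1 q.2.2 :=
    stronglyMeasurable_uncurry_of_continuous_of_stronglyMeasurable
      (u := fun (s : ℝ) (p : M × M) => e (projIcc (0 : ℝ) 1 zero_le_one s) p.1 p.2)
      (fun p => (continuousOn_iff_continuous_domRestrict.1 (hec p.1 p.2)).comp continuous_projIcc)
      (fun s => he _ (projIcc (0 : ℝ) 1 zero_le_one s).2)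
  have h := ae_rep_aux b (z := z) (e := fun s => e (projIcc (0 : ℝ) 1 zero_le_one s)) hz hjoint
    hzC (fun s => heC _ (projIcc (0 : ℝ) 1 zero_le_one s).2) c ht hk (fun w => by
      rw [H w]
      congr 1
      refine intervalIntegral.integral_congr fun s hs => ?_
      have := hpe s hs
      simp only [this])
  filter_upwards [h] with y hy
  rw [hy]
  unfold bet
  congr 1
  refine intervalIntegral.integral_congr fun s hs => ?_
  have := hpe s hs
  simp only [this]

end RegAe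

end

end Vale.Agent.P211.HK
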