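import Vale.Agent.P211.HK.RegGlue
import Vale.Agent.P211.HK.RegAe

/-! P211 / HK / REG (helper674): weak eigenvectors are smooth sections.

`LocDuh` is Duhamel's formula for `b` with kernels which are smooth near `p₀` in the source
variable; `reg_main` : if such data exist at every point and for every order `n`, then `b` is
represented by an element of `Sec om R`. -/

set_option maxSynthPendingDepth 3
set_option linter.unusedSectionVars false

namespace Vale.Agent.P211.HK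

open scoped Manifold ContDiff Topology RealInnerProductSpace
open Bundle Filter VectorField MeasureTheory Set

noncomputable section

variable {W : Type} [NormedAddCommGroup W] [InnerProductSpace ℝ W] [FiniteDimensional ℝ W]

namespace Reg

theorem rho_tr_rho (R : Rep W) {g : Mat4} (hg : IsSO g) (w : W) :
    R.ρ (trM g) (R.ρ g w) = w := by
  have h1 : mulM (trM g) g = idM := hg.1
  have h2 := R.mul (trM g) g hg.tr hg
  rw [h1, R.one] at h2
  exact (congrArg (fun A : W →L[ℝ] W => A w) h2).symm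

theorem rho_rho_tr (R : Rep W) {g : Mat4} (hg : IsSO g) (w : W) :
    R.ρ g (R.ρ (trM g) w) = w := by
  have := rho_tr_rho R hg.tr w
  rwa [trM_trM] at this

/-- the adjoint of `ρ g` is `ρ gᵀ` -/
theorem adj_rho (R : Rep W) {g : Mat4} (hg : IsSO g) : ContinuousLinearMap.adjoint (R.ρ g) = R.ρ (trM g) := by
  symm
  rw [ContinuousLinearMap.eq_adjoint_iff]
  intro v w
  have := R.inner g hg (R.ρ (trM g) v) w
  rw [rho_rho_tr R hg] at this
  exact this.symm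

/-- `ρ gᵀ` as a continuous linear equivalence -/
def rhoE (R : Rep W) {g : Mat4} (hg : IsSO g) : W ≃L[ℝ] W :=
  ContinuousLinearEquiv.equivOfInverse (R.ρ (trM g)) (R.ρ g)
    (fun w => rho_rho_tr R hg w) (fun w => rho_tr_rho R hg w)

theorem rhoE_apply (R : Rep W) {g : Mat4} (hg : IsSO g) (w : W) :
    rhoE R hg w = R.ρ (trM g) w := rfl

end Reg

open Reg

variable {E : Type} [NormedAddCommGroup E] [NormedSpace ℝ E] [FiniteDimensional ℝ E]
  {M : Type} [TopologicalSpace M] [ChartedSpace E M] [IsManifold 𝓘(ℝ, E) ∞ M] [T2Space M]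
  [RiemannianBundle fun p : M => TangentSpace 𝓘(ℝ, E) p]
  [IsContMDiffRiemannianBundle 𝓘(ℝ, E) ∞ E fun p : M => TangentSpace 𝓘(ℝ, E) p]
  {cov : CovariantDerivative 𝓘(ℝ, E) E (TangentSpace 𝓘(ℝ, E) : M → Type)}
  {om : Form4 E M}

variable [CompactSpace M] [MeasurableSpace M] [BorelSpace M] {μ : Measure M}

/-- Duhamel's formula for `b` with kernels smooth in the source variable near `p₀` -/
structure LocDuh (om : Form4 E M) (R : Rep W) (fr : (p : M) → Fin 4 → TangentSpace 𝓘(ℝ, E) p)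
    (b : Lp W 2 μ) (l : ℝ) (p₀ : M) (n : ℕ) where
  t : ℝ
  ht : t ∈ Ioo (0 : ℝ) 1
  z : M → M → W →L[ℝ] W
  e : ℝ → M → M → W →L[ℝ] W
  z_meas : StronglyMeasurable fun p : M × M => z p.1 p.2
  e_meas : ∀ s ∈ Icc (0 : ℝ) 1, StronglyMeasurable fun p : M × M => e s p.1 p.2
  e_cont : ∀ x y, ContinuousOn (fun s => e s x y) (Icc 0 1)
  C : ℝ
  z_le : ∀ x y, ‖z x y‖ ≤ C
  e_le : ∀ s ∈ Icc (0 : ℝ) 1, ∀ x y, ‖e s x y‖ ≤ C
  duh : ∀ w : Lp W 2 μ, ⟪b, w⟫ = Real.exp (l * t) * (∫ x, ⟪b x, ∫ y, z x y (w y) ∂μ⟫ ∂μ) -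
    ∫ s in (0 : ℝ)..t, Real.exp (l * s) * ∫ x, ⟪b x, ∫ y, e s x y (w y) ∂μ⟫ ∂μ
  V : Set M
  V_open : IsOpen V
  mem : p₀ ∈ V
  F : Fin 4 → VF E M
  pon : ∀ p ∈ V, PONnear om p F
  O₁ : Set ℝ
  O₂ : Set ℝ
  O₁_open : IsOpen O₁
  O₂_open : IsOpen O₂
  t_mem : t ∈ O₁
  Icc_sub : Icc 0 t ⊆ O₂
  Kz : ℝ → PreK E M W W
  Ke : ℝ → PreK E M W W
  smz : SmK om R n O₁ V Kz
  sme : SmK om R n O₂ V Ke
  z_eq : ∀ x, ∀ y ∈ V, z x y =
    (Kz t x (fr x) y).comp (R.ρ (trM (matF (fr y) fun i => F i y)))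
  e_eq : ∀ s ∈ Icc (0 : ℝ) t, ∀ x, ∀ y ∈ V, e s x y =
    (Ke s x (fr x) y).comp (R.ρ (trM (matF (fr y) fun i => F i y)))

/-- the local representative -/
theorem LocDuh.local_rep [IsFiniteMeasure μ] (h : Geo4 cov om) (h2e : LK2eStmt cov om μ)
    {R : Rep W} {fr : (p : M) → Fin 4 → TangentSpace 𝓘(ℝ, E) p} (hfr : Nonempty (FrSel om fr))
    (hpon : ∀ p, PON om p (fr p)) {b : Lp W 2 μ} {l : ℝ} {p₀ : M} {n : ℕ}
    (Q : LocDuh om R fr b l p₀ n) :
    ∃ (V : Set M) (F : Fin 4 → VF E M) (g : M → W), IsOpen V ∧ p₀ ∈ V ∧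
      (∀ p ∈ V, PONnear om p F) ∧ ContMDiffOn 𝓘(ℝ, E) 𝓘(ℝ, W) (n : WithTop ℕ∞) g V ∧
      ∀ᵐ y ∂μ, y ∈ V → g y = R.ρ (trM (matF (fr y) fun i => F i y)) (b y) := by
  have hbi : Integrable (b : M → W) μ := (Lp.memLp b).integrable (by norm_num)
  have hexp' : ContDiff ℝ ∞ fun s : ℝ => Real.exp (l * s) := by fun_prop
  have hexp : Continuous fun s : ℝ => Real.exp (l * s) := hexp'.continuous
  have h1 := (h2e h inferInstance W W R fr hfr (n : ℕ∞) Q.O₁ Q.V Q.Kz Q.O₁_open Q.V_open Q.smz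
    b hbi).1 Q.t Q.t_mem
  have h2 := (h2e h inferInstance W W R fr hfr (n : ℕ∞) Q.O₂ Q.V Q.Ke Q.O₂_open Q.V_open Q.sme
    b hbi).2 0 Q.t Q.ht.1.le Q.Icc_sub _ hexp'
  refine ⟨Q.V, Q.F, fun y => Real.exp (l * Q.t) •
      (∫ x, ContinuousLinearMap.adjoint (Q.Kz Q.t x (fr x) y) (b x) ∂μ) -
      ∫ s in (0 : ℝ)..Q.t, Real.exp (l * s) • ∫ x, ContinuousLinearMap.adjoint (Q.Ke s x (fr x) y) (b x) ∂μ,
    Q.V_open, Q.mem, Q.pon, ?_, ?_⟩
  · have h3 : ContMDiffOn 𝓘(ℝ, E) 𝓘(ℝ, W) (n : WithTop ℕ∞) (fun y => Real.exp (l * Q.t) •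
        (∫ x, ContinuousLinearMap.adjoint (Q.Kz Q.t x (fr x) y) (b x) ∂μ)) Q.V := by
      have hc : ContDiff ℝ (n : WithTop ℕ∞) (fun w : W => Real.exp (l * Q.t) • w) :=
        contDiff_const_smul _
      exact hc.contMDiff.comp_contMDiffOn h1
    exact h3.sub h2
  · have h3 := RegAe.ae_rep b Q.z_meas Q.e_meas Q.e_cont Q.z_le Q.e_le (Real.exp (l * Q.t))
      Q.ht hexp Q.duh
    filter_upwards [h3] with y hy hyV
    set c : Mat4 := trM (matF (fr y) fun i => Q.F i y) with hc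
    have hcSO : IsSO c := (matF_spec h (hpon y) (Q.pon y hyV).pon).1.tr
    have h4 : (∫ x, ContinuousLinearMap.adjoint (Q.z x y) (b x) ∂μ) =
        R.ρ (trM c) (∫ x, ContinuousLinearMap.adjoint (Q.Kz Q.t x (fr x) y) (b x) ∂μ) := by
      rw [← rhoE_apply R hcSO, ← ContinuousLinearEquiv.integral_comp_comm]
      refine integral_congr_ae (Filter.Eventually.of_forall fun x => ?_)
      simp only
      rw [Q.z_eq x y hyV, ContinuousLinearMap.adjoint_comp, adj_rho R hcSO]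
      rfl
    have h5 : (∫ s in (0 : ℝ)..Q.t, Real.exp (l * s) • ∫ x, ContinuousLinearMap.adjoint (Q.e s x y) (b x) ∂μ) =
        R.ρ (trM c) (∫ s in (0 : ℝ)..Q.t, Real.exp (l * s) •
          ∫ x, ContinuousLinearMap.adjoint (Q.Ke s x (fr x) y) (b x) ∂μ) := by
      rw [intervalIntegral.integral_of_le Q.ht.1.le, intervalIntegral.integral_of_le Q.ht.1.le,
        ← rhoE_apply R hcSO, ← ContinuousLinearEquiv.integral_comp_comm]
      refine setIntegral_congr_fun measurableSet_Ioc fun s hs => ?_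
      have h6 : (∫ x, ContinuousLinearMap.adjoint (Q.e s x y) (b x) ∂μ) =
          rhoE R hcSO (∫ x, ContinuousLinearMap.adjoint (Q.Ke s x (fr x) y) (b x) ∂μ) := by
        rw [← ContinuousLinearEquiv.integral_comp_comm]
        refine integral_congr_ae (Filter.Eventually.of_forall fun x => ?_)
        simp only
        rw [Q.e_eq s ⟨hs.1.le, hs.2⟩ x y hyV, ContinuousLinearMap.adjoint_comp, adj_rho R hcSO]
        rfl
      change Real.exp (l * s) • (∫ x, ContinuousLinearMap.adjoint (Q.e s x y) (b x) ∂μ) =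
        rhoE R hcSO (Real.exp (l * s) • ∫ x, ContinuousLinearMap.adjoint (Q.Ke s x (fr x) y) (b x) ∂μ)
      rw [h6, map_smul]
    rw [hy, h4, h5, map_sub, map_smul, rho_rho_tr R hcSO, rho_rho_tr R hcSO]

/-- REG: an `L²` section with Duhamel formulas of every order near every point is smooth. -/
theorem reg_main [IsFiniteMeasure μ] [μ.IsOpenPosMeasure] (h : Geo4 cov om)
    (h2e : LK2eStmt cov om μ) (h2f : LK2fStmt cov om μ)
    {R : Rep W} {fr : (p : M) → Fin 4 → TangentSpace 𝓘(ℝ, E) p} (hfr : Nonempty (FrSel om fr))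
    (hpon : ∀ p, PON om p (fr p)) (b : Lp W 2 μ) (l : ℝ)
    (Q : ∀ (p₀ : M) (n : ℕ), Nonempty (LocDuh om R fr b l p₀ n)) :
    ∃ u ∈ Sec (E := E) om R, ∀ᵐ y ∂μ, u y (fr y) = b y := by
  have hn : ∀ n : ℕ, ∃ u ∈ SecN (E := E) om R (n : WithTop ℕ∞), ∀ᵐ y ∂μ, u y (fr y) = b y :=
    fun n => glueN h R (by exact_mod_cast le_top) fr hpon b fun p₀ =>
      (Q p₀ n).some.local_rep h h2e hfr hpon
  choose u hu hb using hn
  obtain ⟨-, hf2, hf3⟩ := h2f h inferInstance W R fr hfr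
  have hle : ∀ n : ℕ, SecN (E := E) om R (n : WithTop ℕ∞) ⊆ SecN (E := E) om R 0 := by
    rintro n v ⟨hv1, hv2, hv3⟩
    exact ⟨hv1, hv2, fun F p hF => (hv3 F p hF).of_le (by exact_mod_cast Nat.zero_le n)⟩
  have heq : ∀ n, u n = u 0 := by
    intro n
    refine hf2 (u n) (hle n (hu n)) (u 0) (hle 0 (hu 0)) ?_
    filter_upwards [hb n, hb 0] with y h1 h2
    rw [h1, h2]
  refine ⟨u 0, (hf3 (u 0)).2 fun n => ?_, hb 0⟩
  rw [← heq n]
  exact hu n

end

end Vale.Agent.P211.HK
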