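import Vale.Agent.P211.HK.Reg
import Vale.Agent.P211.HK.AN2
import Vale.Agent.P211.HK.KSplit
import Vale.Agent.P211.HK.LK2
import Vale.Agent.P211.HK.Vol

/-! P211 / HK / REG (helper674): Duhamel data from `KernelData`; regularity of weak eigenvectors. -/

set_option maxSynthPendingDepth 3
set_option linter.unusedSectionVars false

namespace Vale.Agent.P211.HK

open scoped Manifold ContDiff Topology RealInnerProductSpace
open Bundle Filter VectorField MeasureTheory Set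

noncomputable section

section abs

variable {M W S : Type} [MeasurableSpace M] [NormedAddCommGroup W] [InnerProductSpace ℝ W]
  [FiniteDimensional ℝ W] [AddCommGroup S] [Module ℝ S] {μ : Measure M} [IsFiniteMeasure μ]

/-- Duhamel's formula in kernel form -/
theorem KernelData.duhamel (K : KernelData (W := W) (S := S) μ) (b : Lp W 2 μ) (l : ℝ)
    (hb : ∀ s, ∫ x, ⟪b x, K.Lf s x⟫ ∂μ = l * ∫ x, ⟪b x, K.ev s x⟫ ∂μ) {t : ℝ}
    (ht : t ∈ Ioo (0 : ℝ) 1) (w : Lp W 2 μ) :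
    ⟪b, w⟫ = Real.exp (l * t) * (∫ x, ⟪b x, ∫ y, K.z t x y (w y) ∂μ⟫ ∂μ) -
      ∫ s in (0 : ℝ)..t, Real.exp (l * s) * ∫ x, ⟪b x, ∫ y, K.e s x y (w y) ∂μ⟫ ∂μ := by
  have h := an2 (Lp W 2 μ) K.heat b l ((K.weakEig_iff_integral b l).2 hb) t ht w
  rw [h]
  have h1 : ⟪b, K.heat.Z t w⟫ = ∫ x, ⟪b x, ∫ y, K.z t x y (w y) ∂μ⟫ ∂μ := by
    rw [L2.inner_def]
    refine integral_congr_ae ?_
    filter_upwards [K.Z_ae ht.1 w] with x hx
    exact congrArg (fun a => ⟪b x, a⟫) hx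
  rw [h1]
  congr 1
  refine intervalIntegral.integral_congr fun s hs => ?_
  rw [uIcc_of_le ht.1.le] at hs
  have h2 : ⟪b, K.heat.E s w⟫ = ∫ x, ⟪b x, ∫ y, K.e s x y (w y) ∂μ⟫ ∂μ := by
    rw [L2.inner_def]
    refine integral_congr_ae ?_
    filter_upwards [K.E_ae (t := s) ⟨hs.1, hs.2.trans ht.2.le⟩ w] with x hx
    exact congrArg (fun a => ⟪b x, a⟫) hx
  rw [h2]

end abs

variable {W : Type} [NormedAddCommGroup W] [InnerProductSpace ℝ W] [FiniteDimensional ℝ W]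

variable {E : Type} [NormedAddCommGroup E] [NormedSpace ℝ E] [FiniteDimensional ℝ E]
  {M : Type} [TopologicalSpace M] [ChartedSpace E M] [IsManifold 𝓘(ℝ, E) ∞ M] [T2Space M]
  [RiemannianBundle fun p : M => TangentSpace 𝓘(ℝ, E) p]
  [IsContMDiffRiemannianBundle 𝓘(ℝ, E) ∞ E fun p : M => TangentSpace 𝓘(ℝ, E) p]
  {cov : CovariantDerivative 𝓘(ℝ, E) E (TangentSpace 𝓘(ℝ, E) : M → Type)}
  {om : Form4 E M}

variable [CompactSpace M] [MeasurableSpace M] [BorelSpace M] {μ : Measure M}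

/-- `K` is a kernel datum for the sections of `R` (components in the frames `fr`), whose kernels
`z`, `e` are, for source points in the open set `V`, given by kernels of class `C^n` (composed with
the change from `fr y` to the smooth frame `F` on `V`) -/
structure LocSmooth (cov : CovariantDerivative 𝓘(ℝ, E) E (TangentSpace 𝓘(ℝ, E) : M → Type))
    (om : Form4 E M) (R : Rep W) (fr : (p : M) → Fin 4 → TangentSpace 𝓘(ℝ, E) p)
    (K : KernelData (W := W) (S := Sec (E := E) (M := M) om R) μ) (p₀ : M) (n : ℕ) where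
  ev_eq : ∀ (u : Sec (E := E) (M := M) om R) x, K.ev u x = (u : PreS E M W) x (fr x)
  Lf_eq : ∀ (u : Sec (E := E) (M := M) om R) x, K.Lf u x = lapS cov om u x (fr x)
  V : Set M
  V_open : IsOpen V
  mem : p₀ ∈ V
  F : Fin 4 → VF E M
  pon : ∀ p ∈ V, PONnear om p F
  O₂ : Set ℝ
  O₂_open : IsOpen O₂
  Icc_sub : Icc 0 (1 / 2) ⊆ O₂
  Kz : ℝ → PreK E M W W
  Ke : ℝ → PreK E M W W
  smz : SmK om R n (Ioi 0) V Kz
  sme : SmK om R n O₂ V Ke
  z_eq : ∀ x, ∀ y ∈ V, K.z (1 / 2) x y =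
    (Kz (1 / 2) x (fr x) y).comp (R.ρ (trM (matF (fr y) fun i => F i y)))
  e_eq : ∀ s ∈ Icc (0 : ℝ) (1 / 2), ∀ x, ∀ y ∈ V, K.e s x y =
    (Ke s x (fr x) y).comp (R.ρ (trM (matF (fr y) fun i => F i y)))

/-- local Duhamel data -/
theorem LocSmooth.locDuh [IsFiniteMeasure μ] {R : Rep W}
    {fr : (p : M) → Fin 4 → TangentSpace 𝓘(ℝ, E) p}
    {K : KernelData (W := W) (S := Sec (E := E) (M := M) om R) μ} {p₀ : M} {n : ℕ}
    (Q : LocSmooth cov om R fr K p₀ n) {b : Lp W 2 μ} {l : ℝ}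
    (hb : ∀ u ∈ Sec (E := E) (M := M) om R, ∫ x, ⟪b x, lapS cov om u x (fr x)⟫ ∂μ =
      l * ∫ x, ⟪b x, u x (fr x)⟫ ∂μ) : Nonempty (LocDuh om R fr b l p₀ n) := by
  have hh : (1 / 2 : ℝ) ∈ Ioo (0 : ℝ) 1 := by norm_num
  obtain ⟨C, hC⟩ := K.bdd (1 / 2) (1 / 2) (by norm_num)
  have hb' : ∀ s, ∫ x, ⟪b x, K.Lf s x⟫ ∂μ = l * ∫ x, ⟪b x, K.ev s x⟫ ∂μ := by
    intro s
    simp_rw [Q.ev_eq, Q.Lf_eq]
    exact hb s s.2
  exact ⟨{
    t := 1 / 2
    ht := hh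
    z := K.z (1 / 2)
    e := K.e
    z_meas := K.z_meas _ hh.1
    e_meas := fun s hs => K.e_meas s hs.1
    e_cont := K.e_cont
    C := max C K.Ce
    z_le := fun x y => ((hC (1 / 2) (by simp) x y).1).trans (le_max_left _ _)
    e_le := fun s hs x y => by
      have h1 := K.e_le hs x y
      have h0 : 0 ≤ K.Ce := abs_nonneg _
      have h2 : K.Ce * s ≤ K.Ce := by nlinarith [hs.2]
      exact (h1.trans h2).trans (le_max_right _ _)
    duh := fun w => K.duhamel b l hb' hh w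
    V := Q.V
    V_open := Q.V_open
    mem := Q.mem
    F := Q.F
    pon := Q.pon
    O₁ := Ioi 0
    O₂ := Q.O₂
    O₁_open := isOpen_Ioi
    O₂_open := Q.O₂_open
    t_mem := hh.1
    Icc_sub := Q.Icc_sub
    Kz := Q.Kz
    Ke := Q.Ke
    smz := Q.smz
    sme := Q.sme
    z_eq := Q.z_eq
    e_eq := Q.e_eq }⟩

/-- REG, final form: weak eigenvectors of `lapS` in `L²` are represented by smooth sections. -/
theorem reg_final [IsFiniteMeasure μ] [μ.IsOpenPosMeasure] (h : Geo4 cov om)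
    {R : Rep W} {fr : (p : M) → Fin 4 → TangentSpace 𝓘(ℝ, E) p} (hfr : Nonempty (FrSel om fr))
    (Q : ∀ (p₀ : M) (n : ℕ), ∃ K : KernelData (W := W) (S := Sec (E := E) (M := M) om R) μ,
      Nonempty (LocSmooth cov om R fr K p₀ n))
    (b : Lp W 2 μ) (l : ℝ)
    (hb : ∀ u ∈ Sec (E := E) (M := M) om R, ∫ x, ⟪b x, lapS cov om u x (fr x)⟫ ∂μ =
      l * ∫ x, ⟪b x, u x (fr x)⟫ ∂μ) :
    ∃ u ∈ Sec (E := E) om R, ∀ᵐ y ∂μ, u y (fr y) = b y := by
  have hpon : ∀ p, PON om p (fr p) := fun p => hfr.some.ponfr p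
  refine reg_main h (lk2e cov om μ) (lk2f μ) hfr hpon b l fun p₀ n => ?_
  obtain ⟨K, ⟨q⟩⟩ := Q p₀ n
  exact q.locDuh hb

end

end Vale.Agent.P211.HK
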