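import Vale.Agent.P211.HK.RegFin
import Vale.Agent.P211.HK.Atlas
import Vale.Agent.P211.HK.Schur

/-! P211 / HK / REG (helper674): `REGStmt` from LKE and LKK (LKA and LKP2 inserted; `lkp2` is in Schur.lean). -/

set_option maxSynthPendingDepth 3

namespace Vale.Agent.P211.HK

open scoped Manifold ContDiff Topology RealInnerProductSpace
open Bundle Filter VectorField MeasureTheory Set

noncomputable section

variable {E : Type} [NormedAddCommGroup E] [NormedSpace ℝ E] [FiniteDimensional ℝ E]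
  {M : Type} [MetricSpace M] [ChartedSpace E M] [IsManifold 𝓘(ℝ, E) ∞ M]
  [RiemannianBundle fun p : M => TangentSpace 𝓘(ℝ, E) p]
  [IsContMDiffRiemannianBundle 𝓘(ℝ, E) ∞ E fun p : M => TangentSpace 𝓘(ℝ, E) p]
  [CompactSpace M] [MeasurableSpace M] [BorelSpace M]
  {cov : CovariantDerivative 𝓘(ℝ, E) E (TangentSpace 𝓘(ℝ, E) : M → Type)}
  {om : Form4 E M} {μ : Measure M} {D : ℝ}

/-- REG, from LKE and LKK. -/
theorem reg [IsRiemannianManifold 𝓘(ℝ, E) M] [ConnectedSpace M]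
    (hE : ∀ (D : ℝ) (A : MAtlas cov om μ D) (χ : Eu4 → ℝ) (N : ℕ), LKEStmt A χ N)
    (hK : ∀ (D : ℝ) (A : MAtlas cov om μ D) (χ : Eu4 → ℝ) (N : ℕ), LKKStmt A χ N) :
    REGStmt cov om μ :=
  reg_of (lka cov om μ) hE hK fun _ P => lkp2 P

end

end Vale.Agent.P211.HK
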