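import Vale.Agent.P211.H555.Defs
import Vale.Agent.P211.Bdl.B1
import Mathlib.AlgebraicTopology.FundamentalGroupoid.SimplyConnected

/-! P211 / HK / S22: FROZEN statements for the isometry with `S² × S²` (row S2S2, helper160).
Language: smooth functions `SF E M`, smooth fields `VF E M`, formal calculus `lcOf hcov`. -/

set_option maxSynthPendingDepth 3
set_option linter.unusedSectionVars false

namespace Vale.Agent.P211.HK.S22

open scoped Manifold ContDiff Topology
open Bundle Filter VectorField Vale.Agent.P211 Vale.Agent.P211.NN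

noncomputable section

variable {E : Type} [NormedAddCommGroup E] [NormedSpace ℝ E] [FiniteDimensional ℝ E]
  {M : Type} [TopologicalSpace M] [ChartedSpace E M] [IsManifold 𝓘(ℝ, E) ∞ M] [T2Space M]
  [RiemannianBundle fun p : M => TangentSpace 𝓘(ℝ, E) p]
  [IsContMDiffRiemannianBundle 𝓘(ℝ, E) ∞ E fun p : M => TangentSpace 𝓘(ℝ, E) p]
  {cov : CovariantDerivative 𝓘(ℝ, E) E (TangentSpace 𝓘(ℝ, E) : M → Type)}

/-- constant function -/
def cst (c : ℝ) : SF E M := algebraMap ℝ (SF E M) c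

/-- A global parallel splitting `T M = T₁ ⊕ T₂` into planes, `P` = projection onto `T₁`; the
curvature is the one of the product of two surfaces of constant curvature `lam`. -/
structure Split (hcov : IsLC cov) (lam : ℝ) (P : VF E M →ₗ[SF E M] VF E M) : Prop where
  proj : ∀ X, P (P X) = P X
  symm : ∀ X Y, gVF (P X) Y = gVF X (P Y)
  par : ∀ X Y, nabVF cov hcov.smooth X (P Y) = P (nabVF cov hcov.smooth X Y)
  rank : ∀ p, ∃ F : Fin 4 → VF E M, OrthonormalAt F p ∧
    P (F 0) p = F 0 p ∧ P (F 1) p = F 1 p ∧ P (F 2) p = 0 ∧ P (F 3) p = 0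
  curv : ∀ X Y Z W, (lcOf hcov).Rm X Y Z W = cst lam *
    (gVF (P Y) Z * gVF (P X) W - gVF (P X) Z * gVF (P Y) W +
      (gVF (Y - P Y) Z * gVF (X - P X) W - gVF (X - P X) Z * gVF (Y - P Y) W))

/-- SP (helper160): a parallel splitting exists. -/
def SPStmt (hcov : IsLC cov) (lam : ℝ) : Prop :=
  Module.finrank ℝ E = 4 → SimplyConnectedSpace M → 0 < lam → LocallyProduct cov lam →
    ∃ P : VF E M →ₗ[SF E M] VF E M, Split hcov lam P

/-- `z` solves `Hess z = - lam z g|T₁`, `dz = 0` on `T₂`, on all of `M`. -/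
def Sol (hcov : IsLC cov) (lam : ℝ) (P : VF E M →ₗ[SF E M] VF E M) (z : SF E M) : Prop :=
  (∀ X Y, DVF X (DVF Y z) - DVF (nabVF cov hcov.smooth X Y) z = - (cst lam * z * gVF (P X) Y)) ∧
  ∀ X, DVF (P X) z = DVF X z

/-- SV: the three functions of a splitting (`Z = (z₀, z₁, z₂) : M → S²`). -/
def SVStmt (hcov : IsLC cov) (lam : ℝ) : Prop :=
  Module.finrank ℝ E = 4 → SimplyConnectedSpace M → 0 < lam →
    ∀ P : VF E M →ₗ[SF E M] VF E M, Split hcov lam P →
    ∃ z : Fin 3 → SF E M, (∀ i, Sol hcov lam P (z i)) ∧ (∑ i, z i * z i = 1) ∧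
      ∀ X Y, ∑ i, DVF X (z i) * DVF Y (z i) = cst lam * gVF (P X) Y

/-- FB2 (helper858): the flat bundle `ℝ ⊕ T₁`: solutions with prescribed value and gradient. -/
def FB2Stmt (hcov : IsLC cov) (lam : ℝ) : Prop :=
  Module.finrank ℝ E = 4 → SimplyConnectedSpace M →
    ∀ P : VF E M →ₗ[SF E M] VF E M, Split hcov lam P →
    ∀ (p : M) (c : ℝ) (V : VF E M), P V p = V p →
      ∃ z : SF E M, Sol hcov lam P z ∧ z p = c ∧ ∀ X, DVF X z p = gVF V X p

/-- FBM (local Frobenius theorem in the language of vector fields; a matrix `a i j` of one-forms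
`X ↦ ⟨a i j, X⟩`, `dΦ = a Φ`). No connection is needed: `br X Y` is any field with
`D_{br X Y} = [D_X, D_Y]`. -/
def FBMStmt (hcov : IsLC cov) : Prop :=
  ∀ (n : ℕ) (a : Fin n → Fin n → VF E M) (p : M),
    (∀ᶠ q in 𝓝 p, ∀ (X Y : VF E M) (i j : Fin n),
      DVF X (gVF (a i j) Y) q - DVF Y (gVF (a i j) X) q -
        gVF (a i j) (nabVF cov hcov.smooth X Y - nabVF cov hcov.smooth Y X) q =
      ∑ k, (gVF (a i k) X q * gVF (a k j) Y q - gVF (a i k) Y q * gVF (a k j) X q)) →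
    ∃ Φ : Fin n → Fin n → SF E M, (∀ i j, Φ i j p = if i = j then 1 else 0) ∧
      ∀ᶠ q in 𝓝 p, ∀ (X : VF E M) (i j : Fin n),
        DVF X (Φ i j) q = ∑ k, gVF (a i k) X q * Φ k j q

end

end Vale.Agent.P211.HK.S22
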