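import Vale.Agent.P211.HK.S22SPd
import Vale.Agent.P211.HK.LocSys
import Vale.Agent.P211.Bdl.S3

/-! P211 / HK / FB2 (helper160): from local solutions to global solutions of
`Hess z = - lam z g|T₁`, `dz = 0` on `T₂` on a simply connected manifold, with prescribed value and
gradient at one point. -/

set_option maxSynthPendingDepth 3
set_option linter.unusedSectionVars false

namespace Vale.Agent.P211.HK.S22

open scoped Manifold ContDiff Topology
open Bundle Filter VectorField Vale.Agent.P211 Vale.Agent.P211.NN Vale.Agent.P211.S4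

noncomputable section

variable {E : Type} [NormedAddCommGroup E] [NormedSpace ℝ E] [FiniteDimensional ℝ E]
  {M : Type} [TopologicalSpace M] [ChartedSpace E M] [IsManifold 𝓘(ℝ, E) ∞ M] [T2Space M]

/-- A smooth function with vanishing derivative near a point is constant near this point. -/
theorem local_const {p : M} {f : SF E M} (h : ∀ᶠ q in 𝓝 p, ∀ X : VF E M, DVF X f q = 0) :
    ∀ᶠ q in 𝓝 p, f q = f p := by
  -- the derivative vanishes near `p`
  have h1 : ∀ᶠ q in 𝓝 p, mfderiv 𝓘(ℝ, E) 𝓘(ℝ) f q = 0 := by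
    filter_upwards [h] with q hq
    ext v
    obtain ⟨X, hX⟩ := exists_ext (E := E) q v
    have := hq X
    rw [DVF_apply, hX] at this
    exact this
  let φ := chartAt E p
  have hp : p ∈ φ.source := mem_chart_source E p
  have hφp : φ p ∈ φ.target := φ.map_source hp
  have h2 : ∀ᶠ y in 𝓝 (φ p), y ∈ φ.target ∧ mfderiv 𝓘(ℝ, E) 𝓘(ℝ) f (φ.symm y) = 0 := by
    have hc : ContinuousAt φ.symm (φ p) := φ.continuousAt_symm hφp
    have h3 : ∀ᶠ q in 𝓝 (φ.symm (φ p)), mfderiv 𝓘(ℝ, E) 𝓘(ℝ) f q = 0 := by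
      rw [φ.left_inv hp]; exact h1
    have h4 : ∀ᶠ y in 𝓝 (φ p), y ∈ φ.target := φ.open_target.mem_nhds hφp
    exact h4.and (hc.eventually h3)
  obtain ⟨r, hr, hB⟩ := Metric.eventually_nhds_iff_ball.mp h2
  have hd : ∀ y ∈ Metric.ball (φ p) r, HasFDerivAt (fun z => f (φ.symm z)) (0 : E →L[ℝ] ℝ) y := by
    intro y hy
    obtain ⟨hy1, hy2⟩ := hB y hy
    have e1 : MDifferentiableAt 𝓘(ℝ, E) 𝓘(ℝ, E) φ.symm y :=
      mdifferentiableAt_atlas_symm (chart_mem_atlas E p) hy1
    have e2 := (f.mdiff (φ.symm y)).hasMFDerivAt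
    rw [hy2] at e2
    have e3 := e2.comp y e1.hasMFDerivAt
    rw [hasMFDerivAt_iff_hasFDerivAt] at e3
    refine HasFDerivAt.congr_fderiv (f' := _) e3 ?_
    exact ContinuousLinearMap.zero_comp _
  have hcst : ∀ y ∈ Metric.ball (φ p) r, f (φ.symm y) = f (φ.symm (φ p)) := by
    intro y hy
    have hconv : Convex ℝ (Metric.ball (φ p) r) := convex_ball _ _
    refine hconv.is_const_of_fderivWithin_eq_zero (𝕜 := ℝ) (f := fun z => f (φ.symm z))
      (fun z hz => (hd z hz).differentiableAt.differentiableWithinAt) (fun z hz => ?_) hy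
      (Metric.mem_ball_self hr)
    rw [fderivWithin_of_isOpen Metric.isOpen_ball hz]
    exact (hd z hz).fderiv
  have hc2 : ContinuousAt φ p := φ.continuousAt hp
  filter_upwards [φ.open_source.mem_nhds hp, hc2.eventually (Metric.ball_mem_nhds (φ p) hr)]
    with q hq1 hq2
  have := hcst (φ q) hq2
  rwa [φ.left_inv hq1, φ.left_inv hp] at this

variable
  [RiemannianBundle fun p : M => TangentSpace 𝓘(ℝ, E) p]
  [IsContMDiffRiemannianBundle 𝓘(ℝ, E) ∞ E fun p : M => TangentSpace 𝓘(ℝ, E) p]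
  {cov : CovariantDerivative 𝓘(ℝ, E) E (TangentSpace 𝓘(ℝ, E) : M → Type)}

/-- `z` solves the equations of `Sol` at the point `q`. -/
def SolAt (hcov : IsLC cov) (lam : ℝ) (P : VF E M →ₗ[SF E M] VF E M) (z : SF E M) (q : M) : Prop :=
  (∀ X Y, DVF X (DVF Y z) q - DVF (nabVF cov hcov.smooth X Y) z q
    = -(lam * z q * gVF (P X) Y q)) ∧ ∀ X, DVF (P X) z q = DVF X z q

/-- The local part: solutions with prescribed value and gradient near a point. -/
def FB2LocStmt (hcov : IsLC cov) (lam : ℝ) : Prop :=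
  Module.finrank ℝ E = 4 → ∀ P : VF E M →ₗ[SF E M] VF E M, Split hcov lam P →
    ∀ p : M, ∃ U ∈ 𝓝 p, ∀ q ∈ U, ∀ (c : ℝ) (V : VF E M), P V q = V q →
      ∃ z : SF E M, (∀ q' ∈ U, SolAt hcov lam P z q') ∧ z q = c ∧ ∀ X, DVF X z q = gVF V X q

variable {hcov : IsLC cov} {lam : ℝ} {P : VF E M →ₗ[SF E M] VF E M}

theorem DVF_sub (X : VF E M) (f h : SF E M) (q : M) : DVF X (f - h) q = DVF X f q - DVF X h q := by
  have e : (f - h : SF E M) = f + cst (-1) * h := by
    ext y
    change f y - h y = f y + (-1) * h y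
    ring
  have e0 : DVF X (cst (-1) : SF E M) = 0 := DVF_const X (-1)
  rw [e, DVF_add, DVF_mul, e0]
  change DVF X f q + (0 * h q + (-1) * DVF X h q) = _
  ring

theorem SolAt.congr {z z' : SF E M} {q : M} (h : SolAt hcov lam P z q)
    (he : ∀ᶠ q' in 𝓝 q, z q' = z' q') : SolAt hcov lam P z' q := by
  have e1 : ∀ X, DVF X z' q = DVF X z q := fun X =>
    (DVF_local q z z' he X).symm
  have e2 : ∀ X Y, DVF X (DVF Y z') q = DVF X (DVF Y z) q := by
    intro X Y
    refine (DVF_local q _ _ ?_ X).symm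
    filter_upwards [he.eventually_nhds] with x hx
    exact DVF_local x z z' hx Y
  refine ⟨fun X Y => ?_, fun X => ?_⟩
  · rw [e2, e1, h.1 X Y, he.self_of_nhds]
  · rw [e1, e1, h.2]

/-- the energy of the difference of two local solutions is locally constant -/
theorem energy_const {z z' : SF E M} {p : M} (h : ∀ᶠ q in 𝓝 p, SolAt hcov lam P z q)
    (h' : ∀ᶠ q in 𝓝 p, SolAt hcov lam P z' q) {G : VF E M}
    (hG : ∀ X, gVF G X = DVF X (z - z')) :
    ∀ᶠ q in 𝓝 p, (cst lam * (z - z') * (z - z') + gVF G G : SF E M) q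
      = (cst lam * (z - z') * (z - z') + gVF G G : SF E M) p := by
  refine local_const ?_
  filter_upwards [h, h'] with q h1 h2 X
  have e0 : DVF X (cst lam : SF E M) = 0 := DVF_const X lam
  have eG : ∀ Y, gVF G Y q = DVF Y z q - DVF Y z' q := fun Y => by
    rw [hG, DVF_sub]
  -- the derivative of the gradient
  have e1 : gVF (nabVF cov hcov.smooth X G) G q
      = -(lam * (z q - z' q) * gVF (P X) G q) := by
    have m := metricVF hcov X G G q
    have a1 := h1.1 X G
    have a2 := h2.1 X G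
    have a3 : DVF X (gVF G G) q = DVF X (DVF G z) q - DVF X (DVF G z') q := by
      rw [hG G]
      have : DVF G (z - z') = DVF G z - DVF G z' := by
        ext y; exact DVF_sub G z z' y
      rw [this, DVF_sub]
    have a4 := eG (nabVF cov hcov.smooth X G)
    linear_combination (-1) * m + a3 + a1 - a2 - a4
  have e2 : DVF X (gVF G G) q = 2 * gVF (nabVF cov hcov.smooth X G) G q := by
    have m := metricVF hcov X G G q
    have s : gVF G (nabVF cov hcov.smooth X G) q = gVF (nabVF cov hcov.smooth X G) G q :=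
      real_inner_comm (nabVF cov hcov.smooth X G q) (G q)
    linear_combination m + s
  have e3 : gVF (P X) G q = gVF G X q := by
    have s : gVF (P X) G q = gVF G (P X) q := real_inner_comm (G q) (P X q)
    rw [s, eG, eG, h1.2, h2.2]
  rw [DVF_add, DVF_mul, DVF_mul, e0]
  change (0 * (z q - z' q) + lam * DVF X (z - z') q) * (z q - z' q)
    + lam * (z q - z' q) * DVF X (z - z') q + DVF X (gVF G G) q = 0
  rw [e2, e1, e3, ← hG X]
  ring

variable (P) in
/-- the fibre of the bundle `ℝ ⊕ T₁` -/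
def Fib (q : M) : Type :=
  {a : ℝ × TangentSpace 𝓘(ℝ, E) q // ∃ V : VF E M, V q = a.2 ∧ P V q = V q}

/-- `a` is the value and the gradient of `z` at `q` -/
def Rep (z : SF E M) (q : M) (a : Fib P q) : Prop :=
  a.1.1 = z q ∧ ∀ X : VF E M, (inner ℝ a.1.2 (X q) : ℝ) = DVF X z q

theorem Rep.ext {z z' : SF E M} {q : M} {a b : Fib P q} (ha : Rep z q a) (hb : Rep z' q b)
    (h0 : z q = z' q) (h1 : ∀ X, DVF X z q = DVF X z' q) : a = b := by
  apply Subtype.ext
  refine Prod.ext (ha.1.trans (h0.trans hb.1.symm)) ?_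
  refine ext_inner_right ℝ fun w => ?_
  obtain ⟨W, hW⟩ := exists_ext (E := E) q w
  rw [← hW, ha.2, hb.2, h1]

theorem exists_rep (hE : Module.finrank ℝ E = 4) (hS : Split hcov lam P) {z : SF E M} {q : M}
    (h : SolAt hcov lam P z q) : ∃ a : Fib P q, Rep z q a := by
  obtain ⟨G, hG⟩ := exists_grad (E := E) hE z
  have h1 : P G q = G q := by
    refine ext_inner_right ℝ fun w => ?_
    obtain ⟨W, hW⟩ := exists_ext (E := E) q w
    have e1 := congrArg (fun f : SF E M => f q) (hS.symm G W)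
    have e2 := congrArg (fun f : SF E M => f q) (hG (P W))
    have e3 := congrArg (fun f : SF E M => f q) (hG W)
    rw [← hW]
    exact e1.trans (e2.trans ((h.2 W).trans e3.symm))
  refine ⟨⟨(z q, G q), G, rfl, h1⟩, rfl, fun X => ?_⟩
  exact congrArg (fun f : SF E M => f q) (hG X)

/-- local parallel sections -/
def ParS (hcov : IsLC cov) (lam : ℝ) (P : VF E M →ₗ[SF E M] VF E M) (p : M)
    (s : (q : M) → Fib P q) : Prop :=
  ∃ z : SF E M, (∀ᶠ q in 𝓝 p, SolAt hcov lam P z q) ∧ ∀ᶠ q in 𝓝 p, Rep z q (s q)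

theorem energy_pos (hlam : 0 < lam) {z z' : SF E M} {q : M} {G : VF E M}
    (hG : ∀ X, gVF G X = DVF X (z - z'))
    (h : (cst lam * (z - z') * (z - z') + gVF G G : SF E M) q = 0) :
    z q = z' q ∧ ∀ X, DVF X z q = DVF X z' q := by
  have h1 : lam * (z q - z' q) * (z q - z' q) + inner ℝ (G q) (G q) = 0 := h
  have h2 : (0 : ℝ) ≤ inner ℝ (G q) (G q) := real_inner_self_nonneg
  have h3 : 0 ≤ lam * (z q - z' q) * (z q - z' q) := by
    rw [mul_assoc]; exact mul_nonneg hlam.le (mul_self_nonneg _)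
  have h4 : (z q - z' q) * (z q - z' q) = 0 := by
    have : lam * ((z q - z' q) * (z q - z' q)) = 0 := by rw [← mul_assoc]; linarith
    rcases mul_eq_zero.1 this with h | h
    · exact absurd h hlam.ne'
    · exact h
  have h5 : G q = 0 := by
    have : (inner ℝ (G q) (G q) : ℝ) = 0 := by linarith
    exact inner_self_eq_zero.1 this
  refine ⟨sub_eq_zero.1 (mul_self_eq_zero.1 h4), fun X => ?_⟩
  have e1 : gVF G X q = 0 := by
    rw [gVF_apply, h5, inner_zero_left]
  rw [hG, DVF_sub] at e1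
  exact sub_eq_zero.1 e1

theorem energy_zero {z z' : SF E M} {q : M} {G : VF E M}
    (hG : ∀ X, gVF G X = DVF X (z - z')) (h0 : z q = z' q) (h1 : ∀ X, DVF X z q = DVF X z' q) :
    (cst lam * (z - z') * (z - z') + gVF G G : SF E M) q = 0 := by
  have e1 : gVF G G q = 0 := by
    rw [hG, DVF_sub, h1, sub_self]
  change lam * (z q - z' q) * (z q - z' q) + gVF G G q = 0
  rw [e1, h0]; ring

theorem Rep.eq_iff {z z' : SF E M} {q : M} {a : Fib P q} (ha : Rep z q a) (hb : Rep z' q a) :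
    z q = z' q ∧ ∀ X, DVF X z q = DVF X z' q :=
  ⟨ha.1.symm.trans hb.1, fun X => (ha.2 X).symm.trans (hb.2 X)⟩

theorem parS_locSys (hE : Module.finrank ℝ E = 4) (hlam : 0 < lam) (hS : Split hcov lam P)
    (hloc : FB2LocStmt hcov lam) : LocSys (ParS hcov lam P) where
  opn p s := by
    rintro ⟨z, h1, h2⟩
    filter_upwards [h1.eventually_nhds, h2.eventually_nhds] with q a1 a2
    exact ⟨z, a1, a2⟩
  uniq p s s' := by
    rintro ⟨z, h1, h2⟩ ⟨z', h1', h2'⟩ he
    obtain ⟨G, hG⟩ := exists_grad (E := E) hE (z - z')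
    have hp : z p = z' p ∧ ∀ X, DVF X z p = DVF X z' p :=
      Rep.eq_iff (a := s p) h2.self_of_nhds (by rw [he]; exact h2'.self_of_nhds)
    have h3 := energy_zero (lam := lam) hG hp.1 hp.2
    filter_upwards [energy_const h1 h1' hG, h2, h2'] with q e1 e2 e3
    have h4 := energy_pos hlam hG (e1.trans h3)
    exact e2.ext e3 h4.1 h4.2
  clo p s s' := by
    rintro ⟨z, h1, h2⟩ ⟨z', h1', h2'⟩ he
    obtain ⟨G, hG⟩ := exists_grad (E := E) hE (z - z')
    obtain ⟨q, hq, e1, e2, e3⟩ := (he.and_eventually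
      ((energy_const h1 h1' hG).and (h2.and h2'))).exists
    have hp : z q = z' q ∧ ∀ X, DVF X z q = DVF X z' q :=
      Rep.eq_iff (a := s q) e2 (by rw [hq]; exact e3)
    have h3 := energy_zero (lam := lam) hG hp.1 hp.2
    have h4 := energy_pos hlam hG (e1.symm.trans h3)
    exact h2.self_of_nhds.ext h2'.self_of_nhds h4.1 h4.2
  loc p s s' := by
    rintro ⟨z, h1, h2⟩ he
    refine ⟨z, h1, ?_⟩
    filter_upwards [h2, he] with q a1 a2
    rwa [← a2]
  ext p := by
    obtain ⟨U, hU, hUs⟩ := hloc hE P hS p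
    refine ⟨interior U, interior_mem_nhds.2 hU, fun q hq a => ?_⟩
    obtain ⟨V, hV1, hV2⟩ := a.2
    obtain ⟨z, hz1, hz2, hz3⟩ := hUs q (interior_subset hq) a.1.1 V hV2
    have hz : Rep z q a := by
      refine ⟨hz2.symm, fun X => ?_⟩
      rw [hz3 X, gVF_apply, hV1]
    classical
    have hex : ∀ q' : M, ∃ b : Fib P q', q' ∈ U → Rep z q' b := by
      intro q'
      by_cases h : q' ∈ U
      · obtain ⟨b, hb⟩ := exists_rep hE hS (hz1 q' h)
        exact ⟨b, fun _ => hb⟩
      · exact ⟨⟨0, 0, rfl, by rw [map_zero]⟩, fun h' => absurd h' h⟩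
    choose b hb using hex
    have hbq : b q = a := (hb q (interior_subset hq)).ext hz rfl fun _ => rfl
    refine ⟨b, hbq, fun q' hq' => ⟨z, ?_, ?_⟩⟩
    · filter_upwards [isOpen_interior.mem_nhds hq'] with x hx
      exact hz1 x (interior_subset hx)
    · filter_upwards [isOpen_interior.mem_nhds hq'] with x hx
      exact hb x (interior_subset hx)

/-- **FB2 from the local existence theorem.** -/
theorem fb2_of_loc (hlam : 0 < lam) (hloc : FB2LocStmt hcov lam) : FB2Stmt hcov lam := by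
  intro hE hsc P hS p c V hV
  have : LocallyPathConnectedSpace M := ChartedSpace.locallyPathConnectedSpace E M
  have hL := parS_locSys hE hlam hS hloc
  obtain ⟨s, ⟨hs0, hs⟩, -⟩ := hL.existsUnique p (⟨(c, V p), V, rfl, hV⟩ : Fib P p)
  choose z hz1 hz2 using hs
  have hev : ∀ q, ∀ᶠ q' in 𝓝 q, (s q').1.1 = z q q' := fun q =>
    (hz2 q).mono fun _ h => h.1
  have hsm : ContMDiff 𝓘(ℝ, E) 𝓘(ℝ) ∞ (fun q => (s q).1.1) := by
    intro q
    exact ((z q).contMDiff q).congr_of_eventuallyEq (hev q)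
  let f : SF E M := ⟨fun q => (s q).1.1, hsm⟩
  have hf : ∀ q, ∀ᶠ q' in 𝓝 q, z q q' = f q' := fun q => (hev q).mono fun _ h => h.symm
  have hsol : ∀ q, SolAt hcov lam P f q := fun q =>
    (hz1 q).self_of_nhds.congr (hf q)
  refine ⟨f, ⟨fun X Y => ?_, fun X => ?_⟩, ?_, fun X => ?_⟩
  · ext q
    exact (hsol q).1 X Y
  · ext q
    exact (hsol q).2 X
  · change (s p).1.1 = c
    rw [hs0]
  · have h1 : DVF X f p = DVF X (z p) p := (DVF_local p _ _ (hf p) X).symm
    have h2 := (hz2 p).self_of_nhds.2 X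
    rw [h1, ← h2, hs0]
    rfl

end

end Vale.Agent.P211.HK.S22
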