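import Vale.Agent.P211.HK.S22Main
import Vale.Agent.P211.HK.FB2

/-! P211 / HK / S22 (helper858): the isometry with `S² × S²`, unconditional. -/

set_option maxSynthPendingDepth 3
set_option linter.all false

namespace Vale.Agent.P211.HK.S22

open scoped Manifold ContDiff Topology RealInnerProductSpace
open Bundle Filter VectorField Vale.Agent.P211 Vale.Agent.P211.NN Vale.Agent.P234

noncomputable section

variable {E : Type} [NormedAddCommGroup E] [NormedSpace ℝ E] [FiniteDimensional ℝ E]
  {M : Type} [MetricSpace M] [ChartedSpace E M] [IsManifold 𝓘(ℝ, E) ∞ M]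
  [RiemannianBundle fun p : M => TangentSpace 𝓘(ℝ, E) p]
  [IsContMDiffRiemannianBundle 𝓘(ℝ, E) ∞ E fun p : M => TangentSpace 𝓘(ℝ, E) p]
  [IsRiemannianManifold 𝓘(ℝ, E) M] [CompactSpace M] [ConnectedSpace M]
  {cov : CovariantDerivative 𝓘(ℝ, E) E (TangentSpace 𝓘(ℝ, E) : M → Type)}

/-- **S22, unconditional** -/
theorem s22 {om : Form4 E M} {lam : ℝ} : S22IsoStmt cov om lam := by
  intro hG hlam hLP hsc
  have hcov := hG.lc
  obtain ⟨P, hS⟩ := sp hcov lam hG.dim hsc hlam hLP
  obtain ⟨e, he, -, -⟩ := Vale.Agent.P234.main_unconditional (E := E) (M := M)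
  have F := Vale.Agent.P234.facts_of_isExp he
  exact isRoundS2S2_of FS.sv_final hS hS.compl
    (fun X => by show P X + (X - P X) = X; abel) hG.dim hlam F

end

end Vale.Agent.P211.HK.S22
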