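import Vale.Agent.P211.HK.S22FB2

/-! P211 / HK / S22Loc (helper160): local solutions of the equations of a splitting, from the local
Frobenius theorem `FBMStmt`. -/

set_option maxSynthPendingDepth 3
set_option linter.unusedSectionVars false

namespace Vale.Agent.P211.HK.S22

open scoped Manifold ContDiff Topology
open Bundle Filter VectorField Vale.Agent.P211 Vale.Agent.P211.NN Vale.Agent.P211.S4

noncomputable section

/-- a real 2 x 2 matrix with orthonormal rows has orthonormal columns -/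
theorem col2 {a b c d : ℝ} (h1 : a * a + b * b = 1) (h2 : c * c + d * d = 1)
    (h3 : a * c + b * d = 0) : a * a + c * c = 1 ∧ b * b + d * d = 1 ∧ a * b + c * d = 0 := by
  have e2 : (a * d - c * b) * a = d := by linear_combination d * h1 - b * h3
  have e1 : -(a * d - c * b) * b = c := by linear_combination c * h1 - a * h3
  have e3 : (a * d - c * b) * (a * d - c * b) = 1 := by
    linear_combination h2 + (c * c + d * d) * h1 - (a * c + b * d) * h3
  refine ⟨?_, ?_, ?_⟩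
  · linear_combination h1 - (c + -(a * d - c * b) * b) * e1 + b * b * e3
  · linear_combination h1 - (d + (a * d - c * b) * a) * e2 + a * a * e3
  · linear_combination (-c) * e2 - (a * d - c * b) * a * e1 - a * b * e3

variable {E : Type} [NormedAddCommGroup E] [NormedSpace ℝ E] [FiniteDimensional ℝ E]
  {M : Type} [TopologicalSpace M] [ChartedSpace E M] [IsManifold 𝓘(ℝ, E) ∞ M] [T2Space M]
  [RiemannianBundle fun p : M => TangentSpace 𝓘(ℝ, E) p]
  [IsContMDiffRiemannianBundle 𝓘(ℝ, E) ∞ E fun p : M => TangentSpace 𝓘(ℝ, E) p]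
  {cov : CovariantDerivative 𝓘(ℝ, E) E (TangentSpace 𝓘(ℝ, E) : M → Type)}

/-- An orthonormal frame `h₀, h₁` of `T₁` at `q` with connection form `w`. -/
structure T1At (hcov : IsLC cov) (P : VF E M →ₗ[SF E M] VF E M) (h₀ h₁ w : VF E M) (q : M) :
    Prop where
  peq : ∀ X Y, gVF (P X) Y q = gVF h₀ X q * gVF h₀ Y q + gVF h₁ X q * gVF h₁ Y q
  nab0 : ∀ X Y, gVF (nabVF cov hcov.smooth X h₀) Y q = gVF w X q * gVF h₁ Y q
  nab1 : ∀ X Y, gVF (nabVF cov hcov.smooth X h₁) Y q = -(gVF w X q * gVF h₀ Y q)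

theorem gsymm (X Y : VF E M) (q : M) : gVF X Y q = gVF Y X q := real_inner_comm (Y q) (X q)

theorem gsymm' (X Y : VF E M) : gVF X Y = gVF Y X := by
  ext q; exact gsymm X Y q

theorem gsmul (f : SF E M) (X Y : VF E M) (q : M) : gVF (f • X) Y q = f q * gVF X Y q := by
  rw [gVF_apply, smulVF_apply, inner_smul_left]; rfl

theorem gsub (X Y Z : VF E M) (q : M) : gVF (X - Y) Z q = gVF X Z q - gVF Y Z q :=
  inner_sub_left (𝕜 := ℝ) (X q) (Y q) (Z q)

theorem gneg (X Z : VF E M) (q : M) : gVF (-X) Z q = -gVF X Z q :=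
  inner_neg_left (𝕜 := ℝ) (X q) (Z q)

theorem gzero (Z : VF E M) (q : M) : gVF 0 Z q = 0 :=
  inner_zero_left (𝕜 := ℝ) (Z q)

/-- two fields of `T₁`, orthonormal near `p` -/
theorem exists_on2 (p : M) {P : VF E M →ₗ[SF E M] VF E M} {G₀ G₁ : VF E M} (hP0 : P G₀ = G₀)
    (hP1 : P G₁ = G₁) (h00 : gVF G₀ G₀ p = 1) (h11 : gVF G₁ G₁ p = 1) (h01 : gVF G₀ G₁ p = 0) :
    ∃ h₀ h₁ : VF E M, P h₀ = h₀ ∧ P h₁ = h₁ ∧
      ∀ᶠ q in 𝓝 p, gVF h₀ h₀ q = 1 ∧ gVF h₁ h₁ q = 1 ∧ gVF h₀ h₁ q = 0 := by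
  obtain ⟨u, hu1, hu⟩ := exists_isqrt (gVF G₀ G₀) h00
  let h₀ : VF E M := u • G₀
  let K : VF E M := G₁ - gVF G₁ h₀ • h₀
  have hh : gVF G₁ h₀ p = 0 := by
    rw [gsymm, gsmul, h01, mul_zero]
  have hKp : gVF K K p = 1 := by
    have e1 : K p = G₁ p := by
      change G₁ p - (gVF G₁ h₀ • h₀ : VF E M) p = G₁ p
      rw [smulVF_apply, hh, zero_smul, sub_zero]
    rw [gVF_apply, e1]; exact h11
  obtain ⟨v, hv1, hv⟩ := exists_isqrt (gVF K K) hKp
  have hPh0 : P h₀ = h₀ := by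
    change P (u • G₀) = u • G₀
    rw [map_smul, hP0]
  refine ⟨h₀, v • K, hPh0, ?_, ?_⟩
  · change P (v • (G₁ - gVF G₁ h₀ • h₀)) = v • (G₁ - gVF G₁ h₀ • h₀)
    rw [map_smul, map_sub, map_smul, hP1, hPh0]
  · filter_upwards [hu, hv] with q a1 a2
    have b1 : gVF h₀ h₀ q = 1 := by
      change gVF (u • G₀) (u • G₀) q = 1
      rw [gsmul, gsymm, gsmul, ← a1]; ring
    refine ⟨b1, ?_, ?_⟩
    · rw [gsmul, gsymm, gsmul, ← a2]; ring
    · have b2 : gVF K h₀ q = 0 := by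
        change gVF (G₁ - gVF G₁ h₀ • h₀) h₀ q = 0
        rw [gsub, gsmul, b1]; ring
      rw [gsymm, gsmul, b2, mul_zero]

variable {hcov : IsLC cov} {lam : ℝ} {P : VF E M →ₗ[SF E M] VF E M}

theorem peq_of (hE : Module.finrank ℝ E = 4) (hS : Split hcov lam P) {h₀ h₁ : VF E M} {q : M}
    (hP0 : P h₀ = h₀) (hP1 : P h₁ = h₁)
    (h00 : gVF h₀ h₀ q = 1) (h11 : gVF h₁ h₁ q = 1) (h01 : gVF h₀ h₁ q = 0) (X Y : VF E M) :
    gVF (P X) Y q = gVF h₀ X q * gVF h₀ Y q + gVF h₁ X q * gVF h₁ Y q := by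
  obtain ⟨F, hF, f0, f1, f2, f3⟩ := hS.rank q
  have hon : Orthonormal ℝ (fr F q) := hF
  -- the projection in the frame
  have hPg : ∀ X Y : VF E M, gVF (P X) Y q =
      gVF (F 0) X q * gVF (F 0) Y q + gVF (F 1) X q * gVF (F 1) Y q := by
    intro X Y
    have e := parseval_fr hE hon (P X q) (Y q)
    have g : ∀ i, inner ℝ (F i q) (P X q) = (inner ℝ (P (F i) q) (X q) : ℝ) := by
      intro i
      exact (congrArg (fun f : SF E M => f q) (hS.symm (F i) X)).symm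
    rw [Fin.sum_univ_four] at e
    simp only [fr] at e
    rw [g 0, g 1, g 2, g 3, f0, f1, f2, f3, inner_zero_left] at e
    rw [gVF_apply, e]
    simp only [gVF_apply]
    ring
  have key : ∀ h : VF E M, P h = h → ∀ Y, gVF h Y q =
      gVF (F 0) h q * gVF (F 0) Y q + gVF (F 1) h q * gVF (F 1) Y q := by
    intro h hh Y
    have := hPg h Y
    rwa [hh] at this
  have c := col2 (a := gVF (F 0) h₀ q) (b := gVF (F 1) h₀ q) (c := gVF (F 0) h₁ q)
    (d := gVF (F 1) h₁ q) ((key h₀ hP0 h₀).symm.trans h00) ((key h₁ hP1 h₁).symm.trans h11)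
    ((key h₀ hP0 h₁).symm.trans h01)
  rw [hPg, key h₀ hP0 X, key h₀ hP0 Y, key h₁ hP1 X, key h₁ hP1 Y]
  obtain ⟨c1, c2, c3⟩ := c
  linear_combination (-(gVF (F 0) X q * gVF (F 0) Y q)) * c1
    - (gVF (F 1) X q * gVF (F 1) Y q) * c2
    - (gVF (F 0) X q * gVF (F 1) Y q + gVF (F 1) X q * gVF (F 0) Y q) * c3

/-- local representation of a one-form by a field -/
theorem exists_riesz (hE : Module.finrank ℝ E = 4) (hcov : IsLC cov) (p : M) (h₀ h₁ : VF E M)
    (F₀ : Fin 4 → VF E M) (hF₀ : ∀ i j, gVF (F₀ i) (F₀ j) p = if i = j then 1 else 0) :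
    ∃ w : VF E M, ∀ᶠ q in 𝓝 p, ∀ X, gVF w X q = gVF (nabVF cov hcov.smooth X h₀) h₁ q := by
  obtain ⟨F, hF, -, -⟩ := syncVF hcov hE p F₀ hF₀
  refine ⟨∑ i, gVF (nabVF cov hcov.smooth (F i) h₀) h₁ • F i, ?_⟩
  filter_upwards [hF] with q hq X
  have e1 := expandVF hE q F hq X
  have e2 : nabVF cov hcov.smooth X h₀ q = ∑ i, gVF X (F i) q • nabVF cov hcov.smooth (F i) h₀ q := by
    change cov h₀ q (X q) = ∑ i, gVF X (F i) q • cov h₀ q (F i q)
    conv_lhs => rw [e1]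
    rw [map_sum]
    exact Finset.sum_congr rfl fun i _ => map_smul _ _ _
  rw [gVF_apply, gVF_apply, e2, VF.sum_apply, sum_inner, sum_inner]
  refine Finset.sum_congr rfl fun i _ => ?_
  rw [smulVF_apply, inner_smul_left, inner_smul_left, gVF_apply, gVF_apply,
    real_inner_comm (X q) (F i q)]
  simp only [RCLike.conj_to_real]
  ring

theorem exists_t1 (hE : Module.finrank ℝ E = 4) (hS : Split hcov lam P) (p : M) :
    ∃ h₀ h₁ w : VF E M, P h₀ = h₀ ∧ P h₁ = h₁ ∧ ∀ᶠ q in 𝓝 p, T1At hcov P h₀ h₁ w q ∧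
      gVF h₀ h₁ q = 0 ∧ gVF h₀ h₀ q = 1 ∧ gVF h₁ h₁ q = 1 ∧
      ∀ X, gVF w X q = gVF (nabVF cov hcov.smooth X h₀) h₁ q := by
  obtain ⟨F, hF, f0, f1, f2, f3⟩ := hS.rank p
  have hon : ∀ i j, gVF (F i) (F j) p = if i = j then 1 else 0 := by
    intro i j
    exact (orthonormal_iff_ite.1 hF) i j
  have hPp : ∀ X Y : VF E M, gVF (P X) (P Y) p = gVF (P X) Y p := by
    intro X Y
    have := congrArg (fun f : SF E M => f p) (hS.symm (P X) Y)
    rw [hS.proj] at this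
    exact this.symm
  have g : ∀ i j, P (F i) p = F i p → gVF (P (F i)) (P (F j)) p = gVF (F i) (F j) p := by
    intro i j h
    rw [hPp, gVF_apply, h]; rfl
  obtain ⟨h₀, h₁, hP0, hP1, hh⟩ := exists_on2 p (P := P) (G₀ := P (F 0)) (G₁ := P (F 1))
    (hS.proj _) (hS.proj _) (by rw [g 0 0 f0, hon]; simp) (by rw [g 1 1 f1, hon]; simp)
    (by rw [g 0 1 f0, hon]; simp)
  obtain ⟨w, hw⟩ := exists_riesz hE hcov p h₀ h₁ F hon
  refine ⟨h₀, h₁, w, hP0, hP1, ?_⟩
  filter_upwards [hh.eventually_nhds, hw] with q a1 a2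
  obtain ⟨b00, b11, b01⟩ := a1.self_of_nhds
  have hpe := peq_of hE hS hP0 hP1 b00 b11 b01
  -- derivatives of the scalar products
  have cst1 : ∀ (u : SF E M) (c : ℝ) (X : VF E M), (∀ᶠ x in 𝓝 q, u x = c) → DVF X u q = 0 := by
    intro u c X hu
    have e1 := DVF_local q u (algebraMap ℝ (SF E M) c) (hu.mono fun x hx => hx) X
    rw [e1, DVF_const]; rfl
  have hn0 : ∀ X, P (nabVF cov hcov.smooth X h₀) = nabVF cov hcov.smooth X h₀ := fun X => by
    rw [← hS.par, hP0]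
  have hn1 : ∀ X, P (nabVF cov hcov.smooth X h₁) = nabVF cov hcov.smooth X h₁ := fun X => by
    rw [← hS.par, hP1]
  have s0 : ∀ X, gVF h₀ (nabVF cov hcov.smooth X h₀) q = 0 := by
    intro X
    have m := metricVF hcov X h₀ h₀ q
    rw [cst1 _ 1 X (a1.mono fun x hx => hx.1), gsymm (nabVF cov hcov.smooth X h₀)] at m
    linarith
  have s1 : ∀ X, gVF h₁ (nabVF cov hcov.smooth X h₁) q = 0 := by
    intro X
    have m := metricVF hcov X h₁ h₁ q
    rw [cst1 _ 1 X (a1.mono fun x hx => hx.2.1), gsymm (nabVF cov hcov.smooth X h₁)] at m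
    linarith
  have s2 : ∀ X, gVF h₀ (nabVF cov hcov.smooth X h₁) q = -gVF w X q := by
    intro X
    have m := metricVF hcov X h₀ h₁ q
    rw [cst1 _ 0 X (a1.mono fun x hx => hx.2.2), ← a2 X] at m
    linarith
  refine ⟨⟨hpe, fun X Y => ?_, fun X Y => ?_⟩, b01, b00, b11, a2⟩
  · have e := hpe (nabVF cov hcov.smooth X h₀) Y
    rw [hn0, s0, gsymm h₁, ← a2 X] at e
    linear_combination e
  · have e := hpe (nabVF cov hcov.smooth X h₁) Y
    rw [hn1, s1, s2] at e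
    linear_combination e

/-- exterior derivative of the one-form of `v` -/
theorem dform (hcov : IsLC cov) (v X Y : VF E M) (q : M) :
    DVF X (gVF v Y) q - DVF Y (gVF v X) q -
      gVF v (nabVF cov hcov.smooth X Y - nabVF cov hcov.smooth Y X) q =
    gVF (nabVF cov hcov.smooth X v) Y q - gVF (nabVF cov hcov.smooth Y v) X q := by
  have m1 := metricVF hcov X v Y q
  have m2 := metricVF hcov Y v X q
  have e : gVF v (nabVF cov hcov.smooth X Y - nabVF cov hcov.smooth Y X) q =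
      gVF v (nabVF cov hcov.smooth X Y) q - gVF v (nabVF cov hcov.smooth Y X) q := by
    rw [gsymm, gsub, gsymm, gsymm (nabVF cov hcov.smooth Y X)]
  linear_combination m1 - m2 - e

/-- the curvature of the connection form -/
theorem dconn (hS : Split hcov lam P) {h₀ h₁ w : VF E M} (hP0 : P h₀ = h₀) (hP1 : P h₁ = h₁)
    {q : M} (h : T1At hcov P h₀ h₁ w q) (h01 : gVF h₀ h₁ q = 0)
    (hw : ∀ᶠ x in 𝓝 q, ∀ X, gVF w X x = gVF (nabVF cov hcov.smooth X h₀) h₁ x) (X Y : VF E M) :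
    DVF X (gVF w Y) q - DVF Y (gVF w X) q -
      gVF w (nabVF cov hcov.smooth X Y - nabVF cov hcov.smooth Y X) q =
    lam * (gVF h₀ Y q * gVF h₁ X q - gVF h₀ X q * gVF h₁ Y q) := by
  have d : ∀ A B : VF E M, DVF A (gVF w B) q =
      gVF (nabVF cov hcov.smooth A (nabVF cov hcov.smooth B h₀)) h₁ q := by
    intro A B
    have e1 := DVF_local q (gVF w B) (gVF (nabVF cov hcov.smooth B h₀) h₁)
      (hw.mono fun x hx => hx B) A
    have m := metricVF hcov A (nabVF cov hcov.smooth B h₀) h₁ q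
    have e2 : gVF (nabVF cov hcov.smooth B h₀) (nabVF cov hcov.smooth A h₁) q = 0 := by
      rw [gsymm, h.nab1, gsymm h₀, h.nab0, gsymm h₁, h01]; ring
    rw [e1, m, e2, add_zero]
  have hR := congrArg (fun f : SF E M => f q) (hS.curv X Y h₀ h₁)
  have e0 : (lcOf hcov).Rm X Y h₀ h₁ q =
      gVF (nabVF cov hcov.smooth X (nabVF cov hcov.smooth Y h₀) -
        nabVF cov hcov.smooth Y (nabVF cov hcov.smooth X h₀) -
        nabVF cov hcov.smooth (nabVF cov hcov.smooth X Y - nabVF cov hcov.smooth Y X) h₀) h₁ q := rfl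
  have e1 : ∀ A h : VF E M, P h = h → gVF (P A) h q = gVF h A q := by
    intro A h hh
    have := congrArg (fun f : SF E M => f q) (hS.symm A h)
    rw [hh] at this
    exact this.trans (gsymm A h q)
  have e2 : ∀ A h : VF E M, P h = h → gVF (A - P A) h q = 0 := by
    intro A h hh
    rw [gsub, e1 A h hh, gsymm, sub_self]
  have hR' : (lcOf hcov).Rm X Y h₀ h₁ q = lam * (gVF (P Y) h₀ q * gVF (P X) h₁ q -
      gVF (P X) h₀ q * gVF (P Y) h₁ q + (gVF (Y - P Y) h₀ q * gVF (X - P X) h₁ q -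
        gVF (X - P X) h₀ q * gVF (Y - P Y) h₁ q)) := hR
  rw [e1 Y h₀ hP0, e1 X h₁ hP1, e1 X h₀ hP0, e1 Y h₁ hP1, e2 Y h₀ hP0, e2 X h₀ hP0,
    e0, gsub, gsub] at hR'
  rw [d, d, hw.self_of_nhds]
  linear_combination hR'

/-- the matrix of one-forms of the equations of a splitting -/
def aMat (lam : ℝ) (h₀ h₁ w : VF E M) : Fin 3 → Fin 3 → VF E M :=
  ![![0, h₀, h₁], ![(cst (-lam) : SF E M) • h₀, 0, w], ![(cst (-lam) : SF E M) • h₁, -w, 0]]

theorem gcst (c : ℝ) (X Y : VF E M) : gVF ((cst c : SF E M) • X) Y = cst c * gVF X Y := by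
  ext q; exact gsmul _ _ _ q

theorem DVF_cmul (X : VF E M) (c : ℝ) (f : SF E M) (q : M) :
    DVF X (cst c * f) q = c * DVF X f q := by
  have e0 : DVF X (cst c : SF E M) = 0 := DVF_const X c
  rw [DVF_mul, e0]
  change 0 * f q + c * DVF X f q = c * DVF X f q
  ring

theorem DVF_zero (X : VF E M) (q : M) : DVF X (0 : SF E M) q = 0 := by
  have e := DVF_cmul X 0 (0 : SF E M) q
  rw [mul_zero, zero_mul] at e
  exact e

/-- the flatness of the system -/
theorem aMat_flat (hS : Split hcov lam P) {h₀ h₁ w : VF E M} (hP0 : P h₀ = h₀) (hP1 : P h₁ = h₁)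
    {q : M} (h : T1At hcov P h₀ h₁ w q) (h01 : gVF h₀ h₁ q = 0)
    (hw : ∀ᶠ x in 𝓝 q, ∀ X, gVF w X x = gVF (nabVF cov hcov.smooth X h₀) h₁ x) (X Y : VF E M)
    (i j : Fin 3) :
    DVF X (gVF (aMat lam h₀ h₁ w i j) Y) q - DVF Y (gVF (aMat lam h₀ h₁ w i j) X) q -
        gVF (aMat lam h₀ h₁ w i j) (nabVF cov hcov.smooth X Y - nabVF cov hcov.smooth Y X) q =
      ∑ k, (gVF (aMat lam h₀ h₁ w i k) X q * gVF (aMat lam h₀ h₁ w k j) Y q -
        gVF (aMat lam h₀ h₁ w i k) Y q * gVF (aMat lam h₀ h₁ w k j) X q) := by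
  have d0 : ∀ X Y, DVF X (gVF h₀ Y) q - DVF Y (gVF h₀ X) q -
      gVF h₀ (nabVF cov hcov.smooth X Y - nabVF cov hcov.smooth Y X) q =
      gVF w X q * gVF h₁ Y q - gVF w Y q * gVF h₁ X q := fun X Y => by
    rw [dform hcov, h.nab0, h.nab0]
  have d1 : ∀ X Y, DVF X (gVF h₁ Y) q - DVF Y (gVF h₁ X) q -
      gVF h₁ (nabVF cov hcov.smooth X Y - nabVF cov hcov.smooth Y X) q =
      -(gVF w X q * gVF h₀ Y q) + gVF w Y q * gVF h₀ X q := fun X Y => by
    rw [dform hcov, h.nab1, h.nab1]; ring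
  have d2 := dconn hS hP0 hP1 h h01 hw X Y
  -- the zero form, multiples, the opposite form
  have z : ∀ X Y : VF E M, DVF X (gVF (0 : VF E M) Y) q - DVF Y (gVF (0 : VF E M) X) q -
      gVF (0 : VF E M) (nabVF cov hcov.smooth X Y - nabVF cov hcov.smooth Y X) q = 0 := by
    intro X Y
    have e : ∀ Z : VF E M, gVF (0 : VF E M) Z = 0 := fun Z => by ext x; exact gzero Z x
    rw [e, e, e, DVF_zero, DVF_zero]
    change (0 : ℝ) - 0 - 0 = 0
    ring
  have m : ∀ (c : ℝ) (v X Y : VF E M), DVF X (gVF ((cst c : SF E M) • v) Y) q -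
      DVF Y (gVF ((cst c : SF E M) • v) X) q - gVF ((cst c : SF E M) • v)
        (nabVF cov hcov.smooth X Y - nabVF cov hcov.smooth Y X) q = c * (DVF X (gVF v Y) q -
      DVF Y (gVF v X) q - gVF v (nabVF cov hcov.smooth X Y - nabVF cov hcov.smooth Y X) q) := by
    intro c v X Y
    rw [gcst, gcst, gcst, DVF_cmul, DVF_cmul]
    change _ - _ - c * _ = _
    ring
  have n : -w = (cst (-1) : SF E M) • w := by
    ext x
    change -(w x) = (-1 : ℝ) • w x
    rw [neg_one_smul]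
  have c1 : ∀ (c : ℝ) (v Z : VF E M), gVF ((cst c : SF E M) • v) Z q = c * gVF v Z q :=
    fun c v Z => gsmul _ _ _ q
  rw [Fin.sum_univ_three]
  fin_cases i <;> fin_cases j
  · change DVF X (gVF (0 : VF E M) Y) q - DVF Y (gVF (0 : VF E M) X) q -
      gVF (0 : VF E M) (nabVF cov hcov.smooth X Y - nabVF cov hcov.smooth Y X) q =
      (gVF 0 X q * gVF 0 Y q - gVF 0 Y q * gVF 0 X q) +
      (gVF h₀ X q * gVF ((cst (-lam) : SF E M) • h₀) Y q -
        gVF h₀ Y q * gVF ((cst (-lam) : SF E M) • h₀) X q) +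
      (gVF h₁ X q * gVF ((cst (-lam) : SF E M) • h₁) Y q -
        gVF h₁ Y q * gVF ((cst (-lam) : SF E M) • h₁) X q)
    rw [z, c1, c1, c1, c1]; ring
  · change DVF X (gVF h₀ Y) q - DVF Y (gVF h₀ X) q -
      gVF h₀ (nabVF cov hcov.smooth X Y - nabVF cov hcov.smooth Y X) q =
      (gVF 0 X q * gVF h₀ Y q - gVF 0 Y q * gVF h₀ X q) +
      (gVF h₀ X q * gVF 0 Y q - gVF h₀ Y q * gVF 0 X q) +
      (gVF h₁ X q * gVF (-w) Y q - gVF h₁ Y q * gVF (-w) X q)
    rw [d0, gneg, gneg, gzero, gzero]; ring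
  · change DVF X (gVF h₁ Y) q - DVF Y (gVF h₁ X) q -
      gVF h₁ (nabVF cov hcov.smooth X Y - nabVF cov hcov.smooth Y X) q =
      (gVF 0 X q * gVF h₁ Y q - gVF 0 Y q * gVF h₁ X q) +
      (gVF h₀ X q * gVF w Y q - gVF h₀ Y q * gVF w X q) +
      (gVF h₁ X q * gVF 0 Y q - gVF h₁ Y q * gVF 0 X q)
    rw [d1, gzero, gzero]; ring
  · change DVF X (gVF ((cst (-lam) : SF E M) • h₀) Y) q -
      DVF Y (gVF ((cst (-lam) : SF E M) • h₀) X) q - gVF ((cst (-lam) : SF E M) • h₀)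
        (nabVF cov hcov.smooth X Y - nabVF cov hcov.smooth Y X) q =
      (gVF ((cst (-lam) : SF E M) • h₀) X q * gVF 0 Y q -
        gVF ((cst (-lam) : SF E M) • h₀) Y q * gVF 0 X q) +
      (gVF 0 X q * gVF ((cst (-lam) : SF E M) • h₀) Y q -
        gVF 0 Y q * gVF ((cst (-lam) : SF E M) • h₀) X q) +
      (gVF w X q * gVF ((cst (-lam) : SF E M) • h₁) Y q -
        gVF w Y q * gVF ((cst (-lam) : SF E M) • h₁) X q)
    rw [m, d0, c1, c1, c1, c1, gzero, gzero]; ring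
  · change DVF X (gVF (0 : VF E M) Y) q - DVF Y (gVF (0 : VF E M) X) q -
      gVF (0 : VF E M) (nabVF cov hcov.smooth X Y - nabVF cov hcov.smooth Y X) q =
      (gVF ((cst (-lam) : SF E M) • h₀) X q * gVF h₀ Y q -
        gVF ((cst (-lam) : SF E M) • h₀) Y q * gVF h₀ X q) +
      (gVF 0 X q * gVF 0 Y q - gVF 0 Y q * gVF 0 X q) +
      (gVF w X q * gVF (-w) Y q - gVF w Y q * gVF (-w) X q)
    rw [z, c1, c1, gneg, gneg]; ring
  · change DVF X (gVF w Y) q - DVF Y (gVF w X) q -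
      gVF w (nabVF cov hcov.smooth X Y - nabVF cov hcov.smooth Y X) q =
      (gVF ((cst (-lam) : SF E M) • h₀) X q * gVF h₁ Y q -
        gVF ((cst (-lam) : SF E M) • h₀) Y q * gVF h₁ X q) +
      (gVF 0 X q * gVF w Y q - gVF 0 Y q * gVF w X q) +
      (gVF w X q * gVF 0 Y q - gVF w Y q * gVF 0 X q)
    rw [d2, c1, c1, gzero, gzero]; ring
  · change DVF X (gVF ((cst (-lam) : SF E M) • h₁) Y) q -
      DVF Y (gVF ((cst (-lam) : SF E M) • h₁) X) q - gVF ((cst (-lam) : SF E M) • h₁)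
        (nabVF cov hcov.smooth X Y - nabVF cov hcov.smooth Y X) q =
      (gVF ((cst (-lam) : SF E M) • h₁) X q * gVF 0 Y q -
        gVF ((cst (-lam) : SF E M) • h₁) Y q * gVF 0 X q) +
      (gVF (-w) X q * gVF ((cst (-lam) : SF E M) • h₀) Y q -
        gVF (-w) Y q * gVF ((cst (-lam) : SF E M) • h₀) X q) +
      (gVF 0 X q * gVF ((cst (-lam) : SF E M) • h₁) Y q -
        gVF 0 Y q * gVF ((cst (-lam) : SF E M) • h₁) X q)
    rw [m, d1, c1, c1, c1, c1, gneg, gneg, gzero, gzero]; ring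
  · change DVF X (gVF (-w) Y) q - DVF Y (gVF (-w) X) q -
      gVF (-w) (nabVF cov hcov.smooth X Y - nabVF cov hcov.smooth Y X) q =
      (gVF ((cst (-lam) : SF E M) • h₁) X q * gVF h₀ Y q -
        gVF ((cst (-lam) : SF E M) • h₁) Y q * gVF h₀ X q) +
      (gVF (-w) X q * gVF 0 Y q - gVF (-w) Y q * gVF 0 X q) +
      (gVF 0 X q * gVF (-w) Y q - gVF 0 Y q * gVF (-w) X q)
    rw [n, m, d2, c1, c1, c1, c1, gzero, gzero]; ring
  · change DVF X (gVF (0 : VF E M) Y) q - DVF Y (gVF (0 : VF E M) X) q -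
      gVF (0 : VF E M) (nabVF cov hcov.smooth X Y - nabVF cov hcov.smooth Y X) q =
      (gVF ((cst (-lam) : SF E M) • h₁) X q * gVF h₁ Y q -
        gVF ((cst (-lam) : SF E M) • h₁) Y q * gVF h₁ X q) +
      (gVF (-w) X q * gVF w Y q - gVF (-w) Y q * gVF w X q) +
      (gVF 0 X q * gVF 0 Y q - gVF 0 Y q * gVF 0 X q)
    rw [z, c1, c1, gneg, gneg]; ring

/-- a solution of the first-order system gives a solution of `SolAt` -/
theorem solAt_of (hS : Split hcov lam P) {h₀ h₁ w : VF E M} (hP0 : P h₀ = h₀) (hP1 : P h₁ = h₁)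
    {q : M} (h : T1At hcov P h₀ h₁ w q) {z0 z1 z2 : SF E M}
    (e0 : ∀ᶠ x in 𝓝 q, ∀ X, DVF X z0 x = gVF h₀ X x * z1 x + gVF h₁ X x * z2 x)
    (e1 : ∀ X, DVF X z1 q = -lam * gVF h₀ X q * z0 q + gVF w X q * z2 q)
    (e2 : ∀ X, DVF X z2 q = -lam * gVF h₁ X q * z0 q - gVF w X q * z1 q) :
    SolAt hcov lam P z0 q := by
  have k : ∀ (v : VF E M), P v = v → ∀ X, gVF v (P X) q = gVF v X q := by
    intro v hv X
    have := congrArg (fun f : SF E M => f q) (hS.symm v X)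
    rw [hv] at this
    exact this.symm
  refine ⟨fun X Y => ?_, fun X => ?_⟩
  · have d := DVF_local q (DVF Y z0) (gVF h₀ Y * z1 + gVF h₁ Y * z2) (e0.mono fun x hx => hx Y) X
    have d' : DVF X (gVF h₀ Y * z1 + gVF h₁ Y * z2) q =
        DVF X (gVF h₀ Y) q * z1 q + gVF h₀ Y q * DVF X z1 q +
        (DVF X (gVF h₁ Y) q * z2 q + gVF h₁ Y q * DVF X z2 q) := by
      rw [DVF_add, DVF_mul, DVF_mul]; rfl
    have m0 := metricVF hcov X h₀ Y q
    have m1 := metricVF hcov X h₁ Y q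
    rw [h.nab0] at m0
    rw [h.nab1] at m1
    rw [d, d', m0, m1, e1, e2, e0.self_of_nhds, h.peq]
    ring
  · rw [e0.self_of_nhds, e0.self_of_nhds, k h₀ hP0, k h₁ hP1]

/-- **Local solutions from the local Frobenius theorem.** -/
theorem fb2Loc_of (hF : FBMStmt hcov) : FB2LocStmt hcov lam := by
  intro hE P hS p
  obtain ⟨h₀, h₁, w, hP0, hP1, hev⟩ := exists_t1 hE hS p
  obtain ⟨Φ, hΦ1, hΦ⟩ := hF 3 (aMat lam h₀ h₁ w) p (by
    filter_upwards [hev.eventually_nhds] with q hq X Y i j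
    obtain ⟨a1, a2, -, -, -⟩ := hq.self_of_nhds
    exact aMat_flat hS hP0 hP1 a1 a2 (hq.mono fun x hx => hx.2.2.2.2) X Y i j)
  -- the determinant
  have hdet : ∀ᶠ q in 𝓝 p, (Matrix.of fun i j => Φ i j q).det ≠ 0 := by
    have hc : Continuous fun q => (Matrix.of fun i j => Φ i j q).det := by
      refine Continuous.matrix_det ?_
      exact continuous_matrix fun i j => (Φ i j).contMDiff.continuous
    have h1 : (Matrix.of fun i j => Φ i j p).det ≠ 0 := by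
      have : (Matrix.of fun i j => Φ i j p) = 1 := by
        ext i j
        rw [Matrix.of_apply, hΦ1, Matrix.one_apply]
      rw [this, Matrix.det_one]
      exact one_ne_zero
    exact hc.continuousAt.eventually_ne h1
  obtain ⟨U, hU, hUo, hpU⟩ := mem_nhds_iff.1 ((hev.and (hΦ.and hdet)))
  refine ⟨U, hUo.mem_nhds hpU, fun q hq c V hV => ?_⟩
  have hdq : (Matrix.of fun i j => Φ i j q).det ≠ 0 := (hU hq).2.2
  let b : Fin 3 → ℝ := ![c, gVF h₀ V q, gVF h₁ V q]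
  let κ : Fin 3 → ℝ := (Matrix.of fun i j => Φ i j q)⁻¹.mulVec b
  have hκ : ∀ i, ∑ j, Φ i j q * κ j = b i := by
    intro i
    have : (Matrix.of fun i j => Φ i j q).mulVec κ = b := by
      change (Matrix.of fun i j => Φ i j q).mulVec ((Matrix.of fun i j => Φ i j q)⁻¹.mulVec b) = b
      rw [Matrix.mulVec_mulVec, Matrix.mul_nonsing_inv _ (isUnit_iff_ne_zero.2 hdq),
        Matrix.one_mulVec]
    exact congrFun this i
  let z : Fin 3 → SF E M := fun i => cst (κ 0) * Φ i 0 + cst (κ 1) * Φ i 1 + cst (κ 2) * Φ i 2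
  have hzq : ∀ i, z i q = b i := by
    intro i
    rw [← hκ i, Fin.sum_univ_three]
    change κ 0 * Φ i 0 q + κ 1 * Φ i 1 q + κ 2 * Φ i 2 q = _
    ring
  have hD : ∀ x ∈ U, ∀ (X : VF E M) (i : Fin 3), DVF X (z i) x =
      gVF (aMat lam h₀ h₁ w i 0) X x * z 0 x + gVF (aMat lam h₀ h₁ w i 1) X x * z 1 x +
        gVF (aMat lam h₀ h₁ w i 2) X x * z 2 x := by
    intro x hx X i
    have e := (hU hx).2.1 X i
    have e1 : DVF X (z i) x = κ 0 * DVF X (Φ i 0) x + κ 1 * DVF X (Φ i 1) x +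
        κ 2 * DVF X (Φ i 2) x := by
      change DVF X (cst (κ 0) * Φ i 0 + cst (κ 1) * Φ i 1 + cst (κ 2) * Φ i 2) x = _
      rw [DVF_add, DVF_add]
      change DVF X (cst (κ 0) * Φ i 0) x + DVF X (cst (κ 1) * Φ i 1) x +
        DVF X (cst (κ 2) * Φ i 2) x = _
      rw [DVF_cmul, DVF_cmul, DVF_cmul]
    rw [e1, e 0, e 1, e 2, Fin.sum_univ_three, Fin.sum_univ_three, Fin.sum_univ_three]
    change _ = _ * (κ 0 * Φ 0 0 x + κ 1 * Φ 0 1 x + κ 2 * Φ 0 2 x) +
      _ * (κ 0 * Φ 1 0 x + κ 1 * Φ 1 1 x + κ 2 * Φ 1 2 x) +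
      _ * (κ 0 * Φ 2 0 x + κ 1 * Φ 2 1 x + κ 2 * Φ 2 2 x)
    ring
  have hD0 : ∀ x ∈ U, ∀ X : VF E M, DVF X (z 0) x = gVF h₀ X x * z 1 x + gVF h₁ X x * z 2 x := by
    intro x hx X
    rw [hD x hx X 0]
    change gVF 0 X x * z 0 x + gVF h₀ X x * z 1 x + gVF h₁ X x * z 2 x = _
    rw [gzero]; ring
  have hD1 : ∀ x ∈ U, ∀ X : VF E M, DVF X (z 1) x = -lam * gVF h₀ X x * z 0 x +
      gVF w X x * z 2 x := by
    intro x hx X
    rw [hD x hx X 1]
    change gVF ((cst (-lam) : SF E M) • h₀) X x * z 0 x + gVF 0 X x * z 1 x +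
      gVF w X x * z 2 x = _
    rw [gzero, gsmul]
    change -lam * _ * _ + _ + _ = _
    ring
  have hD2 : ∀ x ∈ U, ∀ X : VF E M, DVF X (z 2) x = -lam * gVF h₁ X x * z 0 x -
      gVF w X x * z 1 x := by
    intro x hx X
    rw [hD x hx X 2]
    change gVF ((cst (-lam) : SF E M) • h₁) X x * z 0 x + gVF (-w) X x * z 1 x +
      gVF 0 X x * z 2 x = _
    rw [gzero, gsmul, gneg]
    change -lam * _ * _ + _ + _ = _
    ring
  refine ⟨z 0, fun x hx => ?_, hzq 0, fun X => ?_⟩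
  · refine solAt_of hS hP0 hP1 (hU hx).1.1 (z1 := z 1) (z2 := z 2) ?_ (hD1 x hx) (hD2 x hx)
    filter_upwards [hUo.mem_nhds hx] with y hy X using hD0 y hy X
  · have e := (hU hq).1.1.peq V X
    have e1 : gVF (P V) X q = gVF V X q := by
      rw [gVF_apply, hV]; rfl
    rw [hD0 q hq X, hzq 1, hzq 2, ← e1, e]
    change gVF h₀ X q * gVF h₀ V q + gVF h₁ X q * gVF h₁ V q = _
    ring

/-- FB2 from the local Frobenius theorem. -/
theorem fb2_of (hlam : 0 < lam) (hF : FBMStmt hcov) : FB2Stmt hcov lam :=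
  fb2_of_loc hlam (fb2Loc_of hF)

end

end Vale.Agent.P211.HK.S22
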