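import Vale.Agent.P211.HK.Geod
import Vale.Agent.P211.HK.IsoEnd
import Vale.Agent.P211.HK.S22Defs
import Vale.Agent.P211.HK.ISODefs

/-! P211 / HK / S22 (helper271): the functions of a parallel splitting along geodesics, and the
isometry with `S² × S²` from them. -/

set_option maxSynthPendingDepth 3
set_option linter.unusedSectionVars false

namespace Vale.Agent.P211.HK.S22

open scoped Manifold ContDiff Topology
open Bundle Filter VectorField Set Vale.Agent.P211 Vale.Agent.P211.NN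
open Vale.Agent.P234 Vale.Agent.P231 Vale.Agent.P211.S4 Vale.Agent.P211.HK.Geod

noncomputable section

/-! ### the equation of the harmonic oscillator -/

theorem osc {c : ℝ} {u w : ℝ → ℝ} (h1 : ∀ t, HasDerivAt u (w t) t)
    (h2 : ∀ t, HasDerivAt w (-(c ^ 2 * u t)) t) :
    u 1 = Real.cos c * u 0 + Real.sinc c * w 0 := by
  -- `s t = t sinc (c t)`
  obtain ⟨s, hs0, hs1, hs2⟩ : ∃ s : ℝ → ℝ, s 0 = 0 ∧ s 1 = Real.sinc c ∧
      ∀ t, HasDerivAt s (Real.cos (c * t)) t ∧ c ^ 2 * s t = c * Real.sin (c * t) := by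
    by_cases hc : c = 0
    · refine ⟨fun t => t, rfl, by rw [hc, Real.sinc_zero], fun t => ⟨?_, ?_⟩⟩
      · rw [hc, zero_mul, Real.cos_zero]; exact hasDerivAt_id t
      · rw [hc]; ring
    · refine ⟨fun t => Real.sin (c * t) / c, by simp, by
        show Real.sin (c * 1) / c = _
        rw [Real.sinc_of_ne_zero hc, mul_one], fun t => ⟨?_, ?_⟩⟩
      · have h3 : HasDerivAt (fun t => Real.sin (c * t)) (Real.cos (c * t) * (c * 1)) t :=
          ((hasDerivAt_id t).const_mul c).sin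
        have h4 := h3.div_const c
        rwa [mul_one, mul_div_cancel_right₀ _ hc] at h4
      · field_simp
  have hcos : ∀ t, HasDerivAt (fun t => Real.cos (c * t)) (-Real.sin (c * t) * (c * 1)) t :=
    fun t => ((hasDerivAt_id t).const_mul c).cos
  -- the difference
  set y : ℝ → ℝ := fun t => u t - (Real.cos (c * t) * u 0 + s t * w 0) with hy
  set y' : ℝ → ℝ := fun t => w t - (-Real.sin (c * t) * (c * 1) * u 0 + Real.cos (c * t) * w 0)
    with hy'
  have d1 : ∀ t, HasDerivAt y (y' t) t := fun t =>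
    (h1 t).sub (((hcos t).mul_const (u 0)).add ((hs2 t).1.mul_const (w 0)))
  have d2 : ∀ t, HasDerivAt y' (-(c ^ 2 * y t)) t := by
    intro t
    have h3 : HasDerivAt (fun t => -Real.sin (c * t) * (c * 1)) (-(Real.cos (c * t) * (c * 1)) *
        (c * 1)) t := (((hasDerivAt_id t).const_mul c).sin.neg).mul_const _
    have h4 := (h2 t).sub ((h3.mul_const (u 0)).add ((hcos t).mul_const (w 0)))
    refine h4.congr_deriv ?_
    have h5 := (hs2 t).2
    simp only [hy]
    linear_combination (- w 0) * h5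
  have hE : ∀ t, HasDerivAt (fun t => c ^ 2 * y t ^ 2 + y' t ^ 2) 0 t := by
    intro t
    have h3 := (((d1 t).pow 2).const_mul (c ^ 2)).add ((d2 t).pow 2)
    refine h3.congr_deriv ?_
    simp
    ring
  have hc0 : ∀ t, c ^ 2 * y t ^ 2 + y' t ^ 2 = 0 := by
    intro t
    have h3 := is_const_of_deriv_eq_zero (fun t => (hE t).differentiableAt)
      (fun t => (hE t).deriv) t 0
    rw [h3]
    simp [hy, hy', hs0]
  have hy'0 : ∀ t, y' t = 0 := by
    intro t
    have h3 := hc0 t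
    have h4 : y' t ^ 2 = 0 := by
      have := sq_nonneg (c * y t)
      have := sq_nonneg (y' t)
      nlinarith
    exact pow_eq_zero_iff two_ne_zero |>.1 h4
  have h3 := is_const_of_deriv_eq_zero (f := y) (fun t => (d1 t).differentiableAt)
      (fun t => by rw [(d1 t).deriv, hy'0]) 1 0
  have h4 : y 0 = 0 := by simp [hy, hs0]
  rw [h4] at h3
  simp only [hy, hs1, mul_one] at h3
  linarith

variable {E : Type} [NormedAddCommGroup E] [NormedSpace ℝ E] [FiniteDimensional ℝ E]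
  {M : Type} [MetricSpace M] [ChartedSpace E M] [IsManifold 𝓘(ℝ, E) ∞ M]
  [RiemannianBundle fun p : M => TangentSpace 𝓘(ℝ, E) p]
  [IsContMDiffRiemannianBundle 𝓘(ℝ, E) ∞ E fun p : M => TangentSpace 𝓘(ℝ, E) p]
  {cov : CovariantDerivative 𝓘(ℝ, E) E (TangentSpace 𝓘(ℝ, E) : M → Type)}
  {e : ∀ x : M, TangentSpace 𝓘(ℝ, E) x → M}

/-- three functions as in `SVStmt` -/
structure Tri (hcov : IsLC cov) (lam : ℝ) (P : VF E M →ₗ[SF E M] VF E M) (z : Fin 3 → SF E M) :
    Prop where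
  sol : ∀ i, Sol hcov lam P (z i)
  one : ∑ i, z i * z i = 1
  gr : ∀ X Y, ∑ i, DVF X (z i) * DVF Y (z i) = cst lam * gVF (P X) Y

/-- the map to `ℝ³` -/
def Zof (z : Fin 3 → SF E M) (x : M) : EuclideanSpace ℝ (Fin 3) := WithLp.toLp 2 fun a => z a x

/-- its differential -/
def Lof (z : Fin 3 → SF E M) (x : M) : TangentSpace 𝓘(ℝ, E) x →ₗ[ℝ] EuclideanSpace ℝ (Fin 3) :=
  ((WithLp.linearEquiv 2 ℝ (Fin 3 → ℝ)).symm : (Fin 3 → ℝ) →ₗ[ℝ] EuclideanSpace ℝ (Fin 3)).comp
    (LinearMap.pi fun a => ((mvfderiv 𝓘(ℝ, E) (z a) x : TangentSpace 𝓘(ℝ, E) x →L[ℝ] ℝ) :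
      TangentSpace 𝓘(ℝ, E) x →ₗ[ℝ] ℝ))

theorem Zof_apply (z : Fin 3 → SF E M) (x : M) (a : Fin 3) : Zof z x a = z a x := rfl

theorem Lof_apply (z : Fin 3 → SF E M) (x : M) (v : E) (a : Fin 3) :
    Lof z x v a = dd (z a) x v := rfl

theorem norm_Zof_sq (z : Fin 3 → SF E M) (x : M) : ‖Zof z x‖ ^ 2 = ∑ a, z a x * z a x := by
  rw [EuclideanSpace.norm_sq_eq]
  refine Finset.sum_congr rfl fun a _ => ?_
  rw [Zof_apply, Real.norm_eq_abs, sq_abs]
  ring

theorem norm_Lof_sq (z : Fin 3 → SF E M) (x : M) (v : E) :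
    ‖Lof z x v‖ ^ 2 = ∑ a, dd (z a) x v * dd (z a) x v := by
  rw [EuclideanSpace.norm_sq_eq]
  refine Finset.sum_congr rfl fun a _ => ?_
  rw [Lof_apply, Real.norm_eq_abs, sq_abs]
  ring

theorem sum_apply' (f : Fin 3 → SF E M) (x : M) : (∑ i, f i) x = ∑ i, f i x :=
  map_sum (evM x : SF E M →ₐ[ℝ] ℝ) f Finset.univ

variable {hcov : IsLC cov} {lam : ℝ} {P : VF E M →ₗ[SF E M] VF E M} {z : Fin 3 → SF E M}

theorem Tri.one_apply (h : Tri hcov lam P z) (x : M) : ∑ a, z a x * z a x = 1 := by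
  have h1 := congrArg (fun f : SF E M => f x) h.one
  simp only [sum_apply'] at h1
  exact h1

theorem Tri.gr_apply (h : Tri hcov lam P z) (X : VF E M) (x : M) :
    ∑ a, DVF X (z a) x * DVF X (z a) x = lam * gVF (P X) X x := by
  have h1 := congrArg (fun f : SF E M => f x) (h.gr X X)
  simp only [sum_apply'] at h1
  exact h1

theorem Tri.orth (h : Tri hcov lam P z) (x : M) (v : E) : ∑ a, dd (z a) x v * z a x = 0 := by
  obtain ⟨X, hX⟩ := exists_ext (E := E) x (v : TangentSpace 𝓘(ℝ, E) x)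
  have hX' : pv X x = v := hX
  have h1 : DVF X (∑ i, z i * z i) = 0 := by
    rw [h.one]
    have := DVF_const X 1
    rwa [map_one] at this
  rw [Fin.sum_univ_three, DVF_add, DVF_add, DVF_mul, DVF_mul, DVF_mul] at h1
  have h2 := congrArg (fun f : SF E M => f x) h1
  have h3 : (DVF X (z 0) x * z 0 x + z 0 x * DVF X (z 0) x +
      (DVF X (z 1) x * z 1 x + z 1 x * DVF X (z 1) x) +
      (DVF X (z 2) x * z 2 x + z 2 x * DVF X (z 2) x)) = 0 := h2
  rw [← hX', Fin.sum_univ_three, dd_X, dd_X, dd_X]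
  linarith

theorem ip_grad {f : SF E M} {N : VF E M} (hN : ∀ X, gVF N X = DVF X f) (x : M) (v : E) :
    Geod.ip x (pv N x) v = dd f x v := by
  obtain ⟨X, hX⟩ := exists_ext (E := E) x (v : TangentSpace 𝓘(ℝ, E) x)
  have hX' : pv X x = v := hX
  rw [← hX', ip_X, dd_X, hN]

/-- second derivative in the direction `v` -/
theorem Tri.hess (h : Tri hcov lam P z) {a : Fin 3} {N : VF E M} (hN : ∀ X, gVF N X = DVF X (z a))
    (x : M) (v : E) :
    Geod.ip x (cv cov N x v) v = -(∑ b, dd (z b) x v * dd (z b) x v) * z a x := by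
  obtain ⟨X, hX⟩ := exists_ext (E := E) x (v : TangentSpace 𝓘(ℝ, E) x)
  have hX' : pv X x = v := hX
  rw [← hX']
  simp only [dd_X]
  rw [h.gr_apply, cv_X hcov, ip_X]
  have h1 := metricVF hcov X N X x
  have h2 : gVF N (nabVF cov hcov.smooth X X) x = DVF (nabVF cov hcov.smooth X X) (z a) x := by
    rw [hN]
  rw [hN, h2] at h1
  have h3 := congrArg (fun f : SF E M => f x) ((h.sol a).1 X X)
  have h4 : DVF X (DVF X (z a)) x - DVF (nabVF cov hcov.smooth X X) (z a) x =
      -(lam * z a x * gVF (P X) X x) := h3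
  linarith

/-- the functions along a geodesic -/
theorem Tri.along (h : Tri hcov lam P z) (hE : Module.finrank ℝ E = 4) (F : Facts e) (x : M)
    (v : E) (a : Fin 3) : z a (e x v) = Real.cos ‖Lof z x v‖ * z a x +
      Real.sinc ‖Lof z x v‖ * dd (z a) x v := by
  -- the functions
  let u : Fin 3 → ℝ → ℝ := fun a t => z a (gam e x v t)
  let w : Fin 3 → ℝ → ℝ := fun a t => dd (z a) (gam e x v t) (vel e x v t)
  let k : ℝ → ℝ := fun t => ∑ b, w b t * w b t
  have hu : ∀ a t, HasDerivAt (u a) (w a t) t := fun a t => hasDerivAt_gam F.isExp (z a) x v t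
  have hw : ∀ a t, HasDerivAt (w a) (-(k t * u a t)) t := by
    intro a t
    obtain ⟨N, hN⟩ := exists_grad hE (z a)
    have h1 := hasDerivAt_ip hcov hE F N x v t
    have h2 : (fun s => Geod.ip (gam e x v s) (pv N (gam e x v s)) (vel e x v s)) = w a := by
      funext s
      exact ip_grad hN (gam e x v s) (vel e x v s)
    rw [h2] at h1
    refine h1.congr_deriv ?_
    rw [h.hess hN]
    show -(∑ b, w b t * w b t) * u a t = -(k t * u a t)
    rw [neg_mul]
  have horth : ∀ t, ∑ b, w b t * u b t = 0 := fun t => h.orth (gam e x v t) (vel e x v t)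
  have hk : ∀ t, HasDerivAt k 0 t := by
    intro t
    have h1 : HasDerivAt k (∑ b, (-(k t * u b t) * w b t + w b t * -(k t * u b t))) t :=
      HasDerivAt.fun_sum fun b _ => (hw b t).mul (hw b t)
    refine h1.congr_deriv ?_
    have h2 : ∑ b, (-(k t * u b t) * w b t + w b t * -(k t * u b t)) =
        -(2 * k t) * ∑ b, w b t * u b t := by
      rw [Finset.mul_sum]
      exact Finset.sum_congr rfl fun b _ => by ring
    rw [h2, horth, mul_zero]
  have hk0 : ∀ t, k t = ‖Lof z x v‖ ^ 2 := by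
    intro t
    have h1 := is_const_of_deriv_eq_zero (fun t => (hk t).differentiableAt)
      (fun t => (hk t).deriv) t 0
    rw [h1, norm_Lof_sq]
    show ∑ b, dd (z b) (gam e x v 0) (vel e x v 0) * dd (z b) (gam e x v 0) (vel e x v 0) = _
    rw [gam_zero F.isExp, vel_zero F.isExp]
  have h1 := osc (c := ‖Lof z x v‖) (u := u a) (w := w a) (hu a) (fun t => by
    rw [← hk0 t]; exact hw a t)
  have h2 : u a 1 = z a (e x v) := by
    show z a (gam e x v 1) = _
    have h3 : ((1 : ℝ) • (v : TangentSpace 𝓘(ℝ, E) x)) = v := one_smul ℝ _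
    unfold gam
    rw [h3]
  have h3 : u a 0 = z a x := by
    show z a (gam e x v 0) = _
    rw [gam_zero F.isExp]
  have h4 : w a 0 = dd (z a) x v := by
    show dd (z a) (gam e x v 0) (vel e x v 0) = _
    rw [gam_zero F.isExp, vel_zero F.isExp]
  rw [h2, h3, h4] at h1
  exact h1

theorem Tri.gc_eq (h : Tri hcov lam P z) (hE : Module.finrank ℝ E = 4) (F : Facts e) (x : M)
    (v : TangentSpace 𝓘(ℝ, E) x) : Zof z (e x v) = gc (Zof z x) (Lof z x v) := by
  ext a
  unfold gc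
  rw [Zof_apply, h.along hE F x v a]
  rfl

theorem Tri.norm_one (h : Tri hcov lam P z) (x : M) : ‖Zof z x‖ = 1 := by
  have h1 := norm_Zof_sq z x
  rw [h.one_apply] at h1
  exact (pow_eq_one_iff_of_nonneg (norm_nonneg _) two_ne_zero).1 h1

theorem Tri.inner_zero (h : Tri hcov lam P z) (x : M) (v : TangentSpace 𝓘(ℝ, E) x) :
    inner ℝ (Lof z x v) (Zof z x) = 0 := by
  rw [EuclideanSpace.inner_eq_star_dotProduct]
  have h1 := h.orth x v
  rw [← h1]
  simp only [dotProduct]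
  refine Finset.sum_congr rfl fun a _ => ?_
  exact mul_comm _ _

variable {P₂ : VF E M →ₗ[SF E M] VF E M} {z₂ : Fin 3 → SF E M}

theorem Tri.zdata (h : Tri hcov lam P z) (h₂ : Tri hcov lam P₂ z₂)
    (hP : ∀ X, P X + P₂ X = X) (hE : Module.finrank ℝ E = 4) (F : Facts e) :
    ZData (T := fun x : M => TangentSpace 𝓘(ℝ, E) x) e lam (Zof z) (Zof z₂) (Lof z) (Lof z₂) where
  n₁ := h.norm_one
  n₂ := h₂.norm_one
  o₁ := h.inner_zero
  o₂ := h₂.inner_zero
  sq x v := by
    obtain ⟨X, hX⟩ := exists_ext (E := E) x v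
    have hX' : pv X x = v := hX
    rw [norm_Lof_sq z x v, norm_Lof_sq z₂ x v, ← hX']
    simp only [dd_X]
    rw [h.gr_apply, h₂.gr_apply]
    have h3 : gVF (P X) X x + gVF (P₂ X) X x = gVF X X x := by
      have h5 : gVF (P X + P₂ X) X x = gVF X X x :=
        congrArg (fun Y : VF E M => (gVF Y X : SF E M) x) (hP X)
      rw [← h5]
      exact (inner_add_left (E := TangentSpace 𝓘(ℝ, E) x) _ _ _).symm
    have h4 : gVF X X x = ‖v‖ ^ 2 := by
      rw [gVF_apply, hX]
      exact real_inner_self_eq_norm_sq (F := TangentSpace 𝓘(ℝ, E) x) v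
    rw [← mul_add, h3, h4, hX']
  g₁ := h.gc_eq hE F
  g₂ := h₂.gc_eq hE F

/-- the isometry with the product of two round spheres -/
theorem Tri.isRoundS2S2 [CompactSpace M] [Nonempty M] (h : Tri hcov lam P z)
    (h₂ : Tri hcov lam P₂ z₂) (hP : ∀ X, P X + P₂ X = X) (hE : Module.finrank ℝ E = 4)
    (hlam : 0 < lam) (F : Facts e) : IsRoundS2S2 M √(1 / lam) := by
  have D := h.zdata h₂ hP hE F
  have X := eData_of_facts F
  have hd : ∀ x : M, Module.finrank ℝ (TangentSpace 𝓘(ℝ, E) x) + 2 =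
      Module.finrank ℝ (EuclideanSpace ℝ (Fin 3)) + Module.finrank ℝ (EuclideanSpace ℝ (Fin 3)) := by
    intro x
    rw [finrank_euclideanSpace_fin, show Module.finrank ℝ (TangentSpace 𝓘(ℝ, E) x) = 4 from hE]
  have h3 : Module.finrank ℝ (EuclideanSpace ℝ (Fin 3)) ≠ 2 := by
    rw [finrank_euclideanSpace_fin]; norm_num
  have h3' : 2 ≤ Module.finrank ℝ (EuclideanSpace ℝ (Fin 3)) := by
    rw [finrank_euclideanSpace_fin]; norm_num
  refine ⟨Zof z, Zof z₂, D.n₁, D.n₂, fun x y => ?_, fun a b ha hb => ?_⟩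
  · have h4 := D.dist_sq X hlam hd h3 h3 x y
    have h5 : √(1 / lam) ^ 2 = 1 / lam := Real.sq_sqrt (by positivity)
    rw [mul_pow, mul_pow, h5, ← mul_add, ← h4]
    rw [← mul_assoc, one_div, inv_mul_cancel₀ hlam.ne', one_mul]
    exact (Real.sqrt_sq dist_nonneg).symm
  · exact D.surj hlam hd h3' h3' ha hb

/-- the isometry from a splitting and the existence of the three functions -/
theorem isRoundS2S2_of [CompactSpace M] [SimplyConnectedSpace M] (hSV : SVStmt hcov lam)
    (hS : Split hcov lam P) (hS₂ : Split hcov lam P₂) (hP : ∀ X, P X + P₂ X = X)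
    (hE : Module.finrank ℝ E = 4) (hlam : 0 < lam) (F : Facts e) : IsRoundS2S2 M √(1 / lam) := by
  obtain ⟨z, h1, h2, h3⟩ := hSV hE inferInstance hlam P hS
  obtain ⟨z₂, k1, k2, k3⟩ := hSV hE inferInstance hlam P₂ hS₂
  obtain ⟨x⟩ : Nonempty M := inferInstance
  haveI : Nonempty M := ⟨x⟩
  exact Tri.isRoundS2S2 (z := z) (z₂ := z₂) ⟨h1, h2, h3⟩ ⟨k1, k2, k3⟩ hP hE hlam F

end

end Vale.Agent.P211.HK.S22
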