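import Vale.Agent.P211.HK.S22SPd
import Vale.Agent.P211.HK.SV
import Vale.Agent.P211.HK.S2Ode
import Vale.Agent.P211.HK.Fin0
import Vale.Agent.P231.Bd3.B6

/-! P211 / HK / S22: the isometry with `S² × S²`, from the local flat bundle theorem FB2. -/

set_option maxSynthPendingDepth 3
set_option linter.all false

namespace Vale.Agent.P211.HK.S22

open scoped Manifold ContDiff Topology RealInnerProductSpace
open Bundle Filter VectorField Vale.Agent.P211 Vale.Agent.P211.NN Vale.Agent.P234

noncomputable section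

section

variable {E : Type} [NormedAddCommGroup E] [NormedSpace ℝ E] [FiniteDimensional ℝ E]
  {M : Type} [TopologicalSpace M] [ChartedSpace E M] [IsManifold 𝓘(ℝ, E) ∞ M] [T2Space M]
  [RiemannianBundle fun p : M => TangentSpace 𝓘(ℝ, E) p]
  [IsContMDiffRiemannianBundle 𝓘(ℝ, E) ∞ E fun p : M => TangentSpace 𝓘(ℝ, E) p]
  {cov : CovariantDerivative 𝓘(ℝ, E) E (TangentSpace 𝓘(ℝ, E) : M → Type)}

/-- the complementary splitting -/
theorem Split.compl (hcov : IsLC cov) {lam : ℝ} {P : VF E M →ₗ[SF E M] VF E M}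
    (h : Split hcov lam P) : Split hcov lam (LinearMap.id - P) where
  proj X := by
    show (X - P X) - P (X - P X) = X - P X
    rw [map_sub, h.proj, sub_self, sub_zero]
  symm X Y := by
    show gVF (X - P X) Y = gVF X (Y - P Y)
    have h1 := h.symm X Y
    ext q
    have h2 := congrArg (fun f : SF E M => f q) h1
    have h2' : inner ℝ (P X q) (Y q) = (inner ℝ (X q) (P Y q) : ℝ) := h2
    rw [gVF_apply, gVF_apply, vfsub, vfsub, inner_sub_left, inner_sub_right, h2']
  par X Y := by
    show nabVF cov hcov.smooth X (Y - P Y) = nabVF cov hcov.smooth X Y - P (nabVF cov hcov.smooth X Y)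
    rw [← h.par X Y]
    exact (lcOf hcov).nab_sub X Y (P Y)
  rank p := by
    obtain ⟨F, hF, P0, P1, P2, P3⟩ := h.rank p
    refine ⟨![F 2, F 3, F 0, F 1], ?_, ?_, ?_, ?_, ?_⟩
    · have h1 := orthonormal_iff_ite.1 hF
      show Orthonormal ℝ fun i => (![F 2, F 3, F 0, F 1] : Fin 4 → VF E M) i p
      rw [orthonormal_iff_ite]
      intro i j
      fin_cases i <;> fin_cases j <;>
        first
        | exact h1 2 2 | exact h1 2 3 | exact h1 2 0 | exact h1 2 1
        | exact h1 3 2 | exact h1 3 3 | exact h1 3 0 | exact h1 3 1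
        | exact h1 0 2 | exact h1 0 3 | exact h1 0 0 | exact h1 0 1
        | exact h1 1 2 | exact h1 1 3 | exact h1 1 0 | exact h1 1 1
    · show F 2 p - P (F 2) p = F 2 p
      rw [P2, sub_zero]
    · show F 3 p - P (F 3) p = F 3 p
      rw [P3, sub_zero]
    · show F 0 p - P (F 0) p = 0
      rw [P0, sub_self]
    · show F 1 p - P (F 1) p = 0
      rw [P1, sub_self]
  curv X Y Z W := by
    rw [h.curv]
    have e : ∀ X : VF E M, (LinearMap.id - P : VF E M →ₗ[SF E M] VF E M) X = X - P X := fun X => rfl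
    simp only [e, sub_sub_cancel]
    ring

end

section

variable {E : Type} [NormedAddCommGroup E] [NormedSpace ℝ E] [FiniteDimensional ℝ E]
  {M : Type} [MetricSpace M] [ChartedSpace E M] [IsManifold 𝓘(ℝ, E) ∞ M]
  [RiemannianBundle fun p : M => TangentSpace 𝓘(ℝ, E) p]
  [IsContMDiffRiemannianBundle 𝓘(ℝ, E) ∞ E fun p : M => TangentSpace 𝓘(ℝ, E) p]
  [IsRiemannianManifold 𝓘(ℝ, E) M] [CompactSpace M] [ConnectedSpace M]
  {cov : CovariantDerivative 𝓘(ℝ, E) E (TangentSpace 𝓘(ℝ, E) : M → Type)}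

/-- S22: isometry with `S² × S²` -/
theorem s22_of {om : Form4 E M} {lam : ℝ} (hFB : ∀ hcov : IsLC cov, FB2Stmt hcov lam) :
    S22IsoStmt cov om lam := by
  intro hG hlam hLP hsc
  have hcov := hG.lc
  obtain ⟨P, hS⟩ := sp hcov lam hG.dim hsc hlam hLP
  obtain ⟨e, he, -, -⟩ := Vale.Agent.P234.main_unconditional (E := E) (M := M)
  have F := Vale.Agent.P234.facts_of_isExp he
  exact isRoundS2S2_of (sv (hFB hcov)) hS hS.compl
    (fun X => by show P X + (X - P X) = X; abel) hG.dim hlam F

end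

end

end Vale.Agent.P211.HK.S22
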