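import Vale.Agent.P211.HK.S22Defs
import Vale.Agent.P211.H555.Bridge

/-! P211 / HK / S22: parallel splitting, part a: linear algebra and the pointwise picture. -/

set_option maxSynthPendingDepth 3
set_option linter.all false

namespace Vale.Agent.P211.HK.S22

open scoped Manifold ContDiff Topology RealInnerProductSpace
open Bundle Filter VectorField Vale.Agent.P211 Vale.Agent.P211.NN

noncomputable section

section alg

variable {T : Type*} [NormedAddCommGroup T] [InnerProductSpace ℝ T]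

/-- projection onto the plane spanned by `f 0`, `f 1` -/
def pl (f : Fin 4 → T) : T →ₗ[ℝ] T :=
  (innerₗ T (f 0)).smulRight (f 0) + (innerₗ T (f 1)).smulRight (f 1)

theorem pl_apply (f : Fin 4 → T) (v : T) : pl f v = ⟪f 0, v⟫ • f 0 + ⟪f 1, v⟫ • f 1 := rfl

/-- rotation in the plane of `f i`, `f j` -/
def rot (f : Fin 4 → T) (i j : Fin 4) : T →ₗ[ℝ] T :=
  (innerₗ T (f j)).smulRight (f i) - (innerₗ T (f i)).smulRight (f j)

theorem rot_apply (f : Fin 4 → T) (i j : Fin 4) (v : T) :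
    rot f i j v = ⟪f j, v⟫ • f i - ⟪f i, v⟫ • f j := rfl

/-- curvature endomorphism -/
def cur (lam a b : ℝ) (f : Fin 4 → T) : T →ₗ[ℝ] T := lam • (a • rot f 0 1 + b • rot f 2 3)

theorem cur_apply (lam a b : ℝ) (f : Fin 4 → T) (v : T) :
    cur lam a b f v = lam • (a • rot f 0 1 v + b • rot f 2 3 v) := rfl

variable {f : Fin 4 → T}

theorem on_eq (hf : Orthonormal ℝ f) (i j : Fin 4) : ⟪f i, f j⟫ = if i = j then 1 else 0 :=
  orthonormal_iff_ite.1 hf i j

theorem cur_sq (hf : Orthonormal ℝ f) (he : ∀ v, v = ∑ i, ⟪f i, v⟫ • f i) (lam a b : ℝ) (v : T) :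
    cur lam a b f (cur lam a b f v) = (-lam ^ 2) • (a ^ 2 • pl f v + b ^ 2 • (v - pl f v)) := by
  have e2 : v - pl f v = ⟪f 2, v⟫ • f 2 + ⟪f 3, v⟫ • f 3 := by
    conv_lhs => rw [he v]
    simp only [Fin.sum_univ_four, pl_apply, inner_add_right, inner_smul_right, on_eq hf]
    simp only [Fin.isValue, if_true, mul_one, Fin.reduceEq, if_false, mul_zero, add_zero, zero_add]
    abel
  rw [e2]
  simp only [cur_apply, rot_apply, pl_apply, inner_smul_right, inner_add_right, inner_sub_right,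
    on_eq hf, Fin.isValue, if_true, mul_one, Fin.reduceEq, if_false, mul_zero, add_zero, zero_add,
    sub_zero, zero_sub, sub_self]
  module

theorem pl_on (hf : Orthonormal ℝ f) : pl f (f 0) = f 0 ∧ pl f (f 1) = f 1 ∧ pl f (f 2) = 0 ∧
    pl f (f 3) = 0 := by
  refine ⟨?_, ?_, ?_, ?_⟩ <;>
  simp only [pl_apply, on_eq hf, Fin.isValue, if_true, Fin.reduceEq, if_false, add_zero, zero_add,
    one_smul, zero_smul]

theorem pl_idem (hf : Orthonormal ℝ f) (v : T) : pl f (pl f v) = pl f v := by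
  simp only [pl_apply, inner_add_right, inner_smul_right, on_eq hf, Fin.isValue, if_true,
    Fin.reduceEq, if_false, mul_one, mul_zero, add_zero, zero_add]

theorem pl_symm (v w : T) : ⟪pl f v, w⟫ = ⟪v, pl f w⟫ := by
  simp only [pl_apply, inner_add_left, inner_add_right, inner_smul_left, inner_smul_right,
    RCLike.conj_to_real]
  rw [real_inner_comm v (f 0), real_inner_comm v (f 1)]
  ring

/-- swap of the two planes -/
def sw (f : Fin 4 → T) : Fin 4 → T := ![f 2, f 3, f 0, f 1]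

theorem pl_sw (he : ∀ v, v = ∑ i, ⟪f i, v⟫ • f i) (v : T) : pl (sw f) v = v - pl f v := by
  conv_rhs => rw [he v]
  have : pl f (∑ i, ⟪f i, v⟫ • f i) = pl f v := by rw [← he v]
  rw [this]
  simp only [Fin.sum_univ_four, pl_apply, sw]
  simp only [Matrix.cons_val_zero, Matrix.cons_val_one, Matrix.head_cons]
  abel

/-- sum of squares of the components of an endomorphism -/
theorem trace_pl {h : Fin 4 → T} (hf : Orthonormal ℝ f) (heh : ∀ v w, ⟪v, w⟫ = ∑ i, ⟪h i, v⟫ * ⟪h i, w⟫) :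
    ∑ i, ⟪pl f (h i), h i⟫ = 2 := by
  have h1 : ∀ i, ⟪pl f (h i), h i⟫ = ⟪h i, f 0⟫ * ⟪h i, f 0⟫ + ⟪h i, f 1⟫ * ⟪h i, f 1⟫ := by
    intro i
    simp only [pl_apply, inner_add_left, inner_smul_left, RCLike.conj_to_real]
    rw [real_inner_comm (h i) (f 0), real_inner_comm (h i) (f 1)]
  simp only [h1, Finset.sum_add_distrib, ← heh, on_eq hf]
  norm_num

end alg

/-! ### the pointwise picture -/

variable {E : Type} [NormedAddCommGroup E] [NormedSpace ℝ E] [FiniteDimensional ℝ E]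
  {M : Type} [TopologicalSpace M] [ChartedSpace E M] [IsManifold 𝓘(ℝ, E) ∞ M] [T2Space M]
  [RiemannianBundle fun p : M => TangentSpace 𝓘(ℝ, E) p]
  [IsContMDiffRiemannianBundle 𝓘(ℝ, E) ∞ E fun p : M => TangentSpace 𝓘(ℝ, E) p]
  {cov : CovariantDerivative 𝓘(ℝ, E) E (TangentSpace 𝓘(ℝ, E) : M → Type)}

/-- values of a frame -/
def fr (F : Fin 4 → VF E M) (q : M) : Fin 4 → TangentSpace 𝓘(ℝ, E) q := fun i => F i q

/-- a frame adapted to the splitting at a point -/
def Adp (cov : CovariantDerivative 𝓘(ℝ, E) E (TangentSpace 𝓘(ℝ, E) : M → Type)) (lam : ℝ) (q : M)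
    (F : Fin 4 → VF E M) : Prop :=
  Orthonormal ℝ (fr F q) ∧ ∀ X Y Z W : VF E M, NN.Rm cov X Y Z W q =
    lam * (area F 0 1 X Y q * area F 0 1 W Z q + area F 2 3 X Y q * area F 2 3 W Z q)

theorem expand_fr (hE : Module.finrank ℝ E = 4) {q : M} {f : Fin 4 → TangentSpace 𝓘(ℝ, E) q}
    (hf : Orthonormal ℝ f) (v : TangentSpace 𝓘(ℝ, E) q) : v = ∑ i, ⟪f i, v⟫ • f i := by
  have hc : Fintype.card (Fin 4) = Module.finrank ℝ (TangentSpace 𝓘(ℝ, E) q) := by
    rw [show Module.finrank ℝ (TangentSpace 𝓘(ℝ, E) q) = 4 from hE]; simp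
  set bv := basisOfOrthonormalOfCardEqFinrank hf hc with hbv
  have ev : (bv : Fin 4 → TangentSpace 𝓘(ℝ, E) q) = f :=
    coe_basisOfOrthonormalOfCardEqFinrank hf hc
  have hv' : Orthonormal ℝ bv := by rw [ev]; exact hf
  set ov := bv.toOrthonormalBasis hv' with hov
  have eov : (ov : Fin 4 → TangentSpace 𝓘(ℝ, E) q) = f := by
    rw [hov, Module.Basis.coe_toOrthonormalBasis, ev]
  have := ov.sum_repr' v
  rw [eov] at this
  exact this.symm

theorem parseval_fr (hE : Module.finrank ℝ E = 4) {q : M} {f : Fin 4 → TangentSpace 𝓘(ℝ, E) q}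
    (hf : Orthonormal ℝ f) (v w : TangentSpace 𝓘(ℝ, E) q) : ⟪v, w⟫ = ∑ i, ⟪f i, v⟫ * ⟪f i, w⟫ := by
  conv_lhs => rw [expand_fr hE hf v]
  rw [sum_inner]
  exact Finset.sum_congr rfl fun i _ => by rw [inner_smul_left]; rfl

theorem Rm_at (hcov : IsLC cov) (X Y Z W : VF E M) (q : M) :
    ⟪(lcOf hcov).R X Y Z q, W q⟫ = NN.Rm cov X Y Z W q := by
  have := H555.rm_eq hcov X Y Z W
  rw [this]; rfl

theorem R_at (hcov : IsLC cov) {lam : ℝ} {q : M} {F : Fin 4 → VF E M} (h : Adp cov lam q F)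
    (X Y Z : VF E M) : (lcOf hcov).R X Y Z q =
      cur lam (area F 0 1 X Y q) (area F 2 3 X Y q) (fr F q) (Z q) := by
  refine ext_inner_right ℝ fun w => ?_
  obtain ⟨W, hW⟩ := exists_ext (E := E) q w
  rw [← hW, Rm_at, h.2]
  simp only [cur_apply, rot_apply, inner_smul_left, inner_add_left, inner_sub_left,
    RCLike.conj_to_real, area, fr]
  ring

theorem RR_at (hE : Module.finrank ℝ E = 4) (hcov : IsLC cov) {lam : ℝ} {q : M}
    {F : Fin 4 → VF E M} (h : Adp cov lam q F)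
    (X Y Z : VF E M) : (lcOf hcov).R X Y ((lcOf hcov).R X Y Z) q =
      (-lam ^ 2) • (area F 0 1 X Y q ^ 2 • pl (fr F q) (Z q) +
        area F 2 3 X Y q ^ 2 • (Z q - pl (fr F q) (Z q))) := by
  rw [R_at hcov h, R_at hcov h, cur_sq h.1 (expand_fr hE h.1)]

end

end Vale.Agent.P211.HK.S22
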