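import Vale.Agent.P211.HK.S22SPa

/-! P211 / HK / S22: parallel splitting, part b: the smooth local projection and the two-valued
choice. -/

set_option maxSynthPendingDepth 3
set_option linter.all false

namespace Vale.Agent.P211.HK.S22

open scoped Manifold ContDiff Topology RealInnerProductSpace
open Bundle Filter VectorField Vale.Agent.P211 Vale.Agent.P211.NN

noncomputable section

variable {E : Type} [NormedAddCommGroup E] [NormedSpace ℝ E] [FiniteDimensional ℝ E]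
  {M : Type} [TopologicalSpace M] [ChartedSpace E M] [IsManifold 𝓘(ℝ, E) ∞ M] [T2Space M]
  [RiemannianBundle fun p : M => TangentSpace 𝓘(ℝ, E) p]
  [IsContMDiffRiemannianBundle 𝓘(ℝ, E) ∞ E fun p : M => TangentSpace 𝓘(ℝ, E) p]
  {cov : CovariantDerivative 𝓘(ℝ, E) E (TangentSpace 𝓘(ℝ, E) : M → Type)}

/-- `Z ↦ R(A,B) R(A,B) Z` -/
def QQ (hcov : IsLC cov) (A B : VF E M) : VF E M →ₗ[SF E M] VF E M where
  toFun Z := (lcOf hcov).R A B ((lcOf hcov).R A B Z)
  map_add' X Y := by rw [LC.R_add3, LC.R_add3]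
  map_smul' c X := by rw [LC.R_smul3, LC.R_smul3]; rfl

theorem QQ_at (hE : Module.finrank ℝ E = 4) (hcov : IsLC cov) {lam : ℝ} {q : M}
    {F : Fin 4 → VF E M} (h : Adp cov lam q F) (A B Z : VF E M) :
    QQ hcov A B Z q = (-lam ^ 2) • (area F 0 1 A B q ^ 2 • pl (fr F q) (Z q) +
        area F 2 3 A B q ^ 2 • (Z q - pl (fr F q) (Z q))) := RR_at hE hcov h A B Z

theorem QQQQ_at (hE : Module.finrank ℝ E = 4) (hcov : IsLC cov) {lam : ℝ} {q : M}
    {F : Fin 4 → VF E M} (h : Adp cov lam q F) (A B Z : VF E M) :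
    QQ hcov A B (QQ hcov A B Z) q =
      (lam ^ 4) • (area F 0 1 A B q ^ 4 • pl (fr F q) (Z q) +
        area F 2 3 A B q ^ 4 • (Z q - pl (fr F q) (Z q))) := by
  rw [QQ_at hE hcov h, QQ_at hE hcov h]
  have h1 : pl (fr F q) (pl (fr F q) (Z q)) = pl (fr F q) (Z q) := pl_idem h.1 _
  simp only [map_smul, map_add, map_sub, h1, sub_self, smul_zero, add_zero]
  module

theorem trace_fr (hE : Module.finrank ℝ E = 4) {q : M} {f h : Fin 4 → TangentSpace 𝓘(ℝ, E) q}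
    (hf : Orthonormal ℝ f) (hh : Orthonormal ℝ h) : ∑ i, ⟪pl f (h i), h i⟫ = 2 :=
  trace_pl hf (parseval_fr hE hh)

theorem trace_comb (hE : Module.finrank ℝ E = 4) {q : M} {f h : Fin 4 → TangentSpace 𝓘(ℝ, E) q}
    (hf : Orthonormal ℝ f) (hh : Orthonormal ℝ h) (c a b : ℝ) :
    ∑ i, ⟪c • (a • pl f (h i) + b • (h i - pl f (h i))), h i⟫ = c * (2 * (a + b)) := by
  have h1 : ∀ i, ⟪c • (a • pl f (h i) + b • (h i - pl f (h i))), h i⟫ =
      c * ((a - b) * ⟪pl f (h i), h i⟫ + b) := by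
    intro i
    have h2 : ⟪h i, h i⟫ = 1 := by rw [on_eq hh]; simp
    simp only [inner_smul_left, inner_add_left, inner_sub_left, RCLike.conj_to_real, h2]
    ring
  simp only [h1, ← Finset.mul_sum, Finset.sum_add_distrib, trace_fr hE hf hh]
  simp only [Finset.sum_const, Finset.card_univ, Fintype.card_fin, nsmul_eq_mul]
  push_cast
  ring

/-- plane projections -/
def IsPl (cov : CovariantDerivative 𝓘(ℝ, E) E (TangentSpace 𝓘(ℝ, E) : M → Type)) (lam : ℝ) (q : M)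
    (L : TangentSpace 𝓘(ℝ, E) q →ₗ[ℝ] TangentSpace 𝓘(ℝ, E) q) : Prop :=
  ∃ F : Fin 4 → VF E M, Adp cov lam q F ∧ L = pl (fr F q)

theorem Adp.swap {lam : ℝ} {q : M} {F : Fin 4 → VF E M} (h : Adp cov lam q F) :
    Adp cov lam q ![F 2, F 3, F 0, F 1] := by
  refine ⟨?_, fun X Y Z W => ?_⟩
  · rw [orthonormal_iff_ite]
    have h1 := orthonormal_iff_ite.1 h.1
    intro i j
    fin_cases i <;> fin_cases j <;> (simp only [fr, Fin.isValue] at h1 ⊢) <;>
      first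
      | exact h1 2 2 | exact h1 2 3 | exact h1 2 0 | exact h1 2 1
      | exact h1 3 2 | exact h1 3 3 | exact h1 3 0 | exact h1 3 1
      | exact h1 0 2 | exact h1 0 3 | exact h1 0 0 | exact h1 0 1
      | exact h1 1 2 | exact h1 1 3 | exact h1 1 0 | exact h1 1 1
  · rw [h.2]
    simp only [area, Matrix.cons_val_zero, Matrix.cons_val_one, Matrix.cons_val, Fin.isValue]
    ring

theorem pl_swap (hE : Module.finrank ℝ E = 4) {lam : ℝ} {q : M} {F : Fin 4 → VF E M}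
    (h : Adp cov lam q F) (v : TangentSpace 𝓘(ℝ, E) q) :
    pl (fr (![F 2, F 3, F 0, F 1] : Fin 4 → VF E M) q) v = v - pl (fr F q) v := by
  rw [← pl_sw (expand_fr hE h.1)]
  rfl

theorem IsPl.compl (hE : Module.finrank ℝ E = 4) {lam : ℝ} {q : M}
    {L : TangentSpace 𝓘(ℝ, E) q →ₗ[ℝ] TangentSpace 𝓘(ℝ, E) q} (h : IsPl cov lam q L) :
    IsPl cov lam q (LinearMap.id - L) := by
  obtain ⟨F, hF, rfl⟩ := h
  refine ⟨_, hF.swap, ?_⟩
  ext v
  rw [pl_swap hE hF]; rfl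

theorem area_self {F : Fin 4 → VF E M} {q : M} (h : Orthonormal ℝ (fr F q)) :
    area F 0 1 (F 0) (F 1) q = 1 ∧ area F 2 3 (F 0) (F 1) q = 0 := by
  have h1 := orthonormal_iff_ite.1 h
  have e : ∀ i j, inner ℝ (F i q) (F j q) = (if i = j then (1 : ℝ) else 0) := h1
  constructor
  · simp only [area, e, Fin.isValue, if_true, Fin.reduceEq, if_false]; norm_num
  · simp only [area, e, Fin.isValue, if_true, Fin.reduceEq, if_false]; norm_num

/-- uniqueness of the splitting at a point up to order -/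
theorem IsPl.uniq (hE : Module.finrank ℝ E = 4) (hcov : IsLC cov) {lam : ℝ} (hlam : lam ≠ 0) {q : M}
    {L L' : TangentSpace 𝓘(ℝ, E) q →ₗ[ℝ] TangentSpace 𝓘(ℝ, E) q} (h : IsPl cov lam q L)
    (h' : IsPl cov lam q L') : L = L' ∨ L = LinearMap.id - L' := by
  obtain ⟨F, hF, rfl⟩ := h
  obtain ⟨F', hF', rfl⟩ := h'
  set a := area F 0 1 (F' 0) (F' 1) q with ha
  set b := area F 2 3 (F' 0) (F' 1) q with hb
  have key : ∀ v, pl (fr F' q) v = a ^ 2 • pl (fr F q) v + b ^ 2 • (v - pl (fr F q) v) := by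
    intro v
    obtain ⟨Z, hZ⟩ := exists_ext (E := E) q v
    have h1 := QQ_at hE hcov hF (F' 0) (F' 1) Z
    have h2 := QQ_at hE hcov hF' (F' 0) (F' 1) Z
    rw [h1, (area_self hF'.1).1, (area_self hF'.1).2, hZ] at h2
    have h3 : (-lam ^ 2) ≠ 0 := neg_ne_zero.2 (pow_ne_zero 2 hlam)
    have h4 := smul_right_injective _ h3 h2
    simp only [one_pow, one_smul, ne_eq, OfNat.ofNat_ne_zero, not_false_eq_true, zero_pow,
      zero_smul, add_zero] at h4
    exact h4.symm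
  have f0 := (pl_on hF.1).1
  have f2 := (pl_on hF.1).2.2.1
  have n0 : fr F q 0 ≠ 0 := hF.1.ne_zero 0
  have n2 : fr F q 2 ≠ 0 := hF.1.ne_zero 2
  have k0 : pl (fr F' q) (fr F q 0) = a ^ 2 • fr F q 0 := by rw [key, f0]; simp
  have k2 : pl (fr F' q) (fr F q 2) = b ^ 2 • fr F q 2 := by rw [key, f2]; simp
  have i0 := pl_idem hF'.1 (fr F q 0)
  have i2 := pl_idem hF'.1 (fr F q 2)
  rw [k0, map_smul, k0, smul_smul] at i0
  rw [k2, map_smul, k2, smul_smul] at i2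
  have ea : a ^ 2 * a ^ 2 = a ^ 2 := smul_left_injective ℝ n0 i0
  have eb : b ^ 2 * b ^ 2 = b ^ 2 := smul_left_injective ℝ n2 i2
  have et : a ^ 2 + b ^ 2 = 1 := by
    have h1 := trace_fr hE hF'.1 hF.1
    have h2 := trace_comb hE hF.1 hF.1 1 (a ^ 2) (b ^ 2)
    simp only [one_smul, ← key, h1] at h2
    linarith
  have ea' : a ^ 2 = 0 ∨ a ^ 2 = 1 := by
    have : a ^ 2 * (a ^ 2 - 1) = 0 := by linarith
    rcases mul_eq_zero.1 this with h | h
    · exact Or.inl h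
    · exact Or.inr (by linarith)
  rcases ea' with h | h
  · right
    ext v
    have hb2 : b ^ 2 = 1 := by linarith
    rw [LinearMap.sub_apply, key, h, hb2]
    simp
  · left
    ext v
    have hb2 : b ^ 2 = 0 := by linarith
    rw [key, h, hb2]
    simp


theorem sfmul (f g : SF E M) (q : M) : (f * g) q = f q * g q := rfl
theorem sfsub (f g : SF E M) (q : M) : (f - g) q = f q - g q := rfl
theorem sfcst (c : ℝ) (q : M) : (cst c : SF E M) q = c := rfl
theorem vfsub (X Y : VF E M) (q : M) : (X - Y) q = X q - Y q := rfl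

/-- local smooth projection onto one of the planes -/
theorem exists_local_P [PreconnectedSpace M] (hE : Module.finrank ℝ E = 4) (hcov : IsLC cov)
    {lam : ℝ} (hlam : lam ≠ 0) (hP : ∀ p, ∃ F, Adp cov lam p F) (p : M) {F : Fin 4 → VF E M}
    (hF : Adp cov lam p F) :
    ∃ P : VF E M →ₗ[SF E M] VF E M, (∀ Z, P Z p = pl (fr F p) (Z p)) ∧
      ∀ᶠ q in 𝓝 p, ∃ F', Adp cov lam q F' ∧ ∀ Z, P Z q = pl (fr F' q) (Z q) := by
  haveI : CompleteSpace E := FiniteDimensional.complete ℝ E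
  obtain ⟨H, hH⟩ := H555.exists_local_frame hcov hE p
  set A := F 0 with hA
  set B := F 1 with hB
  let t1 : SF E M := cst (-(lam ^ 2)⁻¹) * ∑ i, gVF (QQ hcov A B (H i)) (H i)
  let t2 : SF E M := cst ((lam ^ 4)⁻¹) * ∑ i, gVF (QQ hcov A B (QQ hcov A B (H i))) (H i)
  have hl2 : lam ^ 2 ≠ 0 := pow_ne_zero 2 hlam
  have hl4 : lam ^ 4 ≠ 0 := pow_ne_zero 4 hlam
  have ht1 : ∀ q F', Orthonormal ℝ (fr H q) → Adp cov lam q F' →
      t1 q = 2 * (area F' 0 1 A B q ^ 2 + area F' 2 3 A B q ^ 2) := by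
    intro q F' hq hF'
    have h1 := trace_comb hE hF'.1 hq (-lam ^ 2) (area F' 0 1 A B q ^ 2) (area F' 2 3 A B q ^ 2)
    have h2 : t1 q = -(lam ^ 2)⁻¹ * ∑ i, ⟪QQ hcov A B (H i) q, H i q⟫ := by
      show (cst (-(lam ^ 2)⁻¹) * ∑ i, gVF (QQ hcov A B (H i)) (H i) : SF E M) q = _
      rw [sfmul, SF.sum_apply]; rfl
    rw [h2]
    have h3 : ∑ i, ⟪QQ hcov A B (H i) q, H i q⟫ = -lam ^ 2 * (2 * (area F' 0 1 A B q ^ 2 +
        area F' 2 3 A B q ^ 2)) := by
      rw [← h1]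
      exact Finset.sum_congr rfl fun i _ => by rw [QQ_at hE hcov hF']; rfl
    rw [h3]
    field_simp
  have ht2 : ∀ q F', Orthonormal ℝ (fr H q) → Adp cov lam q F' →
      t2 q = 2 * (area F' 0 1 A B q ^ 4 + area F' 2 3 A B q ^ 4) := by
    intro q F' hq hF'
    have h1 := trace_comb hE hF'.1 hq (lam ^ 4) (area F' 0 1 A B q ^ 4) (area F' 2 3 A B q ^ 4)
    have h2 : t2 q = (lam ^ 4)⁻¹ * ∑ i, ⟪QQ hcov A B (QQ hcov A B (H i)) q, H i q⟫ := by
      show (cst ((lam ^ 4)⁻¹) * ∑ i, gVF (QQ hcov A B (QQ hcov A B (H i))) (H i) : SF E M) q = _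
      rw [sfmul, SF.sum_apply]; rfl
    rw [h2]
    have h3 : ∑ i, ⟪QQ hcov A B (QQ hcov A B (H i)) q, H i q⟫ =
        lam ^ 4 * (2 * (area F' 0 1 A B q ^ 4 + area F' 2 3 A B q ^ 4)) := by
      rw [← h1]
      exact Finset.sum_congr rfl fun i _ => by rw [QQQQ_at hE hcov hF']; rfl
    rw [h3]
    field_simp
  let D2 : SF E M := t2 - cst (1 / 4) * (t1 * t1)
  have hD2 : ∀ q F', Orthonormal ℝ (fr H q) → Adp cov lam q F' →
      D2 q = (area F' 0 1 A B q ^ 2 - area F' 2 3 A B q ^ 2) ^ 2 := by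
    intro q F' hq hF'
    show t2 q - (1 / 4) * (t1 q * t1 q) = _
    rw [ht1 q F' hq hF', ht2 q F' hq hF']
    ring
  have hp0 := area_self hF.1
  have hD2p : D2 p = 1 := by
    rw [hD2 p F hH.self_of_nhds hF, hp0.1, hp0.2]; norm_num
  obtain ⟨u, hu1, hu⟩ := exists_isqrt D2 hD2p
  have hupos : ∀ᶠ q in 𝓝 p, 0 < u q :=
    (u.contMDiff.continuous.continuousAt).eventually (lt_mem_nhds (by rw [hu1]; norm_num))
  let w : SF E M := cst (1 / 2) * (cst (1 / 2) * t1 - u * D2) * u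
  let P : VF E M →ₗ[SF E M] VF E M := (u * cst (-(lam ^ 2)⁻¹)) • QQ hcov A B - w • LinearMap.id
  have hPq : ∀ (Z : VF E M) (q : M), P Z q =
      (u q * (-(lam ^ 2)⁻¹)) • QQ hcov A B Z q - w q • Z q := fun Z q => rfl
  have main : ∀ q F', Orthonormal ℝ (fr H q) → Adp cov lam q F' → u q * u q * D2 q = 1 → 0 < u q →
      (area F' 0 1 A B q ^ 2 - area F' 2 3 A B q ^ 2 = u q * D2 q →
        ∀ Z, P Z q = pl (fr F' q) (Z q)) ∧
      (area F' 2 3 A B q ^ 2 - area F' 0 1 A B q ^ 2 = u q * D2 q →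
        ∀ Z, P Z q = Z q - pl (fr F' q) (Z q)) := by
    intro q F' hq hF' hu' hu0
    have hw : w q = (1 / 2) * ((area F' 0 1 A B q ^ 2 + area F' 2 3 A B q ^ 2) - u q * D2 q) * u q := by
      show (1 / 2) * ((1 / 2) * t1 q - u q * D2 q) * u q = _
      rw [ht1 q F' hq hF']; ring
    constructor
    · intro h Z
      rw [hPq, QQ_at hE hcov hF', hw, smul_smul]
      have e1 : u q * -(lam ^ 2)⁻¹ * -lam ^ 2 = u q := by field_simp
      rw [e1, ← h]
      have e2 : u q * area F' 0 1 A B q ^ 2 - u q * area F' 2 3 A B q ^ 2 = 1 := by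
        rw [← mul_sub, h, ← mul_assoc]; exact hu'
      have e3 : (1 / 2 : ℝ) * ((area F' 0 1 A B q ^ 2 + area F' 2 3 A B q ^ 2) -
          (area F' 0 1 A B q ^ 2 - area F' 2 3 A B q ^ 2)) * u q = u q * area F' 2 3 A B q ^ 2 := by
        ring
      rw [e3, smul_add, smul_smul, smul_smul, smul_sub, show u q * area F' 0 1 A B q ^ 2 =
        1 + u q * area F' 2 3 A B q ^ 2 by linarith]
      module
    · intro h Z
      rw [hPq, QQ_at hE hcov hF', hw, smul_smul]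
      have e1 : u q * -(lam ^ 2)⁻¹ * -lam ^ 2 = u q := by field_simp
      rw [e1, ← h]
      have e2 : u q * area F' 2 3 A B q ^ 2 - u q * area F' 0 1 A B q ^ 2 = 1 := by
        rw [← mul_sub, h, ← mul_assoc]; exact hu'
      have e3 : (1 / 2 : ℝ) * ((area F' 0 1 A B q ^ 2 + area F' 2 3 A B q ^ 2) -
          (area F' 2 3 A B q ^ 2 - area F' 0 1 A B q ^ 2)) * u q = u q * area F' 0 1 A B q ^ 2 := by
        ring
      rw [e3, smul_add, smul_smul, smul_smul, smul_sub, show u q * area F' 2 3 A B q ^ 2 =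
        1 + u q * area F' 0 1 A B q ^ 2 by linarith]
      module
  refine ⟨P, ?_, ?_⟩
  · refine (main p F hH.self_of_nhds hF hu.self_of_nhds hupos.self_of_nhds).1 ?_
    rw [hp0.1, hp0.2, hu1, hD2p]; norm_num
  · filter_upwards [hH, hu, hupos] with q h1 h2 h3
    obtain ⟨F', hF'⟩ := hP q
    have h4 := main q F' h1 hF' h2 h3
    have h5 := hD2 q F' h1 hF'
    have h6 : (area F' 0 1 A B q ^ 2 - area F' 2 3 A B q ^ 2 - u q * D2 q) *
        (area F' 2 3 A B q ^ 2 - area F' 0 1 A B q ^ 2 - u q * D2 q) = 0 := by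
      have e : (u q * D2 q) ^ 2 = D2 q := by
        calc (u q * D2 q) ^ 2 = (u q * u q * D2 q) * D2 q := by ring
          _ = D2 q := by rw [h2, one_mul]
      have : (area F' 0 1 A B q ^ 2 - area F' 2 3 A B q ^ 2 - u q * D2 q) *
        (area F' 2 3 A B q ^ 2 - area F' 0 1 A B q ^ 2 - u q * D2 q) = (u q * D2 q) ^ 2 -
          (area F' 0 1 A B q ^ 2 - area F' 2 3 A B q ^ 2) ^ 2 := by ring
      rw [this, e, h5, sub_self]
    rcases mul_eq_zero.1 h6 with h7 | h7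
    · exact ⟨F', hF', h4.1 (sub_eq_zero.1 h7)⟩
    · refine ⟨_, hF'.swap, fun Z => ?_⟩
      rw [pl_swap hE hF']
      exact h4.2 (sub_eq_zero.1 h7) Z

end

end Vale.Agent.P211.HK.S22
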