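import Vale.Agent.P211.HK.S22SPb
import Vale.Agent.P211.HK.LocSys

/-! P211 / HK / S22: parallel splitting, part c: the global projection. -/

set_option maxSynthPendingDepth 3
set_option linter.all false

namespace Vale.Agent.P211.HK.S22

open scoped Manifold ContDiff Topology RealInnerProductSpace
open Bundle Filter VectorField Vale.Agent.P211 Vale.Agent.P211.NN

noncomputable section

variable {E : Type} [NormedAddCommGroup E] [NormedSpace ℝ E] [FiniteDimensional ℝ E]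
  {M : Type} [TopologicalSpace M] [ChartedSpace E M] [IsManifold 𝓘(ℝ, E) ∞ M] [T2Space M]
  [RiemannianBundle fun p : M => TangentSpace 𝓘(ℝ, E) p]
  [IsContMDiffRiemannianBundle 𝓘(ℝ, E) ∞ E fun p : M => TangentSpace 𝓘(ℝ, E) p]
  {cov : CovariantDerivative 𝓘(ℝ, E) E (TangentSpace 𝓘(ℝ, E) : M → Type)}

/-- the two planes at a point -/
def Fb (cov : CovariantDerivative 𝓘(ℝ, E) E (TangentSpace 𝓘(ℝ, E) : M → Type)) (lam : ℝ) (q : M) :
    Type :=
  {L : TangentSpace 𝓘(ℝ, E) q →ₗ[ℝ] TangentSpace 𝓘(ℝ, E) q // IsPl cov lam q L}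

/-- smooth choices of planes -/
def ParP (cov : CovariantDerivative 𝓘(ℝ, E) E (TangentSpace 𝓘(ℝ, E) : M → Type)) (lam : ℝ) (p : M)
    (s : (q : M) → Fb cov lam q) : Prop :=
  ∃ P : VF E M →ₗ[SF E M] VF E M, ∀ᶠ q in 𝓝 p, ∀ X : VF E M, P X q = (s q).1 (X q)

theorem IsPl.idem {lam : ℝ} {q : M}
    {L : TangentSpace 𝓘(ℝ, E) q →ₗ[ℝ] TangentSpace 𝓘(ℝ, E) q} (h : IsPl cov lam q L)
    (v : TangentSpace 𝓘(ℝ, E) q) : L (L v) = L v := by
  obtain ⟨F, hF, rfl⟩ := h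
  exact pl_idem hF.1 v

theorem IsPl.symm {lam : ℝ} {q : M}
    {L : TangentSpace 𝓘(ℝ, E) q →ₗ[ℝ] TangentSpace 𝓘(ℝ, E) q} (h : IsPl cov lam q L)
    (v w : TangentSpace 𝓘(ℝ, E) q) : ⟪L v, w⟫ = ⟪v, L w⟫ := by
  obtain ⟨F, hF, rfl⟩ := h
  exact pl_symm v w

theorem locSys [PreconnectedSpace M] (hE : Module.finrank ℝ E = 4) (hcov : IsLC cov)
    {lam : ℝ} (hlam : lam ≠ 0) (hP : ∀ p : M, ∃ F, Adp cov lam p F) : LocSys (ParP cov lam) where
  opn := by
    rintro p s ⟨P, hP⟩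
    filter_upwards [eventually_eventually_nhds.2 hP] with q hq
    exact ⟨P, hq⟩
  uniq := by
    rintro p s s' ⟨P, hP1⟩ ⟨P', hP2⟩ hs
    obtain ⟨F, hF, hL⟩ := (s p).2
    have h0 : (s p).1 (F 0 p) = F 0 p := by rw [hL]; exact (pl_on hF.1).1
    have h1 : gVF (P (F 0)) (P' (F 0)) p = 1 := by
      rw [gVF_apply, hP1.self_of_nhds, hP2.self_of_nhds, ← hs, h0]
      have := on_eq hF.1 0 0
      rw [if_pos rfl] at this
      exact this
    have hc : ∀ᶠ q in 𝓝 p, 0 < gVF (P (F 0)) (P' (F 0)) q :=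
      ((gVF (P (F 0)) (P' (F 0))).contMDiff.continuous.continuousAt).eventually
        (lt_mem_nhds (by rw [h1]; norm_num))
    filter_upwards [hP1, hP2, hc] with q h2 h3 h4
    rcases IsPl.uniq hE hcov hlam (s q).2 (s' q).2 with h5 | h5
    · exact Subtype.ext h5
    · exfalso
      rw [gVF_apply, h2, h3, h5, LinearMap.sub_apply, LinearMap.id_apply, inner_sub_left,
        (s' q).2.symm, (s' q).2.idem, sub_self] at h4
      exact lt_irrefl _ h4
  clo := by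
    rintro p s s' ⟨P, hP1⟩ ⟨P', hP2⟩ hfr
    by_contra hne
    rcases IsPl.uniq hE hcov hlam (s p).2 (s' p).2 with h5 | h5
    · exact hne (Subtype.ext h5)
    obtain ⟨F, hF, hL⟩ := (s p).2
    have h0 : (s p).1 (F 0 p) = F 0 p := by rw [hL]; exact (pl_on hF.1).1
    have h0' : (s' p).1 (F 0 p) = 0 := by
      rw [h5, LinearMap.sub_apply, LinearMap.id_apply] at h0
      simpa using h0
    have h1 : gVF (P (F 0) - P' (F 0)) (P (F 0) - P' (F 0)) p = 1 := by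
      rw [gVF_apply, vfsub, hP1.self_of_nhds, hP2.self_of_nhds, h0, h0', sub_zero]
      have := on_eq hF.1 0 0
      rw [if_pos rfl] at this
      exact this
    have hc : ∀ᶠ q in 𝓝 p, 0 < gVF (P (F 0) - P' (F 0)) (P (F 0) - P' (F 0)) q :=
      ((gVF (P (F 0) - P' (F 0)) (P (F 0) - P' (F 0))).contMDiff.continuous.continuousAt).eventually
        (lt_mem_nhds (by rw [h1]; norm_num))
    obtain ⟨q, h2, h3, h4, h6⟩ := (hfr.and_eventually (hP1.and (hP2.and hc))).exists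
    rw [gVF_apply, vfsub, h3, h4, h2, sub_self, inner_zero_left] at h6
    exact lt_irrefl _ h6
  loc := by
    rintro p s s' ⟨P, hP⟩ hs
    refine ⟨P, ?_⟩
    filter_upwards [hP, hs] with q h1 h2 X
    rw [h1, h2]
  ext := by
    intro p
    obtain ⟨F, hF⟩ := hP p
    obtain ⟨P, -, hPn⟩ := exists_local_P hE hcov hlam hP p hF
    set U : Set M := interior {q | ∃ F', Adp cov lam q F' ∧ ∀ Z, P Z q = pl (fr F' q) (Z q)} with hU
    have hUo : IsOpen U := isOpen_interior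
    refine ⟨U, interior_mem_nhds.2 hPn, fun q hq v => ?_⟩
    have hex : ∀ q', ∃ L : Fb cov lam q', q' ∈ U → ∀ Z, P Z q' = L.1 (Z q') := by
      intro q'
      by_cases h : q' ∈ U
      · obtain ⟨F', h1, h2⟩ := interior_subset h
        exact ⟨⟨_, F', h1, rfl⟩, fun _ => h2⟩
      · obtain ⟨F', h1⟩ := hP q'
        exact ⟨⟨_, F', h1, rfl⟩, fun h' => (h h').elim⟩
    choose s hs using hex
    rcases IsPl.uniq hE hcov hlam v.2 (s q).2 with h5 | h5
    · refine ⟨s, (Subtype.ext h5).symm, fun q' hq' => ⟨P, ?_⟩⟩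
      filter_upwards [hUo.mem_nhds hq'] with x hx X
      exact hs x hx X
    · refine ⟨fun x => ⟨LinearMap.id - (s x).1, (s x).2.compl hE⟩, Subtype.ext h5.symm,
        fun q' hq' => ⟨LinearMap.id - P, ?_⟩⟩
      filter_upwards [hUo.mem_nhds hq'] with x hx X
      show X x - P X x = X x - (s x).1 (X x)
      rw [hs x hx X]

/-- the global smooth projection -/
theorem exists_P [SimplyConnectedSpace M] (hE : Module.finrank ℝ E = 4) (hcov : IsLC cov)
    {lam : ℝ} (hlam : lam ≠ 0) (hP : ∀ p : M, ∃ F, Adp cov lam p F) :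
    ∃ P : VF E M →ₗ[SF E M] VF E M, ∀ q, ∃ F, Adp cov lam q F ∧
      ∀ Z, P Z q = pl (fr F q) (Z q) := by
  haveI : LocallyPathConnectedSpace M := ChartedSpace.locallyPathConnectedSpace E M
  obtain ⟨p₀⟩ : Nonempty M := inferInstance
  obtain ⟨F₀, hF₀⟩ := hP p₀
  obtain ⟨s, ⟨-, hs⟩, -⟩ := (locSys hE hcov hlam hP).existsUnique p₀ ⟨_, F₀, hF₀, rfl⟩
  let P : VF E M →ₗ[SF E M] VF E M :=
    { toFun := fun X => ⟨fun q => (s q).1 (X q), by
        intro q
        obtain ⟨Q, hQ⟩ := hs q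
        refine ((Q X).contMDiff q).congr_of_eventuallyEq ?_
        filter_upwards [hQ] with x hx
        exact congrArg (fun v => (⟨x, v⟩ : TangentBundle 𝓘(ℝ, E) M)) (hx X).symm⟩
      map_add' := fun X Y => by
        ext q
        exact map_add (s q).1 (X q) (Y q)
      map_smul' := fun c X => by
        ext q
        exact map_smul (s q).1 (c q) (X q) }
  refine ⟨P, fun q => ?_⟩
  obtain ⟨F, hF, hL⟩ := (s q).2
  exact ⟨F, hF, fun Z => by rw [← hL]; rfl⟩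

/-! ### the curvature in terms of the projection -/

theorem curv_pt (hE : Module.finrank ℝ E = 4) {lam : ℝ} {q : M} {F : Fin 4 → VF E M}
    (hF : Adp cov lam q F) (X Y Z W : VF E M) {L : TangentSpace 𝓘(ℝ, E) q → TangentSpace 𝓘(ℝ, E) q}
    (hL : ∀ v, L v = pl (fr F q) v) :
    NN.Rm cov X Y Z W q = lam * (⟪L (Y q), Z q⟫ * ⟪L (X q), W q⟫ - ⟪L (X q), Z q⟫ * ⟪L (Y q), W q⟫ +
      (⟪Y q - L (Y q), Z q⟫ * ⟪X q - L (X q), W q⟫ - ⟪X q - L (X q), Z q⟫ * ⟪Y q - L (Y q), W q⟫)) := by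
  rw [hF.2]
  have e1 : ∀ a b : TangentSpace 𝓘(ℝ, E) q, ⟪L a, b⟫ =
      ⟪fr F q 0, a⟫ * ⟪fr F q 0, b⟫ + ⟪fr F q 1, a⟫ * ⟪fr F q 1, b⟫ := by
    intro a b
    rw [hL, pl_apply, inner_add_left, inner_smul_left, inner_smul_left]; rfl
  have e2 : ∀ a b : TangentSpace 𝓘(ℝ, E) q, ⟪a - L a, b⟫ =
      ⟪fr F q 2, a⟫ * ⟪fr F q 2, b⟫ + ⟪fr F q 3, a⟫ * ⟪fr F q 3, b⟫ := by
    intro a b
    rw [inner_sub_left, e1, parseval_fr hE hF.1 a b, Fin.sum_univ_four]
    ring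
  simp only [e1, e2]
  simp only [fr, area]
  ring

end

end Vale.Agent.P211.HK.S22
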