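import Vale.Agent.P211.HK.S22SPc

/-! P211 / HK / S22: parallel splitting, part d: the projection is parallel. -/

set_option maxSynthPendingDepth 3
set_option linter.all false

namespace Vale.Agent.P211.HK.S22

open scoped Manifold ContDiff Topology RealInnerProductSpace
open Bundle Filter VectorField Vale.Agent.P211 Vale.Agent.P211.NN

noncomputable section

section abs

variable {𝒪 V : Type*} [CommRing 𝒪] [Algebra ℝ 𝒪] [AddCommGroup V] [Module 𝒪 V] (G : LC 𝒪 V)
  (P : V →ₗ[𝒪] V)

/-- derivative of `P` -/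
def NP (U X : V) : V := G.nab U (P X) - P (G.nab U X)

/-- product curvature -/
def TP (X Y Z W : V) : 𝒪 := G.g (P Y) Z * G.g (P X) W - G.g (P X) Z * G.g (P Y) W +
  (G.g (Y - P Y) Z * G.g (X - P X) W - G.g (X - P X) Z * G.g (Y - P Y) W)

theorem NP_id (hproj : ∀ X, P (P X) = P X) (U X : V) :
    NP G P U (P X) + P (NP G P U X) = NP G P U X := by
  unfold NP
  rw [hproj, map_sub, hproj]
  abel

theorem NP_symm (hsymm : ∀ X Y, G.g (P X) Y = G.g X (P Y)) (U X Y : V) :
    G.g (NP G P U X) Y = G.g X (NP G P U Y) := by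
  have h1 := G.metric U (P X) Y
  have h2 := G.metric U X (P Y)
  rw [hsymm X Y, h2] at h1
  unfold NP
  rw [G.g_sub_left, G.g_symm X (G.nab U (P Y) - P (G.nab U Y)), G.g_sub_left, hsymm (G.nab U X) Y,
    G.g_symm (G.nab U (P Y)) X, hsymm (G.nab U Y) X, G.g_symm (G.nab U Y) (P X)]
  linear_combination -h1

theorem NP_smul (U : V) (f : 𝒪) (X : V) : NP G P U (f • X) = f • NP G P U X := by
  unfold NP
  rw [map_smul, G.nab_smul, G.nab_smul, map_add, map_smul, map_smul]
  module

theorem NP_add (U X Y : V) : NP G P U (X + Y) = NP G P U X + NP G P U Y := by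
  unfold NP
  rw [map_add, G.nab_add, G.nab_add, map_add]
  abel

/-- derivative of the curvature formula -/
theorem dTP (c : ℝ) (hR : ∀ X Y Z W, G.Rm X Y Z W = algebraMap ℝ 𝒪 c * TP G P X Y Z W)
    (hd : ∀ U X Y Z W, G.d1 G.Rm U X Y Z W = 0) (U X Y Z W : V) :
    algebraMap ℝ 𝒪 c * (G.g (NP G P U Y) Z * G.g (P X) W + G.g (P Y) Z * G.g (NP G P U X) W -
      G.g (NP G P U X) Z * G.g (P Y) W - G.g (P X) Z * G.g (NP G P U Y) W -
      (G.g (NP G P U Y) Z * G.g (X - P X) W + G.g (Y - P Y) Z * G.g (NP G P U X) W -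
      G.g (NP G P U X) Z * G.g (Y - P Y) W - G.g (X - P X) Z * G.g (NP G P U Y) W)) = 0 := by
  have h := hd U X Y Z W
  unfold LC.d1 at h
  simp only [hR] at h
  rw [G.D_mul, G.D_const] at h
  unfold TP at h
  simp only [G.D_add, G.D_sub, G.D_mul, G.metric, G.g_sub_left, G.nab_sub, NP] at h ⊢
  linear_combination h

end abs


section conc

variable {E : Type} [NormedAddCommGroup E] [NormedSpace ℝ E] [FiniteDimensional ℝ E]
  {M : Type} [TopologicalSpace M] [ChartedSpace E M] [IsManifold 𝓘(ℝ, E) ∞ M] [T2Space M]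
  [RiemannianBundle fun p : M => TangentSpace 𝓘(ℝ, E) p]
  [IsContMDiffRiemannianBundle 𝓘(ℝ, E) ∞ E fun p : M => TangentSpace 𝓘(ℝ, E) p]
  {cov : CovariantDerivative 𝓘(ℝ, E) E (TangentSpace 𝓘(ℝ, E) : M → Type)}

/-- linear maps of fields are pointwise -/
theorem vlin_ptwise (L : VF E M →ₗ[SF E M] VF E M) {p : M} {X : VF E M} (h : X p = 0) :
    L X p = 0 := by
  refine ext_inner_right ℝ fun w => ?_
  obtain ⟨W, hW⟩ := exists_ext (E := E) p w
  have h1 := lin_ptwise (E := E) (x := p) (Z := X)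
    { toFun := fun Z => gVF (L Z) W
      map_add' := fun Z Z' => by
        rw [map_add]; ext q; exact inner_add_left (𝕜 := ℝ) (L Z q) (L Z' q) (W q)
      map_smul' := fun c Z => by
        rw [map_smul]; ext q
        show inner ℝ (c q • L Z q) (W q) = c q * inner ℝ (L Z q) (W q)
        rw [inner_smul_left]; rfl } h
  rw [inner_zero_left, ← hW]
  exact h1

theorem vlin_congr (L : VF E M →ₗ[SF E M] VF E M) {p : M} {X Y : VF E M} (h : X p = Y p) :
    L X p = L Y p := by
  have h1 := vlin_ptwise L (p := p) (X := X - Y) (by rw [vfsub, h, sub_self])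
  rw [map_sub, vfsub] at h1
  exact sub_eq_zero.1 h1

theorem vfadd (X Y : VF E M) (q : M) : (X + Y) q = X q + Y q := rfl

/-- The projection is parallel. -/
theorem parallel (hE : Module.finrank ℝ E = 4) (hcov : IsLC cov) {lam : ℝ} (hlam : lam ≠ 0)
    (hnab : ∀ (p : M) (U X Y Z W : VF E M), nabRm cov U X Y Z W p = 0)
    {P : VF E M →ₗ[SF E M] VF E M}
    (hP : ∀ q, ∃ F, Adp cov lam q F ∧ ∀ Z, P Z q = pl (fr F q) (Z q)) : Split hcov lam P := by
  have hproj : ∀ X, P (P X) = P X := by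
    intro X
    ext q
    obtain ⟨F, hF, hL⟩ := hP q
    rw [hL, hL, pl_idem hF.1]
  have hsymm : ∀ X Y, gVF (P X) Y = gVF X (P Y) := by
    intro X Y
    ext q
    obtain ⟨F, hF, hL⟩ := hP q
    rw [gVF_apply, gVF_apply, hL, hL, pl_symm]
  have hcurv : ∀ X Y Z W, (lcOf hcov).Rm X Y Z W = cst lam *
    (gVF (P Y) Z * gVF (P X) W - gVF (P X) Z * gVF (P Y) W +
      (gVF (Y - P Y) Z * gVF (X - P X) W - gVF (X - P X) Z * gVF (Y - P Y) W)) := by
    intro X Y Z W
    ext q
    obtain ⟨F, hF, hL⟩ := hP q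
    have h1 := curv_pt hE hF X Y Z W (L := fun v => pl (fr F q) v) fun v => rfl
    simp only [← hL] at h1
    rw [H555.rm_eq hcov] at h1
    rw [h1]
    rfl
  set G := lcOf hcov with hG
  have hd : ∀ U X Y Z W, G.d1 G.Rm U X Y Z W = 0 := by
    intro U X Y Z W
    ext p
    have h1 := hnab p U X Y Z W
    have e : ∀ X Y Z W : VF E M, NN.Rm cov X Y Z W p = (G.Rm X Y Z W : SF E M) p := fun X Y Z W => by
      rw [H555.rm_eq hcov]
    have h2 : nabRm cov U X Y Z W p = (G.d1 G.Rm U X Y Z W : SF E M) p := by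
      unfold nabRm LC.d1
      rw [H555.rm_eq hcov X Y Z W]
      have c1 := e (G.nab U X) Y Z W
      have c2 := e X (G.nab U Y) Z W
      have c3 := e X Y (G.nab U Z) W
      have c4 := e X Y Z (G.nab U W)
      show _ - NN.Rm cov (G.nab U X) Y Z W p - NN.Rm cov X (G.nab U Y) Z W p
        - NN.Rm cov X Y (G.nab U Z) W p - NN.Rm cov X Y Z (G.nab U W) p = _
      rw [c1, c2, c3, c4]
      rfl
    rw [← h2, h1]; rfl
  have hE' := dTP G P lam hcurv hd
  have key : ∀ U X, NP G P U X = 0 := by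
    intro U
    let N : VF E M →ₗ[SF E M] VF E M :=
      { toFun := fun X => NP G P U X
        map_add' := NP_add G P U
        map_smul' := NP_smul G P U }
    have hN : ∀ X, N X = NP G P U X := fun X => rfl
    intro X
    ext p
    obtain ⟨F, hF, hL⟩ := hP p
    have hon := pl_on hF.1
    have P0 : P (F 0) p = F 0 p := by rw [hL]; exact hon.1
    have P1 : P (F 1) p = F 1 p := by rw [hL]; exact hon.2.1
    have P2 : P (F 2) p = 0 := by rw [hL]; exact hon.2.2.1
    have P3 : P (F 3) p = 0 := by rw [hL]; exact hon.2.2.2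
    have on : ∀ i j, inner ℝ (F i p) (F j p) = if i = j then (1 : ℝ) else 0 := on_eq hF.1
    have hEp : ∀ X Y Z W : VF E M, inner ℝ (N Y p) (Z p) * inner ℝ (P X p) (W p) +
        inner ℝ (P Y p) (Z p) * inner ℝ (N X p) (W p) -
        inner ℝ (N X p) (Z p) * inner ℝ (P Y p) (W p) -
        inner ℝ (P X p) (Z p) * inner ℝ (N Y p) (W p) -
        (inner ℝ (N Y p) (Z p) * inner ℝ (X p - P X p) (W p) +
        inner ℝ (Y p - P Y p) (Z p) * inner ℝ (N X p) (W p) -
        inner ℝ (N X p) (Z p) * inner ℝ (Y p - P Y p) (W p) -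
        inner ℝ (X p - P X p) (Z p) * inner ℝ (N Y p) (W p)) = (0 : ℝ) := by
      intro X Y Z W
      have h1 := congrArg (fun f : SF E M => f p) (hE' U X Y Z W)
      have h2 : lam * (inner ℝ (N Y p) (Z p) * inner ℝ (P X p) (W p) +
        inner ℝ (P Y p) (Z p) * inner ℝ (N X p) (W p) -
        inner ℝ (N X p) (Z p) * inner ℝ (P Y p) (W p) -
        inner ℝ (P X p) (Z p) * inner ℝ (N Y p) (W p) -
        (inner ℝ (N Y p) (Z p) * inner ℝ (X p - P X p) (W p) +
        inner ℝ (Y p - P Y p) (Z p) * inner ℝ (N X p) (W p) -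
        inner ℝ (N X p) (Z p) * inner ℝ (Y p - P Y p) (W p) -
        inner ℝ (X p - P X p) (Z p) * inner ℝ (N Y p) (W p))) = (0 : ℝ) := h1
      exact (mul_eq_zero.1 h2).resolve_left hlam
    -- values on `T₁`
    have n0 : ∀ b : Fin 4, (b = 2 ∨ b = 3) → inner ℝ (N (F 0) p) (F b p) = (0 : ℝ) := by
      intro b hb
      have h1 := hEp (F 0) (F 1) (F 1) (F b)
      simp only [P0, P1, sub_self, inner_zero_left] at h1
      simp only [on] at h1
      rcases hb with rfl | rfl <;>
      · simp only [Fin.isValue, if_true, Fin.reduceEq, if_false, mul_zero, zero_mul, add_zero,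
          zero_add, sub_zero, one_mul] at h1
        exact h1
    have n1 : ∀ b : Fin 4, (b = 2 ∨ b = 3) → inner ℝ (N (F 1) p) (F b p) = (0 : ℝ) := by
      intro b hb
      have h1 := hEp (F 1) (F 0) (F 0) (F b)
      simp only [P0, P1, sub_self, inner_zero_left] at h1
      simp only [on] at h1
      rcases hb with rfl | rfl <;>
      · simp only [Fin.isValue, if_true, Fin.reduceEq, if_false, mul_zero, zero_mul, add_zero,
          zero_add, sub_zero, one_mul] at h1
        exact h1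
    have hid : ∀ X, N (P X) p + P (N X) p = N X p := fun X => by
      have := congrArg (fun Y : VF E M => Y p) (NP_id G P hproj U X)
      exact this
    have hsy : ∀ X Y : VF E M, inner ℝ (P X p) (Y p) = (inner ℝ (X p) (P Y p) : ℝ) := fun X Y => by
      have := congrArg (fun Y : SF E M => Y p) (hsymm X Y)
      exact this
    have hNs : ∀ X Y : VF E M, inner ℝ (N X p) (Y p) = (inner ℝ (X p) (N Y p) : ℝ) := fun X Y => by
      have := congrArg (fun Y : SF E M => Y p) (NP_symm G P hsymm U X Y)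
      exact this
    have zero_of : ∀ v : TangentSpace 𝓘(ℝ, E) p, (∀ b : Fin 4, inner ℝ v (F b p) = (0 : ℝ)) →
        v = 0 := by
      intro v hv
      rw [expand_fr hE hF.1 v]
      refine Finset.sum_eq_zero fun i _ => ?_
      have : ⟪fr F p i, v⟫ = 0 := by rw [real_inner_comm]; exact hv i
      rw [this, zero_smul]
    have z1 : ∀ a : Fin 4, P (F a) p = F a p → (∀ b : Fin 4, (b = 2 ∨ b = 3) →
        inner ℝ (N (F a) p) (F b p) = (0 : ℝ)) → N (F a) p = 0 := by
      intro a ha hb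
      have h1 : P (N (F a)) p = 0 := by
        have h2 := hid (F a)
        rw [vlin_congr N ha] at h2
        simpa using h2
      refine zero_of _ fun b => ?_
      have h3 : P (F b) p = F b p → inner ℝ (N (F a) p) (F b p) = (0 : ℝ) := fun h4 => by
        rw [← h4, ← hsy, h1, inner_zero_left]
      fin_cases b
      · exact h3 P0
      · exact h3 P1
      · exact hb 2 (Or.inl rfl)
      · exact hb 3 (Or.inr rfl)
    have N0 : N (F 0) p = 0 := z1 0 P0 n0
    have N1 : N (F 1) p = 0 := z1 1 P1 n1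
    have z2 : ∀ a : Fin 4, P (F a) p = 0 → N (F a) p = 0 := by
      intro a ha
      have h1 : P (N (F a)) p = N (F a) p := by
        have h2 := hid (F a)
        rw [vlin_ptwise N ha, zero_add] at h2
        exact h2
      refine zero_of _ fun b => ?_
      have h3 : P (F b) p = 0 → inner ℝ (N (F a) p) (F b p) = (0 : ℝ) := fun h4 => by
        rw [← h1, hsy, h4, inner_zero_right]
      fin_cases b
      · show inner ℝ (N (F a) p) (F 0 p) = (0 : ℝ)
        rw [hNs, N0, inner_zero_right]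
      · show inner ℝ (N (F a) p) (F 1 p) = (0 : ℝ)
        rw [hNs, N1, inner_zero_right]
      · exact h3 P2
      · exact h3 P3
    have N2 : N (F 2) p = 0 := z2 2 P2
    have N3 : N (F 3) p = 0 := z2 3 P3
    refine zero_of _ fun b => ?_
    show inner ℝ (N X p) (F b p) = (0 : ℝ)
    rw [hNs]
    fin_cases b
    · show inner ℝ (X p) (N (F 0) p) = (0 : ℝ); rw [N0, inner_zero_right]
    · show inner ℝ (X p) (N (F 1) p) = (0 : ℝ); rw [N1, inner_zero_right]
    · show inner ℝ (X p) (N (F 2) p) = (0 : ℝ); rw [N2, inner_zero_right]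
    · show inner ℝ (X p) (N (F 3) p) = (0 : ℝ); rw [N3, inner_zero_right]
  refine ⟨hproj, hsymm, fun X Y => ?_, fun p => ?_, hcurv⟩
  · exact sub_eq_zero.1 (key X Y)
  · obtain ⟨F, hF, hL⟩ := hP p
    have hon := pl_on hF.1
    refine ⟨F, hF.1, ?_, ?_, ?_, ?_⟩ <;> rw [hL]
    · exact hon.1
    · exact hon.2.1
    · exact hon.2.2.1
    · exact hon.2.2.2

/-- SP -/
theorem sp (hcov : IsLC cov) (lam : ℝ) : SPStmt hcov lam := by
  intro hE hsc hlam hLP
  have hP : ∀ p : M, ∃ F, Adp cov lam p F := fun p => by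
    obtain ⟨F, h1, h2⟩ := hLP.2 p
    exact ⟨F, h1, h2⟩
  obtain ⟨P, hPP⟩ := exists_P hE hcov hlam.ne' hP
  exact ⟨P, parallel hE hcov hlam.ne' (fun p U X Y Z W => hLP.1 p U X Y Z W) hPP⟩

end conc

end

end Vale.Agent.P211.HK.S22
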