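import Vale.Agent.P231.Bd3.B3
import Vale.Agent.P211.Bdl.S5

/-! P211 / HK / S4Iso (helper861): a compact Riemannian manifold on which the differential of the
exponential map is the one of the round unit sphere, with injectivity radius and diameter `π`, is
isometric to the round sphere (as a metric space, with the arc length distance). -/

set_option maxSynthPendingDepth 3
set_option linter.unusedSectionVars false
set_option linter.unusedVariables false

open Bundle Manifold Set Filter MeasureTheory Module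
open scoped ContDiff Manifold Topology RealInnerProductSpace

namespace Vale.Agent.P211.HK.S4I

noncomputable section

open Vale.Agent.P234 Vale.Agent.P231 Vale.Agent.P211.S4

/-! ### spherical geometry in a Euclidean space -/

section sphere

variable {V : Type*} [NormedAddCommGroup V] [InnerProductSpace ℝ V]

/-- the exponential map of the unit sphere of `ℝ ⊕ V` at the point `(1, 0)` -/
def zS (X : V) : WithLp 2 (ℝ × V) :=
  WithLp.toLp 2 (Real.cos ‖X‖, (Real.sin ‖X‖ / ‖X‖) • X)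

theorem zS_smul {u : V} (hu : ‖u‖ = 1) (t : ℝ) :
    zS (t • u) = WithLp.toLp 2 (Real.cos t, Real.sin t • u) := by
  have h1 : ‖t • u‖ = |t| := by rw [norm_smul, hu, mul_one, Real.norm_eq_abs]
  unfold zS
  rw [h1, Real.cos_abs]
  congr 2
  rcases eq_or_ne t 0 with h0 | h0
  · subst h0; simp
  · rw [smul_smul]
    congr 1
    rcases lt_or_gt_of_ne h0 with h | h
    · rw [abs_of_neg h, Real.sin_neg]
      field_simp
    · rw [abs_of_pos h]
      field_simp

theorem norm_zS (X : V) : ‖zS X‖ = 1 := by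
  rcases eq_or_ne X 0 with h0 | h0
  · subst h0
    rw [← sq_eq_sq₀ (norm_nonneg _) zero_le_one, WithLp.prod_norm_sq_eq_of_L2]
    simp [zS]
  · have hn : ‖X‖ ≠ 0 := norm_ne_zero_iff.2 h0
    have h1 : X = ‖X‖ • (‖X‖⁻¹ • X) := by rw [smul_smul, mul_inv_cancel₀ hn, one_smul]
    have h2 : ‖‖X‖⁻¹ • X‖ = 1 := by rw [norm_smul, norm_inv, norm_norm, inv_mul_cancel₀ hn]
    rw [h1, zS_smul h2, ← sq_eq_sq₀ (norm_nonneg _) zero_le_one, WithLp.prod_norm_sq_eq_of_L2]
    simp only [WithLp.toLp_fst, WithLp.toLp_snd, norm_smul, h2, mul_one, Real.norm_eq_abs, sq_abs]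
    rw [Real.cos_sq_add_sin_sq, one_pow]

/-- a Lipschitz curve on the unit sphere -/
theorem angle_le_of_lip {W : Type*} [NormedAddCommGroup W] [InnerProductSpace ℝ W] {c : ℝ → W}
    {L : ℝ} (hL : 0 ≤ L) (h1 : ∀ t ∈ Icc (0 : ℝ) 1, ‖c t‖ = 1)
    (hc : ∀ s ∈ Icc (0 : ℝ) 1, ∀ t ∈ Icc (0 : ℝ) 1, ‖c s - c t‖ ≤ L * |s - t|) :
    InnerProductGeometry.angle (c 0) (c 1) ≤ L := by
  have hang : ∀ a b : W, ‖a‖ = 1 → ‖b‖ = 1 →
      InnerProductGeometry.angle a b = 2 * Real.arcsin (‖a - b‖ / 2) := by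
    intro a b ha hb
    set θ := InnerProductGeometry.angle a b with hθ
    have hθ0 : 0 ≤ θ := InnerProductGeometry.angle_nonneg a b
    have hθ1 : θ ≤ Real.pi := InnerProductGeometry.angle_le_pi a b
    have h2 : ‖a - b‖ ^ 2 = 2 - 2 * Real.cos θ := by
      have h3 := InnerProductGeometry.cos_angle_mul_norm_mul_norm a b
      rw [ha, hb, mul_one, mul_one, ← hθ] at h3
      rw [norm_sub_sq_real, ha, hb, ← h3]
      ring
    have h4 : Real.cos θ = 1 - 2 * Real.sin (θ / 2) ^ 2 := by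
      have h5 := Real.cos_two_mul (θ / 2)
      rw [mul_div_cancel₀ θ (two_ne_zero)] at h5
      rw [h5, Real.cos_sq']
      ring
    have hs : 0 ≤ Real.sin (θ / 2) :=
      Real.sin_nonneg_of_nonneg_of_le_pi (by linarith) (by linarith)
    have h6 : ‖a - b‖ = 2 * Real.sin (θ / 2) := by
      rw [← sq_eq_sq₀ (norm_nonneg _) (by positivity), h2, h4]
      ring
    rw [h6, mul_div_cancel_left₀ _ (two_ne_zero), Real.arcsin_sin (by linarith) (by linarith)]
    ring
  have hN : ∀ N : ℕ, 0 < N → InnerProductGeometry.angle (c 0) (c 1) ≤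
      N * (2 * Real.arcsin (L / N / 2)) := by
    intro N hN0
    have hN' : (0 : ℝ) < N := by exact_mod_cast hN0
    have hstep : ∀ k : ℕ, k ≤ N → InnerProductGeometry.angle (c 0) (c ((k : ℝ) / N)) ≤
        k * (2 * Real.arcsin (L / N / 2)) := by
      intro k
      induction k with
      | zero =>
        intro _
        have h0 : c 0 ≠ 0 := by
          intro h
          have := h1 0 ⟨le_rfl, zero_le_one⟩
          rw [h, norm_zero] at this
          exact zero_ne_one this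
        rw [Nat.cast_zero, zero_div, zero_mul, InnerProductGeometry.angle_self h0]
      | succ k ih =>
        intro hk
        have ih' := ih (by omega)
        have m1 : (k : ℝ) / N ∈ Icc (0 : ℝ) 1 := by
          refine ⟨by positivity, ?_⟩
          rw [div_le_one hN']
          exact_mod_cast (by omega : k ≤ N)
        have m2 : ((k + 1 : ℕ) : ℝ) / N ∈ Icc (0 : ℝ) 1 := by
          refine ⟨by positivity, ?_⟩
          rw [div_le_one hN']
          exact_mod_cast hk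
        have h3 := InnerProductGeometry.angle_le_angle_add_angle (c 0) (c ((k : ℝ) / N))
          (c (((k + 1 : ℕ) : ℝ) / N))
        have h4 : InnerProductGeometry.angle (c ((k : ℝ) / N)) (c (((k + 1 : ℕ) : ℝ) / N)) ≤
            2 * Real.arcsin (L / N / 2) := by
          rw [hang _ _ (h1 _ m1) (h1 _ m2)]
          have h5 := hc _ m1 _ m2
          have h6 : |(k : ℝ) / N - ((k + 1 : ℕ) : ℝ) / N| = 1 / N := by
            rw [← sub_div]
            push_cast
            rw [show (k : ℝ) - (k + 1) = -1 by ring, abs_div, abs_neg, abs_one,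
              abs_of_pos hN']
          rw [h6, mul_one_div] at h5
          have h7 : Real.arcsin (‖c ((k : ℝ) / N) - c (((k + 1 : ℕ) : ℝ) / N)‖ / 2) ≤
              Real.arcsin (L / N / 2) := Real.monotone_arcsin (by linarith)
          linarith
        push_cast at h3 h4 ih' ⊢
        linarith
    have h3 := hstep N le_rfl
    rwa [div_self hN'.ne'] at h3
  rcases hL.eq_or_lt with hL0 | hL0
  · have h3 := hN 1 one_pos
    rw [← hL0] at h3 ⊢
    simpa using h3
  -- the limit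
  have hlim : Tendsto (fun N : ℕ => (N : ℝ) * (2 * Real.arcsin (L / N / 2))) atTop (𝓝 L) := by
    have hd : HasDerivAt Real.arcsin 1 0 := by
      have := Real.hasDerivAt_arcsin (x := 0) (by norm_num) (by norm_num)
      simpa using this
    have h3 := hd.tendsto_slope_zero
    have h4 : Tendsto (fun N : ℕ => L / N / 2) atTop (𝓝[≠] 0) := by
      rw [tendsto_nhdsWithin_iff]
      refine ⟨?_, ?_⟩
      · have := (tendsto_const_div_atTop_nhds_zero_nat L).div_const 2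
        simpa using this
      · filter_upwards [eventually_gt_atTop 0] with N hN0
        have hN' : (0 : ℝ) < N := by exact_mod_cast hN0
        exact (by positivity : (0 : ℝ) < L / N / 2).ne'
    have h5 := (h3.comp h4).const_mul L
    rw [mul_one] at h5
    refine h5.congr' ?_
    filter_upwards [eventually_gt_atTop 0] with N hN0
    have hN' : (0 : ℝ) < N := by exact_mod_cast hN0
    simp only [Function.comp_apply, zero_add, Real.arcsin_zero, sub_zero, smul_eq_mul]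
    field_simp
  refine ge_of_tendsto hlim ?_
  filter_upwards [eventually_gt_atTop 0] with N hN0 using hN N hN0

/-- speed of a curve on the sphere in polar coordinates -/
theorem hasDerivAt_zS {X : ℝ → V} {X' : V} {t : ℝ} (hX : HasDerivAt X X' t) (h0 : X t ≠ 0) :
    ∃ c' : WithLp 2 (ℝ × V), HasDerivAt (fun s => zS (X s)) c' t ∧
      ‖c'‖ ^ 2 = (⟪X t, X'⟫) ^ 2 / ‖X t‖ ^ 2 +
        (Real.sin ‖X t‖ / ‖X t‖) ^ 2 * (‖X'‖ ^ 2 - (⟪X t, X'⟫) ^ 2 / ‖X t‖ ^ 2) := by
  have hn : ‖X t‖ ≠ 0 := norm_ne_zero_iff.2 h0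
  have hn0 : 0 < ‖X t‖ := norm_pos_iff.2 h0
  set r' : ℝ := ⟪X t, X'⟫ / ‖X t‖ with hr'
  have hr : HasDerivAt (fun s => ‖X s‖) r' t := by
    have h1 := hX.norm_sq
    have h2 := h1.sqrt (by positivity)
    have h3 : (fun s => √(‖X s‖ ^ 2)) = fun s => ‖X s‖ :=
      funext fun s => Real.sqrt_sq (norm_nonneg _)
    rw [h3, Real.sqrt_sq (norm_nonneg _)] at h2
    have h4 : r' = 2 * ⟪X t, X'⟫ / (2 * ‖X t‖) := by
      rw [hr']; field_simp
    rw [h4]
    exact h2
  have hcos : HasDerivAt (fun s => Real.cos ‖X s‖) (-Real.sin ‖X t‖ * r') t := hr.cos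
  have hsin : HasDerivAt (fun s => Real.sin ‖X s‖) (Real.cos ‖X t‖ * r') t := hr.sin
  have hq := hsin.div hr hn
  have h5 := hq.smul hX
  have h6 := hcos.prodMk h5
  have h7 := ((WithLp.prodContinuousLinearEquiv 2 ℝ ℝ V).symm :
    ℝ × V →L[ℝ] WithLp 2 (ℝ × V)).hasFDerivAt.comp_hasDerivAt t h6
  refine ⟨_, h7, ?_⟩
  rw [WithLp.prod_norm_sq_eq_of_L2]
  change ‖-Real.sin ‖X t‖ * r'‖ ^ 2 + ‖(Real.sin ‖X t‖ / ‖X t‖) • X' +
    ((Real.cos ‖X t‖ * r' * ‖X t‖ - Real.sin ‖X t‖ * r') / ‖X t‖ ^ 2) • X t‖ ^ 2 = _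
  have h8 : ⟪X', X t⟫ = r' * ‖X t‖ := by
    rw [hr', real_inner_comm]; field_simp
  have h8' : ⟪X t, X'⟫ = r' * ‖X t‖ := by rw [real_inner_comm, h8]
  rw [norm_add_sq_real, norm_smul, norm_smul, inner_smul_left, inner_smul_right, h8, h8',
    Real.norm_eq_abs, Real.norm_eq_abs, Real.norm_eq_abs, sq_abs, mul_pow (|_|), mul_pow (|_|),
    sq_abs, sq_abs]
  simp only [conj_trivial]
  clear h7 h6 h5 hq hsin hcos hr hr' h8 h8'
  have h9 := Real.sin_sq_add_cos_sq ‖X t‖
  generalize hS : Real.sin ‖X t‖ = S at *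
  generalize hC : Real.cos ‖X t‖ = C at *
  generalize ‖X t‖ = r at *
  generalize ‖X'‖ = q at *
  have hC2 : C ^ 2 = 1 - S ^ 2 := by linarith
  field_simp
  ring_nf
  rw [show C ^ 2 = 1 - S ^ 2 from hC2]
  ring

theorem inner_zS_e0 (X : V) : ⟪zS X, WithLp.toLp 2 ((1 : ℝ), (0 : V))⟫ = Real.cos ‖X‖ := by
  rw [WithLp.prod_inner_apply]
  simp [zS]

theorem zS_zero : zS (0 : V) = WithLp.toLp 2 ((1 : ℝ), (0 : V)) := by
  simp [zS]

theorem angle_zS_zero {X : V} (hX : ‖X‖ ≤ Real.pi) :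
    InnerProductGeometry.angle (zS X) (zS (0 : V)) = ‖X‖ := by
  unfold InnerProductGeometry.angle
  rw [norm_zS, norm_zS, mul_one, div_one, zS_zero, inner_zS_e0,
    Real.arccos_cos (norm_nonneg _) hX]

end sphere

/-! ### the manifold -/

variable {E : Type*} [NormedAddCommGroup E] [NormedSpace ℝ E] [FiniteDimensional ℝ E]
  {M : Type*} [MetricSpace M] [ChartedSpace E M] [IsManifold 𝓘(ℝ, E) ∞ M]
  [RiemannianBundle (fun x : M => TangentSpace 𝓘(ℝ, E) x)]
  [IsContMDiffRiemannianBundle 𝓘(ℝ, E) ∞ E (fun x : M => TangentSpace 𝓘(ℝ, E) x)]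

variable {e : ∀ x : M, TangentSpace 𝓘(ℝ, E) x → M}

/-- a curve with velocity zero is constant -/
theorem curve_const {γ : ℝ → M} (hγ : ∀ t, MDifferentiableAt 𝓘(ℝ, ℝ) 𝓘(ℝ, E) γ t)
    (h0 : ∀ t, mfderiv 𝓘(ℝ, ℝ) 𝓘(ℝ, E) γ t (1 : ℝ) = 0) (s t : ℝ) : γ s = γ t := by
  by_contra hne
  obtain ⟨f, hf1, hf0⟩ := exists_bump (E := E) (x := γ s) (U := {γ t}ᶜ)
    (isOpen_compl_singleton.mem_nhds hne)
  have h1 : ∀ r, HasDerivAt (fun a => f (γ a)) 0 r := by
    intro r
    have h2 := mfderiv_comp_apply r (I'' := 𝓘(ℝ, ℝ)) (g := f) (f := γ) (f.mdiff (γ r)) (hγ r)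
      (1 : ℝ)
    rw [h0 r, map_zero] at h2
    have h3 : DifferentiableAt ℝ (fun a => f (γ a)) r :=
      ((f.mdiff (γ r)).comp r (hγ r)).differentiableAt
    have h4 := h3.hasDerivAt
    have h5 : deriv (fun a => f (γ a)) r = 0 := by
      rw [← fderiv_apply_one_eq_deriv]
      have h6 : mfderiv 𝓘(ℝ, ℝ) 𝓘(ℝ, ℝ) (f ∘ γ) r = fderiv ℝ (fun a => f (γ a)) r :=
        mfderiv_eq_fderiv
      rw [h6] at h2
      exact h2
    rwa [h5] at h4
  have h2 := is_const_of_deriv_eq_zero (fun r => (h1 r).differentiableAt)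
    (fun r => (h1 r).deriv) s t
  have h3 := hf0 (γ t) (by simp)
  rw [hf1, h3] at h2
  exact one_ne_zero h2

/-- the differential of the exponential map is the one of the round sphere of curvature `κ ^ 2` -/
def SphJ (κ : ℝ) (e : ∀ x : M, TangentSpace 𝓘(ℝ, E) x → M) : Prop :=
  ∀ (x : M) (v w : E), v ≠ 0 → nm x v ≤ Real.pi / κ →
    nm (E := E) (e x (v : TangentSpace 𝓘(ℝ, E) x)) (dE e x v w) ^ 2 =
      (Vale.Agent.P231.ip x v w) ^ 2 / nm x v ^ 2 +
        (Real.sin (κ * nm x v) / (κ * nm x v)) ^ 2 *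
          (nm x w ^ 2 - (Vale.Agent.P231.ip x v w) ^ 2 / nm x v ^ 2)

theorem frv (x : M) (v : TangentSpace 𝓘(ℝ, E) x) :
    (fr (E := E) x ((fr (E := E) x).symm (v : E)) : E) = v :=
  (fr (E := E) x).apply_symm_apply (v : E)

theorem norm_frs (x : M) (v : TangentSpace 𝓘(ℝ, E) x) :
    ‖(fr (E := E) x).symm (v : E)‖ = ‖v‖ := by
  rw [← nm_fr (E := E) x, frv]
  rfl

theorem nm_zero_imp (x : M) {a : E} (h : nm x a = 0) : a = 0 :=
  (norm_eq_zero (E := TangentSpace 𝓘(ℝ, E) x)).1 h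

/-- velocity of `ef e x ∘ c` -/
theorem mfderiv_ef_comp (he : IsExp e) (x : M) {c : ℝ → Eu E} {c' : Eu E} {t : ℝ}
    (hc : HasDerivAt c c' t) :
    MDifferentiableAt 𝓘(ℝ, ℝ) 𝓘(ℝ, E) (fun s => ef e x (c s)) t ∧
    (mfderiv 𝓘(ℝ, ℝ) 𝓘(ℝ, E) (fun s => ef e x (c s)) t (1 : ℝ) : E) =
      dE e x (fr x (c t)) (fr x c') := by
  have h1 : MDifferentiableAt 𝓘(ℝ, TangentSpace 𝓘(ℝ, E) x) 𝓘(ℝ, E) (e x)
      (areaA (E := E) x (c t)) :=
    ((contMDiff_exp_fiber he x).contMDiffAt).mdifferentiableAt (by simp)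
  have h2 : HasDerivAt (fun s => areaA (E := E) x (c s)) (areaA (E := E) x c') t :=
    (areaA (E := E) x).hasFDerivAt.comp_hasDerivAt t hc
  have h3 : MDifferentiableAt 𝓘(ℝ, ℝ) 𝓘(ℝ, TangentSpace 𝓘(ℝ, E) x)
      (fun s => areaA (E := E) x (c s)) t := h2.differentiableAt.mdifferentiableAt
  refine ⟨MDifferentiableAt.comp t (g := e x) (f := fun s => areaA (E := E) x (c s)) h1 h3, ?_⟩
  have h4 := mfderiv_comp_apply t (I'' := 𝓘(ℝ, E)) (g := e x)
    (f := fun s => areaA (E := E) x (c s)) h1 h3 (1 : ℝ)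
  have h5 : mfderiv 𝓘(ℝ, ℝ) 𝓘(ℝ, TangentSpace 𝓘(ℝ, E) x) (fun s => areaA (E := E) x (c s)) t
      (1 : ℝ) = areaA (E := E) x c' := by
    rw [mfderiv_eq_fderiv]
    have := h2.hasFDerivAt.fderiv
    rw [this]
    exact one_smul ℝ _
  rw [h5] at h4
  exact h4

variable {κ : ℝ}

/-- all geodesics of length `π / κ` from `x` end at the same point -/
theorem collapse (hκ : 0 < κ) (F : Facts e) (hJ : SphJ κ e) (hdim : 2 ≤ finrank ℝ E) (x : M)
    {u u' : Eu E} (hu : ‖u‖ = 1) (hu' : ‖u'‖ = 1) :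
    ef e x ((Real.pi / κ) • u) = ef e x ((Real.pi / κ) • u') := by
  -- a unit vector `b` orthogonal to `u`
  obtain ⟨b, hb1, hb2, θ, hθ⟩ : ∃ b : Eu E, ‖b‖ = 1 ∧ ⟪u, b⟫ = 0 ∧
      ∃ θ : ℝ, u' = Real.cos θ • u + Real.sin θ • b := by
    set w : Eu E := u' - ⟪u, u'⟫ • u with hw
    have hw0 : ⟪u, w⟫ = 0 := by
      rw [hw, inner_sub_right, inner_smul_right, real_inner_self_eq_norm_sq, hu]
      ring
    have hww : ⟪u, u'⟫ ^ 2 + ‖w‖ ^ 2 = 1 := by
      have h1 : ‖w‖ ^ 2 = 1 - ⟪u, u'⟫ ^ 2 := by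
        rw [hw, norm_sub_sq_real, inner_smul_right, norm_smul, hu', hu, real_inner_comm,
          Real.norm_eq_abs, mul_one, sq_abs]
        ring
      linarith
    obtain ⟨b, hb1, hb2, hb3⟩ : ∃ b : Eu E, ‖b‖ = 1 ∧ ⟪u, b⟫ = 0 ∧ ‖w‖ • b = w := by
      by_cases hw1 : w = 0
      · have h2 : 0 < finrank ℝ ((ℝ ∙ u)ᗮ : Submodule ℝ (Eu E)) := by
          have h3 := Submodule.finrank_add_finrank_orthogonal (ℝ ∙ u)
          have hu0 : u ≠ 0 := by
            intro h
            rw [h, norm_zero] at hu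
            exact zero_ne_one hu
          have h4 : finrank ℝ (ℝ ∙ u) = 1 := finrank_span_singleton hu0
          have h5 : finrank ℝ (Eu E) = finrank ℝ E := by simp
          omega
        obtain ⟨a, ha⟩ := Module.finrank_pos_iff_exists_ne_zero.1 h2
        have ha0 : (a : Eu E) ≠ 0 := fun h => ha (Subtype.ext h)
        refine ⟨‖(a : Eu E)‖⁻¹ • (a : Eu E), ?_, ?_, ?_⟩
        · rw [norm_smul, norm_inv, norm_norm, inv_mul_cancel₀ (norm_ne_zero_iff.2 ha0)]
        · have h6 : ⟪u, (a : Eu E)⟫ = 0 :=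
            Submodule.mem_orthogonal_singleton_iff_inner_right.1 a.2
          rw [inner_smul_right, h6, mul_zero]
        · rw [hw1]; simp
      · have hn : ‖w‖ ≠ 0 := norm_ne_zero_iff.2 hw1
        refine ⟨‖w‖⁻¹ • w, ?_, ?_, ?_⟩
        · rw [norm_smul, norm_inv, norm_norm, inv_mul_cancel₀ hn]
        · rw [inner_smul_right, hw0, mul_zero]
        · rw [smul_smul, mul_inv_cancel₀ hn, one_smul]
    refine ⟨b, hb1, hb2, Real.arccos ⟪u, u'⟫, ?_⟩
    have h7 : ⟪u, u'⟫ ≤ 1 := by nlinarith [sq_nonneg ‖w‖]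
    have h8 : -1 ≤ ⟪u, u'⟫ := by nlinarith [sq_nonneg ‖w‖]
    rw [Real.cos_arccos h8 h7, Real.sin_arccos, show 1 - ⟪u, u'⟫ ^ 2 = ‖w‖ ^ 2 by linarith,
      Real.sqrt_sq (norm_nonneg _), hb3, hw]
    abel
  obtain ⟨ρ, hρ⟩ : ∃ ρ : ℝ, ρ = Real.pi / κ := ⟨_, rfl⟩
  have hρ0 : 0 < ρ := by rw [hρ]; have := Real.pi_pos; positivity
  have hκρ : κ * ρ = Real.pi := by rw [hρ]; field_simp
  rw [← hρ]
  let c : ℝ → Eu E := fun τ => ρ • (Real.cos τ • u + Real.sin τ • b)
  have hc : ∀ τ, HasDerivAt c (ρ • (-Real.sin τ • u + Real.cos τ • b)) τ := by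
    intro τ
    have h1 := ((Real.hasDerivAt_cos τ).smul_const u).add ((Real.hasDerivAt_sin τ).smul_const b)
    exact h1.const_smul ρ
  have hn : ∀ τ, ‖c τ‖ = ρ := by
    intro τ
    have h1 : ‖Real.cos τ • u + Real.sin τ • b‖ = 1 := by
      rw [← sq_eq_sq₀ (norm_nonneg _) zero_le_one, norm_add_sq_real, norm_smul, norm_smul,
        inner_smul_left, inner_smul_right, hb2, hu, hb1]
      simp only [Real.norm_eq_abs, mul_one, sq_abs, mul_zero, add_zero, one_pow]
      exact Real.cos_sq_add_sin_sq τ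
    change ‖ρ • (Real.cos τ • u + Real.sin τ • b)‖ = ρ
    rw [norm_smul, h1, mul_one, Real.norm_of_nonneg hρ0.le]
  have ho : ∀ τ, ⟪c τ, ρ • (-Real.sin τ • u + Real.cos τ • b)⟫ = 0 := by
    intro τ
    have hb2' : ⟪b, u⟫ = 0 := by rw [real_inner_comm]; exact hb2
    simp only [c, inner_smul_left, inner_smul_right, inner_add_left, inner_add_right, hb2, hb2',
      real_inner_self_eq_norm_sq, hu, hb1, conj_trivial]
    ring
  have h1 : ∀ τ, mfderiv 𝓘(ℝ, ℝ) 𝓘(ℝ, E) (fun s => ef e x (c s)) τ (1 : ℝ) = 0 := by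
    intro τ
    obtain ⟨-, h2⟩ := mfderiv_ef_comp F.isExp x (hc τ)
    refine Eq.trans h2 ?_
    have hc0 : (fr x (c τ) : E) ≠ 0 := by
      intro h0
      have := nm_fr (E := E) x (c τ)
      rw [h0, hn] at this
      have h3 : nm (E := E) x 0 = 0 := norm_zero (E := TangentSpace 𝓘(ℝ, E) x)
      rw [h3] at this
      exact hρ0.ne this
    have h3 := hJ x (fr x (c τ)) (fr x (ρ • (-Real.sin τ • u + Real.cos τ • b))) hc0
      (by rw [nm_fr, hn, hρ])
    rw [ip_fr, ho, nm_fr, hn, hκρ, Real.sin_pi] at h3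
    have h4 : nm (E := E) (e x (fr x (c τ) : E)) (dE e x (fr x (c τ))
        (fr x (ρ • (-Real.sin τ • u + Real.cos τ • b)))) = 0 := by
      rw [← sq_eq_zero_iff, h3]
      ring
    exact nm_zero_imp (E := E) (e x (fr x (c τ) : E)) h4
  have h2 := curve_const (E := E) (fun τ => (mfderiv_ef_comp F.isExp x (hc τ)).1) h1 0 θ
  have h3 : c 0 = ρ • u := by simp [c]
  have h4 : c θ = ρ • u' := by rw [hθ]
  rw [h3, h4] at h2
  exact h2

/-- the antipode -/
def ast (κ : ℝ) (e : ∀ x : M, TangentSpace 𝓘(ℝ, E) x → M) (x : M) : M :=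
  ef e x ((Real.pi / κ) • (if h : 0 < finrank ℝ E then EuclideanSpace.single ⟨0, h⟩ 1 else 0))

theorem ast_eq (hκ : 0 < κ) (F : Facts e) (hJ : SphJ κ e) (hdim : 2 ≤ finrank ℝ E) (x : M)
    {ξ : Eu E} (hξ : ‖ξ‖ = Real.pi / κ) : ef e x ξ = ast κ e x := by
  have h0 : 0 < finrank ℝ E := by omega
  have hpi : 0 < Real.pi / κ := by have := Real.pi_pos; positivity
  have h1 : ξ = (Real.pi / κ) • ((Real.pi / κ)⁻¹ • ξ) := by
    rw [smul_smul, mul_inv_cancel₀ hpi.ne', one_smul]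
  rw [h1]
  unfold ast
  rw [dif_pos h0]
  refine collapse hκ F hJ hdim x ?_ ?_
  · rw [norm_smul, hξ, norm_inv, Real.norm_of_nonneg hpi.le, inv_mul_cancel₀ hpi.ne']
  · simp

/-- polar coordinates -/
theorem exists_pol (F : Facts e) (p x : M) :
    ∃ ξ : Eu E, ef e p ξ = x ∧ ‖ξ‖ = dist p x := by
  obtain ⟨v, hv, hdv⟩ := F.hopfRinow p x
  refine ⟨(fr (E := E) p).symm (v : E), ?_, ?_⟩
  · refine Eq.trans ?_ hv
    exact congrArg (e p) (frv p v)
  · rw [norm_frs, hdv]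

theorem exists_unit (hdim : 2 ≤ finrank ℝ E) (ξ : Eu E) :
    ∃ u : Eu E, ‖u‖ = 1 ∧ ξ = ‖ξ‖ • u := by
  by_cases h : ξ = 0
  · refine ⟨EuclideanSpace.single ⟨0, by omega⟩ 1, by simp, by simp [h]⟩
  · have hn : ‖ξ‖ ≠ 0 := norm_ne_zero_iff.2 h
    refine ⟨‖ξ‖⁻¹ • ξ, ?_, ?_⟩
    · rw [norm_smul, norm_inv, norm_norm, inv_mul_cancel₀ hn]
    · rw [smul_smul, mul_inv_cancel₀ hn, one_smul]

variable [IsRiemannianManifold 𝓘(ℝ, E) M] [CompactSpace M] [ConnectedSpace M]

theorem dist_ef {D : ℝ} (hB : InjGE e D) (x : M) {ξ : Eu E} (hξ : ‖ξ‖ ≤ D) :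
    dist x (ef e x ξ) = ‖ξ‖ := V10_dist hB x hξ

/-- distances to the antipode -/
theorem dist_ast (hκ : 0 < κ) (F : Facts e) (hJ : SphJ κ e) (hdim : 2 ≤ finrank ℝ E)
    (hB : InjGE e (Real.pi / κ)) (hd : ∀ x y : M, dist x y ≤ Real.pi / κ) (x y : M) :
    dist y (ast κ e x) = Real.pi / κ - dist x y := by
  have hpi : 0 < Real.pi / κ := by have := Real.pi_pos; positivity
  obtain ⟨ξ, h1, h2⟩ := exists_pol (E := E) F x y
  obtain ⟨u, hu, hξ⟩ := exists_unit (E := E) hdim ξ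
  have hnu : ‖(Real.pi / κ) • u‖ = Real.pi / κ := by
    rw [norm_smul, hu, mul_one, Real.norm_of_nonneg hpi.le]
  have h3 : ef e x ((Real.pi / κ) • u) = ast κ e x := ast_eq hκ F hJ hdim x hnu
  have h4 : dist x (ast κ e x) = Real.pi / κ := by
    rw [← h3, dist_ef hB x hnu.le, hnu]
  have h5 : dist y (ast κ e x) ≤ Real.pi / κ - dist x y := by
    obtain ⟨v, hv⟩ : ∃ v : TangentSpace 𝓘(ℝ, E) x, v = (fr x u : E) := ⟨_, rfl⟩
    have h6 := dist_exp_le F.isExp x v ‖ξ‖ (Real.pi / κ)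
    have h7 : ef e x ξ = e x (‖ξ‖ • v) := by
      have h8 : (fr x ξ : E) = ‖ξ‖ • fr x u := by
        conv_lhs => rw [hξ]
        rw [map_smul]
      rw [hv]
      exact congrArg (e x) h8
    have h7' : ef e x ((Real.pi / κ) • u) = e x ((Real.pi / κ) • v) := by
      have h8 : (fr x ((Real.pi / κ) • u) : E) = (Real.pi / κ) • fr x u := map_smul _ _ _
      rw [hv]
      exact congrArg (e x) h8
    rw [← h3, ← h1, h7, h7']
    refine h6.trans ?_
    have h9 : ‖v‖ = 1 := by rw [hv]; exact (nm_fr (E := E) x u).trans hu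
    have h10 : ‖ξ‖ ≤ Real.pi / κ := by rw [h2]; exact hd x y
    have h11 : |Real.pi / κ - ‖ξ‖| = Real.pi / κ - ‖ξ‖ := abs_of_nonneg (by linarith)
    have h12 : dist x (e x (‖ξ‖ • v)) = ‖ξ‖ := by
      rw [← h7, dist_ef hB x h10]
    rw [h9, mul_one, h11, h12]
  refine le_antisymm h5 ?_
  have := dist_triangle x y (ast κ e x)
  linarith

/-- the isometry, with values in `ℝ ⊕ T_p M` -/
def zM (κ : ℝ) (F : Facts e) (p x : M) : WithLp 2 (ℝ × Eu E) :=
  zS (κ • (exists_pol F p x).choose)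

theorem zM_norm (F : Facts e) (p x : M) : ‖zM κ F p x‖ = 1 := norm_zS _

theorem zM_ef (hκ : 0 < κ) (F : Facts e) (hB : InjGE e (Real.pi / κ)) (p : M) {ξ : Eu E}
    (hξ : ‖ξ‖ ≤ Real.pi / κ) : zM κ F p (ef e p ξ) = zS (κ • ξ) := by
  obtain ⟨h1, h2⟩ := (exists_pol F p (ef e p ξ)).choose_spec
  unfold zM
  set η := (exists_pol F p (ef e p ξ)).choose with hη
  rw [dist_ef hB p hξ] at h2
  rcases hξ.lt_or_eq with h | h
  · have : η = ξ := area_injOn F hB p (by rw [mem_ball_zero_iff, h2]; exact h)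
      (mem_ball_zero_iff.2 h) h1
    rw [this]
  · have h3 : ∀ ζ : Eu E, ‖ζ‖ = Real.pi / κ → zS (κ • ζ) = WithLp.toLp 2 ((-1 : ℝ), (0 : Eu E)) := by
      intro ζ hζ
      have h4 : ‖κ • ζ‖ = Real.pi := by
        rw [norm_smul, hζ, Real.norm_of_nonneg hκ.le]
        field_simp
      unfold zS
      rw [h4]
      simp
    rw [h3 η (h2.trans h), h3 ξ h]

theorem zM_self (hκ : 0 < κ) (F : Facts e) (hB : InjGE e (Real.pi / κ)) (p : M) :
    zM κ F p p = zS (0 : Eu E) := by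
  have hpi : 0 < Real.pi / κ := by have := Real.pi_pos; positivity
  have h1 := zM_ef hκ F hB p (ξ := 0) (by rw [norm_zero]; exact hpi.le)
  have h2 : ef e p 0 = p := by
    have h3 : (fr p (0 : Eu E) : E) = 0 := map_zero _
    have h4 : e p (fr p (0 : Eu E) : E) = e p 0 := congrArg (e p) h3
    exact h4.trans (F.isExp.map_zero p)
  rw [h2, smul_zero] at h1
  exact h1

/-- radial distances are right -/
theorem angle_self (hκ : 0 < κ) (F : Facts e) (hB : InjGE e (Real.pi / κ))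
    (hd : ∀ x y : M, dist x y ≤ Real.pi / κ) (p x : M) :
    InnerProductGeometry.angle (zM κ F p x) (zM κ F p p) = κ * dist p x := by
  obtain ⟨ξ, h1, h2⟩ := exists_pol (E := E) F p x
  have h3 : ‖ξ‖ ≤ Real.pi / κ := by rw [h2]; exact hd p x
  have h4 : ‖κ • ξ‖ = κ * dist p x := by
    rw [norm_smul, h2, Real.norm_of_nonneg hκ.le]
  rw [zM_self hκ F hB, ← h1, zM_ef hκ F hB p h3, angle_zS_zero, h4, h1]
  rw [h4]
  calc κ * dist p x ≤ κ * (Real.pi / κ) := by gcongr; exact hd p x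
    _ = Real.pi := by field_simp

/-- the antipode goes to the antipode -/
theorem zM_ast (hκ : 0 < κ) (F : Facts e) (hJ : SphJ κ e) (hdim : 2 ≤ finrank ℝ E)
    (hB : InjGE e (Real.pi / κ)) (hd : ∀ x y : M, dist x y ≤ Real.pi / κ) (p x : M) :
    zM κ F p (ast κ e x) = - zM κ F p x := by
  have hpi : 0 < Real.pi / κ := by have := Real.pi_pos; positivity
  obtain ⟨ξ, h1, h2⟩ := exists_pol (E := E) F p x
  obtain ⟨u, hu, hξ⟩ := exists_unit (E := E) hdim ξ
  have h3 : ‖ξ‖ ≤ Real.pi / κ := by rw [h2]; exact hd p x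
  set r := ‖ξ‖ with hr
  have hr0 : 0 ≤ r := norm_nonneg _
  have hx : gam e p (fr p u) r = x := by
    rw [← h1]
    have h4 : (fr p ξ : E) = r • fr p u := by
      conv_lhs => rw [hξ]
      rw [map_smul]
    exact (congrArg (e p) h4).symm
  -- the geodesic run backwards
  have h5 : gam e x (vel e p (fr p u) r) (-(Real.pi / κ)) = gam e p (fr p u) (r - Real.pi / κ) := by
    have h6 := gam_flow F p (fr p u) r (-(Real.pi / κ))
    rw [hx, ← sub_eq_add_neg] at h6
    exact h6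
  have h7 : gam e x (vel e p (fr p u) r) (-(Real.pi / κ)) = ast κ e x := by
    have h8 : nm x (vel e p (fr p u) r) = 1 := by
      have := nm_vel F p (fr p u) r
      rw [hx, nm_fr, hu] at this
      exact this
    have h9 : ‖(fr (E := E) x).symm (-(Real.pi / κ) • vel e p (fr p u) r)‖ = Real.pi / κ := by
      rw [← nm_fr (E := E) x, ContinuousLinearEquiv.apply_symm_apply, nm_smul, h8, mul_one, abs_neg,
        abs_of_pos hpi]
    rw [← ast_eq hκ F hJ hdim x h9]
    have h10 : (fr (E := E) x ((fr (E := E) x).symm (-(Real.pi / κ) • vel e p (fr p u) r)) : E) =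
      -(Real.pi / κ) • vel e p (fr p u) r := ContinuousLinearEquiv.apply_symm_apply _ _
    exact (congrArg (e x) h10).symm
  have h11 : ast κ e x = ef e p ((r - Real.pi / κ) • u) := by
    rw [← h7, h5]
    have h12 : (fr p ((r - Real.pi / κ) • u) : E) = (r - Real.pi / κ) • fr p u := map_smul _ _ _
    exact (congrArg (e p) h12).symm
  have h13 : ‖(r - Real.pi / κ) • u‖ ≤ Real.pi / κ := by
    rw [norm_smul, hu, mul_one, Real.norm_eq_abs, abs_of_nonpos (by linarith)]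
    linarith
  have h14 : x = ef e p (r • u) := by rw [← hξ, h1]
  have h15 : zM κ F p x = zS (κ • r • u) := by
    rw [← zM_ef hκ F hB p (ξ := r • u) (by rw [← hξ]; exact h3), ← h14]
  rw [h11, zM_ef hκ F hB p h13, h15, smul_smul, smul_smul, zS_smul hu, zS_smul hu]
  have h16 : κ * (r - Real.pi / κ) = κ * r - Real.pi := by field_simp
  rw [h16, Real.cos_sub_pi, Real.sin_sub_pi, ← WithLp.toLp_neg]
  simp

/-- `zM` does not increase the distance along a minimal geodesic avoiding the centre and its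
antipode -/
theorem angle_le_gen (hκ : 0 < κ) (F : Facts e) (hJ : SphJ κ e)
    (hB : InjGE e (Real.pi / κ)) (p x : M) (w : E)
    (hm : ∀ t ∈ Icc (0 : ℝ) 1, 0 < dist p (gam e x w t) ∧ dist p (gam e x w t) < Real.pi / κ) :
    InnerProductGeometry.angle (zM κ F p (gam e x w 0)) (zM κ F p (gam e x w 1)) ≤ κ * nm x w := by
  -- the lifted curve
  let X : ℝ → Eu E := fun t => areaB (E := E) p (logMap e p (gam e x w t))
  have hX : ∀ t ∈ Icc (0 : ℝ) 1, DifferentiableAt ℝ X t := by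
    intro t ht
    have h1 := area_chain (E := E) (V := ℝ) (T₁ := ℝ) (ContinuousLinearMap.id ℝ ℝ) (gam e x w)
      (logMap e p) (areaB (E := E) p) (ξ := t) (y := gam e x w t) rfl
      ((contMDiff_gam F.isExp x w).contMDiffAt) (V5log_smooth F hB (hm t ht).2).1
    exact h1.1.differentiableAt (by simp)
  have hXe : ∀ t ∈ Icc (0 : ℝ) 1, ∀ᶠ s in 𝓝 t, ef e p (X s) = gam e x w s ∧
      ‖X s‖ = dist p (gam e x w s) := by
    intro t ht
    have hc : Continuous fun s => dist p (gam e x w s) :=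
      continuous_const.dist (contMDiff_gam F.isExp x w).continuous
    have h1 : ∀ᶠ s in 𝓝 t, dist p (gam e x w s) < Real.pi / κ :=
      hc.continuousAt.eventually_lt continuousAt_const (hm t ht).2
    filter_upwards [h1] with s hs
    have h2 := (V5log_smooth F hB hs).2
    have h3 : (fr (E := E) p (X s) : E) = logMap e p (gam e x w s) :=
      ContinuousLinearEquiv.apply_symm_apply _ _
    have h4 : ef e p (X s) = gam e x w s := (congrArg (e p) h3).trans h2
    refine ⟨h4, ?_⟩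
    obtain ⟨v, hv, hdv⟩ := F.hopfRinow p (gam e x w s)
    have h6 : logMap e p (gam e x w s) = v := by
      rw [← hv]
      exact V5log_eq F hB (by rw [← hdv]; exact hs)
    have h5 : X s = (fr (E := E) p).symm (v : E) := congrArg (fr (E := E) p).symm h6
    rw [h5, norm_frs, hdv]
  let c : ℝ → WithLp 2 (ℝ × Eu E) := fun t => zS (κ • X t)
  have hcz : ∀ t ∈ Icc (0 : ℝ) 1, c t = zM κ F p (gam e x w t) := by
    intro t ht
    obtain ⟨h1, h2⟩ := (hXe t ht).self_of_nhds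
    rw [← h1, zM_ef hκ F hB p (by rw [h2]; exact (hm t ht).2.le)]
  have hc' : ∀ t ∈ Icc (0 : ℝ) 1, ∃ c', HasDerivAt c c' t ∧ ‖c'‖ ≤ κ * nm x w := by
    intro t ht
    have h1 := (hX t ht).hasDerivAt
    set X' := deriv X t with hX'
    obtain ⟨h2, h3⟩ := (hXe t ht).self_of_nhds
    have hX0 : X t ≠ 0 := by
      rw [← norm_ne_zero_iff, h3]
      exact (hm t ht).1.ne'
    have h4 : HasDerivAt (fun s => κ • X s) (κ • X') t := h1.const_smul κ
    obtain ⟨c', h5, h6⟩ := hasDerivAt_zS h4 (smul_ne_zero hκ.ne' hX0)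
    refine ⟨c', h5, ?_⟩
    -- the velocity of the geodesic
    have h7 := (mfderiv_ef_comp F.isExp p h1).2
    have h8 : (fun s => ef e p (X s)) =ᶠ[𝓝 t] gam e x w := (hXe t ht).mono fun s hs => hs.1
    have h9 : (mfderiv 𝓘(ℝ, ℝ) 𝓘(ℝ, E) (fun s => ef e p (X s)) t (1 : ℝ) : E) = vel e x w t := by
      have h10 := h8.mfderiv_eq (I := 𝓘(ℝ, ℝ)) (I' := 𝓘(ℝ, E))
      have h11 := mfderiv_gam F.isExp x w t
      exact (congrArg (fun L : ℝ →L[ℝ] E => L 1) h10).trans h11
    have h12 : dE e p (fr p (X t)) (fr p X') = vel e x w t := h7.symm.trans h9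
    have hfX0 : (fr p (X t) : E) ≠ 0 := by
      intro h0
      have := nm_fr (E := E) p (X t)
      rw [h0] at this
      have h13 : nm (E := E) p 0 = 0 := norm_zero (E := TangentSpace 𝓘(ℝ, E) p)
      rw [h13] at this
      exact hX0 (norm_eq_zero.1 this.symm)
    have h14 := hJ p (fr p (X t)) (fr p X') hfX0 (by rw [nm_fr, h3]; exact (hm t ht).2.le)
    rw [h12, ip_fr, nm_fr, nm_fr] at h14
    have h15 : nm (E := E) (e p (fr p (X t) : E)) (vel e x w t) = nm x w := by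
      have h16 : (e p (fr p (X t) : E) : M) = gam e x w t := h2
      rw [h16]
      exact nm_vel F x w t
    rw [h15] at h14
    have hn0 : ‖X t‖ ≠ 0 := norm_ne_zero_iff.2 hX0
    have h17 : ‖c'‖ ^ 2 = (κ * nm x w) ^ 2 := by
      rw [h6, mul_pow, h14, norm_smul, norm_smul, inner_smul_left, inner_smul_right,
        Real.norm_of_nonneg hκ.le]
      simp only [conj_trivial]
      have hκ' := hκ.ne'
      generalize Real.sin (κ * ‖X t‖) = S
      field_simp
    have h18 : 0 ≤ κ * nm x w := mul_nonneg hκ.le (nm_nonneg _ _)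
    exact ((sq_eq_sq₀ (norm_nonneg _) h18).1 h17).le
  have hL : 0 ≤ κ * nm x w := mul_nonneg hκ.le (nm_nonneg _ _)
  have h0m : (0 : ℝ) ∈ Icc (0 : ℝ) 1 := ⟨le_rfl, zero_le_one⟩
  have h1m : (1 : ℝ) ∈ Icc (0 : ℝ) 1 := ⟨zero_le_one, le_rfl⟩
  rw [← hcz 0 h0m, ← hcz 1 h1m]
  refine angle_le_of_lip hL (fun t _ => norm_zS _) fun s hs t ht => ?_
  choose! d hd1 hd2 using hc'
  have h1 := (convex_Icc (0 : ℝ) 1).norm_image_sub_le_of_norm_hasDerivWithin_le
    (f := c) (f' := d) (fun r hr => (hd1 r hr).hasDerivWithinAt) hd2 ht hs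
  rwa [← Real.norm_eq_abs]

/-- `zM` does not increase distances -/
theorem angle_le (hκ : 0 < κ) (F : Facts e) (hJ : SphJ κ e) (hdim : 2 ≤ finrank ℝ E)
    (hB : InjGE e (Real.pi / κ)) (hd : ∀ x y : M, dist x y ≤ Real.pi / κ) (p x y : M) :
    InnerProductGeometry.angle (zM κ F p x) (zM κ F p y) ≤ κ * dist x y := by
  obtain ⟨v, hv, hdv⟩ := F.hopfRinow x y
  have hpi : 0 < Real.pi / κ := by have := Real.pi_pos; positivity
  have hκpi : κ * (Real.pi / κ) = Real.pi := by field_simp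
  have hg0 : gam e x (v : E) 0 = x := gam_zero F.isExp x _
  have hg1 : gam e x (v : E) 1 = y := by
    rw [← hv]
    exact congrArg (e x) (one_smul ℝ v)
  have hs : ∀ t ∈ Icc (0 : ℝ) 1,
      dist x (gam e x (v : E) t) + dist (gam e x (v : E) t) y ≤ dist x y := by
    intro t ht
    have h1 : dist (gam e x (v : E) 0) (gam e x (v : E) t) ≤ |t - 0| * ‖v‖ :=
      dist_exp_le F.isExp x v 0 t
    have h2 : dist (gam e x (v : E) t) (gam e x (v : E) 1) ≤ |1 - t| * ‖v‖ :=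
      dist_exp_le F.isExp x v t 1
    rw [hg0, sub_zero, abs_of_nonneg ht.1] at h1
    rw [hg1, abs_of_nonneg (by linarith [ht.2])] at h2
    rw [hdv]
    linarith
  by_cases hA : ∃ t ∈ Icc (0 : ℝ) 1, gam e x (v : E) t = p
  · obtain ⟨t, ht, htp⟩ := hA
    have h1 := hs t ht
    rw [htp] at h1
    have h2 := InnerProductGeometry.angle_le_angle_add_angle (zM κ F p x) (zM κ F p p)
      (zM κ F p y)
    rw [InnerProductGeometry.angle_comm (zM κ F p p), angle_self hκ F hB hd,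
      angle_self hκ F hB hd] at h2
    rw [dist_comm x p] at h1
    nlinarith
  by_cases hBB : ∃ t ∈ Icc (0 : ℝ) 1, dist p (gam e x (v : E) t) = Real.pi / κ
  · obtain ⟨t, ht, htp⟩ := hBB
    have hast : gam e x (v : E) t = ast κ e p := by
      obtain ⟨ξ, h1, h2⟩ := exists_pol (E := E) F p (gam e x (v : E) t)
      rw [← h1]
      exact ast_eq hκ F hJ hdim p (h2.trans htp)
    have h1 := hs t ht
    rw [hast] at h1
    have h2 := InnerProductGeometry.angle_le_angle_add_angle (zM κ F p x) (-zM κ F p p)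
      (zM κ F p y)
    rw [InnerProductGeometry.angle_comm (-zM κ F p p), InnerProductGeometry.angle_neg_right,
      InnerProductGeometry.angle_neg_right, angle_self hκ F hB hd,
      angle_self hκ F hB hd] at h2
    rw [dist_comm (ast κ e p) y, dist_ast hκ F hJ hdim hB hd, dist_ast hκ F hJ hdim hB hd] at h1
    have h3 : κ * (Real.pi / κ - dist p x + (Real.pi / κ - dist p y)) ≤ κ * dist x y := by
      gcongr
    have h4 : κ * (Real.pi / κ - dist p x + (Real.pi / κ - dist p y)) =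
        Real.pi - κ * dist p x + (Real.pi - κ * dist p y) := by
      rw [mul_add, mul_sub, mul_sub, hκpi]
    linarith
  push Not at hA hBB
  have h1 := angle_le_gen hκ F hJ hB p x (v : E) (fun t ht => ?_)
  · rw [hg0, hg1] at h1
    refine h1.trans (le_of_eq ?_)
    rw [hdv]
    rfl
  · refine ⟨dist_pos.2 (Ne.symm (hA t ht)), lt_of_le_of_ne (hd _ _) (hBB t ht)⟩

/-- **The isometry with the round sphere.** -/
theorem angle_eq (hκ : 0 < κ) (F : Facts e) (hJ : SphJ κ e) (hdim : 2 ≤ finrank ℝ E)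
    (hB : InjGE e (Real.pi / κ)) (hd : ∀ x y : M, dist x y ≤ Real.pi / κ) (p x y : M) :
    InnerProductGeometry.angle (zM κ F p x) (zM κ F p y) = κ * dist x y := by
  have hκpi : κ * (Real.pi / κ) = Real.pi := by field_simp
  refine le_antisymm (angle_le hκ F hJ hdim hB hd p x y) ?_
  have h1 := angle_le hκ F hJ hdim hB hd p y (ast κ e x)
  rw [zM_ast hκ F hJ hdim hB hd, InnerProductGeometry.angle_neg_right,
    InnerProductGeometry.angle_comm, dist_ast hκ F hJ hdim hB hd, mul_sub, hκpi] at h1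
  linarith

theorem zM_surj (hκ : 0 < κ) (F : Facts e) (hdim : 2 ≤ finrank ℝ E)
    (hB : InjGE e (Real.pi / κ)) (p : M) (z : WithLp 2 (ℝ × Eu E)) (hz : ‖z‖ = 1) :
    ∃ x, zM κ F p x = z := by
  obtain ⟨a, b, rfl⟩ : ∃ (a : ℝ) (b : Eu E), z = WithLp.toLp 2 (a, b) := ⟨z.fst, z.snd, rfl⟩
  have h1 : a ^ 2 + ‖b‖ ^ 2 = 1 := by
    have h2 := WithLp.prod_norm_sq_eq_of_L2 (WithLp.toLp 2 (a, b))
    rw [hz] at h2
    simp only [WithLp.toLp_fst, WithLp.toLp_snd, Real.norm_eq_abs, sq_abs] at h2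
    linarith
  obtain ⟨u, hu, hb⟩ := exists_unit (E := E) hdim b
  have ha1 : a ≤ 1 := by nlinarith [sq_nonneg ‖b‖]
  have ha2 : -1 ≤ a := by nlinarith [sq_nonneg ‖b‖]
  set t := Real.arccos a with ht
  have ht0 : 0 ≤ t := Real.arccos_nonneg a
  have ht1 : t ≤ Real.pi := Real.arccos_le_pi a
  have h3 : ‖(t / κ) • u‖ ≤ Real.pi / κ := by
    rw [norm_smul, hu, mul_one, Real.norm_of_nonneg (by positivity)]
    gcongr
  refine ⟨ef e p ((t / κ) • u), ?_⟩
  rw [zM_ef hκ F hB p h3, smul_smul, mul_div_cancel₀ _ hκ.ne', zS_smul hu, ht,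
    Real.cos_arccos ha2 ha1, Real.sin_arccos, show 1 - a ^ 2 = ‖b‖ ^ 2 by linarith,
    Real.sqrt_sq (norm_nonneg _), ← hb]

/-- the isometry with the round sphere of curvature `κ ^ 2` in `ℝ ^ (n + 1)` -/
theorem sphere_iso (hκ : 0 < κ) (F : Facts e) (hJ : SphJ κ e) {n : ℕ} (hn : finrank ℝ E = n)
    (hdim : 2 ≤ n) (hB : InjGE e (Real.pi / κ)) (hd : ∀ x y : M, dist x y ≤ Real.pi / κ) :
    ∃ Z : M → EuclideanSpace ℝ (Fin (n + 1)), (∀ x, ‖Z x‖ = 1) ∧
      (∀ x y, κ * dist x y = Real.arccos ⟪Z x, Z y⟫) ∧ ∀ z, ‖z‖ = 1 → ∃ x, Z x = z := by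
  obtain ⟨p⟩ : Nonempty M := inferInstance
  rw [← hn] at hdim
  have hfr : finrank ℝ (WithLp 2 (ℝ × Eu E)) = n + 1 := by
    rw [(WithLp.linearEquiv 2 ℝ (ℝ × Eu E)).finrank_eq, Module.finrank_prod,
      Module.finrank_self]
    simp [hn, add_comm]
  let Φ : WithLp 2 (ℝ × Eu E) ≃ₗᵢ[ℝ] EuclideanSpace ℝ (Fin (n + 1)) :=
    ((stdOrthonormalBasis ℝ (WithLp 2 (ℝ × Eu E))).reindex (finCongr hfr)).repr
  refine ⟨fun x => Φ (zM κ F p x), fun x => ?_, fun x y => ?_, fun z hz => ?_⟩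
  · rw [Φ.norm_map, zM_norm]
  · rw [Φ.inner_map_map, ← angle_eq hκ F hJ hdim hB hd p x y]
    unfold InnerProductGeometry.angle
    rw [zM_norm, zM_norm, mul_one, div_one]
  · obtain ⟨x, hx⟩ := zM_surj hκ F hdim hB p (Φ.symm z) (by rw [Φ.symm.norm_map, hz])
    refine ⟨x, ?_⟩
    change Φ (zM κ F p x) = z
    rw [hx, Φ.apply_symm_apply]

end

end Vale.Agent.P211.HK.S4I
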