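import Vale.Agent.P211.HK.SecDefs
import Mathlib.MeasureTheory.Integral.Bochner.Basic

/-! P211 / HK: FROZEN statements of the section calculus (each `...Stmt` is one block; prove it as a
theorem `scN : SCNStmt cov om` in the file named in the table `p211_parts`). captain helper423. -/

set_option maxSynthPendingDepth 3
set_option linter.unusedSectionVars false

namespace Vale.Agent.P211.HK

open scoped Manifold ContDiff Topology RealInnerProductSpace
open Bundle Filter VectorField MeasureTheory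

noncomputable section

variable {W W' : Type} [NormedAddCommGroup W] [InnerProductSpace ℝ W]
  [NormedAddCommGroup W'] [InnerProductSpace ℝ W']

/-- `R'` is the tensor product of the tangent representation with `R` -/
def Tens (R : Rep W) (R' : Rep (Tn W)) : Prop := ∀ g, IsSO g → R'.ρ g = tnMap g (R.ρ g)

/-- `R'` is the tensor product of the four-dimensional representation `m` with `R` -/
def Twist (m : Mat4 → Mat4) (R : Rep W) (R' : Rep (Tn W)) : Prop :=
  ∀ g, IsSO g → R'.ρ g = tnMap (m g) (R.ρ g)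

/-- `1 ⊗ C` -/
def tnC (C : W →L[ℝ] W') : Tn W →L[ℝ] Tn W' :=
  ∑ k, (((PiLp.continuousLinearEquiv 2 ℝ fun _ : Fin 4 => W').symm :
      (Fin 4 → W') →L[ℝ] Tn W').comp ((ContinuousLinearMap.single ℝ (fun _ : Fin 4 => W') k).comp
        (C.comp (PiLp.proj 2 (fun _ : Fin 4 => W) k))))

variable {E : Type} [NormedAddCommGroup E] [NormedSpace ℝ E] [FiniteDimensional ℝ E]
  {M : Type} [TopologicalSpace M] [ChartedSpace E M] [IsManifold 𝓘(ℝ, E) ∞ M] [T2Space M]
  [RiemannianBundle fun p : M => TangentSpace 𝓘(ℝ, E) p]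
  [IsContMDiffRiemannianBundle 𝓘(ℝ, E) ∞ E fun p : M => TangentSpace 𝓘(ℝ, E) p]

/-- standing hypotheses: Levi-Civita connection, dimension four, orientation -/
structure Geo4 (cov : CovariantDerivative 𝓘(ℝ, E) E (TangentSpace 𝓘(ℝ, E) : M → Type))
    (om : Form4 E M) : Prop where
  lc : IsLC cov
  dim : Module.finrank ℝ E = 4
  ori : NN.IsOrientation om

variable (cov : CovariantDerivative 𝓘(ℝ, E) E (TangentSpace 𝓘(ℝ, E) : M → Type))
  (om : Form4 E M)

/-- SC0: synchronous frames exist; positively oriented frames exist at each point. -/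
def SC0Stmt : Prop := Geo4 cov om →
  (∀ (p : M) f, PON om p f → ∃ F, SyncExt cov om p f F) ∧
  (∀ (p : M), ∃ f, PON om p f) ∧
  (∀ (p : M) f g, PON om p f → IsSO g → PON om p (fact f g)) ∧
  (∀ (p : M) f f', PON om p f → PON om p f' → ∃ g, IsSO g ∧ f' = fact f g) ∧
  (∀ (p : M) (F F' : Fin 4 → VF E M), PONnear om p F → PONnear om p F' →
    ContMDiffAt 𝓘(ℝ, E) 𝓘(ℝ, Mat4) ∞ (fun q => fun i j => (inner ℝ (F i q) (F' j q) : ℝ)) p)

/-- SC1: the covariant derivative in an arbitrary smooth frame. -/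
def SC1Stmt : Prop := Geo4 cov om → ∀ (W : Type) [NormedAddCommGroup W] [InnerProductSpace ℝ W]
    [FiniteDimensional ℝ W] (R : Rep W) (u : PreS E M W), u ∈ Sec om R →
    ∀ (p : M) (F : Fin 4 → VF E M), PONnear om p F → ∀ k : Fin 4,
      (nabS cov om u p fun i => F i p) k =
        dirW (fun q => u q fun i => F i q) p (F k p) +
          R.d (GaF cov F p k) (u p fun i => F i p)

/-- SC2: the covariant derivative of a section is a section of `T ⊗ W`. -/
def SC2Stmt : Prop := Geo4 cov om → ∀ (W : Type) [NormedAddCommGroup W] [InnerProductSpace ℝ W]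
    [FiniteDimensional ℝ W] (R : Rep W) (R' : Rep (Tn W)), Tens R R' →
    ∀ u : PreS E M W, u ∈ Sec om R → nabS cov om u ∈ Sec om R'

/-- SC3: constant coefficient maps are parallel; linearity. -/
def SC3Stmt : Prop := Geo4 cov om → ∀ (W W' : Type) [NormedAddCommGroup W]
    [InnerProductSpace ℝ W] [FiniteDimensional ℝ W] [NormedAddCommGroup W']
    [InnerProductSpace ℝ W'] [FiniteDimensional ℝ W'] (R : Rep W) (R' : Rep W')
    (C : W →L[ℝ] W'), Intertwines R R' C → ∀ u ∈ Sec (E := E) om R,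
      mapS C u ∈ Sec om R' ∧ nabS cov om (mapS C u) = mapS (tnC C) (nabS cov om u) ∧
      lapS cov om (mapS C u) = mapS C (lapS cov om u)

/-- SC4: `nabS` is linear and satisfies the Leibniz rule and metric compatibility. -/
def SC4Stmt : Prop := Geo4 cov om → ∀ (W : Type) [NormedAddCommGroup W] [InnerProductSpace ℝ W]
    [FiniteDimensional ℝ W] (R : Rep W),
    (∀ u ∈ Sec (E := E) om R, ∀ v ∈ Sec (E := E) om R,
      nabS cov om (u + v) = nabS cov om u + nabS cov om v) ∧
    (∀ (c : ℝ), ∀ u ∈ Sec (E := E) om R, nabS cov om (c • u) = c • nabS cov om u) ∧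
    (∀ (φ : SF E M), ∀ u ∈ Sec (E := E) om R,
      (fun p f => φ p • u p f) ∈ Sec om R ∧ ∀ p f, PON om p f → ∀ k,
        (nabS cov om (fun p f => φ p • u p f) p f) k =
          (mvfderiv 𝓘(ℝ, E) φ p (f k) : ℝ) • u p f + φ p • (nabS cov om u p f) k) ∧
    (∀ u ∈ Sec (E := E) om R, ∀ v ∈ Sec (E := E) om R, ∃ φ : SF E M,
      (∀ p f, PON om p f → φ p = ⟪u p f, v p f⟫) ∧ ∀ p f, PON om p f → ∀ k,
        (mvfderiv 𝓘(ℝ, E) φ p (f k) : ℝ) =
          ⟪(nabS cov om u p f) k, v p f⟫ + ⟪u p f, (nabS cov om v p f) k⟫)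

/-- SC5: the commutator of second covariant derivatives. -/
def SC5Stmt : Prop := Geo4 cov om → ∀ (W : Type) [NormedAddCommGroup W] [InnerProductSpace ℝ W]
    [FiniteDimensional ℝ W] (R : Rep W), ∀ u ∈ Sec (E := E) om R, ∀ p f, PON om p f →
    (∀ k l i j, Om cov p f k l i j = - Om cov p f k l j i) ∧ ∀ k l : Fin 4,
      (nabS cov om (nabS cov om u) p f) k l - (nabS cov om (nabS cov om u) p f) l k =
        R.d (Om cov p f k l) (u p f)

/-- SC6: integration by parts. `μ` is the Riemannian volume: only the divergence theorem is used;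
`fr p` is any choice of positively oriented frames. -/
def SC6Stmt [MeasurableSpace M] [BorelSpace M] [CompactSpace M] (μ : Measure M) : Prop :=
  Geo4 cov om → IsFiniteMeasure μ →
  (∀ (X : VF E M) (d : M → ℝ), (∀ p f, PON om p f →
      d p = ∑ i, inner ℝ (cov X p (f i)) (f i)) → ∫ p, d p ∂μ = 0) →
  ∀ (W : Type) [NormedAddCommGroup W] [InnerProductSpace ℝ W] [FiniteDimensional ℝ W]
    (R : Rep W) (R' : Rep (Tn W)), Tens R R' →
    ∀ (fr : (p : M) → Fin 4 → TangentSpace 𝓘(ℝ, E) p), (∀ p, PON om p (fr p)) →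
    (∀ u ∈ Sec (E := E) om R, ∀ η ∈ Sec (E := E) om R',
      ∫ p, ⟪nabS cov om u p (fr p), η p (fr p)⟫ ∂μ =
        - ∫ p, ⟪u p (fr p), ∑ k, (nabS cov om η p (fr p)) k k⟫ ∂μ) ∧
    (∀ u ∈ Sec (E := E) om R, ∀ v ∈ Sec (E := E) om R,
      ∫ p, ⟪nabS cov om u p (fr p), nabS cov om v p (fr p)⟫ ∂μ =
        ∫ p, ⟪u p (fr p), lapS cov om v p (fr p)⟫ ∂μ)

end

end Vale.Agent.P211.HK
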