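import Vale.Agent.P231.Bd3.B3

/-! P211 / HK / VE (helper861): if the volume of a compact manifold is the integral of the Jacobian of
the exponential map over the ball whose radius `D` is the first conjugate distance, then `D` is at
most the injectivity radius. -/

set_option maxSynthPendingDepth 3
set_option linter.unusedSectionVars false
set_option linter.unusedVariables false

open Bundle Manifold Set Filter MeasureTheory Module
open scoped ContDiff Manifold Topology ENNReal

namespace Vale.Agent.P211.HK.VE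

noncomputable section

open Vale.Agent.P234 Vale.Agent.P231

variable {E : Type*} [NormedAddCommGroup E] [NormedSpace ℝ E] [FiniteDimensional ℝ E]
  {M : Type*} [MetricSpace M] [ChartedSpace E M]
  [RiemannianBundle (fun x : M => TangentSpace 𝓘(ℝ, E) x)]
  [IsManifold 𝓘(ℝ, E) ∞ M]
  [IsContMDiffRiemannianBundle 𝓘(ℝ, E) ∞ E (fun x : M => TangentSpace 𝓘(ℝ, E) x)]
  {e : ∀ x : M, TangentSpace 𝓘(ℝ, E) x → M}

/-- the Jacobian is positive on the injectivity domain -/
theorem jac_pos_of_mem [CompactSpace M] [ConnectedSpace M] [IsRiemannianManifold 𝓘(ℝ, E) M]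
    (F : Facts e) {x : M} {v : E} (hmem : (v : TangentSpace 𝓘(ℝ, E) x) ∈ injDomain e x) :
    0 < jac e x v := by
  refine lt_of_le_of_ne (Jac.nonneg x v) (Ne.symm fun h0 => ?_)
  unfold jac at h0
  rw [abs_eq_zero] at h0
  obtain ⟨c, hc, hc0⟩ := Matrix.exists_mulVec_eq_zero_iff.2 h0
  set y : M := gam e x v 1
  have h1 : ∀ (z : E) (k : Fin (finrank ℝ E)), ip y (fr y (EuclideanSpace.single k 1)) z =
      ((fr y).symm z) k := by
    intro z k
    rw [Jac.ip_fr_left]
    simp only [PiLp.single_apply, ite_mul, one_mul, zero_mul, Finset.sum_ite_eq', Finset.mem_univ, ↓reduceIte]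
  have h2 : dE e x v (∑ j, c j • fr x (EuclideanSpace.single j (1 : ℝ))) = 0 := by
    have h3 : (fr y).symm (dE e x v (∑ j, c j • fr x (EuclideanSpace.single j (1 : ℝ)))) = 0 := by
      ext i
      have h4 := congrFun hc0 i
      rw [Jac.dE_sum, map_sum]
      simp only [Matrix.mulVec, dotProduct, h1, Matrix.of_apply, Pi.zero_apply, map_smul] at h4 ⊢
      rw [PiLp.zero_apply, ← h4]
      simp only [WithLp.ofLp_sum, WithLp.ofLp_smul, Finset.sum_apply, Pi.smul_apply, smul_eq_mul, mul_comm]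
    simpa using congrArg (fr y) h3
  have h5 := mfderiv_exp_injective F hmem _ h2
  apply hc
  funext j
  have h5' : (∑ j, c j • fr x (EuclideanSpace.single j (1 : ℝ)) : E) = 0 := h5
  have h6 := congrArg (fun w : E => ((fr x).symm w) j) h5'
  simpa only [Pi.zero_apply, map_sum, map_smul, ContinuousLinearEquiv.symm_apply_apply, WithLp.ofLp_sum,     WithLp.ofLp_smul, PiLp.ofLp_single, Finset.sum_apply, Pi.smul_apply, Pi.single_apply, smul_eq_mul, mul_ite, mul_one,     mul_zero, Finset.sum_ite_eq, Finset.mem_univ, ↓reduceIte, map_zero, PiLp.zero_apply] using h6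

/-- local form of the area inequality, with an additive error -/
theorem area_le_local [CompactSpace M] [ConnectedSpace M] [IsRiemannianManifold 𝓘(ℝ, E) M]
    [MeasurableSpace M] [BorelSpace M] (F : Facts e) (x : M) (ξ₀ : Eu E) {η : ℝ} (hη0 : 0 < η)
    (hη1 : η < 1) :
    ∃ V : Set (Eu E), IsOpen V ∧ ξ₀ ∈ V ∧ ∀ S, MeasurableSet S → S ⊆ V →
      riemVol (finrank ℝ E) M (ef e x '' S) ≤
        ENNReal.ofReal (1 + η) *
          ∫⁻ ξ in S, ENNReal.ofReal (jac e x (fr x ξ) + η) := by
  have he := F.isExp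
  set y := ef e x ξ₀ with hy
  obtain ⟨δ, hδ, hδS⟩ := riemVol_small F y hη0
  set ψ := areaPsi e x y with hψ
  have hψd : ContDiffAt ℝ ∞ ψ ξ₀ := (area_psi F x rfl).1
  have hψ1 : ContDiffAt ℝ 1 ψ ξ₀ := hψd.of_le (by simp only [WithTop.one_le_coe, le_top])
  have hψ0 : ψ ξ₀ = 0 := by
    have h1 : logMap e y (e x (areaA (E := E) x ξ₀)) = 0 := area_logMap_self F y
    change areaB (E := E) y (logMap e y (e x (areaA (E := E) x ξ₀))) = 0
    rw [h1, map_zero]
  have hJc : Continuous fun ξ : Eu E => jac e x (fr x ξ) := area_cont_fr (contTB_jac he) x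
  have hdc : ContinuousAt (fun ξ => |(fderiv ℝ ψ ξ).det|) ξ₀ := by
    have h1 : ContinuousAt (fderiv ℝ ψ) ξ₀ :=
      (hψ1.fderiv_right (m := 0) (by simp)).continuousAt
    exact (ContinuousLinearMap.continuous_det.continuousAt.comp h1).abs
  have hdet : |(fderiv ℝ ψ ξ₀).det| = jac e x (fr x ξ₀) := area_det F x rfl
  -- eventual facts
  have e1 : ∀ᶠ ξ in 𝓝 ξ₀, DifferentiableAt ℝ ψ ξ :=
    (hψ1.eventually (by simp)).mono fun ξ h => h.differentiableAt (by simp)
  have e2 : ∀ᶠ ξ in 𝓝 ξ₀, |(fderiv ℝ ψ ξ).det| < jac e x (fr x ξ) + η := by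
    refine hdc.eventually_lt (hJc.continuousAt.add continuousAt_const) ?_
    rw [hdet]
    linarith
  have e4 : ∀ᶠ ξ in 𝓝 ξ₀, ψ ξ ∈ Metric.ball (0 : Eu E) δ := by
    refine hψ1.continuousAt.eventually_mem ?_
    rw [hψ0]
    exact Metric.ball_mem_nhds _ hδ
  have e5 : ∀ᶠ ξ in 𝓝 ξ₀, ef e y (ψ ξ) = ef e x ξ := by
    have h1 : ∀ᶠ z in 𝓝 y, logMap e y z ∈ segMin e y ∧ e y (logMap e y z) = z :=
      eventually_logMap he F.hopfRinow (area_smoothAt_diag F y)
    filter_upwards [(area_continuous_ef he x).continuousAt.eventually h1] with ξ hξ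
    refine Eq.trans ?_ hξ.2
    have h2 : (fr y (ψ ξ) : E) = logMap e y (ef e x ξ) :=
      (fr (E := E) y).apply_symm_apply (logMap e y (ef e x ξ) : E)
    exact congrArg (e y) h2
  obtain ⟨V, hVs, hVo, hV0⟩ := mem_nhds_iff.1
    (e1.and (e2.and (e4.and e5)))
  refine ⟨V, hVo, hV0, fun S hSm hSV => ?_⟩
  have hS : ∀ ξ ∈ S, _ := fun ξ hξ => hVs (hSV hξ)
  have himg : ef e x '' S = ef e y '' (ψ '' S) := by
    rw [image_image]
    exact image_congr fun ξ hξ => (hS ξ hξ).2.2.2.symm
  have hvol := addHaar_image_le_lintegral_abs_det_fderiv (μ := (volume : Measure (Eu E)))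
    hSm (f' := fderiv ℝ ψ) (fun ξ hξ => (hS ξ hξ).1.hasFDerivAt.hasFDerivWithinAt)
  have hsub : ψ '' S ⊆ Metric.ball 0 δ := by
    rintro _ ⟨ξ, hξ, rfl⟩
    exact (hS ξ hξ).2.2.1
  obtain ⟨-, hup⟩ := hδS _ hsub
  rw [← himg] at hup
  refine hup.trans ?_
  gcongr
  refine hvol.trans ?_
  exact setLIntegral_mono' hSm fun ξ hξ => ENNReal.ofReal_le_ofReal (hS ξ hξ).2.1.le

/-- area inequality with an additive error -/
theorem area_le_err [CompactSpace M] [ConnectedSpace M] [IsRiemannianManifold 𝓘(ℝ, E) M]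
    [MeasurableSpace M] [BorelSpace M] (F : Facts e) (x : M) {η : ℝ} (hη0 : 0 < η)
    (hη1 : η < 1) {S : Set (Eu E)} (hS : MeasurableSet S) :
    riemVol (finrank ℝ E) M (ef e x '' S) ≤
        ENNReal.ofReal (1 + η) *
          ∫⁻ ξ in S, ENNReal.ofReal (jac e x (fr x ξ) + η) := by
  choose V hVo hvV hV using fun ξ₀ : Eu E => area_le_local F x ξ₀ hη0 hη1
  obtain ⟨t, htc, hcov⟩ := TopologicalSpace.countable_cover_nhds
    (f := V) (fun v => (hVo v).mem_nhds (hvV v))
  have htne : t.Nonempty := by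
    rw [nonempty_iff_ne_empty]
    rintro rfl
    have : (0 : Eu E) ∈ ⋃ x ∈ (∅ : Set (Eu E)), V x := by rw [hcov]; trivial
    simp at this
  obtain ⟨g, hg⟩ := htc.exists_eq_range htne
  let W : ℕ → Set (Eu E) := disjointed fun k => V (g k)
  have hWm : ∀ k, MeasurableSet (W k) := fun k =>
    MeasurableSet.disjointed (fun j => (hVo _).measurableSet) k
  have hWV : ∀ k, W k ⊆ V (g k) := fun k => disjointed_subset _ k
  have hWd : Pairwise fun i j => Disjoint (W i) (W j) := disjoint_disjointed _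
  have hWU : ⋃ k, W k = univ := by
    have h1 : ⋃ k, W k = ⋃ k, V (g k) := iUnion_disjointed
    rw [h1, ← hcov, hg, biUnion_range]
  have hSW : S = ⋃ k, S ∩ W k := by
    rw [← inter_iUnion, hWU, inter_univ]
  have hSm : ∀ k, MeasurableSet (S ∩ W k) := fun k => hS.inter (hWm k)
  have hμ : ∫⁻ ξ in S, ENNReal.ofReal (jac e x (fr x ξ) + η) =
      ∑' k, ∫⁻ ξ in S ∩ W k, ENNReal.ofReal (jac e x (fr x ξ) + η) := by
    conv_lhs => rw [hSW]
    refine lintegral_iUnion hSm (fun i j hij => ?_) _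
    exact (hWd hij).mono inter_subset_right inter_subset_right
  have hν : riemVol (finrank ℝ E) M (ef e x '' S) ≤
      ∑' k, riemVol (finrank ℝ E) M (ef e x '' (S ∩ W k)) := by
    conv_lhs => rw [hSW, image_iUnion]
    exact measure_iUnion_le _
  refine hν.trans ?_
  rw [hμ, ← ENNReal.tsum_mul_left]
  exact ENNReal.tsum_le_tsum fun k =>
    hV (g k) _ (hSm k) (inter_subset_right.trans (hWV k))

/-- the area inequality for bounded sets -/
theorem area_le [CompactSpace M] [ConnectedSpace M] [IsRiemannianManifold 𝓘(ℝ, E) M]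
    [MeasurableSpace M] [BorelSpace M] (F : Facts e) (x : M) {S : Set (Eu E)}
    (hS : MeasurableSet S) (hfin : volume S ≠ ⊤) :
    riemVol (finrank ℝ E) M (ef e x '' S) ≤
        ∫⁻ ξ in S, ENNReal.ofReal (jac e x (fr x ξ)) := by
  have h1 : ∀ᶠ η : ℝ in 𝓝[>] 0, riemVol (finrank ℝ E) M (ef e x '' S) ≤
      ENNReal.ofReal (1 + η) *
        ((∫⁻ ξ in S, ENNReal.ofReal (jac e x (fr x ξ))) + ENNReal.ofReal η * volume S) := by
    filter_upwards [Ioo_mem_nhdsGT (show (0 : ℝ) < 1 by norm_num)] with η hη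
    refine (area_le_err F x hη.1 hη.2 hS).trans ?_
    gcongr
    have hm : Measurable fun ξ : Eu E => ENNReal.ofReal (jac e x (fr x ξ)) :=
      (area_cont_fr (contTB_jac F.isExp) x).measurable.ennreal_ofReal
    calc ∫⁻ ξ in S, ENNReal.ofReal (jac e x (fr x ξ) + η)
        ≤ ∫⁻ ξ in S, (ENNReal.ofReal (jac e x (fr x ξ)) + ENNReal.ofReal η) :=
          lintegral_mono fun ξ => ENNReal.ofReal_add_le
      _ = _ := by
          rw [lintegral_add_left hm, setLIntegral_const]
  have h2 : Tendsto (fun η : ℝ => ENNReal.ofReal (1 + η) *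
        ((∫⁻ ξ in S, ENNReal.ofReal (jac e x (fr x ξ))) + ENNReal.ofReal η * volume S)) (𝓝[>] 0)
      (𝓝 (ENNReal.ofReal (1 + 0) *
        ((∫⁻ ξ in S, ENNReal.ofReal (jac e x (fr x ξ))) + ENNReal.ofReal 0 * volume S))) := by
    have a1 : Tendsto (fun η : ℝ => 1 + η) (𝓝[>] 0) (𝓝 (1 + 0)) :=
      (tendsto_const_nhds.add tendsto_id).mono_left nhdsWithin_le_nhds
    have a2 : Tendsto (fun η : ℝ => η) (𝓝[>] 0) (𝓝 0) :=
      tendsto_id.mono_left nhdsWithin_le_nhds
    have a3 := ENNReal.Tendsto.mul_const (b := volume S) (ENNReal.tendsto_ofReal a2) (Or.inr hfin)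
    refine ENNReal.Tendsto.mul (ENNReal.tendsto_ofReal a1) ?_ (a3.const_add _) (Or.inr (by simp))
    exact Or.inl (by simp)
  have h3 := ge_of_tendsto h2 h1
  simpa using h3

/-- **Volume equality.** -/
theorem injGE_of_vol [CompactSpace M] [ConnectedSpace M] [IsRiemannianManifold 𝓘(ℝ, E) M]
    [MeasurableSpace M] [BorelSpace M] (F : Facts e) {D : ℝ} (hD : 0 < D)
    (hpos : ∀ (x : M) (ξ : Eu E), ‖ξ‖ < D → 0 < jac e x (fr x ξ))
    (hzero : ∀ (x : M) (ξ : Eu E), ‖ξ‖ = D → jac e x (fr x ξ) = 0)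
    (hvol : ∀ x : M, ∫⁻ ξ in Metric.ball (0 : Eu E) D, ENNReal.ofReal (jac e x (fr x ξ)) ≤
      riemVol (finrank ℝ E) M univ) :
    InjGE e D ∧ ∀ x y : M, dist x y ≤ D := by
  have hfrv : ∀ (x : M) (v : TangentSpace 𝓘(ℝ, E) x),
      (fr (E := E) x ((fr (E := E) x).symm (v : E)) : E) = v := fun x v =>
    (fr (E := E) x).apply_symm_apply (v : E)
  have hnorm : ∀ (x : M) (v : TangentSpace 𝓘(ℝ, E) x),
      ‖(fr (E := E) x).symm (v : E)‖ = ‖v‖ := by
    intro x v
    rw [← nm_fr (E := E) x, hfrv]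
    rfl
  have hseg : ∀ (x : M) (v : TangentSpace 𝓘(ℝ, E) x), v ∈ segMin e x → ‖v‖ ≤ D := by
    intro x v hv
    by_contra hcon
    rw [not_le] at hcon
    have hv0 : 0 < ‖v‖ := hD.trans hcon
    have hmem : (D / ‖v‖) • v ∈ injDomain e x :=
      smul_mem_injDomain F.isExp hv (by positivity) ((div_lt_one hv0).2 hcon)
    have h1 := jac_pos_of_mem F hmem
    have h2 := hzero x ((fr (E := E) x).symm (((D / ‖v‖) • v : TangentSpace 𝓘(ℝ, E) x) : E)) (by
      rw [hnorm, norm_smul, Real.norm_of_nonneg (by positivity)]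
      field_simp)
    rw [hfrv] at h2
    exact h1.ne' h2
  have key : ∀ x : M, Metric.closedBall (0 : Eu E) D ⊆ {ξ | dist x (ef e x ξ) = ‖ξ‖} := by
    intro x
    set S : Set (Eu E) := Metric.closedBall (0 : Eu E) D ∩ {ξ | dist x (ef e x ξ) = ‖ξ‖} with hS
    have hc := area_continuous_ef F.isExp x
    have hScl : IsClosed S := Metric.isClosed_closedBall.inter
      (isClosed_eq (continuous_const.dist hc) continuous_norm)
    have himg : ef e x '' S = univ := by
      refine eq_univ_of_forall fun y => ?_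
      obtain ⟨v, hv, hd⟩ := F.hopfRinow x y
      have hvs : v ∈ segMin e x := by
        change dist x (e x v) = ‖v‖
        rw [hv, hd]
      have hy : ef e x ((fr (E := E) x).symm (v : E)) = y := by
        refine Eq.trans ?_ hv
        exact congrArg (e x) (hfrv x v)
      refine ⟨(fr (E := E) x).symm (v : E), ⟨?_, ?_⟩, hy⟩
      · rw [mem_closedBall_zero_iff, hnorm]
        exact hseg x v hvs
      · change dist x _ = _
        rw [hy, hnorm, hd]
    have hJc : Continuous fun ξ : Eu E => jac e x (fr x ξ) :=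
      area_cont_fr (contTB_jac F.isExp) x
    have hfinS : volume S ≠ ⊤ := ((measure_mono inter_subset_left).trans_lt
      (isCompact_closedBall (0 : Eu E) D).measure_lt_top).ne
    have h1 := area_le F x hScl.measurableSet hfinS
    rw [himg] at h1
    have h2 := (hvol x).trans h1
    -- the boundary does not contribute
    have h3 : ∫⁻ ξ in S, ENNReal.ofReal (jac e x (fr x ξ)) =
        ∫⁻ ξ in Metric.ball (0 : Eu E) D ∩ S, ENNReal.ofReal (jac e x (fr x ξ)) := by
      rw [← lintegral_inter_add_sdiff _ S Metric.isOpen_ball.measurableSet (μ := volume)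
        (B := Metric.ball (0 : Eu E) D), inter_comm S]
      have h4 : ∫⁻ ξ in S \ Metric.ball (0 : Eu E) D, ENNReal.ofReal (jac e x (fr x ξ)) = 0 := by
        rw [setLIntegral_eq_zero_iff
          (hScl.measurableSet.diff Metric.isOpen_ball.measurableSet)]
        · refine Eventually.of_forall fun ξ hξ => ?_
          have h5 : ‖ξ‖ = D := by
            have a := mem_closedBall_zero_iff.1 hξ.1.1
            have b := hξ.2
            rw [mem_ball_zero_iff, not_lt] at b
            exact le_antisymm a b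
          rw [hzero x ξ h5, ENNReal.ofReal_zero]
        · exact hJc.measurable.ennreal_ofReal
      rw [h4, add_zero]
    rw [h3] at h2
    have hfin : ∫⁻ ξ in Metric.ball (0 : Eu E) D ∩ S, ENNReal.ofReal (jac e x (fr x ξ)) ≠ ⊤ := by
      obtain ⟨C, hC⟩ := (isCompact_closedBall (0 : Eu E) D).exists_bound_of_continuousOn
        hJc.continuousOn
      have h5 : ∫⁻ ξ in Metric.ball (0 : Eu E) D ∩ S, ENNReal.ofReal (jac e x (fr x ξ)) ≤
          ∫⁻ ξ in Metric.ball (0 : Eu E) D ∩ S, ENNReal.ofReal C := by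
        refine setLIntegral_mono' (Metric.isOpen_ball.measurableSet.inter hScl.measurableSet)
          fun ξ hξ => ENNReal.ofReal_le_ofReal ((le_abs_self _).trans (hC ξ ?_))
        exact Metric.ball_subset_closedBall hξ.1
      refine ne_top_of_le_ne_top ?_ h5
      rw [setLIntegral_const]
      exact ENNReal.mul_ne_top ENNReal.ofReal_ne_top
        (ne_top_of_le_ne_top hfinS (measure_mono inter_subset_right))
    have h6 : ∫⁻ ξ in Metric.ball (0 : Eu E) D \ S, ENNReal.ofReal (jac e x (fr x ξ)) = 0 := by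
      have h7 := lintegral_inter_add_sdiff (μ := (volume : Measure (Eu E)))
        (fun ξ => ENNReal.ofReal (jac e x (fr x ξ))) (Metric.ball (0 : Eu E) D)
        hScl.measurableSet
      rw [← h7] at h2
      have h8 : (∫⁻ ξ in Metric.ball (0 : Eu E) D ∩ S, ENNReal.ofReal (jac e x (fr x ξ))) +
          ∫⁻ ξ in Metric.ball (0 : Eu E) D \ S, ENNReal.ofReal (jac e x (fr x ξ)) ≤
          (∫⁻ ξ in Metric.ball (0 : Eu E) D ∩ S, ENNReal.ofReal (jac e x (fr x ξ))) + 0 := by
        rw [add_zero]; exact h2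
      exact le_antisymm ((ENNReal.add_le_add_iff_left hfin).1 h8) bot_le
    have hUo : IsOpen (Metric.ball (0 : Eu E) D \ S) := Metric.isOpen_ball.sdiff hScl
    have hU : Metric.ball (0 : Eu E) D \ S = ∅ := by
      by_contra hne
      rw [← Ne, ← nonempty_iff_ne_empty] at hne
      have h9 : 0 < ∫⁻ ξ in Metric.ball (0 : Eu E) D \ S, ENNReal.ofReal (jac e x (fr x ξ)) := by
        rw [setLIntegral_pos_iff hJc.measurable.ennreal_ofReal]
        have hsupp : Metric.ball (0 : Eu E) D \ S ⊆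
            (Function.support fun ξ : Eu E => ENNReal.ofReal (jac e x (fr x ξ))) := by
          intro ξ hξ
          rw [Function.mem_support, ENNReal.ofReal_ne_zero_iff]
          exact hpos x ξ (mem_ball_zero_iff.1 hξ.1)
        rw [inter_eq_right.2 hsupp]
        exact hUo.measure_pos _ hne
      exact h9.ne' h6
    have hsub : Metric.ball (0 : Eu E) D ⊆ S := sdiff_eq_empty.1 hU
    have hcl : Metric.closedBall (0 : Eu E) D ⊆ S := by
      rw [← closure_ball (0 : Eu E) hD.ne']
      exact closure_minimal hsub hScl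
    exact hcl.trans inter_subset_right
  refine ⟨fun x v hv => ?_, fun x y => ?_⟩
  · have h1 : (fr (E := E) x).symm (v : E) ∈ {ξ : Eu E | dist x (ef e x ξ) = ‖ξ‖} :=
      key x (by rw [mem_closedBall_zero_iff, hnorm]; exact hv)
    change dist x _ = _ at h1
    rw [hnorm] at h1
    rw [← h1]
    exact congrArg (fun z => dist x z) (congrArg (e x) (hfrv x v)).symm
  · obtain ⟨v, hv, hd⟩ := F.hopfRinow x y
    rw [hd]
    refine hseg x v ?_
    change dist x (e x v) = ‖v‖
    rw [hv, hd]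

end

end Vale.Agent.P211.HK.VE
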