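import Vale.Agent.P211.HK.WZDefs

/-! P211 / HK / WZ: the hypothesis `HF` from `WPlusZero`
(helper600). -/

set_option maxSynthPendingDepth 3
set_option linter.unusedSectionVars false

namespace Vale.Agent.P211.HK

open scoped Manifold ContDiff Topology RealInnerProductSpace
open Bundle Filter VectorField

noncomputable section

variable {E : Type} [NormedAddCommGroup E] [NormedSpace ℝ E] [FiniteDimensional ℝ E]
  {M : Type} [TopologicalSpace M] [ChartedSpace E M] [IsManifold 𝓘(ℝ, E) ∞ M] [T2Space M]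
  [RiemannianBundle fun p : M => TangentSpace 𝓘(ℝ, E) p]
  [IsContMDiffRiemannianBundle 𝓘(ℝ, E) ∞ E fun p : M => TangentSpace 𝓘(ℝ, E) p]

variable {cov : CovariantDerivative 𝓘(ℝ, E) E (TangentSpace 𝓘(ℝ, E) : M → Type)}
  {om : Form4 E M}

/-- `W₊ = 0` for `-om` is `W₋ = 0` for `om` -/
theorem wMinus_of [PreconnectedSpace M] (hg : Geo4 cov om) {lam : ℝ}
    (h : NN.WPlusZero cov lam (-om)) : WMinus cov lam om := by
  have : CompleteSpace E := FiniteDimensional.complete ℝ E
  intro p F hF h0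
  set F' : Fin 4 → NN.SmoothField E M := fun i => F (Equiv.swap 2 3 i) with hF'
  have h1 : NN.OrthonormalAt F' p := hF.comp _ (Equiv.swap (2 : Fin 4) 3).injective
  have h2 : om p (fun i => F' i p) = - om p (fun i => F i p) :=
    (om p).map_swap (fun i => F i p) (by decide : (2 : Fin 4) ≠ 3)
  have h3 : 0 < (-om) p (fun i => F' i p) := by
    show 0 < - om p (fun i => F' i p)
    rw [h2, neg_neg]; exact h0
  have h4 := h p F' h1 h3
  have s0 : F' 0 = F 0 := by simp only [hF']; congr 1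
  have s1 : F' 1 = F 1 := by simp only [hF']; congr 1
  have s2 : F' 2 = F 3 := by simp only [hF']; congr 1
  have s3 : F' 3 = F 2 := by simp only [hF']; congr 1
  rw [s0, s1, s2, s3] at h4
  have r := H555.rm_eq hg.lc
  have hsym := Geom.algCurv_rr (G := geomOf hg.lc hg.dim) p F
  have e1 : NN.Rm cov (F 0) (F 1) (F 2) (F 3) p = - NN.Rm cov (F 0) (F 1) (F 3) (F 2) p := by
    rw [r, r]
    exact hsym.anti34 0 1 2 3
  have e2 : NN.Rm cov (F 3) (F 2) (F 2) (F 3) p = NN.Rm cov (F 2) (F 3) (F 3) (F 2) p := by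
    rw [r, r]
    have a1 := hsym.anti12 3 2 2 3
    have a2 := hsym.anti34 2 3 2 3
    have a3 : (geomOf hg.lc hg.dim).rr p F 3 2 2 3 = (geomOf hg.lc hg.dim).rr p F 2 3 3 2 := by
      rw [a1, a2, neg_neg]
    exact a3
  rw [e1, e2] at h4
  linarith

theorem wz0 : WZ0Stmt cov om := by
  intro hg hM kap hR hW p f hf
  exact exists_hfCurv hg hR (wMinus_of hg hW) p f hf

end

end Vale.Agent.P211.HK
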