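import Vale.Agent.P211.HK.SecStmt

/-! P211 / HK / WZ: Weitzenboeck algebra, finite part (helper600).

`JmZ a` : the anti-self-dual matrices `e01 - e23`, `e02 + e13`, `e03 - e12` (`= - R_a`, minus the right
multiplication by `i, j, k`); `JpZ a` the self-dual ones; `cZ k` the Clifford multiplication
`T → ℝ ⊕ L₋` by `e_k` (rows: `0` = real part, `a + 1` = component along `a`). -/

namespace Vale.Agent.P211.HK

noncomputable section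

def JmZ : Fin 3 → Fin 4 → Fin 4 → ℤ :=
  ![![![0, 1, 0, 0], ![-1, 0, 0, 0], ![0, 0, 0, -1], ![0, 0, 1, 0]],
    ![![0, 0, 1, 0], ![0, 0, 0, 1], ![-1, 0, 0, 0], ![0, -1, 0, 0]],
    ![![0, 0, 0, 1], ![0, 0, -1, 0], ![0, 1, 0, 0], ![-1, 0, 0, 0]]]

def JpZ : Fin 3 → Fin 4 → Fin 4 → ℤ :=
  ![![![0, 1, 0, 0], ![-1, 0, 0, 0], ![0, 0, 0, 1], ![0, 0, -1, 0]],
    ![![0, 0, 1, 0], ![0, 0, 0, -1], ![-1, 0, 0, 0], ![0, 1, 0, 0]],
    ![![0, 0, 0, 1], ![0, 0, 1, 0], ![0, -1, 0, 0], ![-1, 0, 0, 0]]]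

def dZ (i j : Fin 4) : ℤ := if i = j then 1 else 0

def cZ (k i j : Fin 4) : ℤ :=
  (![dZ k j, JmZ 0 k j, JmZ 1 k j, JmZ 2 k j] : Fin 4 → ℤ) i

def s4 (f : Fin 4 → ℤ) : ℤ := f 0 + f 1 + f 2 + f 3

theorem s4_eq (f : Fin 4 → ℤ) : s4 f = ∑ i, f i := by
  simp [s4, Fin.sum_univ_four]

/-- `c_k^T c_l` -/
def gZ (k l i j : Fin 4) : ℤ := s4 fun r => cZ k r i * cZ l r j

/-- `c_k c_l^T` -/
def hZ (k l i j : Fin 4) : ℤ := s4 fun r => cZ k i r * cZ l j r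

theorem gZ_cliff : ∀ k l i j, gZ k l i j + gZ l k i j = 2 * dZ k l * dZ i j := by decide

theorem hZ_cliff : ∀ k l i j, hZ k l i j + hZ l k i j = 2 * dZ k l * dZ i j := by decide

/-- `∑ J⁻_b(k,l) c_k^T c_l = 0` -/
theorem gZ_Jm : ∀ b i j, (s4 fun k => s4 fun l => JmZ b k l * gZ k l i j) = 0 := by decide

theorem hZ_Jp : ∀ b i j, (s4 fun k => s4 fun l => JpZ b k l * hZ k l i j) = 0 := by decide

end

end Vale.Agent.P211.HK
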