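import Vale.Agent.P211.HK.WZ2a
import Vale.Agent.P211.H555.Bridge
import Vale.Agent.P211.HK.SC0

/-! P211 / HK / WZ: the curvature of a half conformally flat Einstein metric in a positively
oriented orthonormal frame (helper600). -/

set_option maxSynthPendingDepth 3
set_option linter.unusedSectionVars false

namespace Vale.Agent.P211.HK

open scoped Manifold ContDiff Topology RealInnerProductSpace
open Bundle Filter VectorField Vale.Agent.P211

noncomputable section

variable {E : Type} [NormedAddCommGroup E] [NormedSpace ℝ E] [FiniteDimensional ℝ E]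
  {M : Type} [TopologicalSpace M] [ChartedSpace E M] [IsManifold 𝓘(ℝ, E) ∞ M] [T2Space M]
  [RiemannianBundle fun p : M => TangentSpace 𝓘(ℝ, E) p]
  [IsContMDiffRiemannianBundle 𝓘(ℝ, E) ∞ E fun p : M => TangentSpace 𝓘(ℝ, E) p]

/-- `W₋ = 0` for the orientation `om` and an Einstein metric `Ric = lam g` -/
def WMinus (cov : CovariantDerivative 𝓘(ℝ, E) E (TangentSpace 𝓘(ℝ, E) : M → Type)) (lam : ℝ)
    (om : Form4 E M) : Prop :=
  ∀ (p : M) (F : Fin 4 → NN.SmoothField E M), NN.OrthonormalAt F p → 0 < om p (fun i => F i p) →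
    (NN.Rm cov (F 0) (F 1) (F 1) (F 0) p - 2 * NN.Rm cov (F 0) (F 1) (F 3) (F 2) p +
      NN.Rm cov (F 2) (F 3) (F 3) (F 2) p) / 2 = lam / 3

variable {cov : CovariantDerivative 𝓘(ℝ, E) E (TangentSpace 𝓘(ℝ, E) : M → Type)}
  {om : Form4 E M}

/-- any smooth fields through the frame compute `Om` -/
theorem Om_eq_rr [PreconnectedSpace M] (h : IsLC cov) (hE : Module.finrank ℝ E = 4) {p : M}
    (F : Fin 4 → VF E M) :
    Om cov p (fun i => F i p) = fun k l i j => (geomOf h hE).rr p F k l j i := by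
  have : CompleteSpace E := FiniteDimensional.complete ℝ E
  have hex : ∃ F' : Fin 4 → VF E M, ∀ i, F' i p = F i p := ⟨F, fun _ => rfl⟩
  have e1 : Om cov p (fun i => F i p) = OmF cov hex.choose p := by
    funext k l
    exact dif_pos hex
  rw [e1]
  funext k l i j
  have h2 : ∀ i, (geomOf h hE).Eqv p (hex.choose i) (F i) := by
    intro i
    refine gVF_self_eq_zero.mpr ?_
    change hex.choose i p - F i p = 0
    rw [hex.choose_spec i, sub_self]
  have h3 := (geomOf h hE).congrAll (geomOf h hE).isT4_Rm (h2 k) (h2 l) (h2 j) (h2 i)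
  show NN.Rm cov (hex.choose k) (hex.choose l) (hex.choose j) (hex.choose i) p = _
  rw [H555.rm_eq h]
  exact h3

/-- smooth fields with the values `∑ a, O i a • F a p` at `p` -/
theorem exists_rot [PreconnectedSpace M] (h : IsLC cov) (hE : Module.finrank ℝ E = 4) {p : M}
    {F : Fin 4 → VF E M} (hF : (geomOf h hE).ON p F) {O : Fin 4 → Fin 4 → ℝ}
    (hO : ∀ i j, ∑ a, O i a * O j a = if i = j then 1 else 0) :
    ∃ F' : Fin 4 → VF E M, (geomOf h hE).ON p F' ∧ (∀ i, F' i p = ∑ a, O i a • F a p) ∧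
      (geomOf h hE).rr p F' = rotArr ((geomOf h hE).rr p F) O := by
  refine ⟨fun i => Geom.comb (𝒪 := SF E M) F (O i), Geom.comb_on (G := geomOf h hE) hF hO,
    fun i => ?_, ?_⟩
  · unfold Geom.comb
    rw [VF.sum_apply]
    refine Finset.sum_congr rfl fun a _ => ?_
    rfl
  · rw [Geom.rr_rot (G := geomOf h hE) hF]
    congr 1
    funext i
    exact Geom.cf_comb (G := geomOf h hE) hF (O i)

theorem O_orth {O : Fin 4 → Fin 4 → ℝ} (h : O = idM ∨ O = O1 ∨ O = O2 ∨ O = O3 ∨ O = O4 ∨ O = O5)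
    (i j : Fin 4) : ∑ a, O i a * O j a = if i = j then 1 else 0 := by
  rcases h with h | h | h | h | h | h <;> subst h <;>
  · simp only [Fin.sum_univ_four]
    fin_cases i <;> fin_cases j <;> simp [idM, O1, O2, O3, O4, O5] <;> norm_num

theorem O_det {O : Fin 4 → Fin 4 → ℝ} (h : O = idM ∨ O = O1 ∨ O = O2 ∨ O = O3 ∨ O = O4 ∨ O = O5) :
    (Matrix.of O).det = 1 := by
  rw [← dt_eq_det]
  rcases h with h | h | h | h | h | h <;> subst h <;>
  · simp [dt, wE, wF, idM, O1, O2, O3, O4, O5] <;> norm_num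

theorem mm_eq [PreconnectedSpace M] (h : IsLC cov) (hE : Module.finrank ℝ E = 4) {kap : ℝ}
    (hW : WMinus cov (3 * kap) om) {p : M} {F : Fin 4 → VF E M} (hF : (geomOf h hE).ON p F)
    (h0 : 0 < om p fun i => F i p) : mm ((geomOf h hE).rr p F) = 2 * kap := by
  have : CompleteSpace E := FiniteDimensional.complete ℝ E
  have h1 := hW p F (H555.on_iff.2 hF) h0
  rw [H555.rm_eq h, H555.rm_eq h, H555.rm_eq h] at h1
  have h2 : ((geomOf h hE).rr p F 0 1 1 0 - 2 * (geomOf h hE).rr p F 0 1 3 2 +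
      (geomOf h hE).rr p F 2 3 3 2) / 2 = 3 * kap / 3 := h1
  unfold mm
  linarith

/-- The curvature of a half conformally flat Einstein metric. -/
theorem exists_hfCurv [PreconnectedSpace M] (hg : Geo4 cov om) {kap : ℝ}
    (hR : NN.RicciEq cov fun _ => 3 * kap) (hW : WMinus cov (3 * kap) om) (p : M)
    (f : Fin 4 → TangentSpace 𝓘(ℝ, E) p) (hf : PON om p f) :
    ∃ w, HFCurv kap (Om cov p f) w := by
  have : CompleteSpace E := FiniteDimensional.complete ℝ E
  have h := hg.lc
  have hE := hg.dim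
  choose F hF using fun i => exists_ext (E := E) (M := M) p (f i)
  have hf' : f = fun i => F i p := funext fun i => (hF i).symm
  subst hf'
  have hON : (geomOf h hE).ON p F := fun i j => (orthonormal_iff_ite.1 hf.1) i j
  have key : ∀ O : Fin 4 → Fin 4 → ℝ, (O = idM ∨ O = O1 ∨ O = O2 ∨ O = O3 ∨ O = O4 ∨ O = O5) →
      mm (rotArr ((geomOf h hE).rr p F) O) = 2 * kap := by
    intro O hO
    obtain ⟨F', h1, h2, h3⟩ := exists_rot h hE hON (O_orth hO)
    rw [← h3]
    refine mm_eq h hE hW h1 ?_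
    have h4 : (fun i => F' i p) = fun j => ∑ a, (fun a j => O j a) a j • F a p := funext h2
    rw [h4]
    have h5 := alt_fact (T := TangentSpace 𝓘(ℝ, E) p) hE hf.1 (om p) (fun a j => O j a)
    rw [h5]
    have h6 : (Matrix.of fun a j => O j a).det = 1 := by
      have := O_det hO
      rw [← Matrix.det_transpose] at this
      exact this
    rw [h6, one_mul]
    exact hf.2
  have h0 : mm ((geomOf h hE).rr p F) = 2 * kap := mm_eq h hE hW hON hf.2
  rw [Om_eq_rr h hE]
  refine core_alg (Geom.algCurv_rr (G := geomOf h hE) p F) (fun j k => ?_) h0 (key _ (by tauto))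
    (key _ (by tauto)) (key _ (by tauto)) (key _ (by tauto)) (key _ (by tauto))
  have h7 := H555.einstein_to hR
  have h8 := einstein_of h hE h7 p F hON (F j) (F k)
  rw [hON j k] at h8
  simp only [Geom.rr]
  rw [h8]
  split_ifs <;> simp

end

end Vale.Agent.P211.HK
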