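import Vale.Agent.P211.HK.WZ1
import Vale.Agent.P211.Bdl.B1

/-! P211 / HK / WZ: algebra of half conformally flat Einstein curvature arrays (helper600). -/

namespace Vale.Agent.P211.HK

open Vale.Agent.P211

noncomputable section

/-- anti-self-dual matrices `e01 - e23`, `e02 + e13`, `e03 - e12` -/
def Jm (a : Fin 3) : Mat4 := fun i j => (JmZ a i j : ℝ)

/-- self-dual matrices `e01 + e23`, `e02 - e13`, `e03 + e12` -/
def Jp (a : Fin 3) : Mat4 := fun i j => (JpZ a i j : ℝ)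

/-- the curvature matrices `A k l` have the form `R = kap` on `L₋`, `R = kap + w` on `L₊`, `w`
symmetric and traceless -/
def HFCurv (kap : ℝ) (A : Fin 4 → Fin 4 → Mat4) (w : Fin 3 → Fin 3 → ℝ) : Prop :=
  (∀ a b, w a b = w b a) ∧ w 0 0 + w 1 1 + w 2 2 = 0 ∧
  ∀ k l i j, A k l i j = kap * (idM k i * idM l j - idM k j * idM l i) +
    (1 / 2) * ∑ a, ∑ b, w a b * Jp a k l * Jp b i j

/-- twice the curvature of the anti-self-dual form `(e01 - e23)/√2` -/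
def mm (r : Arr4) : ℝ := r 0 1 1 0 - 2 * r 0 1 3 2 + r 2 3 3 2

def O1 : Fin 4 → Fin 4 → ℝ := ![![1, 0, 0, 0], ![0, 0, 1, 0], ![0, 0, 0, 1], ![0, 1, 0, 0]]
def O2 : Fin 4 → Fin 4 → ℝ := ![![1, 0, 0, 0], ![0, 0, 0, 1], ![0, 1, 0, 0], ![0, 0, 1, 0]]
def O3 : Fin 4 → Fin 4 → ℝ :=
  ![![1, 0, 0, 0], ![0, 3 / 5, 4 / 5, 0], ![0, -4 / 5, 3 / 5, 0], ![0, 0, 0, 1]]
def O4 : Fin 4 → Fin 4 → ℝ :=
  ![![1, 0, 0, 0], ![0, 0, 3 / 5, 4 / 5], ![0, 0, -4 / 5, 3 / 5], ![0, 1, 0, 0]]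
def O5 : Fin 4 → Fin 4 → ℝ :=
  ![![1, 0, 0, 0], ![0, 4 / 5, 0, 3 / 5], ![0, 3 / 5, 0, -4 / 5], ![0, 0, 1, 0]]

theorem mm_rot (P S : Fin 3 → Fin 3 → ℝ) (O : Fin 4 → Fin 4 → ℝ) :
    mm (rotArr (einArr P S) O) =
      qf P (wE (O 0) (O 1)) (wE (O 0) (O 1)) + qf P (wF (O 0) (O 1)) (wF (O 0) (O 1))
        + qf S (wE (O 0) (O 1)) (wF (O 0) (O 1)) + qf S (wF (O 0) (O 1)) (wE (O 0) (O 1))
      - 2 * (qf P (wE (O 0) (O 1)) (wE (O 2) (O 3)) + qf P (wF (O 0) (O 1)) (wF (O 2) (O 3))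
        + qf S (wE (O 0) (O 1)) (wF (O 2) (O 3)) + qf S (wF (O 0) (O 1)) (wE (O 2) (O 3)))
      + (qf P (wE (O 2) (O 3)) (wE (O 2) (O 3)) + qf P (wF (O 2) (O 3)) (wF (O 2) (O 3))
        + qf S (wE (O 2) (O 3)) (wF (O 2) (O 3)) + qf S (wF (O 2) (O 3)) (wE (O 2) (O 3))) := by
  unfold mm rotArr
  rw [rf_einArr, rf_einArr, rf_einArr]

theorem mm_ein (P S : Fin 3 → Fin 3 → ℝ) : mm (einArr P S) = 2 * P 0 0 - 2 * S 0 0 := by
  simp [mm, einArr, sk]; ring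

theorem mm_O1 (P S : Fin 3 → Fin 3 → ℝ) : mm (rotArr (einArr P S) O1) = 2 * P 1 1 - 2 * S 1 1 := by
  rw [mm_rot]; simp [O1, qf, wE, wF]; ring

theorem mm_O2 (P S : Fin 3 → Fin 3 → ℝ) : mm (rotArr (einArr P S) O2) = 2 * P 2 2 - 2 * S 2 2 := by
  rw [mm_rot]; simp [O2, qf, wE, wF]; ring

theorem mm_O3 (P S : Fin 3 → Fin 3 → ℝ) : mm (rotArr (einArr P S) O3) =
    (18 * (P 0 0 - S 0 0) + 48 * (P 0 1 - S 0 1) + 32 * (P 1 1 - S 1 1)) / 25 := by
  rw [mm_rot]; simp [O3, qf, wE, wF]; ring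

theorem mm_O4 (P S : Fin 3 → Fin 3 → ℝ) : mm (rotArr (einArr P S) O4) =
    (18 * (P 1 1 - S 1 1) + 48 * (P 1 2 - S 1 2) + 32 * (P 2 2 - S 2 2)) / 25 := by
  rw [mm_rot]; simp [O4, qf, wE, wF]; ring

theorem mm_O5 (P S : Fin 3 → Fin 3 → ℝ) : mm (rotArr (einArr P S) O5) =
    (18 * (P 2 2 - S 2 2) + 48 * (P 0 2 - S 0 2) + 32 * (P 0 0 - S 0 0)) / 25 := by
  rw [mm_rot]; simp [O5, qf, wE, wF]; ring

theorem Jp_skew (a : Fin 3) (i j : Fin 4) : Jp a i j = - Jp a j i := by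
  have : ∀ a i j, JpZ a i j = - JpZ a j i := by decide
  simp only [Jp]; rw [this]; push_cast; ring

theorem core_alg {r : Arr4} {kap : ℝ} (h : IsAlgCurv r)
    (ht : ∀ j k, ∑ i, r i j k i = if j = k then 3 * kap else 0)
    (h0 : mm r = 2 * kap) (h1 : mm (rotArr r O1) = 2 * kap) (h2 : mm (rotArr r O2) = 2 * kap)
    (h3 : mm (rotArr r O3) = 2 * kap) (h4 : mm (rotArr r O4) = 2 * kap)
    (h5 : mm (rotArr r O5) = 2 * kap) :
    ∃ w, HFCurv kap (fun k l i j => r k l j i) w := by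
  obtain ⟨e, hP, hS, tP, tS⟩ := eq_einArr h ht
  set P := Pm r with hPd
  set S := Sm r with hSd
  rw [e] at h0 h1 h2 h3 h4 h5
  rw [mm_ein] at h0
  rw [mm_O1] at h1
  rw [mm_O2] at h2
  rw [mm_O3] at h3
  rw [mm_O4] at h4
  rw [mm_O5] at h5
  have d0 : P 0 0 = kap + S 0 0 := by linarith
  have d1 : P 1 1 = kap + S 1 1 := by linarith
  have d2 : P 2 2 = kap + S 2 2 := by linarith
  have d01 : P 0 1 = S 0 1 := by linarith
  have d12 : P 1 2 = S 1 2 := by linarith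
  have d02 : P 0 2 = S 0 2 := by linarith
  refine ⟨fun a b => 2 * S a b, fun a b => by show 2 * S a b = 2 * S b a; rw [hS],
    by show 2 * S 0 0 + 2 * S 1 1 + 2 * S 2 2 = 0; linarith, ?_⟩
  have key : r = fun k l j i => kap * (idM k i * idM l j - idM k j * idM l i) +
      (1 / 2) * ∑ a, ∑ b, (2 * S a b) * Jp a k l * Jp b i j := by
    refine ext_lt h.anti12 h.anti34 ?_ ?_ ?_
    · intro k l j i
      have : ∀ a b, (2 * S a b) * Jp a k l * Jp b i j = - ((2 * S a b) * Jp a l k * Jp b i j) := by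
        intro a b; rw [Jp_skew a k l]; ring
      simp only [this, Finset.sum_neg_distrib]; ring
    · intro k l j i
      have : ∀ a b, (2 * S a b) * Jp a k l * Jp b i j = - ((2 * S a b) * Jp a k l * Jp b j i) := by
        intro a b; rw [Jp_skew b i j]; ring
      simp only [this, Finset.sum_neg_distrib]; ring
    · intro k l j i hkl hji
      rw [e]
      have s01 := hS 0 1
      have s02 := hS 0 2
      have s12 := hS 1 2
      fin_cases k <;> fin_cases l <;> first | (exact absurd hkl (by decide)) | skip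
      all_goals (fin_cases j <;> fin_cases i <;> first | (exact absurd hji (by decide)) | skip)
      all_goals
        simp [einArr, sk, Jp, JpZ, idM, Fin.sum_univ_three] <;> linarith
  intro k l i j
  have := congrFun (congrFun (congrFun (congrFun key k) l) j) i
  exact this

end

end Vale.Agent.P211.HK
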