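import Vale.Agent.P211.HK.WZDefs
import Vale.Agent.P211.HK.SC3
import Vale.Agent.P211.HK.SC4
import Vale.Agent.P211.HK.SC6

/-! P211 / HK / WZ: the operators `D`, `D'` on sections (helper600). -/

set_option maxSynthPendingDepth 3
set_option linter.unusedSectionVars false

namespace Vale.Agent.P211.HK

open scoped Manifold ContDiff Topology RealInnerProductSpace
open Bundle Filter VectorField MeasureTheory

noncomputable section

variable {W : Type} [NormedAddCommGroup W] [InnerProductSpace ℝ W]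

namespace WZ

theorem CC_eq (m : Fin 4 → Mat4) (η : Tn (Tn W)) :
    CC m η = ∑ k, tnMap (m k) (ContinuousLinearMap.id ℝ W) (η k) := by
  simp only [CC, sum_apply]
  rfl

theorem tn_sum_apply {ι : Type} (s : Finset ι) (f : ι → Tn W) (i : Fin 4) :
    (∑ x ∈ s, f x) i = ∑ x ∈ s, f x i := by
  rw [WithLp.ofLp_sum, Finset.sum_apply]

theorem CC_apply (m : Fin 4 → Mat4) (η : Tn (Tn W)) (i : Fin 4) :
    CC m η i = ∑ k, ∑ j, m k i j • η k j := by
  rw [CC_eq, tn_sum_apply]
  refine Finset.sum_congr rfl fun k _ => ?_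
  rw [tnMap_apply]
  rfl

theorem intertwines_CC {m : Fin 4 → Mat4} {a b : Mat4 → Mat4} {R : Rep W} {R0 R1 : Rep (Tn W)}
    (h0 : Twist a R R0) (h1 : Twist b R R1)
    (h : ∀ g, IsSO g → ∀ l i j, ∑ k, g k l * mulM (m k) (a g) i j = mulM (b g) (m l) i j) :
    Intertwines R0.tn R1 (CC m) := by
  intro g hg η
  refine tn_ext fun i => ?_
  rw [h1 g hg, CC_apply, tnMap_apply]
  have e1 : ∀ k j, R0.tn.ρ g η k j = ∑ l, ∑ n, (g k l * a g j n) • R.ρ g (η l n) := by
    intro k j
    rw [Rep.tn_ρ, tnMap_apply, tn_sum_apply]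
    refine Finset.sum_congr rfl fun l _ => ?_
    rw [h0 g hg, PiLp.smul_apply, tnMap_apply, Finset.smul_sum]
    refine Finset.sum_congr rfl fun n _ => ?_
    rw [smul_smul]
  have e2 : ∀ j, R.ρ g (CC m η j) = ∑ l, ∑ n, m l j n • R.ρ g (η l n) := by
    intro j
    rw [CC_apply, map_sum]
    refine Finset.sum_congr rfl fun l _ => ?_
    rw [map_sum]
    refine Finset.sum_congr rfl fun n _ => ?_
    rw [map_smul]
  simp only [e1, e2, Finset.smul_sum, smul_smul]
  have e3 : ∀ l n, ∑ k, ∑ j, (m k i j * (g k l * a g j n)) • R.ρ g (η l n) =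
      ∑ j, (b g i j * m l j n) • R.ρ g (η l n) := by
    intro l n
    rw [← Finset.sum_smul]
    have := h g hg l i n
    simp only [← Finset.sum_smul]
    congr 1
    simp only [mulM] at this
    rw [← this]
    refine Finset.sum_congr rfl fun k _ => ?_
    rw [Finset.mul_sum]
    refine Finset.sum_congr rfl fun j _ => by ring
  calc ∑ k, ∑ j, ∑ l, ∑ n, (m k i j * (g k l * a g j n)) • R.ρ g (η l n)
      = ∑ l, ∑ n, ∑ k, ∑ j, (m k i j * (g k l * a g j n)) • R.ρ g (η l n) := by
        have : ∀ k, ∑ j, ∑ l, ∑ n, (m k i j * (g k l * a g j n)) • R.ρ g (η l n) =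
            ∑ l, ∑ n, ∑ j, (m k i j * (g k l * a g j n)) • R.ρ g (η l n) := by
          intro k
          rw [Finset.sum_comm]
          exact Finset.sum_congr rfl fun l _ => Finset.sum_comm
        simp only [this]
        rw [Finset.sum_comm]
        exact Finset.sum_congr rfl fun l _ => Finset.sum_comm
    _ = ∑ l, ∑ n, ∑ j, (b g i j * m l j n) • R.ρ g (η l n) := by simp only [e3]
    _ = ∑ j, ∑ l, ∑ n, (b g i j * m l j n) • R.ρ g (η l n) := by
        rw [Finset.sum_comm' (t' := Finset.univ) (s' := fun _ => Finset.univ) (by simp)]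
        have : ∀ n, ∑ l, ∑ j, (b g i j * m l j n) • R.ρ g (η l n) =
            ∑ j, ∑ l, (b g i j * m l j n) • R.ρ g (η l n) := fun n => Finset.sum_comm
        simp only [this]
        rw [Finset.sum_comm]
        exact Finset.sum_congr rfl fun j _ => Finset.sum_comm

theorem cM_zero (k j : Fin 4) : cM k 0 j = if k = j then 1 else 0 := by
  simp only [cM, cZ, dZ]
  simp

theorem cM_succ (k : Fin 4) (a : Fin 3) (j : Fin 4) : cM k a.succ j = - Rq a k j := by
  have h : ∀ (a : Fin 3) (k j : Fin 4), cZ k a.succ j = JmZ a k j := by decide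
  simp only [cM]
  rw [h]
  fin_cases a <;> fin_cases k <;> fin_cases j <;> simp [JmZ, Rq]

theorem lamM_tr {g : Mat4} (hg : IsSO g) (a b : Fin 3) : lamM (trM g) a b = lamM g b a := by
  unfold lamM
  rw [← dotM_adM hg (Rq a) (adM (trM g) (Rq b)), ← adM_mul, hg.right, adM_one, dotM_comm]

/-- `∑ k, g k l c_k g = mH(g) c_l` -/
theorem cM_equiv {g : Mat4} (hg : IsSO g) (l i j : Fin 4) :
    ∑ k, g k l * mulM (cM k) g i j = mulM (mH g) (cM l) i j := by
  refine Fin.cases ?_ (fun a => ?_) i
  · simp only [mulM, cM_zero]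
    rw [Fin.sum_univ_succ (f := fun k => mH g 0 k * cM l k j)]
    simp only [mH_zero_zero, mH_zero_succ, cM_zero, zero_mul, Finset.sum_const_zero, add_zero,
      one_mul, ite_mul, Finset.sum_ite_eq, Finset.mem_univ, if_true]
    exact hg.col l j
  · have h1 := congrFun (congrFun (adM_Rq hg.tr a) l) j
    have h2 : adM (trM g) (Rq a) l j = ∑ k, g k l * ∑ m, Rq a k m * g m j := by
      simp only [adM, mulM, trM, Finset.sum_mul, Finset.mul_sum]
      rw [Finset.sum_comm]
      refine Finset.sum_congr rfl fun k _ => Finset.sum_congr rfl fun m _ => by ring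
    have h3 : (∑ b, lamM (trM g) b a • Rq b) l j = ∑ b, lamM g a b * Rq b l j := by
      simp only [Finset.sum_apply, Pi.smul_apply, smul_eq_mul, lamM_tr hg]
    rw [h2, h3] at h1
    simp only [mulM, cM_succ]
    rw [Fin.sum_univ_succ (f := fun k => mH g a.succ k * cM l k j)]
    simp only [mH_succ_zero, mH_succ_succ, cM_succ, zero_mul, zero_add, mul_neg, neg_mul,
      Finset.sum_neg_distrib]
    rw [h1]

theorem cMt_equiv {g : Mat4} (hg : IsSO g) (l i j : Fin 4) :
    ∑ k, g k l * mulM (cMt k) (mH g) i j = mulM g (cMt l) i j := by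
  have hm : ∀ a b : Fin 4, ∑ k, mH g k a * mH g k b = if a = b then 1 else 0 := by
    intro a b
    have := congrFun (congrFun (mrep_mH.orth g hg) a) b
    simpa [mulM, trM, idM] using this
  have key : ∀ j i, ∑ k, g k l * ∑ n, cM k n i * mH g n j = ∑ n, g i n * cM l j n := by
    intro j i
    have h1 : ∀ n p, ∑ k, g k l * mulM (cM k) g n p = mulM (mH g) (cM l) n p := cM_equiv hg l
    have h2 : ∑ n, ∑ p, mH g n j * g i p * (∑ k, g k l * mulM (cM k) g n p) =
        ∑ n, ∑ p, mH g n j * g i p * mulM (mH g) (cM l) n p := by simp only [h1]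
    have h3 : ∑ n, ∑ p, mH g n j * g i p * (∑ k, g k l * mulM (cM k) g n p) =
        ∑ k, g k l * ∑ n, cM k n i * mH g n j := by
      have : ∀ k n, ∑ p, g i p * mulM (cM k) g n p = cM k n i := by
        intro k n
        simp only [mulM, Finset.mul_sum]
        rw [Finset.sum_comm]
        have : ∀ q, ∑ p, g i p * (cM k n q * g q p) = cM k n q * ∑ p, g i p * g q p := by
          intro q
          rw [Finset.mul_sum]
          exact Finset.sum_congr rfl fun p _ => by ring
        simp only [this, hg.row]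
        simp
      calc _ = ∑ n, ∑ p, ∑ k, mH g n j * g k l * (g i p * mulM (cM k) g n p) := by
            refine Finset.sum_congr rfl fun n _ => Finset.sum_congr rfl fun p _ => ?_
            rw [Finset.mul_sum]
            exact Finset.sum_congr rfl fun k _ => by ring
        _ = ∑ n, ∑ k, mH g n j * g k l * cM k n i := by
            refine Finset.sum_congr rfl fun n _ => ?_
            rw [Finset.sum_comm]
            refine Finset.sum_congr rfl fun k _ => ?_
            rw [← Finset.mul_sum, this]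
        _ = _ := by
            rw [Finset.sum_comm]
            refine Finset.sum_congr rfl fun k _ => ?_
            rw [Finset.mul_sum]
            exact Finset.sum_congr rfl fun n _ => by ring
    have h4 : ∑ n, ∑ p, mH g n j * g i p * mulM (mH g) (cM l) n p =
        ∑ p, g i p * cM l j p := by
      rw [Finset.sum_comm]
      refine Finset.sum_congr rfl fun p _ => ?_
      have : ∀ n, mH g n j * g i p * mulM (mH g) (cM l) n p =
          ∑ q, g i p * cM l q p * (mH g n j * mH g n q) := by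
        intro n
        simp only [mulM, Finset.mul_sum]
        exact Finset.sum_congr rfl fun q _ => by ring
      simp only [this]
      rw [Finset.sum_comm]
      simp only [← Finset.mul_sum, hm]
      simp
    rw [← h3, h2, h4]
  have := key j i
  simp only [mulM, cMt]
  simp only [cM] at this
  simp only [neg_mul, mul_neg, Finset.sum_neg_distrib]
  rw [this]

theorem intertwines_D (R : Rep W) : Intertwines R.tn.tn R.hq (CC cM) :=
  intertwines_CC (a := fun g => g) (b := mH) (R := R) (fun _ _ => rfl) (fun _ _ => rfl)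
    fun _ hg l i j => cM_equiv hg l i j

theorem intertwines_D' (R : Rep W) : Intertwines R.hq.tn R.tn (CC cMt) :=
  intertwines_CC (a := mH) (b := fun g => g) (R := R) (fun _ _ => rfl) (fun _ _ => rfl)
    fun _ hg l i j => cMt_equiv hg l i j

end WZ

variable {E : Type} [NormedAddCommGroup E] [NormedSpace ℝ E] [FiniteDimensional ℝ E]
  {M : Type} [TopologicalSpace M] [ChartedSpace E M] [IsManifold 𝓘(ℝ, E) ∞ M] [T2Space M]
  [RiemannianBundle fun p : M => TangentSpace 𝓘(ℝ, E) p]
  [IsContMDiffRiemannianBundle 𝓘(ℝ, E) ∞ E fun p : M => TangentSpace 𝓘(ℝ, E) p]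

variable (cov : CovariantDerivative 𝓘(ℝ, E) E (TangentSpace 𝓘(ℝ, E) : M → Type))
  (om : Form4 E M)

theorem mapS_add {W' : Type} [NormedAddCommGroup W'] [InnerProductSpace ℝ W'] (C : W →L[ℝ] W')
    (u v : PreS E M W) : mapS C (u + v) = mapS C u + mapS C v := by
  funext p f; exact map_add C _ _

theorem mapS_smul {W' : Type} [NormedAddCommGroup W'] [InnerProductSpace ℝ W'] (C : W →L[ℝ] W')
    (c : ℝ) (u : PreS E M W) : mapS C (c • u) = c • mapS C u := by
  funext p f; exact map_smul C _ _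

theorem wz1 : WZ1Stmt cov om := by
  intro hg W _ _ _ R
  have h4 := (sc4 (cov := cov) (om := om) hg (Tn W) R.tn)
  have h4' := (sc4 (cov := cov) (om := om) hg (Tn W) R.hq)
  have h2 := sc2_of cov om sc0 (sc1 cov om) hg (Tn W)
  have h3 := sc3_of (cov := cov) (om := om) (sc1 cov om) hg (Tn (Tn W)) (Tn W)
  refine ⟨fun u hu => ?_, fun v hv => ?_, fun u hu v hv => ?_, fun c u hu => ?_,
    fun u hu v hv => ?_, fun c u hu => ?_⟩
  · exact (h3 R.tn.tn R.hq (CC cM) (WZ.intertwines_D R) _ (h2 R.tn R.tn.tn R.tn.tens_tn u hu)).1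
  · exact (h3 R.hq.tn R.tn (CC cMt) (WZ.intertwines_D' R) _ (h2 R.hq R.hq.tn R.hq.tens_tn v hv)).1
  · unfold Dop; rw [h4.1 u hu v hv, mapS_add]
  · unfold Dop; rw [h4.2.1 c u hu, mapS_smul]
  · unfold Dad; rw [h4'.1 u hu v hv, mapS_add]
  · unfold Dad; rw [h4'.2.1 c u hu, mapS_smul]

namespace WZ

/-- transpose of `CC m` -/
def CT (m : Fin 4 → Mat4) : Tn W →L[ℝ] Tn (Tn W) :=
  ((PiLp.continuousLinearEquiv 2 ℝ fun _ : Fin 4 => Tn W).symm :
      (Fin 4 → Tn W) →L[ℝ] Tn (Tn W)).comp
    (ContinuousLinearMap.pi fun k => tnMap (trM (m k)) (ContinuousLinearMap.id ℝ W))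

theorem CT_apply (m : Fin 4 → Mat4) (v : Tn W) (k : Fin 4) :
    CT m v k = tnMap (trM (m k)) (ContinuousLinearMap.id ℝ W) v := rfl

theorem CT_apply' (m : Fin 4 → Mat4) (v : Tn W) (k j : Fin 4) :
    CT m v k j = ∑ i, m k i j • v i := by
  rw [CT_apply, tnMap_apply]; rfl

theorem inner_CC (m : Fin 4 → Mat4) (η : Tn (Tn W)) (v : Tn W) :
    ⟪CC m η, v⟫ = ⟪η, CT m v⟫ := by
  rw [PiLp.inner_apply, PiLp.inner_apply]
  simp only [PiLp.inner_apply, CC_apply, CT_apply', sum_inner, inner_sum, real_inner_smul_left,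
    real_inner_smul_right]
  rw [Finset.sum_comm]
  refine Finset.sum_congr rfl fun k _ => ?_
  rw [Finset.sum_comm]

theorem intertwines_CT (R : Rep W) : Intertwines R.hq R.tn.tn (CT cM) := by
  intro g hg v
  refine tn_ext fun k => tn_ext fun j => ?_
  rw [CT_apply', Rep.tn_ρ, tnMap_apply, tn_sum_apply]
  have e1 : ∀ i, R.hq.ρ g v i = ∑ n, mH g i n • R.ρ g (v n) := by
    intro i; rw [Rep.hq_ρ, tnMap_apply]
  have e2 : ∀ l, (g k l • R.tn.ρ g (CT cM v l)) j =
      ∑ n, (g k l * mulM g (trM (cM l)) j n) • R.ρ g (v n) := by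
    intro l
    rw [PiLp.smul_apply, Rep.tn_ρ, tnMap_apply]
    have : ∀ i, R.ρ g (CT cM v l i) = ∑ n, cM l n i • R.ρ g (v n) := by
      intro i; rw [CT_apply', map_sum]; exact Finset.sum_congr rfl fun n _ => map_smul _ _ _
    simp only [this, Finset.smul_sum, smul_smul]
    rw [Finset.sum_comm]
    refine Finset.sum_congr rfl fun n _ => ?_
    rw [← Finset.sum_smul]
    congr 1
    simp only [mulM, trM, Finset.mul_sum]
  simp only [e1, e2, Finset.smul_sum, smul_smul]
  rw [Finset.sum_comm]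
  conv_rhs => rw [Finset.sum_comm]
  refine Finset.sum_congr rfl fun n _ => ?_
  rw [← Finset.sum_smul, ← Finset.sum_smul]
  congr 1
  have h1 : ∀ l, ∑ k, g k l * mulM (cMt k) (mH g) j n = mulM g (cMt l) j n :=
    fun l => cMt_equiv hg l j n
  have h2 : ∑ l, g k l * ∑ k', g k' l * mulM (cMt k') (mH g) j n =
      ∑ l, g k l * mulM g (cMt l) j n := by simp only [h1]
  have h3 : ∑ l, g k l * ∑ k', g k' l * mulM (cMt k') (mH g) j n = mulM (cMt k) (mH g) j n := by
    simp only [Finset.mul_sum]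
    rw [Finset.sum_comm]
    have : ∀ k', ∑ l, g k l * (g k' l * mulM (cMt k') (mH g) j n) =
        (if k = k' then 1 else 0) * mulM (cMt k') (mH g) j n := by
      intro k'
      rw [← hg.row k k', Finset.sum_mul]
      exact Finset.sum_congr rfl fun l _ => by ring
    simp only [this]
    simp
  rw [h3] at h2
  have h4 : mulM (cMt k) (mH g) j n = - ∑ i, cM k i j * mH g i n := by
    simp only [mulM, cMt, cM, neg_mul, Finset.sum_neg_distrib]
  have h5 : ∀ l, mulM g (cMt l) j n = - mulM g (trM (cM l)) j n := by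
    intro l
    simp only [mulM, cMt, cM, trM, mul_neg, Finset.sum_neg_distrib]
  rw [h4] at h2
  simp only [h5, mul_neg, Finset.sum_neg_distrib] at h2
  linarith

end WZ

theorem wz2 [MeasurableSpace M] [BorelSpace M] [CompactSpace M] (μ : Measure M) :
    WZ2Stmt cov om μ := by
  intro hg hfin hdiv W _ _ _ R fr hfr u hu v hv
  have h6 := (sc6 cov om μ hg hfin hdiv (Tn W) R.tn R.tn.tn R.tn.tens_tn fr hfr).1
  have h3 := sc3_of (cov := cov) (om := om) (sc1 cov om) hg (Tn W) (Tn (Tn W)) R.hq R.tn.tn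
    (WZ.CT cM) (WZ.intertwines_CT R) v hv
  have h7 := h6 u hu _ h3.1
  have e1 : ∀ p, ⟪Dop cov om u p (fr p), v p (fr p)⟫ =
      ⟪nabS cov om u p (fr p), mapS (WZ.CT cM) v p (fr p)⟫ := fun p => WZ.inner_CC _ _ _
  simp only [e1]
  rw [h7, ← integral_neg]
  refine integral_congr_ae (Filter.Eventually.of_forall fun p => ?_)
  show -⟪u p (fr p), ∑ k, (nabS cov om (mapS (WZ.CT cM) v) p (fr p)) k k⟫ = _
  rw [h3.2.1, ← inner_neg_right]
  congr 1
  refine tn_ext fun j => ?_
  show (-∑ k, (tnC (WZ.CT cM) (nabS cov om v p (fr p)) : Tn (Tn (Tn W))) k k) j =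
    CC cMt (nabS cov om v p (fr p)) j
  rw [WZ.CC_apply, PiLp.neg_apply, WZ.tn_sum_apply, ← Finset.sum_neg_distrib]
  refine Finset.sum_congr rfl fun k _ => ?_
  rw [SC3.tnC_apply, WZ.CT_apply', ← Finset.sum_neg_distrib]
  refine Finset.sum_congr rfl fun i _ => ?_
  rw [← neg_smul]
  rfl

end

end Vale.Agent.P211.HK
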